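import Crest.Agent.R68.Def

/-!
# R68 (S0091): basic API of the collision operators (measurability, bilinearity, monotonicity)
-/

set_option autoImplicit false

namespace Crest.Agent.R68

open MeasureTheory Set Filter Crest.AnalysisR.VecCalc3 Crest.AnalysisR.PDE.Boltzmann
open scoped ENNReal _root_.Topology

noncomputable section

instance : IsFiniteMeasure sphereMeasure := by
  unfold sphereMeasure
  infer_instance

/-- `sphereMeasure` is the push-forward of a measure on the unit sphere. -/
theorem ae_sphere : ∀ᵐ ω ∂sphereMeasure, ‖ω‖ = 1 := by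
  refine (ae_map_iff measurable_subtype_coe.aemeasurable
    (measurableSet_eq_fun measurable_norm measurable_const)).2 (ae_of_all _ fun ω => ?_)
  simp

/-- total mass `4π` (`Measure.toSphere_apply_univ`, volume of the unit ball `4π/3`:
`EuclideanSpace.volume_ball_fin_three` or `InnerProductSpace.volume_ball`). -/
theorem sphere_univ : sphereMeasure univ = ENNReal.ofReal (4 * Real.pi) := by
  rw [sphereMeasure, Measure.map_apply measurable_subtype_coe MeasurableSet.univ, preimage_univ,
    Measure.toSphere_apply_univ, EuclideanSpace.volume_ball_fin_three, finrank_euclideanSpace_fin,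
    ENNReal.ofReal_one, one_pow, one_mul, ← ENNReal.ofReal_natCast,
    ← ENNReal.ofReal_mul (Nat.cast_nonneg _)]
  congr 1
  push_cast
  ring

/-- polar coordinates, from `measurePreserving_homeomorphUnitSphereProd`
(`volumeIoiPow 2` has density `r ^ 2`). -/
theorem lintegral_polar (Φ : R3 → ℝ≥0∞) (hΦ : Measurable Φ) :
    ∫⁻ p, Φ p = ∫⁻ ω, (∫⁻ r in Ioi (0 : ℝ), ENNReal.ofReal (r ^ 2) * Φ (r • ω)) ∂sphereMeasure := by
  have hm : Measurable fun q : Metric.sphere (0 : R3) 1 × Ioi (0 : ℝ) => Φ (q.2.1 • q.1.1) :=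
    hΦ.comp (by fun_prop)
  have h1 := (volume : Measure R3).measurePreserving_homeomorphUnitSphereProd.lintegral_comp hm
  have h2 : ∀ x : ({0}ᶜ : Set R3), ((homeomorphUnitSphereProd R3 x).2.1 •
      (homeomorphUnitSphereProd R3 x).1.1 : R3) = x.1 := fun x => by
    have hx : ‖x.1‖ ≠ 0 := norm_ne_zero_iff.2 x.2
    simp [smul_smul, hx]
  simp only [h2] at h1
  rw [lintegral_subtype_comap (measurableSet_singleton _).compl, restrict_compl_singleton,
    lintegral_prod _ hm.aemeasurable, finrank_euclideanSpace_fin] at h1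
  rw [h1, sphereMeasure, lintegral_map _ measurable_subtype_coe]
  · refine lintegral_congr fun ω => ?_
    exact (lintegral_withDensity_eq_lintegral_mul _ (by fun_prop)
      (g := fun r : Ioi (0 : ℝ) => Φ (r.1 • ω.1)) (hΦ.comp (by fun_prop))).trans
      (lintegral_subtype_comap measurableSet_Ioi fun r : ℝ => ENNReal.ofReal (r ^ 2) * Φ (r • ω.1))
  · exact Measurable.lintegral_prod_right
      (f := fun (ω : R3) (r : ℝ) => ENNReal.ofReal (r ^ 2) * Φ (r • ω))
      (Measurable.mul (by fun_prop) (hΦ.comp (by fun_prop)))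

theorem measurable_Bk : Measurable fun p : R3 × R3 => Bk p.1 p.2 := by
  exact ENNReal.measurable_ofReal.comp (continuous_fst.inner continuous_snd).abs.measurable

theorem continuous_postVel : Continuous fun p : R3 × R3 × R3 => postVel p.1 p.2.1 p.2.2 := by
  unfold postVel
  fun_prop

theorem continuous_postVelStar :
    Continuous fun p : R3 × R3 × R3 => postVelStar p.1 p.2.1 p.2.2 := by
  unfold postVelStar
  fun_prop

theorem measurable_Nn : Measurable Nn := by
  exact Measurable.lintegral_prod_right (f := Bk) measurable_Bk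

theorem measurable_br : Measurable br := by
  unfold br
  fun_prop

theorem measurable_Gs : Measurable fun p : ℝ × R3 => Gs p.1 p.2 := by
  unfold Gs
  fun_prop

theorem measurable_Mx : Measurable Mx := by
  unfold Mx maxwellian
  fun_prop

theorem measurable_kk : Measurable kk := by
  exact (measurable_norm.ennreal_ofReal.inv).mul (measurable_Gs.comp measurable_prodMk_left)

theorem measurable_att : Measurable att := by
  exact EReal.measurable_exp.comp measurable_coe_ennreal_ereal.neg

theorem measurable_Qp {α : Type*} [MeasurableSpace α] {f g : α → VF} {w : α → R3}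
    (hf : Measurable fun p : α × R3 => f p.1 p.2) (hg : Measurable fun p : α × R3 => g p.1 p.2)
    (hw : Measurable w) : Measurable fun a => Qp (f a) (g a) (w a) := by
  have h0 : Measurable fun q : (α × R3) × R3 => (w q.1.1, q.1.2, q.2) := by fun_prop
  refine Measurable.lintegral_prod_right' (f := fun p : α × R3 => ∫⁻ ω, Bk (w p.1 - p.2) ω *
    (f p.1 (postVel (w p.1) p.2 ω) * g p.1 (postVelStar (w p.1) p.2 ω)) ∂sphereMeasure)
    (Measurable.lintegral_prod_right' (f := fun q : (α × R3) × R3 => Bk (w q.1.1 - q.1.2) q.2 *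
      (f q.1.1 (postVel (w q.1.1) q.1.2 q.2) * g q.1.1 (postVelStar (w q.1.1) q.1.2 q.2))) ?_)
  exact (measurable_Bk.comp (f := fun q : (α × R3) × R3 => (w q.1.1 - q.1.2, q.2)) (by fun_prop)).mul
    ((hf.comp (measurable_fst.fst.prodMk (continuous_postVel.measurable.comp h0))).mul
      (hg.comp (measurable_fst.fst.prodMk (continuous_postVelStar.measurable.comp h0))))

theorem measurable_Nu {α : Type*} [MeasurableSpace α] {f : α → VF} {w : α → R3}
    (hf : Measurable fun p : α × R3 => f p.1 p.2) (hw : Measurable w) :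
    Measurable fun a => Nu (f a) (w a) := by
  exact Measurable.lintegral_prod_right' (f := fun p : α × R3 => Nn (w p.1 - p.2) * f p.1 p.2)
    ((measurable_Nn.comp (by fun_prop)).mul hf)

theorem measurable_As {α : Type*} [MeasurableSpace α] {f : α → VF} {w : α → R3}
    (hf : Measurable fun p : α × R3 => f p.1 p.2) (hw : Measurable w) :
    Measurable fun a => As (f a) (w a) := by
  exact Measurable.lintegral_prod_right'
    (f := fun p : α × R3 => f p.1 p.2 * (ENNReal.ofReal ‖w p.1 - p.2‖)⁻¹) (hf.mul (by fun_prop))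

/-- `Hz` is jointly measurable in all its arguments (write the set integral as the integral of an
indicator of the measurable set `{s < τ < t}`). -/
theorem measurable_Hz {α : Type*} [MeasurableSpace α] {F : PF} (hF : Meas F) {y v : α → R3}
    {s t : α → ℝ} (hy : Measurable y) (hv : Measurable v) (hs : Measurable s) (ht : Measurable t) :
    Measurable fun a => Hz F (y a) (v a) (s a) (t a) := by
  have h1 : Measurable fun p : α × ℝ => Nu (F p.2 (y p.1 + p.2 • v p.1)) (v p.1) :=
    measurable_Nu (f := fun p : α × ℝ => F p.2 (y p.1 + p.2 • v p.1))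
      (hF.comp (f := fun q : (α × ℝ) × R3 => (q.1.2, y q.1.1 + q.1.2 • v q.1.1, q.2)) (by fun_prop))
      (hv.comp measurable_fst)
  have h2 : MeasurableSet {p : α × ℝ | s p.1 < p.2 ∧ p.2 < t p.1} :=
    (measurableSet_lt (hs.comp measurable_fst) measurable_snd).inter
      (measurableSet_lt measurable_snd (ht.comp measurable_fst))
  have h3 := (h1.indicator h2).lintegral_prod_right' (ν := volume)
  convert h3 using 2 with a
  rw [Hz, ← lintegral_indicator measurableSet_Ioo]
  rfl

theorem Meas.slice {F : PF} (hF : Meas F) (t : ℝ) (x : R3) : Measurable (F t x) := by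
  exact hF.comp (f := fun v : R3 => (t, x, v)) (by fun_prop)

theorem Meas.sliceX {F : PF} (hF : Meas F) (t : ℝ) : MeasX (F t) := by
  exact hF.comp (f := fun p : R3 × R3 => (t, p)) (by fun_prop)

theorem Meas.clamp {lo hi F : PF} (hl : Meas lo) (hh : Meas hi) (hF : Meas F) :
    Meas (clamp lo hi F) := by
  exact (Measurable.inf hF hh).sup hl

theorem Per.clamp {lo hi F : PF} (hl : Per lo) (hh : Per hi) (hF : Per F) :
    Per (clamp lo hi F) := by
  intro t v x i
  have h1 := hl t v x i
  have h2 := hh t v x i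
  have h3 := hF t v x i
  simp only [R68.clamp] at *
  rw [h1, h2, h3]

theorem Meas.Qp {F G : PF} (hF : Meas F) (hG : Meas G) :
    Meas fun t x v => Qp (F t x) (G t x) v := by
  exact measurable_Qp (f := fun p : ℝ × R3 × R3 => F p.1 p.2.1) (g := fun p => G p.1 p.2.1)
    (hF.comp (f := fun q : (ℝ × R3 × R3) × R3 => (q.1.1, q.1.2.1, q.2)) (by fun_prop))
    (hG.comp (f := fun q : (ℝ × R3 × R3) × R3 => (q.1.1, q.1.2.1, q.2)) (by fun_prop))
    measurable_snd.snd

theorem Meas.Nu {F : PF} (hF : Meas F) : Meas fun t x v => Nu (F t x) v := by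
  exact measurable_Nu (f := fun p : ℝ × R3 × R3 => F p.1 p.2.1)
    (hF.comp (f := fun q : (ℝ × R3 × R3) × R3 => (q.1.1, q.1.2.1, q.2)) (by fun_prop))
    measurable_snd.snd

theorem clamp_le {lo hi F : PF} {t : ℝ} {x v : R3} (h : lo t x v ≤ hi t x v) :
    clamp lo hi F t x v ≤ hi t x v := by
  exact sup_le inf_le_right h

theorem le_clamp (lo hi F : PF) (t : ℝ) (x v : R3) : lo t x v ≤ clamp lo hi F t x v := by
  exact le_sup_right

theorem clamp_eq {lo hi F : PF} {t : ℝ} {x v : R3} (h1 : lo t x v ≤ F t x v)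
    (h2 : F t x v ≤ hi t x v) : clamp lo hi F t x v = F t x v := by
  rw [clamp, inf_eq_left.2 h2, sup_eq_left.2 h1]

theorem Qp_mono {f f' g g' : VF} (hf : ∀ a, f a ≤ f' a) (hg : ∀ a, g a ≤ g' a) (v : R3) :
    Qp f g v ≤ Qp f' g' v := by
  exact lintegral_mono fun a => lintegral_mono fun ω => mul_le_mul' le_rfl (mul_le_mul' (hf _) (hg _))

theorem a0_meas {f g : VF} (hf : Measurable f) (hg : Measurable g) (v : R3) :
    Measurable fun q : R3 × R3 =>
      Bk (v - q.1) q.2 * (f (postVel v q.1 q.2) * g (postVelStar v q.1 q.2)) :=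
  (measurable_Bk.comp (f := fun q : R3 × R3 => (v - q.1, q.2)) (by fun_prop)).mul
    ((hf.comp (continuous_postVel.measurable.comp measurable_prodMk_left)).mul
      (hg.comp (continuous_postVelStar.measurable.comp measurable_prodMk_left)))

theorem a0_Qp {f g : VF} (hf : Measurable f) (hg : Measurable g) (v : R3) :
    Qp f g v = ∫⁻ q : R3 × R3, Bk (v - q.1) q.2 * (f (postVel v q.1 q.2) * g (postVelStar v q.1 q.2))
      ∂(volume.prod sphereMeasure) :=
  (lintegral_prod _ (a0_meas hf hg v).aemeasurable).symm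

/-- pointwise comparison along all collisions (only unit vectors `ω` matter) -/
theorem Qp_le_mul {f f' g g' : VF} (hf' : Measurable f') (hg' : Measurable g') (v : R3) (c : ℝ≥0∞)
    (h : ∀ a ω : R3, ‖ω‖ = 1 → f (postVel v a ω) * g (postVelStar v a ω) ≤
      c * (f' (postVel v a ω) * g' (postVelStar v a ω))) : Qp f g v ≤ c * Qp f' g' v := by
  rw [Qp, Qp, ← lintegral_const_mul c (a0_meas hf' hg' v).lintegral_prod_right']
  refine lintegral_mono fun a => ?_
  rw [← lintegral_const_mul c ((a0_meas hf' hg' v).fun_comp measurable_prodMk_left)]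
  refine lintegral_mono_ae (ae_sphere.mono fun ω hω => ?_)
  exact (mul_le_mul' le_rfl (h a ω hω)).trans_eq (mul_left_comm _ _ _)

theorem Qp_add_left {f f' g : VF} (hf : Measurable f) (hf' : Measurable f') (hg : Measurable g)
    (v : R3) : Qp (fun a => f a + f' a) g v = Qp f g v + Qp f' g v := by
  rw [a0_Qp (hf.fun_add hf') hg, a0_Qp hf hg, a0_Qp hf' hg, ← lintegral_add_left (a0_meas hf hg v)]
  simp only [add_mul, mul_add]

theorem Qp_add_right {f g g' : VF} (hf : Measurable f) (hg : Measurable g) (hg' : Measurable g')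
    (v : R3) : Qp f (fun a => g a + g' a) v = Qp f g v + Qp f g' v := by
  rw [a0_Qp hf (hg.fun_add hg'), a0_Qp hf hg, a0_Qp hf hg', ← lintegral_add_left (a0_meas hf hg v)]
  simp only [mul_add]

theorem Qp_mul_left {f g : VF} (hf : Measurable f) (hg : Measurable g) (c : ℝ≥0∞) (v : R3) :
    Qp (fun a => c * f a) g v = c * Qp f g v := by
  rw [a0_Qp (hf.const_mul c) hg, a0_Qp hf hg, ← lintegral_const_mul c (a0_meas hf hg v)]
  exact lintegral_congr fun q => by ring

theorem Qp_mul_right {f g : VF} (hf : Measurable f) (hg : Measurable g) (c : ℝ≥0∞) (v : R3) :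
    Qp f (fun a => c * g a) v = c * Qp f g v := by
  rw [a0_Qp hf (hg.const_mul c), a0_Qp hf hg, ← lintegral_const_mul c (a0_meas hf hg v)]
  exact lintegral_congr fun q => by ring

theorem Qp_zero_left (g : VF) (v : R3) : Qp (fun _ => 0) g v = 0 := by
  simp [Qp]

theorem Qp_zero_right (f : VF) (v : R3) : Qp f (fun _ => 0) v = 0 := by
  simp [Qp]

theorem Nu_mono {f f' : VF} (hf : ∀ a, f a ≤ f' a) (v : R3) : Nu f v ≤ Nu f' v := by
  exact lintegral_mono fun a => mul_le_mul' le_rfl (hf a)

theorem a0_measN {f : VF} (hf : Measurable f) (v : R3) : Measurable fun a => Nn (v - a) * f a :=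
  (measurable_Nn.comp (measurable_id.const_sub v)).mul hf

theorem Nu_add {f g : VF} (hf : Measurable f) (hg : Measurable g) (v : R3) :
    Nu (fun a => f a + g a) v = Nu f v + Nu g v := by
  rw [Nu, Nu, Nu, ← lintegral_add_left (a0_measN hf v)]
  simp only [mul_add]

theorem Nu_mul {f : VF} (hf : Measurable f) (c : ℝ≥0∞) (v : R3) :
    Nu (fun a => c * f a) v = c * Nu f v := by
  rw [Nu, Nu, ← lintegral_const_mul c (a0_measN hf v)]
  exact lintegral_congr fun a => mul_left_comm _ _ _

theorem As_mono {f f' : VF} (hf : ∀ a, f a ≤ f' a) (v : R3) : As f v ≤ As f' v := by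
  exact lintegral_mono fun a => mul_le_mul' (hf a) le_rfl

theorem As_add {f g : VF} (hf : Measurable f) (hg : Measurable g) (v : R3) :
    As (fun a => f a + g a) v = As f v + As g v := by
  rw [As, As, As, ← lintegral_add_left (hf.fun_mul (by fun_prop))]
  simp only [add_mul]

theorem As_mul {f : VF} (hf : Measurable f) (c : ℝ≥0∞) (v : R3) :
    As (fun a => c * f a) v = c * As f v := by
  rw [As, As, ← lintegral_const_mul c (hf.fun_mul (by fun_prop))]
  simp only [mul_assoc]

theorem Hz_mono {F G : PF} {y v : R3} {s t : ℝ}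
    (h : ∀ τ ∈ Ioo s t, ∀ a, F τ (y + τ • v) a ≤ G τ (y + τ • v) a) :
    Hz F y v s t ≤ Hz G y v s t := by
  exact setLIntegral_mono' measurableSet_Ioo fun τ hτ => Nu_mono (h τ hτ) v

theorem Hz_add (F : PF) (y v : R3) {s t u : ℝ} (h1 : s ≤ t) (h2 : t ≤ u) :
    Hz F y v s u = Hz F y v s t + Hz F y v t u := by
  simp only [Hz, Measure.restrict_congr_set Ioo_ae_eq_Ioc]
  rw [← Ioc_union_Ioc_eq_Ioc h1 h2, lintegral_union measurableSet_Ioc (Ioc_disjoint_Ioc_of_le le_rfl)]

theorem a0_energy (p q ω : R3) (hω : ‖ω‖ = 1) :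
    ‖p - inner ℝ (p - q) ω • ω‖ ^ 2 + ‖q + inner ℝ (p - q) ω • ω‖ ^ 2 = ‖p‖ ^ 2 + ‖q‖ ^ 2 := by
  rw [norm_sub_sq_real, norm_add_sq_real, inner_smul_right, inner_smul_right, norm_smul, hω,
    Real.norm_eq_abs, mul_one, sq_abs, inner_sub_left]
  ring

theorem a0_inner (v a ω : R3) (hω : ‖ω‖ = 1) :
    inner ℝ (postVel v a ω - postVelStar v a ω) ω = -inner ℝ (v - a) ω := by
  simp only [postVel, postVelStar, inner_sub_left, inner_add_left, inner_smul_left,
    real_inner_self_eq_norm_sq, hω, conj_trivial]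
  ring

/-- energy is conserved by a collision -/
theorem coll_energy (v a ω : R3) (hω : ‖ω‖ = 1) :
    ‖postVel v a ω‖ ^ 2 + ‖postVelStar v a ω‖ ^ 2 = ‖v‖ ^ 2 + ‖a‖ ^ 2 := by
  exact a0_energy v a ω hω

/-- energy relative to a point `u`; in particular `‖v - u‖ ≤ ‖v' - u‖ + ‖v*' - u‖`. -/
theorem coll_energy_sub (v a ω u : R3) (hω : ‖ω‖ = 1) :
    ‖postVel v a ω - u‖ ^ 2 + ‖postVelStar v a ω - u‖ ^ 2 = ‖v - u‖ ^ 2 + ‖a - u‖ ^ 2 := by
  rw [← a0_energy (v - u) (a - u) ω hω, sub_sub_sub_cancel_right, postVel, postVelStar,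
    sub_right_comm, add_sub_right_comm]

theorem postVel_invol (v a ω : R3) (hω : ‖ω‖ = 1) :
    postVel (postVel v a ω) (postVelStar v a ω) ω = v := by
  rw [postVel, a0_inner v a ω hω, postVel, neg_smul, sub_neg_eq_add, sub_add_cancel]

theorem postVelStar_invol (v a ω : R3) (hω : ‖ω‖ = 1) :
    postVelStar (postVel v a ω) (postVelStar v a ω) ω = a := by
  rw [postVelStar, a0_inner v a ω hω, postVelStar, neg_smul, add_neg_cancel_right]

theorem Bk_invol (v a ω : R3) (hω : ‖ω‖ = 1) :
    Bk (postVel v a ω - postVelStar v a ω) ω = Bk (v - a) ω := by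
  rw [Bk, a0_inner v a ω hω, abs_neg, Bk]

theorem postVel_swap (v a ω : R3) : postVel a v ω = postVelStar v a ω := by
  rw [postVel, postVelStar, ← neg_sub v a, inner_neg_left, neg_smul, sub_neg_eq_add]

theorem Bk_swap (v a ω : R3) : Bk (a - v) ω = Bk (v - a) ω := by
  rw [Bk, Bk, ← neg_sub, inner_neg_left, abs_neg]

/-- `v' - v ⊥ v*' - v` -/
theorem coll_orth (v a ω : R3) (hω : ‖ω‖ = 1) :
    inner ℝ (postVel v a ω - v) (postVelStar v a ω - v) = 0 := by
  have h : postVelStar v a ω - v = inner ℝ (v - a) ω • ω - (v - a) := by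
    rw [postVelStar]
    abel
  rw [h, postVel, sub_sub_cancel_left, inner_neg_left, inner_smul_left, inner_sub_right,
    inner_smul_right, real_inner_self_eq_norm_sq, hω, real_inner_comm (v - a) ω]
  simp

theorem collGain_eq {F : PF} {t : ℝ} {x : R3} (h : ∀ v, F t x v ≠ ⊤) (v : R3) :
    collGain (tR F) t x v = Qp (F t x) (F t x) v := by
  refine lintegral_congr fun a => lintegral_congr fun ω => ?_
  rw [mul_assoc, ENNReal.ofReal_mul (abs_nonneg _), tR, tR, ENNReal.ofReal_mul ENNReal.toReal_nonneg,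
    ENNReal.ofReal_toReal (h _), ENNReal.ofReal_toReal (h _), Bk]

theorem collLoss_eq {F : PF} {t : ℝ} {x : R3} (hm : Measurable (F t x)) (h : ∀ v, F t x v ≠ ⊤)
    (v : R3) : collLoss (tR F) t x v = Nu (F t x) v * F t x v := by
  rw [Nu, ← lintegral_mul_const' _ _ (h v)]
  refine lintegral_congr fun a => ?_
  rw [Nn, mul_assoc, ← lintegral_mul_const' _ _ (ENNReal.mul_ne_top (h a) (h v))]
  refine lintegral_congr fun ω => ?_
  rw [mul_assoc, ENNReal.ofReal_mul (abs_nonneg _), tR, tR, ENNReal.ofReal_mul ENNReal.toReal_nonneg,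
    ENNReal.ofReal_toReal (h _), ENNReal.ofReal_toReal (h _), Bk, mul_comm (F t x v)]

end

end Crest.Agent.R68
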