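import Crest.Agent.R68.A7

/-!
# R68 (S0091): Carleman representation
-/

set_option autoImplicit false

namespace Crest.Agent.R68

open MeasureTheory Set Filter Crest.AnalysisR.VecCalc3 Crest.AnalysisR.PDE.Boltzmann
open scoped ENNReal _root_.Topology

noncomputable section

theorem a1_ae : ∀ᵐ p : R3, p 2 ≠ 0 := by
  have h := Measure.addHaar_submodule (volume : Measure R3) (LinearMap.ker (EuclideanSpace.projₗ (2 : Fin 3)))
    fun h => by simpa using Submodule.eq_top_iff'.1 h (EuclideanSpace.single 2 (1 : ℝ))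
  simp only [ae_iff, not_not]
  exact h

theorem a1_ae_sphere : ∀ᵐ ω ∂sphereMeasure, ω 2 ≠ 0 := by
  have hm : Measurable fun p : R3 => if p 2 = 0 then (1 : ℝ≥0∞) else 0 :=
    Measurable.ite (measurableSet_eq_fun (by fun_prop) measurable_const) measurable_const measurable_const
  have h1 := lintegral_polar _ hm
  rw [lintegral_congr_ae (a1_ae.mono fun p hp => if_neg hp), lintegral_zero, eq_comm, lintegral_eq_zero_iff
    (Measurable.lintegral_prod_right' (f := fun q : R3 × ℝ =>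
      ENNReal.ofReal (q.2 ^ 2) * if (q.2 • q.1) 2 = 0 then 1 else 0)
      ((by fun_prop : Measurable _).mul (hm.comp (by fun_prop))))] at h1
  refine h1.mono fun ω h h2 => ?_
  simp only [PiLp.smul_apply, h2, smul_zero, if_true, mul_one, Pi.zero_apply] at h
  refine ((setLIntegral_pos_iff (by fun_prop)).2 ?_).ne' h
  refine lt_of_lt_of_le (by simp) (measure_mono (s := Ioi (0 : ℝ)) fun r hr => ⟨?_, hr⟩)
  exact (ENNReal.ofReal_pos.2 (pow_pos hr 2)).ne'

theorem a1_line (Φ : R3 → ℝ≥0∞) (hΦ : Measurable Φ) :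
    ∫⁻ ω, (∫⁻ s : ℝ, ENNReal.ofReal (s ^ 2) * Φ (s • ω)) ∂sphereMeasure = 2 * ∫⁻ p, Φ p := by
  have h1 : ∀ ω : R3, ∫⁻ s : ℝ, ENNReal.ofReal (s ^ 2) * Φ (s • ω) =
      (∫⁻ s in Ioi (0 : ℝ), ENNReal.ofReal (s ^ 2) * Φ (s • ω)) +
        ∫⁻ s in Ioi (0 : ℝ), ENNReal.ofReal (s ^ 2) * Φ (-(s • ω)) := fun ω => by
    rw [← lintegral_add_compl _ (measurableSet_Ioi (a := (0 : ℝ))), compl_Ioi,
      ← setLIntegral_congr Iio_ae_eq_Iic, ← lintegral_indicator measurableSet_Iio,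
      ← lintegral_neg_eq_self (f := indicator _ _), ← lintegral_indicator (s := Ioi (0 : ℝ)) measurableSet_Ioi
        fun s => _ * Φ (-(s • ω))]
    congr 2
    ext s
    by_cases h : 0 < s <;> simp [h]
  rw [lintegral_congr h1, lintegral_add_left (Measurable.lintegral_prod_right'
    (f := fun q : R3 × ℝ => ENNReal.ofReal (q.2 ^ 2) * Φ (q.2 • q.1)) (by fun_prop)), ← lintegral_polar Φ hΦ,
    ← lintegral_polar (fun p => Φ (-p)) (by fun_prop), lintegral_neg_eq_self, two_mul]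

theorem a1_norm (p : R3) : ‖p‖ ^ 2 = p 0 ^ 2 + p 1 ^ 2 + p 2 ^ 2 := by
  simp [EuclideanSpace.real_norm_sq_eq, Fin.sum_univ_three]

theorem a1_orth {p : R3} (hp : p 2 ≠ 0) (ζ : ℂ) : inner ℝ (gz p ζ) p = 0 := by
  have h := inner_mk3 ζ (pr p) (-(p 0 * ζ.re + p 1 * ζ.im) / p 2) (p 2)
  rw [mk3_pr, div_mul_cancel₀ _ hp] at h
  rw [gz, h, pr]
  ring

theorem a1_slab {ω : R3} (h1 : ‖ω‖ = 1) (h2 : ω 2 ≠ 0) {Ψ : R3 → ℝ≥0∞} (hΨ : Measurable Ψ) :
    ∫⁻ w, Ψ w = (ENNReal.ofReal |ω 2|)⁻¹ * ∫⁻ s : ℝ, ∫⁻ ζ : ℂ, Ψ (gz ω ζ + s • ω) := by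
  have h3 := a1_norm ω
  have hk := continuous_mk3.measurable
  have h4 : ∀ s : ℝ, ∫⁻ ζ : ℂ, Ψ (gz ω ζ + s • ω) =
      ∫⁻ z : ℂ, Ψ (mk3 z (-(ω 0 * z.re + ω 1 * z.im) / ω 2 + (ω 2)⁻¹ * s)) := fun s => by
    rw [← lintegral_sub_right_eq_self _ (s • pr ω)]
    refine lintegral_congr fun z => congrArg Ψ ?_
    rw [h1] at h3
    ext i
    fin_cases i
    · simp [gz, mk3, pr]
    · simp [gz, mk3, pr]
    · simp only [gz, mk3, pr]
      simp
      field_simp
      linear_combination (-s) * h3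
  rw [lintegral_congr h4, lintegral_lintegral_swap (by exact (hΨ.comp (hk.comp (f := fun q : ℝ × ℂ =>
    (q.2, -(ω 0 * q.2.re + ω 1 * q.2.im) / ω 2 + (ω 2)⁻¹ * q.1)) (by fun_prop))).aemeasurable),
    lintegral_mk3 Ψ hΨ, ← lintegral_const_mul' _ _ (by simpa using h2)]
  refine lintegral_congr fun z => ?_
  have h5 : Measurable fun t : ℝ => Ψ (mk3 z (-(ω 0 * z.re + ω 1 * z.im) / ω 2 + t)) :=
    hΨ.comp (hk.comp (f := fun t : ℝ => (z, _ + t)) (by fun_prop))
  rw [← lintegral_map h5 (measurable_const_mul _), Real.map_volume_mul_left (inv_ne_zero h2), inv_inv,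
    lintegral_smul_measure, smul_eq_mul, ← mul_assoc, ENNReal.inv_mul_cancel (by simpa using h2) (by simp),
    one_mul, lintegral_add_left_eq_self fun t => Ψ (mk3 z t)]

theorem a1_gz_smul {s : ℝ} (hs : s ≠ 0) (p : R3) (ζ : ℂ) : gz (s • p) ζ = gz p ζ := by
  simp only [gz, PiLp.smul_apply, smul_eq_mul, mul_assoc, ← mul_add, ← mul_neg, mul_div_mul_left _ _ hs]

theorem a1_meas {f g : VF} (hf : Measurable f) (hg : Measurable g) (v : R3) : Measurable fun p : R3 =>
    (ENNReal.ofReal |p 2|)⁻¹ * (f (v + p) * ∫⁻ ζ : ℂ, g (v + gz p ζ)) :=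
  Measurable.mul (by fun_prop) (Measurable.mul (hf.comp (measurable_const_add v))
    (Measurable.lintegral_prod_right' (f := fun q : R3 × ℂ => g (v + gz q.1 q.2))
      (hg.comp (measurable_gz.const_add v))))

/-- Carleman representation in graph form.  Proof: translate `a = v + w`; then
`v' = v + ⟪w,ω⟫ω`, `v*' = v + w - ⟪w,ω⟫ω`, `Bk = |⟪w,ω⟫|`.  Swap the integrals (Tonelli).  For a
unit `ω` with `ω 2 ≠ 0` (almost all `ω`: `lintegral_polar` applied to the indicator of the null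
plane) the linear map `(ζ, s) ↦ gz ω ζ + s • ω`, `ℂ × ℝ → R3`, composed with `mk3⁻¹` has
determinant `± 1 / ω 2` (`Real.map_linearMap_volume_pi_eq_smul_volume_pi` /
`Measure.map_linearMap_addHaar_eq_smul_addHaar`; or do it by hand with `lintegral_mk3`: for
fixed `s`-slices it is a shear), and `⟪gz ω ζ, ω⟫ = 0`.  So
`Qp = ∫ dω ∫ ds |s| |ω 2|⁻¹ f (v + sω) ∫ dζ g (v + gz ω ζ)`; `gz (s • ω) ζ = gz ω ζ` for `s ≠ 0`.
Split `s > 0`, `s < 0`; with `Φ p = |p 2|⁻¹ f (v+p) ∫ g (v + gz p ζ)` the two halves are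
`∫ Φ p` and `∫ Φ (-p)` by `lintegral_polar`, both equal. -/
theorem Qp_carleman {f g : VF} (hf : Measurable f) (hg : Measurable g) (v : R3) :
    Qp f g v = 2 * ∫⁻ p : R3, (ENNReal.ofReal |p 2|)⁻¹ * (f (v + p) * ∫⁻ ζ : ℂ, g (v + gz p ζ)) := by
  have hz := measurable_gz
  have hB := measurable_Bk
  have h1 := continuous_postVel.measurable
  have h2 := continuous_postVelStar.measurable
  have hm : Measurable fun q : R3 × R3 =>
      Bk (v - q.1) q.2 * (f (postVel v q.1 q.2) * g (postVelStar v q.1 q.2)) :=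
    (hB.comp (f := fun q : R3 × R3 => (v - q.1, q.2)) (by fun_prop)).mul
      ((hf.comp (h1.comp (f := fun q : R3 × R3 => (v, q)) (by fun_prop))).mul
        (hg.comp (h2.comp (f := fun q : R3 × R3 => (v, q)) (by fun_prop))))
  have hG : Measurable fun q : R3 × ℂ => g (v + gz q.1 q.2) := hg.comp (hz.const_add v)
  rw [Qp, lintegral_lintegral_swap hm.aemeasurable, ← a1_line _ (a1_meas hf hg v)]
  refine lintegral_congr_ae ((ae_sphere.and a1_ae_sphere).mono fun ω h => ?_)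
  simp only
  rw [← lintegral_add_left_eq_self _ v, a1_slab h.1 h.2
    (by exact hm.comp (f := fun w : R3 => (v + w, ω)) (by fun_prop)),
    ← lintegral_const_mul' _ _ (by simpa using h.2)]
  refine lintegral_congr_ae ((Measure.ae_ne volume 0).mono fun s hs => ?_)
  have h3 : ∀ ζ, inner ℝ (v - (v + (gz ω ζ + s • ω))) ω = -s := fun ζ => by
    rw [sub_add_cancel_left, inner_neg_left, inner_add_left, a1_orth h.2, real_inner_smul_left,
      real_inner_self_eq_norm_sq, h.1]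
    ring
  have h4 : 0 < |s| := abs_pos.2 hs
  simp only [Bk, postVel, postVelStar, h3, a1_gz_smul hs, abs_neg, neg_smul, sub_neg_eq_add,
    add_assoc, add_neg_cancel, add_zero, PiLp.smul_apply, smul_eq_mul, abs_mul]
  rw [lintegral_const_mul' _ _ ENNReal.ofReal_ne_top, lintegral_const_mul _
    (by exact hG.comp (measurable_prodMk_left (x := ω))),
    ← sq_abs, sq, ENNReal.ofReal_mul h4.le, ENNReal.ofReal_mul h4.le,
    ENNReal.mul_inv (by simp [hs]) (by simp), ← mul_assoc, ← mul_assoc, ← mul_assoc, ← mul_assoc, ← mul_assoc,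
    ENNReal.mul_inv_cancel_right (by simp [hs]) (by simp), mul_comm (ENNReal.ofReal |s|)]

/-- One-dimensional inversion: `∫ |s|⁻¹ Φ(s, -c/s) ds = ∫ |s|⁻¹ Φ(-c/s, s) ds` for `c ≠ 0`
(`lintegral_image_eq_lintegral_abs_deriv_mul` on `{0}ᶜ` for `s ↦ -c/s`). -/
theorem lintegral_inversion (Φ : ℝ → ℝ → ℝ≥0∞) {c : ℝ} (hc : c ≠ 0) :
    ∫⁻ s : ℝ, (ENNReal.ofReal |s|)⁻¹ * Φ s (-c / s) =
      ∫⁻ s : ℝ, (ENNReal.ofReal |s|)⁻¹ * Φ (-c / s) s := by
  have h1 : (fun s : ℝ => -c / s) '' {0}ᶜ = {0}ᶜ := by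
    ext t
    refine ⟨?_, fun ht => ⟨-c / t, div_ne_zero (neg_ne_zero.2 hc) ht, by
      have : t ≠ 0 := ht
      simp only
      field_simp⟩⟩
    rintro ⟨s, hs, rfl⟩
    exact div_ne_zero (neg_ne_zero.2 hc) hs
  have h2 := lintegral_image_eq_lintegral_abs_deriv_mul (f := fun s : ℝ => -c / s) (f' := fun s => c / s ^ 2)
    (measurableSet_singleton 0).compl (fun s (hs : s ≠ 0) => by
      simpa [div_eq_mul_inv] using ((hasDerivAt_inv hs).const_mul (-c)).hasDerivWithinAt) (fun s hs t ht h => inv_injective (mul_left_cancel₀ (neg_ne_zero.2 hc) h))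
    fun s => (ENNReal.ofReal |s|)⁻¹ * Φ s (-c / s)
  rw [h1, restrict_compl_singleton] at h2
  refine h2.trans (lintegral_congr_ae ((Measure.ae_ne volume 0).mono fun s hs => ?_))
  have h3 := abs_pos.2 hs
  have h4 := abs_pos.2 hc
  simp only
  rw [← mul_assoc, ← ENNReal.ofReal_inv_of_pos (abs_pos.2 (div_ne_zero (neg_ne_zero.2 hc) hs)),
    ← ENNReal.ofReal_mul (abs_nonneg _), ← ENNReal.ofReal_inv_of_pos h3, show -c / (-c / s) = s by field_simp,
    abs_div, abs_div, abs_neg, abs_pow]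
  congr 2
  field_simp

/-- fully split form: `p = mk3 η s`. -/
theorem Qp_split {f g : VF} (hf : Measurable f) (hg : Measurable g) (v : R3) :
    Qp f g v = 2 * ∫⁻ q : ℂ × ℂ, ∫⁻ s : ℝ, (ENNReal.ofReal |s|)⁻¹ *
      (f (v + mk3 q.1 s) * g (v + mk3 q.2 (-(q.1.re * q.2.re + q.1.im * q.2.im) / s))) := by
  have hk := continuous_mk3.measurable
  have hG : Measurable fun q : R3 × ℂ => g (v + gz q.1 q.2) := hg.comp (measurable_gz.const_add v)
  have hm : Measurable fun q : (ℂ × ℂ) × ℝ => (ENNReal.ofReal |q.2|)⁻¹ * (f (v + mk3 q.1.1 q.2) *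
      g (v + mk3 q.1.2 (-(q.1.1.re * q.1.2.re + q.1.1.im * q.1.2.im) / q.2))) :=
    (by fun_prop : Measurable _).mul
      ((hf.comp ((hk.comp (f := fun q : (ℂ × ℂ) × ℝ => (q.1.1, q.2)) (by fun_prop)).const_add v)).mul
        (hg.comp ((hk.comp (f := fun q : (ℂ × ℂ) × ℝ =>
          (q.1.2, -(q.1.1.re * q.1.2.re + q.1.1.im * q.1.2.im) / q.2)) (by fun_prop)).const_add v)))
  rw [Qp_carleman hf hg, lintegral_mk3 _ (a1_meas hf hg v), Measure.volume_eq_prod,
    lintegral_prod _ hm.lintegral_prod_right'.aemeasurable]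
  refine congrArg _ (lintegral_congr fun η => ?_)
  rw [lintegral_lintegral_swap
    (by exact (hm.comp (f := fun q : ℂ × ℝ => ((η, q.1), q.2)) (by fun_prop)).aemeasurable)]
  refine lintegral_congr fun s => ?_
  have h1 : Measurable fun ζ => g (v + gz (mk3 η s) ζ) := hG.comp (measurable_prodMk_left (x := mk3 η s))
  rw [mk3_two, ← lintegral_const_mul _ h1, ← lintegral_const_mul _ (h1.const_mul _)]
  rfl

/-- Symmetry of the hard-sphere gain term: `Qp_split`, `lintegral_inversion` for almost every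
`(η, ζ)` (the set `η · ζ = 0` is null), and the swap `(η, ζ) ↦ (ζ, η)`. -/
theorem Qp_comm {f g : VF} (hf : Measurable f) (hg : Measurable g) (v : R3) :
    Qp f g v = Qp g f v := by
  have h1 : ∀ᵐ q : ℂ × ℂ, q.1.re * q.2.re + q.1.im * q.2.im ≠ 0 := by
    refine (Measure.ae_prod_iff_ae_ae (measurableSet_eq_fun (by fun_prop) measurable_const).compl).2
      ((Measure.ae_ne volume 0).mono fun η hη => ?_)
    have h := Measure.addHaar_submodule (volume : Measure ℂ) (LinearMap.ker (innerₛₗ ℝ η))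
      fun h => hη ((inner_self_eq_zero (𝕜 := ℝ)).1 (Submodule.eq_top_iff'.1 h η))
    rw [ae_iff]
    convert h using 2
    ext ζ
    simp [mul_comm]
  rw [Qp_split hf hg, Qp_split hg hf, Measure.volume_eq_prod, ← lintegral_prod_swap]
  refine congrArg _ (lintegral_congr_ae (h1.mono fun q hq => ?_))
  simp only [Prod.fst_swap, Prod.snd_swap]
  rw [lintegral_inversion (fun s t => g (v + mk3 q.1 s) * f (v + mk3 q.2 t)) hq]
  simp only [mul_comm (g _), mul_comm q.2.re, mul_comm q.2.im]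

/-- For `p 2 ≠ 0` the graph parametrisation of the plane `p ^ ⊥` is a linear reparametrisation of
an isometric one: `ζ ↦ gz p ζ` is linear and injective onto `p ^ ⊥`; take an orthonormal basis
`J` of `p ^ ⊥` (for instance `e₁ = gz p (i p_h)/‖·‖` horizontal and `e₂ = gz p p_h /‖·‖`, or
`J = mk3 · 0` if `p_h = 0`); then `J η = gz p (pr (J η))` and `η ↦ pr (J η)` has determinant of
absolute value `|p 2| / ‖p‖`. -/
theorem exists_plane (p : R3) (hp : p 2 ≠ 0) : ∃ J : ℂ →ₗᵢ[ℝ] R3, (∀ η, inner ℝ (J η) p = 0) ∧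
    ∀ g : VF, Measurable g →
      ∫⁻ ζ : ℂ, g (gz p ζ) = ENNReal.ofReal (|p 2| / ‖p‖) * ∫⁻ η : ℂ, g (J η) := by
  have h1 := a1_norm p
  have h2 := abs_pos.2 hp
  have h3 : 0 < ‖p‖ := h2.trans_le (abs_two_le p)
  let G : ℂ →ₗ[ℝ] R3 :=
    { toFun := gz p
      map_add' := fun a b => by
        simp only [gz, mk3_add, Complex.add_re, Complex.add_im]
        congr 1
        ring
      map_smul' := fun a b => by
        ext i
        fin_cases i <;> simp [gz, mk3]
        ring }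
  rw [← sq_abs (p 2)] at h1
  obtain ⟨c, c1, c2⟩ : ∃ c : ℝ, c * (p 0 ^ 2 + p 1 ^ 2) = 1 - |p 2| / ‖p‖ ∧
      c * (1 + |p 2| / ‖p‖) = (|p 2| / ‖p‖) ^ 2 / |p 2| ^ 2 :=
    ⟨(‖p‖ * (‖p‖ + |p 2|))⁻¹, by field_simp; linarith, by field_simp⟩
  let L : ℂ →ₗ[ℝ] ℂ := LinearMap.id - (c • (p 0 • Complex.reLm + p 1 • Complex.imLm)).smulRight (pr p)
  have h4 : LinearMap.det L = |p 2| / ‖p‖ := by
    rw [← LinearMap.det_toMatrix Complex.basisOneI, Matrix.det_fin_two]
    simp only [LinearMap.toMatrix_apply, L, pr]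
    simp
    linear_combination -c1
  refine ⟨⟨G ∘ₗ L, fun η => ?_⟩, fun η => a1_orth hp _, fun g hg => ?_⟩
  · refine (pow_left_inj₀ (norm_nonneg _) (norm_nonneg _) two_ne_zero).1 ?_
    change ‖gz p (L η)‖ ^ 2 = _
    rw [gz, norm_mk3_sq, div_pow, ← sq_abs (p 2), Complex.sq_norm, Complex.sq_norm, Complex.normSq_apply,
      Complex.normSq_apply]
    have h5 : p 0 * (L η).re + p 1 * (L η).im = (p 0 * η.re + p 1 * η.im) * (|p 2| / ‖p‖) := by
      simp [L, pr]
      linear_combination -(p 0 * η.re + p 1 * η.im) * c1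
    rw [h5, neg_sq, mul_pow, mul_div_assoc, ← c2]
    simp [L, pr]
    linear_combination c * (p 0 * η.re + p 1 * η.im) ^ 2 * c1
  · have h5 : Measurable fun ζ => g (gz p ζ) := hg.comp (measurable_gz.comp measurable_prodMk_left)
    change _ = _ * ∫⁻ η, g (gz p (L η))
    rw [← lintegral_map h5 L.continuous_of_finiteDimensional.measurable,
      Measure.map_linearMap_addHaar_eq_smul_addHaar _ (h4 ▸ (div_pos h2 h3).ne'), lintegral_smul_measure, h4,
      smul_eq_mul, ← mul_assoc, ← ENNReal.ofReal_mul (div_pos h2 h3).le, abs_of_pos (inv_pos.2 (div_pos h2 h3)),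
      mul_inv_cancel₀ (div_pos h2 h3).ne', ENNReal.ofReal_one, one_mul]

/-- plane form of the Carleman bound -/
theorem Qp_le_plane {f g : VF} (hf : Measurable f) (hg : Measurable g) (v : R3) (K : VF)
    (hK : ∀ a, f a ≠ 0 → ∀ J : ℂ →ₗᵢ[ℝ] R3, (∀ η, inner ℝ (J η) (a - v) = 0) →
      ∫⁻ η : ℂ, g (v + J η) ≤ K a) :
    Qp f g v ≤ 2 * ∫⁻ a, f a * (ENNReal.ofReal ‖v - a‖)⁻¹ * K a := by
  rw [Qp_carleman hf hg, ← lintegral_add_left_eq_self (fun a => f a * (ENNReal.ofReal ‖v - a‖)⁻¹ * K a) v]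
  refine mul_le_mul_right (lintegral_mono_ae (a1_ae.mono fun p hp => ?_)) _
  obtain ⟨J, h1, h2⟩ := exists_plane p hp
  have h3 := abs_pos.2 hp
  have h4 : 0 < ‖p‖ := h3.trans_le (abs_two_le p)
  by_cases h : f (v + p) = 0
  · simp [h]
  rw [h2 (fun a => g (v + a)) (hg.comp (measurable_const_add v)), sub_add_cancel_left, norm_neg, ENNReal.ofReal_div_of_pos h4,
    mul_left_comm, mul_assoc (f _), div_eq_mul_inv, mul_assoc, ← mul_assoc _ (ENNReal.ofReal |p 2|),
    ENNReal.inv_mul_cancel (by simpa using hp) (by simp), one_mul]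
  gcongr
  exact hK _ h J (by simpa using h1)

theorem a1_mono {f f' g : VF} (hf : Measurable f) (hf' : Measurable f') (hg : Measurable g)
    (h1 : f ≤ᵐ[volume] f') (v : R3) : Qp f g v ≤ Qp f' g v := by
  rw [Qp_carleman hf hg, Qp_carleman hf' hg]
  refine mul_le_mul_right (lintegral_mono_ae
    (((measurePreserving_add_left volume v).quasiMeasurePreserving.ae h1).mono fun p hp => ?_)) _
  gcongr

theorem a1_mono' {f f' g g' : VF} (hf : Measurable f) (hf' : Measurable f') (hg : Measurable g)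
    (hg' : Measurable g') (h1 : f ≤ᵐ[volume] f') (h2 : g ≤ᵐ[volume] g') (v : R3) :
    Qp f g v ≤ Qp f' g' v :=
  (a1_mono hf hf' hg h1 v).trans ((Qp_comm hf' hg v).trans_le
    ((a1_mono hg hg' hf' h2 v).trans_eq (Qp_comm hg' hf' v)))

/-- the gain term only depends on the classes almost everywhere (`Qp_carleman`, `Qp_comm`) -/
theorem Qp_congr_ae {f f' g g' : VF} (hf : Measurable f) (hf' : Measurable f') (hg : Measurable g)
    (hg' : Measurable g') (h1 : f =ᵐ[volume] f') (h2 : g =ᵐ[volume] g') (v : R3) :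
    Qp f g v = Qp f' g' v := by
  exact le_antisymm (a1_mono' hf hf' hg hg' h1.le h2.le v) (a1_mono' hf' hf hg' hg h1.symm.le h2.symm.le v)

theorem Qp_mono_ae {f f' g g' : VF} (hf : Measurable f) (hf' : Measurable f') (hg : Measurable g)
    (hg' : Measurable g') (h1 : f ≤ᵐ[volume] f') (h2 : g ≤ᵐ[volume] g') (v : R3) :
    Qp f g v ≤ Qp f' g' v := by
  exact a1_mono' hf hf' hg hg' h1 h2 v

end

end Crest.Agent.R68
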