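import Crest.Agent.R68.A7

/-!
# R68 (S0091): integrals over the sphere
-/

set_option autoImplicit false

namespace Crest.Agent.R68

open MeasureTheory Set Filter Crest.AnalysisR.VecCalc3 Crest.AnalysisR.PDE.Boltzmann
open scoped ENNReal _root_.Topology

noncomputable section

theorem a2_pow (k : ℕ) :
    ∫⁻ r in Ioc (0 : ℝ) 1, ENNReal.ofReal (r ^ k) = ENNReal.ofReal (1 / ((k : ℝ) + 1)) := by
  rw [← ofReal_integral_eq_lintegral_ofReal (continuous_pow k).integrableOn_Ioc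
    (ae_restrict_of_forall_mem measurableSet_Ioc fun r hr => pow_nonneg hr.1.le k),
    ← intervalIntegral.integral_of_le zero_le_one, integral_pow]
  simp

/-- polar coordinates for homogeneous functions on the unit ball -/
theorem a2_polar (Φ : R3 → ℝ≥0∞) (hΦ : Measurable Φ) (k : ℕ)
    (h : ∀ r : ℝ, 0 < r → ∀ ω, Φ (r • ω) = ENNReal.ofReal (r ^ k) * Φ ω) :
    ∫⁻ p, (Metric.closedBall (0 : R3) 1).indicator Φ p =
      ENNReal.ofReal (1 / ((k : ℝ) + 3)) * ∫⁻ ω, Φ ω ∂sphereMeasure := by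
  rw [lintegral_polar _ (hΦ.indicator measurableSet_closedBall), ← lintegral_const_mul _ hΦ]
  refine lintegral_congr_ae ?_
  filter_upwards [ae_sphere] with ω hω
  have h1 := a2_pow (k + 2)
  rw [show ((k + 2 : ℕ) : ℝ) + 1 = k + 3 by push_cast; ring] at h1
  rw [← h1, ← lintegral_mul_const _ (by fun_prop), ← Ioi_inter_Iic, inter_comm,
    ← Measure.restrict_restrict measurableSet_Iic, ← lintegral_indicator measurableSet_Iic]
  refine setLIntegral_congr_fun measurableSet_Ioi fun r hr => ?_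
  have hr0 : (0 : ℝ) < r := hr
  have h2 : ‖r • ω‖ = r := by rw [norm_smul, hω, mul_one, Real.norm_of_nonneg hr0.le]
  by_cases h3 : r ≤ 1
  · rw [indicator_of_mem (by simpa [h2] using h3), indicator_of_mem (mem_Iic.2 h3), h r hr0,
      ← mul_assoc, ← ENNReal.ofReal_mul (by positivity), ← pow_add, add_comm]
  · rw [indicator_of_notMem (by simpa [h2] using h3), indicator_of_notMem (by simpa using h3),
      mul_zero]

theorem a2_norm_e : ‖mk3 0 1‖ = 1 := by
  have := norm_mk3_sq 0 1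
  rw [norm_zero] at this
  nlinarith [norm_nonneg (mk3 0 1)]

/-- cylindrical coordinates with axis `d` -/
theorem a2_cart {d : R3} (hd : ‖d‖ = 1) : ∃ x : ℂ → R3, Continuous x ∧ (∀ z, ‖x z‖ = ‖z‖) ∧
    (∀ z, inner ℝ d (x z) = 0) ∧ ∀ Φ : R3 → ℝ≥0∞, Measurable Φ →
      ∫⁻ p, Φ p = ∫⁻ z : ℂ, ∫⁻ s : ℝ, Φ (x z + s • d) := by
  obtain ⟨L, hL⟩ : ∃ L : R3 ≃ₗᵢ[ℝ] R3, L (mk3 0 1) = d :=
    ⟨_, Submodule.reflection_sub (a2_norm_e.trans hd.symm)⟩
  refine ⟨fun z => L (mk3 z 0), ?_, fun z => ?_, fun z => ?_, fun Φ hΦ => ?_⟩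
  · exact L.continuous.comp (continuous_mk3.comp (continuous_id.prodMk continuous_const))
  · rw [L.norm_map, norm_mk3_zero]
  · rw [← hL, L.inner_map_map, inner_mk3]
    simp
  · rw [← L.measurePreserving.lintegral_comp hΦ,
      lintegral_mk3 (fun p => Φ (L p)) (hΦ.comp L.continuous.measurable)]
    refine lintegral_congr fun z => lintegral_congr fun s => ?_
    rw [← hL, ← map_smul, ← map_add]
    congr 2
    ext i
    fin_cases i <;> simp [mk3]

theorem a2_norm_add {d y : R3} (hd : ‖d‖ = 1) (h : inner ℝ d y = 0) (s : ℝ) :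
    ‖y + s • d‖ ^ 2 = ‖y‖ ^ 2 + s ^ 2 := by
  rw [norm_add_sq_real, inner_smul_right, real_inner_comm, h, norm_smul, hd, mul_one,
    Real.norm_eq_abs, sq_abs]
  ring

theorem a2_unit (w : R3) : ∃ d : R3, ‖d‖ = 1 ∧ w = ‖w‖ • d := by
  by_cases h : w = 0
  · exact ⟨mk3 0 1, a2_norm_e, by simp [h]⟩
  · have := norm_ne_zero_iff.2 h
    refine ⟨‖w‖⁻¹ • w, by rw [norm_smul, norm_inv, norm_norm, inv_mul_cancel₀ this], ?_⟩
    rw [smul_smul, mul_inv_cancel₀ this, one_smul]

theorem a2_int : ∫ s in (-1 : ℝ)..1, |s| * (1 - s ^ 2) = 1 / 2 := by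
  have hc : Continuous fun s : ℝ => |s| * (1 - s ^ 2) := by fun_prop
  rw [← intervalIntegral.integral_add_adjacent_intervals (b := 0) (hc.intervalIntegrable _ _)
    (hc.intervalIntegrable _ _)]
  have h1 : ∫ s in (-1 : ℝ)..0, |s| * (1 - s ^ 2) = ∫ s in (-1 : ℝ)..0, (s ^ 3 - s ^ 1) := by
    refine intervalIntegral.integral_congr fun s hs => ?_
    rw [uIcc_of_le (by norm_num)] at hs
    simp only [abs_of_nonpos hs.2]
    ring
  have h2 : ∫ s in (0 : ℝ)..1, |s| * (1 - s ^ 2) = ∫ s in (0 : ℝ)..1, (s ^ 1 - s ^ 3) := by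
    refine intervalIntegral.integral_congr fun s hs => ?_
    rw [uIcc_of_le (by norm_num)] at hs
    simp only [abs_of_nonneg hs.1]
    ring
  rw [h1, h2, intervalIntegral.integral_sub ((continuous_pow _).intervalIntegrable _ _)
    ((continuous_pow _).intervalIntegrable _ _),
    intervalIntegral.integral_sub ((continuous_pow _).intervalIntegrable _ _)
    ((continuous_pow _).intervalIntegrable _ _), integral_pow, integral_pow, integral_pow,
    integral_pow]
  norm_num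

theorem a2_disc (r : ℝ) (hr : 0 ≤ r) :
    volume (Metric.closedBall (0 : ℂ) √r) = ENNReal.ofReal (r * Real.pi) := by
  rw [Complex.volume_closedBall, ← ENNReal.ofReal_pow (Real.sqrt_nonneg _), Real.sq_sqrt hr,
    ENNReal.ofReal_mul hr, ← NNReal.coe_real_pi, ENNReal.ofReal_coe_nnreal]

/-- `Nn w = 2π‖w‖`.  `lintegral_polar` for `Φ p = |⟪w,p⟫| 1_{‖p‖ ≤ 1}` gives `Nn w / 4`;
rotate `w` to `‖w‖ e₂` (`LinearIsometryEquiv.measurePreserving`, a reflection maps `w/‖w‖` to
`e₂`) and compute with `lintegral_mk3`: `∫ |s| π (1 - s²) ds = π/2`.  (Gaussian weights work as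
well.) -/
theorem Nn_eq (w : R3) : Nn w = ENNReal.ofReal (2 * Real.pi * ‖w‖) := by
  obtain ⟨d, hd, hw⟩ := a2_unit w
  obtain ⟨x, hx, hxn, hxd, hint⟩ := a2_cart hd
  have hm : Measurable (Bk w) := by
    unfold Bk
    exact (by fun_prop : Continuous fun ω : R3 => |inner ℝ w ω|).measurable.ennreal_ofReal
  have h1 := a2_polar (Bk w) hm 1 fun r hr ω => by
    rw [Bk, Bk, inner_smul_right, abs_mul, abs_of_pos hr, pow_one, ENNReal.ofReal_mul hr.le]
  have hm2 := hm.indicator (measurableSet_closedBall (x := (0 : R3)) (ε := 1))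
  have hc : Continuous fun p : ℂ × ℝ => x p.1 + p.2 • d := by fun_prop
  have hm3 : Measurable (Function.uncurry fun (z : ℂ) (s : ℝ) =>
      (Metric.closedBall (0 : R3) 1).indicator (Bk w) (x z + s • d)) := hm2.comp hc.measurable
  rw [hint _ hm2, lintegral_lintegral_swap hm3.aemeasurable] at h1
  have h2 : ∀ s : ℝ, ∫⁻ z : ℂ, (Metric.closedBall (0 : R3) 1).indicator (Bk w) (x z + s • d) =
      (Ioc (-1 : ℝ) 1 ∪ {-1}).indicator
        (fun s => ENNReal.ofReal (‖w‖ * Real.pi * (|s| * (1 - s ^ 2)))) s := by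
    intro s
    rw [Ioc_union_left (by norm_num)]
    have h3 : ∀ z, Bk w (x z + s • d) = ENNReal.ofReal (‖w‖ * |s|) := fun z => by
      rw [Bk]
      congr 1
      conv_lhs => rw [hw]
      rw [inner_smul_left, inner_add_right, hxd, inner_smul_right, real_inner_self_eq_norm_sq, hd]
      simp [abs_mul]
    have h4 : ∀ z, x z + s • d ∈ Metric.closedBall (0 : R3) 1 ↔ ‖z‖ ^ 2 + s ^ 2 ≤ 1 := fun z => by
      rw [mem_closedBall_zero_iff, ← hxn z, ← a2_norm_add hd (hxd z) s,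
        sq_le_one_iff₀ (norm_nonneg _)]
    by_cases hs : s ∈ Icc (-1 : ℝ) 1
    · have hs2 : 0 ≤ 1 - s ^ 2 := by nlinarith [hs.1, hs.2]
      rw [indicator_of_mem hs, show ‖w‖ * Real.pi * (|s| * (1 - s ^ 2)) =
        ‖w‖ * |s| * ((1 - s ^ 2) * Real.pi) by ring, ENNReal.ofReal_mul (by positivity),
        ← a2_disc _ hs2, ← lintegral_indicator_const measurableSet_closedBall]
      refine lintegral_congr fun z => ?_
      have h5 : z ∈ Metric.closedBall (0 : ℂ) √(1 - s ^ 2) ↔ ‖z‖ ^ 2 + s ^ 2 ≤ 1 := by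
        rw [mem_closedBall_zero_iff, Real.le_sqrt (norm_nonneg _) hs2, le_sub_iff_add_le]
      by_cases h6 : ‖z‖ ^ 2 + s ^ 2 ≤ 1
      · rw [indicator_of_mem ((h4 z).2 h6), indicator_of_mem (h5.2 h6), h3]
      · rw [indicator_of_notMem (mt (h4 z).1 h6), indicator_of_notMem (mt h5.1 h6)]
    · rw [indicator_of_notMem hs]
      refine (lintegral_congr fun z => indicator_of_notMem (fun h => hs ?_) _).trans lintegral_zero
      have h6 := (h4 z).1 h
      exact abs_le.1 ((sq_le_one_iff_abs_le_one s).1 (by nlinarith [sq_nonneg ‖z‖]))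
  rw [lintegral_congr h2, Ioc_union_left (by norm_num), lintegral_indicator measurableSet_Icc,
    ← restrict_Ioc_eq_restrict_Icc, ← ofReal_integral_eq_lintegral_ofReal
      (by fun_prop : Continuous fun s : ℝ =>
        ‖w‖ * Real.pi * (|s| * (1 - s ^ 2))).integrableOn_Ioc
      (ae_restrict_of_forall_mem measurableSet_Ioc fun s hs => by
        have : 0 ≤ 1 - s ^ 2 := by nlinarith [hs.1, hs.2]
        positivity),
    ← intervalIntegral.integral_of_le (by norm_num), intervalIntegral.integral_const_mul,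
    a2_int] at h1
  have h3 : ENNReal.ofReal 4 * ENNReal.ofReal (1 / (((1 : ℕ) : ℝ) + 3)) = 1 := by
    rw [← ENNReal.ofReal_mul (by norm_num)]
    norm_num
  rw [Nn, ← one_mul (∫⁻ ω, Bk w ω ∂sphereMeasure), ← h3, mul_assoc, ← h1,
    ← ENNReal.ofReal_mul (by norm_num)]
  congr 1
  ring

/-- sublevel sets of a real quadratic polynomial (complete the square: `|(s+b)² - d| ≤ η/|a|`
forces `|s + b|` into an interval of length `≤ √(2η/|a|)`). -/
theorem quad_sublevel {a b c η : ℝ} (ha : 1 / 2 ≤ |a|) (hη : 0 ≤ η) :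
    volume {s : ℝ | |a * s ^ 2 + b * s + c| ≤ η} ≤ ENNReal.ofReal (4 * √η) := by
  have ha0 : a ≠ 0 := fun h => by rw [h, abs_zero] at ha; norm_num at ha
  obtain ⟨β, δ, h⟩ : ∃ β δ : ℝ, ∀ s, a * s ^ 2 + b * s + c = a * ((s + β) ^ 2 - δ) :=
    ⟨b / (2 * a), (b / (2 * a)) ^ 2 - c / a, fun s => by field_simp; ring⟩
  have hs := Real.sqrt_nonneg η
  have hs2 := Real.sq_sqrt hη
  have hm := Real.sqrt_nonneg (δ - 2 * η)
  have hm2 : δ - 2 * η ≤ √(δ - 2 * η) ^ 2 := by
    rw [Real.sq_sqrt']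
    exact le_max_left _ _
  have hsub : {s : ℝ | |a * s ^ 2 + b * s + c| ≤ η} ⊆
      Icc (√(δ - 2 * η) - β) (√(δ - 2 * η) - β + 2 * √η) ∪
        Icc (-√(δ - 2 * η) - β - 2 * √η) (-√(δ - 2 * η) - β) := by
    intro s hs0
    rw [mem_ofPred_eq, h, abs_mul] at hs0
    have h1 : |(s + β) ^ 2 - δ| ≤ 2 * η := by nlinarith [abs_nonneg ((s + β) ^ 2 - δ)]
    rw [abs_le] at h1
    have h2 : √(δ - 2 * η) ≤ |s + β| := Real.sqrt_le_iff.2 ⟨abs_nonneg _, by
      rw [sq_abs]; linarith [h1.1]⟩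
    have h3 : |s + β| ≤ √(δ - 2 * η) + 2 * √η := by
      refine abs_le_of_sq_le_sq' ?_ (by positivity) |>.2
      rw [sq_abs]
      nlinarith [h1.2, mul_nonneg hs hm]
    rcases le_total 0 (s + β) with h4 | h4
    · rw [abs_of_nonneg h4] at h2 h3
      exact Or.inl ⟨by linarith, by linarith⟩
    · rw [abs_of_nonpos h4] at h2 h3
      exact Or.inr ⟨by linarith, by linarith⟩
  refine (measure_mono hsub).trans ((measure_union_le _ _).trans (le_of_eq ?_))
  rw [Real.volume_Icc, Real.volume_Icc, ← ENNReal.ofReal_add (by linarith) (by linarith)]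
  congr 1
  ring

theorem a2_dir {e n : R3} (he : ‖e‖ = 1) (hn : ‖n‖ = 1) :
    ∃ d : R3, ‖d‖ = 1 ∧ inner ℝ e d * inner ℝ n d = (1 + inner ℝ e n) / 2 := by
  have h1 : ‖e + n‖ ^ 2 = 2 * (1 + inner ℝ e n) := by
    rw [norm_add_sq_real, he, hn]
    ring
  by_cases h : e + n = 0
  · obtain ⟨x, -, hxn, hxd, -⟩ := a2_cart he
    refine ⟨x 1, by rw [hxn, norm_one], ?_⟩
    rw [h, norm_zero] at h1
    rw [hxd]
    linarith
  · obtain ⟨d, hd, h2⟩ := a2_unit (e + n)
    have h0 := norm_pos_iff.2 h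
    have h3 : ‖e + n‖ * inner ℝ e d = 1 + inner ℝ e n := by
      rw [← inner_smul_right, ← h2, inner_add_right, real_inner_self_eq_norm_sq, he, one_pow]
    have h4 : ‖e + n‖ * inner ℝ n d = 1 + inner ℝ e n := by
      rw [← inner_smul_right, ← h2, inner_add_right, real_inner_self_eq_norm_sq, hn, one_pow,
        real_inner_comm, add_comm]
    refine ⟨d, hd, mul_left_cancel₀ (pow_pos h0 2).ne' ?_⟩
    calc ‖e + n‖ ^ 2 * (inner ℝ e d * inner ℝ n d)
        = (‖e + n‖ * inner ℝ e d) * (‖e + n‖ * inner ℝ n d) := by ring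
      _ = _ := by rw [h3, h4, h1]; ring

/-- Anti-concentration.  By `lintegral_polar` the volume of the cone
`{p | ‖p‖ ≤ 1, p/‖p‖ ∈ A}` is `σ(A)/3`; on it `|q p| ≤ η` for the quadratic form
`q p = ⟪e,p⟫⟪n,p⟫ - c‖p‖²`.  There is a unit vector `d` with `|q d| ≥ 1/2` (if `n ≠ ±e` the values
at `(e ± n)/‖e ± n‖` differ by `1`; otherwise the values at `e` and at a unit vector `⊥ e` differ
by `1`).  Rotate `d` to `e₂`, use `lintegral_mk3` and `quad_sublevel` on the vertical lines over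
the unit disc. -/
theorem anti_conc {e n : R3} (he : ‖e‖ = 1) (hn : ‖n‖ = 1) (c : ℝ) {η : ℝ} (hη : 0 ≤ η) :
    sphereMeasure {ω | |inner ℝ e ω * inner ℝ n ω - c| ≤ η} ≤ ENNReal.ofReal (40 * √η) := by
  obtain ⟨d, hd, hq⟩ : ∃ d : R3, ‖d‖ = 1 ∧ 1 / 2 ≤ |inner ℝ e d * inner ℝ n d - c| := by
    obtain ⟨d1, hd1, h1⟩ := a2_dir he hn
    obtain ⟨d2, hd2, h2⟩ := a2_dir he (n := -n) (by rw [norm_neg, hn])
    rw [inner_neg_left, inner_neg_right] at h2
    by_cases h : 1 / 2 ≤ |inner ℝ e d1 * inner ℝ n d1 - c|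
    · exact ⟨d1, hd1, h⟩
    · refine ⟨d2, hd2, ?_⟩
      have := (abs_lt.1 (not_le.1 h)).2
      exact le_abs.2 (Or.inr (by linarith))
  obtain ⟨x, hx, hxn, hxd, hint⟩ := a2_cart hd
  set S : Set R3 := {p | |inner ℝ e p * inner ℝ n p - c * ‖p‖ ^ 2| ≤ η * ‖p‖ ^ 2} with hS
  have hSm : MeasurableSet S := (isClosed_le (by fun_prop) (by fun_prop)).measurableSet
  have hm : Measurable (S.indicator (1 : R3 → ℝ≥0∞)) := measurable_one.indicator hSm
  have h1 := a2_polar _ hm 0 fun r hr ω => by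
    rw [pow_zero, ENNReal.ofReal_one, one_mul]
    have : r • ω ∈ S ↔ ω ∈ S := by
      simp only [hS, mem_ofPred_eq, inner_smul_right, norm_smul, mul_pow, Real.norm_eq_abs, sq_abs]
      rw [show r * inner ℝ e ω * (r * inner ℝ n ω) - c * (r ^ 2 * ‖ω‖ ^ 2) =
        r ^ 2 * (inner ℝ e ω * inner ℝ n ω - c * ‖ω‖ ^ 2) by ring, abs_mul,
        abs_of_pos (pow_pos hr 2), mul_left_comm, mul_le_mul_iff_right₀ (pow_pos hr 2)]
    by_cases h : ω ∈ S
    · rw [indicator_of_mem h, indicator_of_mem (this.2 h)]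
      rfl
    · rw [indicator_of_notMem h, indicator_of_notMem (mt this.1 h)]
  rw [lintegral_indicator_one hSm, hint _ (hm.indicator measurableSet_closedBall)] at h1
  have h2 : ∀ z : ℂ, ∫⁻ s : ℝ, (Metric.closedBall (0 : R3) 1).indicator
      (S.indicator (1 : R3 → ℝ≥0∞)) (x z + s • d) ≤
      (Metric.closedBall (0 : ℂ) √1).indicator (fun _ => ENNReal.ofReal (4 * √η)) z := by
    intro z
    have h3 := a2_norm_add hd (hxd z)
    by_cases hz : z ∈ Metric.closedBall (0 : ℂ) √1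
    · rw [indicator_of_mem hz]
      refine le_trans ?_ (quad_sublevel (b := inner ℝ e d * inner ℝ n (x z) +
        inner ℝ e (x z) * inner ℝ n d) (c := inner ℝ e (x z) * inner ℝ n (x z) - c * ‖x z‖ ^ 2)
        hq hη)
      refine le_trans (lintegral_mono fun s => ?_) (lintegral_indicator_one_le _)
      rw [indicator_indicator]
      by_cases h4 : x z + s • d ∈ Metric.closedBall (0 : R3) 1 ∩ S
      · rw [indicator_of_mem h4, indicator_of_mem]
        · exact le_rfl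
        · obtain ⟨h5, h6⟩ := h4
          rw [mem_closedBall_zero_iff, ← sq_le_one_iff₀ (norm_nonneg _)] at h5
          rw [hS, mem_ofPred_eq] at h6
          rw [mem_ofPred_eq]
          refine le_trans (le_of_eq ?_) (le_trans h6 (by nlinarith))
          rw [h3, inner_add_right, inner_add_right, inner_smul_right, inner_smul_right]
          congr 1
          ring
      · rw [indicator_of_notMem h4]
        exact zero_le
    · rw [indicator_of_notMem hz]
      refine le_of_eq ((lintegral_congr fun s => indicator_of_notMem (fun h => hz ?_) _).trans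
        lintegral_zero)
      rw [mem_closedBall_zero_iff, ← sq_le_one_iff₀ (norm_nonneg _), h3, hxn] at h
      rw [mem_closedBall_zero_iff, Real.sqrt_one, ← sq_le_one_iff₀ (norm_nonneg _)]
      nlinarith [sq_nonneg s]
  have h3 := (lintegral_mono (μ := volume) h2).trans (lintegral_indicator_const_le _ _)
  rw [h1, a2_disc 1 zero_le_one] at h3
  have h4 : sphereMeasure {ω | |inner ℝ e ω * inner ℝ n ω - c| ≤ η} ≤ sphereMeasure S := by
    refine measure_mono_ae ?_
    filter_upwards [ae_sphere] with ω hω h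
    change |_| ≤ _
    rw [hω, one_pow, mul_one, mul_one]
    exact h
  have h5 : ENNReal.ofReal 3 * ENNReal.ofReal (1 / (((0 : ℕ) : ℝ) + 3)) = 1 := by
    rw [← ENNReal.ofReal_mul (by norm_num)]
    norm_num
  refine h4.trans ?_
  rw [← one_mul (sphereMeasure S), ← h5, mul_assoc]
  refine (mul_le_mul_right h3 _).trans ?_
  have hs := Real.sqrt_nonneg η
  rw [← ENNReal.ofReal_mul (by positivity), ← ENNReal.ofReal_mul (by norm_num)]
  refine ENNReal.ofReal_le_ofReal ?_
  nlinarith [Real.pi_lt_d2]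

theorem a2_bound (w : R3) {S : Set R3} (T : Set R3) (hS : MeasurableSet S) (M : ℝ)
    (h : ∀ ω ∈ S, ‖ω‖ = 1 → ω ∈ T ∧ |inner ℝ w ω| ≤ M) :
    ∫⁻ ω in S, Bk w ω ∂sphereMeasure ≤ ENNReal.ofReal M * sphereMeasure T := by
  refine (setLIntegral_mono_ae' (g := fun _ => ENNReal.ofReal M) hS ?_).trans ?_
  · filter_upwards [ae_sphere] with ω hω h1
    exact ENNReal.ofReal_le_ofReal (h ω h1 hω).2
  · rw [setLIntegral_const]
    refine mul_le_mul_right (measure_mono_ae ?_) _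
    filter_upwards [ae_sphere] with ω hω h1
    exact (h ω h1 hω).1

theorem a2_fin (w : R3) {t : ℝ} (h : t ≤ 3 / 20 * ‖w‖) : ENNReal.ofReal t ≤ Nn w / 40 := by
  rw [Nn_eq, show (40 : ℝ≥0∞) = ENNReal.ofReal 40 by norm_num,
    ← ENNReal.ofReal_div_of_pos (by norm_num)]
  refine ENNReal.ofReal_le_ofReal (h.trans ?_)
  nlinarith [Real.pi_gt_three, norm_nonneg w]

theorem a2_inner_le (w : R3) {ω : R3} (hω : ‖ω‖ = 1) : |inner ℝ w ω| ≤ ‖w‖ := by
  have := abs_real_inner_le_norm w ω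
  rwa [hω, mul_one] at this

/-- few children have a prescribed component (`Bk w ω ≤ ‖w‖`, `anti_conc` with `e = w/‖w‖`,
`40 √q ≤ 2π/40`) -/
theorem good_slow (w : R3) {n : R3} (hn : ‖n‖ = 1) (c : ℝ) :
    ∫⁻ ω in {ω | |inner ℝ w ω * inner ℝ n ω - c| ≤ ‖w‖ / 100000}, Bk w ω ∂sphereMeasure ≤
      Nn w / 40 := by
  by_cases hw : w = 0
  · simp [hw, Bk]
  have h0 := norm_pos_iff.2 hw
  obtain ⟨d, hd, h1⟩ := a2_unit w
  refine (a2_bound w {ω | |inner ℝ d ω * inner ℝ n ω - c / ‖w‖| ≤ 1 / 100000}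
    (isClosed_le (by fun_prop) (by fun_prop)).measurableSet ‖w‖
    fun ω h2 hω => ⟨?_, a2_inner_le w hω⟩).trans ?_
  · have h3 : inner ℝ w ω = ‖w‖ * inner ℝ d ω := by
      conv_lhs => rw [h1]
      rw [inner_smul_left]
      rfl
    rw [mem_ofPred_eq, h3, show ‖w‖ * inner ℝ d ω * inner ℝ n ω - c =
      ‖w‖ * (inner ℝ d ω * inner ℝ n ω - c / ‖w‖) by field_simp, abs_mul, abs_of_pos h0,
      div_eq_mul_one_div ‖w‖, mul_le_mul_iff_right₀ h0] at h2
    exact h2
  · refine (mul_le_mul_right (anti_conc hd hn _ (by norm_num)) _).trans ?_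
    rw [← ENNReal.ofReal_mul h0.le]
    refine a2_fin w ?_
    have : √(1 / 100000 : ℝ) ≤ 1 / 300 := Real.sqrt_le_iff.2 ⟨by norm_num, by norm_num⟩
    nlinarith

/-- few children are faster than `V`.  With `s = ⟪v-a,ω⟫`:
`‖v'‖² = ‖v‖² - s² - 2s⟪a,ω⟫ ≤ ‖v‖² - s² + 4|s|`, so `‖v'‖ > V` forces `|s| < 4` and
`‖v‖² > V² - 4`, and `4 · 4π ≤ 2π‖v-a‖/40`.  If `‖v*'‖ > V` then by `coll_energy` `‖v'‖ < 2`,
`‖v' - a‖² = ‖v-a‖² - s² ≤ 16`, `‖v - a‖ ≥ |s| ≥ V - 2`; use `anti_conc` with `n = e`, `c = 1`,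
`η = 16/‖v-a‖²`: the integral is at most `‖v-a‖ · 160/‖v-a‖`. -/
theorem good_fast {V : ℝ} (hV : 2000 ≤ V) {v a : R3} (hv : ‖v‖ ≤ V) (ha : ‖a‖ ≤ 2) :
    ∫⁻ ω in {ω | V < ‖postVel v a ω‖}, Bk (v - a) ω ∂sphereMeasure ≤ Nn (v - a) / 40 ∧
    ∫⁻ ω in {ω | V < ‖postVelStar v a ω‖}, Bk (v - a) ω ∂sphereMeasure ≤ Nn (v - a) / 40 := by
  have m1 : MeasurableSet {ω | V < ‖postVel v a ω‖} :=
    (isOpen_lt continuous_const (by unfold postVel; fun_prop)).measurableSet
  have m2 : MeasurableSet {ω | V < ‖postVelStar v a ω‖} :=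
    (isOpen_lt continuous_const (by unfold postVelStar; fun_prop)).measurableSet
  have hv0 := norm_nonneg v
  have ha0 := norm_nonneg a
  by_cases hw : ‖v - a‖ ≤ 1100
  · have h1 : ‖v‖ ≤ 1102 := by
      have := norm_add_le (v - a) a
      rw [sub_add_cancel] at this
      linarith
    constructor
    · refine (a2_bound _ ∅ m1 0 fun ω h hω => ?_).trans (by simp)
      have h2 := coll_energy v a ω hω
      have h3 : V < ‖postVel v a ω‖ := h
      exfalso
      nlinarith [sq_nonneg ‖postVelStar v a ω‖]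
    · refine (a2_bound _ ∅ m2 0 fun ω h hω => ?_).trans (by simp)
      have h2 := coll_energy v a ω hω
      have h3 : V < ‖postVelStar v a ω‖ := h
      exfalso
      nlinarith [sq_nonneg ‖postVel v a ω‖]
  rw [not_le] at hw
  constructor
  · refine (a2_bound _ univ m1 4 fun ω h hω => ⟨trivial, ?_⟩).trans ?_
    · have h3 : V < ‖postVel v a ω‖ := h
      have h4 : ‖postVel v a ω‖ ^ 2 = ‖v‖ ^ 2 - 2 * (inner ℝ (v - a) ω * inner ℝ v ω) +
          inner ℝ (v - a) ω ^ 2 := by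
        rw [postVel, norm_sub_sq_real, inner_smul_right, norm_smul, hω, mul_one, Real.norm_eq_abs,
          sq_abs]
      have h5 : inner ℝ v ω = inner ℝ (v - a) ω + inner ℝ a ω := by
        rw [inner_sub_left, sub_add_cancel]
      have h6 := abs_le.1 ((a2_inner_le a hω).trans ha)
      rw [h5] at h4
      generalize inner ℝ (v - a) ω = s at h4 ⊢
      have h7 : s ^ 2 + 2 * s * inner ℝ a ω < 0 := by nlinarith
      rw [abs_le]
      constructor <;> nlinarith [h6.1, h6.2]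
    · rw [sphere_univ, ← ENNReal.ofReal_mul (by norm_num)]
      refine a2_fin _ ?_
      nlinarith [Real.pi_lt_four]
  · have h0 : 0 < ‖v - a‖ := by linarith
    obtain ⟨d, hd, h1⟩ := a2_unit (v - a)
    refine (a2_bound _ {ω | |inner ℝ d ω * inner ℝ d ω - 1| ≤ (4 / ‖v - a‖) ^ 2} m2 ‖v - a‖
      fun ω h hω => ⟨?_, a2_inner_le _ hω⟩).trans ?_
    · have h2 := coll_energy v a ω hω
      have h3 : V < ‖postVelStar v a ω‖ := h
      have h4 : ‖postVel v a ω‖ ≤ 2 := by
        refine abs_le_of_sq_le_sq' ?_ (by norm_num) |>.2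
        nlinarith
      have h5 : ‖postVel v a ω - a‖ ≤ 4 := (norm_sub_le _ _).trans (by linarith)
      have h6 : ‖postVel v a ω - a‖ ^ 2 = ‖v - a‖ ^ 2 - inner ℝ (v - a) ω ^ 2 := by
        rw [postVel, sub_right_comm, norm_sub_sq_real, inner_smul_right, norm_smul, hω, mul_one,
          Real.norm_eq_abs, sq_abs]
        ring
      have h7 : inner ℝ (v - a) ω = ‖v - a‖ * inner ℝ d ω := by
        conv_lhs => rw [h1]
        rw [inner_smul_left]
        rfl
      have h8 := abs_le.1 (a2_inner_le d hω)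
      rw [hd] at h8
      rw [h7] at h6
      rw [mem_ofPred_eq, abs_of_nonpos (by nlinarith [h8.1, h8.2]), div_pow,
        le_div_iff₀ (pow_pos h0 2)]
      nlinarith [norm_nonneg (postVel v a ω - a)]
    · refine (mul_le_mul_right (anti_conc hd hd _ (sq_nonneg _)) _).trans ?_
      rw [← ENNReal.ofReal_mul h0.le, Real.sqrt_sq (by positivity)]
      refine a2_fin _ ?_
      rw [show ‖v - a‖ * (40 * (4 / ‖v - a‖)) = 160 by field_simp; norm_num]
      linarith

end

end Crest.Agent.R68
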