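import Crest.Agent.R68.A2

/-!
# R68 (S0091): weak form, Maxwellians, collision frequency
-/

set_option autoImplicit false

namespace Crest.Agent.R68

open MeasureTheory Set Filter Crest.AnalysisR.VecCalc3 Crest.AnalysisR.PDE.Boltzmann
open scoped ENNReal _root_.Topology

noncomputable section

/-- the collision map as a linear map -/
def a3L (ω : R3) : (R3 × R3) →ₗ[ℝ] (R3 × R3) where
  toFun q := (postVel q.1 q.2 ω, postVelStar q.1 q.2 ω)
  map_add' p q := by
    simp only [postVel, postVelStar, Prod.fst_add, Prod.snd_add, Prod.mk_add_mk, inner_sub_left,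
      inner_add_left]
    refine Prod.ext ?_ ?_ <;> simp only <;> module
  map_smul' c p := by
    simp only [postVel, postVelStar, Prod.smul_fst, Prod.smul_snd, Prod.smul_mk, inner_sub_left,
      real_inner_smul_left, RingHom.id_apply]
    refine Prod.ext ?_ ?_ <;> simp only <;> module

@[fun_prop] theorem a3_B {α : Type*} [MeasurableSpace α] {w ω : α → R3} (hw : Measurable w)
    (hω : Measurable ω) : Measurable fun x => Bk (w x) (ω x) := by
  have := measurable_Bk.comp (hw.prodMk hω)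
  exact this

@[fun_prop] theorem a3_pv {α : Type*} [MeasurableSpace α] {v a ω : α → R3} (hv : Measurable v)
    (ha : Measurable a) (hω : Measurable ω) : Measurable fun x => postVel (v x) (a x) (ω x) :=
  continuous_postVel.measurable.comp (hv.prodMk (ha.prodMk hω))

@[fun_prop] theorem a3_pvs {α : Type*} [MeasurableSpace α] {v a ω : α → R3} (hv : Measurable v)
    (ha : Measurable a) (hω : Measurable ω) : Measurable fun x => postVelStar (v x) (a x) (ω x) :=
  continuous_postVelStar.measurable.comp (hv.prodMk (ha.prodMk hω))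

theorem a3_Φ {α : Type*} [MeasurableSpace α] {Φ : R3 → R3 → R3 → ℝ≥0∞}
    (hΦ : Measurable fun p : R3 × R3 × R3 => Φ p.1 p.2.1 p.2.2) {v a ω : α → R3} (hv : Measurable v)
    (ha : Measurable a) (hω : Measurable ω) : Measurable fun x => Φ (v x) (a x) (ω x) :=
  hΦ.comp (hv.prodMk (ha.prodMk hω))

theorem a3_mG (θ : ℝ) : Measurable (Gs θ) :=
  measurable_Gs.comp (measurable_const.prodMk measurable_id)

theorem a3_swap (G : R3 → R3 → R3 → ℝ≥0∞) (hG : Measurable fun p : R3 × R3 × R3 => G p.1 p.2.1 p.2.2) :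
    ∫⁻ v, ∫⁻ a, ∫⁻ ω, G v a ω ∂sphereMeasure = ∫⁻ ω, (∫⁻ q : R3 × R3, G q.1 q.2 ω) ∂sphereMeasure := by
  have m : Measurable fun p : (R3 × R3) × R3 => G p.1.1 p.1.2 p.2 :=
    a3_Φ hG (by fun_prop) (by fun_prop) (by fun_prop)
  rw [← lintegral_lintegral_swap (f := fun (q : R3 × R3) ω => G q.1 q.2 ω) m.aemeasurable,
    Measure.volume_eq_prod, lintegral_prod _ m.lintegral_prod_right'.aemeasurable]

/-- for a unit vector `ω` the collision map is a linear involution of `R3 × R3`, so its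
determinant is `±1` (`Measure.map_linearMap_addHaar_eq_smul_addHaar`) -/
theorem measurePreserving_coll {ω : R3} (hω : ‖ω‖ = 1) :
    MeasurePreserving (fun q : R3 × R3 => (postVel q.1 q.2 ω, postVelStar q.1 q.2 ω))
      volume volume := by
  have hL : (a3L ω).comp (a3L ω) = LinearMap.id := by
    refine LinearMap.ext fun q => ?_
    exact Prod.ext (postVel_invol q.1 q.2 ω hω) (postVelStar_invol q.1 q.2 ω hω)
  have hd : LinearMap.det (a3L ω) * LinearMap.det (a3L ω) = 1 := by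
    rw [← LinearMap.det_comp, hL, LinearMap.det_id]
  have hd0 : LinearMap.det (a3L ω) ≠ 0 := fun h => by simp [h] at hd
  have h1 : |(LinearMap.det (a3L ω))⁻¹| = 1 := by
    rcases mul_self_eq_one_iff.1 hd with h | h <;> simp [h]
  refine ⟨(a3L ω).continuous_of_finiteDimensional.measurable, ?_⟩
  have := Measure.map_linearMap_addHaar_eq_smul_addHaar ((volume : Measure R3).prod (volume : Measure R3)) hd0
  rw [h1, ENNReal.ofReal_one, one_smul] at this
  exact this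

/-- pre/post-collisional change of variables (Tonelli, `measurePreserving_coll`, `Bk_invol`) -/
theorem lintegral_coll (Φ : R3 → R3 → R3 → ℝ≥0∞)
    (hΦ : Measurable fun p : R3 × R3 × R3 => Φ p.1 p.2.1 p.2.2) :
    ∫⁻ v, ∫⁻ a, ∫⁻ ω, Bk (v - a) ω * Φ (postVel v a ω) (postVelStar v a ω) ω ∂sphereMeasure =
      ∫⁻ v, ∫⁻ a, ∫⁻ ω, Bk (v - a) ω * Φ v a ω ∂sphereMeasure := by
  have m1 : Measurable fun p : R3 × R3 × R3 => Bk (p.1 - p.2.1) p.2.2 * Φ p.1 p.2.1 p.2.2 :=
    Measurable.fun_mul (by fun_prop) hΦ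
  have m2 : Measurable fun p : R3 × R3 × R3 =>
      Bk (p.1 - p.2.1) p.2.2 * Φ (postVel p.1 p.2.1 p.2.2) (postVelStar p.1 p.2.1 p.2.2) p.2.2 :=
    Measurable.fun_mul (by fun_prop) (a3_Φ hΦ (by fun_prop) (by fun_prop) (by fun_prop))
  rw [a3_swap (fun v a ω => Bk (v - a) ω * Φ v a ω) m1,
    a3_swap (fun v a ω => Bk (v - a) ω * Φ (postVel v a ω) (postVelStar v a ω) ω) m2]
  refine lintegral_congr_ae (ae_sphere.mono fun ω hω => ?_)
  have m3 : Measurable fun q : R3 × R3 => Bk (q.1 - q.2) ω * Φ q.1 q.2 ω :=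
    Measurable.fun_mul (by fun_prop) (a3_Φ hΦ (by fun_prop) (by fun_prop) (by fun_prop))
  have := (measurePreserving_coll hω).lintegral_comp m3
  simp only [Bk_invol _ _ _ hω] at this
  exact this

/-- weak form of the gain term -/
theorem Qp_weak {f g φ : VF} (hf : Measurable f) (hg : Measurable g) (hφ : Measurable φ) :
    ∫⁻ v, φ v * Qp f g v =
      ∫⁻ v, ∫⁻ a, f v * g a * ∫⁻ ω, Bk (v - a) ω * φ (postVel v a ω) ∂sphereMeasure := by
  dsimp only [VF] at f g φ
  have key := lintegral_coll (fun v a ω => f v * g a * φ (postVel v a ω)) (by fun_prop)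
  refine Eq.trans ?_ (key.trans ?_)
  · refine lintegral_congr fun v => ?_
    have m3 : Measurable fun p : R3 × R3 =>
        Bk (v - p.1) p.2 * (f (postVel v p.1 p.2) * g (postVelStar v p.1 p.2)) := by fun_prop
    unfold Qp
    rw [← lintegral_const_mul _ m3.lintegral_prod_right']
    refine lintegral_congr fun a => ?_
    rw [← lintegral_const_mul _ (by fun_prop)]
    refine lintegral_congr_ae (ae_sphere.mono fun ω hω => ?_)
    simp only [postVel_invol _ _ _ hω]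
    ring
  · refine lintegral_congr fun v => lintegral_congr fun a => ?_
    rw [← lintegral_const_mul _ (by fun_prop)]
    exact lintegral_congr fun ω => by ring

/-- weak form, second particle (`postVel_swap`, `Bk_swap`) -/
theorem Qp_weak' {f g φ : VF} (hf : Measurable f) (hg : Measurable g) (hφ : Measurable φ) :
    ∫⁻ v, φ v * Qp g f v =
      ∫⁻ v, ∫⁻ a, f v * g a * ∫⁻ ω, Bk (v - a) ω * φ (postVelStar v a ω) ∂sphereMeasure := by
  dsimp only [VF] at f g φ
  rw [Qp_weak hg hf hφ, lintegral_lintegral_swap]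
  · refine lintegral_congr fun v => lintegral_congr fun a => ?_
    simp only [Bk_swap v a, postVel_swap v a, mul_comm (g a) (f v)]
  · have m2 : Measurable fun p : (R3 × R3) × R3 =>
        Bk (p.1.1 - p.1.2) p.2 * φ (postVel p.1.1 p.1.2 p.2) := by fun_prop
    have m3 : Measurable fun p : R3 × R3 => g p.1 * f p.2 := by fun_prop
    exact (m3.fun_mul m2.lintegral_prod_right').aemeasurable

theorem lintegral_Qp {f g : VF} (hf : Measurable f) (hg : Measurable g) :
    ∫⁻ v, Qp f g v = ∫⁻ v, Nu g v * f v := by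
  dsimp only [VF] at f g
  have := Qp_weak (φ := fun _ => 1) hf hg measurable_const
  simp only [one_mul, mul_one] at this
  rw [this]
  refine lintegral_congr fun v => ?_
  unfold Nu
  have m : Measurable fun a => Nn (v - a) := measurable_Nn.comp (measurable_const.fun_sub measurable_id')
  rw [← lintegral_mul_const _ (m.fun_mul hg)]
  refine lintegral_congr fun a => ?_
  simp only [Nn]
  ring

theorem Gs_coll (θ : ℝ) (v a ω : R3) (hω : ‖ω‖ = 1) :
    Gs θ (postVel v a ω) * Gs θ (postVelStar v a ω) = Gs θ v * Gs θ a := by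
  unfold Gs
  rw [← ENNReal.ofReal_mul (Real.exp_pos _).le, ← ENNReal.ofReal_mul (Real.exp_pos _).le,
    ← Real.exp_add, ← Real.exp_add]
  congr 2
  linear_combination (-θ / 2) * coll_energy v a ω hω

theorem Qp_Gs_Gs (θ : ℝ) (v : R3) : Qp (Gs θ) (Gs θ) v = Nu (Gs θ) v * Gs θ v := by
  unfold Qp Nu
  have hG : ∀ v, Gs θ v ≠ ⊤ := fun _ => ENNReal.ofReal_ne_top
  rw [← lintegral_mul_const' _ _ (hG v)]
  refine lintegral_congr fun a => ?_
  unfold Nn
  rw [mul_assoc, ← lintegral_mul_const' _ _ (ENNReal.mul_ne_top (hG a) (hG v))]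
  refine lintegral_congr_ae (ae_sphere.mono fun ω hω => ?_)
  simp only [Gs_coll θ v a ω hω]
  rw [mul_comm (Gs θ v)]

theorem Mx_eq : ∃ c : ℝ≥0∞, 0 < c ∧ c ≤ 1 ∧ ∀ v, Mx v = c * Gs 1 v := by
  have h0 : (0 : ℝ) < (2 * Real.pi) ^ (-(3 / 2 : ℝ)) := by positivity
  refine ⟨ENNReal.ofReal ((2 * Real.pi) ^ (-(3 / 2 : ℝ))), ENNReal.ofReal_pos.2 h0,
    ENNReal.ofReal_le_one.2 (Real.rpow_le_one_of_one_le_of_nonpos (by linarith [Real.pi_gt_three])
      (by norm_num)), fun v => ?_⟩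
  unfold Mx Gs maxwellian
  rw [ENNReal.ofReal_mul h0.le, neg_one_mul]

theorem Qp_Mx_Mx (v : R3) : Qp Mx Mx v = Nu Mx v * Mx v := by
  obtain ⟨c, -, -, h⟩ := Mx_eq
  have e : Mx = fun v => c * Gs 1 v := funext h
  have m : Measurable (Gs 1) := a3_mG 1
  rw [e, Qp_mul_left m (m.const_mul c), Qp_mul_right m m, Qp_Gs_Gs, Nu_mul m]
  ring

theorem Gs_anti {θ θ' : ℝ} (h : θ ≤ θ') (v : R3) : Gs θ' v ≤ Gs θ v := by
  refine ENNReal.ofReal_le_ofReal (Real.exp_le_exp.2 ?_)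
  nlinarith [sq_nonneg ‖v‖]

theorem Gs_add (θ θ' : ℝ) (v : R3) : Gs (θ + θ') v = Gs θ v * Gs θ' v := by
  unfold Gs
  rw [← ENNReal.ofReal_mul (Real.exp_pos _).le, ← Real.exp_add]
  congr 2
  ring

theorem Gs_ne_zero (θ : ℝ) (v : R3) : Gs θ v ≠ 0 := by
  exact (ENNReal.ofReal_pos.2 (Real.exp_pos _)).ne'

theorem Gs_ne_top (θ : ℝ) (v : R3) : Gs θ v ≠ ⊤ := by
  exact ENNReal.ofReal_ne_top

theorem Gs_le_one {θ : ℝ} (h : 0 ≤ θ) (v : R3) : Gs θ v ≤ 1 := by
  refine ENNReal.ofReal_le_one.2 (Real.exp_le_one_iff.2 ?_)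
  nlinarith [sq_nonneg ‖v‖]

theorem Mx_le_Gs {θ : ℝ} (h : θ ≤ 1) (v : R3) : Mx v ≤ Gs θ v := by
  obtain ⟨c, -, h1, h2⟩ := Mx_eq
  rw [h2]
  exact (mul_le_of_le_one_left' h1).trans (Gs_anti h v)

theorem Nn_le_br (v a : R3) : Nn (v - a) ≤ 7 * (br v * br a) := by
  rw [Nn_eq]
  unfold br
  rw [← ENNReal.ofReal_mul (by positivity), ← ENNReal.ofReal_ofNat 7, ← ENNReal.ofReal_mul (by norm_num)]
  refine ENNReal.ofReal_le_ofReal ?_
  have h1 := norm_sub_le v a
  have h2 := norm_nonneg v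
  have h3 := norm_nonneg a
  have h4 : ‖v - a‖ ≤ (1 + ‖v‖) * (1 + ‖a‖) := by nlinarith
  exact mul_le_mul (by linarith [Real.pi_lt_d2]) h4 (norm_nonneg _) (by norm_num)

theorem Nu_le_br {f : VF} (hf : Measurable f) (v : R3) : Nu f v ≤ 7 * br v * ∫⁻ a, br a * f a := by
  rw [← lintegral_const_mul _ (measurable_br.fun_mul hf)]
  refine lintegral_mono fun a => ?_
  refine (mul_le_mul_left (Nn_le_br v a) _).trans (le_of_eq ?_)
  ring

/-- polynomial weights are absorbed by Gaussians -/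
theorem br_pow_le (k : ℕ) {θ : ℝ} (hθ : 0 < θ) :
    ∃ C : ℝ≥0∞, C ≠ ⊤ ∧ ∀ v, br v ^ k * Gs θ v ≤ C := by
  refine ⟨ENNReal.ofReal (Real.exp (k ^ 2 / (2 * θ))), ENNReal.ofReal_ne_top, fun v => ?_⟩
  unfold br Gs
  rw [← ENNReal.ofReal_pow (by positivity), ← ENNReal.ofReal_mul (by positivity)]
  refine ENNReal.ofReal_le_ofReal ?_
  have h1 : (1 + ‖v‖) ^ k ≤ Real.exp (k * ‖v‖) := by
    rw [Real.exp_nat_mul]
    exact pow_le_pow_left₀ (by positivity) (by linarith [Real.add_one_le_exp ‖v‖]) k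
  refine (mul_le_mul_of_nonneg_right h1 (Real.exp_pos _).le).trans ?_
  rw [← Real.exp_add, Real.exp_le_exp, le_div_iff₀ (by positivity)]
  nlinarith [sq_nonneg (θ * ‖v‖ - k)]

theorem lintegral_br_Gs (k : ℕ) {θ : ℝ} (hθ : 0 < θ) : ∫⁻ v, br v ^ k * Gs θ v ≠ ⊤ := by
  obtain ⟨C, hC, h⟩ := br_pow_le (k + 4) hθ
  have h1 := finite_integral_one_add_norm (E := R3) (μ := volume) (r := 4) (by simp; norm_num)
  refine ne_top_of_le_ne_top (ENNReal.mul_ne_top hC h1.ne) ?_
  rw [← lintegral_const_mul' _ _ hC]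
  refine lintegral_mono fun v => ?_
  refine le_trans (le_of_eq ?_) (mul_le_mul_left (h v) _)
  have h2 : br v ^ 4 * ENNReal.ofReal ((1 + ‖v‖) ^ (-(4 : ℝ))) = 1 := by
    unfold br
    rw [← ENNReal.ofReal_pow (by positivity), ← ENNReal.ofReal_mul (by positivity),
      Real.rpow_neg (by positivity), Real.rpow_ofNat, mul_inv_cancel₀ (by positivity), ENNReal.ofReal_one]
  calc br v ^ k * Gs θ v = br v ^ k * Gs θ v * (br v ^ 4 * ENNReal.ofReal ((1 + ‖v‖) ^ (-(4 : ℝ)))) := by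
        rw [h2, mul_one]
    _ = _ := by ring

theorem Nu_Gs_le {θ : ℝ} (hθ : 0 < θ) : ∃ C : ℝ≥0∞, C ≠ ⊤ ∧ ∀ v, Nu (Gs θ) v ≤ C * br v := by
  have h := lintegral_br_Gs 1 hθ
  simp only [pow_one] at h
  refine ⟨7 * ∫⁻ a, br a * Gs θ a, ENNReal.mul_ne_top (by norm_num) h, fun v => ?_⟩
  refine (Nu_le_br (a3_mG θ) v).trans (le_of_eq ?_)
  ring

/-- `ν(M) ≥ ν₀ ⟨v⟩`: for `‖v‖ ≥ 4` use `a` in the unit ball (`‖v - a‖ ≥ ‖v‖ - 1`), for `‖v‖ ≤ 4` use
`a` in the unit ball about a point of norm `7` -/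
theorem Nu_Mx_ge : ∃ c : ℝ, 0 < c ∧ ∀ v, ENNReal.ofReal c * br v ≤ Nu Mx v := by
  have h0 : (0 : ℝ) < (2 * Real.pi) ^ (-(3 / 2 : ℝ)) := by positivity
  have hV0 : 0 < volume (Metric.ball (0 : R3) 1) := Metric.measure_ball_pos _ _ one_pos
  have hV1 : volume (Metric.ball (0 : R3) 1) ≠ ⊤ := measure_ball_lt_top.ne
  refine ⟨(volume (Metric.ball (0 : R3) 1)).toReal * ((2 * Real.pi) ^ (-(3 / 2 : ℝ)) * Real.exp (-8)),
    mul_pos (ENNReal.toReal_pos hV0.ne' hV1) (by positivity), fun v => ?_⟩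
  obtain ⟨w, hw, hvw⟩ : ∃ w : R3, ‖w‖ = 3 ∧ ‖v‖ ^ 2 + 9 ≤ ‖v - w‖ ^ 2 := by
    have h1 : ‖(EuclideanSpace.single 0 3 : R3)‖ = 3 := by simp
    have h2 := parallelogram_law_with_norm ℝ v (EuclideanSpace.single 0 3 : R3)
    rw [h1] at h2
    by_cases h3 : ‖v‖ ^ 2 + 9 ≤ ‖v - (EuclideanSpace.single 0 3 : R3)‖ ^ 2
    · exact ⟨_, h1, h3⟩
    · refine ⟨-EuclideanSpace.single 0 3, by rw [norm_neg, h1], ?_⟩
      rw [sub_neg_eq_add]
      nlinarith
  have h1 : (1 + ‖v‖) / 2 + 1 ≤ ‖v - w‖ := by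
    refine le_of_sq_le_sq ?_ (norm_nonneg _)
    nlinarith [sq_nonneg (‖v‖ - 1)]
  have h2 : ∀ a ∈ Metric.ball w 1,
      ENNReal.ofReal ((2 * Real.pi) ^ (-(3 / 2 : ℝ)) * Real.exp (-8)) * br v ≤ Nn (v - a) * Mx a := by
    intro a ha
    rw [mem_ball_iff_norm] at ha
    have h3 : ‖a‖ ≤ 4 := by
      have := norm_add_le (a - w) w
      rw [sub_add_cancel] at this
      linarith
    have h4 : (1 + ‖v‖) / 2 ≤ ‖v - a‖ := by
      have := norm_add_le (v - a) (a - w)
      rw [sub_add_sub_cancel] at this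
      linarith
    rw [mul_comm, Nn_eq]
    refine mul_le_mul' (ENNReal.ofReal_le_ofReal ?_) (ENNReal.ofReal_le_ofReal ?_)
    · nlinarith [Real.pi_gt_three, norm_nonneg (v - a)]
    · refine mul_le_mul_of_nonneg_left (Real.exp_le_exp.2 ?_) h0.le
      nlinarith [norm_nonneg a]
  calc _ = ∫⁻ _ in Metric.ball w 1,
        ENNReal.ofReal ((2 * Real.pi) ^ (-(3 / 2 : ℝ)) * Real.exp (-8)) * br v := by
        rw [setLIntegral_const, Measure.addHaar_ball_center _ w, ENNReal.ofReal_mul ENNReal.toReal_nonneg,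
          ENNReal.ofReal_toReal hV1]
        ring
    _ ≤ ∫⁻ a in Metric.ball w 1, Nn (v - a) * Mx a := setLIntegral_mono' measurableSet_ball h2
    _ ≤ _ := setLIntegral_le_lintegral _ _

end

end Crest.Agent.R68
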