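import Crest.Agent.R68.A0

/-!
# R68 (S0091): attenuation, layer-cake inequalities, mild versus additive form
-/

set_option autoImplicit false

namespace Crest.Agent.R68

open MeasureTheory Set Filter Crest.AnalysisR.VecCalc3 Crest.AnalysisR.PDE.Boltzmann
open scoped ENNReal _root_.Topology

noncomputable section

theorem att_zero : att 0 = 1 := by
  simp [att]

theorem att_top : att ⊤ = 0 := by
  simp [att]

theorem att_ofReal {x : ℝ} (hx : 0 ≤ x) : att (ENNReal.ofReal x) = ENNReal.ofReal (Real.exp (-x)) := by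
  rw [att, EReal.coe_ennreal_ofReal, max_eq_left (by exact_mod_cast hx), ← EReal.coe_neg,
    EReal.exp_coe]

theorem att_eq {H : ℝ≥0∞} (h : H ≠ ⊤) : att H = ENNReal.ofReal (Real.exp (-H.toReal)) := by
  rw [← att_ofReal ENNReal.toReal_nonneg, ENNReal.ofReal_toReal h]

theorem att_add (H K : ℝ≥0∞) : att (H + K) = att H * att K := by
  rw [att, EReal.coe_ennreal_add, EReal.neg_add (Or.inl (EReal.coe_ennreal_ne_bot H))
    (Or.inr (EReal.coe_ennreal_ne_bot K)), sub_eq_add_neg, EReal.exp_add, att, att]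

theorem att_anti {H K : ℝ≥0∞} (h : H ≤ K) : att K ≤ att H := by
  exact EReal.exp_monotone (EReal.neg_le_neg_iff.2 (EReal.coe_ennreal_le_coe_ennreal_iff.2 h))

theorem att_le_one (H : ℝ≥0∞) : att H ≤ 1 := by
  exact (att_anti bot_le).trans_eq att_zero

theorem att_le_exp {H : ℝ≥0∞} {x : ℝ} (h : ENNReal.ofReal x ≤ H) :
    att H ≤ ENNReal.ofReal (Real.exp (-x)) := by
  rcases le_total 0 x with hx | hx
  · exact (att_anti h).trans_eq (att_ofReal hx)
  · exact (att_le_one H).trans (ENNReal.one_le_ofReal.2 (Real.one_le_exp (by linarith)))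

theorem exp_le_att {H : ℝ≥0∞} {x : ℝ} (hx : 0 ≤ x) (h : H ≤ ENNReal.ofReal x) :
    ENNReal.ofReal (Real.exp (-x)) ≤ att H := by
  exact (att_ofReal hx).ge.trans (att_anti h)

/-- `1 - H ≤ e^{-H}` -/
theorem one_le_att_add (H : ℝ≥0∞) : 1 ≤ att H + H := by
  rcases eq_or_ne H ⊤ with rfl | h
  · simp
  · rw [att_eq h]
    nth_rewrite 2 [← ENNReal.ofReal_toReal h]
    rw [← ENNReal.ofReal_add (Real.exp_pos _).le ENNReal.toReal_nonneg, ENNReal.one_le_ofReal]
    linarith [Real.add_one_le_exp (-H.toReal)]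

/-- `att` is `1`-Lipschitz -/
theorem att_near {H K e : ℝ≥0∞} (h : Near H K e) : Near (att H) (att K) e := by
  have key : ∀ {H K : ℝ≥0∞}, K ≤ H + e → att H ≤ att K + e := fun {H K} h =>
    calc att H = att H * 1 := (mul_one _).symm
      _ ≤ att H * (att e + e) := mul_le_mul_right (one_le_att_add e) _
      _ = att (H + e) + att H * e := by rw [mul_add, att_add]
      _ ≤ _ := add_le_add (att_anti h) (mul_le_of_le_one_left' (att_le_one H))
  exact ⟨key h.2, key h.1⟩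

/-- the exponential density -/
def a4E (l : ℝ) : ℝ≥0∞ := ENNReal.ofReal (Real.exp (-l))

theorem a4_measE : Measurable a4E := by
  unfold a4E
  fun_prop

theorem a4_E (x : ℝ) : ∫⁻ l in Ioi x, a4E l = a4E x := by
  unfold a4E
  rw [← ofReal_integral_eq_lintegral_ofReal (integrableOn_exp_neg_Ioi x)
    (Eventually.of_forall fun l => (Real.exp_pos _).le), integral_exp_neg_Ioi]

theorem a4_ms (K : ℝ≥0∞) : MeasurableSet {l : ℝ | K < ENNReal.ofReal l} :=
  measurableSet_lt measurable_const ENNReal.measurable_ofReal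

theorem a4_rep (K : ℝ≥0∞) : ∫⁻ l in Ioi 0 ∩ {l | K < ENNReal.ofReal l}, a4E l = att K := by
  rcases eq_or_ne K ⊤ with rfl | h
  · simp [att_top]
  · have : Ioi 0 ∩ {l | K < ENNReal.ofReal l} = Ioi K.toReal := Set.ext fun l => by
      rw [mem_inter_iff, mem_ofPred_eq, ENNReal.lt_ofReal_iff_toReal_lt h]
      exact ⟨fun h => h.2, fun h => ⟨ENNReal.toReal_nonneg.trans_lt h, h⟩⟩
    rw [this, a4_E, att_eq h, a4E]

theorem a4_layer {g H : ℝ → ℝ≥0∞} (hg : Measurable g) (hH : Measurable H) (S : Set ℝ) :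
    ∫⁻ u in S, g u * att (H u) =
      ∫⁻ l in Ioi 0, a4E l * ∫⁻ u in S ∩ {u | H u < ENNReal.ofReal l}, g u := by
  have h1 : ∀ u, g u * att (H u) =
      ∫⁻ l in Ioi 0, if H u < ENNReal.ofReal l then a4E l * g u else 0 := fun u => by
    rw [← a4_rep, inter_comm, ← Measure.restrict_restrict (a4_ms _), ← lintegral_indicator (a4_ms _),
      ← lintegral_const_mul _ (a4_measE.indicator (a4_ms _))]
    refine lintegral_congr fun l => ?_
    simp only [indicator, mem_ofPred_eq, mul_ite, mul_zero, mul_comm]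
  simp only [h1]
  rw [lintegral_lintegral_swap (Measurable.aemeasurable (Measurable.ite (measurableSet_lt
    (hH.comp measurable_fst) (ENNReal.measurable_ofReal.comp measurable_snd))
    ((a4_measE.comp measurable_snd).mul (hg.comp measurable_fst)) measurable_const))]
  refine lintegral_congr fun l => ?_
  have h2 : MeasurableSet {u | H u < ENNReal.ofReal l} := measurableSet_lt hH measurable_const
  rw [inter_comm, ← Measure.restrict_restrict h2, ← lintegral_indicator h2,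
    ← lintegral_const_mul _ (hg.indicator h2)]
  refine lintegral_congr fun u => ?_
  simp only [indicator, mem_ofPred_eq, mul_ite, mul_zero]

theorem a4_min (K : ℝ≥0∞) : (∫⁻ l in Ioi 0, a4E l * min (ENNReal.ofReal l) K) + att K = 1 := by
  have h1 := a4_layer (g := fun _ => 1) measurable_const ENNReal.measurable_ofReal
    (Ioi 0 \ {l | K < ENNReal.ofReal l})
  rw [setLIntegral_congr_fun (g := a4E) (measurableSet_Ioi.diff (a4_ms K))
    (fun u hu => (one_mul _).trans (att_ofReal (le_of_lt hu.1))),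
    setLIntegral_congr_fun (g := fun l => a4E l * min (ENNReal.ofReal l) K) measurableSet_Ioi
      fun l hl => ?_] at h1
  · rw [← h1, ← a4_rep, add_comm, lintegral_inter_add_sdiff _ _ (a4_ms K), a4_E]
    simp [a4E]
  · beta_reduce
    rw [setLIntegral_one]
    congr 1
    rcases le_or_gt (ENNReal.ofReal l) K with h | h
    · rw [min_eq_left h]
      refine Eq.trans (congrArg _ ?_) (Real.volume_Ioo.trans (congrArg _ (sub_zero l)))
      ext u
      simp only [mem_inter_iff, Set.mem_sdiff, mem_Ioi, mem_ofPred_eq, mem_Ioo, not_lt,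
        ENNReal.ofReal_lt_ofReal_iff hl]
      exact ⟨fun h => ⟨h.1.1, h.2⟩,
        fun h' => ⟨⟨h'.1, (ENNReal.ofReal_le_ofReal h'.2.le).trans h⟩, h'.2⟩⟩
    · rw [min_eq_right h.le]
      nth_rewrite 2 [← ENNReal.ofReal_toReal h.ne_top]
      rw [← sub_zero K.toReal, ← Real.volume_Ioc]
      congr 1
      ext u
      simp only [mem_inter_iff, Set.mem_sdiff, mem_Ioi, mem_ofPred_eq, mem_Ioc, not_lt,
        ← ENNReal.ofReal_le_iff_le_toReal h.ne_top]
      exact ⟨fun h => h.1, fun h' => ⟨h', h'.2.trans_lt h⟩⟩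

theorem a4_one : ∫⁻ l in Ioi 0, a4E l * ENNReal.ofReal l = 1 := by
  simpa [att_top] using a4_min ⊤

/-- subsets of `S` are exhausted by the sets `I u` -/
def a4P (S : Set ℝ) (I : ℝ → Set ℝ) : Prop :=
  ∀ (g : ℝ → ℝ≥0∞) (A : Set ℝ) (c : ℝ≥0∞), A ⊆ S → (∀ u ∈ A, ∫⁻ τ in I u, g τ ≤ c) →
    ∫⁻ τ in A, g τ ≤ c

theorem a4_Pf (s t : ℝ) : a4P (Ioo s t) fun u => Ioo s u := fun g A c hA h => by
  have h1 : A ≤ᵐ[volume] ⋃ q : {q : ℚ // ∃ u ∈ A, (q : ℝ) < u}, Ioo s q.1 := by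
    have key : ∀ u ∈ A \ ⋃ q : {q : ℚ // ∃ u ∈ A, (q : ℝ) < u}, Ioo s q.1, ∀ u' ∈ A, u' ≤ u :=
      fun u hu u' hu' => not_lt.1 fun hlt => by
        obtain ⟨q, h1, h2⟩ := exists_rat_btwn hlt
        exact hu.2 (mem_iUnion.2 ⟨⟨q, u', hu', h2⟩, (hA hu.1).1, h1⟩)
    exact ae_le_set.2 (Set.Subsingleton.measure_zero
      (fun u hu u' hu' => le_antisymm (key u' hu' u hu.1) (key u hu u' hu'.1)) _)
  refine (lintegral_mono_set' h1).trans ?_
  refine (setLIntegral_iUnion_of_directed _ (Monotone.directed_le fun q q' hq =>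
    Ioo_subset_Ioo_right (Rat.cast_le.2 (Subtype.coe_le_coe.2 hq)))).trans_le (iSup_le fun q => ?_)
  obtain ⟨u, hu, h2⟩ := q.2
  exact (lintegral_mono_set (Ioo_subset_Ioo_right h2.le)).trans (h u hu)

theorem a4_Pb (s t : ℝ) : a4P (Ioo s t) fun u => Ioo u t := fun g A c hA h => by
  have h1 : A ≤ᵐ[volume] ⋃ q : {q : ℚ // ∃ u ∈ A, u < (q : ℝ)}, Ioo (q.1 : ℝ) t := by
    have key : ∀ u ∈ A \ ⋃ q : {q : ℚ // ∃ u ∈ A, u < (q : ℝ)}, Ioo (q.1 : ℝ) t, ∀ u' ∈ A, u ≤ u' :=
      fun u hu u' hu' => not_lt.1 fun hlt => by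
        obtain ⟨q, h1, h2⟩ := exists_rat_btwn hlt
        exact hu.2 (mem_iUnion.2 ⟨⟨q, u', hu', h1⟩, h2, (hA hu.1).2⟩)
    exact ae_le_set.2 (Set.Subsingleton.measure_zero
      (fun u hu u' hu' => le_antisymm (key u hu u' hu'.1) (key u' hu' u hu.1)) _)
  refine (lintegral_mono_set' h1).trans ?_
  refine (setLIntegral_iUnion_of_directed _ (Antitone.directed_le fun q q' hq =>
    Ioo_subset_Ioo_left (Rat.cast_le.2 (Subtype.coe_le_coe.2 hq)))).trans_le (iSup_le fun q => ?_)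
  obtain ⟨u, hu, h2⟩ := q.2
  exact (lintegral_mono_set (Ioo_subset_Ioo_left h2.le)).trans (h u hu)

theorem a4_meas {α : Type*} [MeasurableSpace α] {h : ℝ → ℝ≥0∞} (hm : Measurable h) {a b : α → ℝ}
    (ha : Measurable a) (hb : Measurable b) : Measurable fun x => ∫⁻ τ in Ioo (a x) (b x), h τ := by
  simp only [← lintegral_indicator measurableSet_Ioo]
  exact Measurable.lintegral_prod_right' (f := fun p : α × ℝ => (Ioo (a p.1) (b p.1)).indicator h p.2)
    ((hm.comp measurable_snd).indicator ((measurableSet_lt (ha.comp measurable_fst)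
      measurable_snd).inter (measurableSet_lt measurable_snd (hb.comp measurable_fst))))

theorem a4_split (F : ℝ → ℝ≥0∞) {a b c : ℝ} (h1 : a ≤ b) (h2 : b ≤ c) :
    ∫⁻ u in Ioo a c, F u = (∫⁻ u in Ioo a b, F u) + ∫⁻ u in Ioo b c, F u := by
  simp only [setLIntegral_congr Ioo_ae_eq_Ioc]
  rw [← lintegral_union measurableSet_Ioc (Ioc_disjoint_Ioc_of_le le_rfl), Ioc_union_Ioc_eq_Ioc h1 h2]

theorem a4_le {S : Set ℝ} {I : ℝ → Set ℝ} (hI : a4P S I) (h : ℝ → ℝ≥0∞) (c : ℝ≥0∞) :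
    ∫⁻ u in S ∩ {u | ∫⁻ τ in I u, h τ < c}, h u ≤ c :=
  hI _ _ _ inter_subset_left fun _ hu => le_of_lt hu.2

theorem a4_eq {S : Set ℝ} {I J : ℝ → Set ℝ} (hI : a4P S I) (hJ : a4P S J) {h : ℝ → ℝ≥0∞}
    (hm : Measurable h) (hH : Measurable fun u => ∫⁻ τ in I u, h τ)
    (hs : ∀ u ∈ S, ∫⁻ τ in S, h τ = (∫⁻ τ in I u, h τ) + ∫⁻ τ in J u, h τ)
    (hfin : ∫⁻ u in S, h u ≠ ⊤) :
    (∫⁻ u in S, h u * att (∫⁻ τ in I u, h τ)) + att (∫⁻ τ in S, h τ) = 1 := by
  rw [a4_layer hm hH, ← a4_min (∫⁻ τ in S, h τ)]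
  refine congrArg (· + _) (lintegral_congr fun l => congrArg _ (le_antisymm
    (le_min (a4_le hI h _) (lintegral_mono_set inter_subset_left)) ?_))
  generalize ENNReal.ofReal l = c
  have h1 := lintegral_inter_add_sdiff (μ := volume) h S
    (measurableSet_lt hH (measurable_const (a := c)))
  have h2 := hJ h (S \ {u | ∫⁻ τ in I u, h τ < c}) ((∫⁻ τ in S, h τ) - min c (∫⁻ τ in S, h τ))
    sdiff_subset fun u hu => by
      refine ENNReal.le_sub_of_add_le_left (ne_top_of_le_ne_top hfin (min_le_right _ _)) ?_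
      conv_rhs => rw [hs u hu.1]
      exact add_le_add_left ((min_le_left _ _).trans (not_lt.1 hu.2)) _
  refine ENNReal.le_of_add_le_add_right (ENNReal.sub_ne_top (b := min c (∫⁻ τ in S, h τ)) hfin) ?_
  rw [add_tsub_cancel_of_le (min_le_right _ _)]
  exact h1.ge.trans (add_le_add_right h2 _)

theorem a4_cmp {S : Set ℝ} {I : ℝ → Set ℝ} (hI : a4P S I) {g h : ℝ → ℝ≥0∞} (hg : Measurable g)
    (hH : Measurable fun u => ∫⁻ τ in I u, h τ) {δ : ℝ≥0∞}
    (hc : ∀ u ∈ S, ∫⁻ τ in I u, g τ ≤ δ * ((∫⁻ τ in I u, h τ) + 1)) :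
    ∫⁻ u in S, g u * att (∫⁻ τ in I u, h τ) ≤ 2 * δ := by
  have h0 : Measurable fun l => a4E l * ENNReal.ofReal l := a4_measE.mul ENNReal.measurable_ofReal
  rw [a4_layer hg hH]
  calc _ ≤ ∫⁻ l in Ioi 0, δ * (a4E l * ENNReal.ofReal l + a4E l) := by
        refine lintegral_mono fun l => ?_
        rw [← mul_add_one, mul_left_comm]
        refine mul_le_mul_right (hI _ _ _ inter_subset_left fun u hu => (hc u hu.1).trans ?_) _
        exact mul_le_mul_right (add_le_add_left (le_of_lt hu.2) _) _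
    _ = _ := by
        rw [lintegral_const_mul _ (h0.fun_add a4_measE), lintegral_add_left h0, a4_one, a4_E, mul_comm]
        simp [a4E, one_add_one_eq_two]

/-- Layer cake, forward: `∫_s^t h(u) e^{-∫_s^u h} du + e^{-∫_s^t h} = 1`.  Proof: write
`e^{-x} = ∫_{λ > x} e^{-λ} dλ`; by Tonelli the integral is `∫ e^{-λ} μ{u | H(u) < λ} dλ` where
`μ = h du` and `H u = μ(s,u)`; `{u | H u < λ}` is an initial interval of `μ`-measure
`min λ (H t)` when `μ` is finite (`H` is continuous and monotone, `μ` has no atoms).  For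
infinite `h` or `H` truncate (`h ⊓ n`, monotone convergence for `≥`/Fatou) or argue directly:
we only claim the equality when `H t < ∞`, and `≤` in general.  (Alternatively: absolutely
continuous chain rule, `intervalIntegral`/`AbsolutelyContinuousOnInterval`.) -/
theorem layer_fwd_eq {h : ℝ → ℝ≥0∞} (hm : Measurable h) {s t : ℝ} (hst : s ≤ t)
    (hfin : ∫⁻ u in Ioo s t, h u ≠ ⊤) :
    (∫⁻ u in Ioo s t, h u * att (∫⁻ τ in Ioo s u, h τ)) + att (∫⁻ τ in Ioo s t, h τ) = 1 := by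
  exact a4_eq (a4_Pf s t) (a4_Pb s t) hm (a4_meas hm measurable_const measurable_id)
    (fun u hu => a4_split h hu.1.le hu.2.le) hfin

theorem layer_bwd_eq {h : ℝ → ℝ≥0∞} (hm : Measurable h) {s t : ℝ} (hst : s ≤ t)
    (hfin : ∫⁻ u in Ioo s t, h u ≠ ⊤) :
    (∫⁻ u in Ioo s t, h u * att (∫⁻ τ in Ioo u t, h τ)) + att (∫⁻ τ in Ioo s t, h τ) = 1 := by
  exact a4_eq (a4_Pb s t) (a4_Pf s t) hm (a4_meas hm measurable_id measurable_const)
    (fun u hu => (a4_split h hu.1.le hu.2.le).trans (add_comm _ _)) hfin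

/-- without finiteness (if `∫_u^t h = ∞` the integrand vanishes; on the final interval where it
is finite exhaust by intervals `(u_n, t)` and use `layer_bwd_eq`) -/
theorem layer_bwd_le {h : ℝ → ℝ≥0∞} (hm : Measurable h) (s t : ℝ) :
    ∫⁻ u in Ioo s t, h u * att (∫⁻ τ in Ioo u t, h τ) ≤ 1 := by
  rw [a4_layer hm (a4_meas hm measurable_id' measurable_const), ← a4_one]
  exact lintegral_mono fun l => mul_le_mul_right (a4_le (a4_Pb s t) h _) _

/-- Layer cake with a comparable density: if `∫_s^u g ≤ δ (∫_s^u h + 1)` for all `u`, then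
`∫ g e^{-H} ≤ 2δ` (as above, `∫ e^{-λ} (g du){H < λ} dλ ≤ ∫ e^{-λ} δ (λ+1) dλ = 2δ`; the set
`{H < λ}` is an increasing union of initial intervals). -/
theorem layer_fwd_cmp {g h : ℝ → ℝ≥0∞} (hg : Measurable g) (hm : Measurable h) {s t : ℝ}
    {δ : ℝ≥0∞} (hc : ∀ u ∈ Ioo s t, ∫⁻ τ in Ioo s u, g τ ≤ δ * ((∫⁻ τ in Ioo s u, h τ) + 1)) :
    ∫⁻ u in Ioo s t, g u * att (∫⁻ τ in Ioo s u, h τ) ≤ 2 * δ := by
  exact a4_cmp (a4_Pf s t) hg (a4_meas hm measurable_const measurable_id) hc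

theorem layer_bwd_cmp {g h : ℝ → ℝ≥0∞} (hg : Measurable g) (hm : Measurable h) {s t : ℝ}
    {δ : ℝ≥0∞} (hc : ∀ u ∈ Ioo s t, ∫⁻ τ in Ioo u t, g τ ≤ δ * ((∫⁻ τ in Ioo u t, h τ) + 1)) :
    ∫⁻ u in Ioo s t, g u * att (∫⁻ τ in Ioo u t, h τ) ≤ 2 * δ := by
  exact a4_cmp (a4_Pb s t) hg (a4_meas hm measurable_id measurable_const) hc

theorem Mild.mono {F C : PF} {f : XF} {T T' : ℝ} (h : Mild F C f T) (hT : T' ≤ T) :
    Mild F C f T' := by
  exact fun t ht => h t ⟨ht.1, ht.2.trans hT⟩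

/-- the coefficients only matter on `(0, T)` -/
theorem Mild.congr {F C C' : PF} {f : XF} {T : ℝ} (h : Mild F C f T)
    (hC : ∀ s ∈ Ioo 0 T, ∀ x v, C s x v = C' s x v) : Mild F C' f T := by
  intro t ht y v
  have h1 : ∀ s ∈ Ioo 0 t, ∀ x, C s x = C' s x := fun s hs x =>
    funext (hC s ⟨hs.1, hs.2.trans_le ht.2⟩ x)
  have h2 : ∀ s, 0 ≤ s → Hz C y v s t = Hz C' y v s t := fun s hs =>
    setLIntegral_congr_fun measurableSet_Ioo fun τ hτ => by
      simp only [h1 τ ⟨hs.trans_lt hτ.1, hτ.2⟩]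
  rw [h t ht, h2 0 le_rfl]
  exact congrArg _ (setLIntegral_congr_fun measurableSet_Ioo fun s hs => by
    simp only [h1 s hs, h2 s hs.1.le])

theorem Mild.zero {F C : PF} {f : XF} {T : ℝ} (h : Mild F C f T) (hT : 0 ≤ T) (x v : R3) :
    F 0 x v = f x v := by
  simpa [Hz, att_zero] using h 0 ⟨le_rfl, hT⟩ x v

/-- restart at time `s` (`Hz_add`, `att_add`, split the integral) -/
theorem Mild.restart {F C : PF} {f : XF} {T : ℝ} (h : Mild F C f T) (hC : Meas C) {s t : ℝ}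
    (hs : 0 ≤ s) (hst : s ≤ t) (ht : t ≤ T) (y v : R3) :
    F t (y + t • v) v = F s (y + s • v) v * att (Hz C y v s t) +
      ∫⁻ u in Ioo s t, att (Hz C y v u t) * Qp (C u (y + u • v)) (C u (y + u • v)) v := by
  rw [h t ⟨hs.trans hst, ht⟩, h s ⟨hs, hst.trans ht⟩, a4_split _ hs hst, Hz_add C y v hs hst,
    att_add, add_mul, mul_assoc, add_assoc,
    ← lintegral_mul_const' _ _ (ne_top_of_le_ne_top ENNReal.one_ne_top (att_le_one _))]
  congr 2
  refine setLIntegral_congr_fun measurableSet_Ioo fun u hu => ?_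
  beta_reduce
  rw [Hz_add C y v hu.2.le hst, att_add, mul_right_comm]

theorem a4_tri {K : ℝ → ℝ → ℝ≥0∞} (hK : Measurable fun p : ℝ × ℝ => K p.2 p.1) (t : ℝ) :
    ∫⁻ s in Ioo 0 t, ∫⁻ u in Ioo 0 s, K u s = ∫⁻ u in Ioo 0 t, ∫⁻ s in Ioo u t, K u s := by
  have h := lintegral_lintegral_swap (μ := volume.restrict (Ioo 0 t)) (ν := volume.restrict (Ioo 0 t))
    (f := fun s u => if u < s then K u s else 0)
    (Measurable.ite (measurableSet_lt measurable_snd measurable_fst) hK measurable_const).aemeasurable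
  refine Eq.trans (setLIntegral_congr_fun measurableSet_Ioo fun s hs => ?_)
    (h.trans (setLIntegral_congr_fun measurableSet_Ioo fun u hu => ?_))
  · refine Eq.trans ?_ (lintegral_indicator measurableSet_Iio fun u => K u s).symm
    rw [Measure.restrict_restrict measurableSet_Iio, inter_comm, Ioo_inter_Iio, min_eq_right hs.2.le]
  · refine (lintegral_indicator measurableSet_Ioi fun s => K u s).trans ?_
    rw [Measure.restrict_restrict measurableSet_Ioi, inter_comm, Ioo_inter_Ioi, max_eq_right hu.1.le]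

theorem a4_am {ν Q φ : ℝ → ℝ≥0∞} (hν : Measurable ν) (hQ : Measurable Q) {t : ℝ} (ht : 0 ≤ t)
    (hfin : ∫⁻ τ in Ioo 0 t, ν τ ≠ ⊤) {f : ℝ≥0∞}
    (hφ : ∀ s ∈ Icc 0 t, φ s = f * att (∫⁻ τ in Ioo 0 s, ν τ) +
      ∫⁻ u in Ioo 0 s, att (∫⁻ τ in Ioo u s, ν τ) * Q u) :
    φ t + ∫⁻ s in Ioo 0 t, ν s * φ s = f + ∫⁻ s in Ioo 0 t, Q s := by
  have m1 : ∀ u, Measurable fun s => ν s * att (∫⁻ τ in Ioo u s, ν τ) := fun u =>
    hν.mul (measurable_att.comp (a4_meas hν measurable_const measurable_id))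
  have m2 : ∀ s, Measurable fun u => att (∫⁻ τ in Ioo u s, ν τ) * Q u := fun s =>
    (measurable_att.comp (a4_meas hν measurable_id measurable_const)).mul hQ
  have h1 : ∫⁻ s in Ioo 0 t, ν s * φ s = f * (∫⁻ s in Ioo 0 t, ν s * att (∫⁻ τ in Ioo 0 s, ν τ)) +
      ∫⁻ s in Ioo 0 t, ∫⁻ u in Ioo 0 s, ν s * att (∫⁻ τ in Ioo u s, ν τ) * Q u := by
    rw [← lintegral_const_mul _ (m1 0), ← lintegral_add_left ((m1 0).const_mul f)]
    refine setLIntegral_congr_fun measurableSet_Ioo fun s hs => ?_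
    rw [hφ s (Ioo_subset_Icc_self hs), mul_add, mul_left_comm, ← lintegral_const_mul _ (m2 s)]
    simp only [mul_assoc]
  rw [h1, a4_tri (((hν.comp measurable_fst).mul (measurable_att.comp
    (a4_meas hν measurable_snd measurable_fst))).mul (hQ.comp measurable_snd)), hφ t ⟨ht, le_rfl⟩,
    add_add_add_comm, ← mul_add, add_comm (att _), layer_fwd_eq hν ht hfin, mul_one,
    ← lintegral_add_left (m2 t)]
  refine congrArg _ (setLIntegral_congr_fun measurableSet_Ioo fun u hu => ?_)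
  rw [lintegral_mul_const _ (m1 u), ← add_mul, add_comm, layer_fwd_eq hν hu.2.le
    (ne_top_of_le_ne_top hfin (lintegral_mono_set (Ioo_subset_Ioo_left hu.1.le))), one_mul]

/-- exponential form implies additive form: insert the mild formula into `∫ ν F`, Tonelli and
`layer_fwd_eq`. -/
theorem Mild.am {F : PF} {f : XF} {T : ℝ} (h : Mild F F f T) (hF : Meas F) {y v : R3}
    (hfin : Hz F y v 0 T ≠ ⊤) : AM F f T y v := by
  intro t ht
  have hm : Measurable fun s : ℝ => (s, y + s • v, v) := by fun_prop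
  exact a4_am (φ := fun s => F s (y + s • v) v) (hF.Nu.comp hm) ((hF.Qp hF).comp hm) ht.1
    (ne_top_of_le_ne_top hfin (lintegral_mono_set (Ioo_subset_Ioo_right ht.2)))
    fun s hs => h s ⟨hs.1, hs.2.trans ht.2⟩ y v

end

end Crest.Agent.R68
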