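import Crest.Agent.R68.A1
import Crest.Agent.R68.A3

/-!
# R68 (S0091): Gaussian bounds for the gain term
-/

set_option autoImplicit false

namespace Crest.Agent.R68

open MeasureTheory Set Filter Crest.AnalysisR.VecCalc3 Crest.AnalysisR.PDE.Boltzmann
open scoped ENNReal _root_.Topology

noncomputable section

theorem a5_meas (θ : ℝ) : Measurable (Gs θ) :=
  measurable_Gs.comp (measurable_const.prodMk measurable_id)

theorem a5_Gs_mul (θ θ' : ℝ) (v w : R3) :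
    Gs θ v * Gs θ' w = ENNReal.ofReal (Real.exp (-θ * ‖v‖ ^ 2 / 2 + -θ' * ‖w‖ ^ 2 / 2)) := by
  rw [Gs, Gs, ← ENNReal.ofReal_mul (Real.exp_pos _).le, Real.exp_add]

theorem a5_Gs_neg (θ : ℝ) (a : R3) : Gs θ a * Gs (-θ) a = 1 := by
  rw [← Gs_add, add_neg_cancel]
  simp [Gs]

theorem a5_gauss {θ : ℝ} (hθ : 0 < θ) :
    ∫⁻ η : ℂ, ENNReal.ofReal (Real.exp (-(θ / 2) * ‖η‖ ^ 2)) = ENNReal.ofReal (2 * Real.pi / θ) := by
  have h := GaussianFourier.integral_rexp_neg_mul_sq_norm (V := ℂ) (half_pos hθ)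
  have e : (Real.pi / (θ / 2)) ^ ((Module.finrank ℝ ℂ : ℝ) / 2) = 2 * Real.pi / θ := by
    rw [Complex.finrank_real_complex, Nat.cast_ofNat, div_self two_ne_zero, Real.rpow_one]
    field_simp
  rw [e] at h
  have hi : Integrable fun η : ℂ => Real.exp (-(θ / 2) * ‖η‖ ^ 2) :=
    Integrable.of_integral_ne_zero (by rw [h]; positivity)
  rw [← ofReal_integral_eq_lintegral_ofReal hi (Eventually.of_forall fun _ => (Real.exp_pos _).le), h]

theorem a5_plane {θ : ℝ} (hθ : 0 < θ) (a : R3) (J : ℂ →ₗᵢ[ℝ] R3) : ∃ η₀ : ℂ,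
    ∫⁻ η : ℂ, Gs θ (a + J η) = Gs θ (a + J η₀) * ENNReal.ofReal (2 * Real.pi / θ) := by
  obtain ⟨η₀, h₀⟩ : ∃ η₀ : ℂ, ∀ η, inner ℝ (a + J η₀) (J η) = 0 := by
    refine ⟨-(LinearMap.adjoint J.toLinearMap a), fun η => ?_⟩
    rw [inner_add_left, J.inner_map_map, inner_neg_left, LinearMap.adjoint_inner_left]
    exact add_neg_cancel _
  refine ⟨η₀, ?_⟩
  have e : ∀ η, Gs θ (a + J η) =
      Gs θ (a + J η₀) * ENNReal.ofReal (Real.exp (-(θ / 2) * ‖η - η₀‖ ^ 2)) := fun η => by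
    have e1 : a + J η = (a + J η₀) + J (η - η₀) := by rw [map_sub]; abel
    rw [Gs, Gs, ← ENNReal.ofReal_mul (Real.exp_pos _).le, ← Real.exp_add, e1, norm_add_sq_real, h₀,
      J.norm_map]
    congr 2
    ring
  rw [lintegral_congr e, lintegral_const_mul' _ _ (Gs_ne_top _ _),
    lintegral_sub_right_eq_self (fun η : ℂ => ENNReal.ofReal (Real.exp (-(θ / 2) * ‖η‖ ^ 2))) η₀,
    a5_gauss hθ]

theorem a5_kk : ∫⁻ p, kk p ≠ ⊤ := by
  have h1 : Integrable fun p : R3 => ‖p‖⁻¹ * Real.exp (-(1 / 200) * ‖p‖ ^ 2) := by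
    rw [integrable_fun_norm_addHaar volume (f := fun y : ℝ => y⁻¹ * Real.exp (-(1 / 200) * y ^ 2))]
    refine (integrable_mul_exp_neg_mul_sq (b := 1 / 200) (by norm_num)).integrableOn.congr_fun
      (fun y (hy : 0 < y) => ?_) measurableSet_Ioi
    simp only [finrank_euclideanSpace_fin, smul_eq_mul]
    field_simp
  have h2 := h1.lintegral_lt_top
  refine ne_top_of_le_ne_top h2.ne (lintegral_mono_ae ?_)
  have h0 : ∀ᵐ p : R3, p ≠ 0 := by
    rw [ae_iff]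
    simp
  filter_upwards [h0] with p hp
  have hp' := norm_pos_iff.2 hp
  rw [kk, Gs, ENNReal.ofReal_mul (inv_pos.2 hp').le, ENNReal.ofReal_inv_of_pos hp']
  refine le_of_eq ?_
  congr 3
  ring

theorem a5_br_eq (p : R3) : br p = 1 + ENNReal.ofReal ‖p‖ := by
  rw [br, ENNReal.ofReal_add zero_le_one (norm_nonneg _), ENNReal.ofReal_one]

theorem a5_one_le_br (p : R3) : 1 ≤ br p := a5_br_eq p ▸ le_self_add

theorem a5_br_ne_top (p : R3) : br p ≠ ⊤ := ENNReal.ofReal_ne_top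

theorem a5_br_inv (p : R3) : br p * (ENNReal.ofReal ‖p‖)⁻¹ ≤ 2 * kk p + 2 := by
  have h1 : (ENNReal.ofReal ‖p‖)⁻¹ ≤ 2 * kk p + 1 := by
    rcases le_total ‖p‖ 1 with h | h
    · refine le_trans ?_ le_self_add
      have h2 : 1 ≤ 2 * Gs (1 / 100) p := by
        have h3 : (2 : ℝ≥0∞) = ENNReal.ofReal 2 := (ENNReal.ofReal_ofNat 2).symm
        refine le_of_le_of_eq ?_ (congrArg (· * Gs (1 / 100) p) h3.symm)
        rw [Gs, ← ENNReal.ofReal_mul (by norm_num), ENNReal.one_le_ofReal]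
        have := Real.add_one_le_exp (-(1 / 100) * ‖p‖ ^ 2 / 2)
        nlinarith [norm_nonneg p]
      rw [kk, mul_left_comm]
      exact le_mul_of_one_le_right' h2
    · exact le_trans (ENNReal.inv_le_one.2 (ENNReal.one_le_ofReal.2 h)) le_add_self
  rw [a5_br_eq, add_mul, one_mul]
  calc _ ≤ (2 * kk p + 1) + 1 := add_le_add h1 (ENNReal.mul_inv_le_one _)
    _ = _ := by rw [add_assoc, one_add_one_eq_two]

theorem a5_one_le (p : R3) : 1 ≤ br p * (ENNReal.ofReal ‖p‖)⁻¹ := by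
  rw [← ENNReal.mul_inv_cancel (zero_lt_one.trans_le (a5_one_le_br p)).ne' (a5_br_ne_top p)]
  gcongr
  rw [a5_br_eq]
  exact le_add_self

theorem a5_br_le (v a : R3) : br v ≤ br a * br (v - a) := by
  rw [br, br, br, ← ENNReal.ofReal_mul (by positivity)]
  refine ENNReal.ofReal_le_ofReal ?_
  have h1 := norm_add_le a (v - a)
  rw [add_sub_cancel] at h1
  nlinarith [norm_nonneg a, norm_nonneg (v - a)]

theorem a5_meas_sub (v : R3) : Measurable fun a : R3 => kk (v - a) :=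
  measurable_kk.comp (measurable_const.sub measurable_id)

/-- plane integrals of Gaussians: `‖a + J η‖² ≥ ‖η - η₀‖²` where `-J η₀` is the orthogonal
projection of `a` on the range of `J`; `∫_ℂ exp(-θ‖η‖²/2) = 2π/θ`
(`GaussianFourier.integral_rexp_neg_mul_sq_norm`). -/
theorem plane_Gs {θ : ℝ} (hθ : 0 < θ) (a : R3) (J : ℂ →ₗᵢ[ℝ] R3) :
    ∫⁻ η : ℂ, Gs θ (a + J η) ≤ ENNReal.ofReal (2 * Real.pi / θ) := by
  obtain ⟨η₀, h⟩ := a5_plane hθ a J
  rw [h]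
  exact mul_le_of_le_one_left' (Gs_le_one hθ.le _)

/-- For `z ⊥ a - v`: `‖a‖² + ‖v + z‖² = ‖v‖² + ‖a + z‖²`; `Qp_le_plane`, `plane_Gs`. -/
theorem Qp_Gs_le {f : VF} (hf : Measurable f) {θ : ℝ} (hθ : 0 < θ) (v : R3) :
    Qp f (Gs θ) v ≤ ENNReal.ofReal (4 * Real.pi / θ) * Gs θ v *
      As (fun a => f a * Gs (-θ) a) v := by
  have h := Qp_le_plane hf (a5_meas θ) v
    (fun a => Gs θ v * Gs (-θ) a * ENNReal.ofReal (2 * Real.pi / θ)) (fun a _ J hJ => by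
      have e : ∀ η, Gs θ (v + J η) = Gs θ v * Gs (-θ) a * Gs θ (a + J η) := fun η => by
        have h1 := hJ η
        rw [inner_sub_right, sub_eq_zero, real_inner_comm, real_inner_comm v] at h1
        rw [a5_Gs_mul, Gs, Gs, ← ENNReal.ofReal_mul (Real.exp_pos _).le, ← Real.exp_add,
          norm_add_sq_real, norm_add_sq_real, h1]
        congr 2
        ring
      simp only [e]
      rw [lintegral_const_mul' _ _ (ENNReal.mul_ne_top (Gs_ne_top _ _) (Gs_ne_top _ _))]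
      gcongr
      exact plane_Gs hθ a J)
  refine h.trans (le_of_eq ?_)
  have e : ENNReal.ofReal (4 * Real.pi / θ) = 2 * ENNReal.ofReal (2 * Real.pi / θ) := by
    rw [← ENNReal.ofReal_ofNat, ← ENNReal.ofReal_mul (by norm_num)]
    congr 1
    ring
  rw [e, mul_assoc, mul_assoc, As, ← mul_assoc (ENNReal.ofReal _),
    ← lintegral_const_mul' _ _ (ENNReal.mul_ne_top ENNReal.ofReal_ne_top (Gs_ne_top _ _))]
  congr 1
  exact lintegral_congr fun a => by ring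

/-- potential of a Gaussian: split `‖v - a‖ ≤ 1` (`∫_{‖p‖ ≤ 1} ‖p‖⁻¹ < ∞` by `lintegral_polar`) and
`‖v - a‖ > 1`; for the decay use `‖v - a‖ ≥ ‖v‖/2` or `‖a‖ ≥ ‖v‖/2`. -/
theorem As_Gs_le {θ : ℝ} (hθ : 0 < θ) : ∃ C : ℝ≥0∞, C ≠ ⊤ ∧ ∀ v, br v * As (Gs θ) v ≤ C := by
  obtain ⟨C, hC, h⟩ := br_pow_le 1 hθ
  have h2 := lintegral_br_Gs 1 hθ
  simp only [pow_one] at h h2
  refine ⟨C * 2 * (∫⁻ p, kk p) + 2 * ∫⁻ a, br a * Gs θ a, by finiteness [a5_kk], fun v => ?_⟩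
  rw [As, ← lintegral_const_mul' _ _ (a5_br_ne_top v), ← lintegral_sub_left_eq_self kk v,
    ← lintegral_const_mul' _ _ (by finiteness), ← lintegral_const_mul' 2 _ (by finiteness),
    ← lintegral_add_left ((a5_meas_sub v).const_mul _)]
  refine lintegral_mono fun a => ?_
  calc br v * (Gs θ a * (ENNReal.ofReal ‖v - a‖)⁻¹)
      ≤ br a * br (v - a) * (Gs θ a * (ENNReal.ofReal ‖v - a‖)⁻¹) := by
        gcongr
        exact a5_br_le v a
    _ = br a * Gs θ a * (br (v - a) * (ENNReal.ofReal ‖v - a‖)⁻¹) := by ring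
    _ ≤ br a * Gs θ a * (2 * kk (v - a) + 2) := by
        gcongr
        exact a5_br_inv _
    _ = br a * Gs θ a * 2 * kk (v - a) + 2 * (br a * Gs θ a) := by ring
    _ ≤ _ := by
        gcongr
        exact h a

theorem Qp_Gs_Gs_le {θ θ' : ℝ} (hθ' : 0 < θ') (h : θ' < θ) :
    ∃ C : ℝ≥0∞, C ≠ ⊤ ∧ ∀ v, Qp (Gs θ) (Gs θ') v ≤ C * Gs θ' v := by
  obtain ⟨C, hC, hA⟩ := As_Gs_le (sub_pos.2 h)
  refine ⟨ENNReal.ofReal (4 * Real.pi / θ') * C, by finiteness, fun v => ?_⟩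
  refine (Qp_Gs_le (a5_meas θ) hθ' v).trans ?_
  simp only [← Gs_add, ← sub_eq_add_neg]
  rw [mul_right_comm]
  gcongr
  exact (le_mul_of_one_le_left' (a5_one_le_br v)).trans (hA v)

/-- uniform in `θ ≥ 1/10` (`Qp_Gs_Gs`, `Nu_Gs_le`, `Gs_anti`) -/
theorem Qp_Gs_self_le : ∃ C : ℝ≥0∞, C ≠ ⊤ ∧ ∀ θ : ℝ, 1 / 10 ≤ θ → ∀ v,
    Qp (Gs θ) (Gs θ) v ≤ C * (br v * Gs θ v) ∧ Nu (Gs θ) v ≤ C * br v := by
  obtain ⟨C, hC, h⟩ := Nu_Gs_le (θ := 1 / 10) (by norm_num)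
  refine ⟨C, hC, fun θ hθ v => ?_⟩
  have h1 : Nu (Gs θ) v ≤ C * br v := (Nu_mono (Gs_anti hθ) v).trans (h v)
  refine ⟨?_, h1⟩
  rw [Qp_Gs_Gs, ← mul_assoc]
  gcongr

theorem lintegral_kk : ∫⁻ p, kk p ≠ ⊤ := by
  exact a5_kk

theorem a5_lin1 {θ : ℝ} (hθ : θ ∈ Icc (1 / 5 : ℝ) (1 / 4)) {r : VF} (hr : Measurable r) (v : R3) :
    Qp (fun a => r a * Gs θ a) Mx v ≤
      2 * (ENNReal.ofReal (2 * Real.pi / 1) * Gs θ v * ∫⁻ a, kk (v - a) * r a) := by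
  have h := Qp_le_plane (hr.mul (a5_meas θ)) measurable_Mx v
    (fun a => Gs θ v * Gs (-θ) a * Gs (1 / 100) (v - a) * ENNReal.ofReal (2 * Real.pi / 1))
    (fun a _ J hJ => by
      refine (lintegral_mono fun η => Mx_le_Gs le_rfl _).trans ?_
      obtain ⟨η₀, h₀⟩ := a5_plane one_pos v J
      rw [h₀]
      gcongr
      rw [a5_Gs_mul, Gs, Gs, ← ENNReal.ofReal_mul (Real.exp_pos _).le, ← Real.exp_add]
      refine ENNReal.ofReal_le_ofReal (Real.exp_le_exp.2 ?_)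
      have h1 : ‖a‖ ^ 2 = ‖v‖ ^ 2 + 2 * inner ℝ (v + J η₀) (a - v) + ‖a - v‖ ^ 2 := by
        rw [inner_add_left, hJ, add_zero, ← norm_add_sq_real, add_sub_cancel]
      have h2 := (abs_le.1 (abs_real_inner_le_norm (v + J η₀) (a - v))).1
      rw [h1, norm_sub_rev v a]
      obtain ⟨t1, t2⟩ := hθ
      generalize inner ℝ (v + J η₀) (a - v) = i at h2
      generalize ‖v + J η₀‖ = x at h2
      generalize ‖a - v‖ = y at h2
      have h3 : θ * (-(x * y)) ≤ θ * i := mul_le_mul_of_nonneg_left h2 (by linarith)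
      have h4 : 0 ≤ (θ * (1 - θ) - 1 / 100) * y ^ 2 := mul_nonneg (by nlinarith) (sq_nonneg y)
      nlinarith [sq_nonneg (x - θ * y)])
  refine h.trans (le_of_eq ?_)
  rw [← lintegral_const_mul' (_ * Gs θ v) _
    (ENNReal.mul_ne_top ENNReal.ofReal_ne_top (Gs_ne_top _ _))]
  congr 1
  refine lintegral_congr fun a => ?_
  calc _ = (Gs θ a * Gs (-θ) a) * (ENNReal.ofReal (2 * Real.pi / 1) * Gs θ v *
        (kk (v - a) * r a)) := by
        simp only [kk, Pi.mul_apply]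
        ring
    _ = _ := by rw [a5_Gs_neg, one_mul]

theorem a5_lin2 : ∃ C : ℝ≥0∞, C ≠ ⊤ ∧ ∀ θ ∈ Icc (1 / 5 : ℝ) (1 / 4), ∀ v a,
    Mx v * (Nn (v - a) * Gs θ a) ≤ C * Gs θ v * kk (v - a) := by
  obtain ⟨C, hC, h⟩ := br_pow_le 2 (θ := 9 / 100) (by norm_num)
  refine ⟨7 * C, by finiteness, fun θ hθ v a => ?_⟩
  have h1 : Mx v ≤ Gs θ v * Gs θ v := by
    rw [← Gs_add]
    exact Mx_le_Gs (by linarith [hθ.2]) v
  have h2 : Gs θ v * Gs θ a ≤ Gs (9 / 100) (v - a) * Gs (1 / 100) (v - a) := by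
    rw [a5_Gs_mul, a5_Gs_mul]
    refine ENNReal.ofReal_le_ofReal (Real.exp_le_exp.2 ?_)
    have h3 : ‖v - a‖ ^ 2 ≤ (‖v‖ + ‖a‖) ^ 2 :=
      pow_le_pow_left₀ (norm_nonneg _) (norm_sub_le v a) 2
    have h4 : 0 ≤ (θ - 1 / 5) * (‖v‖ ^ 2 + ‖a‖ ^ 2) :=
      mul_nonneg (by linarith [hθ.1]) (by positivity)
    nlinarith [sq_nonneg (‖v‖ - ‖a‖)]
  have h3 : Nn (v - a) ≤ 7 * br (v - a) := by
    have := Nn_le_br (v - a) 0
    simpa [a5_br_eq 0] using this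
  calc Mx v * (Nn (v - a) * Gs θ a) ≤ Gs θ v * Gs θ v * (7 * br (v - a) * Gs θ a) := by gcongr
    _ = 7 * br (v - a) * Gs θ v * (Gs θ v * Gs θ a) * 1 := by ring
    _ ≤ 7 * br (v - a) * Gs θ v * (Gs (9 / 100) (v - a) * Gs (1 / 100) (v - a)) *
        (br (v - a) * (ENNReal.ofReal ‖v - a‖)⁻¹) := by
        gcongr
        exact a5_one_le _
    _ = 7 * (br (v - a) ^ 2 * Gs (9 / 100) (v - a)) * Gs θ v * kk (v - a) := by
        rw [kk]
        ring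
    _ ≤ _ := by
        gcongr
        exact h _

/-- the linearised operator is dominated by the convolution with `kk`.  First term:
`Qp_le_plane` with `f = r G_θ`, `g = M`; for `p = a - v`, `z ⊥ p`, `v∥ = ⟪v,p⟫/‖p‖`:
`∫ M(v + Jη) ≤ 2π exp(-v∥²/2)` (write `v = v∥ p/‖p‖ + J η₀` and use Pythagoras; `range J = p^⊥`
by dimension, or bound `‖v + Jη‖² ≥ v∥² + ‖η + η₀‖²` by Bessel), and
`G_θ(a)/G_θ(v) = exp(-θ v∥‖p‖ - θ‖p‖²/2)`; `-v∥²/2 - θ v∥‖p‖ - θ‖p‖²/2 ≤ -θ(1-θ)‖p‖²/2`.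
Second term: `M(v) Nn(v-a) G_θ(a)/G_θ(v) ≤ 2π‖p‖ exp(-θ(‖v‖²+‖a‖²)/2) ≤ 2π‖p‖exp(-‖p‖²/20)`
and `‖p‖² exp(-‖p‖²/20) ≤ C exp(-‖p‖²/200)`. -/
theorem lin_le_kk : ∃ C : ℝ≥0∞, C ≠ ⊤ ∧ ∀ θ ∈ Icc (1 / 5 : ℝ) (1 / 4), ∀ r : VF, Measurable r →
    ∀ v, 2 * Qp (fun a => r a * Gs θ a) Mx v + Mx v * Nu (fun a => r a * Gs θ a) v ≤
      C * Gs θ v * ∫⁻ a, kk (v - a) * r a := by
  obtain ⟨C, hC, h⟩ := a5_lin2
  refine ⟨2 * (2 * ENNReal.ofReal (2 * Real.pi / 1)) + C, by finiteness, fun θ hθ r hr v => ?_⟩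
  have h1 := a5_lin1 hθ hr v
  have h2 : Mx v * Nu (fun a => r a * Gs θ a) v ≤ C * Gs θ v * ∫⁻ a, kk (v - a) * r a := by
    rw [Nu, ← lintegral_const_mul' (Mx v) _ ENNReal.ofReal_ne_top,
      ← lintegral_const_mul' _ _ (ENNReal.mul_ne_top hC (Gs_ne_top _ _))]
    refine lintegral_mono fun a => ?_
    calc Mx v * (Nn (v - a) * (r a * Gs θ a)) = Mx v * (Nn (v - a) * Gs θ a) * r a := by ring
      _ ≤ C * Gs θ v * kk (v - a) * r a := mul_le_mul' (h θ hθ v a) le_rfl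
      _ = _ := mul_assoc _ _ _
  calc _ ≤ 2 * (2 * (ENNReal.ofReal (2 * Real.pi / 1) * Gs θ v * ∫⁻ a, kk (v - a) * r a)) +
        C * Gs θ v * ∫⁻ a, kk (v - a) * r a := by gcongr
    _ = _ := by ring

/-- `∫₀ᵗ (1 + ‖v‖) e^{-(t-s)‖v‖²/2} ds ≤ t + min (t‖v‖) (2/‖v‖) ≤ 3√t` -/
theorem lintegral_br_decay {s t : ℝ} (hst : s ≤ t) (h1 : t - s ≤ 1) (v : R3) :
    ∫⁻ u in Ioo s t, br v * Gs (t - u) v ≤ ENNReal.ofReal (3 * √(t - s)) := by
  have hd : 0 ≤ t - s := sub_nonneg.2 hst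
  have i1 : IntervalIntegrable (fun x : ℝ => 1 + x ^ (-(1 / 2) : ℝ)) volume (t - s) 0 :=
    intervalIntegrable_const.add (intervalIntegral.intervalIntegrable_rpow' (by norm_num))
  have i2 := i1.comp_sub_left t
  rw [sub_sub_cancel, sub_zero] at i2
  have e1 : ∫ u in s..t, (1 + (t - u) ^ (-(1 / 2) : ℝ)) = t - s + 2 * √(t - s) := by
    rw [intervalIntegral.integral_comp_sub_left (fun x : ℝ => 1 + x ^ (-(1 / 2) : ℝ)) t, sub_self,
      intervalIntegral.integral_add intervalIntegrable_const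
        (intervalIntegral.intervalIntegrable_rpow' (by norm_num)),
      integral_rpow (Or.inl (by norm_num)), Real.sqrt_eq_rpow]
    norm_num
    ring
  calc ∫⁻ u in Ioo s t, br v * Gs (t - u) v
      ≤ ∫⁻ u in Ioo s t, ENNReal.ofReal (1 + (t - u) ^ (-(1 / 2) : ℝ)) := by
        refine setLIntegral_mono' measurableSet_Ioo fun u hu => ?_
        rw [br, Gs, ← ENNReal.ofReal_mul (by positivity)]
        refine ENNReal.ofReal_le_ofReal ?_
        have hτ : 0 < t - u := sub_pos.2 hu.2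
        have hs := Real.sqrt_pos.2 hτ
        have hs2 := Real.sq_sqrt hτ.le
        rw [Real.rpow_neg hτ.le, ← Real.sqrt_eq_rpow, add_mul, one_mul]
        refine add_le_add (Real.exp_le_one_iff.2 (by nlinarith [sq_nonneg ‖v‖])) ?_
        have h2 := Real.add_one_le_exp ((t - u) * ‖v‖ ^ 2 / 2)
        rw [neg_mul, neg_div, Real.exp_neg, ← div_eq_mul_inv, inv_eq_one_div,
          div_le_div_iff₀ (Real.exp_pos _) hs]
        generalize √(t - u) = y at hs hs2 ⊢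
        rw [← hs2] at h2 ⊢
        nlinarith [sq_nonneg (‖v‖ * y - 1)]
    _ = ENNReal.ofReal (t - s + 2 * √(t - s)) := by
        rw [← e1, intervalIntegral.integral_of_le hst, integral_Ioc_eq_integral_Ioo,
          ofReal_integral_eq_lintegral_ofReal ((intervalIntegrable_iff_integrableOn_Ioo_of_le hst).1 i2)]
        refine (ae_restrict_mem measurableSet_Ioo).mono fun u hu => ?_
        have := Real.rpow_nonneg (sub_pos.2 hu.2).le (-(1 / 2) : ℝ)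
        positivity
    _ ≤ _ := by
        refine ENNReal.ofReal_le_ofReal ?_
        have h2 := Real.sq_sqrt hd
        have h3 := Real.sqrt_nonneg (t - s)
        have h4 : √(t - s) ≤ 1 := Real.sqrt_le_one.2 h1
        nlinarith

end

end Crest.Agent.R68
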