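import Crest.Agent.R68.A1

/-!
# R68 (S0091): bilinear estimates on small balls
-/

set_option autoImplicit false

namespace Crest.Agent.R68

open MeasureTheory Set Filter Crest.AnalysisR.VecCalc3 Crest.AnalysisR.PDE.Boltzmann
open scoped ENNReal _root_.Topology

noncomputable section

theorem a6_anti {x y : ℝ≥0∞} (h : x ≤ y) {a : ℝ} (ha : 0 ≤ a) : y ^ (-a) ≤ x ^ (-a) := by
  rw [ENNReal.rpow_neg, ENNReal.rpow_neg]
  exact ENNReal.inv_le_inv.2 (ENNReal.rpow_le_rpow h ha)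

theorem a6_split {N : ℝ≥0∞} (hN : N ≠ ⊤) {a b : ℝ} (ha : 0 < a) (hb : 0 < b) :
    N ^ (-(a + b)) = N ^ (-a) * N ^ (-b) := by
  by_cases h0 : N = 0
  · rw [h0, ENNReal.zero_rpow_of_neg (by linarith), ENNReal.zero_rpow_of_neg (by linarith),
      ENNReal.zero_rpow_of_neg (by linarith), ENNReal.top_mul_top]
  · rw [← ENNReal.rpow_add _ _ h0 hN, neg_add]

theorem a6_holder {α : Type*} [MeasurableSpace α] (μ : Measure α) {j k : α → ℝ≥0∞}
    (hj : Measurable j) (hk : Measurable k) {K D W : ℝ≥0∞} (h : ∫⁻ a, j a ^ pp ∂μ ≤ K ^ pp * W)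
    (hD : ∫⁻ a, k a ^ (41 : ℝ) ∂μ ≤ D ^ (41 : ℝ) * W) : ∫⁻ a, j a * k a ∂μ ≤ K * D * W := by
  have hc : pp.HolderConjugate 41 := by
    rw [Real.holderConjugate_iff]; unfold pp; norm_num
  have h1 := ENNReal.lintegral_mul_le_Lp_mul_Lq μ hc hj.aemeasurable hk.aemeasurable
  have p0 : (0 : ℝ) ≤ 1 / pp := by unfold pp; norm_num
  refine h1.trans ((mul_le_mul' (ENNReal.rpow_le_rpow h p0)
    (ENNReal.rpow_le_rpow hD (by norm_num))).trans_eq ?_)
  rw [ENNReal.mul_rpow_of_nonneg _ _ p0, ENNReal.mul_rpow_of_nonneg _ _ (by norm_num),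
    ← ENNReal.rpow_mul, ← ENNReal.rpow_mul, mul_mul_mul_comm,
    ← ENNReal.rpow_add_of_nonneg _ _ p0 (by norm_num)]
  have e1 : pp * (1 / pp) = 1 := by unfold pp; norm_num
  have e2 : (41 : ℝ) * (1 / 41) = 1 := by norm_num
  have e3 : 1 / pp + 1 / 41 = 1 := by unfold pp; norm_num
  rw [e1, e2, e3, ENNReal.rpow_one, ENNReal.rpow_one, ENNReal.rpow_one]

theorem a6_root {X : ℝ≥0∞} (hX : X ≠ ⊤) : ∃ D : ℝ≥0∞, D ≠ ⊤ ∧ D ^ (41 : ℝ) = X :=
  ⟨X ^ (41 : ℝ)⁻¹, ENNReal.rpow_ne_top_of_nonneg (by norm_num) hX,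
    ENNReal.rpow_inv_rpow (by norm_num) X⟩

/-- the one-dimensional singular integral -/
theorem a6_one {a : ℝ} (h0 : 0 ≤ a) (h1 : a < 1) : ∃ C : ℝ≥0∞, C ≠ ⊤ ∧ C ≠ 0 ∧ ∀ x y δ : ℝ, 0 < δ →
    ∫⁻ s in Metric.closedBall x δ, ENNReal.ofReal |s - y| ^ (-a) ≤
      C * ENNReal.ofReal δ ^ (1 - a) := by
  refine ⟨2 * ENNReal.ofReal (1 / (1 - a)) + 2, by finiteness, by simp, fun x y δ hδ => ?_⟩
  obtain ⟨F, hF⟩ : ∃ F : ℝ → ℝ≥0∞,
      F = (Ioc 0 δ).indicator fun s => ENNReal.ofReal (s ^ (-a)) := ⟨_, rfl⟩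
  have hFm : Measurable F := by
    rw [hF]
    exact Measurable.indicator (by fun_prop) measurableSet_Ioc
  have hFi : ∫⁻ s, F s = ENNReal.ofReal (1 / (1 - a)) * ENNReal.ofReal δ ^ (1 - a) := by
    rw [hF, lintegral_indicator measurableSet_Ioc, ← ofReal_integral_eq_lintegral_ofReal
      (intervalIntegral.intervalIntegrable_rpow' (a := 0) (b := δ) (by linarith)).1,
      ← intervalIntegral.integral_of_le hδ.le, integral_rpow (Or.inl (by linarith)),
      ENNReal.ofReal_rpow_of_pos hδ, ← ENNReal.ofReal_mul (by positivity [sub_pos.2 h1]),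
      Real.zero_rpow (by linarith)]
    · congr 1
      rw [show -a + 1 = 1 - a by ring]; ring
    · filter_upwards [ae_restrict_mem measurableSet_Ioc] with s hs
      exact Real.rpow_nonneg hs.1.le _
  have hpt : ∀ s, s ≠ y → ENNReal.ofReal |s - y| ^ (-a) ≤
      F (s - y) + F (y - s) + ENNReal.ofReal δ ^ (-a) := by
    intro s hs
    by_cases h : δ ≤ |s - y|
    · exact le_add_left (a6_anti (ENNReal.ofReal_le_ofReal h) h0)
    refine le_add_right ?_
    push Not at h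
    rcases lt_or_gt_of_ne hs with h2 | h2
    · refine le_add_left (le_of_eq ?_)
      rw [abs_sub_comm, abs_of_pos (sub_pos.2 h2)] at h ⊢
      rw [hF, indicator_of_mem (show y - s ∈ Ioc 0 δ from ⟨sub_pos.2 h2, h.le⟩),
        ENNReal.ofReal_rpow_of_pos (sub_pos.2 h2)]
    · refine le_add_right (le_of_eq ?_)
      rw [abs_of_pos (sub_pos.2 h2)] at h ⊢
      rw [hF, indicator_of_mem (show s - y ∈ Ioc 0 δ from ⟨sub_pos.2 h2, h.le⟩),
        ENNReal.ofReal_rpow_of_pos (sub_pos.2 h2)]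
  have hd0 : ENNReal.ofReal δ ≠ 0 := by simpa using hδ
  calc ∫⁻ s in Metric.closedBall x δ, ENNReal.ofReal |s - y| ^ (-a)
      ≤ ∫⁻ s in Metric.closedBall x δ, (F (s - y) + F (y - s) + ENNReal.ofReal δ ^ (-a)) := by
        refine lintegral_mono_ae (ae_restrict_of_ae ?_)
        filter_upwards [Measure.ae_ne volume y] with s hs using hpt s hs
    _ = (∫⁻ s in Metric.closedBall x δ, F (s - y)) + (∫⁻ s in Metric.closedBall x δ, F (y - s)) +
          ENNReal.ofReal δ ^ (-a) * ENNReal.ofReal (2 * δ) := by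
        rw [lintegral_add_right _ measurable_const, lintegral_add_left (by fun_prop),
          setLIntegral_const, Real.volume_closedBall]
    _ ≤ (∫⁻ s, F (s - y)) + (∫⁻ s, F (y - s)) +
          ENNReal.ofReal δ ^ (-a) * ENNReal.ofReal (2 * δ) := by
        gcongr <;> exact Measure.restrict_le_self
    _ = _ := by
        rw [lintegral_sub_right_eq_self, lintegral_sub_left_eq_self, hFi,
          ENNReal.ofReal_mul (by norm_num), sub_eq_add_neg 1 a,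
          ENNReal.rpow_add _ _ hd0 ENNReal.ofReal_ne_top, ENNReal.rpow_one, ENNReal.ofReal_ofNat]
        ring

/-- a disc is contained in a square -/
theorem a6_disc (Φ : ℝ → ℝ → ℝ≥0∞) (hΦ : Measurable fun p : ℝ × ℝ => Φ p.1 p.2) (w : ℂ) (δ : ℝ) :
    ∫⁻ ζ in Metric.closedBall w δ, Φ ζ.re ζ.im ≤
      ∫⁻ y in Metric.closedBall w.im δ, ∫⁻ x in Metric.closedBall w.re δ, Φ x y := by
  have h := Complex.volume_preserving_equiv_real_prod.setLIntegral_comp_preimage_emb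
    Complex.measurableEquivRealProd.measurableEmbedding (fun p => Φ p.1 p.2)
    (Metric.closedBall w.re δ ×ˢ Metric.closedBall w.im δ)
  rw [Measure.volume_eq_prod, setLIntegral_prod_symm _ hΦ.aemeasurable] at h
  rw [← h]
  refine lintegral_mono_set fun ζ hζ => ?_
  rw [Metric.mem_closedBall, dist_eq_norm] at hζ
  constructor
  · rw [Metric.mem_closedBall, Real.dist_eq]
    exact (Complex.abs_re_le_norm (ζ - w)).trans hζ
  · rw [Metric.mem_closedBall, Real.dist_eq]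
    exact (Complex.abs_im_le_norm (ζ - w)).trans hζ

theorem a6_lin : ∃ C : ℝ≥0∞, C ≠ ⊤ ∧ ∀ (w : ℂ) (δ α β : ℝ), 0 < δ →
    ∫⁻ ζ in Metric.closedBall w δ, ENNReal.ofReal |α * ζ.re + β * ζ.im| ^ (-(1 / 2 : ℝ)) ≤
      ENNReal.ofReal |α| ^ (-(1 / 2 : ℝ)) * (C * ENNReal.ofReal δ ^ (3 / 2 : ℝ)) := by
  obtain ⟨C, hC, hC0, h⟩ := a6_one (a := 1 / 2) (by norm_num) (by norm_num)
  refine ⟨2 * C, by finiteness, fun w δ α β hδ => ?_⟩
  have hd0 : ENNReal.ofReal δ ≠ 0 := by simpa using hδ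
  by_cases hα : α = 0
  · have : ENNReal.ofReal |α| ^ (-(1 / 2 : ℝ)) = ⊤ := by
      rw [hα, abs_zero, ENNReal.ofReal_zero, ENNReal.zero_rpow_of_neg (by norm_num)]
    rw [this, ENNReal.top_mul]
    · exact le_top
    · exact mul_ne_zero (mul_ne_zero two_ne_zero hC0)
        (ENNReal.rpow_pos (pos_iff_ne_zero.2 hd0) ENNReal.ofReal_ne_top).ne'
  refine (a6_disc (fun x y => ENNReal.ofReal |α * x + β * y| ^ (-(1 / 2 : ℝ))) (by fun_prop)
    w δ).trans ?_
  have ha : ENNReal.ofReal |α| ^ (-(1 / 2 : ℝ)) ≠ ⊤ := by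
    rw [ENNReal.ofReal_rpow_of_pos (abs_pos.2 hα)]; exact ENNReal.ofReal_ne_top
  have h2 : ∀ y : ℝ, ∫⁻ x in Metric.closedBall w.re δ, ENNReal.ofReal |α * x + β * y| ^ (-(1 / 2 : ℝ)) ≤
      ENNReal.ofReal |α| ^ (-(1 / 2 : ℝ)) * (C * ENNReal.ofReal δ ^ (1 - 1 / 2 : ℝ)) := by
    intro y
    have e : ∀ x : ℝ, ENNReal.ofReal |α * x + β * y| ^ (-(1 / 2 : ℝ)) =
        ENNReal.ofReal |α| ^ (-(1 / 2 : ℝ)) * ENNReal.ofReal |x - -(β * y / α)| ^ (-(1 / 2 : ℝ)) := by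
      intro x
      rw [← ENNReal.mul_rpow_of_ne_top ENNReal.ofReal_ne_top ENNReal.ofReal_ne_top,
        ← ENNReal.ofReal_mul (abs_nonneg _), ← abs_mul]
      congr 3
      field_simp
      ring
    simp only [e]
    rw [lintegral_const_mul' _ _ ha]
    gcongr
    exact h _ _ _ hδ
  refine (lintegral_mono h2).trans_eq ?_
  rw [setLIntegral_const, Real.volume_closedBall, ENNReal.ofReal_mul (by norm_num),
    show (3 / 2 : ℝ) = (1 - 1 / 2) + 1 by norm_num, ENNReal.rpow_add _ _ hd0 ENNReal.ofReal_ne_top,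
    ENNReal.rpow_one, ENNReal.ofReal_ofNat]
  ring

theorem a6_bil : ∃ C : ℝ≥0∞, C ≠ ⊤ ∧ ∀ (w : ℂ) (δ : ℝ), 0 < δ →
    ∫⁻ q in Metric.closedBall w δ ×ˢ Metric.closedBall w δ,
      ENNReal.ofReal |q.1.re * q.2.re + q.1.im * q.2.im| ^ (-(1 / 2 : ℝ)) ≤
      C * ENNReal.ofReal δ ^ 3 := by
  obtain ⟨C, hC, h⟩ := a6_lin
  refine ⟨C * C, by finiteness, fun w δ hδ => ?_⟩
  have hd0 : ENNReal.ofReal δ ≠ 0 := by simpa using hδ
  rw [Measure.volume_eq_prod, setLIntegral_prod _ (Measurable.aemeasurable (by fun_prop))]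
  refine (lintegral_mono fun η : ℂ => h w δ η.re η.im hδ).trans ?_
  rw [lintegral_mul_const _ (by fun_prop)]
  have h2 := h w δ 1 0 hδ
  simp only [one_mul, zero_mul, add_zero, abs_one, ENNReal.ofReal_one, ENNReal.one_rpow] at h2
  refine (mul_le_mul' h2 le_rfl).trans_eq ?_
  rw [mul_mul_mul_comm, ← ENNReal.rpow_add _ _ hd0 ENNReal.ofReal_ne_top, ← ENNReal.rpow_natCast]
  norm_num

theorem a6_inv : ∃ C : ℝ≥0∞, C ≠ ⊤ ∧ ∀ (w z : ℂ) (δ : ℝ), 0 < δ →
    ∫⁻ ζ in Metric.closedBall w δ, ENNReal.ofReal ‖z - ζ‖ ^ (-(1 : ℝ)) ≤ C * ENNReal.ofReal δ := by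
  obtain ⟨C, hC, -, h⟩ := a6_one (a := 1 / 2) (by norm_num) (by norm_num)
  refine ⟨C * C, by finiteness, fun w z δ hδ => ?_⟩
  have hd0 : ENNReal.ofReal δ ≠ 0 := by simpa using hδ
  have h1 : ∀ ζ : ℂ, ENNReal.ofReal ‖z - ζ‖ ^ (-(1 : ℝ)) ≤
      ENNReal.ofReal |ζ.re - z.re| ^ (-(1 / 2 : ℝ)) * ENNReal.ofReal |ζ.im - z.im| ^ (-(1 / 2 : ℝ)) := by
    intro ζ
    rw [show (1 : ℝ) = 1 / 2 + 1 / 2 by norm_num, a6_split ENNReal.ofReal_ne_top (by norm_num)
      (by norm_num), norm_sub_rev]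
    have e : (1 / 2 + 1 / 2 : ℝ) = 1 := by norm_num
    rw [e]
    exact mul_le_mul'
      (a6_anti (ENNReal.ofReal_le_ofReal (Complex.abs_re_le_norm (ζ - z))) (by norm_num))
      (a6_anti (ENNReal.ofReal_le_ofReal (Complex.abs_im_le_norm (ζ - z))) (by norm_num))
  refine (lintegral_mono h1).trans ((a6_disc (fun x y => ENNReal.ofReal |x - z.re| ^ (-(1 / 2 : ℝ)) *
    ENNReal.ofReal |y - z.im| ^ (-(1 / 2 : ℝ))) (by fun_prop) w δ).trans ?_)
  have h2 : ∀ y : ℝ, ∫⁻ x in Metric.closedBall w.re δ, ENNReal.ofReal |x - z.re| ^ (-(1 / 2 : ℝ)) *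
      ENNReal.ofReal |y - z.im| ^ (-(1 / 2 : ℝ)) ≤ C * ENNReal.ofReal δ ^ (1 - 1 / 2 : ℝ) *
      ENNReal.ofReal |y - z.im| ^ (-(1 / 2 : ℝ)) := by
    intro y
    rw [lintegral_mul_const _ (by fun_prop)]
    gcongr
    exact h _ _ _ hδ
  refine (lintegral_mono h2).trans ?_
  rw [lintegral_const_mul _ (by fun_prop)]
  refine (mul_le_mul' le_rfl (h _ _ _ hδ)).trans_eq ?_
  rw [mul_mul_mul_comm, ← ENNReal.rpow_add _ _ hd0 ENNReal.ofReal_ne_top]
  norm_num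

theorem a6_mem {u : R3} {δ : ℝ} {z : ℂ} {s : ℝ} (h : mk3 z s ∈ Metric.closedBall u δ) :
    z ∈ Metric.closedBall (pr u) δ ∧ s ∈ Metric.closedBall (u 2) δ := by
  rw [Metric.mem_closedBall, dist_eq_norm] at h
  constructor
  · have := norm_pr_le (mk3 z s - u)
    rw [pr_sub, pr_mk3] at this
    rw [Metric.mem_closedBall, dist_eq_norm]
    exact this.trans h
  · have := abs_two_le (mk3 z s - u)
    rw [PiLp.sub_apply, mk3_two] at this
    rw [Metric.mem_closedBall, Real.dist_eq]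
    exact this.trans h

theorem a6_meas {j : ℂ → ℝ≥0∞} (hj : Measurable j) (u : R3) (δ : ℝ) :
    Measurable ((Metric.closedBall u δ).indicator fun a => j (pr a)) :=
  (hj.comp continuous_pr.measurable).indicator measurableSet_closedBall

/-- integrate out the vertical variable -/
theorem a6_vert {j : ℂ → ℝ≥0∞} (hj : Measurable j) (u : R3) (δ : ℝ) {φ : R3 → ℝ≥0∞}
    (hφ : Measurable φ) {k : ℂ → ℝ≥0∞}
    (hk : ∀ z, ∫⁻ s : ℝ in Metric.closedBall (u 2) δ, φ (mk3 z s) ≤ k z) :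
    ∫⁻ a, (Metric.closedBall u δ).indicator (fun a => j (pr a)) a * φ a ≤
      ∫⁻ z in Metric.closedBall (pr u) δ, j z * k z := by
  rw [lintegral_mk3 _ ((a6_meas hj u δ).fun_mul hφ), ← lintegral_indicator measurableSet_closedBall]
  refine lintegral_mono fun z => ?_
  have hm : Measurable fun s => φ (mk3 z s) :=
    hφ.comp (continuous_mk3.measurable.comp measurable_prodMk_left)
  by_cases hz : z ∈ Metric.closedBall (pr u) δ
  · rw [indicator_of_mem hz]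
    refine le_trans ?_ (mul_le_mul' le_rfl (hk z))
    rw [← lintegral_const_mul _ hm, ← lintegral_indicator measurableSet_closedBall]
    refine lintegral_mono fun s => ?_
    by_cases hs : mk3 z s ∈ Metric.closedBall u δ
    · rw [indicator_of_mem hs, indicator_of_mem (a6_mem hs).2, pr_mk3]
    · rw [indicator_of_notMem hs, zero_mul]; exact zero_le
  · rw [indicator_of_notMem hz]
    refine le_of_eq ((lintegral_congr fun s => ?_).trans lintegral_zero)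
    rw [indicator_of_notMem fun h => hz (a6_mem h).1, zero_mul]

/-- support of the gain term (`coll_energy_sub`) -/
theorem Qp_ball_zero {f g : VF} {u v : R3} {δ : ℝ} (hf : ∀ a, f a ≠ 0 → ‖a - u‖ ≤ δ)
    (hg : ∀ a, g a ≠ 0 → ‖a - u‖ ≤ δ) (hv : 2 * δ < ‖v - u‖) : Qp f g v = 0 := by
  refine (lintegral_congr fun a => ?_).trans lintegral_zero
  refine (lintegral_congr_ae ?_).trans lintegral_zero
  filter_upwards [ae_sphere] with ω hω
  by_contra hne
  have h1 := hf _ (left_ne_zero_of_mul (right_ne_zero_of_mul hne))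
  have h2 := hg _ (right_ne_zero_of_mul (right_ne_zero_of_mul hne))
  have h3 := coll_energy_sub v a ω u hω
  have h4 := norm_nonneg (postVel v a ω - u)
  have h5 := norm_nonneg (postVelStar v a ω - u)
  have h6 := sq_nonneg ‖a - u‖
  nlinarith

/-- Hölder on a disc: `∫ j k ≤ K δ^{2/pp} ‖k‖_{41}` -/
theorem LpB.holder {j : ℂ → ℝ≥0∞} {u : ℂ} {δ : ℝ} {K : ℝ≥0∞} (h : LpB j u δ K)
    (hj : Measurable j) {k : ℂ → ℝ≥0∞} (hk : Measurable k) {D : ℝ≥0∞}
    (hD : ∫⁻ ζ in Metric.closedBall u δ, k ζ ^ (41 : ℝ) ≤ D ^ (41 : ℝ) * ENNReal.ofReal (δ ^ 2)) :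
    ∫⁻ ζ in Metric.closedBall u δ, j ζ * k ζ ≤ K * D * ENNReal.ofReal (δ ^ 2) :=
  a6_holder _ hj hk h hD

theorem a6_pt {s c R : ℝ} (hs : s ≠ 0) (hR : 0 < R) (h : |-c / s| ≤ R) :
    (ENNReal.ofReal |s|)⁻¹ ≤ ENNReal.ofReal |s - 0| ^ (-(81 / 82 : ℝ)) *
      (ENNReal.ofReal R ^ (1 / 82 : ℝ) * ENNReal.ofReal |c| ^ (-(1 / 82 : ℝ))) := by
  have hR0 : ENNReal.ofReal R ≠ 0 := by simpa using hR
  have h1 : ENNReal.ofReal |c| ≤ ENNReal.ofReal R * ENNReal.ofReal |s| := by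
    rw [← ENNReal.ofReal_mul hR.le]
    refine ENNReal.ofReal_le_ofReal ?_
    rwa [abs_div, abs_neg, div_le_iff₀ (abs_pos.2 hs)] at h
  have h2 := a6_anti h1 (a := 1 / 82) (by norm_num)
  rw [ENNReal.mul_rpow_of_ne_top ENNReal.ofReal_ne_top ENNReal.ofReal_ne_top] at h2
  rw [← ENNReal.rpow_neg_one, show (-1 : ℝ) = -(81 / 82 + 1 / 82) by norm_num,
    a6_split ENNReal.ofReal_ne_top (by norm_num) (by norm_num), sub_zero]
  refine mul_le_mul' le_rfl (le_trans (le_of_eq ?_) (mul_le_mul' le_rfl h2))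
  rw [← mul_assoc, ← ENNReal.rpow_add _ _ hR0 ENNReal.ofReal_ne_top, add_neg_cancel,
    ENNReal.rpow_zero, one_mul]

theorem a6_mem2 {u v : R3} {δ : ℝ} (hv : ‖v - u‖ ≤ 2 * δ) {z : ℂ} {s : ℝ}
    (h : v + mk3 z s ∈ Metric.closedBall u δ) :
    z ∈ Metric.closedBall (pr u - pr v) δ ∧ |s| ≤ 3 * δ := by
  rw [Metric.mem_closedBall, dist_eq_norm] at h
  constructor
  · have := norm_pr_le (v + mk3 z s - u)
    rw [pr_sub, pr_add, pr_mk3] at this
    rw [Metric.mem_closedBall, dist_eq_norm]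
    refine le_trans (le_of_eq ?_) (this.trans h)
    congr 1; ring
  · have h1 := abs_two_le (mk3 z s)
    rw [mk3_two] at h1
    have h2 : ‖mk3 z s‖ ≤ ‖v + mk3 z s - u‖ + ‖v - u‖ := by
      have : mk3 z s = (v + mk3 z s - u) - (v - u) := by abel
      conv_lhs => rw [this]
      exact norm_sub_le _ _
    linarith

theorem a6_shift {j : ℂ → ℝ≥0∞} {u : ℂ} {δ : ℝ} {K : ℝ≥0∞} (h : LpB j u δ K) (w : ℂ) :
    ∫⁻ ζ in Metric.closedBall (u - w) δ, j (w + ζ) ^ pp ≤ K ^ pp * ENNReal.ofReal (δ ^ 2) := by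
  refine le_trans (le_of_eq ?_) h
  rw [← lintegral_indicator measurableSet_closedBall, ← lintegral_indicator measurableSet_closedBall,
    ← lintegral_add_left_eq_self ((Metric.closedBall u δ).indicator fun ζ => j ζ ^ pp) w]
  refine lintegral_congr fun ζ => ?_
  have e : ζ ∈ Metric.closedBall (u - w) δ ↔ w + ζ ∈ Metric.closedBall u δ := by
    rw [Metric.mem_closedBall, Metric.mem_closedBall, dist_eq_norm, dist_eq_norm,
      show ζ - (u - w) = w + ζ - u by ring]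
  by_cases hζ : w + ζ ∈ Metric.closedBall u δ
  · rw [indicator_of_mem hζ, indicator_of_mem (e.2 hζ)]
  · rw [indicator_of_notMem hζ, indicator_of_notMem (mt e.1 hζ)]

/-- Gain term of two densities in the ball of radius `δ`.  We may assume `‖v - u‖ ≤ 2δ`.  In
`Qp_split`, with `c = η · ζ`, the integrand vanishes unless `v_h + η, v_h + ζ` are in the disc,
`|s| ≤ 3δ` and `|c/s| ≤ 3δ`; `∫ |s|⁻¹` over this set is `2 log₊(9δ²/|c|) ≤ 164 (9δ²/|c|)^{1/82}`.
Hölder on the product of the two discs with exponents `41/40`, `41`, and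
`∫∫_{‖η‖,‖ζ‖ ≤ 3δ} (δ²/|η·ζ|)^{1/2} ≤ C δ⁴` (for fixed `η` rotate it to the real axis:
`∫_{|x|,|y| ≤ 3δ} |x|^{-1/2}`, then `∫ ‖η‖^{-1/2}`). -/
theorem Qp_ball : ∃ C : ℝ≥0∞, C ≠ ⊤ ∧ ∀ (j₁ j₂ : ℂ → ℝ≥0∞) (u : R3) (δ : ℝ) (K₁ K₂ : ℝ≥0∞),
    Measurable j₁ → Measurable j₂ → 0 < δ → LpB j₁ (pr u) δ K₁ → LpB j₂ (pr u) δ K₂ → ∀ v,
    Qp ((Metric.closedBall u δ).indicator fun a => j₁ (pr a))
      ((Metric.closedBall u δ).indicator fun a => j₂ (pr a)) v ≤
      C * K₁ * K₂ * ENNReal.ofReal (δ ^ 4) := by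
  obtain ⟨C1, hC1, -, h1⟩ := a6_one (a := 81 / 82) (by norm_num) (by norm_num)
  obtain ⟨C2, hC2, h2⟩ := a6_bil
  obtain ⟨D, hD, hD'⟩ := a6_root (X := C1 ^ (41 : ℝ) * 3 * C2) (by finiteness)
  refine ⟨2 * D, by finiteness, fun j₁ j₂ u δ K₁ K₂ hj₁ hj₂ hδ hK₁ hK₂ v => ?_⟩
  by_cases hv : 2 * δ < ‖v - u‖
  · rw [Qp_ball_zero (u := u) (δ := δ) (fun a ha => ?_) (fun a ha => ?_) hv]
    · exact zero_le
    · exact mem_closedBall_iff_norm.1 (mem_of_indicator_ne_zero ha)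
    · exact mem_closedBall_iff_norm.1 (mem_of_indicator_ne_zero ha)
  push Not at hv
  have hR : 0 < 3 * δ := by linarith
  have hR0 : ENNReal.ofReal (3 * δ) ≠ 0 := by simpa using hδ
  obtain ⟨B, hB⟩ : ∃ B, B = Metric.closedBall (pr u - pr v) δ := ⟨_, rfl⟩
  have hBm : MeasurableSet (B ×ˢ B) := by
    rw [hB]; exact measurableSet_closedBall.prod measurableSet_closedBall
  obtain ⟨k, hk⟩ : ∃ k : ℂ × ℂ → ℝ≥0∞, k = fun q => C1 * ENNReal.ofReal (3 * δ) ^ (1 / 41 : ℝ) *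
    ENNReal.ofReal |q.1.re * q.2.re + q.1.im * q.2.im| ^ (-(1 / 82 : ℝ)) := ⟨_, rfl⟩
  have hkm : Measurable k := by rw [hk]; fun_prop
  have step1 : ∀ q : ℂ × ℂ, ∫⁻ s : ℝ, (ENNReal.ofReal |s|)⁻¹ *
      ((Metric.closedBall u δ).indicator (fun a => j₁ (pr a)) (v + mk3 q.1 s) *
        (Metric.closedBall u δ).indicator (fun a => j₂ (pr a))
          (v + mk3 q.2 (-(q.1.re * q.2.re + q.1.im * q.2.im) / s))) ≤
      (B ×ˢ B).indicator (fun q => j₁ (pr v + q.1) * j₂ (pr v + q.2) * k q) q := by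
    intro q
    obtain ⟨c, hc⟩ : ∃ c, c = q.1.re * q.2.re + q.1.im * q.2.im := ⟨_, rfl⟩
    by_cases hq : q ∈ B ×ˢ B
    · rw [indicator_of_mem hq, hk]
      simp only [← hc]
      calc _ ≤ ∫⁻ s : ℝ, (Metric.closedBall (0 : ℝ) (3 * δ)).indicator (fun s =>
            ENNReal.ofReal |s - 0| ^ (-(81 / 82 : ℝ)) * (j₁ (pr v + q.1) * j₂ (pr v + q.2) *
            (ENNReal.ofReal (3 * δ) ^ (1 / 82 : ℝ) * ENNReal.ofReal |c| ^ (-(1 / 82 : ℝ))))) s := by
            refine lintegral_mono_ae ?_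
            filter_upwards [Measure.ae_ne volume (0 : ℝ)] with s hs
            by_cases ha : v + mk3 q.1 s ∈ Metric.closedBall u δ
            swap
            · rw [indicator_of_notMem ha, zero_mul, mul_zero]; exact zero_le
            by_cases hb : v + mk3 q.2 (-c / s) ∈ Metric.closedBall u δ
            swap
            · rw [indicator_of_notMem hb, mul_zero, mul_zero]; exact zero_le
            rw [indicator_of_mem ha, indicator_of_mem hb, indicator_of_mem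
              (mem_closedBall_zero_iff.2 (a6_mem2 hv ha).2), pr_add, pr_add, pr_mk3, pr_mk3]
            refine (mul_le_mul' (a6_pt hs hR (a6_mem2 hv hb).2) le_rfl).trans_eq ?_
            ring
        _ ≤ C1 * ENNReal.ofReal (3 * δ) ^ (1 - 81 / 82 : ℝ) * (j₁ (pr v + q.1) * j₂ (pr v + q.2) *
            (ENNReal.ofReal (3 * δ) ^ (1 / 82 : ℝ) * ENNReal.ofReal |c| ^ (-(1 / 82 : ℝ)))) := by
            rw [lintegral_indicator measurableSet_closedBall, lintegral_mul_const _ (by fun_prop)]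
            gcongr
            exact h1 _ _ _ hR
        _ = _ := by
            rw [show (1 / 41 : ℝ) = (1 - 81 / 82) + 1 / 82 by norm_num,
              ENNReal.rpow_add _ _ hR0 ENNReal.ofReal_ne_top]
            ring
    · rw [indicator_of_notMem hq]
      refine le_of_eq ((lintegral_congr fun s => ?_).trans lintegral_zero)
      by_cases ha : v + mk3 q.1 s ∈ Metric.closedBall u δ
      · rw [indicator_of_notMem (s := Metric.closedBall u δ) (f := fun a => j₂ (pr a))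
          fun hb => hq ⟨hB ▸ (a6_mem2 hv ha).1, hB ▸ (a6_mem2 hv hb).1⟩, mul_zero, mul_zero]
      · rw [indicator_of_notMem ha, zero_mul, mul_zero]
  have p0 : (0 : ℝ) ≤ pp := by unfold pp; norm_num
  have step2 : ∫⁻ q in B ×ˢ B, (j₁ (pr v + q.1) * j₂ (pr v + q.2)) ^ pp ≤
      (K₁ * K₂) ^ pp * ENNReal.ofReal (δ ^ 4) := by
    simp only [ENNReal.mul_rpow_of_nonneg _ _ p0]
    rw [Measure.volume_eq_prod, ← Measure.prod_restrict,
      lintegral_prod_mul (f := fun ζ => j₁ (pr v + ζ) ^ pp) (g := fun ζ => j₂ (pr v + ζ) ^ pp)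
        (Measurable.aemeasurable (by fun_prop)) (Measurable.aemeasurable (by fun_prop)), hB]
    refine (mul_le_mul' (a6_shift hK₁ _) (a6_shift hK₂ _)).trans_eq ?_
    rw [mul_mul_mul_comm, ← ENNReal.ofReal_mul (sq_nonneg _), ← pow_add]
  have step3 : ∫⁻ q in B ×ˢ B, k q ^ (41 : ℝ) ≤ D ^ (41 : ℝ) * ENNReal.ofReal (δ ^ 4) := by
    have e : ∀ q, k q ^ (41 : ℝ) = C1 ^ (41 : ℝ) * ENNReal.ofReal (3 * δ) *
        ENNReal.ofReal |q.1.re * q.2.re + q.1.im * q.2.im| ^ (-(1 / 2 : ℝ)) := by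
      intro q
      rw [hk, ENNReal.mul_rpow_of_nonneg _ _ (by norm_num),
        ENNReal.mul_rpow_of_nonneg _ _ (by norm_num), ← ENNReal.rpow_mul, ← ENNReal.rpow_mul]
      norm_num
    simp only [e]
    rw [lintegral_const_mul _ (by fun_prop), hB]
    refine (mul_le_mul' le_rfl (h2 _ _ hδ)).trans_eq ?_
    rw [hD', ENNReal.ofReal_mul (by norm_num), ENNReal.ofReal_pow hδ.le, ENNReal.ofReal_ofNat]
    ring
  rw [Qp_split (a6_meas hj₁ u δ) (a6_meas hj₂ u δ)]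
  refine (mul_le_mul' le_rfl (lintegral_mono step1)).trans ?_
  rw [lintegral_indicator hBm]
  refine (mul_le_mul' le_rfl (a6_holder _ (by fun_prop) hkm step2 step3)).trans_eq ?_
  ring

/-- Potential: `lintegral_mk3`; with `ρ = ‖ζ - pr v‖`,
`∫_{|s - u₂| ≤ δ} (ρ² + (s - v₂)²)^{-1/2} ds ≤ C (1 + (δ/ρ)^{1/41})`
(the part `|s - v₂| ≥ δ` is `≤ 2`; on the rest `(ρ² + σ²)^{-1/2} ≤ ρ^{-1/41}|σ|^{-40/41}`); Hölder,
`∫_{disc} δ/ρ ≤ C δ²`. -/
theorem As_ball : ∃ C : ℝ≥0∞, C ≠ ⊤ ∧ ∀ (j : ℂ → ℝ≥0∞) (u : R3) (δ : ℝ) (K : ℝ≥0∞),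
    Measurable j → 0 < δ → LpB j (pr u) δ K → ∀ v,
    As ((Metric.closedBall u δ).indicator fun a => j (pr a)) v ≤ C * K * ENNReal.ofReal (δ ^ 2) := by
  obtain ⟨C1, hC1, -, h1⟩ := a6_one (a := 40 / 41) (by norm_num) (by norm_num)
  obtain ⟨C2, hC2, h2⟩ := a6_inv
  obtain ⟨D, hD, hD'⟩ := a6_root (X := C1 ^ (41 : ℝ) * C2) (by finiteness)
  refine ⟨D, hD, fun j u δ K hj hδ hK v => ?_⟩
  have hd0 : ENNReal.ofReal δ ≠ 0 := by simpa using hδ
  obtain ⟨k, hk⟩ : ∃ k : ℂ → ℝ≥0∞, k = fun z => C1 * ENNReal.ofReal δ ^ (1 / 41 : ℝ) *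
    ENNReal.ofReal ‖pr v - z‖ ^ (-(1 / 41 : ℝ)) := ⟨_, rfl⟩
  have hkm : Measurable k := by rw [hk]; fun_prop
  have step1 : ∀ z, ∫⁻ s : ℝ in Metric.closedBall (u 2) δ, (ENNReal.ofReal ‖v - mk3 z s‖)⁻¹ ≤ k z := by
    intro z
    calc _ ≤ ∫⁻ s : ℝ in Metric.closedBall (u 2) δ, ENNReal.ofReal |s - v 2| ^ (-(40 / 41 : ℝ)) *
          ENNReal.ofReal ‖pr v - z‖ ^ (-(1 / 41 : ℝ)) := by
          refine lintegral_mono fun s => ?_
          rw [← ENNReal.rpow_neg_one, show (-1 : ℝ) = -(40 / 41 + 1 / 41) by norm_num,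
            a6_split ENNReal.ofReal_ne_top (by norm_num) (by norm_num)]
          have e1 := norm_pr_le (v - mk3 z s)
          have e2 := abs_two_le (v - mk3 z s)
          rw [pr_sub, pr_mk3] at e1
          rw [PiLp.sub_apply, mk3_two, abs_sub_comm] at e2
          exact mul_le_mul' (a6_anti (ENNReal.ofReal_le_ofReal e2) (by norm_num))
            (a6_anti (ENNReal.ofReal_le_ofReal e1) (by norm_num))
      _ ≤ _ := by
          have h3 := h1 (u 2) (v 2) δ hδ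
          rw [show (1 - 40 / 41 : ℝ) = 1 / 41 by norm_num] at h3
          rw [lintegral_mul_const _ (by fun_prop), hk]
          exact mul_le_mul' h3 le_rfl
  have step3 : ∫⁻ z in Metric.closedBall (pr u) δ, k z ^ (41 : ℝ) ≤
      D ^ (41 : ℝ) * ENNReal.ofReal (δ ^ 2) := by
    have e : ∀ z, k z ^ (41 : ℝ) = C1 ^ (41 : ℝ) * ENNReal.ofReal δ *
        ENNReal.ofReal ‖pr v - z‖ ^ (-(1 : ℝ)) := by
      intro z
      rw [hk, ENNReal.mul_rpow_of_nonneg _ _ (by norm_num),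
        ENNReal.mul_rpow_of_nonneg _ _ (by norm_num), ← ENNReal.rpow_mul, ← ENNReal.rpow_mul]
      norm_num
    simp only [e]
    rw [lintegral_const_mul _ (by fun_prop)]
    refine (mul_le_mul' le_rfl (h2 _ _ _ hδ)).trans_eq ?_
    rw [hD', ENNReal.ofReal_pow hδ.le]
    ring
  refine (a6_vert hj u δ (φ := fun a => (ENNReal.ofReal ‖v - a‖)⁻¹) (by fun_prop) step1).trans ?_
  refine (hK.holder hj hkm step3).trans_eq ?_
  ring

/-- density (`lintegral_mk3`, `LpB.holder` with `k = 1`) -/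
theorem dens_ball {j : ℂ → ℝ≥0∞} {u : R3} {δ : ℝ} {K : ℝ≥0∞} (hj : Measurable j) (hδ : 0 < δ)
    (h : LpB j (pr u) δ K) :
    ∫⁻ a, (Metric.closedBall u δ).indicator (fun a => j (pr a)) a ≤
      8 * K * ENNReal.ofReal (δ ^ 3) := by
  have h1 := a6_vert hj u δ (φ := fun _ => 1) measurable_const (k := fun _ => ENNReal.ofReal (2 * δ))
    fun z => by rw [setLIntegral_one, Real.volume_closedBall]
  have h2 := h.holder hj (k := fun _ => 1) measurable_const (D := 4) (by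
    rw [setLIntegral_const, ENNReal.one_rpow, one_mul, Complex.volume_closedBall,
      ENNReal.ofReal_pow hδ.le, mul_comm]
    gcongr
    calc ((NNReal.pi : NNReal) : ℝ≥0∞) ≤ 4 := by
          have : NNReal.pi ≤ 4 := by
            rw [← NNReal.coe_le_coe]; exact Real.pi_le_four
          exact_mod_cast this
      _ = 4 ^ (1 : ℝ) := (ENNReal.rpow_one _).symm
      _ ≤ _ := ENNReal.rpow_le_rpow_of_exponent_le (by norm_num) (by norm_num))
  simp only [mul_one] at h1 h2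
  rw [lintegral_mul_const _ hj] at h1
  refine h1.trans ((mul_le_mul' h2 le_rfl).trans_eq ?_)
  rw [ENNReal.ofReal_mul (by norm_num), ENNReal.ofReal_pow hδ.le, ENNReal.ofReal_pow hδ.le,
    ENNReal.ofReal_ofNat]
  ring

end

end Crest.Agent.R68
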