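import Crest.Agent.R68.A0

/-!
# R68 (S0091): coordinates `ℝ³ = ℂ × ℝ`, reduction modulo the lattice, unfolding, dispersion
-/

set_option autoImplicit false

namespace Crest.Agent.R68

open MeasureTheory Set Filter Crest.AnalysisR.VecCalc3 Crest.AnalysisR.PDE.Boltzmann
open scoped ENNReal _root_.Topology

noncomputable section

@[simp] theorem pr_mk3 (z : ℂ) (s : ℝ) : pr (mk3 z s) = z := by
  rfl

@[simp] theorem mk3_two (z : ℂ) (s : ℝ) : mk3 z s 2 = s := by
  rfl

theorem mk3_pr (x : R3) : mk3 (pr x) (x 2) = x := by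
  ext i; fin_cases i <;> rfl

theorem pr_add (x y : R3) : pr (x + y) = pr x + pr y := by
  rfl

theorem pr_sub (x y : R3) : pr (x - y) = pr x - pr y := by
  rfl

theorem pr_smul (c : ℝ) (x : R3) : pr (c • x) = c • pr x := by
  apply Complex.ext <;> simp [pr]

theorem mk3_add (z w : ℂ) (s t : ℝ) : mk3 z s + mk3 w t = mk3 (z + w) (s + t) := by
  ext i; fin_cases i <;> simp [mk3]

theorem mk3_sub (z w : ℂ) (s t : ℝ) : mk3 z s - mk3 w t = mk3 (z - w) (s - t) := by
  ext i; fin_cases i <;> simp [mk3]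

theorem norm_mk3_sq (z : ℂ) (s : ℝ) : ‖mk3 z s‖ ^ 2 = ‖z‖ ^ 2 + s ^ 2 := by
  rw [EuclideanSpace.real_norm_sq_eq, Complex.sq_norm, Complex.normSq_apply, Fin.sum_univ_three]
  simp only [mk3, Matrix.cons_val]
  ring

theorem norm_sq_eq_pr (x : R3) : ‖x‖ ^ 2 = ‖pr x‖ ^ 2 + (x 2) ^ 2 := by
  rw [← norm_mk3_sq, mk3_pr]

theorem norm_pr_le (x : R3) : ‖pr x‖ ≤ ‖x‖ := by
  refine (sq_le_sq₀ (norm_nonneg _) (norm_nonneg _)).1 ?_
  rw [norm_sq_eq_pr x]
  exact le_add_of_nonneg_right (sq_nonneg _)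

theorem abs_two_le (x : R3) : |x 2| ≤ ‖x‖ := by
  exact PiLp.norm_apply_le x 2

theorem norm_mk3_zero (z : ℂ) : ‖mk3 z 0‖ = ‖z‖ := by
  refine (sq_eq_sq₀ (norm_nonneg _) (norm_nonneg _)).1 ?_
  rw [norm_mk3_sq]; ring

theorem inner_mk3 (z w : ℂ) (s t : ℝ) :
    inner ℝ (mk3 z s) (mk3 w t) = z.re * w.re + z.im * w.im + s * t := by
  rw [PiLp.inner_apply, Fin.sum_univ_three]
  simp [mk3]
  ring

theorem continuous_pr : Continuous pr := by
  have : pr = fun x : R3 => ((x 0 : ℝ) : ℂ) + ((x 1 : ℝ) : ℂ) * Complex.I :=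
    funext fun x => Complex.mk_eq_add_mul_I _ _
  rw [this]
  fun_prop

theorem continuous_mk3 : Continuous fun p : ℂ × ℝ => mk3 p.1 p.2 := by
  refine (PiLp.continuous_toLp 2 _).comp (continuous_pi fun i => ?_)
  fin_cases i
  · exact Complex.continuous_re.comp continuous_fst
  · exact Complex.continuous_im.comp continuous_fst
  · exact continuous_snd

theorem measurable_gz : Measurable fun p : R3 × ℂ => gz p.1 p.2 := by
  refine continuous_mk3.measurable.comp (f := fun p : R3 × ℂ =>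
    (p.2, -(p.1 0 * p.2.re + p.1 1 * p.2.im) / p.1 2)) ?_
  fun_prop

/-- `mk3` is measure preserving (compose `PiLp.volume_preserving_toLp`,
`volume_preserving_piFinSuccAbove` / `MeasurableEquiv.piFinTwo`, `Complex.volume_preserving_equiv_real_prod`). -/
theorem measurePreserving_mk3 :
    MeasurePreserving (fun p : ℂ × ℝ => mk3 p.1 p.2) volume volume := by
  have h1 := (PiLp.volume_preserving_toLp (Fin 3)).comp
    ((volume_preserving_piFinSuccAbove (fun _ : Fin 3 => ℝ) 2).symm.comp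
      (((MeasurePreserving.id volume).prod Complex.volume_preserving_equiv_pi).comp
        (Measure.measurePreserving_swap (μ := (volume : Measure ℂ)) (ν := (volume : Measure ℝ)))))
  have e : (fun p : ℂ × ℝ => mk3 p.1 p.2) = WithLp.toLp 2 ∘
      (MeasurableEquiv.piFinSuccAbove (fun _ : Fin 3 => ℝ) 2).symm ∘
        Prod.map id Complex.measurableEquivPi ∘ Prod.swap := by
    funext p
    ext i
    fin_cases i <;> rfl
  rw [e]
  exact h1

theorem lintegral_mk3 (Φ : R3 → ℝ≥0∞) (hΦ : Measurable Φ) :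
    ∫⁻ x, Φ x = ∫⁻ z : ℂ, ∫⁻ s : ℝ, Φ (mk3 z s) := by
  rw [← measurePreserving_mk3.lintegral_comp hΦ, Measure.volume_eq_prod]
  exact lintegral_prod _ (hΦ.comp continuous_mk3.measurable).aemeasurable

theorem measurable_red : Measurable red := by
  have : red = fun z : ℂ => ((z.re - round z.re : ℝ) : ℂ) + ((z.im - round z.im : ℝ) : ℂ) * Complex.I :=
    funext fun x => Complex.mk_eq_add_mul_I _ _
  have h : Measurable fun x : ℝ => x - round x := by
    simp only [round_eq]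
    exact measurable_id.sub ((measurable_of_countable (fun k : ℤ => (k : ℝ))).comp
      (Int.measurable_floor.comp (measurable_id.add_const _)))
  rw [this]
  exact (Complex.measurable_ofReal.comp (h.comp Complex.measurable_re)).add
    ((Complex.measurable_ofReal.comp (h.comp Complex.measurable_im)).mul_const _)

theorem measurableSet_cell : MeasurableSet cell := by
  have : cell = ⋂ i : Fin 3, (fun x : R3 => x i) ⁻¹' Ico 0 1 := by
    ext x; simp [cell]
  rw [this]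
  exact MeasurableSet.iInter fun i => measurableSet_Ico.preimage (by fun_prop)

theorem volume_cell : volume cell = 1 := by
  rw [← (PiLp.volume_preserving_toLp (Fin 3)).measure_preimage measurableSet_cell.nullMeasurableSet]
  have : (WithLp.toLp 2) ⁻¹' cell = Set.pi univ fun _ : Fin 3 => Ico (0 : ℝ) 1 := by
    ext x; simp [cell]
  rw [this, volume_pi_pi]
  simp

theorem red_add_int (z : ℂ) (a b : ℤ) : red (z + ⟨a, b⟩) = red z := by
  apply Complex.ext <;> simp [red]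

theorem red_eq_sub (z : ℂ) : ∃ a b : ℤ, red z = z - ⟨a, b⟩ := by
  exact ⟨round z.re, round z.im, rfl⟩

theorem norm_red_le_one (z : ℂ) : ‖red z‖ ≤ 1 := by
  refine (Complex.norm_le_abs_re_add_abs_im _).trans ?_
  have h1 := abs_sub_round z.re
  have h2 := abs_sub_round z.im
  simp only [red]
  linarith

/-- `red z` is the shortest representative (`abs_sub_round`/`round_le`) -/
theorem norm_red_le (z : ℂ) (a b : ℤ) : ‖red z‖ ≤ ‖z - ⟨a, b⟩‖ := by
  refine (sq_le_sq₀ (norm_nonneg _) (norm_nonneg _)).1 ?_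
  rw [Complex.sq_norm, Complex.sq_norm, Complex.normSq_apply, Complex.normSq_apply]
  have h1 := sq_le_sq.2 (round_le z.re a)
  have h2 := sq_le_sq.2 (round_le z.im b)
  simp only [red, Complex.sub_re, Complex.sub_im]
  nlinarith

theorem a7_red {z : ℂ} (h1 : z.re ∈ Ico (-(1 / 2 : ℝ)) (1 / 2))
    (h2 : z.im ∈ Ico (-(1 / 2 : ℝ)) (1 / 2)) : red z = z := by
  apply Complex.ext
  · simp [red, round_eq_zero_iff.2 h1]
  · simp [red, round_eq_zero_iff.2 h2]

theorem red_of_small {z : ℂ} (h : ‖z‖ < 1 / 2) : red z = z := by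
  have h1 := abs_lt.1 ((Complex.abs_re_le_norm z).trans_lt h)
  have h2 := abs_lt.1 ((Complex.abs_im_le_norm z).trans_lt h)
  exact a7_red ⟨h1.1.le, h1.2⟩ ⟨h2.1.le, h2.2⟩

theorem red_red_add (z w : ℂ) : red (red z + w) = red (z + w) := by
  obtain ⟨a, b, h⟩ := red_eq_sub z
  rw [← red_add_int (red z + w) a b, h]
  congr 1; ring

theorem norm_red_add_le (z w : ℂ) : ‖red (z + w)‖ ≤ ‖red z‖ + ‖w‖ := by
  rw [← red_red_add]
  refine (norm_red_le _ 0 0).trans (le_trans (le_of_eq ?_) (norm_add_le _ _))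
  congr 1
  apply Complex.ext <;> simp

/-- local lift: near the lattice, `red` is a translation -/
theorem red_add_of_small {z w : ℂ} (h : ‖red z‖ + ‖w‖ < 1 / 2) : red (z + w) = red z + w := by
  rw [← red_red_add, red_of_small ((norm_add_le _ _).trans_lt h)]

/-- functions of `red (pr x - w)` are periodic -/
theorem per_red {α : Type*} (Φ : ℂ → α) (w : ℂ) : IsPeriodic3 fun x => Φ (red (pr x - w)) := by
  intro x i
  have h : ∃ a b : ℤ, pr (x + EuclideanSpace.single i 1) - w = pr x - w + ⟨a, b⟩ := by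
    fin_cases i
    · exact ⟨1, 0, by apply Complex.ext <;> simp [pr]; ring⟩
    · exact ⟨0, 1, by apply Complex.ext <;> simp [pr]; ring⟩
    · exact ⟨0, 0, by apply Complex.ext <;> simp [pr]⟩
  obtain ⟨a, b, h⟩ := h
  simp only [h, red_add_int]

theorem IsPeriodic3.add_int {α : Type*} {Θ : R3 → α} (h : IsPeriodic3 Θ) (x : R3)
    (k : Fin 3 → ℤ) : Θ (x + WithLp.toLp 2 fun i => (k i : ℝ)) = Θ x := by
  have h1 : ∀ (i : Fin 3) (n : ℤ) (y : R3),
      Θ (y + n • EuclideanSpace.single i (1 : ℝ)) = Θ y := fun i n y =>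
    (Function.Periodic.zsmul (f := Θ) (fun y => h y i) n) y
  have e : x + (WithLp.toLp 2 fun i => (k i : ℝ)) = x + k 0 • EuclideanSpace.single 0 (1 : ℝ) +
      k 1 • EuclideanSpace.single 1 (1 : ℝ) + k 2 • EuclideanSpace.single 2 (1 : ℝ) := by
    ext i; fin_cases i <;> simp
  rw [e, h1, h1, h1]

theorem a7_fd : IsAddFundamentalDomain
    (Submodule.span ℤ (range (EuclideanSpace.basisFun (Fin 3) ℝ).toBasis)).toAddSubgroup cell
    volume :=
  ZSpan.isAddFundamentalDomain' (EuclideanSpace.basisFun (Fin 3) ℝ).toBasis volume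

theorem a7_inv {α : Type*} {Θ : R3 → α} (h : IsPeriodic3 Θ)
    (g : (Submodule.span ℤ (range (EuclideanSpace.basisFun (Fin 3) ℝ).toBasis)).toAddSubgroup)
    (x : R3) :
    Θ (g +ᵥ x) = Θ x := by
  have h1 := (Module.Basis.mem_span_iff_repr_mem ℤ _ _).1 g.2
  choose k hk using h1
  rw [← IsPeriodic3.add_int h x k]
  congr 1
  ext i
  have := hk i
  simp at this
  change (g : R3) i + x i = x i + k i
  rw [← this, add_comm]

instance a7_count : Countable
    (Submodule.span ℤ (range (EuclideanSpace.basisFun (Fin 3) ℝ).toBasis)).toAddSubgroup :=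
  inferInstanceAs (Countable (Submodule.span ℤ (range (EuclideanSpace.basisFun (Fin 3) ℝ).toBasis)))

/-- unfolding: the integral of a periodic function over a translated cell.  (Either
`IsAddFundamentalDomain` for `ZSpan`, or one coordinate at a time with
`Function.Periodic.intervalIntegral_add_eq`-type arguments / cut the cell along the
translate.) -/
theorem lintegral_cell_add (Θ : R3 → ℝ≥0∞) (hm : Measurable Θ) (hp : IsPeriodic3 Θ) (w : R3) :
    ∫⁻ x in cell, Θ (x + w) = ∫⁻ x in cell, Θ x := by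
  have _ := hm
  simp only [add_comm _ w]
  exact ((measurePreserving_vadd w volume).setLIntegral_comp_emb (measurableEmbedding_const_vadd w)
    Θ cell).trans ((a7_fd.vadd_of_comm w).setLIntegral_eq a7_fd Θ (a7_inv hp))

/-- the same for Bochner integrals of real functions -/
theorem integral_cell_add (Θ : R3 → ℝ) (hm : Measurable Θ) (hp : IsPeriodic3 Θ) (w : R3) :
    ∫ x in cell, Θ (x + w) = ∫ x in cell, Θ x := by
  have _ := hm
  simp only [add_comm _ w]
  exact ((measurePreserving_vadd w volume).setIntegral_image_emb (measurableEmbedding_const_vadd w)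
    Θ cell).symm.trans ((a7_fd.vadd_of_comm w).setIntegral_eq a7_fd (a7_inv hp))

/-- the shear `(y, v) ↦ (y + s v, v)` preserves integrals of periodic functions -/
theorem lintegral_shear (Θ : XF) (hm : MeasX Θ) (hp : PerX Θ) (s : ℝ) :
    ∫⁻ q in cell ×ˢ (univ : Set R3), Θ (q.1 + s • q.2) q.2 =
      ∫⁻ q in cell ×ˢ (univ : Set R3), Θ q.1 q.2 := by
  have hm' : Measurable fun q : R3 × R3 => Θ (q.1 + s • q.2) q.2 :=
    hm.comp (f := fun q : R3 × R3 => (q.1 + s • q.2, q.2)) (by fun_prop)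
  rw [Measure.volume_eq_prod, ← Measure.prod_restrict, lintegral_prod_symm _ hm'.aemeasurable,
    lintegral_prod_symm _ (Measurable.aemeasurable hm)]
  refine lintegral_congr fun v => ?_
  exact lintegral_cell_add (fun x => Θ x v) (hm.comp (f := fun x : R3 => (x, v)) (by fun_prop))
    (hp v) (s • v)

theorem a7_cyl (A : Set ℂ) (hA : MeasurableSet A) (Ψ : ℂ → ℝ≥0∞) (hΨ : Measurable Ψ) :
    ∫⁻ x in {x : R3 | pr x ∈ A ∧ x 2 ∈ Ico 0 1}, Ψ (pr x) = ∫⁻ z in A, Ψ z := by
  have hs : MeasurableSet {x : R3 | pr x ∈ A ∧ x 2 ∈ Ico 0 1} :=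
    (hA.preimage continuous_pr.measurable).inter
      (measurableSet_Ico.preimage (f := fun x : R3 => x 2) (by fun_prop))
  refine (measurePreserving_mk3.setLIntegral_comp_preimage hs
    (hΨ.comp continuous_pr.measurable)).symm.trans ?_
  change ∫⁻ p in A ×ˢ Ico (0 : ℝ) 1, Ψ p.1 = _
  rw [Measure.volume_eq_prod, ← Measure.prod_restrict,
    lintegral_prod (fun p => Ψ p.1) (hΨ.comp measurable_fst).aemeasurable]
  simp

theorem a7_null (c : ℝ) : ∀ᵐ z : ℂ, z.re ≠ c ∧ z.im ≠ c := by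
  have h := Complex.volume_preserving_equiv_real_prod.quasiMeasurePreserving
  have h0 : ∀ᵐ x : ℝ, x ≠ c := by simp [ae_iff]
  exact ((Measure.quasiMeasurePreserving_fst.comp h).ae h0).and
    ((Measure.quasiMeasurePreserving_snd.comp h).ae h0)

/-- a function of `red (pr x - w)` integrates over the cell like over the unit square centred at
`0` (use `lintegral_cell_add` with the shift `mk3 w 0 - (1/2,1/2,0)`, `lintegral_mk3`; the
boundary of the square is null). -/
theorem lintegral_cell_red (Φ : ℂ → ℝ≥0∞) (hm : Measurable Φ) (w : ℂ) :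
    ∫⁻ x in cell, Φ (red (pr x - w)) =
      ∫⁻ z in {z : ℂ | |z.re| < 1 / 2 ∧ |z.im| < 1 / 2}, Φ z := by
  have hΨ : ∀ u : ℂ, Measurable fun z => Φ (red (z - u)) := fun u =>
    hm.comp (measurable_red.comp (measurable_id.sub_const u))
  set h : ℂ := ⟨1 / 2, 1 / 2⟩ with hh
  rw [← lintegral_cell_add (fun x => Φ (red (pr x - w))) ((hΨ w).comp continuous_pr.measurable) (per_red Φ w) (mk3 (w - h) 0)]
  have e1 : ∀ x : R3, pr (x + mk3 (w - h) 0) - w = pr x - h := fun x => by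
    rw [pr_add, pr_mk3]; ring
  set B : Set ℂ := {z | z.re ∈ Ico (-(1 / 2 : ℝ)) (1 / 2) ∧ z.im ∈ Ico (-(1 / 2 : ℝ)) (1 / 2)} with hB
  have hBm : MeasurableSet B := (measurableSet_Ico.preimage Complex.measurable_re).inter
    (measurableSet_Ico.preimage Complex.measurable_im)
  have e2 : cell = {x | pr x ∈ (fun z => z - h) ⁻¹' B ∧ x 2 ∈ Ico 0 1} := by
    ext x
    simp only [cell, hB, hh, pr, mem_ofPred_eq, Fin.forall_fin_succ, mem_preimage, Complex.sub_re,
      Complex.sub_im, mem_Ico, IsEmpty.forall_iff, and_true]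
    constructor
    · rintro ⟨⟨a, b⟩, ⟨c, d⟩, e⟩
      exact ⟨⟨⟨by linarith, by linarith⟩, by simp at c; linarith, by simp at d; linarith⟩, e⟩
    · rintro ⟨⟨⟨a, b⟩, c, d⟩, e⟩
      exact ⟨⟨by linarith, by linarith⟩, ⟨by simp; linarith, by simp; linarith⟩, e⟩
  simp only [e1]
  rw [e2, a7_cyl ((fun z => z - h) ⁻¹' B) (hBm.preimage (measurable_id.sub_const h)) _ (hΨ h),
    (measurePreserving_sub_right volume h).setLIntegral_comp_preimage hBm
      (f := fun z => Φ (red z)) (hm.comp measurable_red),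
    setLIntegral_congr_fun hBm (g := Φ) fun z hz => by simp only [a7_red hz.1 hz.2]]
  refine setLIntegral_congr ?_
  filter_upwards [a7_null (-(1 / 2))] with z hz
  refine propext ?_
  change z ∈ B ↔ |z.re| < 1 / 2 ∧ |z.im| < 1 / 2
  simp only [hB, mem_ofPred_eq, mem_Ico, abs_lt]
  exact ⟨fun h => ⟨⟨h.1.1.lt_of_ne hz.1.symm, h.1.2⟩, h.2.1.lt_of_ne hz.2.symm, h.2.2⟩,
    fun h => ⟨⟨h.1.1.le, h.1.2⟩, h.2.1.le, h.2.2⟩⟩

theorem a7_scale {E : Type*} [NormedAddCommGroup E] [NormedSpace ℝ E] [MeasurableSpace E]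
    [BorelSpace E] [FiniteDimensional ℝ E] (μ : Measure E) [μ.IsAddHaarMeasure] (Θ : E → ℝ≥0∞)
    (hm : Measurable Θ) (x : E) {τ : ℝ} (hτ : 0 < τ) (ρ : ℝ) :
    ∫⁻ a in Metric.closedBall (0 : E) ρ, Θ (x - τ • a) ∂μ ≤
      ENNReal.ofReal (τ ^ Module.finrank ℝ E)⁻¹ * ∫⁻ z in Metric.closedBall x (ρ * τ), Θ z ∂μ := by
  have hb : ∀ (y : E) (r : ℝ), MeasurableSet (Metric.closedBall y r) := fun _ _ =>
    Metric.isClosed_closedBall.measurableSet
  set f := (Metric.closedBall x (ρ * τ)).indicator Θ with hf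
  have hfm : Measurable f := hm.indicator (hb _ _)
  have h1 : ∫⁻ a, f (x - τ • a) ∂μ = ENNReal.ofReal (τ ^ Module.finrank ℝ E)⁻¹ * ∫⁻ z, f z ∂μ := by
    rw [← lintegral_sub_left_eq_self f x, ← abs_of_pos (inv_pos.2 (pow_pos hτ _)),
      ← smul_eq_mul, ← lintegral_smul_measure, ← Measure.map_addHaar_smul μ hτ.ne',
      lintegral_map (f := fun a => f (x - a)) (hfm.comp (measurable_const.sub measurable_id))
        (measurable_const_smul τ)]
  rw [← lintegral_indicator (hb _ _), ← lintegral_indicator (hb _ _), ← hf, ← h1]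
  refine lintegral_mono fun a => indicator_apply_le' (fun ha => le_of_eq ?_) fun _ => zero_le
  rw [hf, indicator_of_mem]
  rw [mem_closedBall_iff_norm, sub_sub_cancel_left, norm_neg, norm_smul, Real.norm_of_nonneg hτ.le,
    mul_comm]
  exact mul_le_mul_of_nonneg_right (mem_closedBall_zero_iff.1 ha) hτ.le

theorem a7_box (Θ : R3 → ℝ≥0∞) (hm : Measurable Θ) (hp : IsPeriodic3 Θ) (c : R3) (n : Fin 3 → ℕ) :
    ∫⁻ z in {z : R3 | ∀ i, (z - c) i ∈ Ico (0 : ℝ) (n i)}, Θ z ≤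
      (∏ i, n i : ℕ) * ∫⁻ z in cell, Θ z := by
  set w : ((i : Fin 3) → Fin (n i)) → R3 := fun k => c + WithLp.toLp 2 fun i => ((k i : ℕ) : ℝ)
    with hw
  have h1 : {z : R3 | ∀ i, (z - c) i ∈ Ico (0 : ℝ) (n i)} ⊆ ⋃ k, (fun z => z - w k) ⁻¹' cell := by
    intro z hz
    refine mem_iUnion.2 ⟨fun i => ⟨⌊(z - c) i⌋₊, (Nat.floor_lt (hz i).1).2 (hz i).2⟩, fun i => ?_⟩
    have h2 := Nat.floor_le (hz i).1
    have h3 := Nat.lt_floor_add_one ((z - c) i)
    simp only [hw, PiLp.sub_apply, PiLp.add_apply] at h2 h3 ⊢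
    constructor <;> linarith
  refine (lintegral_mono_set h1).trans ((lintegral_iUnion_le _ _).trans (le_of_eq ?_))
  have h2 : ∀ k, ∫⁻ z in (fun z => z - w k) ⁻¹' cell, Θ z = ∫⁻ z in cell, Θ z := fun k => by
    rw [← lintegral_cell_add Θ hm hp (w k), ← (measurePreserving_sub_right volume
      (w k)).setLIntegral_comp_preimage measurableSet_cell (f := fun z => Θ (z + w k))
      (hm.comp (measurable_id.add_const _))]
    simp
  simp [h2]

theorem a7_mem {y r : ℝ} (h : |y| ≤ r) : y + r ∈ Ico (0 : ℝ) ((⌊2 * r⌋₊ + 1 : ℕ) : ℝ) := by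
  have h1 := Nat.lt_floor_add_one (2 * r)
  have h2 := abs_le.1 h
  push_cast
  constructor <;> linarith

theorem a7_const {τ ρ : ℝ} (hτ : 0 < τ) (hρ : 0 ≤ ρ) (d : ℕ) :
    ENNReal.ofReal (τ ^ d)⁻¹ * (((⌊2 * (ρ * τ)⌋₊ + 1) ^ d : ℕ) : ℝ≥0∞) ≤
      ENNReal.ofReal ((2 * ρ * τ + 2) ^ d / τ ^ d) := by
  rw [← ENNReal.ofReal_natCast, ← ENNReal.ofReal_mul (by positivity), mul_comm, ← div_eq_mul_inv]
  refine ENNReal.ofReal_le_ofReal ?_
  have := Nat.floor_le (by positivity : 0 ≤ 2 * (ρ * τ))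
  have h : (⌊2 * (ρ * τ)⌋₊ : ℝ) + 1 ≤ 2 * ρ * τ + 2 := by linarith
  push_cast
  gcongr

/-- dispersion in three dimensions: substitute `z = x - τ a` (`lintegral` under a homothety),
the ball of radius `ρ τ` is covered by at most `(2ρτ+2)³` translates of the cell by integer
vectors. -/
theorem disp3 (Θ : R3 → ℝ≥0∞) (hm : Measurable Θ) (hp : IsPeriodic3 Θ) (x : R3) {τ ρ : ℝ}
    (hτ : 0 < τ) (hρ : 0 ≤ ρ) :
    ∫⁻ a in Metric.closedBall (0 : R3) ρ, Θ (x - τ • a) ≤
      ENNReal.ofReal ((2 * ρ * τ + 2) ^ 3 / τ ^ 3) * ∫⁻ z in cell, Θ z := by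
  refine (a7_scale volume Θ hm x hτ ρ).trans ?_
  have h1 := a7_box Θ hm hp (x - WithLp.toLp 2 fun _ => ρ * τ) (fun _ => ⌊2 * (ρ * τ)⌋₊ + 1)
  have h2 : Metric.closedBall x (ρ * τ) ⊆ {z : R3 | ∀ i,
      (z - (x - WithLp.toLp 2 fun _ => ρ * τ) : R3) i ∈ Ico (0 : ℝ) ((⌊2 * (ρ * τ)⌋₊ + 1 : ℕ) : ℝ)} := fun z hz i => by
    have := a7_mem ((PiLp.norm_apply_le (z - x) i).trans (mem_closedBall_iff_norm.1 hz))
    convert this using 1
    simp; ring
  refine (mul_le_mul_right ((lintegral_mono_set h2).trans h1) _).trans ?_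
  rw [← mul_assoc]
  refine mul_le_mul_left ?_ _
  simpa using a7_const hτ hρ 3

/-- dispersion in two dimensions -/
theorem disp2 (Φ : ℂ → ℝ≥0∞) (hm : Measurable Φ) (X : ℂ) {τ ρ : ℝ} (hτ : 0 < τ) (hρ : 0 ≤ ρ) :
    ∫⁻ ζ in Metric.closedBall (0 : ℂ) ρ, Φ (red (X - τ • ζ)) ≤
      ENNReal.ofReal ((2 * ρ * τ + 2) ^ 2 / τ ^ 2) *
        ∫⁻ z in {z : ℂ | |z.re| < 1 / 2 ∧ |z.im| < 1 / 2}, Φ z := by
  have hm' : Measurable fun z => Φ (red z) := hm.comp measurable_red
  refine (a7_scale volume (fun z => Φ (red z)) hm' X hτ ρ).trans ?_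
  have hp := per_red Φ 0
  have h0 := lintegral_cell_red Φ hm 0
  simp only [sub_zero] at hp h0
  have h1 := a7_box (fun x => Φ (red (pr x))) (hm'.comp continuous_pr.measurable) hp (mk3 (X - ⟨ρ * τ, ρ * τ⟩) 0)
    ![⌊2 * (ρ * τ)⌋₊ + 1, ⌊2 * (ρ * τ)⌋₊ + 1, 1]
  have h2 : {z : R3 | pr z ∈ Metric.closedBall X (ρ * τ) ∧ z 2 ∈ Ico 0 1} ⊆
      {z : R3 | ∀ i, (z - mk3 (X - ⟨ρ * τ, ρ * τ⟩) 0) i ∈
      Ico (0 : ℝ) ((![⌊2 * (ρ * τ)⌋₊ + 1, ⌊2 * (ρ * τ)⌋₊ + 1, 1] : Fin 3 → ℕ) i : ℝ)} := by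
    rintro z ⟨hz, hz'⟩ i
    have hz := mem_closedBall_iff_norm.1 hz
    fin_cases i
    · have := a7_mem ((Complex.abs_re_le_norm _).trans hz)
      change z 0 - (X.re - ρ * τ) ∈ _
      rwa [show z 0 - (X.re - ρ * τ) = z 0 - X.re + ρ * τ by ring]
    · have := a7_mem ((Complex.abs_im_le_norm _).trans hz)
      change z 1 - (X.im - ρ * τ) ∈ _
      rwa [show z 1 - (X.im - ρ * τ) = z 1 - X.im + ρ * τ by ring]
    · simpa [mk3] using hz'
  rw [← a7_cyl _ Metric.isClosed_closedBall.measurableSet _ hm', ← h0]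
  refine (mul_le_mul_right ((lintegral_mono_set h2).trans h1) _).trans ?_
  rw [← mul_assoc]
  refine mul_le_mul_left ?_ _
  simpa [Fin.prod_univ_three, sq] using a7_const hτ hρ 2

end

end Crest.Agent.R68
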