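import Crest.Agent.R68.ENum
import Crest.Agent.R68.A7

/-!
# R68 (S0091): geometry of the streams
-/

set_option autoImplicit false

namespace Crest.Agent.R68

open MeasureTheory Set Filter Crest.AnalysisR.VecCalc3 Crest.AnalysisR.PDE.Boltzmann
open scoped ENNReal _root_.Topology

noncomputable section

theorem sg_sq (ε : Bool) : sg ε ^ 2 = 1 := by
  cases ε <;> simp [sg]

theorem abs_sg (ε : Bool) : |sg ε| = 1 := by
  cases ε <;> simp [sg]

theorem abs_wd_le (X ζ : ℂ) : |wd X ζ| ≤ ‖X‖ * ‖ζ‖ := by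
  have : wd X ζ = ((starRingEnd ℂ) X * ζ).im := by
    simp only [wd, Complex.mul_im, Complex.conj_re, Complex.conj_im]
    ring
  rw [this]
  exact (Complex.abs_im_le_norm _).trans (by rw [norm_mul, Complex.norm_conj])

theorem wd_add_smul (Y ζ : ℂ) (t : ℝ) : wd (Y + t • ζ) ζ = wd Y ζ := by
  simp [wd]
  ring

theorem wd_sub_smul (Y ζ : ℂ) (t : ℝ) : wd (Y - t • ζ) ζ = wd Y ζ := by
  simp [wd]
  ring

theorem wd_uf (L t : ℝ) (X : ℂ) : wd X (uf L t X) = 0 := by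
  simp only [wd, uf, Complex.smul_re, Complex.smul_im, smul_eq_mul]
  ring

/-- the wedge as an inner product with the horizontal vector `i X` -/
theorem wd_eq_inner (X : ℂ) (v : R3) : wd X (pr v) = inner ℝ (mk3 (Complex.I * X) 0) v := by
  conv_rhs => rw [← mk3_pr v, inner_mk3]
  simp [wd]
  ring

theorem norm_uf_le {L t : ℝ} (hL : 0 < L) (ht : 0 ≤ t) (X : ℂ) : ‖uf L t X‖ ≤ L := by
  have h0 : 0 ≤ max ‖X‖ (L * t) := le_max_of_le_left (norm_nonneg _)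
  rw [uf, norm_smul, Real.norm_of_nonneg (div_nonneg hL.le h0), div_mul_eq_mul_div]
  exact div_le_of_le_mul₀ h0 hL.le (mul_le_mul_of_nonneg_left (le_max_left _ _) hL.le)

private theorem egeo_vi {L s : ℝ} (hL : 0 < L) (hs : 0 ≤ s) (X q : ℂ) (hq : ‖q‖ ≤ L) :
    inner ℝ (X - s • uf L s X) (q - uf L s X) ≤ 0 := by
  rcases le_total ‖X‖ (L * s) with h | h
  · rcases hs.eq_or_lt with rfl | hs
    · have : X = 0 := by simpa using h
      simp [this]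
    · have : X - s • uf L s X = 0 := by
        rw [uf, max_eq_right h, smul_smul, show s * (L / (L * s)) = 1 by field_simp, one_smul,
          sub_self]
      rw [this, inner_zero_left]
  · by_cases hX : X = 0
    · simp [hX, uf]
    have hX' : 0 < ‖X‖ := norm_pos_iff.2 hX
    have e : X - s • uf L s X = (1 - s * (L / ‖X‖)) • X := by
      rw [uf, max_eq_left h, smul_smul, sub_smul, one_smul]
    rw [e, real_inner_smul_left, inner_sub_right, uf, max_eq_left h, real_inner_smul_right,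
      real_inner_self_eq_norm_sq]
    refine mul_nonpos_of_nonneg_of_nonpos ?_ ?_
    · rw [sub_nonneg, ← mul_div_assoc, div_le_one hX']
      linarith
    · have h1 := real_inner_le_norm X q
      have h2 : L / ‖X‖ * ‖X‖ ^ 2 = ‖X‖ * L := by field_simp
      nlinarith

/-- `p = uf L s (Y + sζ)` minimises `s ‖p - ζ‖² - 2 ⟪p, Y⟫` over the disc of radius `L` (for `s > 0`
it is the nearest point to `ζ + Y/s`; for `s = 0` it maximises `⟪p, Y⟫`).  Writing the two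
minimality inequalities for `s ≤ t` and adding them gives
`(t - s)(‖p_s - ζ‖² - ‖p_t - ζ‖²) ≥ 0`. -/
theorem uf_anti {L s t : ℝ} (hL : 0 < L) (hs : 0 ≤ s) (hst : s ≤ t) (Y ζ : ℂ) :
    ‖ζ - uf L t (Y + t • ζ)‖ ≤ ‖ζ - uf L s (Y + s • ζ)‖ := by
  rcases hst.eq_or_lt with rfl | hst
  · exact le_rfl
  have ht : 0 ≤ t := hs.trans hst.le
  have h1 := egeo_vi hL hs (Y + s • ζ) _ (norm_uf_le hL ht (Y + t • ζ))
  have h2 := egeo_vi hL ht (Y + t • ζ) _ (norm_uf_le hL hs (Y + s • ζ))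
  generalize uf L t (Y + t • ζ) = q at *
  generalize uf L s (Y + s • ζ) = p at *
  obtain ⟨a, rfl⟩ : ∃ a, p = ζ - a := ⟨ζ - p, by abel⟩
  obtain ⟨b, rfl⟩ : ∃ b, q = ζ - b := ⟨ζ - q, by abel⟩
  rw [show Y + s • ζ - s • (ζ - a) = Y + s • a by rw [smul_sub]; abel,
    show ζ - b - (ζ - a) = a - b by abel] at h1
  rw [show Y + t • ζ - t • (ζ - b) = Y + t • b by rw [smul_sub]; abel,
    show ζ - a - (ζ - b) = b - a by abel] at h2
  simp only [inner_add_left, inner_sub_right, real_inner_smul_left, real_inner_self_eq_norm_sq] at h1 h2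
  have h3 := norm_sub_sq_real a b
  rw [sub_sub_cancel, sub_sub_cancel]
  refine abs_le_of_sq_le_sq' ?_ (norm_nonneg _) |>.2
  rw [real_inner_comm a b] at h2
  have h4 : (t - s) * (‖b‖ ^ 2 - ‖a‖ ^ 2) ≤ 0 := by
    nlinarith [mul_nonneg (add_nonneg hs ht) (sq_nonneg ‖a - b‖)]
  nlinarith

/-- `|Im z^m - Im w^m| ≤ m ‖z - w‖` for unit vectors -/
theorem im_pow_sub_le {z w : ℂ} (hz : ‖z‖ = 1) (hw : ‖w‖ = 1) (m : ℕ) :
    |(z ^ m).im - (w ^ m).im| ≤ m * ‖z - w‖ := by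
  rw [← Complex.sub_im]
  refine (Complex.abs_im_le_norm _).trans ?_
  induction m with
  | zero => simp
  | succ n ih =>
    rw [show z ^ (n + 1) - w ^ (n + 1) = z * (z ^ n - w ^ n) + (z - w) * w ^ n by ring]
    refine (norm_add_le _ _).trans ?_
    rw [norm_mul, norm_mul, norm_pow, hz, hw, one_pow]
    push_cast
    linarith

theorem smul_mem_Sec {m : ℕ} {ε : Bool} {c : ℝ} {z : ℂ} {t : ℝ} (ht : 0 < t) :
    t • z ∈ Sec m ε c ↔ z ∈ Sec m ε c := by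
  simp only [Sec, mem_ofPred_eq, smul_pow, Complex.smul_im, norm_smul, Real.norm_of_nonneg ht.le,
    mul_pow, smul_eq_mul]
  rw [mul_left_comm, mul_left_comm (sg ε), mul_le_mul_iff_right₀ (pow_pos ht m)]

/-- `‖z/‖z‖ - w/‖w‖‖ ≤ 2 ‖z - w‖ / ‖z‖` -/
theorem norm_dir_sub_le {z w : ℂ} (hz : z ≠ 0) (hw : w ≠ 0) :
    ‖(‖z‖⁻¹ • z : ℂ) - ‖w‖⁻¹ • w‖ ≤ 2 * ‖z - w‖ / ‖z‖ := by
  have hz' : 0 < ‖z‖ := norm_pos_iff.2 hz
  have hw' : 0 < ‖w‖ := norm_pos_iff.2 hw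
  rw [show (‖z‖⁻¹ • z : ℂ) - ‖w‖⁻¹ • w = ‖z‖⁻¹ • (z - w) + (‖z‖⁻¹ - ‖w‖⁻¹) • w by
    rw [smul_sub, sub_smul]; abel]
  refine (norm_add_le _ _).trans ?_
  rw [norm_smul, norm_smul, norm_inv, norm_norm, Real.norm_eq_abs,
    show ‖z‖⁻¹ - ‖w‖⁻¹ = (‖w‖ - ‖z‖) / (‖z‖ * ‖w‖) by field_simp, abs_div, abs_of_pos (mul_pos hz' hw')]
  have h1 : |‖w‖ - ‖z‖| ≤ ‖z - w‖ := (abs_norm_sub_norm_le w z).trans (norm_sub_rev _ _).le
  calc _ ≤ ‖z‖⁻¹ * ‖z - w‖ + ‖z - w‖ / (‖z‖ * ‖w‖) * ‖w‖ := by gcongr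
    _ = _ := by field_simp; ring

theorem Yt_char (t : ℝ) (y v : R3) : Yt t (y + t • v) v = Xr y := by
  rw [Yt, Xr, pr_add, pr_smul, add_sub_cancel_right]

theorem Xl_char (t : ℝ) (y v : R3) : Xl t (y + t • v) v = Xr y + t • pr v := by
  rw [Xl, Yt_char]

theorem norm_Xr_le {t : ℝ} (ht : 0 ≤ t) (x v : R3) : ‖Xr x‖ ≤ ‖Yt t x v‖ + t * ‖pr v‖ := by
  have := norm_red_add_le (pr x - t • pr v) (t • pr v)
  rwa [sub_add_cancel, norm_smul, Real.norm_of_nonneg ht] at this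

theorem norm_Yt_le {t : ℝ} (ht : 0 ≤ t) (x v : R3) : ‖Yt t x v‖ ≤ ‖Xr x‖ + t * ‖pr v‖ := by
  have := norm_red_add_le (pr x) (-(t • pr v))
  rwa [← sub_eq_add_neg, norm_neg, norm_smul, Real.norm_of_nonneg ht] at this

theorem norm_Yt_le' {t : ℝ} (ht : 0 ≤ t) (x v a : R3) :
    ‖Yt t x a‖ ≤ ‖Yt t x v‖ + t * ‖a - v‖ := by
  have := norm_red_add_le (pr x - t • pr v) (-(t • pr (a - v)))
  rw [norm_neg, norm_smul, Real.norm_of_nonneg ht,
    show pr x - t • pr v + -(t • pr (a - v)) = pr x - t • pr a by rw [pr_sub, smul_sub]; abel] at this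
  exact this.trans (add_le_add_right (mul_le_mul_of_nonneg_left (norm_pr_le _) ht) _)

/-- lifts -/
theorem Xr_add {x v : R3} {s : ℝ} (h : ‖Xr x‖ + |s| * ‖pr v‖ < 1 / 2) :
    Xr (x + s • v) = Xr x + s • pr v := by
  rw [Xr, pr_add, pr_smul]
  exact red_add_of_small (by rwa [norm_smul, Real.norm_eq_abs])

theorem Yt_eq {t : ℝ} {x v : R3} (h : ‖Xr x - t • pr v‖ < 1 / 2) : Yt t x v = Xr x - t • pr v := by
  rw [Yt, sub_eq_add_neg, ← red_red_add, ← sub_eq_add_neg]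
  exact red_of_small h

theorem Xl_eq {t : ℝ} {x v : R3} (h : ‖Yt t x v‖ + |t| * ‖pr v‖ < 1 / 2) : Xl t x v = Xr x := by
  have := red_add_of_small (z := pr x - t • pr v) (w := t • pr v)
    (by rwa [norm_smul, Real.norm_eq_abs])
  rw [sub_add_cancel] at this
  exact this.symm

theorem Xl_lattice (t : ℝ) (x v : R3) : ∃ a b : ℤ, Xl t x v = pr x - ⟨a, b⟩ := by
  obtain ⟨a, b, h⟩ := red_eq_sub (pr x - t • pr v)
  exact ⟨a, b, by rw [Xl, Yt, h]; abel⟩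

private theorem egeo_Gs {θ θ' : ℝ} (h : θ ≤ θ') (v : R3) : Gs θ' v ≤ Gs θ v := by
  refine ENNReal.ofReal_le_ofReal (Real.exp_le_exp.2 ?_)
  nlinarith [sq_nonneg ‖v‖]

namespace Par.Ok
variable {P : Par} (h : P.Ok)
include h

theorem norm_Uf_le (ε : Bool) {t : ℝ} (ht : 0 ≤ t) (X : ℂ) : ‖P.Uf ε t X‖ ≤ 11 / 10 := by
  refine abs_le_of_sq_le_sq' ?_ (by norm_num) |>.2
  rw [P11.Uf, norm_mk3_sq, sg_sq]
  have h1 := norm_uf_le h.L_pos ht X
  have h2 := h.L_le'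
  nlinarith [norm_nonneg (uf P.L t X)]

theorem wn_ge_two (ε : Bool) (t : ℝ) (X : ℂ) (v : R3) : |v 2 - sg ε| ≤ P.wn ε t X v := by
  simpa [P11.Uf, P11.wn] using abs_two_le (v - P.Uf ε t X)

theorem wn_ge_pr (ε : Bool) (t : ℝ) (X : ℂ) (v : R3) : ‖pr v - uf P.L t X‖ ≤ P.wn ε t X v := by
  simpa [P11.Uf, P11.wn, pr_sub] using norm_pr_le (v - P.Uf ε t X)

theorem wn_add_wn (t : ℝ) (X : ℂ) (v : R3) : 2 ≤ P.wn true t X v + P.wn false t X v := by
  have h1 := h.wn_ge_two true t X v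
  have h2 := h.wn_ge_two false t X v
  simp only [sg, if_true, Bool.false_eq_true, if_false] at h1 h2
  linarith [neg_abs_le (v 2 - 1), le_abs_self (v 2 - -1)]

theorem abs_wd_le_wn (ε : Bool) (t : ℝ) (X : ℂ) (v : R3) :
    |wd X (pr v)| ≤ ‖X‖ * P.wn ε t X v := by
  have e : wd X (pr v) = wd X (pr v - uf P.L t X) := by
    have := wd_uf P.L t X
    simp only [wd, Complex.sub_re, Complex.sub_im] at this ⊢
    linarith
  rw [e]
  exact (abs_wd_le _ _).trans (mul_le_mul_of_nonneg_left (h.wn_ge_pr ε t X v) (norm_nonneg _))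

theorem wn_anti (ε : Bool) {s t : ℝ} (hs : 0 ≤ s) (hst : s ≤ t) (Y : ℂ) (v : R3) :
    P.wn ε t (Y + t • pr v) v ≤ P.wn ε s (Y + s • pr v) v := by
  refine abs_le_of_sq_le_sq' ?_ (norm_nonneg _) |>.2
  simp only [P11.wn, P11.Uf, norm_sq_eq_pr (v - _), pr_sub, pr_mk3, PiLp.sub_apply, mk3_two]
  have := uf_anti h.L_pos hs hst Y (pr v)
  gcongr

theorem vr_mono {s t : ℝ} (hst : s ≤ t) (Y : ℂ) {ζ : ℂ} (hζ : ‖ζ‖ ≤ 1) :
    P.vr s (Y + s • ζ) ≤ P.vr t (Y + t • ζ) := by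
  have h1 := norm_sub_le (Y + t • ζ) ((t - s) • ζ)
  rw [show Y + t • ζ - (t - s) • ζ = Y + s • ζ by rw [sub_smul]; abel, norm_smul,
    Real.norm_of_nonneg (sub_nonneg.2 hst)] at h1
  unfold Par.vr
  nlinarith

theorem ee_mono {s t : ℝ} (hs : 0 ≤ s) (hst : s ≤ t) (Y : ℂ) {ζ : ℂ} (hζ : ‖ζ‖ ≤ 1) :
    P.ee s (Y + s • ζ) ≤ P.ee t (Y + t • ζ) := by
  exact Real.rpow_le_rpow (le_min (h.vr_pos hs _).le h.r₀_pos.le)
    (min_le_min_right _ (h.vr_mono hst Y hζ)) (by norm_num)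

theorem SV_nonempty (ε : Bool) : (P.SV ε).Nonempty := by
  have hm : (P.m : ℂ) ≠ 0 := by exact_mod_cast (Nat.pos_of_ne_zero (by have := h.m_ge; omega)).ne'
  have h1 : ‖Complex.exp ((sg ε * Real.pi / (2 * P.m) : ℝ) * Complex.I)‖ = 1 :=
    Complex.norm_exp_ofReal_mul_I _
  refine ⟨Complex.exp ((sg ε * Real.pi / (2 * P.m) : ℝ) * Complex.I), ?_, ?_⟩
  · rw [mem_ofPred_eq, h1]
    linarith [h.L_le']
  · rw [Sec, mem_ofPred_eq, h1, ← Complex.exp_nat_mul,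
      show (P.m : ℂ) * ((sg ε * Real.pi / (2 * P.m) : ℝ) * Complex.I) =
        (sg ε * (Real.pi / 2) : ℝ) * Complex.I by push_cast; field_simp,
      Complex.exp_ofReal_mul_I_im]
    cases ε <;> simp [sg] <;> norm_num

/-- radial projection onto the disc of radius `L` is `1`-Lipschitz (or `norm_dir_sub_le`),
`im_pow_sub_le` -/
theorem SV_sep {ζ ζ' : ℂ} (h1 : ζ ∈ P.SV true) (h2 : ζ' ∈ P.SV false) :
    P.L / (8 * P.m) ≤ ‖ζ - ζ'‖ := by
  have hL := h.L_pos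
  have hm : (0 : ℝ) < P.m := by exact_mod_cast h.m_ge
  have p1 : 0 < ‖ζ‖ := hL.trans_le h1.1
  have p2 : 0 < ‖ζ'‖ := hL.trans_le h2.1
  have n1 : ‖(‖ζ‖⁻¹ • ζ : ℂ)‖ = 1 := by rw [norm_smul, norm_inv, norm_norm, inv_mul_cancel₀ p1.ne']
  have n2 : ‖(‖ζ'‖⁻¹ • ζ' : ℂ)‖ = 1 := by rw [norm_smul, norm_inv, norm_norm, inv_mul_cancel₀ p2.ne']
  have s1 := (smul_mem_Sec (inv_pos.2 p1)).2 h1.2
  have s2 := (smul_mem_Sec (inv_pos.2 p2)).2 h2.2
  simp only [Sec, mem_ofPred_eq, n1, n2, sg, if_true, Bool.false_eq_true, if_false, one_pow] at s1 s2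
  have h3 := (le_abs_self _).trans (im_pow_sub_le n1 n2 P.m)
  have h4 := (norm_dir_sub_le (norm_pos_iff.1 p1) (norm_pos_iff.1 p2)).trans
    (div_le_div_of_nonneg_left (by positivity) hL h1.1)
  have h5 : 1 / 4 ≤ P.m * (2 * ‖ζ - ζ'‖ / P.L) :=
    le_trans (by linarith) (h3.trans (mul_le_mul_of_nonneg_left h4 hm.le))
  rw [← mul_div_assoc, le_div_iff₀ hL] at h5
  rw [div_le_iff₀ (by positivity)]
  linarith

theorem dv_le_add (ε : Bool) (v a : R3) : P.dv ε v ≤ P.dv ε a + ‖v - a‖ := by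
  refine Metric.infDist_le_infDist_add_dist.trans (add_le_add_right ?_ _)
  rw [dist_eq_norm, ← pr_sub]
  exact norm_pr_le _

theorem dv_nonneg (ε : Bool) (v : R3) : 0 ≤ P.dv ε v := by
  exact Metric.infDist_nonneg

theorem norm_ge_of_dv (ε : Bool) (v : R3) : P.L - P.dv ε v ≤ ‖pr v‖ := by
  have : P.L - ‖pr v‖ ≤ P.dv ε v := (Metric.le_infDist (h.SV_nonempty ε)).2 fun y hy => by
    rw [dist_comm, dist_eq_norm]
    exact (sub_le_sub_right hy.1 _).trans (norm_sub_norm_le _ _)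
  linarith

theorem Ph_nonneg (ε : Bool) {t : ℝ} (ht : 0 ≤ t) (X : ℂ) (v : R3) : 0 ≤ P.Ph ε t X v := by
  exact add_nonneg (add_nonneg (div_nonneg (norm_nonneg _) (h.sig_pos ht X).le)
    (div_nonneg (h.dv_nonneg ε v) (h.del_pos ht X).le))
    (div_nonneg (le_max_right _ _) (mul_pos (h.vr_pos ht X) (h.del_pos ht X)).le)

theorem Ph_anti (ε : Bool) {s t : ℝ} (hs : 0 ≤ s) (hst : s ≤ t) (Y : ℂ) {v : R3} (hv : ‖pr v‖ ≤ 1) :
    P.Ph ε t (Y + t • pr v) v ≤ P.Ph ε s (Y + s • pr v) v := by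
  have he := h.ee_mono hs hst Y hv
  have e0 := (h.ee_pos hs (Y + s • pr v)).le
  have h7 : P.del s (Y + s • pr v) ≤ P.del t (Y + t • pr v) := pow_le_pow_left₀ e0 he 7
  have h8 : P.sig s (Y + s • pr v) ≤ P.sig t (Y + t • pr v) := pow_le_pow_left₀ e0 he 8
  have d0 := h.del_pos hs (Y + s • pr v)
  have v0 := h.vr_pos hs (Y + s • pr v)
  simp only [Par.Ph, add_sub_cancel_right]
  exact add_le_add (add_le_add
    (div_le_div₀ (norm_nonneg _) (h.wn_anti ε hs hst Y v) (h.sig_pos hs _) h8)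
    (div_le_div_of_nonneg_left (h.dv_nonneg ε v) d0 h7))
    (div_le_div_of_nonneg_left (le_max_right _ _) (mul_pos v0 d0)
      (mul_le_mul (h.vr_mono hst Y hv) h7 d0.le (h.vr_pos (hs.trans hst) _).le))

private theorem egeo_pr (ε : Bool) {t : ℝ} (ht : 0 ≤ t) (X : ℂ) (v : R3) :
    ‖pr v‖ ≤ P.wn ε t X v + 1 / 1000 := by
  have h1 := norm_sub_norm_le (pr v) (uf P.L t X)
  linarith [h.wn_ge_pr ε t X v, norm_uf_le h.L_pos ht X, h.L_le']

/-- `cut` forces `‖pr v‖ ≤ L + del ≤ 1` -/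
theorem cut_mono (ε : Bool) {s t : ℝ} (hs : 0 ≤ s) (hst : s ≤ t) (Y : ℂ) {v : R3}
    (hc : P.cut ε s (Y + s • pr v) v) : P.cut ε t (Y + t • pr v) v := by
  have hv : ‖pr v‖ ≤ 1 := by
    linarith [h.egeo_pr ε hs (Y + s • pr v) v, hc.1, h.del_le hs (Y + s • pr v), h.e₀_le, h.L_le']
  refine ⟨(h.wn_anti ε hs hst Y v).trans (hc.1.trans
    (pow_le_pow_left₀ (h.ee_pos hs _).le (h.ee_mono hs hst Y hv) 7)), hc.2.1, ?_⟩
  simpa only [add_sub_cancel_right] using hc.2.2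

/-- monotonicity of the weight along characteristics.  If `Ew ε s (Xr (y + s v)) v ≠ 0` then
`wn ≤ 1`, `‖v‖ ≤ 3`, the label has norm `≤ 10 T₁`, so it is `Xr y` and
`Xr (y + u v) = Xr y + u • pr v` for all `u ∈ [0, T₁]`; use `wn_anti`, `Omn_anti`. -/
theorem Ew_mono (ε : Bool) {s t : ℝ} (hs : 0 ≤ s) (hst : s ≤ t) (ht : t ≤ P.T₁) (y v : R3) :
    P.Ew ε s (Xr (y + s • v)) v ≤ P.Ew ε t (Xr (y + t • v)) v := by
  have hT := h.T₁_le'
  by_cases hc : ‖Xr (y + s • v) - s • pr v‖ ≤ 10 * P.T₁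
  swap
  · simp only [Par.Ew, if_neg hc, zero_le]
  by_cases hw : 1 < P.wn ε s (Xr (y + s • v)) v
  · simp [Par.Ew, h.Omn_zero hw]
  have hv : ‖pr v‖ ≤ 2 := by linarith [h.egeo_pr ε hs (Xr (y + s • v)) v, not_lt.1 hw]
  have e : Xr y = Xr (y + s • v) - s • pr v := by
    rw [← Yt_char s y v]
    exact Yt_eq (by linarith)
  have e1 : Xr (y + s • v) = Xr y + s • pr v := by rw [e, sub_add_cancel]
  rw [← e] at hc
  have e2 : Xr (y + t • v) = Xr y + t • pr v := by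
    refine Xr_add ?_
    rw [abs_of_nonneg (hs.trans hst)]
    nlinarith [norm_nonneg (pr v)]
  simp only [Par.Ew, e1, e2, add_sub_cancel_right, if_pos hc]
  exact h.Omn_anti (h.wn_anti ε hs hst _ v)

theorem E0_mono {s t : ℝ} (hs : 0 ≤ s) (hst : s ≤ t) (ht : t ≤ P.T₁) (y v : R3) :
    P.E0 s (y + s • v) v ≤ P.E0 t (y + t • v) v := by
  exact mul_le_mul' (add_le_add (add_le_add le_rfl (h.Ew_mono true hs hst ht y v))
    (h.Ew_mono false hs hst ht y v)) (egeo_Gs (by linarith) v)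

theorem Gs_le_E0P {t : ℝ} (X : ℂ) (v : R3) : Gs (1 / 2 - t) v ≤ P.E0P t X v := by
  exact le_mul_of_one_le_left' (le_self_add.trans le_self_add)

omit h in
private theorem egeo_Ew (ε : Bool) (t : ℝ) (X : ℂ) (v : R3) :
    P.Ew ε t X v ≤ P.Omn (P.wn ε t X v) := by
  unfold Par.Ew
  split_ifs
  exacts [le_rfl, zero_le]

theorem E0P_ne_top (t : ℝ) (X : ℂ) (v : R3) : P.E0P t X v ≠ ⊤ := by
  exact ENNReal.mul_ne_top (ENNReal.add_ne_top.2 ⟨ENNReal.add_ne_top.2 ⟨ENNReal.one_ne_top,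
    ne_top_of_le_ne_top (h.Omn_ne_top _) (egeo_Ew _ _ _ _)⟩,
    ne_top_of_le_ne_top (h.Omn_ne_top _) (egeo_Ew _ _ _ _)⟩) ENNReal.ofReal_ne_top

theorem E0P_le_Ws (t : ℝ) (X : ℂ) (v : R3) : P.E0P t X v ≤
    (1 + ENNReal.ofReal (P.δ₁⁻¹ ^ P.Γ) * (Ws (P.Uf true t X) v + Ws (P.Uf false t X) v)) *
      Gs (1 / 2 - t) v := by
  rw [mul_add, ← add_assoc]
  exact mul_le_mul_left (add_le_add (add_le_add le_rfl
    ((egeo_Ew _ _ _ _).trans (h.Omn_le_Ws _ _))) ((egeo_Ew _ _ _ _).trans (h.Omn_le_Ws _ _))) _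

/-- the singular weight in lifted coordinates -/
theorem Ew_le_Xl (ε : Bool) {t : ℝ} (ht : t ∈ Icc 0 P.T₁) (x v : R3) :
    P.Ew ε t (Xr x) v ≤ P.Omn (P.wn ε t (Xl t x v) v) := by
  by_cases hc : ‖Xr x - t • pr v‖ ≤ 10 * P.T₁
  · have : Xl t x v = Xr x := by
      rw [Xl, Yt_eq (by linarith [h.T₁_le']), sub_add_cancel]
    rw [this]
    exact egeo_Ew _ _ _ _
  · simp only [Par.Ew, if_neg hc, zero_le]

private theorem egeo_A {t : ℝ} (ht : 0 ≤ t) (x v : R3) :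
    0 ≤ ‖Yt t x v‖ + P.th t * (P.μω + 2 * ‖v‖) :=
  add_nonneg (norm_nonneg _) (mul_nonneg (h.th_pos ht).le (by positivity))

private theorem egeo_th (t : ℝ) : t ≤ P.th t :=
  le_add_of_nonneg_right (div_pos h.r_pos h.L_pos).le

private theorem egeo_om {t : ℝ} (ht : 0 ≤ t) (x v a : R3) {c s : ℝ} (hc : 1 ≤ c) (hs : 0 ≤ s)
    (hA : ‖Yt t x a‖ + P.th t * (P.μω + 2 * ‖a‖) ≤
      c * (‖Yt t x v‖ + P.th t * (P.μω + 2 * ‖v‖) + P.th t * s)) :
    P.om t x a ≤ c ^ P.μω * Real.exp s * P.om t x v := by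
  have hn : (0 : ℝ) < P.μω := by unfold P14.μω; positivity
  have hr := h.r₁_pos
  have hth := h.th_pos ht
  have h0 := h.egeo_A ht x v
  have hA0 := h.egeo_A ht x a
  have h1 : P.th t * s ≤ (‖Yt t x v‖ + P.th t * (P.μω + 2 * ‖v‖)) * (s / P.μω) := by
    calc P.th t * s = (P.th t * P.μω) * (s / P.μω) := by field_simp
      _ ≤ _ := by
        gcongr
        nlinarith [norm_nonneg (Yt t x v), mul_nonneg hth.le (norm_nonneg v)]
  have h2 : s / P.μω + 1 ≤ Real.exp (s / P.μω) := Real.add_one_le_exp _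
  have h3 : 1 ≤ c ^ P.μω * Real.exp s :=
    one_le_mul_of_one_le_of_one_le (one_le_pow₀ hc) (Real.one_le_exp hs)
  unfold Par.om
  generalize ‖Yt t x v‖ + P.th t * (P.μω + 2 * ‖v‖) = A at *
  generalize ‖Yt t x a‖ + P.th t * (P.μω + 2 * ‖a‖) = B at *
  rw [mul_min_of_nonneg _ _ (by linarith), mul_one]
  refine min_le_min h3 ?_
  have h4 : Real.exp s = Real.exp (s / P.μω) ^ P.μω := by
    rw [← Real.exp_nat_mul, mul_div_cancel₀ _ hn.ne']
  rw [h4, ← mul_pow, ← mul_pow, ← mul_div_assoc]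
  gcongr
  calc B ≤ c * (A + A * (s / P.μω)) := hA.trans (by gcongr)
    _ = c * (s / P.μω + 1) * A := by ring
    _ ≤ _ := by gcongr

theorem om_nonneg {t : ℝ} (ht : 0 ≤ t) (x v : R3) : 0 ≤ P.om t x v := by
  exact le_min zero_le_one (pow_nonneg (div_nonneg (h.egeo_A ht x v) h.r₁_pos.le) _)

theorem om_le_one (t : ℝ) (x v : R3) : P.om t x v ≤ 1 := by
  exact min_le_left _ _

theorem om_mono {s t : ℝ} (hs : 0 ≤ s) (hst : s ≤ t) (y v : R3) :
    P.om s (y + s • v) v ≤ P.om t (y + t • v) v := by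
  refine min_le_min_left _ (pow_le_pow_left₀ (div_nonneg (h.egeo_A hs _ v) h.r₁_pos.le)
    (div_le_div_of_nonneg_right ?_ h.r₁_pos.le) _)
  rw [Yt_char, Yt_char]
  unfold Par.th
  gcongr

/-- `‖Y(a)‖ + th (μω + 2‖a‖) ≤ (‖Y(v)‖ + th (μω + 2‖v‖)) (1 + 3‖a - v‖/μω)` and
`(1 + x/n)^n ≤ e^x` -/
theorem om_le_exp {t : ℝ} (ht : 0 ≤ t) (x v a : R3) :
    P.om t x a ≤ Real.exp (3 * ‖a - v‖) * P.om t x v := by
  have := h.egeo_om ht x v a (c := 1) (s := 3 * ‖a - v‖) le_rfl (by positivity) (by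
    have h1 := norm_Yt_le' ht x v a
    have h2 := mul_le_mul_of_nonneg_right (h.egeo_th t) (norm_nonneg (a - v))
    have h3 := mul_le_mul_of_nonneg_left (norm_le_norm_add_norm_sub' a v) (h.th_pos ht).le
    linarith)
  rwa [one_pow, one_mul] at this

/-- if `‖a‖ ≤ ‖v‖ + s` then `‖Y(a)‖ + th (μω + 2‖a‖) ≤ ‖Y(v)‖ + th (μω + 4‖v‖ + 3 s)
≤ 2 (‖Y(v)‖ + th (μω + 2‖v‖)) (1 + 3 s/μω)` -/
theorem om_le_exp' {t : ℝ} (ht : 0 ≤ t) (x v a : R3) {s : ℝ} (hs : 0 ≤ s) (ha : ‖a‖ ≤ ‖v‖ + s) :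
    P.om t x a ≤ 2 ^ P.μω * Real.exp (3 * s) * P.om t x v := by
  refine h.egeo_om ht x v a one_le_two (by positivity) ?_
  have hth := (h.th_pos ht).le
  have h1 := norm_Yt_le' ht x v a
  have h2 := mul_le_mul_of_nonneg_right (h.egeo_th t) (norm_nonneg (a - v))
  have h3 := mul_le_mul_of_nonneg_left ha hth
  have h4 := mul_le_mul_of_nonneg_left (norm_sub_le a v) hth
  have h5 : 0 ≤ P.th t * P.μω := by positivity
  have h6 : 0 ≤ P.th t * s := by positivity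
  linarith [norm_nonneg (Yt t x v)]

/-- `vr t (Xr x) ≤ ‖Y‖ + th (μω + 2‖v‖)` and `r₁ ≤ 1` -/
theorem vr_pow_le_om {t : ℝ} (ht : 0 ≤ t) (x v : R3) (h1 : P.vr t (Xr x) ≤ 1) :
    P.vr t (Xr x) ^ P.μω ≤ P.om t x v := by
  have h0 := (h.vr_pos ht (Xr x)).le
  refine le_min (pow_le_one₀ h0 h1) (pow_le_pow_left₀ h0 ?_ _)
  have hth := (h.th_pos ht).le
  have h2 := norm_Xr_le ht x v
  have h3 : t * ‖pr v‖ ≤ P.th t * ‖v‖ := mul_le_mul (h.egeo_th t) (norm_pr_le v) (norm_nonneg _) hth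
  have h4 : P.r ≤ P.r / P.L := le_div_self h.r_pos.le h.L_pos (by linarith [h.L_le'])
  have h5 : P.th t * 1 ≤ P.th t * P.μω := by
    gcongr
    unfold P14.μω
    exact_mod_cast Nat.le_add_left_of_le (by norm_num)
  have h6 : 0 ≤ P.th t * ‖v‖ := by positivity
  refine le_trans ?_ (le_div_self (h.egeo_A ht x v) h.r₁_pos (by linarith [h.r₁_le]))
  have h7 : P.th t = t + P.r / P.L := rfl
  unfold Par.vr
  linarith

theorem fB_le (y v : R3) : P.fB y v ≤ ENNReal.ofReal (P.om 0 y v) * P.E0 0 y v := by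
  unfold Qar.fB
  split_ifs with hc
  · have h1 : P.om 0 y v = 1 := by
      refine min_eq_left (one_le_pow₀ ((one_le_div h.r₁_pos).2 ?_))
      have : Yt 0 y v = Xr y := by simp [Yt, Xr]
      rw [this]
      exact hc.2.trans (le_add_of_nonneg_right (mul_nonneg (h.th_pos le_rfl).le (by positivity)))
    rw [h1, ENNReal.ofReal_one, one_mul]
    refine le_trans ?_ ((egeo_Gs (by norm_num : (1 / 2 - 0 : ℝ) ≤ 1) v).trans (h.Gs_le_E0P _ v))
    refine ENNReal.ofReal_le_ofReal ?_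
    rw [neg_one_mul]
    exact mul_le_of_le_one_left (Real.exp_pos _).le
      (Real.rpow_le_one_of_one_le_of_nonpos (by linarith [Real.pi_gt_three]) (by norm_num))
  · exact zero_le

theorem seed_le (y v : R3) : P.seed y v ≤ P.E0 0 y v := by
  unfold Par.seed
  split_ifs
  · simpa [Par.E0] using h.Gs_le_E0P (t := 0) (Xr y) v
  · exact zero_le

end Par.Ok

end

end Crest.Agent.R68
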