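import Crest.Agent.R68.EDef
import Crest.Agent.R68.A5

/-!
# R68 (S0091): measurability and periodicity of the objects of the construction

Everything is built from continuous functions, `red`, `rpow`, `min/max`, `if` on measurable
sets (`Measurable.ite`), `measurable_Qp`, `measurable_Hz`, `Measurable.lintegral_prod_right'`.
Periodicity: `per_red` (note `Xr x = red (pr x - 0)`).
-/

set_option autoImplicit false

namespace Crest.Agent.R68

open MeasureTheory Set Filter Crest.AnalysisR.VecCalc3 Crest.AnalysisR.PDE.Boltzmann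
open scoped ENNReal _root_.Topology

noncomputable section

@[fun_prop] theorem emeas_pr {α : Type*} [MeasurableSpace α] {f : α → R3} (hf : Measurable f) :
    Measurable fun a => pr (f a) := continuous_pr.measurable.comp hf
@[fun_prop] theorem emeas_red {α : Type*} [MeasurableSpace α] {f : α → ℂ} (hf : Measurable f) :
    Measurable fun a => red (f a) := measurable_red.comp hf
@[fun_prop] theorem emeas_mk3 {α : Type*} [MeasurableSpace α] {f : α → ℂ} {g : α → ℝ}
    (hf : Measurable f) (hg : Measurable g) : Measurable fun a => mk3 (f a) (g a) :=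
  continuous_mk3.measurable.comp (hf.prodMk hg)
@[fun_prop] theorem emeas_Gs {α : Type*} [MeasurableSpace α] {f : α → ℝ} {g : α → R3}
    (hf : Measurable f) (hg : Measurable g) : Measurable fun a => Gs (f a) (g a) :=
  measurable_Gs.comp (hf.prodMk hg)
@[fun_prop] theorem emeas_Mx {α : Type*} [MeasurableSpace α] {g : α → R3}
    (hg : Measurable g) : Measurable fun a => Mx (g a) := measurable_Mx.comp hg
theorem emeas_coord {α : Type*} [MeasurableSpace α] {g : α → R3} (hg : Measurable g) (i : Fin 3) :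
    Measurable fun a => g a i := by
  fun_prop

theorem measurable_Xr : Measurable Xr := by
  exact measurable_red.comp continuous_pr.measurable
theorem measurable_Yt : Measurable fun p : ℝ × R3 × R3 => Yt p.1 p.2.1 p.2.2 := by
  unfold Yt
  fun_prop
theorem measurable_Xl : Measurable fun p : ℝ × R3 × R3 => Xl p.1 p.2.1 p.2.2 := by
  exact measurable_Yt.add (by fun_prop)
theorem per_Xr {α : Type*} (Φ : ℂ → α) : IsPeriodic3 fun x => Φ (Xr x) := by
  simpa only [Xr, sub_zero] using per_red Φ 0
theorem per_Yt {α : Type*} (Φ : ℂ → α) (t : ℝ) (v : R3) : IsPeriodic3 fun x => Φ (Yt t x v) := by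
  exact per_red Φ (t • pr v)
@[fun_prop] theorem emeas_Xr {α : Type*} [MeasurableSpace α] {f : α → R3} (hf : Measurable f) :
    Measurable fun a => Xr (f a) := measurable_Xr.comp hf
@[fun_prop] theorem emeas_Yt {α : Type*} [MeasurableSpace α] {t : α → ℝ} {x v : α → R3}
    (ht : Measurable t) (hx : Measurable x) (hv : Measurable v) :
    Measurable fun a => Yt (t a) (x a) (v a) := measurable_Yt.comp (ht.prodMk (hx.prodMk hv))
@[fun_prop] theorem emeas_Xl {α : Type*} [MeasurableSpace α] {t : α → ℝ} {x v : α → R3}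
    (ht : Measurable t) (hx : Measurable x) (hv : Measurable v) :
    Measurable fun a => Xl (t a) (x a) (v a) := measurable_Xl.comp (ht.prodMk (hx.prodMk hv))
theorem emeas_pXr (x : R3) (i : Fin 3) : Xr (x + EuclideanSpace.single i 1) = Xr x :=
  per_Xr id x i
theorem emeas_pYt (t : ℝ) (x v : R3) (i : Fin 3) :
    Yt t (x + EuclideanSpace.single i 1) v = Yt t x v := per_Yt id t v x i
theorem emeas_pXl (t : ℝ) (x v : R3) (i : Fin 3) :
    Xl t (x + EuclideanSpace.single i 1) v = Xl t x v := by
  rw [Xl, Xl, emeas_pYt]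
theorem emeas_pF {F : PF} (hF : Per F) (t : ℝ) (x : R3) (i : Fin 3) :
    F t (x + EuclideanSpace.single i 1) = F t x := funext fun v => hF t v x i
theorem emeas_comp {α : Type*} [MeasurableSpace α] {F : PF} (hF : Meas F) {t : α → ℝ}
    {x v : α → R3} (ht : Measurable t) (hx : Measurable x) (hv : Measurable v) :
    Measurable fun a => F (t a) (x a) (v a) := hF.comp (ht.prodMk (hx.prodMk hv))

theorem measurable_Ws : Measurable fun p : R3 × R3 => Ws p.1 p.2 := by
  have h : MeasurableSet {p : R3 × R3 | ‖p.2 - p.1‖ ≤ 1} :=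
    measurableSet_le (by fun_prop) measurable_const
  have h2 : Measurable fun p : R3 × R3 => ENNReal.ofReal ‖p.2 - p.1‖ ^ (-(3 / 2) : ℝ) := by
    fun_prop
  convert h2.indicator h using 2 with p
  simp only [Ws, indicator, Metric.mem_closedBall, dist_eq_norm, mem_ofPred_eq]
theorem measurable_Jf (r κ : ℝ) : Measurable fun p : ℝ × ℂ × ℂ => Jf r κ p.1 p.2.1 p.2.2 := by
  unfold Jf wd
  fun_prop
theorem continuous_wd : Continuous fun p : ℂ × ℂ => wd p.1 p.2 := by
  unfold wd
  fun_prop
theorem measurableSet_Sec (m : ℕ) (ε : Bool) (c : ℝ) : MeasurableSet (Sec m ε c) := by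
  exact measurableSet_le (by fun_prop) (by fun_prop)
@[fun_prop] theorem emeas_wd {α : Type*} [MeasurableSpace α] {f g : α → ℂ}
    (hf : Measurable f) (hg : Measurable g) : Measurable fun a => wd (f a) (g a) :=
  continuous_wd.measurable.comp (hf.prodMk hg)
@[fun_prop] theorem emeas_Ws {α : Type*} [MeasurableSpace α] {f g : α → R3}
    (hf : Measurable f) (hg : Measurable g) : Measurable fun a => Ws (f a) (g a) := by
  have h := measurable_Ws.comp (hf.prodMk hg)
  exact h
@[fun_prop] theorem emeas_Jf {α : Type*} [MeasurableSpace α] (r κ : ℝ) {δ : α → ℝ} {f g : α → ℂ}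
    (hδ : Measurable δ) (hf : Measurable f) (hg : Measurable g) :
    Measurable fun a => Jf r κ (δ a) (f a) (g a) := by
  have h := (measurable_Jf r κ).comp (hδ.prodMk (hf.prodMk hg))
  exact h

theorem Meas.duh {F q : PF} (hF : Meas F) (hq : Meas q) : Meas (Duh F q) := by
  have h1 : Measurable fun p : (ℝ × R3 × R3) × ℝ =>
      att (Hz F (p.1.2.1 - p.1.1 • p.1.2.2) p.1.2.2 p.2 p.1.1) *
        q p.2 (p.1.2.1 - p.1.1 • p.1.2.2 + p.2 • p.1.2.2) p.1.2.2 :=
    (measurable_att.comp (measurable_Hz hF (by fun_prop) (by fun_prop) (by fun_prop)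
      (by fun_prop))).mul (emeas_comp hq (by fun_prop) (by fun_prop) (by fun_prop))
  have h2 : MeasurableSet {p : (ℝ × R3 × R3) × ℝ | 0 < p.2 ∧ p.2 < p.1.1} :=
    (measurableSet_lt measurable_const measurable_snd).inter
      (measurableSet_lt measurable_snd measurable_fst.fst)
  have h3 := (h1.indicator h2).lintegral_prod_right' (ν := volume)
  unfold Meas
  convert h3 using 2 with a
  rw [Duh, ← lintegral_indicator measurableSet_Ioo]
  rfl
theorem Per.duh {F q : PF} (hF : Per F) (hq : Per q) : Per (Duh F q) := by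
  intro t v x i
  have e1 : ∀ s : ℝ, x + EuclideanSpace.single i 1 - t • v + s • v =
      x - t • v + s • v + EuclideanSpace.single i 1 := fun s => by abel
  simp only [Duh, Hz, e1, emeas_pF hF, emeas_pF hq]
theorem Duh_eq (F q : PF) (t : ℝ) (y v : R3) : Duh F q t (y + t • v) v =
    ∫⁻ s in Ioo 0 t, att (Hz F y v s t) * q s (y + s • v) v := by
  simp only [Duh, add_sub_cancel_right]
theorem Duh_mono (F : PF) {q q' : PF} {t : ℝ} (h : ∀ s ∈ Ioo 0 t, ∀ x v, q s x v ≤ q' s x v)
    (x v : R3) : Duh F q t x v ≤ Duh F q' t x v := by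
  exact setLIntegral_mono' measurableSet_Ioo fun s hs => mul_le_mul' le_rfl (h s hs _ _)
theorem Duh_add {F q q' : PF} (hF : Meas F) (hq : Meas q) (t : ℝ) (x v : R3) :
    Duh F (fun s x v => q s x v + q' s x v) t x v = Duh F q t x v + Duh F q' t x v := by
  have h1 : Measurable fun s : ℝ => att (Hz F (x - t • v) v s t) * q s (x - t • v + s • v) v :=
    (measurable_att.comp (measurable_Hz hF measurable_const measurable_const measurable_id
      measurable_const)).mul (emeas_comp hq (by fun_prop) (by fun_prop) (by fun_prop))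
  simp only [Duh, mul_add]
  exact lintegral_add_left h1 _
theorem Mb_mono (D : Set (ℝ × ℂ × R3)) (F : PF) {t t' : ℝ} (h : t ≤ t') : Mb D F t ≤ Mb D F t' := by
  exact lintegral_mono_set (prod_mono (Ioo_subset_Ioo le_rfl h) subset_rfl)
theorem measurable_Uf (P : P11) (ε : Bool) : Measurable fun p : ℝ × ℂ => P.Uf ε p.1 p.2 := by
  unfold P11.Uf uf
  fun_prop
@[fun_prop] theorem emeas_Uf {α : Type*} [MeasurableSpace α] (P : P11) (ε : Bool) {t : α → ℝ}
    {X : α → ℂ} (ht : Measurable t) (hX : Measurable X) :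
    Measurable fun a => P.Uf ε (t a) (X a) := by
  have h := (measurable_Uf P ε).comp (ht.prodMk hX)
  exact h
theorem measurable_wn (P : P11) (ε : Bool) :
    Measurable fun p : ℝ × ℂ × R3 => P.wn ε p.1 p.2.1 p.2.2 := by
  unfold P11.wn
  fun_prop
@[fun_prop] theorem emeas_wn {α : Type*} [MeasurableSpace α] (P : P11) (ε : Bool) {t : α → ℝ}
    {X : α → ℂ} {v : α → R3} (ht : Measurable t) (hX : Measurable X) (hv : Measurable v) :
    Measurable fun a => P.wn ε (t a) (X a) (v a) := by
  have h := (measurable_wn P ε).comp (ht.prodMk (hX.prodMk hv))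
  exact h
theorem measurable_Om (P : P13) : Measurable P.Om := by
  unfold P13.Om
  refine Measurable.ite (measurableSet_lt measurable_const measurable_id) measurable_const ?_
  exact Measurable.ite (measurableSet_le measurable_const measurable_id) (by fun_prop)
    (by fun_prop)
theorem measurable_cold0 (P : Qar) (ρ : ℝ) (ε : Bool) :
    Measurable fun p : ℂ × R3 => P.cold0 ρ ε p.1 p.2 := by
  unfold Qar.cold0
  refine Measurable.ite ?_ (by fun_prop) measurable_const
  refine (measurableSet_lt (f := fun _ => ρ) (g := fun p : ℂ × R3 => ‖p.1‖) measurable_const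
    (by fun_prop)).inter ((measurableSet_le (f := fun p : ℂ × R3 => ‖p.1‖) (g := fun _ => P.r₀)
      (by fun_prop) measurable_const).inter
    (((measurableSet_Sec P.m ε (1 / 8)).preimage measurable_fst).inter
    ((measurableSet_le (f := fun p : ℂ × R3 => ‖pr p.2 - (P.L / ‖p.1‖) • p.1‖)
      (g := fun p : ℂ × R3 => ‖p.1‖ ^ (1 / 100 : ℝ) / 2) (by fun_prop) (by fun_prop)).inter
    (measurableSet_le (f := fun p : ℂ × R3 => |p.2 2 - sg ε|)
      (g := fun p : ℂ × R3 => ‖p.1‖ ^ (1 / 100 : ℝ) / 2) (by fun_prop) (by fun_prop)))))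
@[fun_prop] theorem emeas_cold0 {α : Type*} [MeasurableSpace α] (P : Qar) (ρ : ℝ) (ε : Bool)
    {X : α → ℂ} {v : α → R3} (hX : Measurable X) (hv : Measurable v) :
    Measurable fun a => P.cold0 ρ ε (X a) (v a) := (measurable_cold0 P ρ ε).comp (hX.prodMk hv)
theorem measX_fB (P : Qar) : MeasX P.fB := by
  unfold MeasX Qar.fB
  refine Measurable.ite ?_ (by fun_prop) measurable_const
  exact (measurableSet_lt (f := fun p : R3 × R3 => ‖p.2‖) (g := fun _ => P.R) (by fun_prop)
    measurable_const).inter (measurableSet_le (f := fun _ => P.r₁)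
      (g := fun p : R3 × R3 => ‖Xr p.1‖) measurable_const (by fun_prop))
theorem perX_fB (P : Qar) : PerX P.fB := by
  intro v x i
  simp only [Qar.fB, emeas_pXr]
theorem measX_fL (P : Qar) : MeasX P.fL := by
  exact Measurable.add (f := fun p : R3 × R3 => P.cold0 0 true (Xr p.1) p.2 +
    P.cold0 0 false (Xr p.1) p.2) (by fun_prop) (measX_fB P)
theorem perX_fL (P : Qar) : PerX P.fL := by
  intro v x i
  simp only [Qar.fL, Qar.fB, emeas_pXr]
theorem meas_Psi (P : Qar) : Meas P.Psi := by
  have h : Measurable fun p : ℝ × R3 × R3 =>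
      if ‖p.2.2‖ ≤ 4 then ENNReal.ofReal ‖Yt p.1 p.2.1 p.2.2‖ ^ (-(103 / 100) : ℝ) else 0 :=
    Measurable.ite (measurableSet_le (by fun_prop) measurable_const) (by fun_prop) measurable_const
  unfold Meas Qar.Psi
  exact ((((measurable_const.add h).add (by fun_prop)).add (by fun_prop)).const_mul _).mul
    (by fun_prop)
theorem per_Psi (P : Qar) : Per P.Psi := by
  intro t v x i
  simp only [Qar.Psi, emeas_pYt, emeas_pXl]
theorem emeas_Om3 (T : ℝ) : MeasurableSet (Om3 T) :=
  measurableSet_Ioo.prod (measurableSet_cell.prod MeasurableSet.univ)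
theorem measurableSet_GS (P : Qar) : MeasurableSet P.GS := by
  refine (emeas_Om3 _).inter ?_
  exact (measurableSet_lt (f := fun _ => (0 : ℝ)) (g := fun p : ℝ × R3 × R3 => ‖Xr p.2.1‖)
    measurable_const (by fun_prop)).inter
    ((measurableSet_le (f := fun p : ℝ × R3 × R3 => ‖Xr p.2.1‖) (g := fun _ => P.r₀)
      (by fun_prop) measurable_const).inter
    ((measurableSet_le (f := fun p : ℝ × R3 × R3 => ‖p.2.2‖) (g := fun _ => P.V)
      (by fun_prop) measurable_const).inter
    (measurableSet_le (f := fun p : ℝ × R3 × R3 => P.δ₀ * ‖Xr p.2.1‖)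
      (g := fun p : ℝ × R3 × R3 => |wd (Xr p.2.1) (pr p.2.2)|) (by fun_prop) (by fun_prop))))

namespace Par
variable (P : Par)
theorem measurable_th : Measurable P.th := by
  unfold th
  fun_prop
@[fun_prop] theorem emeas_th {α : Type*} [MeasurableSpace α] {t : α → ℝ} (ht : Measurable t) :
    Measurable fun a => P.th (t a) := P.measurable_th.comp ht
theorem measurable_mx : Measurable fun p : ℝ × ℂ => P.mx p.1 p.2 := by
  unfold mx
  fun_prop
theorem measurable_vr : Measurable fun p : ℝ × ℂ => P.vr p.1 p.2 := by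
  unfold vr
  fun_prop
theorem measurable_mm : Measurable P.mm := by
  unfold mm
  exact Measurable.ite (measurableSet_le measurable_id measurable_const) (by fun_prop)
    (by fun_prop)
@[fun_prop] theorem emeas_vr {α : Type*} [MeasurableSpace α] {t : α → ℝ} {X : α → ℂ}
    (ht : Measurable t) (hX : Measurable X) : Measurable fun a => P.vr (t a) (X a) :=
  P.measurable_vr.comp (ht.prodMk hX)
@[fun_prop] theorem emeas_mm {α : Type*} [MeasurableSpace α] {t : α → ℝ} (ht : Measurable t) :
    Measurable fun a => P.mm (t a) := P.measurable_mm.comp ht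
@[fun_prop] theorem emeas_ee {α : Type*} [MeasurableSpace α] {t : α → ℝ} {X : α → ℂ}
    (ht : Measurable t) (hX : Measurable X) : Measurable fun a => P.ee (t a) (X a) := by
  unfold ee
  fun_prop
@[fun_prop] theorem emeas_sig {α : Type*} [MeasurableSpace α] {t : α → ℝ} {X : α → ℂ}
    (ht : Measurable t) (hX : Measurable X) : Measurable fun a => P.sig (t a) (X a) :=
  (P.emeas_ee ht hX).pow_const 8
@[fun_prop] theorem emeas_del {α : Type*} [MeasurableSpace α] {t : α → ℝ} {X : α → ℂ}
    (ht : Measurable t) (hX : Measurable X) : Measurable fun a => P.del (t a) (X a) :=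
  (P.emeas_ee ht hX).pow_const 7
@[fun_prop] theorem emeas_dv {α : Type*} [MeasurableSpace α] (Q : P15) (ε : Bool) {v : α → R3}
    (hv : Measurable v) : Measurable fun a => Q.dv ε (v a) :=
  (Metric.continuous_infDist_pt (Q.SV ε)).measurable.comp (emeas_pr hv)
theorem measurable_cb (ε : Bool) : Measurable fun p : ℝ × ℂ × R3 => P.cb ε p.1 p.2.1 p.2.2 := by
  unfold cb
  fun_prop
theorem measurable_Ph (ε : Bool) : Measurable fun p : ℝ × ℂ × R3 => P.Ph ε p.1 p.2.1 p.2.2 := by
  unfold Ph
  fun_prop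
theorem measurableSet_cut (ε : Bool) :
    MeasurableSet {p : ℝ × ℂ × R3 | P.cut ε p.1 p.2.1 p.2.2} := by
  exact (measurableSet_le (f := fun p : ℝ × ℂ × R3 => P.wn ε p.1 p.2.1 p.2.2)
    (g := fun p : ℝ × ℂ × R3 => P.del p.1 p.2.1) (by fun_prop) (by fun_prop)).inter
    ((measurableSet_le (f := fun p : ℝ × ℂ × R3 => P.dv ε p.2.2) (g := fun _ => P.g₀)
      (by fun_prop) measurable_const).inter
    (measurableSet_le (f := fun p : ℝ × ℂ × R3 => ‖p.2.1 - p.1 • pr p.2.2‖) (g := fun _ => P.RW)
      (by fun_prop) measurable_const))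
theorem measurable_wm (ε : Bool) : Measurable fun p : ℝ × ℂ × R3 => P.wm ε p.1 p.2.1 p.2.2 := by
  unfold wm
  exact Measurable.ite (P.measurableSet_cut ε) (Measurable.mul (by fun_prop)
    (Real.measurable_exp.comp (P.measurable_Ph ε).neg).ennreal_ofReal) measurable_const
theorem measurable_StE (ε : Bool) : Measurable fun p : ℝ × ℂ × R3 => P.StE ε p.1 p.2.1 p.2.2 := by
  exact (P.measurable_cb ε).add (P.measurable_wm ε)
theorem measurable_cbP : Measurable fun p : ℝ × ℂ × R3 => P.cbP p.1 p.2.1 p.2.2 := by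
  exact (P.measurable_cb true).add (P.measurable_cb false)
theorem measurable_StP : Measurable fun p : ℝ × ℂ × R3 => P.StP p.1 p.2.1 p.2.2 := by
  exact (P.measurable_StE true).add (P.measurable_StE false)
theorem measurable_Omn : Measurable P.Omn := by
  exact ((measurable_Om P.toP13).comp (measurable_id.max measurable_const)).ennreal_ofReal
@[fun_prop] theorem emeas_Omn {α : Type*} [MeasurableSpace α] {t : α → ℝ} (ht : Measurable t) :
    Measurable fun a => P.Omn (t a) := P.measurable_Omn.comp ht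
theorem measurable_Ew (ε : Bool) : Measurable fun p : ℝ × ℂ × R3 => P.Ew ε p.1 p.2.1 p.2.2 := by
  unfold Ew
  exact Measurable.ite (measurableSet_le (by fun_prop) measurable_const) (by fun_prop)
    measurable_const
theorem measurable_E0P : Measurable fun p : ℝ × ℂ × R3 => P.E0P p.1 p.2.1 p.2.2 := by
  exact ((measurable_const.add (P.measurable_Ew true)).add (P.measurable_Ew false)).mul
    (by fun_prop)
theorem mcb (ε : Bool) (t : ℝ) (X : ℂ) : Measurable (P.cb ε t X) := by
  exact (P.measurable_cb ε).comp (f := fun v : R3 => (t, X, v)) (by fun_prop)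
theorem mwm (ε : Bool) (t : ℝ) (X : ℂ) : Measurable (P.wm ε t X) := by
  exact (P.measurable_wm ε).comp (f := fun v : R3 => (t, X, v)) (by fun_prop)
theorem mStE (ε : Bool) (t : ℝ) (X : ℂ) : Measurable (P.StE ε t X) := by
  exact (P.measurable_StE ε).comp (f := fun v : R3 => (t, X, v)) (by fun_prop)
theorem mcbP (t : ℝ) (X : ℂ) : Measurable (P.cbP t X) := by
  exact (P.measurable_cbP).comp (f := fun v : R3 => (t, X, v)) (by fun_prop)
theorem mStP (t : ℝ) (X : ℂ) : Measurable (P.StP t X) := by
  exact (P.measurable_StP).comp (f := fun v : R3 => (t, X, v)) (by fun_prop)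
theorem mE0P (t : ℝ) (X : ℂ) : Measurable (P.E0P t X) := by
  exact (P.measurable_E0P).comp (f := fun v : R3 => (t, X, v)) (by fun_prop)
theorem meas_St : Meas P.St := by
  exact P.measurable_StP.comp (f := fun p : ℝ × R3 × R3 => (p.1, Xr p.2.1, p.2.2)) (by fun_prop)
theorem per_St : Per P.St := by
  intro t v x i
  simp only [St, emeas_pXr]
theorem meas_E0 : Meas P.E0 := by
  exact P.measurable_E0P.comp (f := fun p : ℝ × R3 × R3 => (p.1, Xr p.2.1, p.2.2)) (by fun_prop)
theorem per_E0 : Per P.E0 := by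
  intro t v x i
  simp only [E0, emeas_pXr]
theorem measurable_om : Measurable fun p : ℝ × R3 × R3 => P.om p.1 p.2.1 p.2.2 := by
  unfold om
  fun_prop
theorem meas_Bm : Meas P.Bm := by
  exact (P.measurable_om.ennreal_ofReal.mul P.meas_E0).const_mul 2
theorem per_Bm : Per P.Bm := by
  intro t v x i
  simp only [Bm, om, E0, emeas_pXr, emeas_pYt]
theorem emeas_Sd : MeasurableSet P.Sd :=
  (measurableSet_le (f := fun _ => P.r / 2) (g := fun q : ℂ × R3 => ‖q.1‖)
    measurable_const (by fun_prop)).inter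
    ((measurableSet_le (f := fun q : ℂ × R3 => ‖q.1‖) (g := fun _ => P.r)
      (by fun_prop) measurable_const).inter
    ((measurableSet_le (f := fun q : ℂ × R3 => ‖q.2‖) (g := fun _ => P.V)
      (by fun_prop) measurable_const).inter
    ((measurableSet_le (f := fun q : ℂ × R3 => P.δ₀ * ‖q.1‖)
      (g := fun q : ℂ × R3 => |wd q.1 (pr q.2)|) (by fun_prop) (by fun_prop)).inter
    (measurableSet_le (f := fun _ => (3 : ℝ)) (g := fun q : ℂ × R3 => q.2 2)
      measurable_const (by fun_prop)))))
theorem measX_seed : MeasX P.seed := by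
  unfold MeasX seed
  exact Measurable.ite (P.emeas_Sd.preimage (f := fun p : R3 × R3 => (Xr p.1, p.2)) (by fun_prop))
    (by fun_prop) measurable_const
theorem perX_seed : PerX P.seed := by
  intro v x i
  show P.seed (x + EuclideanSpace.single i 1) v = P.seed x v
  unfold seed
  rw [emeas_pXr]
theorem measX_f0 (α : ℝ) : MeasX (P.f0 α) := by
  exact (Measurable.add (f := fun p : R3 × R3 => P.cold0 P.r true (Xr p.1) p.2 +
    P.cold0 P.r false (Xr p.1) p.2) (by fun_prop) (measX_fB P.toQar)).add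
    (Measurable.const_mul P.measX_seed _)
theorem perX_f0 (α : ℝ) : PerX (P.f0 α) := by
  intro v x i
  have h : P.seed (x + EuclideanSpace.single i 1) v = P.seed x v := P.perX_seed v x i
  simp only [f0, Qar.fB, h, emeas_pXr]
theorem meas_Pe (z : ℝ) : Meas (P.Pe z) := by
  exact (Measurable.add P.meas_St P.meas_Bm).add
    (Measurable.mul (f := fun p : ℝ × R3 × R3 => ENNReal.ofReal (z * P.mm p.1)) (by fun_prop)
      P.meas_E0)
theorem per_Pe (z : ℝ) : Per (P.Pe z) := by
  intro t v x i
  simp only [Pe, emeas_pF P.per_St, emeas_pF P.per_Bm, emeas_pF P.per_E0]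
theorem meas_Sg : Meas P.Sg := by
  unfold Meas Sg
  refine (Measurable.add (Measurable.ite ?_ (by fun_prop) measurable_const) (by fun_prop)).add
    (Measurable.ite (measurableSet_lt (by fun_prop) measurable_const) (by fun_prop)
      measurable_const)
  exact (measurableSet_le (f := fun p : ℝ × R3 × R3 => ‖p.2.2‖) (g := fun _ => 4) (by fun_prop)
    measurable_const).inter (measurableSet_le (f := fun p : ℝ × R3 × R3 => ‖Yt p.1 p.2.1 p.2.2‖)
      (g := fun _ => P.RW) (by fun_prop) measurable_const)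
theorem per_Sg : Per P.Sg := by
  intro t v x i
  simp only [Sg, emeas_pYt, emeas_pXl]
theorem emeas_Wl : Meas (Wl P.ν P.b P.τ P.Sg) := by
  unfold Meas Wl Dd Gw
  exact (Measurable.mul (by fun_prop) P.meas_Sg).add (by fun_prop)
theorem meas_Pp (z : ℝ) : Meas (P.Pp z) := by
  unfold Meas Pp
  exact Measurable.ite (measurableSet_le measurable_fst measurable_const) (P.meas_Pe z)
    (Measurable.add (by fun_prop) P.emeas_Wl)
theorem per_Pp (z : ℝ) : Per (P.Pp z) := by
  intro t v x i
  simp only [Pp, Wl, emeas_pF (P.per_Pe z), emeas_pF P.per_Sg]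
theorem meas_Pm : Meas P.Pm := by
  unfold Meas Pm
  exact Measurable.ite (measurableSet_le measurable_fst measurable_const) measurable_const
    (Measurable.sub (by fun_prop) P.emeas_Wl)
theorem per_Pm : Per P.Pm := by
  intro t v x i
  simp only [Pm, Wl, emeas_pF P.per_Sg]
theorem meas_hx {F : PF} (hF : Meas F) : Meas (P.hx F) := by
  exact Measurable.sub hF (Measurable.add P.meas_St P.meas_Bm)
theorem per_hx {F : PF} (hF : Per F) : Per (P.hx F) := by
  intro t v x i
  simp only [hx, emeas_pF hF, emeas_pF P.per_St, emeas_pF P.per_Bm]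
theorem measurableSet_Gd : MeasurableSet P.Gd := by
  exact (measurableSet_le (f := fun q : ℝ × ℂ × R3 => P.L * P.th q.1 / 2)
    (g := fun q : ℝ × ℂ × R3 => ‖q.2.1‖) (by fun_prop) (by fun_prop)).inter
    ((measurableSet_le (f := fun q : ℝ × ℂ × R3 => ‖q.2.1‖)
      (g := fun q : ℝ × ℂ × R3 => P.V * P.th q.1) (by fun_prop) (by fun_prop)).inter
    ((measurableSet_le (f := fun q : ℝ × ℂ × R3 => ‖q.2.2‖) (g := fun _ => P.V)
      (by fun_prop) measurable_const).inter
    (measurableSet_le (f := fun q : ℝ × ℂ × R3 => P.δ₀ * ‖q.2.1‖)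
      (g := fun q : ℝ × ℂ × R3 => |wd q.2.1 (pr q.2.2)|) (by fun_prop) (by fun_prop))))
theorem measurableSet_Gsemi : MeasurableSet P.Gsemi := by
  exact (measurableSet_le (f := fun q : ℝ × ℂ × R3 => P.L * P.th q.1 / 2)
    (g := fun q : ℝ × ℂ × R3 => ‖q.2.1‖) (by fun_prop) (by fun_prop)).inter
    ((measurableSet_le (f := fun q : ℝ × ℂ × R3 => ‖q.2.1‖)
      (g := fun q : ℝ × ℂ × R3 => P.V₁ * P.th q.1) (by fun_prop) (by fun_prop)).inter
    ((measurableSet_le (f := fun q : ℝ × ℂ × R3 => ‖q.2.2‖) (g := fun _ => P.V / 2)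
      (by fun_prop) measurable_const).inter
    (measurableSet_le (f := fun q : ℝ × ℂ × R3 => P.δ₀ * ‖q.2.1‖)
      (g := fun q : ℝ × ℂ × R3 => |wd q.2.1 (pr q.2.2)|) (by fun_prop) (by fun_prop))))
theorem measurableSet_Kc (ε : Bool) :
    MeasurableSet {p : ℝ × ℂ × R3 | p.2.2 ∈ P.Kc ε p.1 p.2.1} := by
  exact (measurableSet_le (f := fun p : ℝ × ℂ × R3 => ‖p.2.2‖) (g := fun _ => 2 * P.U)
    (by fun_prop) measurable_const).inter (measurableSet_le (f := fun _ => (1 : ℝ))
      (g := fun p : ℝ × ℂ × R3 => P.wn ε p.1 p.2.1 p.2.2) measurable_const (by fun_prop))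
theorem mKc (ε : Bool) (t : ℝ) (X : ℂ) : MeasurableSet (P.Kc ε t X) := by
  exact (P.measurableSet_Kc ε).preimage (f := fun v : R3 => (t, X, v)) (by fun_prop)
theorem emeas_lift {G : ℝ → ℂ → R3 → ℝ≥0∞}
    (hG : Measurable fun p : ℝ × ℂ × R3 => G p.1 p.2.1 p.2.2) : Meas fun t x => G t (Xr x) :=
  hG.comp (f := fun p : ℝ × R3 × R3 => (p.1, Xr p.2.1, p.2.2)) (by fun_prop)
theorem emeas_indK (ε : Bool) {g : PF} (hg : Meas g) :
    Meas fun s x => (P.Kc ε s (Xr x)).indicator (g s x) :=
  Measurable.indicator hg ((P.measurableSet_Kc ε).preimage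
    (f := fun p : ℝ × R3 × R3 => (p.1, Xr p.2.1, p.2.2)) (by fun_prop))
theorem emeas_indKc (ε : Bool) {g : PF} (hg : Meas g) :
    Meas fun s x => (P.Kc ε s (Xr x))ᶜ.indicator (g s x) :=
  Measurable.indicator hg ((P.measurableSet_Kc ε).preimage
    (f := fun p : ℝ × R3 × R3 => (p.1, Xr p.2.1, p.2.2)) (by fun_prop)).compl
theorem emeas_in : MeasurableSet {p : ℝ × R3 × R3 | ‖Xr p.2.1‖ ≤ P.V₁ * P.th p.1} :=
  measurableSet_le (by fun_prop) (by fun_prop)
theorem meas_srcR {g : PF} (hg : Meas g) : Meas (P.srcR g) := by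
  exact Measurable.const_mul (P.meas_St.Qp hg) 2
theorem meas_srcK {g : PF} (hg : Meas g) : Meas (P.srcK g) := by
  unfold Meas srcK
  exact Measurable.ite P.emeas_in
    ((Measurable.const_mul ((emeas_lift (P.measurable_cb true)).Qp (P.emeas_indK true hg)) 2).add
      (Measurable.const_mul ((emeas_lift (P.measurable_cb false)).Qp (P.emeas_indK false hg)) 2))
    measurable_const
theorem meas_srcS {g : PF} (hg : Meas g) : Meas (P.srcS g) := by
  unfold Meas srcS
  exact ((Measurable.const_mul ((emeas_lift (P.measurable_wm true)).Qp hg) 2).add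
    (Measurable.const_mul ((emeas_lift (P.measurable_wm false)).Qp hg) 2)).add
    (Measurable.ite P.emeas_in
    ((Measurable.const_mul ((emeas_lift (P.measurable_cb true)).Qp (P.emeas_indKc true hg)) 2).add
      (Measurable.const_mul ((emeas_lift (P.measurable_cb false)).Qp (P.emeas_indKc false hg)) 2))
    (Measurable.const_mul ((emeas_lift P.measurable_cbP).Qp hg) 2))
theorem per_srcR {g : PF} (hg : Per g) : Per (P.srcR g) := by
  intro t v x i
  simp only [srcR, emeas_pF hg, emeas_pF P.per_St]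
theorem per_srcK {g : PF} (hg : Per g) : Per (P.srcK g) := by
  intro t v x i
  simp only [srcK, emeas_pF hg, emeas_pXr]
theorem emeas_int {G : PF} (hG : Meas G) : Measurable fun p : ℝ × R3 => ∫⁻ b, G p.1 p.2 b :=
  Measurable.lintegral_prod_right' (f := fun q : (ℝ × R3) × R3 => G q.1.1 q.1.2 q.2)
    (emeas_comp hG (by fun_prop) (by fun_prop) (by fun_prop))
theorem measurable_Theta {g : PF} (hg : Meas g) :
    Measurable fun p : ℝ × R3 => P.Theta g p.1 p.2 := by
  have h1 : ∀ ε, Measurable fun p : ℝ × R3 =>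
      dens (P.cb ε p.1 (Xr p.2)) * ∫⁻ b in P.Kc ε p.1 (Xr p.2), g p.1 p.2 b := fun ε => by
    refine Measurable.mul (emeas_int (emeas_lift (P.measurable_cb ε))) ?_
    convert emeas_int (P.emeas_indK ε hg) using 2 with p
    rw [lintegral_indicator (P.mKc ε _ _)]
  unfold Theta
  exact Measurable.ite (measurableSet_le (by fun_prop) (by fun_prop)) ((h1 true).add (h1 false))
    measurable_const
theorem per_Theta {g : PF} (hg : Per g) (s : ℝ) : IsPeriodic3 (P.Theta g s) := by
  intro x i
  simp only [Theta, emeas_pF hg, emeas_pXr]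
theorem measurable_beta {D : Set (ℝ × ℂ × R3)} (hD : MeasurableSet D) :
    Measurable fun p : ℝ × ℂ × R3 => P.beta D p.1 p.2.1 p.2.2 := by
  have hI : Measurable (D.indicator (1 : ℝ × ℂ × R3 → ℝ≥0∞)) := measurable_one.indicator hD
  refine Measurable.lintegral_prod_right' (f := fun q : (ℝ × ℂ × R3) × R3 =>
    P.cq * P.cbP q.1.1 q.1.2.1 q.2 * ∫⁻ ω, Bk (q.1.2.2 - q.2) ω *
      (D.indicator 1 (q.1.1, q.1.2.1, postVel q.1.2.2 q.2 ω) +
        D.indicator 1 (q.1.1, q.1.2.1, postVelStar q.1.2.2 q.2 ω)) ∂sphereMeasure) ?_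
  refine Measurable.mul (Measurable.const_mul (P.measurable_cbP.comp
    (f := fun q : (ℝ × ℂ × R3) × R3 => (q.1.1, q.1.2.1, q.2)) (by fun_prop)) _) ?_
  refine Measurable.lintegral_prod_right' (f := fun r : ((ℝ × ℂ × R3) × R3) × R3 =>
    Bk (r.1.1.2.2 - r.1.2) r.2 *
      (D.indicator 1 (r.1.1.1, r.1.1.2.1, postVel r.1.1.2.2 r.1.2 r.2) +
        D.indicator 1 (r.1.1.1, r.1.1.2.1, postVelStar r.1.1.2.2 r.1.2 r.2))) ?_
  exact Measurable.mul (by fun_prop)
    ((hI.comp (f := fun r : ((ℝ × ℂ × R3) × R3) × R3 =>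
      (r.1.1.1, r.1.1.2.1, postVel r.1.1.2.2 r.1.2 r.2)) (by fun_prop)).add
    (hI.comp (f := fun r : ((ℝ × ℂ × R3) × R3) × R3 =>
      (r.1.1.1, r.1.1.2.1, postVelStar r.1.1.2.2 r.1.2 r.2)) (by fun_prop)))
end Par

end

end Crest.Agent.R68
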