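import Crest.Agent.R68.A5
import Crest.Agent.R68.A6
import Crest.Agent.R68.EMeas
import Crest.Agent.R68.EGeo

/-!
# R68 (S0091): the singular weight `Ws`
-/

set_option autoImplicit false

namespace Crest.Agent.R68

open MeasureTheory Set Filter Crest.AnalysisR.VecCalc3 Crest.AnalysisR.PDE.Boltzmann
open scoped ENNReal _root_.Topology

noncomputable section

private theorem a8_disc0 {κ : ℝ} (hκ : 0 < κ) :
    ∫⁻ η in Metric.closedBall (0 : ℂ) κ, ENNReal.ofReal ‖η‖ ^ (-(3 / 2) : ℝ) =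
      ENNReal.ofReal (4 * Real.pi * √κ) := by
  obtain ⟨f, hf⟩ : ∃ f : ℝ → ℝ, f = (Iic κ).indicator fun y => y ^ (-(3 / 2) : ℝ) := ⟨_, rfl⟩
  have hd : Module.finrank ℝ ℂ - 1 = 1 := by rw [Complex.finrank_real_complex]
  have he : ∀ y ∈ Ioi (0 : ℝ), y ^ (Module.finrank ℝ ℂ - 1) • f y =
      (Ioc 0 κ).indicator (fun y => y ^ (-(1 / 2) : ℝ)) y := fun y hy => by
    have hy : 0 < y := hy
    rw [hd, pow_one, hf, smul_eq_mul]
    by_cases h : y ≤ κ
    · rw [indicator_of_mem (mem_Iic.2 h), indicator_of_mem (mem_Ioc.2 ⟨hy, h⟩),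
        show (-(1 / 2) : ℝ) = 1 + -(3 / 2) by norm_num, Real.rpow_add hy, Real.rpow_one]
    · rw [indicator_of_notMem (fun hc => h (mem_Iic.1 hc)), indicator_of_notMem fun hc => h hc.2,
        mul_zero]
  have hI : IntervalIntegrable (fun y : ℝ => y ^ (-(1 / 2) : ℝ)) volume 0 κ :=
    intervalIntegral.intervalIntegrable_rpow' (by norm_num)
  have hi : Integrable fun η : ℂ => f ‖η‖ := by
    rw [integrable_fun_norm_addHaar volume (f := f)]
    refine IntegrableOn.congr_fun ?_ (fun y hy => (he y hy).symm) measurableSet_Ioi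
    exact ((integrable_indicator_iff measurableSet_Ioc).2 hI.1).integrableOn
  have hv : ∫ η : ℂ, f ‖η‖ = 4 * Real.pi * √κ := by
    rw [integral_fun_norm_addHaar volume f, setIntegral_congr_fun measurableSet_Ioi he,
      integral_indicator measurableSet_Ioc, Measure.restrict_restrict measurableSet_Ioc,
      inter_eq_left.2 Ioc_subset_Ioi_self, ← intervalIntegral.integral_of_le hκ.le,
      integral_rpow (Or.inl (by norm_num)), Complex.finrank_real_complex, Measure.real,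
      Complex.volume_ball, Real.sqrt_eq_rpow, Real.zero_rpow (by norm_num)]
    norm_num
    ring
  have h0 : ∀ η : ℂ, 0 ≤ f ‖η‖ := fun η => by
    rw [hf]
    by_cases h : ‖η‖ ∈ Iic κ
    · rw [indicator_of_mem h]; positivity
    · rw [indicator_of_notMem h]
  rw [← hv, ofReal_integral_eq_lintegral_ofReal hi (ae_of_all _ h0),
    ← lintegral_indicator measurableSet_closedBall]
  refine lintegral_congr_ae ?_
  have h1 : ∀ᵐ η : ℂ, η ≠ 0 := by
    rw [ae_iff]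
    simp
  filter_upwards [h1] with η hη
  rw [hf]
  by_cases h : ‖η‖ ≤ κ
  · rw [indicator_of_mem (mem_closedBall_zero_iff.2 h), indicator_of_mem (mem_Iic.2 h),
      ENNReal.ofReal_rpow_of_pos (norm_pos_iff.2 hη)]
  · rw [indicator_of_notMem (fun hc => h (mem_closedBall_zero_iff.1 hc)),
      indicator_of_notMem (fun hc => h (mem_Iic.1 hc)), ENNReal.ofReal_zero]

private theorem a8_disc (η₀ : ℂ) {κ : ℝ} (hκ : 0 < κ) :
    ∫⁻ η, (Metric.closedBall η₀ κ).indicator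
      (fun η => ENNReal.ofReal ‖η - η₀‖ ^ (-(3 / 2) : ℝ)) η = ENNReal.ofReal (4 * Real.pi * √κ) := by
  rw [← a8_disc0 hκ, ← lintegral_indicator measurableSet_closedBall,
    ← lintegral_sub_right_eq_self ((Metric.closedBall (0 : ℂ) κ).indicator _) η₀]
  refine lintegral_congr fun η => ?_
  by_cases h : η ∈ Metric.closedBall η₀ κ
  · rw [indicator_of_mem h, indicator_of_mem (mem_closedBall_zero_iff.2 (mem_closedBall_iff_norm.1 h))]
  · rw [indicator_of_notMem h, indicator_of_notMem fun hc =>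
      h (mem_closedBall_iff_norm.2 (mem_closedBall_zero_iff.1 hc))]

/-- `∫_{‖η‖ ≤ κ} ‖η - η₀‖^{-3/2} ≤ 2 ∫_{‖η‖ ≤ κ} ‖η‖^{-3/2} = 8π √κ` (compare `‖η - η₀‖` with
`‖η‖`, or split according to `‖η - η₀‖ ≤ κ`; polar coordinates) -/
theorem lintegral_disc_rpow (η₀ : ℂ) {κ : ℝ} (hκ : 0 < κ) :
    ∫⁻ η in Metric.closedBall (0 : ℂ) κ, ENNReal.ofReal ‖η - η₀‖ ^ (-(3 / 2) : ℝ) ≤
      ENNReal.ofReal (30 * √κ) := by
  have hs := Real.sqrt_pos.2 hκ
  have hm : Measurable ((Metric.closedBall η₀ κ).indicator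
      fun η => ENNReal.ofReal ‖η - η₀‖ ^ (-(3 / 2) : ℝ)) :=
    Measurable.indicator (by fun_prop) measurableSet_closedBall
  calc _ ≤ ∫⁻ η in Metric.closedBall (0 : ℂ) κ, ((Metric.closedBall η₀ κ).indicator
        (fun η => ENNReal.ofReal ‖η - η₀‖ ^ (-(3 / 2) : ℝ)) η +
          ENNReal.ofReal κ ^ (-(3 / 2) : ℝ)) := by
        refine lintegral_mono fun η => ?_
        by_cases h : η ∈ Metric.closedBall η₀ κ
        · rw [indicator_of_mem h]
          exact le_self_add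
        · rw [mem_closedBall_iff_norm, not_le] at h
          exact (a6_anti (ENNReal.ofReal_le_ofReal h.le) (by norm_num)).trans le_add_self
    _ ≤ ENNReal.ofReal (4 * Real.pi * √κ) + ENNReal.ofReal (Real.pi * √κ) := by
        rw [lintegral_add_left hm, setLIntegral_const]
        refine add_le_add ((setLIntegral_le_lintegral _ _).trans (a8_disc η₀ hκ).le) (le_of_eq ?_)
        rw [Complex.volume_closedBall, ENNReal.ofReal_rpow_of_pos hκ, ← ENNReal.ofReal_pow hκ.le,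
          ← ENNReal.ofReal_coe_nnreal, ← ENNReal.ofReal_mul (by positivity),
          ← ENNReal.ofReal_mul (by positivity), NNReal.coe_real_pi, ← mul_assoc, ← Real.rpow_natCast,
          ← Real.rpow_add hκ, Real.sqrt_eq_rpow, mul_comm]
        norm_num
    _ ≤ _ := by
        rw [← ENNReal.ofReal_add (by positivity) (by positivity)]
        exact ENNReal.ofReal_le_ofReal (by nlinarith [Real.pi_le_four])
/-- `‖v + Jη - u‖ ≥ ‖η - η₀‖` with `J η₀` the projection of `u - v` -/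
theorem exists_plane_center (J : ℂ →ₗᵢ[ℝ] R3) (w : R3) : ∃ η₀ : ℂ, ∀ η, ‖η - η₀‖ ≤ ‖w + J η‖ := by
  obtain ⟨η₀, h₀⟩ : ∃ η₀ : ℂ, ∀ η, inner ℝ (w + J η₀) (J η) = 0 := by
    refine ⟨-(LinearMap.adjoint J.toLinearMap w), fun η => ?_⟩
    rw [inner_add_left, J.inner_map_map, inner_neg_left, LinearMap.adjoint_inner_left]
    exact add_neg_cancel _
  refine ⟨η₀, fun η => ?_⟩
  have e1 : w + J η = (w + J η₀) + J (η - η₀) := by rw [map_sub]; abel
  refine le_of_sq_le_sq ?_ (norm_nonneg _)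
  rw [e1, norm_add_sq_real, h₀, J.norm_map]
  nlinarith [sq_nonneg ‖w + J η₀‖]

private theorem a8_pl (u v : R3) (J : ℂ →ₗᵢ[ℝ] R3) : ∃ η₀ : ℂ, ∀ η, Ws u (v + J η) ≤
    (Metric.closedBall η₀ 1).indicator (fun η => ENNReal.ofReal ‖η - η₀‖ ^ (-(3 / 2) : ℝ)) η := by
  obtain ⟨η₀, h⟩ := exists_plane_center J (v - u)
  refine ⟨η₀, fun η => ?_⟩
  have h1 : ‖η - η₀‖ ≤ ‖v + J η - u‖ := by rw [add_sub_right_comm]; exact h η
  unfold Ws
  by_cases hc : v + J η ∈ Metric.closedBall u 1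
  · rw [indicator_of_mem hc, indicator_of_mem
      (mem_closedBall_iff_norm.2 (h1.trans (mem_closedBall_iff_norm.1 hc)))]
    exact a6_anti (ENNReal.ofReal_le_ofReal h1) (by norm_num)
  · rw [indicator_of_notMem hc]
    exact zero_le

theorem plane_Ws (u v : R3) (J : ℂ →ₗᵢ[ℝ] R3) : ∫⁻ η : ℂ, Ws u (v + J η) ≤ 30 := by
  obtain ⟨η₀, h⟩ := a8_pl u v J
  refine (lintegral_mono h).trans ((a8_disc η₀ one_pos).le.trans ?_)
  rw [Real.sqrt_one, ← ENNReal.ofReal_ofNat 30]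
  exact ENNReal.ofReal_le_ofReal (by nlinarith [Real.pi_le_four])
theorem plane_Ws_small (u v : R3) (J : ℂ →ₗᵢ[ℝ] R3) {κ : ℝ} (hκ : 0 < κ) :
    ∫⁻ η in Metric.closedBall (0 : ℂ) κ, Ws u (v + J η) ≤ ENNReal.ofReal (30 * √κ) := by
  obtain ⟨η₀, h⟩ := a8_pl u v J
  exact (lintegral_mono fun η => (h η).trans (indicator_le_self _ _ _)).trans
    (lintegral_disc_rpow η₀ hκ)

/-- `‖p‖^(-s)` on the unit ball -/
private def a8W (s : ℝ) : VF := (Metric.closedBall 0 1).indicator fun p => ENNReal.ofReal ‖p‖ ^ (-s)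

private theorem a8W_meas (s : ℝ) : Measurable (a8W s) :=
  Measurable.indicator (by fun_prop) measurableSet_closedBall

private theorem a8W_of {s : ℝ} {p : R3} (h : ‖p‖ ≤ 1) : a8W s p = ENNReal.ofReal ‖p‖ ^ (-s) :=
  indicator_of_mem (mem_closedBall_zero_iff.2 h) _

private theorem a8W_fin {s : ℝ} (hs : s < 3) : ∫⁻ p, a8W s p ≠ ⊤ := by
  have hi : IntegrableOn (fun p : R3 => ‖p‖ ^ (-s)) (Metric.ball 0 2) volume := by
    refine integrableOn_ball_of_norm_le_rpow (C := 1) (α := s) (by simp) (by simpa using hs)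
      (ae_of_all _ fun p => ?_) (Measurable.aestronglyMeasurable (by fun_prop))
    rw [Real.norm_of_nonneg (by positivity), one_mul]
  refine ne_top_of_le_ne_top (hi.mono_set (Metric.closedBall_subset_ball one_lt_two)).lintegral_lt_top.ne ?_
  rw [← lintegral_indicator measurableSet_closedBall]
  refine lintegral_mono_ae ?_
  have h0 : ∀ᵐ p : R3, p ≠ 0 := by
    rw [ae_iff]
    simp
  filter_upwards [h0] with p hp
  unfold a8W
  by_cases h : p ∈ Metric.closedBall (0 : R3) 1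
  · rw [indicator_of_mem h, indicator_of_mem h, ENNReal.ofReal_rpow_of_pos (norm_pos_iff.2 hp)]
  · rw [indicator_of_notMem h, indicator_of_notMem h]

private theorem a8_Ws (u a : R3) : Ws u a = a8W (3 / 2) (a - u) := by
  unfold Ws a8W
  by_cases h : a ∈ Metric.closedBall u 1
  · rw [indicator_of_mem h, indicator_of_mem (mem_closedBall_zero_iff.2 (mem_closedBall_iff_norm.1 h))]
  · rw [indicator_of_notMem h, indicator_of_notMem fun hc =>
      h (mem_closedBall_iff_norm.2 (mem_closedBall_zero_iff.1 hc))]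

private theorem a8_mW (u : R3) : Measurable (Ws u) := by
  have : Ws u = fun a => a8W (3 / 2) (a - u) := funext (a8_Ws u)
  rw [this]
  exact (a8W_meas _).comp (measurable_id.sub_const u)

/-- `‖a-u‖^{-3/2}‖v-a‖⁻¹ ≤ ‖a-u‖^{-5/2} + ‖v-a‖^{-5/2}`, polar coordinates -/
theorem As_Ws : ∃ C : ℝ≥0∞, C ≠ ⊤ ∧ ∀ u v, As (Ws u) v ≤ C := by
  have hfin := a8W_fin (s := 3 / 2 + 1) (by norm_num)
  refine ⟨(∫⁻ p, a8W (3 / 2 + 1) p) + ∫⁻ p, a8W (3 / 2 + 1) p, by finiteness, fun u v => ?_⟩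
  have hm : Measurable fun a => a8W (3 / 2 + 1) (a - u) :=
    (a8W_meas _).comp (measurable_id.sub_const u)
  calc As (Ws u) v ≤ ∫⁻ a, (a8W (3 / 2 + 1) (a - u) + a8W (3 / 2 + 1) (v - a)) := by
        refine lintegral_mono fun a => ?_
        simp only [a8_Ws]
        by_cases h : ‖a - u‖ ≤ 1
        · rw [a8W_of h, ← ENNReal.rpow_neg_one]
          rcases le_total ‖a - u‖ ‖v - a‖ with h1 | h1
          · refine le_trans ?_ le_self_add
            rw [a8W_of h, a6_split ENNReal.ofReal_ne_top (by norm_num) one_pos]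
            exact mul_le_mul_right (a6_anti (ENNReal.ofReal_le_ofReal h1) zero_le_one) _
          · refine le_trans ?_ le_add_self
            rw [a8W_of (h1.trans h), a6_split ENNReal.ofReal_ne_top (by norm_num) one_pos]
            exact mul_le_mul_left (a6_anti (ENNReal.ofReal_le_ofReal h1) (by norm_num)) _
        · rw [a8W, indicator_of_notMem (fun hc => h (mem_closedBall_zero_iff.1 hc)), zero_mul]
          exact zero_le
    _ = _ := by
        rw [lintegral_add_left hm, lintegral_sub_right_eq_self, lintegral_sub_left_eq_self]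
theorem lintegral_Ws : ∃ C : ℝ≥0∞, C ≠ ⊤ ∧ ∀ u, ∫⁻ a, (Ws u a + Ws u a ^ (11 / 10 : ℝ)) ≤ C := by
  have h1 := a8W_fin (s := 3 / 2) (by norm_num)
  have h2 := a8W_fin (s := 3 / 2 * (11 / 10)) (by norm_num)
  refine ⟨(∫⁻ p, a8W (3 / 2) p) + ∫⁻ p, a8W (3 / 2 * (11 / 10)) p, by finiteness, fun u => ?_⟩
  have e : ∀ p, a8W (3 / 2) p ^ (11 / 10 : ℝ) = a8W (3 / 2 * (11 / 10)) p := fun p => by
    unfold a8W
    by_cases h : p ∈ Metric.closedBall (0 : R3) 1
    · rw [indicator_of_mem h, indicator_of_mem h, ← ENNReal.rpow_mul, neg_mul]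
    · rw [indicator_of_notMem h, indicator_of_notMem h, ENNReal.zero_rpow_of_pos (by norm_num)]
  rw [lintegral_add_left (a8_mW u)]
  simp only [a8_Ws, e]
  rw [lintegral_sub_right_eq_self, lintegral_sub_right_eq_self]
theorem Qp_Ws_Ws : ∃ C : ℝ≥0∞, C ≠ ⊤ ∧ ∀ u u' v, Qp (Ws u) (Ws u') v ≤ C := by
  obtain ⟨C, hC, h⟩ := As_Ws
  refine ⟨2 * (C * 30), by finiteness, fun u u' v => ?_⟩
  refine (Qp_le_plane (a8_mW u) (a8_mW u') v (fun _ => 30) fun a _ J _ => plane_Ws u' v J).trans ?_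
  rw [lintegral_mul_const' _ _ (by norm_num)]
  gcongr
  exact h u v

private theorem a8_exp (D : ℝ≥0∞) (w G : VF) :
    (fun a => (1 + D * w a) * G a) = fun a => G a + D * (w a * G a) := by
  funext a
  ring

/-- Hot-hot collisions.  Expand; `Qp G G` by `Qp_Gs_self_le`; `Qp (W G) G ≤ c G As W` by
`Qp_Gs_le`, `Qp_comm`; `Qp (W G) (W' G) v` vanishes for `‖v‖ > 5` (`coll_energy`) and is
`≤ Qp W W'`. -/
theorem Qp_hot : ∃ C : ℝ≥0∞, C ≠ ⊤ ∧ ∀ θ ∈ Icc (1 / 10 : ℝ) 1, ∀ (D : ℝ≥0∞) (u u' : R3),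
    ‖u‖ ≤ 2 → ‖u'‖ ≤ 2 → ∀ v,
    Qp (fun a => (1 + D * (Ws u a + Ws u' a)) * Gs θ a)
      (fun a => (1 + D * (Ws u a + Ws u' a)) * Gs θ a) v ≤ C * (1 + D) ^ 2 * (br v * Gs θ v) := by
  obtain ⟨C₁, hC₁, h₁⟩ := Qp_Gs_self_le
  obtain ⟨C₂, hC₂, h₂⟩ := As_Ws
  obtain ⟨C₃, hC₃, h₃⟩ := Qp_Ws_Ws
  obtain ⟨c, hc⟩ : ∃ c : ℝ≥0∞, c = ENNReal.ofReal (4 * Real.pi / (1 / 10)) * (C₂ + C₂) := ⟨_, rfl⟩
  have hct : c ≠ ⊤ := by rw [hc]; finiteness
  refine ⟨C₁ + c + 4 * C₃, by finiteness, fun θ hθ D u u' _ _ v => ?_⟩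
  have hθ0 : 0 < θ := lt_of_lt_of_le (by norm_num) hθ.1
  obtain ⟨w, hw⟩ : ∃ w : VF, w = fun a => Ws u a + Ws u' a := ⟨_, rfl⟩
  have hwm : Measurable w := hw ▸ (a8_mW u).add (a8_mW u')
  have hG := a5_meas θ
  have hwG : Measurable fun a => w a * Gs θ a := hwm.mul hG
  have hD : Measurable fun a => D * (w a * Gs θ a) := hwG.const_mul D
  have hf : Measurable fun a => Gs θ a + D * (w a * Gs θ a) := hG.add hD
  have e : (fun a => (1 + D * (Ws u a + Ws u' a)) * Gs θ a) =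
      fun a => Gs θ a + D * (w a * Gs θ a) := by
    rw [← a8_exp, hw]
  have hb : Gs θ v ≤ br v * Gs θ v := le_mul_of_one_le_left' (a5_one_le_br v)
  have q1 := (h₁ θ hθ.1 v).1
  have q2 : Qp (fun a => w a * Gs θ a) (Gs θ) v ≤ c * (br v * Gs θ v) := by
    refine (Qp_Gs_le hwG hθ0 v).trans ?_
    simp only [mul_assoc, a5_Gs_neg, mul_one]
    have : As (fun a => w a) v ≤ C₂ + C₂ := by
      rw [hw, As_add (a8_mW u) (a8_mW u')]
      exact add_le_add (h₂ u v) (h₂ u' v)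
    rw [hc, mul_assoc, mul_comm (C₂ + C₂)]
    gcongr
    exact hθ.1
  have q3 : Qp (Gs θ) (fun a => w a * Gs θ a) v ≤ c * (br v * Gs θ v) := by
    rw [Qp_comm hG hwG]
    exact q2
  have q4 : Qp (fun a => w a * Gs θ a) (fun a => w a * Gs θ a) v ≤ 4 * C₃ * (br v * Gs θ v) := by
    refine (Qp_le_mul hwm hwm v (Gs θ v) fun a ω hω => ?_).trans ?_
    · rw [mul_mul_mul_comm, Gs_coll θ v a ω hω, mul_comm]
      gcongr
      exact mul_le_of_le_one_right' (Gs_le_one hθ0.le a)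
    · rw [mul_comm]
      gcongr
      have hW := (a8_mW u).fun_add (a8_mW u')
      rw [hw, Qp_add_left (a8_mW u) (a8_mW u') hW, Qp_add_right (a8_mW u) (a8_mW u) (a8_mW u'),
        Qp_add_right (a8_mW u') (a8_mW u) (a8_mW u')]
      calc _ ≤ C₃ + C₃ + (C₃ + C₃) := by gcongr <;> exact h₃ _ _ _
        _ = _ := by ring
  rw [e, Qp_add_left hG hD hf, Qp_mul_left hwG hf, Qp_add_right hG hG hD, Qp_add_right hwG hG hD,
    Qp_mul_right hG hwG, Qp_mul_right hwG hwG]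
  calc _ ≤ C₁ * (br v * Gs θ v) + D * (c * (br v * Gs θ v)) +
        D * (c * (br v * Gs θ v) + D * (4 * C₃ * (br v * Gs θ v))) := by gcongr
    _ = (C₁ * 1 + c * (2 * D) + 4 * C₃ * D ^ 2) * (br v * Gs θ v) := by ring
    _ ≤ (C₁ * (1 + D) ^ 2 + c * (1 + D) ^ 2 + 4 * C₃ * (1 + D) ^ 2) * (br v * Gs θ v) := by
        have e2 : (1 + D) ^ 2 = 1 + 2 * D + D ^ 2 := by ring
        gcongr
        · exact one_le_pow₀ le_self_add
        · rw [e2]
          exact le_add_self.trans le_self_add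
        · exact le_add_self
    _ = _ := by ring
theorem Nu_hot : ∃ C : ℝ≥0∞, C ≠ ⊤ ∧ ∀ θ ∈ Icc (1 / 10 : ℝ) 1, ∀ (D : ℝ≥0∞) (u u' : R3),
    ‖u‖ ≤ 2 → ‖u'‖ ≤ 2 → ∀ v,
    Nu (fun a => (1 + D * (Ws u a + Ws u' a)) * Gs θ a) v ≤ C * (1 + D) * br v := by
  obtain ⟨C₁, hC₁, h₁⟩ := Qp_Gs_self_le
  obtain ⟨C₂, hC₂, h₂⟩ := lintegral_Ws
  obtain ⟨C₃, hC₃, h₃⟩ := br_pow_le 1 (θ := 1 / 10) (by norm_num)
  refine ⟨C₁ + 7 * (C₃ * (C₂ + C₂)), by finiteness, fun θ hθ D u u' _ _ v => ?_⟩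
  obtain ⟨w, hw⟩ : ∃ w : VF, w = fun a => Ws u a + Ws u' a := ⟨_, rfl⟩
  have hwm : Measurable w := hw ▸ (a8_mW u).add (a8_mW u')
  have hG := a5_meas θ
  have hwG : Measurable fun a => w a * Gs θ a := hwm.mul hG
  have e : (fun a => (1 + D * (Ws u a + Ws u' a)) * Gs θ a) =
      fun a => Gs θ a + D * (w a * Gs θ a) := by
    rw [← a8_exp, hw]
  have q1 := (h₁ θ hθ.1 v).2
  have hW : ∀ u, ∫⁻ a, Ws u a ≤ C₂ := fun u => (lintegral_mono fun a => le_self_add).trans (h₂ u)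
  have q2 : Nu (fun a => w a * Gs θ a) v ≤ 7 * (C₃ * (C₂ + C₂)) * br v := by
    refine (Nu_le_br hwG v).trans ?_
    rw [mul_right_comm]
    gcongr
    calc _ ≤ ∫⁻ a, C₃ * w a := by
          refine lintegral_mono fun a => ?_
          rw [mul_left_comm, mul_comm]
          gcongr
          refine le_trans ?_ (h₃ a)
          rw [pow_one]
          gcongr
          exact Gs_anti hθ.1 a
      _ ≤ _ := by
          rw [lintegral_const_mul _ hwm, hw, lintegral_add_left (a8_mW u)]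
          gcongr <;> exact hW _
  rw [e, Nu_add hG (hwG.const_mul D), Nu_mul hwG]
  calc _ ≤ C₁ * br v + D * (7 * (C₃ * (C₂ + C₂)) * br v) := by gcongr
    _ = (C₁ * 1 + 7 * (C₃ * (C₂ + C₂)) * D) * br v := by ring
    _ ≤ (C₁ * (1 + D) + 7 * (C₃ * (C₂ + C₂)) * (1 + D)) * br v := by
        gcongr
        · exact le_self_add
        · exact le_add_self
    _ = _ := by ring

private theorem a8_card (y : ℝ) {ρ : ℝ} (hρ : 0 ≤ ρ) :
    ((Finset.Icc ⌈y - ρ⌉ ⌊y + ρ⌋).card : ℝ) ≤ 2 * ρ + 1 := by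
  rw [Int.card_Icc]
  have h1 := Int.le_ceil (y - ρ)
  have h2 := Int.floor_le (y + ρ)
  rcases le_total (⌊y + ρ⌋ + 1 - ⌈y - ρ⌉) 0 with h | h
  · rw [Int.toNat_of_nonpos h]
    simp only [Nat.cast_zero]
    positivity
  · have : ((⌊y + ρ⌋ + 1 - ⌈y - ρ⌉).toNat : ℝ) = ((⌊y + ρ⌋ + 1 - ⌈y - ρ⌉ : ℤ) : ℝ) := by
      rw [← Int.cast_natCast, Int.toNat_of_nonneg h]
    rw [this]
    push_cast
    linarith

/-- Counting lifts: if `Ws (Φ (Xl t x a)) a ≠ 0` then `‖a‖ ≤ 3`, and `Xl t x a = pr x - k`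
(`Xl_lattice`) has norm `≤ 1 + 3t`; at most `(2(1+3t)+1)²` lattice points `k` qualify. -/
theorem exists_lifts {t : ℝ} (ht : 0 ≤ t) (x : R3) (Φ : ℂ → R3) (hΦ : ∀ X, ‖Φ X‖ ≤ 2) :
    ∃ K : Finset R3, (K.card : ℝ) ≤ 36 * (1 + t) ^ 2 ∧ (∀ u ∈ K, ‖u‖ ≤ 2) ∧
      ∀ a, Ws (Φ (Xl t x a)) a ≤ ∑ u ∈ K, Ws u a ∧
        Ws (Φ (Xl t x a)) a ^ (11 / 10 : ℝ) ≤ ∑ u ∈ K, Ws u a ^ (11 / 10 : ℝ) := by
  classical
  obtain ⟨ρ, hρ⟩ : ∃ ρ : ℝ, ρ = 1 + 3 * t := ⟨_, rfl⟩
  have hρ0 : 0 ≤ ρ := by rw [hρ]; positivity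
  refine ⟨(Finset.Icc ⌈(pr x).re - ρ⌉ ⌊(pr x).re + ρ⌋ ×ˢ
    Finset.Icc ⌈(pr x).im - ρ⌉ ⌊(pr x).im + ρ⌋).image
      fun k : ℤ × ℤ => Φ (pr x - ⟨k.1, k.2⟩), ?_, ?_, fun a => ?_⟩
  · refine (Nat.cast_le.2 Finset.card_image_le).trans ?_
    rw [Finset.card_product, Nat.cast_mul]
    refine (mul_le_mul (a8_card _ hρ0) (a8_card _ hρ0) (Nat.cast_nonneg _) (by positivity)).trans ?_
    rw [hρ]
    nlinarith
  · intro u hu
    obtain ⟨k, -, rfl⟩ := Finset.mem_image.1 hu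
    exact hΦ _
  · by_cases h : a ∈ Metric.closedBall (Φ (Xl t x a)) 1
    · have ha : ‖a‖ ≤ 3 := by
        have h1 := mem_closedBall_iff_norm.1 h
        have h2 := norm_le_norm_sub_add a (Φ (Xl t x a))
        linarith [hΦ (Xl t x a)]
      have hX : ‖Xl t x a‖ ≤ ρ := by
        refine (norm_add_le _ _).trans ?_
        rw [norm_smul, Real.norm_of_nonneg ht, hρ]
        have h1 : ‖Yt t x a‖ ≤ 1 := norm_red_le_one _
        have h2 := (norm_pr_le a).trans ha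
        nlinarith
      obtain ⟨k, l, hk⟩ := Xl_lattice t x a
      have hre := (Complex.abs_re_le_norm _).trans hX
      have him := (Complex.abs_im_le_norm _).trans hX
      rw [hk] at hre him
      simp only [Complex.sub_re, Complex.sub_im, abs_le] at hre him
      have hm : Φ (Xl t x a) ∈ (Finset.Icc ⌈(pr x).re - ρ⌉ ⌊(pr x).re + ρ⌋ ×ˢ
          Finset.Icc ⌈(pr x).im - ρ⌉ ⌊(pr x).im + ρ⌋).image
            fun k : ℤ × ℤ => Φ (pr x - ⟨k.1, k.2⟩) := by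
        refine Finset.mem_image.2 ⟨(k, l), ?_, by rw [hk]⟩
        simp only [Finset.mem_product, Finset.mem_Icc, Int.ceil_le, Int.le_floor]
        refine ⟨⟨?_, ?_⟩, ?_, ?_⟩ <;> linarith [hre.1, hre.2, him.1, him.2]
      exact ⟨Finset.single_le_sum (f := fun u => Ws u a) (fun _ _ => zero_le) hm,
        Finset.single_le_sum (f := fun u => Ws u a ^ (11 / 10 : ℝ)) (fun _ _ => zero_le) hm⟩
    · have h0 : Ws (Φ (Xl t x a)) a = 0 := indicator_of_notMem h _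
      rw [h0, ENNReal.zero_rpow_of_pos (by norm_num)]
      exact ⟨zero_le, zero_le⟩

end

end Crest.Agent.R68
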