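import Crest.Prelude.Def_HardSphereBoltzmann

/-!
# R68 (S0091, non-uniqueness for Boltzmann): basic definitions

All densities are `ℝ≥0∞`-valued.  A point of a characteristic is written `y + s • v`.
-/

set_option autoImplicit false

namespace Crest.Agent.R68

open MeasureTheory Set Filter Crest.AnalysisR.VecCalc3 Crest.AnalysisR.PDE.Boltzmann
open scoped ENNReal _root_.Topology

noncomputable section

/-- functions of the velocity -/
abbrev VF := R3 → ℝ≥0∞
/-- functions of `(x, v)` -/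
abbrev XF := R3 → R3 → ℝ≥0∞
/-- functions of `(t, x, v)` -/
abbrev PF := ℝ → R3 → R3 → ℝ≥0∞

/-- the hard-sphere kernel -/
def Bk (w ω : R3) : ℝ≥0∞ := ENNReal.ofReal |inner ℝ w ω|

/-- bilinear gain term -/
def Qp (f g : VF) (v : R3) : ℝ≥0∞ :=
  ∫⁻ a, ∫⁻ ω, Bk (v - a) ω * (f (postVel v a ω) * g (postVelStar v a ω)) ∂sphereMeasure

/-- total cross section -/
def Nn (w : R3) : ℝ≥0∞ := ∫⁻ ω, Bk w ω ∂sphereMeasure

/-- collision frequency -/
def Nu (f : VF) (v : R3) : ℝ≥0∞ := ∫⁻ a, Nn (v - a) * f a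

/-- `⟨v⟩` -/
def br (v : R3) : ℝ≥0∞ := ENNReal.ofReal (1 + ‖v‖)

/-- Gaussian weight `exp (-θ ‖v‖² / 2)` -/
def Gs (θ : ℝ) (v : R3) : ℝ≥0∞ := ENNReal.ofReal (Real.exp (-θ * ‖v‖ ^ 2 / 2))

/-- the Maxwellian -/
def Mx (v : R3) : ℝ≥0∞ := ENNReal.ofReal (maxwellian v)

/-- attenuation factor `exp (-H)` -/
def att (H : ℝ≥0∞) : ℝ≥0∞ := EReal.exp (-(H : EReal))

/-- optical depth along the characteristic `y + s • v` between the times `s` and `t` -/
def Hz (F : PF) (y v : R3) (s t : ℝ) : ℝ≥0∞ := ∫⁻ τ in Ioo s t, Nu (F τ (y + τ • v)) v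

/-- `‖v - a‖⁻¹`-potential of `f` -/
def As (f : VF) (v : R3) : ℝ≥0∞ := ∫⁻ a, f a * (ENNReal.ofReal ‖v - a‖)⁻¹

/-- joint measurability -/
def Meas (F : PF) : Prop := Measurable fun p : ℝ × R3 × R3 => F p.1 p.2.1 p.2.2
/-- joint measurability -/
def MeasX (f : XF) : Prop := Measurable fun p : R3 × R3 => f p.1 p.2
/-- periodicity in `x` -/
def Per (F : PF) : Prop := ∀ t v, IsPeriodic3 fun x => F t x v
/-- periodicity in `x` -/
def PerX (f : XF) : Prop := ∀ v, IsPeriodic3 fun x => f x v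

/-- mild (exponential) form on `[0, T]` with the coefficients computed from `C` -/
def Mild (F C : PF) (f : XF) (T : ℝ) : Prop :=
  ∀ t ∈ Icc 0 T, ∀ y v, F t (y + t • v) v = f y v * att (Hz C y v 0 t) +
    ∫⁻ s in Ioo 0 t, att (Hz C y v s t) * Qp (C s (y + s • v)) (C s (y + s • v)) v

/-- additive mild form on the characteristic `(y, v)` up to time `T` -/
def AM (F : PF) (f : XF) (T : ℝ) (y v : R3) : Prop :=
  ∀ t ∈ Icc 0 T, F t (y + t • v) v + ∫⁻ s in Ioo 0 t, Nu (F s (y + s • v)) v * F s (y + s • v) v =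
    f y v + ∫⁻ s in Ioo 0 t, Qp (F s (y + s • v)) (F s (y + s • v)) v

/-- additive mild form on almost every characteristic -/
def AMae (F : PF) (f : XF) (T : ℝ) : Prop :=
  ∀ᵐ q ∂(volume.restrict (cell ×ˢ (univ : Set R3))), AM F f T q.1 q.2

/-- the moment controlling all collision integrals -/
def mom (k : ℕ) (f : VF) : ℝ≥0∞ := ∫⁻ v, br v ^ k * (f v + f v ^ (11 / 10 : ℝ))

/-- the integrability hypothesis -/
def Integ (F : PF) (T : ℝ) : Prop :=
  ∀ k : ℕ, ∫⁻ p in Ioo 0 T ×ˢ cell, mom k (F p.1 p.2) ^ 2 < ⊤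

/-- `(0, T) × cell × ℝ³` -/
def Om3 (T : ℝ) : Set (ℝ × R3 × R3) := Ioo 0 T ×ˢ (cell ×ˢ univ)

/-- the real-valued density -/
def tR (F : PF) : ℝ → R3 → R3 → ℝ := fun t x v => (F t x v).toReal
/-- the real-valued density -/
def tX (f : XF) : R3 → R3 → ℝ := fun x v => (f x v).toReal

/-- truncation between `lo` and `hi` -/
def clamp (lo hi F : PF) : PF := fun t x v => (F t x v ⊓ hi t x v) ⊔ lo t x v

/-- `a` and `b` differ by at most `e` -/
def Near (a b e : ℝ≥0∞) : Prop := a ≤ b + e ∧ b ≤ a + e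

/-- horizontal part of a vector -/
def pr (x : R3) : ℂ := ⟨x 0, x 1⟩

/-- vector with given horizontal and vertical part -/
def mk3 (z : ℂ) (s : ℝ) : R3 := WithLp.toLp 2 ![z.re, z.im, s]

/-- reduction modulo the lattice `ℤ²` to the nearest representative -/
def red (z : ℂ) : ℂ := ⟨z.re - round z.re, z.im - round z.im⟩

/-- the exponent used in the bilinear estimates -/
def pp : ℝ := 41 / 40

/-- `j` has `L^pp` average at most `K` on the disc of radius `δ` about `u` -/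
def LpB (j : ℂ → ℝ≥0∞) (u : ℂ) (δ : ℝ) (K : ℝ≥0∞) : Prop :=
  ∫⁻ ζ in Metric.closedBall u δ, j ζ ^ pp ≤ K ^ pp * ENNReal.ofReal (δ ^ 2)

/-- the vector orthogonal to `p` with horizontal part `ζ` -/
def gz (p : R3) (ζ : ℂ) : R3 := mk3 ζ (-(p 0 * ζ.re + p 1 * ζ.im) / p 2)

/-- the convolution kernel dominating the linearised operator -/
def kk (p : R3) : ℝ≥0∞ := (ENNReal.ofReal ‖p‖)⁻¹ * Gs (1 / 100) p

end

end Crest.Agent.R68
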