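import Crest.Agent.R68.ELp
import Crest.Agent.R68.A6

/-!
# R68 (S0091): potentials of the streams
-/

set_option autoImplicit false

namespace Crest.Agent.R68

open MeasureTheory Set Filter Crest.AnalysisR.VecCalc3 Crest.AnalysisR.PDE.Boltzmann
open scoped ENNReal _root_.Topology

noncomputable section

private theorem eas_K {P : Par} (h : P.Ok) {t : ℝ} (ht : 0 ≤ t) (X : ℂ) {κ : ℝ} (hκ : 0 ≤ κ)
    (n : ℕ) : P.N * P.vr t X ^ (-1 - κ) * (P.ee t X ^ n) ^ (-κ - 1 / 20) ≤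
      P.N / P.vr t X * P.ee t X ^ (-(800 * κ + n * (κ + 1 / 20))) := by
  have hv := h.vr_pos ht X
  have he := h.ee_pos ht X
  have h1 := h.vr_rpow_le ht X hκ
  rw [show (-1 - κ : ℝ) = -1 + -κ by ring, Real.rpow_add hv, Real.rpow_neg_one,
    ← Real.rpow_natCast, ← Real.rpow_mul he.le,
    show -(800 * κ + n * (κ + 1 / 20)) = -(800 * κ) + n * (-κ - 1 / 20) by ring, Real.rpow_add he]
  calc _ ≤ P.N * ((P.vr t X)⁻¹ * P.ee t X ^ (-(800 * κ))) *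
        P.ee t X ^ ((n : ℝ) * (-κ - 1 / 20)) := by gcongr
    _ = _ := by ring

private theorem eas_num {e e₀ g c p : ℝ} (he : 0 < e) (h1 : e ≤ e₀) (h2 : e₀ ≤ 1) (hg : 0 ≤ g)
    (hc : 0 ≤ c) (h3 : g * e₀ ^ c ≤ 1) (hp : 1 + c ≤ p) : g * e ^ p ≤ e₀ := by
  have h0 : 0 < e₀ := he.trans_le h1
  calc g * e ^ p ≤ g * e₀ ^ (1 + c) := by
        refine mul_le_mul_of_nonneg_left ?_ hg
        exact (Real.rpow_le_rpow he.le h1 (by linarith)).trans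
          (Real.rpow_le_rpow_of_exponent_ge h0 h2 hp)
    _ = g * e₀ ^ c * e₀ := by rw [Real.rpow_add h0, Real.rpow_one]; ring
    _ ≤ e₀ := mul_le_of_le_one_left h0.le h3

private theorem eas_e₀ {P : Par} (h : P.Ok) : P.e₀ ≤ 1 / 1000000 ∧ 2 * P.e₀ ≤ P.δ₁ := by
  refine ⟨by linarith [h.e₀_le, h.L_le'], ?_⟩
  have h1 : (10 : ℝ) ≤ P.Γ := by exact_mod_cast h.Γ_ge
  have h2 := h.e₀_le_δ
  rw [le_div_iff₀ (by positivity)] at h2
  nlinarith [h.e₀_pos]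

private theorem eas_wm_cut {P : Par} {ε : Bool} {t : ℝ} {X : ℂ} {v : R3}
    (hv : P.wm ε t X v ≠ 0) : P.cut ε t X v := by
  by_contra hn
  exact hv (by simp only [Par.wm, if_neg hn])

/-- `wm_le_Jf`, `Jf_LpB`, `dens_ball`: `8 N vr⁻¹ ee^{-19} ee^{7 · 2.926}` -/
theorem dens_wm_le : ∀ᶠ P in 𝓕, ∀ ε, ∀ t ∈ Icc 0 P.T₁, ∀ X,
    dens (P.wm ε t X) ≤ ENNReal.ofReal (P.e₀ / P.vr t X) := by
  filter_upwards [ev_ok, Jf_LpB, small_e₀ (fun Q => 8 * Q.N) (c := 2 / 5) (by norm_num)]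
    with P h hJ hs ε t ht X
  by_cases h0 : ∀ v, P.wm ε t X v = 0
  · rw [dens, lintegral_congr h0, lintegral_zero]
    exact zero_le
  obtain ⟨v, hv⟩ := not_forall.1 h0
  have hδ := h.del_pos ht.1 X
  have hvr := h.vr_pos ht.1 X
  have he := h.ee_pos ht.1 X
  have hL := hJ (19 / 800) ⟨by norm_num, by norm_num⟩ t ht.1 X _ hδ
    (by linarith [h.del_le ht.1 X, h.e₀_le, h.L_pos]) (h.cut_supp ht (eas_wm_cut hv)).2.2.2
  refine (lintegral_mono (h.wm_le_Jf ε ht.1 X)).trans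
    ((dens_ball (u := P.Uf ε t X)
      (j := fun ζ => Jf P.r (19 / 800) (P.del t X) (X - t • ζ) ζ) (by fun_prop) hδ
      (by rw [P11.Uf, pr_mk3]; exact hL)).trans ?_)
  rw [← ENNReal.ofReal_ofNat 8, ← ENNReal.ofReal_mul (by norm_num),
    ← ENNReal.ofReal_mul (by positivity)]
  refine ENNReal.ofReal_le_ofReal ?_
  have h1 := eas_K h ht.1 X (κ := 19 / 800) (by norm_num) 7
  have h2 := eas_num he (h.ee_le ht.1 X) (by linarith [(eas_e₀ h).1]) (by positivity)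
    (by norm_num) hs (p := -(800 * (19 / 800) + (7 : ℕ) * (19 / 800 + 1 / 20)) + (21 : ℕ))
    (by norm_num)
  rw [Real.rpow_add he, Real.rpow_natCast] at h2
  unfold Par.del
  calc _ ≤ 8 * (P.N / P.vr t X *
        P.ee t X ^ (-(800 * (19 / 800) + ((7 : ℕ) : ℝ) * (19 / 800 + 1 / 20)))) *
        (P.ee t X ^ 7) ^ 3 := by gcongr
    _ = 8 * P.N * (P.ee t X ^ (-(800 * (19 / 800) + ((7 : ℕ) : ℝ) * (19 / 800 + 1 / 20))) *
        P.ee t X ^ 21) / P.vr t X := by ring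
    _ ≤ _ := div_le_div_of_nonneg_right h2 hvr.le

theorem As_le_far {f : VF} (hf : Measurable f) {u v : R3} {δ : ℝ} (hδ : 0 < δ)
    (hs : ∀ a, f a ≠ 0 → ‖a - u‖ ≤ δ) (hv : 2 * δ ≤ ‖v - u‖) :
    As f v ≤ ENNReal.ofReal (2 / ‖v - u‖) * dens f := by
  have hw : 0 < ‖v - u‖ := by linarith
  rw [As, dens, ← lintegral_const_mul _ hf]
  refine lintegral_mono fun a => ?_
  by_cases h0 : f a = 0
  · simp [h0]
  rw [mul_comm]
  gcongr
  have h1 := norm_sub_le_norm_sub_add_norm_sub v a u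
  have h2 : ‖v - u‖ / 2 ≤ ‖v - a‖ := by linarith [hs a h0]
  rw [← ENNReal.ofReal_inv_of_pos (by linarith)]
  refine ENNReal.ofReal_le_ofReal ?_
  rw [← inv_div]
  exact inv_anti₀ (by linarith) h2

private theorem eas_mono {f g : VF} (h : ∀ a, f a ≤ g a) (v : R3) : As f v ≤ As g v :=
  lintegral_mono fun a => mul_le_mul' (h a) le_rfl

private theorem eas_Omn {P : Par} (h : P.Ok) {ρ s : ℝ} (hs : 0 < s) (h1 : ρ ≤ s)
    (h2 : P.r ^ (1 / 100 : ℝ) ≤ s) (h3 : s ≤ P.δ₁) :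
    ENNReal.ofReal (s ^ (-(3 / 2) : ℝ)) ≤ P.Omn ρ := by
  refine le_trans (ENNReal.ofReal_le_ofReal ?_) (h.Omn_ge h1 h2 h3)
  have hδ := h.δ₁_pos
  have hδ1 : P.δ₁ ≤ 1 := by linarith [h.δ₁_le]
  have h4 : 1 ≤ P.δ₁⁻¹ ^ P.Γ * P.δ₁ ^ (3 / 2 : ℝ) := by
    have h5 : P.δ₁⁻¹ ^ 2 ≤ P.δ₁⁻¹ ^ P.Γ :=
      pow_le_pow_right₀ (one_le_inv_iff₀.2 ⟨hδ, hδ1⟩) (by linarith [h.Γ_ge])
    have h6 : P.δ₁ ^ 2 ≤ P.δ₁ ^ (3 / 2 : ℝ) := by
      rw [← Real.rpow_natCast]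
      exact Real.rpow_le_rpow_of_exponent_ge hδ hδ1 (by norm_num)
    calc (1 : ℝ) = P.δ₁⁻¹ ^ 2 * P.δ₁ ^ 2 := by field_simp
      _ ≤ _ := by gcongr
  rw [Real.div_rpow hδ.le hs.le, Real.rpow_neg hs.le, div_eq_mul_inv (P.δ₁ ^ (3 / 2 : ℝ)),
    ← mul_assoc]
  exact le_mul_of_one_le_left (by positivity) h4

private theorem eas_ball {P : Par} (h : P.Ok) {C : ℝ≥0∞} (hC : C ≠ ⊤)
    (hAs : ∀ (j : ℂ → ℝ≥0∞) (u : R3) (δ : ℝ) (K : ℝ≥0∞),
      Measurable j → 0 < δ → LpB j (pr u) δ K → ∀ v,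
      As ((Metric.closedBall u δ).indicator fun a => j (pr a)) v ≤ C * K * ENNReal.ofReal (δ ^ 2))
    {ε : Bool} {t : ℝ} (ht : t ∈ Icc 0 P.T₁) {X : ℂ} {κ B : ℝ} (hκ : 0 ≤ κ) (hB : 0 ≤ B) (n : ℕ)
    (hJ : LpB (fun ζ => Jf P.r κ (P.ee t X ^ n) (X - t • ζ) ζ) (uf P.L t X) (P.ee t X ^ n)
      (ENNReal.ofReal (P.N * P.vr t X ^ (-1 - κ) * (P.ee t X ^ n) ^ (-κ - 1 / 20))))
    (hX : ‖X‖ ≤ 3 * P.T₁) (h1 : P.sig t X ≤ P.ee t X ^ n) (h2 : P.ee t X ^ n ≤ P.e₀)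
    (hs : 32 * B * C.toReal * P.N * P.e₀ ^ (1 : ℝ) ≤ 1)
    (hn : 1 + 1 ≤ -(800 * κ + n * (κ + 1 / 20)) + n * (7 / 2)) {f : VF}
    (hf : ∀ a, f a ≤ (Metric.closedBall (P.Uf ε t X) (P.ee t X ^ n)).indicator
      (fun a => ENNReal.ofReal B * Jf P.r κ (P.ee t X ^ n) (X - t • pr a) (pr a)) a)
    {v : R3} (hv : P.wn ε t X v ≤ 2 * P.ee t X ^ n) :
    As f v ≤ ENNReal.ofReal (P.e₀ / (8 * P.vr t X)) * P.Ew ε t X v := by
  have hvr := h.vr_pos ht.1 X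
  have he := h.ee_pos ht.1 X
  have he₀ := h.e₀_pos
  have hδ : 0 < P.ee t X ^ n := pow_pos he n
  have h3 := hAs (fun ζ => Jf P.r κ (P.ee t X ^ n) (X - t • ζ) ζ) (P.Uf ε t X) _ _ (by fun_prop)
    hδ (by rw [P11.Uf, pr_mk3]; exact hJ) v
  have h4 : As f v ≤ ENNReal.ofReal B * As ((Metric.closedBall (P.Uf ε t X) (P.ee t X ^ n)).indicator
      fun a => Jf P.r κ (P.ee t X ^ n) (X - t • pr a) (pr a)) v := by
    refine (eas_mono hf v).trans (le_of_eq ?_)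
    rw [As, As, ← lintegral_const_mul' _ _ ENNReal.ofReal_ne_top]
    refine lintegral_congr fun a => ?_
    rw [indicator_const_mul, mul_assoc]
  have h5 := eas_Omn h (ρ := P.wn ε t X v) (s := 2 * P.ee t X ^ n) (by positivity) hv
    (by linarith [h.r_le_sig ht.1 X]) (by linarith [(eas_e₀ h).2])
  rw [h.Ew_eq ε ht hX]
  refine h4.trans ((mul_le_mul' le_rfl h3).trans (le_trans ?_ (mul_le_mul' le_rfl h5)))
  rw [← ENNReal.ofReal_toReal hC, ← ENNReal.ofReal_mul ENNReal.toReal_nonneg,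
    ← ENNReal.ofReal_mul (by positivity), ← ENNReal.ofReal_mul hB,
    ← ENNReal.ofReal_mul (by positivity)]
  refine ENNReal.ofReal_le_ofReal ?_
  have h6 := eas_K h ht.1 X hκ n
  have h7 := eas_num he (h.ee_le ht.1 X) (by linarith [(eas_e₀ h).1]) (by positivity)
    zero_le_one hs hn
  have e1 : P.ee t X ^ ((n : ℝ) * (7 / 2)) =
      (P.ee t X ^ n) ^ 2 * (P.ee t X ^ n) ^ (3 / 2 : ℝ) := by
    rw [Real.rpow_mul he.le, Real.rpow_natCast, show (7 / 2 : ℝ) = (2 : ℕ) + 3 / 2 by norm_num,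
      Real.rpow_add hδ, Real.rpow_natCast]
  rw [Real.rpow_add he, e1] at h7
  have h8 : (2 : ℝ) ^ (3 / 2 : ℝ) ≤ 4 := by
    calc (2 : ℝ) ^ (3 / 2 : ℝ) ≤ 2 ^ ((2 : ℕ) : ℝ) :=
          Real.rpow_le_rpow_of_exponent_le one_le_two (by norm_num)
      _ = 4 := by rw [Real.rpow_natCast]; norm_num
  have h9 : 0 < (P.ee t X ^ n) ^ (3 / 2 : ℝ) := Real.rpow_pos_of_pos hδ _
  rw [Real.rpow_neg (by positivity), Real.mul_rpow (by norm_num) hδ.le, ← div_eq_mul_inv,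
    le_div_iff₀ (by positivity), le_div_iff₀ (by positivity)]
  calc _ ≤ B * (C.toReal * (P.N / P.vr t X * P.ee t X ^ (-(800 * κ + n * (κ + 1 / 20)))) *
        (P.ee t X ^ n) ^ 2) * (4 * (P.ee t X ^ n) ^ (3 / 2 : ℝ)) * (8 * P.vr t X) := by gcongr
    _ = 32 * B * C.toReal * P.N * (P.ee t X ^ (-(800 * κ + n * (κ + 1 / 20))) *
        ((P.ee t X ^ n) ^ 2 * (P.ee t X ^ n) ^ (3 / 2 : ℝ))) := by field_simp; ring
    _ ≤ _ := h7

private theorem eas_zero {f : VF} (h : ∀ a, f a = 0) (v : R3) : As f v = 0 := by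
  simp [As, h]

/-- near the centre: `As_ball`, `cb_le_Jf` (radius `sig`), `wm_le_Jf`, `Jf_LpB`, and
`Ew = Omn wn ≥ (2δ')^{-3/2}` by `Ew_eq`, `Omn_ge`, `r_le_sig`.  The gains are
`ee^{-24+15.36+12}` and `ee^{-19+13.48+10.5}`. -/
theorem As_near : ∀ᶠ P in 𝓕, ∀ ε, ∀ t ∈ Icc 0 P.T₁, ∀ X v,
    (P.wn ε t X v ≤ 2 * P.sig t X →
      As (P.cb ε t X) v ≤ ENNReal.ofReal (P.e₀ / (8 * P.vr t X)) * P.Ew ε t X v) ∧
    (P.wn ε t X v ≤ 2 * P.del t X →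
      As (P.wm ε t X) v ≤ ENNReal.ofReal (P.e₀ / (8 * P.vr t X)) * P.Ew ε t X v) := by
  obtain ⟨C, hC, hAs⟩ := As_ball
  filter_upwards [ev_ok, Jf_LpB,
    small_e₀ (fun Q => 32 * (3 * Q.A) * C.toReal * Q.N) (c := 1) one_pos,
    small_e₀ (fun Q => 32 * 1 * C.toReal * Q.N) (c := 1) one_pos] with P h hJ hs1 hs2 ε t ht X v
  have hdl := h.del_le ht.1 X
  have hsd := h.sig_le_del ht.1 X
  have hL8 : P.e₀ ≤ P.L / 8 := by linarith [h.e₀_le, h.L_pos]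
  constructor
  · intro hv
    by_cases h0 : ∀ a, P.cb ε t X a = 0
    · rw [eas_zero h0]; exact zero_le
    obtain ⟨a, ha⟩ := not_forall.1 h0
    obtain ⟨-, -, c1, c2⟩ := h.cut_supp ht (h.cb_cut ht.1 ha).1
    exact eas_ball h hC hAs ht (κ := 3 / 100) (B := 3 * P.A) (by norm_num)
      (by linarith [h.A_ge]) 8
      (hJ (3 / 100) ⟨by norm_num, le_rfl⟩ t ht.1 X _ (h.sig_pos ht.1 X)
        ((hsd.trans hdl).trans hL8) c2) c1 le_rfl (hsd.trans hdl) hs1 (by norm_num)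
      (h.cb_le_Jf ε ht.1 X le_rfl) hv
  · intro hv
    by_cases h0 : ∀ a, P.wm ε t X a = 0
    · rw [eas_zero h0]; exact zero_le
    obtain ⟨a, ha⟩ := not_forall.1 h0
    obtain ⟨-, -, c1, c2⟩ := h.cut_supp ht (eas_wm_cut ha)
    refine eas_ball h hC hAs ht (κ := 19 / 800) (B := 1) (by norm_num) zero_le_one 7
      (hJ (19 / 800) ⟨by norm_num, by norm_num⟩ t ht.1 X _ (h.del_pos ht.1 X)
        (hdl.trans hL8) c2) c1 hsd hdl hs2 (by norm_num) (fun a => ?_) hv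
    simp only [ENNReal.ofReal_one, one_mul]
    exact h.wm_le_Jf ε ht.1 X a

private theorem eas_Omn2 {P : Par} (h : P.Ok) {w : ℝ} (hw : 0 < w)
    (h2 : P.r ^ (1 / 100 : ℝ) ≤ w) (h3 : w ≤ P.δ₁) :
    ENNReal.ofReal (2 / w) ≤ ENNReal.ofReal (2 * P.δ₁ ^ (P.Γ - 1)) * P.Omn w := by
  have hδ := h.δ₁_pos
  refine le_trans ?_ (mul_le_mul' le_rfl (h.Omn_ge le_rfl h2 h3))
  rw [← ENNReal.ofReal_mul (by positivity)]
  refine ENNReal.ofReal_le_ofReal ?_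
  have h4 : P.δ₁ / w ≤ (P.δ₁ / w) ^ (3 / 2 : ℝ) := by
    conv_lhs => rw [← Real.rpow_one (P.δ₁ / w)]
    exact Real.rpow_le_rpow_of_exponent_le ((one_le_div hw).2 h3) (by norm_num)
  obtain ⟨k, hk⟩ : ∃ k, P.Γ = k + 1 := ⟨P.Γ - 1, by have := h.Γ_ge; omega⟩
  rw [hk, Nat.add_sub_cancel]
  calc 2 / w = 2 * P.δ₁ ^ k * (P.δ₁⁻¹ ^ (k + 1) * (P.δ₁ / w)) := by
        rw [inv_pow, pow_succ]; field_simp
    _ ≤ _ := by gcongr

private theorem eas_Omn3 {P : Par} (h : P.Ok) {w x : ℝ} (hw : 0 < w)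
    (h2 : P.r ^ (1 / 100 : ℝ) ≤ w) (hx : x ≤ 11 / 10 + w) (hx0 : 0 ≤ x) :
    ENNReal.ofReal (1 + x) * ENNReal.ofReal (2 / w) ≤ 10 * (1 + P.Omn w) := by
  rcases le_total w 1 with h1 | h1
  · have h3 : ENNReal.ofReal (2 / w) ≤ 2 * P.Omn w := by
      rcases le_total w P.δ₁ with h4 | h4
      · refine (eas_Omn2 h hw h2 h4).trans (mul_le_mul' ?_ le_rfl)
        rw [← ENNReal.ofReal_ofNat 2]
        refine ENNReal.ofReal_le_ofReal (mul_le_of_le_one_right (by norm_num) ?_)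
        exact pow_le_one₀ h.δ₁_pos.le (by linarith [h.δ₁_le])
      · rw [h.Omn_mid h4 h1, ← ENNReal.ofReal_ofNat 2, ← ENNReal.ofReal_mul (by norm_num)]
        refine ENNReal.ofReal_le_ofReal (mul_le_mul_of_nonneg_left ?_ (by norm_num))
        exact le_self_pow₀ (one_le_inv_iff₀.2 ⟨hw, h1⟩) (by have := h.Γ_ge; omega)
    calc _ ≤ ENNReal.ofReal 5 * (2 * P.Omn w) :=
          mul_le_mul' (ENNReal.ofReal_le_ofReal (by linarith)) h3
      _ = 10 * P.Omn w := by rw [ENNReal.ofReal_ofNat, ← mul_assoc]; norm_num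
      _ ≤ _ := mul_le_mul' le_rfl le_add_self
  · rw [← ENNReal.ofReal_mul (by positivity)]
    refine le_trans ?_ (le_mul_of_one_le_right' le_self_add)
    rw [← ENNReal.ofReal_ofNat 10]
    refine ENNReal.ofReal_le_ofReal ?_
    rw [← mul_div_assoc, div_le_iff₀ hw]
    linarith

private theorem eas_piece {P : Par} (h : P.Ok) {ε : Bool} {t : ℝ} (ht : t ∈ Icc 0 P.T₁) {X : ℂ}
    (hX : ‖X‖ ≤ 3 * P.T₁) {g G : VF} (hg : Measurable g) (hG : ∀ a, g a ≤ G a) {δ : ℝ}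
    (h1 : P.sig t X ≤ δ) (h2 : δ ≤ P.e₀) (hs : ∀ a, G a ≠ 0 → P.wn ε t X a ≤ δ) (v : R3)
    (hn : P.wn ε t X v ≤ 2 * δ →
      As G v ≤ ENNReal.ofReal (P.e₀ / (8 * P.vr t X)) * P.Ew ε t X v) :
    br v * As g v ≤
      (10 * dens g + ENNReal.ofReal (P.e₀ / P.vr t X / 2)) * (1 + P.Ew ε t X v) ∧
    (P.wn ε t X v < P.δ₁ → As g v ≤ (ENNReal.ofReal (2 * P.δ₁ ^ (P.Γ - 1)) * dens g +
      ENNReal.ofReal (P.e₀ / P.vr t X / 2)) * P.Ew ε t X v) := by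
  have hσ := h.sig_pos ht.1 X
  have hvr := h.vr_pos ht.1 X
  have he₀ := h.e₀_pos
  have hv : ‖v‖ ≤ 11 / 10 + P.wn ε t X v := by
    have := norm_le_norm_sub_add v (P.Uf ε t X)
    have h3 := h.norm_Uf_le ε ht.1 X
    unfold P11.wn
    linarith
  rcases le_total (P.wn ε t X v) (2 * δ) with h3 | h3
  · have h4 := (eas_mono hG v).trans (hn h3)
    constructor
    · refine (mul_le_mul' (show br v ≤ ENNReal.ofReal 4 from
        ENNReal.ofReal_le_ofReal (by linarith [(eas_e₀ h).1])) h4).trans ?_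
      rw [← mul_assoc, ← ENNReal.ofReal_mul (by norm_num)]
      refine mul_le_mul' (le_trans (le_of_eq ?_) le_add_self) le_add_self
      congr 1
      field_simp
      norm_num
    · intro _
      refine h4.trans (mul_le_mul' (le_trans (ENNReal.ofReal_le_ofReal ?_) le_add_self) le_rfl)
      rw [div_div]
      exact div_le_div_of_nonneg_left he₀.le (by positivity) (by linarith)
  · have h4 : As g v ≤ ENNReal.ofReal (2 / P.wn ε t X v) * dens g :=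
      As_le_far hg (u := P.Uf ε t X) (hσ.trans_le h1)
        (fun a ha => hs a fun h0 => ha (le_antisymm (h0 ▸ hG a) zero_le)) h3
    have hw : 0 < P.wn ε t X v := by linarith
    have hr : P.r ^ (1 / 100 : ℝ) ≤ P.wn ε t X v := by linarith [h.r_le_sig ht.1 X]
    rw [h.Ew_eq ε ht hX]
    constructor
    · refine (mul_le_mul' le_rfl h4).trans ?_
      rw [← mul_assoc]
      refine (mul_le_mul' (eas_Omn3 h hw hr hv (norm_nonneg v)) le_rfl).trans ?_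
      rw [mul_right_comm]
      exact mul_le_mul' le_self_add le_rfl
    · intro h5
      refine h4.trans ((mul_le_mul' (eas_Omn2 h hw hr h5.le) le_rfl).trans ?_)
      rw [mul_right_comm]
      exact mul_le_mul' le_self_add le_rfl

/-- Split `f = f ⊓ cb + (f - cb)`, the pieces are supported in the balls of radius `sig`, `del`.
For a piece with radius `δ'` and `w = wn ≥ 2δ'` use `As_le_far` and `2 br/w ≤ 10 (1 + Ew)`
(`br ≤ 2.1 + w`; `Omn_mid`; for `w < δ₁`, `Omn w ≥ δ₁^{1-Γ}/w` by `Omn_ge` with `s = w`); otherwise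
`As_near` and `br ≤ 4`.  If `f ≠ 0` then `‖X‖ ≤ 3T₁` (`Ew_eq`). -/
theorem As_le : ∀ᶠ P in 𝓕, ∀ ε, ∀ t ∈ Icc 0 P.T₁, ∀ X, ∀ f : VF, Measurable f →
    (∀ a, f a ≤ P.StE ε t X a) → ∀ v,
    br v * As f v ≤ (10 * dens f + ENNReal.ofReal (P.e₀ / P.vr t X)) * (1 + P.Ew ε t X v) ∧
    (P.wn ε t X v < P.δ₁ → As f v ≤ (ENNReal.ofReal (2 * P.δ₁ ^ (P.Γ - 1)) * dens f +
      ENNReal.ofReal (P.e₀ / P.vr t X)) * P.Ew ε t X v) := by
  filter_upwards [ev_ok, As_near] with P h hn ε t ht X f hf hle v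
  by_cases h0 : ∀ a, f a = 0
  · rw [eas_zero h0, mul_zero]
    exact ⟨zero_le, fun _ => zero_le⟩
  obtain ⟨a, ha⟩ := not_forall.1 h0
  have hX := (h.cut_supp ht (h.StE_cut ht.1 (ε := ε) (X := X) (v := a)
    fun h1 => ha (le_antisymm (h1 ▸ hle a) zero_le))).2.2.1
  have hdl := h.del_le ht.1 X
  have hsd := h.sig_le_del ht.1 X
  have m1 : Measurable fun a => min (f a) (P.cb ε t X a) := hf.min (P.mcb ε t X)
  have m2 : Measurable fun a => f a - P.cb ε t X a := hf.sub (P.mcb ε t X)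
  have hsum : ∀ a, f a = min (f a) (P.cb ε t X a) + (f a - P.cb ε t X a) := fun a => by
    rw [add_comm, tsub_add_min]
  obtain ⟨a1, a2⟩ := eas_piece h ht hX m1 (G := P.cb ε t X) (fun a => min_le_right _ _) le_rfl
    (hsd.trans hdl) (fun a ha => (h.cb_supp ht.1 ha).1) v (hn ε t ht X v).1
  obtain ⟨b1, b2⟩ := eas_piece h ht hX m2 (G := P.wm ε t X)
    (fun a => tsub_le_iff_left.2 (hle a)) hsd hdl (fun a ha => (eas_wm_cut ha).1) v
    (hn ε t ht X v).2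
  have e1 : As f v = As (fun a => min (f a) (P.cb ε t X a)) v +
      As (fun a => f a - P.cb ε t X a) v := by
    have m3 : Measurable fun a => min (f a) (P.cb ε t X a) * (ENNReal.ofReal ‖v - a‖)⁻¹ :=
      m1.mul (by fun_prop)
    unfold As
    rw [← lintegral_add_left m3]
    refine lintegral_congr fun a => ?_
    rw [← add_mul, ← hsum]
  have e2 : dens f = dens (fun a => min (f a) (P.cb ε t X a)) +
      dens (fun a => f a - P.cb ε t X a) := by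
    unfold dens
    rw [← lintegral_add_left m1]
    exact lintegral_congr hsum
  have hq : 0 ≤ P.e₀ / P.vr t X / 2 := by
    have := h.vr_pos ht.1 X
    have := h.e₀_pos
    positivity
  have e3 : ENNReal.ofReal (P.e₀ / P.vr t X) =
      ENNReal.ofReal (P.e₀ / P.vr t X / 2) + ENNReal.ofReal (P.e₀ / P.vr t X / 2) := by
    rw [← ENNReal.ofReal_add hq hq, add_halves]
  rw [e1, e2, e3]
  refine ⟨?_, fun h5 => ?_⟩
  · rw [mul_add]
    exact (add_le_add a1 b1).trans (le_of_eq (by ring))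
  · exact (add_le_add (a2 h5) (b2 h5)).trans (le_of_eq (by ring))

end

end Crest.Agent.R68
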