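import Crest.Agent.R68.EGeo
import Crest.Agent.R68.EMeas

/-!
# R68 (S0091): supports of the streams
-/

set_option autoImplicit false

namespace Crest.Agent.R68

open MeasureTheory Set Filter Crest.AnalysisR.VecCalc3 Crest.AnalysisR.PDE.Boltzmann
open scoped ENNReal _root_.Topology

noncomputable section

namespace Par.Ok
variable {P : Par} (h : P.Ok)
include h

omit h in
private theorem esupp_cond {ε : Bool} {t : ℝ} {X : ℂ} {v : R3} (hv : P.cb ε t X v ≠ 0) :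
    (P.r < ‖X - t • pr v‖ ∧ ‖X - t • pr v‖ ≤ P.r₀ ∧ X - t • pr v ∈ Sec P.m ε (1 / 8) ∧
      ‖pr v - (P.L / ‖X - t • pr v‖) • (X - t • pr v)‖ ≤ ‖X - t • pr v‖ ^ (1 / 100 : ℝ) / 2 ∧
      |v 2 - sg ε| ≤ ‖X - t • pr v‖ ^ (1 / 100 : ℝ) / 2) ∧
    P.cb ε t X v = ENNReal.ofReal (P.A * ‖X - t • pr v‖ ^ (-(103 / 100) : ℝ)) := by
  unfold Par.cb Qar.cold0 at hv ⊢
  split_ifs at hv ⊢ with hc
  · exact ⟨hc, rfl⟩
  · exact absurd rfl hv

private theorem esupp_r₀ : P.r₀ ≤ 1 / 1000000 := h.r₀_le.trans h.T₁_le'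

private theorem esupp_norm {y : ℂ} (hy : 0 < ‖y‖) : ‖(P.L / ‖y‖) • y‖ = P.L := by
  rw [norm_smul, Real.norm_of_nonneg (div_pos h.L_pos hy).le, div_mul_cancel₀ _ hy.ne']

private theorem esupp_sig {ε : Bool} {t : ℝ} (ht : 0 ≤ t) {X : ℂ} {v : R3}
    (hv : P.cb ε t X v ≠ 0) : ‖X - t • pr v‖ ^ (1 / 100 : ℝ) ≤ P.sig t X := by
  obtain ⟨⟨h1, h2, -, h4, -⟩, -⟩ := esupp_cond hv
  have hy := h.r_pos.trans h1
  have hσ : ‖X - t • pr v‖ ^ (1 / 100 : ℝ) ≤ 1 :=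
    Real.rpow_le_one hy.le (by linarith [h.esupp_r₀]) (by norm_num)
  have hζ : ‖pr v‖ ≤ 1 := by
    have := norm_le_norm_sub_add (pr v) ((P.L / ‖X - t • pr v‖) • (X - t • pr v))
    rw [h.esupp_norm hy] at this
    linarith [h.L_le']
  rw [h.sig_eq ht]
  refine Real.rpow_le_rpow hy.le (le_min ?_ h2) (by norm_num)
  have h5 := norm_sub_le X (t • pr v)
  rw [norm_smul, Real.norm_of_nonneg ht] at h5
  have h6 := mul_le_mul_of_nonneg_left hζ ht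
  unfold Par.vr
  linarith [h.r_pos]

/-- Cold support.  With `y = X - t ζ`, `ŷ = y/‖y‖`: `uf L 0 y = L ŷ`, so `wn ε 0 y v ≤ ‖y‖^(1/100)`,
`wn_anti`; `‖ζ‖ ≤ L + 1/2 ≤ 1` gives `‖y‖ ≤ vr`, so `‖y‖^(1/100) ≤ sig`; `L ŷ ∈ SV ε`;
`‖X‖ ≥ ⟪X, ŷ⟫ ≥ ‖y‖ + t (L - sig/2)`. -/
theorem cb_supp {ε : Bool} {t : ℝ} (ht : 0 ≤ t) {X : ℂ} {v : R3} (hv : P.cb ε t X v ≠ 0) :
    P.wn ε t X v ≤ P.sig t X ∧ P.dv ε v ≤ P.sig t X ∧ P.r < ‖X - t • pr v‖ ∧
      ‖X - t • pr v‖ ≤ P.r₀ ∧ (1 - 1 / P.C₃) * (P.L * P.th t) ≤ ‖X‖ := by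
  have hs := h.esupp_sig ht hv
  obtain ⟨⟨h1, h2, h3, h4, h5⟩, -⟩ := esupp_cond hv
  obtain ⟨y, hy⟩ : ∃ y, y = X - t • pr v := ⟨_, rfl⟩
  have hX : X = y + t • pr v := by rw [hy, sub_add_cancel]
  rw [← hy] at hs h1 h2 h3 h4 h5 ⊢
  have hy0 := h.r_pos.trans h1
  have hσ : 0 ≤ ‖y‖ ^ (1 / 100 : ℝ) := by positivity
  have hL := h.L_pos
  refine ⟨le_trans ?_ hs, le_trans ?_ hs, h1, h2, ?_⟩
  · rw [hX]
    refine (h.wn_anti ε le_rfl ht y v).trans (le_of_sq_le_sq ?_ hσ)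
    have e : uf P.L 0 y = (P.L / ‖y‖) • y := by rw [uf, mul_zero, max_eq_left hy0.le]
    simp only [P11.wn, P11.Uf, norm_sq_eq_pr (v - _), pr_sub, pr_mk3, PiLp.sub_apply, mk3_two,
      zero_smul, add_zero, e]
    have a1 := pow_le_pow_left₀ (norm_nonneg _) h4 2
    have a2 := pow_le_pow_left₀ (abs_nonneg _) h5 2
    rw [sq_abs] at a2
    nlinarith [sq_nonneg (‖y‖ ^ (1 / 100 : ℝ))]
  · have hm : (P.L / ‖y‖) • y ∈ P.SV ε :=
      ⟨(h.esupp_norm hy0).ge, (smul_mem_Sec (div_pos hL hy0)).2 h3⟩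
    refine (Metric.infDist_le_dist_of_mem hm).trans ?_
    rw [dist_eq_norm]
    linarith
  · have e1 : (1 + t * (P.L / ‖y‖)) • y = X - t • (pr v - (P.L / ‖y‖) • y) := by
      rw [hX, add_smul, one_smul, smul_sub, smul_smul]
      abel
    have e2 : ‖(1 + t * (P.L / ‖y‖)) • y‖ = ‖y‖ + t * P.L := by
      rw [norm_smul, Real.norm_of_nonneg (by positivity)]
      field_simp
    have h6 := norm_sub_le X (t • (pr v - (P.L / ‖y‖) • y))
    rw [← e1, e2, norm_smul, Real.norm_of_nonneg ht] at h6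
    have hC : 0 < P.C₃ := by linarith [h.C₃_ge']
    have hm : (1 : ℝ) ≤ P.m := by exact_mod_cast h.m_ge
    have h7 : P.e₀ ≤ P.L / P.C₃ := by
      refine h.e₀_le_L.trans (div_le_div_of_nonneg_left hL.le hC ?_)
      nlinarith [h.C₃_ge', mul_le_mul_of_nonneg_left hm (sq_nonneg P.C₃)]
    have h8 : ‖pr v - (P.L / ‖y‖) • y‖ ≤ P.L / P.C₃ := by
      linarith [h.sig_le_del ht X, h.del_le ht X]
    have h9 := mul_le_mul_of_nonneg_left h8 ht
    have e3 : (1 - 1 / P.C₃) * (P.L * P.th t) = t * P.L + P.r - t * (P.L / P.C₃) - P.r / P.C₃ := by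
      unfold Par.th
      field_simp
      ring
    have h10 := div_pos h.r_pos hC
    rw [e3]
    linarith

theorem cb_cut {ε : Bool} {t : ℝ} (ht : 0 ≤ t) {X : ℂ} {v : R3} (hv : P.cb ε t X v ≠ 0) :
    P.cut ε t X v ∧ P.Ph ε t X v ≤ 2 := by
  obtain ⟨h1, h2, -, h4, -⟩ := h.cb_supp ht hv
  have h5 := h.sig_le_del ht X
  refine ⟨⟨h1.trans h5, ?_, h4.trans h.RW_ge⟩, ?_⟩
  · linarith [h.del_le ht X, h.e₀_le_g, h.g₀_pos]
  · unfold Par.Ph
    rw [max_eq_right (sub_nonpos.2 h4), zero_div, add_zero]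
    linarith [(div_le_one (h.sig_pos ht X)).2 h1, (div_le_one (h.del_pos ht X)).2 (h2.trans h5)]

theorem StE_cut {ε : Bool} {t : ℝ} (ht : 0 ≤ t) {X : ℂ} {v : R3} (hv : P.StE ε t X v ≠ 0) :
    P.cut ε t X v := by
  by_cases hc : P.cb ε t X v = 0
  · by_contra hn
    apply hv
    simp only [Par.StE, Par.wm, hc, if_neg hn, add_zero]
  · exact (h.cb_cut ht hc).1

theorem cut_supp {ε : Bool} {t : ℝ} (ht : t ∈ Icc 0 P.T₁) {X : ℂ} {v : R3} (hv : P.cut ε t X v) :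
    ‖v‖ ≤ 3 / 2 ∧ ‖pr v‖ ≤ 2 * P.L ∧ ‖X‖ ≤ 3 * P.T₁ ∧ P.L / 2 ≤ ‖uf P.L t X‖ := by
  have h1 : P.wn ε t X v ≤ P.L / 1000 := hv.1.trans ((h.del_le ht.1 X).trans h.e₀_le)
  have h2 := (h.wn_ge_pr ε t X v).trans h1
  have hL := h.L_pos
  have hL' := h.L_le'
  have h3 := norm_le_norm_sub_add (pr v) (uf P.L t X)
  have h4 : ‖pr v‖ ≤ 2 * P.L := by linarith [norm_uf_le hL ht.1 X]
  refine ⟨?_, h4, ?_, ?_⟩
  · have h5 := norm_le_norm_sub_add v (P.Uf ε t X)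
    have h6 : ‖v - P.Uf ε t X‖ ≤ P.L / 1000 := h1
    linarith [h.norm_Uf_le ε ht.1 X]
  · have h5 := norm_le_norm_sub_add X (t • pr v)
    rw [norm_smul, Real.norm_of_nonneg ht.1] at h5
    have h6 : t * ‖pr v‖ ≤ P.T₁ * 1 :=
      mul_le_mul ht.2 (by linarith) (norm_nonneg _) h.T₁_pos.le
    linarith [hv.2.2, h.RW_le]
  · linarith [h.norm_ge_of_dv ε v, hv.2.1, h.g₀_le]

/-- separation of the two streams: both horizontal velocities are within `del ≤ g₀/10` of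
`uf L t X` and within `g₀` of `SV ±` (`Metric.infDist_lt_iff` with a small margin), `SV_sep`. -/
theorem sep {t : ℝ} (ht : 0 ≤ t) {X : ℂ} {v a : R3} (h1 : P.cut true t X v)
    (h2 : P.cut false t X a) : False := by
  have hg := h.g₀_pos
  obtain ⟨ζ, hζ, d1⟩ := (Metric.infDist_lt_iff (x := pr v) (r := 11 / 10 * P.g₀)
    (h.SV_nonempty true)).1 (h1.2.1.trans_lt (by linarith))
  obtain ⟨ζ', hζ', d2⟩ := (Metric.infDist_lt_iff (x := pr a) (r := 11 / 10 * P.g₀)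
    (h.SV_nonempty false)).1 (h2.2.1.trans_lt (by linarith))
  have h3 := h.SV_sep hζ hζ'
  have h4 : P.L / (8 * P.m) = 4 * P.g₀ := by
    have hm : (0 : ℝ) < P.m := by exact_mod_cast h.m_ge
    unfold P15.g₀
    field_simp
    ring
  have h5 := (h.wn_ge_pr true t X v).trans (h1.1.trans ((h.del_le ht X).trans h.e₀_le_g))
  have h6 := (h.wn_ge_pr false t X a).trans (h2.1.trans ((h.del_le ht X).trans h.e₀_le_g))
  rw [← dist_eq_norm] at h3 h5 h6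
  have h7 := dist_triangle4 ζ (pr v) (pr a) ζ'
  have h8 := dist_triangle_right (pr v) (pr a) (uf P.L t X)
  rw [dist_comm ζ (pr v)] at h7
  linarith

theorem StE_sep {t : ℝ} (ht : 0 ≤ t) (X : ℂ) :
    (∀ v, P.StE true t X v = 0) ∨ (∀ v, P.StE false t X v = 0) := by
  by_contra hn
  rw [not_or, not_forall, not_forall] at hn
  obtain ⟨⟨v, hv⟩, a, ha⟩ := hn
  exact h.sep ht (h.StE_cut ht hv) (h.StE_cut ht ha)

theorem Qp_StP {t : ℝ} (ht : 0 ≤ t) (X : ℂ) (v : R3) : Qp (P.StP t X) (P.StP t X) v =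
    Qp (P.StE true t X) (P.StE true t X) v + Qp (P.StE false t X) (P.StE false t X) v := by
  rcases h.StE_sep ht X with h0 | h0
  · have e1 : P.StP t X = P.StE false t X := funext fun a => by simp only [Par.StP, h0, zero_add]
    have e2 : P.StE true t X = fun _ => 0 := funext h0
    rw [e1, e2, Qp_zero_left, zero_add]
  · have e1 : P.StP t X = P.StE true t X := funext fun a => by simp only [Par.StP, h0, add_zero]
    have e2 : P.StE false t X = fun _ => 0 := funext h0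
    rw [e1, e2, Qp_zero_left, add_zero]

private theorem esupp_StP {t : ℝ} (ht : 0 ≤ t) {X : ℂ} {v : R3} (hv : P.StP t X v ≠ 0) :
    ∃ ε, P.cut ε t X v := by
  by_cases h0 : P.StE true t X v = 0
  · refine ⟨false, h.StE_cut ht fun h1 => hv ?_⟩
    simp only [Par.StP, h0, h1, add_zero]
  · exact ⟨true, h.StE_cut ht h0⟩

theorem StP_supp {t : ℝ} (ht : t ∈ Icc 0 P.T₁) {X : ℂ} {v : R3} (hv : P.StP t X v ≠ 0) :
    ‖v‖ ≤ 3 / 2 ∧ ‖X‖ ≤ 3 * P.T₁ := by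
  obtain ⟨ε, hc⟩ := h.esupp_StP ht.1 hv
  exact ⟨(h.cut_supp ht hc).1, (h.cut_supp ht hc).2.2.1⟩

omit h in
private theorem esupp_rpow {y r : ℝ} (hr : 0 < r) (hy : r < y) :
    y ^ (-(3 / 100) : ℝ) ≤ 103 / 100 * (y + r) ^ (-(3 / 100) : ℝ) := by
  have hy0 := hr.trans hy
  have h1 : (2 * y) ^ (-(3 / 100) : ℝ) ≤ (y + r) ^ (-(3 / 100) : ℝ) :=
    Real.rpow_le_rpow_of_nonpos (by linarith) (by linarith) (by norm_num)
  have h2 : (1 + 1 : ℝ) ^ (3 / 100 : ℝ) ≤ 1 + 3 / 100 * 1 :=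
    rpow_one_add_le_one_add_mul_self (by norm_num) (by norm_num) (by norm_num)
  have h3 : y ^ (-(3 / 100) : ℝ) = (1 + 1 : ℝ) ^ (3 / 100 : ℝ) * (2 * y) ^ (-(3 / 100) : ℝ) := by
    rw [Real.mul_rpow zero_le_two hy0.le, ← mul_assoc, one_add_one_eq_two, ← Real.rpow_add two_pos,
      add_neg_cancel, Real.rpow_zero, one_mul]
  rw [h3]
  exact mul_le_mul (by linarith) h1 (by positivity) (by norm_num)

omit h in
private theorem esupp_split {y : ℝ} (hy : 0 < y) (a : ℝ) : y ^ (-(1 + a)) = y ^ (-a) * y⁻¹ := by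
  rw [← Real.rpow_neg_one, ← Real.rpow_add hy]
  congr 1
  ring

/-- on the support `‖y‖ > r`, `|wd y ζ| ≤ ‖y‖ ‖y‖^(1/100)/2 ≤ ‖y‖ δ/2` -/
theorem cb_le_Jf (ε : Bool) {t : ℝ} (ht : 0 ≤ t) (X : ℂ) {δ : ℝ} (hδ : P.sig t X ≤ δ) (v : R3) :
    P.cb ε t X v ≤ (Metric.closedBall (P.Uf ε t X) δ).indicator
      (fun a => ENNReal.ofReal (3 * P.A) * Jf P.r (3 / 100) δ (X - t • pr a) (pr a)) v := by
  by_cases hv : P.cb ε t X v = 0
  · rw [hv]
    exact zero_le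
  have hs := (h.esupp_sig ht hv).trans hδ
  have hw : v ∈ Metric.closedBall (P.Uf ε t X) δ :=
    mem_closedBall_iff_norm.2 ((h.cb_supp ht hv).1.trans hδ)
  obtain ⟨⟨h1, -, -, h4, -⟩, h6⟩ := esupp_cond hv
  have hA : 0 < P.A := by linarith [h.A_ge]
  rw [indicator_of_mem hw, h6, Jf, ← ENNReal.ofReal_mul (by positivity)]
  refine ENNReal.ofReal_le_ofReal ?_
  generalize X - t • pr v = y at *
  have hr := h.r_pos
  have hy := hr.trans h1
  have hδ0 := (h.sig_pos ht X).trans_le hδ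
  have h7 : |wd y (pr v)| / δ ≤ ‖y‖ / 2 := by
    have e : wd y (pr v) = wd y (pr v - (P.L / ‖y‖) • y) := by
      simp only [wd, Complex.sub_re, Complex.sub_im, Complex.smul_re, Complex.smul_im, smul_eq_mul]
      ring
    rw [e, div_le_iff₀ hδ0]
    refine (abs_wd_le _ _).trans ?_
    nlinarith
  have h8 : (5 / 2 * ‖y‖)⁻¹ ≤ (‖y‖ + P.r + |wd y (pr v)| / δ)⁻¹ :=
    inv_anti₀ (by positivity) (by linarith)
  have h9 := esupp_rpow hr h1
  have h10 : 0 ≤ (‖y‖ + P.r) ^ (-(3 / 100) : ℝ) := by positivity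
  rw [show (-(103 / 100) : ℝ) = -(1 + 3 / 100) by norm_num, esupp_split hy]
  calc _ ≤ P.A * (103 / 100 * (‖y‖ + P.r) ^ (-(3 / 100) : ℝ) * ‖y‖⁻¹) := by gcongr
    _ = 103 / 40 * P.A * ((‖y‖ + P.r) ^ (-(3 / 100) : ℝ) * (5 / 2 * ‖y‖)⁻¹) := by
        field_simp
        norm_num
    _ ≤ _ := by gcongr; norm_num

theorem wm_le_Jf (ε : Bool) {t : ℝ} (ht : 0 ≤ t) (X : ℂ) (v : R3) :
    P.wm ε t X v ≤ (Metric.closedBall (P.Uf ε t X) (P.del t X)).indicator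
      (fun a => Jf P.r (19 / 800) (P.del t X) (X - t • pr a) (pr a)) v := by
  unfold Par.wm
  split_ifs with hc
  · rw [indicator_of_mem (mem_closedBall_iff_norm.2 hc.1)]
    refine mul_le_of_le_one_right' (ENNReal.ofReal_le_one.2 (Real.exp_le_one_iff.2 ?_))
    exact neg_nonpos.2 (h.Ph_nonneg ε ht X v)
  · exact zero_le

/-- pointwise bound -/
theorem StE_le (ε : Bool) {t : ℝ} (ht : 0 ≤ t) (X : ℂ) (v : R3) : P.StE ε t X v ≤
    ENNReal.ofReal (5 / 2 * (P.A + 1) * (‖X - t • pr v‖ + P.r) ^ (-(103 / 100) : ℝ)) := by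
  have hA : 0 < P.A := by linarith [h.A_ge]
  have hr := h.r_pos
  have hp : 0 < ‖X - t • pr v‖ + P.r := by positivity
  have h1 : P.cb ε t X v ≤
      ENNReal.ofReal (5 / 2 * P.A * (‖X - t • pr v‖ + P.r) ^ (-(103 / 100) : ℝ)) := by
    by_cases hv : P.cb ε t X v = 0
    · rw [hv]
      exact zero_le
    obtain ⟨⟨h1, -⟩, h6⟩ := esupp_cond hv
    rw [h6]
    refine ENNReal.ofReal_le_ofReal ?_
    generalize X - t • pr v = y at *
    have hy := hr.trans h1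
    have h8 : (2 * ‖y‖)⁻¹ ≤ (‖y‖ + P.r)⁻¹ := inv_anti₀ hp (by linarith)
    have h9 := esupp_rpow hr h1
    have h10 : 0 ≤ (‖y‖ + P.r) ^ (-(3 / 100) : ℝ) := by positivity
    rw [show (-(103 / 100) : ℝ) = -(1 + 3 / 100) by norm_num, esupp_split hy, esupp_split hp]
    calc _ ≤ P.A * (103 / 100 * (‖y‖ + P.r) ^ (-(3 / 100) : ℝ) * ‖y‖⁻¹) := by gcongr
      _ = 103 / 50 * P.A * ((‖y‖ + P.r) ^ (-(3 / 100) : ℝ) * (2 * ‖y‖)⁻¹) := by
          field_simp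
          norm_num
      _ ≤ _ := mul_le_mul (by linarith) (mul_le_mul_of_nonneg_left h8 h10) (by positivity)
          (by positivity)
  have h2 : P.wm ε t X v ≤
      ENNReal.ofReal (5 / 2 * (‖X - t • pr v‖ + P.r) ^ (-(103 / 100) : ℝ)) := by
    by_cases hc : P.cut ε t X v
    swap
    · simp only [Par.wm, if_neg hc, zero_le]
    refine (h.wm_le_Jf ε ht X v).trans ((indicator_le_self _ _ _).trans
      (ENNReal.ofReal_le_ofReal ?_))
    have h3 : ‖X - t • pr v‖ + P.r ≤ 1 := by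
      linarith [hc.2.2, h.RW_le, h.T₁_le', h.r_le', h.esupp_r₀]
    have h4 := div_nonneg (abs_nonneg (wd (X - t • pr v) (pr v))) (h.del_pos ht X).le
    generalize ‖X - t • pr v‖ + P.r = y at *
    have h5 : y ^ (-(19 / 800) : ℝ) ≤ y ^ (-(3 / 100) : ℝ) :=
      Real.rpow_le_rpow_of_exponent_ge hp h3 (by norm_num)
    rw [show (-(103 / 100) : ℝ) = -(1 + 3 / 100) by norm_num, esupp_split hp]
    calc _ ≤ y ^ (-(3 / 100) : ℝ) * y⁻¹ :=
          mul_le_mul h5 (inv_anti₀ hp (by linarith)) (by positivity) (by positivity)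
      _ ≤ _ := le_mul_of_one_le_left (by positivity) (by norm_num)
  refine (add_le_add h1 h2).trans (le_of_eq ?_)
  rw [← ENNReal.ofReal_add (by positivity) (by positivity)]
  congr 1
  ring

theorem St_ne_top {t : ℝ} (ht : 0 ≤ t) (x v : R3) : P.St t x v ≠ ⊤ :=
  ENNReal.add_ne_top.2 ⟨ne_top_of_le_ne_top ENNReal.ofReal_ne_top (h.StE_le true ht _ v),
    ne_top_of_le_ne_top ENNReal.ofReal_ne_top (h.StE_le false ht _ v)⟩

theorem Bm_ne_top (t : ℝ) (x v : R3) : P.Bm t x v ≠ ⊤ :=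
  ENNReal.mul_ne_top (by norm_num) (ENNReal.mul_ne_top ENNReal.ofReal_ne_top (h.E0P_ne_top t _ v))

/-- the streams are below the first part of `Sg` -/
theorem St_le {t : ℝ} (ht : t ∈ Icc 0 P.T₁) (x v : R3) : P.St t x v ≤
    if ‖v‖ ≤ 4 ∧ ‖Yt t x v‖ ≤ P.RW then
      ENNReal.ofReal (5 * (P.A + 1) * (‖Yt t x v‖ + P.r) ^ (-(103 / 100) : ℝ)) else 0 := by
  by_cases hv : P.St t x v = 0
  · rw [hv]
    exact zero_le
  obtain ⟨ε, hc⟩ := h.esupp_StP ht.1 hv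
  have hY : Yt t x v = Xr x - t • pr v := Yt_eq (by linarith [hc.2.2, h.RW_le, h.T₁_le'])
  rw [hY, if_pos ⟨by linarith [(h.cut_supp ht hc).1], hc.2.2⟩]
  refine (add_le_add (h.StE_le true ht.1 _ v) (h.StE_le false ht.1 _ v)).trans (le_of_eq ?_)
  have hA : 0 < P.A := by linarith [h.A_ge]
  have hr := h.r_pos
  rw [← ENNReal.ofReal_add (by positivity) (by positivity)]
  congr 1
  ring

private theorem esupp_lift {y v : R3} (hy : ‖Xr y‖ ≤ 3 * P.T₁) (hv : ‖pr v‖ ≤ 2 * P.L) {u : ℝ}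
    (hu : u ∈ Icc 0 P.T₁) : Xr (y + u • v) = Xr y + u • pr v := by
  refine Xr_add ?_
  rw [abs_of_nonneg hu.1]
  have h6 : u * ‖pr v‖ ≤ P.T₁ * 1 :=
    mul_le_mul hu.2 (by linarith [h.L_le']) (norm_nonneg _) h.T₁_pos.le
  linarith [h.T₁_le']

/-- free transport of the cold particles on the torus (both sides vanish unless all lifts are
valid) -/
theorem cb_char (ε : Bool) {t : ℝ} (ht : t ∈ Icc 0 P.T₁) (y v : R3) :
    P.cb ε t (Xr (y + t • v)) v = P.cold0 P.r ε (Xr y) v := by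
  by_cases h1 : P.cb ε t (Xr (y + t • v)) v = 0
  · by_cases h2 : P.cold0 P.r ε (Xr y) v = 0
    · rw [h1, h2]
    have h3 : P.cb ε 0 (Xr y) v ≠ 0 := by simpa only [Par.cb, zero_smul, sub_zero] using h2
    obtain ⟨-, h4, h5, -⟩ := h.cut_supp ⟨le_rfl, h.T₁_pos.le⟩ (h.cb_cut le_rfl h3).1
    simp only [Par.cb, h.esupp_lift h5 h4 ht, add_sub_cancel_right]
  · have h2 := (h.cb_supp ht.1 h1).2.2.2.1
    have h3 := Yt_eq (h2.trans_lt (by linarith [h.esupp_r₀]))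
    rw [Yt_char] at h3
    rw [h3]
    rfl

/-- a characteristic on which `cut` holds once stays in the chart -/
theorem cut_lift {ε : Bool} {s : ℝ} (hs : s ∈ Icc 0 P.T₁) {y v : R3}
    (hc : P.cut ε s (Xr (y + s • v)) v) {u : ℝ} (hu : u ∈ Icc 0 P.T₁) :
    Xr (y + u • v) = Xr y + u • pr v := by
  have h3 := Yt_eq (hc.2.2.trans_lt (by linarith [h.RW_le, h.T₁_le']))
  rw [Yt_char] at h3
  refine h.esupp_lift ?_ (h.cut_supp hs hc).2.1 hu
  rw [h3]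
  linarith [hc.2.2, h.RW_le, h.T₁_pos]

/-- where the streams live, the indicator in `Ew` is `1` -/
theorem Ew_eq (ε : Bool) {t : ℝ} (ht : t ∈ Icc 0 P.T₁) {X : ℂ} (hX : ‖X‖ ≤ 3 * P.T₁) (v : R3) :
    P.Ew ε t X v = P.Omn (P.wn ε t X v) := by
  unfold Par.Ew
  split_ifs with hc
  · rfl
  · refine (h.Omn_zero (not_le.1 fun hw => hc ?_)).symm
    have h1 := norm_le_norm_sub_add (pr v) (uf P.L t X)
    have h2 : ‖pr v‖ ≤ 2 := by
      linarith [h.wn_ge_pr ε t X v, norm_uf_le h.L_pos ht.1 X, h.L_le']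
    have h5 := norm_sub_le X (t • pr v)
    rw [norm_smul, Real.norm_of_nonneg ht.1] at h5
    have h6 : t * ‖pr v‖ ≤ P.T₁ * 2 := mul_le_mul ht.2 h2 (norm_nonneg _) h.T₁_pos.le
    linarith [h.T₁_pos]

end Par.Ok

end

end Crest.Agent.R68
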