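import Crest.Agent.R68.A8
import Crest.Agent.R68.ESupp

/-!
# R68 (S0091): collisions between hot particles
-/

set_option autoImplicit false

namespace Crest.Agent.R68

open MeasureTheory Set Filter Crest.AnalysisR.VecCalc3 Crest.AnalysisR.PDE.Boltzmann
open scoped ENNReal _root_.Topology

noncomputable section

theorem ehh_big (K : P15 → ℝ≥0∞) (hK : ∀ Q, K Q ≠ ⊤) : ∀ᶠ P in 𝓕, K P.toP15 ≤ ENNReal.ofReal P.C₃ :=
  (big_C3 fun Q => (K Q).toReal).mono fun _ h =>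
    (ENNReal.ofReal_toReal (hK _)).ge.trans (ENNReal.ofReal_le_ofReal h)

theorem ehh_D (x : ℝ) : 1 + ENNReal.ofReal x ≠ ⊤ :=
  ENNReal.add_ne_top.2 ⟨ENNReal.one_ne_top, ENNReal.ofReal_ne_top⟩

/-- `E0P_le_Ws`, `Qp_hot`, `Nu_hot` -/
theorem Qp_E0 : ∀ᶠ P in 𝓕, ∀ t ∈ Icc 0 P.T₁, ∀ X v,
    Qp (P.E0P t X) (P.E0P t X) v ≤ ENNReal.ofReal P.C₃ * (br v * Gs (1 / 2 - t) v) ∧
      Nu (P.E0P t X) v ≤ ENNReal.ofReal P.C₃ * br v := by
  obtain ⟨C, hC, h1⟩ := Qp_hot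
  obtain ⟨C', hC', h2⟩ := Nu_hot
  filter_upwards [ev_ok, ehh_big (fun Q => C * (1 + ENNReal.ofReal (Q.δ₁⁻¹ ^ Q.Γ)) ^ 2)
      fun Q => ENNReal.mul_ne_top hC (ENNReal.pow_ne_top (ehh_D _)),
    ehh_big (fun Q => C' * (1 + ENNReal.ofReal (Q.δ₁⁻¹ ^ Q.Γ))) fun Q => ENNReal.mul_ne_top hC' (ehh_D _)]
    with P h k1 k2 t ht X v
  have hT := h.T₁_le'
  have hθ : 1 / 2 - t ∈ Icc (1 / 10 : ℝ) 1 := ⟨by linarith [ht.2], by linarith [ht.1]⟩
  have hu : ∀ ε, ‖P.Uf ε t X‖ ≤ 2 := fun ε => (h.norm_Uf_le ε ht.1 X).trans (by norm_num)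
  exact ⟨((Qp_mono (h.E0P_le_Ws t X) (h.E0P_le_Ws t X) v).trans (h1 _ hθ _ _ _ (hu _) (hu _) v)).trans
      (mul_le_mul_left k1 _),
    ((Nu_mono (h.E0P_le_Ws t X) v).trans (h2 _ hθ _ _ _ (hu _) (hu _) v)).trans (mul_le_mul_left k2 _)⟩

/-- Along a collision `(a, ω)`: `om(v') om(v*') ≤ om(v') ≤ 2^{μω} e^{3‖a‖} om(v)` (`om_le_exp'`,
`‖v'‖ ≤ ‖v‖ + ‖a‖` by `coll_energy`), `G_θ(v')G_θ(v*') = G_{θ/2}(v) G_{θ/2}(a) G_{θ/2}(v') G_{θ/2}(v*')`
(`Gs_coll`), `e^{3‖a‖} G_{θ/2}(a) ≤ e^{19}`.  `Qp_le_mul`, then `Qp_hot` with `θ/2`. -/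
theorem Qp_Bm : ∀ᶠ P in 𝓕, ∀ t ∈ Icc 0 P.T₁, ∀ x v, Qp (P.Bm t x) (P.Bm t x) v ≤
    ENNReal.ofReal P.C₃ * ENNReal.ofReal (P.om t x v) * (br v * Gs (1 / 2 - t) v) := by
  obtain ⟨C, hC, h1⟩ := Qp_hot
  filter_upwards [ev_ok, ehh_big (fun Q => 4 * ENNReal.ofReal (2 ^ Q.μω * Real.exp 23) *
      (C * (1 + ENNReal.ofReal (Q.δ₁⁻¹ ^ Q.Γ)) ^ 2))
      fun Q => ENNReal.mul_ne_top (ENNReal.mul_ne_top (by norm_num) ENNReal.ofReal_ne_top)
        (ENNReal.mul_ne_top hC (ENNReal.pow_ne_top (ehh_D _)))] with P h k1 t ht x v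
  have hT := h.T₁_le'
  have hθ : (1 / 2 - t) / 2 ∈ Icc (1 / 10 : ℝ) 1 := ⟨by linarith [ht.2], by linarith [ht.1]⟩
  have hu : ∀ ε, ‖P.Uf ε t (Xr x)‖ ≤ 2 := fun ε => (h.norm_Uf_le ε ht.1 _).trans (by norm_num)
  have hG : ∀ a, Gs (1 / 2 - t) a = Gs ((1 / 2 - t) / 2) a * Gs ((1 / 2 - t) / 2) a := fun a => by
    rw [← Gs_add, add_halves]
  obtain ⟨W, hW⟩ : ∃ W : VF, W = fun a => 1 + ENNReal.ofReal (P.δ₁⁻¹ ^ P.Γ) *
    (Ws (P.Uf true t (Xr x)) a + Ws (P.Uf false t (Xr x)) a) := ⟨_, rfl⟩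
  have hm : Measurable fun a => W a * Gs ((1 / 2 - t) / 2) a := by
    rw [hW]
    exact (measurable_const.add (((emeas_Ws measurable_const measurable_id).add (emeas_Ws measurable_const measurable_id)).const_mul _)).mul 
      (emeas_Gs measurable_const measurable_id)
  have hE : ∀ a, P.E0 t x a ≤ W a * Gs (1 / 2 - t) a := fun a => hW ▸ h.E0P_le_Ws t (Xr x) a
  have h2 : Qp (fun a => W a * Gs ((1 / 2 - t) / 2) a) (fun a => W a * Gs ((1 / 2 - t) / 2) a) v ≤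
      C * (1 + ENNReal.ofReal (P.δ₁⁻¹ ^ P.Γ)) ^ 2 * (br v * Gs ((1 / 2 - t) / 2) v) :=
    hW ▸ h1 _ hθ _ _ _ (hu _) (hu _) v
  have h3 := Qp_le_mul (f := P.Bm t x) (g := P.Bm t x) hm hm v
    (4 * (ENNReal.ofReal (2 ^ P.μω * Real.exp 23) * ENNReal.ofReal (P.om t x v)) * Gs ((1 / 2 - t) / 2) v)
    fun a ω hω => by
      have e1 : ‖postVel v a ω‖ ≤ ‖v‖ + ‖a‖ := by
        refine abs_le_of_sq_le_sq' ?_ (by positivity) |>.2
        nlinarith [coll_energy v a ω hω, sq_nonneg ‖postVelStar v a ω‖, mul_nonneg (norm_nonneg v) (norm_nonneg a)]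
      have e2 : ENNReal.ofReal (P.om t x (postVel v a ω)) * Gs ((1 / 2 - t) / 2) a ≤
          ENNReal.ofReal (2 ^ P.μω * Real.exp 23) * ENNReal.ofReal (P.om t x v) := by
        rw [Gs, ← ENNReal.ofReal_mul (h.om_nonneg ht.1 _ _), ← ENNReal.ofReal_mul (by positivity)]
        refine ENNReal.ofReal_le_ofReal ((mul_le_mul_of_nonneg_right
          (h.om_le_exp' ht.1 x v _ (norm_nonneg a) e1) (Real.exp_pos _).le).trans ?_)
        rw [mul_right_comm, mul_assoc (2 ^ P.μω), ← Real.exp_add]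
        refine mul_le_mul_of_nonneg_right (mul_le_mul_of_nonneg_left (Real.exp_le_exp.2 ?_) (by positivity))
          (h.om_nonneg ht.1 _ _)
        nlinarith [sq_nonneg (‖a‖ - 15), mul_nonneg (show 0 ≤ 1 / 10 - t by linarith [ht.2]) (sq_nonneg ‖a‖)]
      have e3 : ENNReal.ofReal (P.om t x (postVelStar v a ω)) ≤ 1 := ENNReal.ofReal_le_one.2 (h.om_le_one _ _ _)
      calc P.Bm t x (postVel v a ω) * P.Bm t x (postVelStar v a ω)
          ≤ 2 * (ENNReal.ofReal (P.om t x (postVel v a ω)) * (W (postVel v a ω) * Gs (1 / 2 - t) (postVel v a ω))) *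
            (2 * (1 * (W (postVelStar v a ω) * Gs (1 / 2 - t) (postVelStar v a ω)))) := by
            unfold Par.Bm
            gcongr
            exacts [hE _, hE _]
        _ = 4 * ENNReal.ofReal (P.om t x (postVel v a ω)) *
            (Gs ((1 / 2 - t) / 2) (postVel v a ω) * Gs ((1 / 2 - t) / 2) (postVelStar v a ω)) *
            (W (postVel v a ω) * Gs ((1 / 2 - t) / 2) (postVel v a ω) *
              (W (postVelStar v a ω) * Gs ((1 / 2 - t) / 2) (postVelStar v a ω))) := by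
            rw [hG, hG (postVelStar v a ω)]
            ring
        _ = 4 * (ENNReal.ofReal (P.om t x (postVel v a ω)) * Gs ((1 / 2 - t) / 2) a) * Gs ((1 / 2 - t) / 2) v *
            (W (postVel v a ω) * Gs ((1 / 2 - t) / 2) (postVel v a ω) *
              (W (postVelStar v a ω) * Gs ((1 / 2 - t) / 2) (postVelStar v a ω))) := by
            rw [Gs_coll _ _ _ _ hω]
            ring
        _ ≤ _ := by gcongr
  calc _ ≤ _ := h3.trans (mul_le_mul_right h2 _)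
    _ = 4 * ENNReal.ofReal (2 ^ P.μω * Real.exp 23) * (C * (1 + ENNReal.ofReal (P.δ₁⁻¹ ^ P.Γ)) ^ 2) *
        ENNReal.ofReal (P.om t x v) * (br v * Gs (1 / 2 - t) v) := by
      rw [hG]
      ring
    _ ≤ _ := by gcongr

theorem lintegral_br_half {t : ℝ} (ht : t ∈ Icc (0 : ℝ) 1) (v : R3) :
    ∫⁻ s in Ioo 0 t, br v * Gs (1 / 2 - s) v ≤ ENNReal.ofReal (3 * √t) * Gs (1 / 2 - t) v := by
  have e : ∀ s, br v * Gs (1 / 2 - s) v = br v * Gs (t - s) v * Gs (1 / 2 - t) v := fun s => by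
    rw [mul_assoc, ← Gs_add]
    congr 2
    ring
  simp only [e]
  rw [lintegral_mul_const' _ _ (Gs_ne_top _ _)]
  have h := lintegral_br_decay ht.1 (by linarith [ht.2]) v
  rw [sub_zero] at h
  exact mul_le_mul_left h _

/-- `Bm ≤ 2 E0`, `z mm ≤ 1` (`a_mm_le`), `mm_mono`, `Qp_E0`, `15 C₃ √T₁ ≤ 1/C₄` -/
theorem small_terms : ∀ᶠ P in 𝓕, ∀ z ∈ Icc 0 (2 * P.a), ∀ g : PF,
    (∀ s ∈ Ioo 0 P.T₁, ∀ x v, g s x v ≤ ENNReal.ofReal (z * P.mm s) * P.E0 s x v) →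
    ∀ t ∈ Icc 0 P.T₁, ∀ y v : R3,
    ∫⁻ s in Ioo 0 t, (2 * Qp (P.Bm s (y + s • v)) (g s (y + s • v)) v +
      Qp (g s (y + s • v)) (g s (y + s • v)) v) ≤
      ENNReal.ofReal (z * P.mm t / P.C₄) * P.E0 t (y + t • v) v := by
  filter_upwards [ev_ok, Qp_E0, a_mm_le, small_T1 (fun Q => 15 * Q.C₃ * Q.C₄) (c := 1 / 2) (by norm_num)]
    with P h k1 k2 k3 z hz g hg t ht y v
  have hT := h.T₁_le'
  have hm := h.mm_pos ht.1
  have hC3 := h.C₃_ge'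
  have hC4 := h.C₄_ge'
  have hZ : ENNReal.ofReal (z * P.mm t) ≤ 1 := by
    refine ENNReal.ofReal_le_one.2 ?_
    have := k2 t ht
    have := h.e₀_le
    have := h.L_le'
    nlinarith [mul_le_mul_of_nonneg_right hz.2 hm.le, mul_pos h.a_pos hm]
  have h1 : ∀ s ∈ Ioo 0 t, ∀ x, 2 * Qp (P.Bm s x) (g s x) v + Qp (g s x) (g s x) v ≤
      5 * ENNReal.ofReal (z * P.mm t) * ENNReal.ofReal P.C₃ * (br v * Gs (1 / 2 - s) v) := by
    intro s hs x
    have hE := P.mE0P s (Xr x)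
    have e1 : ∀ a, g s x a ≤ ENNReal.ofReal (z * P.mm t) * P.E0P s (Xr x) a := fun a =>
      (hg s ⟨hs.1, hs.2.trans_le ht.2⟩ x a).trans (mul_le_mul_left (ENNReal.ofReal_le_ofReal
        (mul_le_mul_of_nonneg_left (h.mm_mono hs.1.le hs.2.le) hz.1)) _)
    have e2 : ∀ a, P.Bm s x a ≤ 2 * P.E0P s (Xr x) a := fun a =>
      mul_le_mul_right (mul_le_of_le_one_left' (ENNReal.ofReal_le_one.2 (h.om_le_one _ _ _))) _
    have e3 : ∀ a, g s x a ≤ P.E0P s (Xr x) a := fun a => (e1 a).trans (mul_le_of_le_one_left' hZ)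
    have e4 := Qp_le_mul (f := P.Bm s x) (g := g s x) hE hE v (2 * ENNReal.ofReal (z * P.mm t))
      fun a ω _ => (mul_le_mul' (e2 _) (e1 _)).trans_eq (by ring)
    have e5 := Qp_le_mul (f := g s x) (g := g s x) hE hE v (ENNReal.ofReal (z * P.mm t))
      fun a ω _ => (mul_le_mul' (e3 _) (e1 _)).trans_eq (by ring)
    have e6 := (k1 s ⟨hs.1.le, hs.2.le.trans ht.2⟩ (Xr x) v).1
    calc _ ≤ _ := add_le_add (mul_le_mul_right (e4.trans (mul_le_mul_right e6 _)) 2)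
          (e5.trans (mul_le_mul_right e6 _))
      _ = _ := by ring
  refine (setLIntegral_mono' measurableSet_Ioo fun s hs => h1 s hs _).trans ?_
  rw [lintegral_const_mul' _ _ (ENNReal.mul_ne_top (ENNReal.mul_ne_top (by norm_num) ENNReal.ofReal_ne_top)
    ENNReal.ofReal_ne_top)]
  refine (mul_le_mul_right ((lintegral_br_half ⟨ht.1, by linarith [ht.2]⟩ v).trans
    (mul_le_mul_right (h.Gs_le_E0P (Xr (y + t • v)) v) _)) _).trans ?_
  rw [← mul_assoc]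
  refine mul_le_mul_left ?_ _
  have hz0 := mul_nonneg hz.1 hm.le
  rw [← ENNReal.ofReal_ofNat 5, ← ENNReal.ofReal_mul (by norm_num), ← ENNReal.ofReal_mul (by positivity),
    ← ENNReal.ofReal_mul (by positivity)]
  refine ENNReal.ofReal_le_ofReal ?_
  rw [le_div_iff₀ (by linarith)]
  have e1 : 15 * P.C₃ * P.C₄ * √t ≤ 1 := by
    refine le_trans (mul_le_mul_of_nonneg_left (Real.sqrt_le_sqrt ht.2) (by nlinarith)) ?_
    rw [Real.sqrt_eq_rpow]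
    exact k3
  nlinarith [mul_le_mul_of_nonneg_left e1 hz0]

end

end Crest.Agent.R68
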