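import Crest.Agent.R68.ENL
import Crest.Agent.R68.EHH

/-!
# R68 (S0091): the background majorant

Fix a characteristic `(y, v)`, `Y = Xr y`, `k = μω + 2‖v‖`, `q(s) = (‖Y‖ + th(s) k)/r₁`, so
`om(s) = min 1 (q(s)^μω)` (`Yt_char`).  By `om_le_exp` and `NL` (with `c = 2 om`):
`br · 2 Qp St Bm ≤ 2 om(s) N L/mx · E0`.
-/

set_option autoImplicit false

namespace Crest.Agent.R68

open MeasureTheory Set Filter Crest.AnalysisR.VecCalc3 Crest.AnalysisR.PDE.Boltzmann
open scoped ENNReal _root_.Topology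

noncomputable section

theorem eb_div {w a : ℝ} (hw : 0 ≤ w) {Z E : ℝ≥0∞}
    (h : ENNReal.ofReal (1 + w) * Z ≤ ENNReal.ofReal a * E) {b : ℝ} (hb : a ≤ (1 + w) * b) :
    Z ≤ ENNReal.ofReal b * E := by
  have h0 : ENNReal.ofReal (1 + w) ≠ 0 := by
    rw [ne_eq, ENNReal.ofReal_eq_zero]
    linarith
  refine (ENNReal.mul_le_mul_iff_right h0 ENNReal.ofReal_ne_top).1 (h.trans ?_)
  rw [← mul_assoc, ← ENNReal.ofReal_mul (by linarith)]
  gcongr

theorem eb_lt {N L r mx th X Y w n q o : ℝ} {m : ℕ} (hN : 0 ≤ N) (hL : 0 < L) (hL1 : L ≤ n)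
    (hr : 0 < r) (hth : 0 < th) (hX : X ≤ mx) (hm : L * th ≤ mx) (hw : 0 ≤ w) (hY0 : 0 ≤ Y)
    (hY : Y ≤ X + th * w) (hn : 8 * N ≤ n) (hq : q = (Y + th * (n + 2 * w)) / r)
    (ho : o ≤ q ^ (m + 1)) :
    2 * o * (N * L / mx) ≤ (1 + w) * (n * q ^ m * ((n + 2 * w) / r) / 2) := by
  have hmx : 0 < mx := lt_of_lt_of_le (by positivity) hm
  have hn0 : 0 < n := lt_of_lt_of_le hL hL1
  have hq0 : 0 ≤ q := by rw [hq]; positivity
  have h1 : q * r = Y + th * (n + 2 * w) := by rw [hq]; field_simp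
  have h2 : L * (q * r) ≤ 2 * mx * (n + 2 * w) := by
    have a1 : L * Y ≤ L * X + L * th * w := by nlinarith
    have a2 : L * X ≤ n * mx := by
      calc L * X ≤ L * mx := by gcongr
        _ ≤ n * mx := by gcongr
    have a3 : L * th * w ≤ mx * w := by gcongr
    have a4 : L * th * (n + 2 * w) ≤ mx * (n + 2 * w) := by gcongr
    have a5 : 0 ≤ mx * w := by positivity
    rw [h1]
    nlinarith
  have h3 : q * (L / mx) ≤ 2 * ((n + 2 * w) / r) := by
    rw [← mul_div_assoc, ← mul_div_assoc, div_le_div_iff₀ hmx hr]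
    nlinarith
  have hk : 0 ≤ (n + 2 * w) / r := by positivity
  have hqm : 0 ≤ q ^ m := by positivity
  calc 2 * o * (N * L / mx) ≤ 2 * q ^ (m + 1) * (N * L / mx) := by gcongr
    _ = 2 * N * q ^ m * (q * (L / mx)) := by ring
    _ ≤ 2 * N * q ^ m * (2 * ((n + 2 * w) / r)) := by gcongr
    _ = (8 * N) * q ^ m * ((n + 2 * w) / r) / 2 := by ring
    _ ≤ n * q ^ m * ((n + 2 * w) / r) / 2 := by gcongr
    _ ≤ _ := le_mul_of_one_le_left (by positivity) (by linarith)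

theorem eb_ge {N L r mx th X Y w n o C : ℝ} (hN : 0 ≤ N) (hL : 0 < L) (hn : 0 ≤ n)
    (hr : 0 < r) (hth : 0 < th) (hX : X ≤ r / 2) (hm : L * th ≤ mx) (hw : 0 ≤ w)
    (hY : Y ≤ X + th * w) (hq : 1 ≤ (Y + th * (n + 2 * w)) / r) (ho : o ≤ 1)
    (hC : 4 * N * (n + 3) / r ≤ C) :
    2 * o * (N * L / mx) ≤ (1 + w) * C := by
  have hmx : 0 < mx := lt_of_lt_of_le (by positivity) hm
  rw [le_div_iff₀ hr] at hq
  have h1 : r ≤ 2 * th * ((n + 3) * (1 + w)) := by
    have a1 : 0 ≤ th * (n * w) := by positivity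
    nlinarith
  have h2 : L / mx ≤ 2 * ((n + 3) * (1 + w)) / r := by
    rw [div_le_div_iff₀ hmx hr]
    calc L * r ≤ L * (2 * th * ((n + 3) * (1 + w))) := by gcongr
      _ = 2 * ((n + 3) * (1 + w)) * (L * th) := by ring
      _ ≤ _ := by gcongr
  calc 2 * o * (N * L / mx) ≤ 2 * 1 * (N * L / mx) := by gcongr
    _ = 2 * N * (L / mx) := by ring
    _ ≤ 2 * N * (2 * ((n + 3) * (1 + w)) / r) := by gcongr
    _ = (1 + w) * (4 * N * (n + 3) / r) := by ring
    _ ≤ _ := by gcongr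

theorem eb_mu (P : Par) : (P.μω : ℝ) = 8 * P.N + 12 := by
  simp [P14.μω]

/-- Pointwise bound.  If `q < 1`: `r₁ q ≤ ‖X‖ + th (μω + 3‖v‖) ≤ mx (L + μω + 3‖v‖)/L ≤ 2 mx k/L`, so
`2 q^μω N L/mx ≤ 4 N q^{μω-1} k/r₁ ≤ ½ μω q^{μω-1} k/r₁`.  If `q ≥ 1` and `St s x ≠ 0` then
`‖X‖ ≤ 3T₁ ≤ r₁/2`, `r₁ ≤ 3T₁ + th (μω + 3‖v‖)`, so `2N/(th br) ≤ 4N(μω+3)/r₁ ≤ C₃`. -/
theorem src_B : ∀ᶠ P in 𝓕, ∀ s ∈ Icc 0 P.T₁, ∀ x v : R3,
    2 * Qp (P.St s x) (P.Bm s x) v ≤ ENNReal.ofReal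
      (if (‖Yt s x v‖ + P.th s * (P.μω + 2 * ‖v‖)) / P.r₁ < 1 then
        P.μω * ((‖Yt s x v‖ + P.th s * (P.μω + 2 * ‖v‖)) / P.r₁) ^ (P.μω - 1) *
          ((P.μω + 2 * ‖v‖) / P.r₁) / 2 else P.C₃) * P.E0 s x v := by
  filter_upwards [ev_ok, NL, big_C3 fun Q => 4 * Q.N * (Q.μω + 3) / Q.r₁] with P hP hNL hC s hs x v
  have hom := hP.om_nonneg hs.1 x v
  have h1 := hNL s hs (Xr x) (P.Bm s x) (P.meas_Bm.slice s x) v
    (ENNReal.ofReal (2 * P.om s x v)) fun a => by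
      have h2 := hP.om_le_exp hs.1 x v a
      rw [← mul_assoc, ← ENNReal.ofReal_mul (by positivity), mul_assoc (2 : ℝ),
        ENNReal.ofReal_mul zero_le_two, ENNReal.ofReal_ofNat, Par.Bm, ← mul_assoc]
      refine mul_le_mul' (mul_le_mul' le_rfl (ENNReal.ofReal_le_ofReal ?_)) le_rfl
      linarith
  rw [← ENNReal.ofReal_mul (by positivity)] at h1
  have hth := hP.th_pos hs.1
  have hN : (0 : ℝ) ≤ P.N := Nat.cast_nonneg _
  have hY : ‖Yt s x v‖ ≤ ‖Xr x‖ + P.th s * ‖v‖ := by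
    refine (norm_Yt_le hs.1 x v).trans (add_le_add le_rfl (mul_le_mul ?_ (norm_pr_le v)
      (norm_nonneg _) hth.le))
    have := hP.r_pos
    have := hP.L_pos
    unfold Par.th
    exact le_add_of_nonneg_right (by positivity)
  split_ifs with hq
  · refine eb_div (norm_nonneg v) h1 (eb_lt hN hP.L_pos ?_ hP.r₁_pos hth (le_max_left _ _)
      (le_max_right _ _) (norm_nonneg v) (norm_nonneg _) hY ?_ rfl ?_)
    · rw [eb_mu]
      linarith [hP.L_le']
    · rw [eb_mu]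
      linarith
    · rw [show P.μω - 1 + 1 = P.μω from rfl]
      exact min_le_right _ _
  · by_cases h0 : ∀ a, P.StP s (Xr x) a = 0
    · rw [show P.St s x = fun _ => 0 from funext h0, Qp_zero_left, mul_zero]
      exact zero_le
    · obtain ⟨a, ha⟩ := not_forall.1 h0
      refine eb_div (norm_nonneg v) h1 (eb_ge hN hP.L_pos (Nat.cast_nonneg _) hP.r₁_pos hth ?_
        (le_max_right _ _) (norm_nonneg v) hY (not_lt.1 hq) (hP.om_le_one s x v) hC)
      have := (hP.StP_supp hs ha).2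
      have := hP.T₁_le_r
      have := hP.T₁_pos
      linarith

/-- `∫₀ᵗ 1_{q<1} (q^n)' ≤ min 1 (q(t)^n)` for an increasing affine function `q ≥ 0` -/
theorem lintegral_pow_deriv {q₀ k t : ℝ} (hq : 0 ≤ q₀) (hk : 0 < k) (ht : 0 ≤ t) {n : ℕ}
    (hn : 1 ≤ n) :
    ∫⁻ s in Ioo 0 t, ENNReal.ofReal (if q₀ + k * s < 1 then n * (q₀ + k * s) ^ (n - 1) * k else 0) ≤
      ENNReal.ofReal (min 1 ((q₀ + k * t) ^ n)) := by
  set t' := min t ((1 - q₀) / k) with ht'
  have h1 : ∫⁻ s in Ioo 0 t, ENNReal.ofReal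
      (if q₀ + k * s < 1 then n * (q₀ + k * s) ^ (n - 1) * k else 0) ≤
      ∫⁻ s in Ioo 0 t', ENNReal.ofReal (n * (q₀ + k * s) ^ (n - 1) * k) := by
    rw [← lintegral_indicator measurableSet_Ioo, ← lintegral_indicator measurableSet_Ioo]
    refine lintegral_mono fun s => ?_
    by_cases hs : s ∈ Ioo 0 t
    · rw [indicator_of_mem hs]
      split_ifs with h
      · have : s ∈ Ioo 0 t' := ⟨hs.1, lt_min hs.2 (by rw [lt_div_iff₀ hk]; linarith)⟩
        rw [indicator_of_mem this]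
      · simp
    · rw [indicator_of_notMem hs]
      exact zero_le
  refine h1.trans ?_
  rcases le_or_gt t' 0 with h0 | h0
  · rw [Ioo_eq_empty (not_lt.2 h0)]
    simp
  have hc : Continuous fun s : ℝ => n * (q₀ + k * s) ^ (n - 1) * k := by fun_prop
  rw [← ofReal_integral_eq_lintegral_ofReal
    (hc.continuousOn.integrableOn_Icc.mono_set Ioo_subset_Icc_self)
    ((ae_restrict_iff' measurableSet_Ioo).2 (Eventually.of_forall fun s hs => by
      have := hs.1
      positivity)), ← integral_Ioc_eq_integral_Ioo, ← intervalIntegral.integral_of_le h0.le,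
    intervalIntegral.integral_eq_sub_of_hasDerivAt (f := fun s => (q₀ + k * s) ^ n)
      (fun s _ => ((((hasDerivAt_id s).const_mul k).const_add q₀).pow n).congr_deriv (by simp))
      (hc.intervalIntegrable _ _)]
  refine ENNReal.ofReal_le_ofReal ?_
  have h2 : 0 ≤ (q₀ + k * 0) ^ n := by positivity
  have h3 : 0 ≤ q₀ + k * t' := by positivity
  have h4 : q₀ + k * t' ≤ 1 := by
    have := (le_div_iff₀ hk).1 (min_le_right t ((1 - q₀) / k))
    linarith
  have h5 : (q₀ + k * t') ^ n ≤ (q₀ + k * t) ^ n := by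
    gcongr
    exact min_le_left _ _
  have h6 := pow_le_one₀ (n := n) h3 h4
  exact le_min (by linarith) (by linarith)

theorem eb_fac {n w r q C : ℝ} {m : ℕ} (hn : 0 ≤ n) (hw : 0 ≤ w) (hr : 0 < r) (hq0 : 0 ≤ q)
    (hC : n * (n + 2) / r ≤ C) :
    (if q < 1 then n * q ^ m * ((n + 2 * w) / r) / 2 else C) ≤ C * (1 + w) := by
  have h0 : 0 ≤ n * (n + 2) / r := by positivity
  split_ifs with h
  · have h1 := pow_le_one₀ (n := m) hq0 h.le
    have h2 : n + 2 * w ≤ (n + 2) * (1 + w) := by nlinarith [mul_nonneg hn hw]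
    calc n * q ^ m * ((n + 2 * w) / r) / 2 ≤ n * 1 * ((n + 2) * (1 + w) / r) / 1 := by
          gcongr
          norm_num
      _ = n * (n + 2) / r * (1 + w) := by ring
      _ ≤ _ := by gcongr
  · exact le_mul_of_one_le_right (h0.trans hC) (by linarith)

/-- First bound: `½ + C₃ T₁ + 3 C₃ √T₁ ≤ 7/8` (when `q(s) ≥ 1`, `om(t) = 1`; `E0_mono`, `om_mono`,
`Qp_Bm`, `lintegral_br_half`).  Second bound: the factor in `src_B` is at most `C₃ br`. -/
theorem B_int : ∀ᶠ P in 𝓕, ∀ t ∈ Icc 0 P.T₁, ∀ y v : R3,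
    (∫⁻ s in Ioo 0 t, (2 * Qp (P.St s (y + s • v)) (P.Bm s (y + s • v)) v +
        Qp (P.Bm s (y + s • v)) (P.Bm s (y + s • v)) v) ≤
      ENNReal.ofReal (7 / 8 * P.om t (y + t • v) v) * P.E0 t (y + t • v) v) ∧
    (∫⁻ s in Ioo 0 t, (2 * Qp (P.St s (y + s • v)) (P.Bm s (y + s • v)) v +
        Qp (P.Bm s (y + s • v)) (P.Bm s (y + s • v)) v) ≤
      ENNReal.ofReal (P.C₃ * P.T₁) * (br v * P.E0 t (y + t • v) v) +
        ENNReal.ofReal (3 * P.C₃ * √P.T₁) * Gs (1 / 2 - t) v) := by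
  filter_upwards [ev_ok, src_B, Qp_Bm, big_C3 fun Q => Q.μω * (Q.μω + 2) / Q.r₁,
    small_T1 (fun Q => 16 * Q.C₃) (c := 1 / 2) (by norm_num)] with P hP hS hQ hC hT t ht y v
  have hC0 : 0 ≤ P.C₃ := by linarith [hP.C₃_ge']
  have hT1 : P.T₁ ≤ 1 := by linarith [hP.T₁_le']
  have hT0 := hP.T₁_pos
  have hr := hP.r₁_pos
  have hL := hP.L_pos
  have hr' := hP.r_pos
  have hn : (0 : ℝ) < P.μω := by
    rw [eb_mu]
    positivity
  have hI : ∀ s ∈ Ioo 0 t, s ∈ Icc 0 P.T₁ := fun s hs => ⟨hs.1.le, hs.2.le.trans ht.2⟩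
  have hG := lintegral_br_half ⟨ht.1, ht.2.trans hT1⟩ v
  have hGm : Measurable fun s : ℝ => br v * Gs (1 / 2 - s) v := by fun_prop
  have hG' : ∀ c : ℝ, 0 ≤ c → ∫⁻ s in Ioo 0 t, ENNReal.ofReal c * (br v * Gs (1 / 2 - s) v) ≤
      ENNReal.ofReal (3 * c * √P.T₁) * Gs (1 / 2 - t) v := by
    intro c hc
    rw [lintegral_const_mul _ hGm]
    refine (mul_le_mul' le_rfl hG).trans ?_
    rw [← mul_assoc, ← ENNReal.ofReal_mul hc]
    refine mul_le_mul' (ENNReal.ofReal_le_ofReal ?_) le_rfl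
    have := Real.sqrt_le_sqrt ht.2
    nlinarith
  have hconst : ∀ (c : ℝ) (E : ℝ≥0∞), 0 ≤ c →
      ∫⁻ _ in Ioo 0 t, ENNReal.ofReal c * E ≤ ENNReal.ofReal (c * P.T₁) * E := by
    intro c E hc
    rw [setLIntegral_const, Real.volume_Ioo, mul_right_comm, ← ENNReal.ofReal_mul hc]
    refine mul_le_mul' (ENNReal.ofReal_le_ofReal ?_) le_rfl
    have := ht.2
    gcongr
    linarith
  constructor
  · set q₀ : ℝ := (‖Xr y‖ + P.r / P.L * (P.μω + 2 * ‖v‖)) / P.r₁ with hq₀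
    set k : ℝ := (P.μω + 2 * ‖v‖) / P.r₁ with hk
    have hk0 : 0 < k := by positivity
    have hq : ∀ s, (‖Yt s (y + s • v) v‖ + P.th s * (P.μω + 2 * ‖v‖)) / P.r₁ = q₀ + k * s := by
      intro s
      rw [Yt_char, Par.th, hq₀, hk]
      ring
    set o := P.om t (y + t • v) v with ho
    have ho0 : 0 ≤ o := hP.om_nonneg ht.1 _ _
    have ho1 : o = min 1 ((q₀ + k * t) ^ P.μω) := by rw [ho, Par.om, hq]
    set E := P.E0 t (y + t • v) v with hE
    have hpt : ∀ s ∈ Ioo 0 t, 2 * Qp (P.St s (y + s • v)) (P.Bm s (y + s • v)) v +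
        Qp (P.Bm s (y + s • v)) (P.Bm s (y + s • v)) v ≤
        (ENNReal.ofReal (if q₀ + k * s < 1 then P.μω * (q₀ + k * s) ^ (P.μω - 1) * k else 0) *
          (ENNReal.ofReal (1 / 2) * E) + ENNReal.ofReal (P.C₃ * o) * E) +
          ENNReal.ofReal (P.C₃ * o) * (br v * Gs (1 / 2 - s) v) := by
      intro s hs
      refine add_le_add ((hS s (hI s hs) _ v).trans ?_) ((hQ s (hI s hs) _ v).trans ?_)
      · rw [hq]
        refine (mul_le_mul' le_rfl (hP.E0_mono hs.1.le hs.2.le ht.2 y v)).trans ?_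
        split_ifs with h
        · refine le_add_right (le_of_eq ?_)
          rw [← mul_assoc, ← ENNReal.ofReal_mul' (by norm_num), mul_one_div]
        · refine le_add_left (le_of_eq ?_)
          have h1 : 1 ≤ q₀ + k * t := by
            have := mul_le_mul_of_nonneg_left hs.2.le hk0.le
            linarith [not_lt.1 h]
          rw [ho1, min_eq_left (one_le_pow₀ h1), mul_one]
      · rw [ENNReal.ofReal_mul hC0]
        exact mul_le_mul' (mul_le_mul' le_rfl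
          (ENNReal.ofReal_le_ofReal (hP.om_mono hs.1.le hs.2.le y v))) le_rfl
    have hm : Measurable fun s : ℝ => ENNReal.ofReal
        (if q₀ + k * s < 1 then P.μω * (q₀ + k * s) ^ (P.μω - 1) * k else 0) :=
      (Measurable.ite (measurableSet_lt (by fun_prop) measurable_const) (by fun_prop)
        measurable_const).ennreal_ofReal
    refine (setLIntegral_mono' measurableSet_Ioo hpt).trans ?_
    rw [lintegral_add_right _ (hGm.const_mul _), lintegral_add_right _ measurable_const,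
      lintegral_mul_const _ hm]
    have h1 := lintegral_pow_deriv (q₀ := q₀) (by positivity) hk0 ht.1 (n := P.μω)
      (by unfold P14.μω; omega)
    rw [← ho1] at h1
    have h2 := hconst (P.C₃ * o) E (by positivity)
    have h3 := (hG' (P.C₃ * o) (by positivity)).trans
      (mul_le_mul' le_rfl (hP.Gs_le_E0P (Xr (y + t • v)) v))
    refine (add_le_add (add_le_add (mul_le_mul' h1 le_rfl) h2) h3).trans ?_
    change ENNReal.ofReal o * (ENNReal.ofReal (1 / 2) * E) + _ * E + _ * E ≤ _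
    rw [← mul_assoc, ← ENNReal.ofReal_mul ho0, ← add_mul, ← add_mul,
      ← ENNReal.ofReal_add (by positivity) (by positivity),
      ← ENNReal.ofReal_add (by positivity) (by positivity)]
    refine mul_le_mul' (ENNReal.ofReal_le_ofReal ?_) le_rfl
    have h4 : 16 * P.C₃ * √P.T₁ ≤ 1 := by
      rw [Real.sqrt_eq_rpow]
      exact hT
    have h5 : P.T₁ ≤ √P.T₁ := Real.le_sqrt_of_sq_le (by nlinarith)
    have h6 : P.C₃ * P.T₁ ≤ P.C₃ * √P.T₁ := by gcongr
    have h7 : o * (P.C₃ * P.T₁ + 3 * P.C₃ * √P.T₁) ≤ o * (3 / 8) := by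
      gcongr
      linarith
    linarith
  · set E := P.E0 t (y + t • v) v with hE
    have hpt : ∀ s ∈ Ioo 0 t, 2 * Qp (P.St s (y + s • v)) (P.Bm s (y + s • v)) v +
        Qp (P.Bm s (y + s • v)) (P.Bm s (y + s • v)) v ≤
        ENNReal.ofReal P.C₃ * (br v * E) + ENNReal.ofReal P.C₃ * (br v * Gs (1 / 2 - s) v) := by
      intro s hs
      refine add_le_add ((hS s (hI s hs) _ v).trans ?_) ((hQ s (hI s hs) _ v).trans ?_)
      · rw [← mul_assoc, br, ← ENNReal.ofReal_mul hC0]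
        refine mul_le_mul' (ENNReal.ofReal_le_ofReal (eb_fac hn.le (norm_nonneg v) hr ?_ hC))
          (hP.E0_mono hs.1.le hs.2.le ht.2 y v)
        have := hP.th_pos hs.1.le
        positivity
      · refine mul_le_mul' (mul_le_of_le_one_right' ?_) le_rfl
        exact ENNReal.ofReal_le_one.2 (hP.om_le_one _ _ _)
    refine (setLIntegral_mono' measurableSet_Ioo hpt).trans ?_
    rw [lintegral_add_right _ (hGm.const_mul _)]
    exact add_le_add (hconst _ _ hC0) (hG' _ hC0)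

end

end Crest.Agent.R68
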