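import Crest.Agent.R68.ESupp
import Crest.Agent.R68.A8

/-!
# R68 (S0091): crude bounds for the clamps
-/

set_option autoImplicit false

namespace Crest.Agent.R68

open MeasureTheory Set Filter Crest.AnalysisR.VecCalc3 Crest.AnalysisR.PDE.Boltzmann
open scoped ENNReal _root_.Topology

noncomputable section

theorem Par.Pm_le_Pp (P : Par) (z t : ℝ) (x v : R3) : P.Pm t x v ≤ P.Pp z t x v := by
  unfold Par.Pm Par.Pp
  split_ifs
  · exact zero_le
  · exact tsub_le_self.trans le_self_add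

theorem ebound_mono {P : Par} (h : P.Ok) {z z' t : ℝ} (hz : z ≤ z') (ht : 0 ≤ t) (x v : R3) :
    P.Pe z t x v ≤ P.Pe z' t x v :=
  add_le_add le_rfl (mul_le_mul_left
    (ENNReal.ofReal_le_ofReal (mul_le_mul_of_nonneg_right hz (h.mm_pos ht).le)) _)

theorem ebound_Pe : ∀ᶠ P in 𝓕, ∀ t ∈ Icc 0 P.T₁, ∀ x v,
    P.Pe (2 * P.a) t x v ≤ P.St t x v + 3 * P.E0 t x v := by
  filter_upwards [ev_ok, a_mm_le] with P h h1 t ht x v
  have h2 : ENNReal.ofReal (2 * P.a * P.mm t) ≤ 1 := by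
    have := h1 t ht
    have := mul_pos h.a_pos (h.mm_pos ht.1)
    have := h.e₀_le
    have := h.L_le'
    exact ENNReal.ofReal_le_one.2 (by nlinarith)
  have h3 : ENNReal.ofReal (P.om t x v) ≤ 1 := ENNReal.ofReal_le_one.2 (min_le_left _ _)
  calc P.Pe (2 * P.a) t x v ≤ P.St t x v + 2 * (1 * P.E0 t x v) + 1 * P.E0 t x v := by
        unfold Par.Pe Par.Bm
        gcongr
    _ = P.St t x v + 3 * P.E0 t x v := by ring

theorem ebound_one {v : R3} (hv : ‖v‖ ≤ 4) : 1 ≤ 9 * Gs (1 / 5) v := by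
  have h1 : Real.exp 2 ≤ 9 := by
    have h2 : Real.exp 2 = Real.exp 1 * Real.exp 1 := by rw [← Real.exp_add]; norm_num
    have h3 := Real.exp_one_lt_d9
    have h4 := Real.exp_pos 1
    nlinarith
  have h2 : ‖v‖ ^ 2 ≤ 16 := by nlinarith [norm_nonneg v]
  have h3 : 1 ≤ Real.exp 2 * Real.exp (-(1 / 5) * ‖v‖ ^ 2 / 2) := by
    rw [← Real.exp_add]
    exact Real.one_le_exp (by linarith)
  rw [Gs, ← ENNReal.ofReal_ofNat, ← ENNReal.ofReal_mul (by norm_num)]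
  exact ENNReal.one_le_ofReal.2 (h3.trans (mul_le_mul_of_nonneg_right h1 (Real.exp_pos _).le))

theorem ebound_supp {c : ℝ≥0∞} {v : R3} (h : c ≠ 0 → ‖v‖ ≤ 4) : c ≤ 9 * c * Gs (1 / 5) v := by
  by_cases hc : c = 0
  · rw [hc]
    exact zero_le
  · calc c = c * 1 := (mul_one c).symm
      _ ≤ c * (9 * Gs (1 / 5) v) := mul_le_mul_right (ebound_one (h hc)) c
      _ = _ := by ring

open Classical in
/-- the bound for the streams -/
def eboundS (P : Par) (t : ℝ) (x v : R3) : ℝ≥0∞ :=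
  if ‖v‖ ≤ 4 ∧ ‖Yt t x v‖ ≤ P.RW then
    ENNReal.ofReal (5 * (P.A + 1) * (‖Yt t x v‖ + P.r) ^ (-(103 / 100) : ℝ)) else 0

theorem ebound_S (P : Par) (t : ℝ) (x v : R3) :
    eboundS P t x v ≤ 9 * eboundS P t x v * Gs (1 / 5) v :=
  ebound_supp fun h => by
    by_contra hv
    exact h (if_neg fun h' => hv h'.1)

theorem ebound_O {P : Par} (h : P.Ok) (ε : Bool) {t : ℝ} (ht : 0 ≤ t) (X : ℂ) (v : R3) :
    P.Omn (P.wn ε t X v) ≤ 9 * P.Omn (P.wn ε t X v) * Gs (1 / 5) v :=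
  ebound_supp fun h0 => by
    have h1 : P.wn ε t X v ≤ 1 := not_lt.1 fun h1 => h0 (h.Omn_zero h1)
    have h2 := h.norm_Uf_le ε ht X
    have h3 := norm_sub_norm_le v (P.Uf ε t X)
    unfold P11.wn at h1
    linarith

theorem ebound_main : ∀ᶠ P in 𝓕, ∀ z ∈ Icc 0 (2 * P.a), ∀ t x v, 0 < t → P.Pp z t x v ≤
    (3 + 9 * eboundS P t x v + 9 * (P.Omn (P.wn true t (Xl t x v) v) +
      P.Omn (P.wn false t (Xl t x v) v))) * Gs (1 / 5) v := by
  filter_upwards [ev_ok, ebound_Pe] with P h h1 z hz t x v ht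
  have hS := ebound_S P t x v
  have hT := h.T₁_le'
  unfold Par.Pp
  split_ifs with hc
  · have ht' : t ∈ Icc 0 P.T₁ := ⟨ht.le, hc⟩
    have e1 : P.St t x v ≤ eboundS P t x v := h.St_le ht' x v
    have e2 : Gs (1 / 2 - t) v ≤ Gs (1 / 5) v := Gs_anti (by linarith) v
    have e3 := h.Ew_le_Xl true ht' x v
    have e4 := h.Ew_le_Xl false ht' x v
    refine (ebound_mono h hz.2 ht.le x v).trans ((h1 t ht' x v).trans ?_)
    calc P.St t x v + 3 * P.E0 t x v ≤ 9 * eboundS P t x v * Gs (1 / 5) v +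
          3 * ((1 + P.Omn (P.wn true t (Xl t x v) v) + P.Omn (P.wn false t (Xl t x v) v)) *
            Gs (1 / 5) v) := by
          refine add_le_add (e1.trans hS) ?_
          unfold Par.E0 Par.E0P
          gcongr
      _ = (3 + 9 * eboundS P t x v + 3 * (P.Omn (P.wn true t (Xl t x v) v) +
          P.Omn (P.wn false t (Xl t x v) v))) * Gs (1 / 5) v := by ring
      _ ≤ _ := by
          gcongr
          norm_num
  · have e1 : Mx v ≤ Gs (1 / 5) v := Mx_le_Gs (by norm_num) v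
    have e2 : Dd P.ν P.τ t ≤ 1 := ENNReal.ofReal_le_one.2 (Real.exp_le_one_iff.2 (by
      have := mul_nonneg h.ν_pos.le (le_max_right (t - P.τ) 0)
      linarith))
    have e3 : ENNReal.ofReal P.b ≤ 1 := ENNReal.ofReal_le_one.2 h.b_le
    have e4 : Gw P.τ t v ≤ Gs (1 / 5) v := Gs_anti (by
      have := min_le_right t P.τ
      have := h.τ_le
      linarith) v
    have e5 : ENNReal.ofReal √P.T₁ ≤ 1 := ENNReal.ofReal_le_one.2 (Real.sqrt_le_one.2 (by linarith))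
    have e6 := ebound_O h true ht.le (Xl t x v) v
    have e7 := ebound_O h false ht.le (Xl t x v) v
    have e8 : P.Sg t x v ≤ 9 * eboundS P t x v * Gs (1 / 5) v +
        1 * (9 * P.Omn (P.wn true t (Xl t x v) v) * Gs (1 / 5) v +
          9 * P.Omn (P.wn false t (Xl t x v) v) * Gs (1 / 5) v) + Gs (1 / 5) v := by
      refine add_le_add (add_le_add hS (mul_le_mul' e5 (add_le_add e6 e7))) ?_
      split_ifs
      · exact e1
      · exact zero_le
    refine (add_le_add e1 (add_le_add (mul_le_mul' e2 e8) (mul_le_mul' e3 e4))).trans (le_of_eq ?_)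
    ring

/-- `St_le`, `Omn_le_const`, `a_mm_le`; compactly supported terms are compared with `Gs (1/5)` on
`‖v‖ ≤ 4` (`Omn (wn ..) ≠ 0` forces `‖v‖ ≤ 3`); `Dd ≤ 1`, `Gw τ t ≤ Gs (1/5)`. -/
theorem Pp_le_Gs : ∀ᶠ P in 𝓕, ∃ n : ℝ≥0∞, n ≠ ⊤ ∧
    (∀ z ∈ Icc 0 (2 * P.a), ∀ t x v, 0 < t → P.Pp z t x v ≤ n * Gs (1 / 5) v) ∧
    ∀ α ∈ Icc (0 : ℝ) 1, ∀ x v, P.f0 α x v ≤ n * Gs (1 / 5) v := by
  filter_upwards [ev_ok, ebound_main] with P h h1
  have hS : ∀ t x v, eboundS P t x v ≤ ENNReal.ofReal (5 * (P.A + 1) * P.r ^ (-(103 / 100) : ℝ)) := by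
    intro t x v
    unfold eboundS
    split_ifs
    · have := h.A_ge
      exact ENNReal.ofReal_le_ofReal (mul_le_mul_of_nonneg_left
        (Real.rpow_le_rpow_of_nonpos h.r_pos (le_add_of_nonneg_left (norm_nonneg _)) (by norm_num))
        (by linarith))
    · exact zero_le
  refine ⟨3 + 9 * ENNReal.ofReal (5 * (P.A + 1) * P.r ^ (-(103 / 100) : ℝ)) +
    9 * (ENNReal.ofReal (P.δ₁⁻¹ ^ P.Γ / P.r) + ENNReal.ofReal (P.δ₁⁻¹ ^ P.Γ / P.r)), by finiteness,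
    fun z hz t x v ht => (h1 z hz t x v ht).trans ?_, fun α hα x v => ?_⟩
  · have := hS t x v
    have := h.Omn_le_const
    gcongr <;> apply this
  · have h0 : (0 : ℝ) ∈ Icc 0 P.T₁ := ⟨le_rfl, h.T₁_pos.le⟩
    have e1 : P.cold0 P.r true (Xr x) v + P.cold0 P.r false (Xr x) v ≤ P.St 0 x v := by
      rw [← h.cb_char true h0 x v, ← h.cb_char false h0 x v, zero_smul, add_zero]
      exact add_le_add le_self_add le_self_add
    have e2 : P.St 0 x v ≤ eboundS P 0 x v := h.St_le h0 x v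
    have e3 : P.fB x v ≤ Gs (1 / 5) v := by
      unfold Qar.fB
      split_ifs
      · exact Mx_le_Gs (by norm_num) v
      · exact zero_le
    have e4 : P.seed x v ≤ Gs (1 / 5) v := by
      unfold Par.seed
      split_ifs
      · exact Gs_anti (by norm_num) v
      · exact zero_le
    have e5 : ENNReal.ofReal α ≤ 1 := ENNReal.ofReal_le_one.2 hα.2
    have e6 := hS 0 x v
    calc P.f0 α x v ≤ 9 * eboundS P 0 x v * Gs (1 / 5) v + Gs (1 / 5) v + 1 * Gs (1 / 5) v :=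
          add_le_add (add_le_add ((e1.trans e2).trans (ebound_S P 0 x v)) e3) (mul_le_mul' e5 e4)
      _ = (2 + 9 * eboundS P 0 x v + 0) * Gs (1 / 5) v := by ring
      _ ≤ _ := by
          gcongr
          · norm_num
          · exact zero_le

/-- `St_le`, `Ew_le_Xl`, `Omn_le_Ws`, `(‖Y‖ + r)^{-1.03} ≤ ‖Y‖^{-1.03}` (`= ⊤` in `ℝ≥0∞` if `Y = 0`) -/
theorem Pp_le_Psi : ∀ᶠ P in 𝓕, ∀ t x v, 0 < t → P.Pp (2 * P.a) t x v ≤ P.Psi t x v := by
  filter_upwards [ev_ok, ebound_main, big_C4 fun Q => 45 * (Q.A + 1),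
    big_C4 fun Q => 9 * Q.δ₁⁻¹ ^ Q.Γ] with P h h1 h2 h3 t x v ht
  replace h2 : 45 * (P.A + 1) ≤ P.C₄ := h2
  replace h3 : 9 * P.δ₁⁻¹ ^ P.Γ ≤ P.C₄ := h3
  have hA := h.A_ge
  refine (h1 _ ⟨by linarith [h.a_pos], le_rfl⟩ t x v ht).trans ?_
  unfold Qar.Psi
  refine mul_le_mul_left ?_ _
  have e1 : (3 : ℝ≥0∞) ≤ ENNReal.ofReal P.C₄ := by
    rw [← ENNReal.ofReal_ofNat]
    exact ENNReal.ofReal_le_ofReal (by linarith)
  have e2 : 9 * ENNReal.ofReal (P.δ₁⁻¹ ^ P.Γ) ≤ ENNReal.ofReal P.C₄ := by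
    rw [← ENNReal.ofReal_ofNat, ← ENNReal.ofReal_mul (by norm_num)]
    exact ENNReal.ofReal_le_ofReal h3
  have e3 : 9 * ENNReal.ofReal (5 * (P.A + 1)) ≤ ENNReal.ofReal P.C₄ := by
    rw [← ENNReal.ofReal_ofNat, ← ENNReal.ofReal_mul (by norm_num)]
    exact ENNReal.ofReal_le_ofReal (by linarith)
  have e4 : ∀ ε, 9 * P.Omn (P.wn ε t (Xl t x v) v) ≤
      ENNReal.ofReal P.C₄ * Ws (P.Uf ε t (Xl t x v)) v := fun ε =>
    (mul_le_mul_right (h.Omn_le_Ws _ v) 9).trans (by rw [← mul_assoc]; exact mul_le_mul_left e2 _)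
  have e5 : 9 * eboundS P t x v ≤ ENNReal.ofReal P.C₄ *
      (if ‖v‖ ≤ 4 then ENNReal.ofReal ‖Yt t x v‖ ^ (-(103 / 100) : ℝ) else 0) := by
    unfold eboundS
    split_ifs with c1 c2
    · rw [ENNReal.ofReal_mul (by linarith), ← mul_assoc,
        ← ENNReal.ofReal_rpow_of_pos (add_pos_of_nonneg_of_pos (norm_nonneg _) h.r_pos),
        ENNReal.rpow_neg, ENNReal.rpow_neg]
      exact mul_le_mul' e3 (ENNReal.inv_le_inv.2 (ENNReal.rpow_le_rpow
        (ENNReal.ofReal_le_ofReal (le_add_of_nonneg_right h.r_pos.le)) (by norm_num)))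
    · exact absurd c1.1 c2
    · rw [mul_zero]
      exact zero_le
    · rw [mul_zero]
      exact zero_le
  rw [mul_add, mul_add, mul_add, mul_add, mul_one, ← add_assoc]
  exact add_le_add (add_le_add (add_le_add e1 e5) (e4 true)) (e4 false)

theorem ebound_cold (P : Qar) (ρ : ℝ) (ε : Bool) (y : ℂ) (v : R3) : P.cold0 ρ ε y v ≠ ⊤ := by
  unfold Qar.cold0
  split_ifs
  · exact ENNReal.ofReal_ne_top
  · exact ENNReal.zero_ne_top

theorem ebound_fB (P : Qar) (x v : R3) : P.fB x v ≠ ⊤ := by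
  unfold Qar.fB
  split_ifs
  · exact ENNReal.ofReal_ne_top
  · exact ENNReal.zero_ne_top

theorem Par.f0_ne_top (P : Par) (α : ℝ) (x v : R3) : P.f0 α x v ≠ ⊤ := by
  refine ENNReal.add_ne_top.2 ⟨ENNReal.add_ne_top.2 ⟨ENNReal.add_ne_top.2
    ⟨ebound_cold _ _ _ _ _, ebound_cold _ _ _ _ _⟩, ebound_fB _ _ _⟩,
    ENNReal.mul_ne_top ENNReal.ofReal_ne_top ?_⟩
  unfold Par.seed
  split_ifs
  · exact Gs_ne_top _ _
  · exact ENNReal.zero_ne_top

theorem Qar.fL_ne_top (P : Qar) (x v : R3) : P.fL x v ≠ ⊤ := by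
  exact ENNReal.add_ne_top.2 ⟨ENNReal.add_ne_top.2
    ⟨ebound_cold _ _ _ _ _, ebound_cold _ _ _ _ _⟩, ebound_fB _ _ _⟩

theorem Par.Ok.Pe_mono {P : Par} (h : P.Ok) {z z' t : ℝ} (hz : z ≤ z') (ht : 0 ≤ t) (x v : R3) :
    P.Pe z t x v ≤ P.Pe z' t x v := by
  exact ebound_mono h hz ht x v

theorem Pe_le : ∀ᶠ P in 𝓕, ∀ t ∈ Icc 0 P.T₁, ∀ x v,
    P.Pe (2 * P.a) t x v ≤ P.St t x v + 3 * P.E0 t x v := by
  exact ebound_Pe

end

end Crest.Agent.R68
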