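import Crest.Agent.R68.ENL
import Crest.Agent.R68.EHH
import Crest.Agent.R68.EBound
import Crest.Agent.R68.A4

/-!
# R68 (S0091): the cold particles are hardly attenuated before `T'`
-/

set_option autoImplicit false

namespace Crest.Agent.R68

open MeasureTheory Set Filter Crest.AnalysisR.VecCalc3 Crest.AnalysisR.PDE.Boltzmann
open scoped ENNReal _root_.Topology

noncomputable section

private theorem ecold_St {P : Par} (h : P.Ok) {ε : Bool} {t : ℝ} (ht : 0 ≤ t) {X : ℂ} {v : R3}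
    (hv : P.cut ε t X v) (a : R3) : P.StP t X a = P.StE ε t X a := by
  cases ε
  · have : P.StE true t X a = 0 := by
      by_contra h0
      exact h.sep ht (h.StE_cut ht h0) hv
    rw [Par.StP, this, zero_add]
  · have : P.StE false t X a = 0 := by
      by_contra h0
      exact h.sep ht hv (h.StE_cut ht h0)
    rw [Par.StP, this, add_zero]

private theorem ecold_num {P : Par} (h : P.Ok) {s : ℝ} (hs : 0 < s) (X : ℂ) :
    2 * Real.pi * (2 * P.del s X) * (25 * P.A / P.mx s X + P.e₀ / P.vr s X) ≤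
      1000 * P.A / P.L * s ^ (-1 + 7 / 800 : ℝ) := by
  have hL := h.L_pos
  have hL' := h.L_le'
  have hA := h.A_ge
  have hvr := h.vr_pos hs.le X
  have hmx := h.mx_pos hs.le X
  have hr := h.r_pos
  have hd := h.del_pos hs.le X
  have h1 : P.del s X ≤ P.vr s X ^ (7 / 800 : ℝ) := by
    have h0 : 0 ≤ min (P.vr s X) P.r₀ := le_min hvr.le h.r₀_pos.le
    rw [Par.del, Par.ee, ← Real.rpow_natCast, ← Real.rpow_mul h0,
      show (1 / 800 * ((7 : ℕ) : ℝ) : ℝ) = 7 / 800 by norm_num]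
    exact Real.rpow_le_rpow h0 (min_le_left _ _) (by norm_num)
  have h2 : P.L * P.vr s X ≤ 3 * P.mx s X := by
    have a1 : ‖X‖ ≤ P.mx s X := le_max_left _ _
    have a2 : P.L * P.th s ≤ P.mx s X := le_max_right _ _
    have a3 : P.L * P.th s = P.L * s + P.r := by unfold Par.th; field_simp
    unfold Par.vr
    nlinarith [norm_nonneg X]
  have h3 : 25 * P.A / P.mx s X ≤ 75 * (P.A / P.L / P.vr s X) := by
    rw [div_div, ← mul_div_assoc, div_le_div_iff₀ hmx (by positivity)]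
    nlinarith
  have h4 : P.e₀ / P.vr s X ≤ P.A / P.L / P.vr s X := by
    refine div_le_div_of_nonneg_right ?_ hvr.le
    rw [le_div_iff₀ hL]
    nlinarith [h.e₀_le, h.e₀_pos]
  have h5 : P.vr s X ^ (7 / 800 : ℝ) / P.vr s X ≤ s ^ (-1 + 7 / 800 : ℝ) := by
    rw [div_eq_inv_mul, ← Real.rpow_neg_one, ← Real.rpow_add hvr]
    refine Real.rpow_le_rpow_of_nonpos hs ?_ (by norm_num)
    unfold Par.vr
    linarith [norm_nonneg X]
  have hπ := Real.pi_lt_d2
  have hπ0 := Real.pi_pos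
  calc _ ≤ 2 * 3.15 * (2 * P.vr s X ^ (7 / 800 : ℝ)) * (76 * (P.A / P.L / P.vr s X)) := by
        have := h.e₀_pos
        gcongr
        linarith
    _ = 957.6 * (P.A / P.L) * (P.vr s X ^ (7 / 800 : ℝ) / P.vr s X) := by ring
    _ ≤ 1000 * (P.A / P.L) * s ^ (-1 + 7 / 800 : ℝ) := by
        gcongr
        norm_num
    _ = _ := by ring

/-- `F ≤ St + 3 E0` (`Pe_le`).  At a point of the support of `cb ε` the other stream vanishes
(`cb_cut`, `sep`); for `a` in the support of `StE ε`, `‖v - a‖ ≤ 2 del`, so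
`Nu (StE ε) v ≤ 4π del (25 A/mx + e₀/vr)` (`Nn_eq`, `dens_cb_le`, `dens_wm_le`);
`del ≤ vr^{7/800}`, `vr ≤ 3 mx / L`, `s ≤ vr`.  Hot part: `Qp_E0`, `br v ≤ 3`. -/
theorem Nu_cold : ∀ᶠ P in 𝓕, ∀ α F, P.Sol α F → ∀ ε, ∀ s ∈ Ioc 0 P.T₁, ∀ x v,
    P.cb ε s (Xr x) v ≠ 0 → Nu (F s x) v ≤
      ENNReal.ofReal (1000 * P.A / P.L * s ^ (-1 + 7 / 800 : ℝ) + 9 * P.C₃) := by
  filter_upwards [ev_ok, Pe_le, Qp_E0, dens_wm_le] with P h hPe hQ hwm α F hF ε s hs x v hv
  have hs' : s ∈ Icc 0 P.T₁ := ⟨hs.1.le, hs.2⟩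
  have hc := (h.cb_cut hs.1.le hv).1
  have hd := h.del_pos hs.1.le (Xr x)
  have hC : 0 ≤ P.C₃ := by linarith [h.C₃_ge']
  have h1 : Nu (F s x) v ≤ Nu (P.StE ε s (Xr x)) v + 3 * Nu (P.E0P s (Xr x)) v := by
    rw [← Nu_mul (P.mE0P _ _), ← Nu_add (P.mStE _ _ _) ((P.mE0P _ _).const_mul _)]
    refine Nu_mono (fun a => (hF.le s hs' x a).trans ((hPe s hs' x a).trans ?_)) v
    rw [← ecold_St h hs.1.le hc]
    exact le_rfl
  have h2 : Nu (P.StE ε s (Xr x)) v ≤ ENNReal.ofReal (2 * Real.pi * (2 * P.del s (Xr x))) *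
      dens (P.StE ε s (Xr x)) := by
    rw [Nu, dens, ← lintegral_const_mul _ (P.mStE _ _ _)]
    refine lintegral_mono fun a => ?_
    by_cases h0 : P.StE ε s (Xr x) a = 0
    · simp [h0]
    refine mul_le_mul' ?_ le_rfl
    rw [Nn_eq]
    refine ENNReal.ofReal_le_ofReal (mul_le_mul_of_nonneg_left ?_ (by positivity))
    have a1 : ‖v - P.Uf ε s (Xr x)‖ ≤ P.del s (Xr x) := hc.1
    have a2 : ‖a - P.Uf ε s (Xr x)‖ ≤ P.del s (Xr x) := (h.StE_cut hs.1.le h0).1
    have a3 := norm_sub_le_norm_sub_add_norm_sub v (P.Uf ε s (Xr x)) a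
    rw [norm_sub_rev (P.Uf ε s (Xr x))] at a3
    linarith
  have h3 : dens (P.StE ε s (Xr x)) ≤
      ENNReal.ofReal (25 * P.A / P.mx s (Xr x) + P.e₀ / P.vr s (Xr x)) := by
    have a1 := h.mx_pos hs.1.le (Xr x)
    have a2 := h.vr_pos hs.1.le (Xr x)
    have a3 := h.e₀_pos
    have a4 : 0 ≤ P.A := by linarith [h.A_ge]
    rw [ENNReal.ofReal_add (by positivity) (by positivity)]
    refine le_trans (le_of_eq ?_) (add_le_add (h.dens_cb_le ε hs.1.le _) (hwm ε s hs' _))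
    exact lintegral_add_left (P.mcb _ _ _) _
  have h4 : br v ≤ ENNReal.ofReal 3 :=
    ENNReal.ofReal_le_ofReal (by linarith [(h.cut_supp hs' hc).1])
  have h5 : 0 ≤ 1000 * P.A / P.L * s ^ (-1 + 7 / 800 : ℝ) := by
    have := h.L_pos
    have := h.A_ge
    have := hs.1
    positivity
  rw [ENNReal.ofReal_add h5 (by positivity)]
  refine h1.trans (add_le_add (h2.trans ((mul_le_mul' le_rfl h3).trans ?_)) ?_)
  · rw [← ENNReal.ofReal_mul (by positivity)]
    exact ENNReal.ofReal_le_ofReal (ecold_num h hs.1 _)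
  · refine (mul_le_mul' le_rfl ((hQ s hs' _ v).2.trans (mul_le_mul' le_rfl h4))).trans ?_
    rw [← ENNReal.ofReal_ofNat 3, ← ENNReal.ofReal_mul hC, ← ENNReal.ofReal_mul (by norm_num)]
    exact ENNReal.ofReal_le_ofReal (le_of_eq (by ring))

private theorem ecold_int {K B t : ℝ} (hK : 0 ≤ K) (hB : 0 ≤ B) (ht : 0 ≤ t) :
    ∫⁻ s in Ioo 0 t, ENNReal.ofReal (K * s ^ (-1 + 7 / 800 : ℝ) + B) =
      ENNReal.ofReal (K * (800 / 7 * t ^ (7 / 800 : ℝ)) + B * t) := by
  have hi : IntervalIntegrable (fun s : ℝ => s ^ (-1 + 7 / 800 : ℝ)) volume 0 t :=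
    intervalIntegral.intervalIntegrable_rpow' (by norm_num)
  have hi2 : IntervalIntegrable (fun s : ℝ => K * s ^ (-1 + 7 / 800 : ℝ) + B) volume 0 t :=
    (hi.const_mul K).add intervalIntegrable_const
  rw [setLIntegral_congr Ioo_ae_eq_Ioc, ← ofReal_integral_eq_lintegral_ofReal hi2.1
    (ae_restrict_of_forall_mem measurableSet_Ioc fun s hs => by
      have := hs.1
      simp only [Pi.zero_apply]
      positivity),
    ← intervalIntegral.integral_of_le ht,
    intervalIntegral.integral_add (hi.const_mul K) intervalIntegrable_const,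
    intervalIntegral.integral_const_mul, integral_rpow (Or.inl (by norm_num)),
    intervalIntegral.integral_const, Real.zero_rpow (by norm_num),
    show (-1 + 7 / 800 + 1 : ℝ) = 7 / 800 by norm_num, smul_eq_mul]
  congr 1
  ring

/-- integrate (`cb_char`: the support condition holds along the whole characteristic); `T' ≤ r₀` -/
theorem Hz_cold : ∀ᶠ P in 𝓕, ∀ α F, P.Sol α F → ∀ ε, ∀ t ∈ Icc 0 P.T', ∀ y v,
    P.cold0 P.r ε (Xr y) v ≠ 0 → Hz F y v 0 t ≤ ENNReal.ofReal (P.κ₀ / P.V) := by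
  filter_upwards [ev_ok, Nu_cold,
    small_r0 (fun Q => 1000 * Q.A / Q.L * (800 / 7) * (2 * Q.V / Q.κ₀)) (c := 7 / 800) (by norm_num),
    small_r0 (fun Q => 9 * Q.C₃ * (2 * Q.V / Q.κ₀)) (c := 1) one_pos]
    with P h hN s1 s2 α F hF ε t ht y v hv
  have hT := ht.2.trans h.T'_le
  have hL := h.L_pos
  have hA : 0 ≤ P.A := by linarith [h.A_ge]
  have hC : 0 ≤ P.C₃ := by linarith [h.C₃_ge']
  have hV : 0 < P.V := by linarith [h.V_ge]
  have hκ := h.κ₀_pos
  have htr : t ≤ P.r₀ := by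
    have a1 := h.th_T' ht.2
    have a2 : (1 : ℝ) ≤ P.N ^ 4 := one_le_pow₀ (by linarith [h.N_ge])
    have a3 := h.th_pos ht.1
    have a4 : t ≤ P.th t := le_add_of_nonneg_right (div_pos h.r_pos hL).le
    nlinarith
  calc Hz F y v 0 t ≤ ∫⁻ s in Ioo 0 t,
        ENNReal.ofReal (1000 * P.A / P.L * s ^ (-1 + 7 / 800 : ℝ) + 9 * P.C₃) := by
        refine setLIntegral_mono' measurableSet_Ioo fun s hs => ?_
        refine hN α F hF ε s ⟨hs.1, hs.2.le.trans hT⟩ _ v ?_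
        rwa [h.cb_char ε ⟨hs.1.le, hs.2.le.trans hT⟩]
    _ ≤ _ := by
        rw [ecold_int (by positivity) (by positivity) ht.1]
        refine ENNReal.ofReal_le_ofReal ?_
        have a1 : t ^ (7 / 800 : ℝ) ≤ P.r₀ ^ (7 / 800 : ℝ) :=
          Real.rpow_le_rpow ht.1 htr (by norm_num)
        rw [Real.rpow_one] at s2
        have a2 : 1000 * P.A / P.L * (800 / 7) * (2 * P.V / P.κ₀) * t ^ (7 / 800 : ℝ) ≤ 1 :=
          (mul_le_mul_of_nonneg_left a1 (by positivity)).trans s1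
        have a3 : 9 * P.C₃ * (2 * P.V / P.κ₀) * t ≤ 1 :=
          (mul_le_mul_of_nonneg_left htr (by positivity)).trans s2
        have a4 : 0 < P.κ₀ / (2 * P.V) := by positivity
        have a5 := mul_le_mul_of_nonneg_right (add_le_add a2 a3) a4.le
        refine le_of_eq_of_le ?_ (a5.trans (le_of_eq ?_))
        · field_simp
        · field_simp
          norm_num

/-- the mild formula, `cb_char`, `one_le_att_add` -/
theorem F_lower : ∀ᶠ P in 𝓕, ∀ α F, P.Sol α F → ∀ t ∈ Icc 0 P.T', ∀ x v,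
    P.cq * P.cbP t (Xr x) v + (ENNReal.ofReal α * P.seed (x - t • v) v * att (Hz F (x - t • v) v 0 t) +
      Duh F (fun s x v => Qp (F s x) (F s x) v) t x v) ≤ F t x v := by
  filter_upwards [ev_ok, Hz_cold] with P h hH α F hF t ht x v
  have ht' : t ∈ Icc 0 P.T₁ := ⟨ht.1, ht.2.trans h.T'_le⟩
  obtain ⟨y, rfl⟩ : ∃ y, x = y + t • v := ⟨x - t • v, (sub_add_cancel _ _).symm⟩
  have h1 : ∀ ε, P.cq * P.cb ε t (Xr (y + t • v)) v ≤
      P.cold0 P.r ε (Xr y) v * att (Hz F y v 0 t) := by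
    intro ε
    rw [h.cb_char ε ht', mul_comm]
    by_cases h0 : P.cold0 P.r ε (Xr y) v = 0
    · simp [h0]
    refine mul_le_mul' le_rfl ?_
    have hV : 0 < P.V := by linarith [h.V_ge]
    rw [P9.cq, ENNReal.ofReal_sub _ (div_pos h.κ₀_pos hV).le, ENNReal.ofReal_one,
      tsub_le_iff_right]
    exact (one_le_att_add _).trans (add_le_add le_rfl (hH α F hF ε t ht y v h0))
  rw [hF.mild t ht' y v, Duh_eq, add_sub_cancel_right, ← add_assoc]
  refine add_le_add ?_ le_rfl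
  rw [Par.f0, add_mul, add_mul, add_mul, Par.cbP, mul_add]
  exact add_le_add ((add_le_add (h1 true) (h1 false)).trans le_self_add) le_rfl

theorem cq_cb_hx_le : ∀ᶠ P in 𝓕, ∀ α F, P.Sol α F → ∀ t ∈ Icc 0 P.T', ∀ x v,
    P.cq * P.cbP t (Xr x) v + P.hx F t x v ≤ F t x v := by
  filter_upwards [ev_ok, F_lower] with P h hl α F hF t ht x v
  have h1 : P.cq * P.cbP t (Xr x) v ≤ F t x v := le_self_add.trans (hl α F hF t ht x v)
  have h2 : P.cq * P.cbP t (Xr x) v ≤ P.St t x v + P.Bm t x v :=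
    (mul_le_of_le_one_left' h.cq_le).trans
      ((add_le_add le_self_add le_self_add).trans le_self_add)
  exact (add_le_add le_rfl (tsub_le_tsub_left h2 _)).trans (add_tsub_cancel_of_le h1).le

theorem Nu_cb_le : ∀ᶠ P in 𝓕, ∀ α F, P.Sol α F → ∀ t ∈ Icc 0 P.T', ∀ x v,
    P.cq * Nu (P.cbP t (Xr x)) v ≤ Nu (F t x) v := by
  filter_upwards [F_lower] with P hl α F hF t ht x v
  rw [← Nu_mul (P.mcbP _ _)]
  exact Nu_mono (fun a => le_self_add.trans (hl α F hF t ht x a)) v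

end

end Crest.Agent.R68
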