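import Crest.Agent.R68.EBound

/-!
# R68 (S0091): the data

At a point `x` with `X = Xr x` at most one kind of particles is present: cold ones for
`ρ < ‖X‖ ≤ r₀` (one stream only matters little: bound the sum), seeds for `‖X‖ ≤ r`, background
for `‖X‖ ≥ r₁ > r₀`.  The velocity support of `cold0 ρ ε X` has volume `≤ ‖X‖^{0.03}`
(`lintegral_mk3`).  Spatial integrals: `lintegral_cell_red`, polar coordinates.
-/

set_option autoImplicit false

namespace Crest.Agent.R68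

open MeasureTheory Set Filter Crest.AnalysisR.VecCalc3 Crest.AnalysisR.PDE.Boltzmann
open scoped ENNReal _root_.Topology

noncomputable section

theorem edata_cond {P : Qar} {ρ : ℝ} {ε : Bool} {X : ℂ} {v : R3} (hv : P.cold0 ρ ε X v ≠ 0) :
    (ρ < ‖X‖ ∧ ‖X‖ ≤ P.r₀ ∧ X ∈ Sec P.m ε (1 / 8) ∧
      ‖pr v - (P.L / ‖X‖) • X‖ ≤ ‖X‖ ^ (1 / 100 : ℝ) / 2 ∧
      |v 2 - sg ε| ≤ ‖X‖ ^ (1 / 100 : ℝ) / 2) ∧
    P.cold0 ρ ε X v = ENNReal.ofReal (P.A * ‖X‖ ^ (-(103 / 100) : ℝ)) := by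
  unfold Qar.cold0 at hv ⊢
  split_ifs at hv ⊢ with hc
  · exact ⟨hc, rfl⟩
  · exact absurd rfl hv

theorem Par.Ok.cold0_supp_vol {P : Par} (h : P.Ok) (ρ : ℝ) (hρ : 0 ≤ ρ) (ε : Bool) (X : ℂ) :
    volume {v | P.cold0 ρ ε X v ≠ 0} ≤ ENNReal.ofReal (‖X‖ ^ (3 / 100 : ℝ)) ∧
      ∀ v, P.cold0 ρ ε X v ≠ 0 → ‖v‖ ≤ 2 := by
  have hs : 0 ≤ ‖X‖ ^ (1 / 100 : ℝ) := by positivity
  constructor
  · have e : ‖X‖ ^ (3 / 100 : ℝ) = (‖X‖ ^ (1 / 100 : ℝ)) ^ 3 := by
      rw [← Real.rpow_natCast, ← Real.rpow_mul (norm_nonneg _)]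
      norm_num
    rw [e]
    have hT : MeasurableSet {v : R3 | ‖pr v - (P.L / ‖X‖) • X‖ ≤ ‖X‖ ^ (1 / 100 : ℝ) / 2 ∧
        |v 2 - sg ε| ≤ ‖X‖ ^ (1 / 100 : ℝ) / 2} :=
      (measurableSet_le (continuous_pr.measurable.sub_const _).norm measurable_const).inter
        (measurableSet_le (f := fun v : R3 => |v 2 - sg ε|) (by fun_prop) measurable_const)
    refine (measure_mono fun v hv => (edata_cond hv).1.2.2.2).trans ?_
    generalize ‖X‖ ^ (1 / 100 : ℝ) = s at hs hT ⊢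
    have e2 := measurePreserving_mk3.measure_preimage hT.nullMeasurableSet
    have e3 : (fun p : ℂ × ℝ => mk3 p.1 p.2) ⁻¹' {v : R3 | ‖pr v - (P.L / ‖X‖) • X‖ ≤ s / 2 ∧
        |v 2 - sg ε| ≤ s / 2} =
        Metric.closedBall ((P.L / ‖X‖) • X) (s / 2) ×ˢ Metric.closedBall (sg ε) (s / 2) := by
      ext p
      simp only [mem_preimage, mem_ofPred_eq, pr_mk3, mk3_two, mem_prod, mem_closedBall_iff_norm,
        Real.norm_eq_abs]
    rw [e3, Measure.volume_eq_prod, Measure.prod_prod, Complex.volume_closedBall,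
      Real.volume_closedBall] at e2
    refine e2.symm.trans_le ?_
    rw [← ENNReal.ofReal_pow (by positivity), ← ENNReal.ofReal_coe_nnreal,
      ← ENNReal.ofReal_mul (by positivity), ← ENNReal.ofReal_mul (by positivity)]
    refine ENNReal.ofReal_le_ofReal ?_
    rw [NNReal.coe_real_pi]
    nlinarith [Real.pi_le_four, pow_nonneg hs 3]
  · intro v hv
    obtain ⟨⟨a1, a2, -, a3, a4⟩, -⟩ := edata_cond hv
    have h0 : 0 < ‖X‖ := hρ.trans_lt a1
    have h1 : ‖X‖ ^ (1 / 100 : ℝ) ≤ 1 :=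
      Real.rpow_le_one h0.le (by linarith [h.r₀_le, h.T₁_le']) (by norm_num)
    have h2 : ‖(P.L / ‖X‖) • X‖ = P.L := by
      rw [norm_smul, Real.norm_of_nonneg (div_pos h.L_pos h0).le, div_mul_cancel₀ _ h0.ne']
    have h3 : ‖pr v‖ ≤ 1 := by
      linarith [norm_sub_norm_le (pr v) ((P.L / ‖X‖) • X), h.L_le']
    have h4 : |v 2| ≤ 3 / 2 := by linarith [abs_sub_abs_le_abs_sub (v 2) (sg ε), abs_sg ε]
    have h5 := norm_sq_eq_pr v
    rw [← sq_abs (v 2)] at h5
    nlinarith [norm_nonneg v, norm_nonneg (pr v), abs_nonneg (v 2)]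

theorem edata_int {Φ : ℂ → R3 → ℝ≥0∞} (hm : Measurable fun p : ℂ × R3 => Φ p.1 p.2) :
    ∫⁻ q in cell ×ˢ (univ : Set R3), Φ (Xr q.1) q.2 ≤ ∫⁻ z, ∫⁻ v, Φ z v := by
  have m : Measurable fun q : R3 × R3 => Φ (Xr q.1) q.2 := by
    have := Measurable.comp hm ((measurable_Xr.comp measurable_fst).prodMk
      (measurable_snd (α := R3) (β := R3)))
    exact this
  have h := lintegral_cell_red (fun z => ∫⁻ v, Φ z v) hm.lintegral_prod_right' 0
  simp only [sub_zero] at h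
  rw [Measure.volume_eq_prod, ← Measure.prod_restrict, lintegral_prod _ m.aemeasurable,
    Measure.restrict_univ]
  exact (le_of_eq h).trans (setLIntegral_le_lintegral _ _)

theorem edata_cold {P : Par} (h : P.Ok) {ρ p κ : ℝ} (hρ : 0 ≤ ρ) (hp : 0 < p) (hp' : p ≤ 11 / 10)
    (hκ : 0 < κ) (ε : Bool) :
    ∫⁻ q in cell ×ˢ (univ : Set R3), (if ‖Xr q.1‖ ≤ κ then P.cold0 ρ ε (Xr q.1) q.2 ^ p else 0) ≤
      ENNReal.ofReal (P.A ^ p * κ ^ (153 / 100 - 103 / 100 * p)) * ENNReal.ofReal (30 * √κ) := by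
  have hA : 0 < P.A := by linarith [h.A_ge]
  refine (edata_int (Φ := fun z v => if ‖z‖ ≤ κ then P.cold0 ρ ε z v ^ p else 0)
    (Measurable.ite (measurableSet_le (by fun_prop) measurable_const)
      ((measurable_cold0 P.toQar ρ ε).pow_const p) measurable_const)).trans ?_
  refine le_trans ?_ (mul_le_mul_right (lintegral_disc_rpow 0 hκ) _)
  rw [← lintegral_const_mul' _ _ ENNReal.ofReal_ne_top,
    ← lintegral_indicator measurableSet_closedBall]
  refine lintegral_mono fun z => ?_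
  by_cases hz : ‖z‖ ≤ κ
  swap
  · simp only [if_neg hz, lintegral_zero, zero_le]
  simp only [if_pos hz, indicator_of_mem (mem_closedBall_zero_iff.2 hz), sub_zero]
  rcases (norm_nonneg z).eq_or_lt with h0 | h0
  · have : ∀ v, P.cold0 ρ ε z v = 0 := fun v => by
      by_contra hv
      linarith [(edata_cond hv).1.1]
    simp only [this, ENNReal.zero_rpow_of_pos hp, lintegral_zero, zero_le]
  refine le_trans (lintegral_mono (g := {v | P.cold0 ρ ε z v ≠ 0}.indicator fun _ =>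
    ENNReal.ofReal (P.A * ‖z‖ ^ (-(103 / 100) : ℝ)) ^ p) fun v => ?_)
    ((lintegral_indicator_const_le _ _).trans
      ((mul_le_mul_right (h.cold0_supp_vol ρ hρ ε z).1 _).trans ?_))
  · by_cases hv : P.cold0 ρ ε z v = 0
    · simp only [hv, ENNReal.zero_rpow_of_pos hp, zero_le]
    · rw [indicator_of_mem (show v ∈ {v | P.cold0 ρ ε z v ≠ 0} from hv), (edata_cond hv).2]
  · rw [ENNReal.ofReal_rpow_of_pos (by positivity), ENNReal.ofReal_rpow_of_pos h0,
      ← ENNReal.ofReal_mul (by positivity), ← ENNReal.ofReal_mul (by positivity)]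
    refine ENNReal.ofReal_le_ofReal ?_
    rw [Real.mul_rpow hA.le (by positivity), ← Real.rpow_mul h0.le, mul_assoc, mul_assoc,
      ← Real.rpow_add h0, show -(103 / 100) * p + 3 / 100 = 153 / 100 - 103 / 100 * p + -(3 / 2) by
        ring, Real.rpow_add h0]
    exact mul_le_mul_of_nonneg_left (mul_le_mul_of_nonneg_right
      (Real.rpow_le_rpow h0.le hz (by linarith)) (by positivity)) (by positivity)

/-- finite `L^{1.1}` norm -/
def edataLI (f : XF) : Prop :=
  ∫⁻ q in cell ×ˢ (univ : Set R3), f q.1 q.2 ^ (11 / 10 : ℝ) ≠ ⊤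

theorem edataLI.add {f g : XF} (hf : edataLI f) (hg : edataLI g) (mf : MeasX f) :
    edataLI fun x v => f x v + g x v := by
  refine ne_top_of_le_ne_top ?_ (lintegral_mono fun q =>
    ENNReal.rpow_add_le_mul_rpow_add_rpow _ _ (by norm_num))
  have h2 : (2 : ℝ≥0∞) ^ ((11 / 10 : ℝ) - 1) ≠ ⊤ :=
    ENNReal.rpow_ne_top_of_nonneg (by norm_num) ENNReal.ofNat_ne_top
  have m : Measurable fun q : R3 × R3 => f q.1 q.2 ^ (11 / 10 : ℝ) := Measurable.pow_const mf _
  rw [lintegral_const_mul' _ _ h2, lintegral_add_left m]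
  exact ENNReal.mul_ne_top h2 (ENNReal.add_ne_top.2 ⟨hf, hg⟩)

theorem edata_ball (R : ℝ) : ∫⁻ q in cell ×ˢ (univ : Set R3),
    (cell ×ˢ Metric.ball (0 : R3) R).indicator (1 : R3 × R3 → ℝ≥0∞) q ≠ ⊤ := by
  refine ne_top_of_le_ne_top ?_ ((setLIntegral_le_lintegral _ _).trans
    (lintegral_indicator_one_le _))
  rw [Measure.volume_eq_prod, Measure.prod_prod, volume_cell, one_mul]
  exact measure_ball_lt_top.ne

theorem edata_bdd {f : XF} {R : ℝ} (h1 : ∀ x v, f x v ≤ 1) (h2 : ∀ x v, R ≤ ‖v‖ → f x v = 0) :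
    edataLI f := by
  refine ne_top_of_le_ne_top (edata_ball R)
    (setLIntegral_mono' (measurableSet_cell.prod MeasurableSet.univ) fun q hq => ?_)
  rcases le_or_gt R ‖q.2‖ with h | h
  · rw [h2 _ _ h, ENNReal.zero_rpow_of_pos (by norm_num)]
    exact zero_le
  · rw [indicator_of_mem (show q ∈ cell ×ˢ Metric.ball (0 : R3) R from
      ⟨hq.1, mem_ball_zero_iff.2 h⟩)]
    exact ENNReal.rpow_le_one (h1 _ _) (by norm_num)

theorem edata_LI_cold {P : Par} (h : P.Ok) {ρ : ℝ} (hρ : 0 ≤ ρ) (ε : Bool) :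
    edataLI fun x v => P.cold0 ρ ε (Xr x) v := by
  refine ne_top_of_le_ne_top (ENNReal.mul_ne_top ENNReal.ofReal_ne_top ENNReal.ofReal_ne_top)
    (le_trans (lintegral_mono fun q => ?_) (edata_cold h hρ (by norm_num) le_rfl one_pos ε))
  by_cases hv : P.cold0 ρ ε (Xr q.1) q.2 = 0
  · simp only [hv, ENNReal.zero_rpow_of_pos (show (0 : ℝ) < 11 / 10 by norm_num), zero_le]
  · exact (if_pos (by linarith [(edata_cond hv).1.2.1, h.r₀_le, h.T₁_le'])).ge

theorem edata_log {y c : ℝ} (hy : 0 ≤ y) (hc : 0 ≤ c) :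
    y * (1 + c + |Real.log y|) ≤ (11 + c) * (1 + y ^ (11 / 10 : ℝ)) := by
  have h0 : 0 ≤ y ^ (11 / 10 : ℝ) := by positivity
  rcases le_total y 1 with h | h
  · have h1 : y * |Real.log y| ≤ 1 := by
      rcases hy.eq_or_lt with rfl | hy'
      · simp
      · have := Real.abs_log_mul_self_lt y hy' h
        rw [abs_mul, abs_of_pos hy', mul_comm] at this
        exact this.le
    nlinarith [mul_nonneg hc h0, mul_nonneg hc (sub_nonneg.2 h)]
  · have h1 : y ≤ y ^ (11 / 10 : ℝ) := Real.self_le_rpow_of_one_le h (by norm_num)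
    have h2 : y * |Real.log y| ≤ 10 * y ^ (11 / 10 : ℝ) := by
      have h3 := Real.log_le_rpow_div hy (show (0 : ℝ) < 1 / 10 by norm_num)
      rw [abs_of_nonneg (Real.log_nonneg h), show (11 / 10 : ℝ) = 1 + 1 / 10 by norm_num,
        Real.rpow_add (by linarith), Real.rpow_one]
      nlinarith
    nlinarith [mul_le_mul_of_nonneg_left h1 hc]

theorem edata_adm {f : XF} {R : ℝ} (mf : MeasX f) (pf : PerX f) (hfin : ∀ x v, f x v ≠ ⊤)
    (hs : ∀ x v, R ≤ ‖v‖ → f x v = 0) (hI : edataLI f) : IsAdmissibleDatum (tX f) R := by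
  refine ⟨Measurable.ennreal_toReal mf, fun _ _ => ENNReal.toReal_nonneg,
    fun v x i => congrArg ENNReal.toReal (pf v x i), fun x v hv => by simp [tX, hs x v hv], ?_⟩
  have m : Measurable fun q : R3 × R3 => f q.1 q.2 ^ (11 / 10 : ℝ) := Measurable.pow_const mf _
  refine lt_of_le_of_lt (setLIntegral_mono' (g := fun q => ENNReal.ofReal (11 + R ^ 2) *
    ((cell ×ˢ Metric.ball (0 : R3) R).indicator 1 q + f q.1 q.2 ^ (11 / 10 : ℝ)))
    (measurableSet_cell.prod MeasurableSet.univ) fun q hq => ?_) ?_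
  · rcases le_or_gt R ‖q.2‖ with h | h
    · simp [tX, hs _ _ h]
    · rw [indicator_of_mem (show q ∈ cell ×ˢ Metric.ball (0 : R3) R from
        ⟨hq.1, mem_ball_zero_iff.2 h⟩), Pi.one_apply, tX, ← ENNReal.ofReal_toReal (hfin q.1 q.2),
        ENNReal.toReal_ofReal ENNReal.toReal_nonneg,
        ENNReal.ofReal_rpow_of_nonneg ENNReal.toReal_nonneg (by norm_num), ← ENNReal.ofReal_one,
        ← ENNReal.ofReal_add zero_le_one (by positivity), ← ENNReal.ofReal_mul (by positivity)]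
      refine ENNReal.ofReal_le_ofReal ((edata_log ENNReal.toReal_nonneg (sq_nonneg _)).trans
        (mul_le_mul_of_nonneg_right ?_ (by positivity)))
      exact add_le_add le_rfl (pow_le_pow_left₀ (norm_nonneg _) h.le 2)
  · rw [lintegral_const_mul' _ _ ENNReal.ofReal_ne_top, lintegral_add_right _ m]
    exact (ENNReal.mul_ne_top ENNReal.ofReal_ne_top
      (ENNReal.add_ne_top.2 ⟨edata_ball R, hI⟩)).lt_top

theorem edata_mc (P : Qar) (ρ : ℝ) (ε : Bool) : MeasX fun x v => P.cold0 ρ ε (Xr x) v := by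
  have := Measurable.comp (measurable_cold0 P ρ ε) ((measurable_Xr.comp measurable_fst).prodMk
    (measurable_snd (α := R3) (β := R3)))
  exact this

theorem edata_fB (P : Qar) (x : R3) {v : R3} (hv : P.R ≤ ‖v‖) : P.fB x v = 0 :=
  if_neg fun h => absurd h.1 (not_lt.2 hv)

theorem edata_LI_base {P : Par} (h : P.Ok) {ρ : ℝ} (hρ : 0 ≤ ρ) :
    edataLI fun x v => P.cold0 ρ true (Xr x) v + P.cold0 ρ false (Xr x) v + P.fB x v := by
  refine ((edata_LI_cold h hρ true).add (edata_LI_cold h hρ false) (edata_mc _ _ _)).add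
    (edata_bdd (fun x v => ?_) fun x v => edata_fB _ x)
    (Measurable.add (edata_mc _ _ _) (edata_mc _ _ _))
  unfold Qar.fB
  split_ifs
  · exact (Mx_le_Gs zero_le_one v).trans (Gs_le_one le_rfl v)
  · exact zero_le

theorem edata_base_zero {P : Par} (h : P.Ok) {ρ : ℝ} (hρ : 0 ≤ ρ) (x : R3) {v : R3}
    (hv : P.R + 10 ≤ ‖v‖) :
    P.cold0 ρ true (Xr x) v + P.cold0 ρ false (Xr x) v + P.fB x v = 0 := by
  have h1 : ∀ ε, P.cold0 ρ ε (Xr x) v = 0 := fun ε => by
    by_contra h0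
    linarith [(h.cold0_supp_vol ρ hρ ε _).2 v h0, h.R_ge]
  rw [h1, h1, edata_fB _ x (by linarith), add_zero, add_zero]

theorem edata_seed_le (P : Par) (x v : R3) :
    P.seed x v ≤ if ‖Xr x‖ ≤ P.r then Gs (1 / 2) v else 0 := by
  unfold Par.seed
  by_cases h : (Xr x, v) ∈ P.Sd
  · rw [if_pos h, if_pos h.2.1]
  · rw [if_neg h]
    exact zero_le

/-- `f (1 + ‖v‖² + |log f|) ≤ C (1 + f^{1.1})` on the bounded velocity support;
`∫ ‖X‖^{-1.133+0.03} dX < ∞` -/
theorem Par.Ok.adm_fL {P : Par} (h : P.Ok) : IsAdmissibleDatum (tX P.fL) (P.R + 10) := by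
  exact edata_adm (measX_fL _) (perX_fL _) P.fL_ne_top (fun x v hv => edata_base_zero h le_rfl x hv)
    (edata_LI_base h le_rfl)

theorem Par.Ok.adm_f0 {P : Par} (h : P.Ok) {α : ℝ} (hα : α ∈ Icc (0 : ℝ) 1) :
    IsAdmissibleDatum (tX (P.f0 α)) (P.R + P.V + 10) := by
  have hV := h.V_ge
  have hR := h.R_ge
  have h1 : ∀ x v, P.V + 1 ≤ ‖v‖ → ENNReal.ofReal α * P.seed x v = 0 := fun x v hv => by
    have : P.seed x v = 0 := if_neg fun h0 => by
      have h2 : ‖v‖ ≤ P.V := h0.2.2.1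
      linarith
    rw [this, mul_zero]
  refine edata_adm (P.measX_f0 α) (P.perX_f0 α) (P.f0_ne_top α) (fun x v hv => ?_)
    ((edata_LI_base h h.r_pos.le).add (edata_bdd (fun x v => ?_) h1)
      (Measurable.add (Measurable.add (edata_mc _ _ _) (edata_mc _ _ _)) (measX_fB _)))
  · rw [Par.f0, edata_base_zero h h.r_pos.le x (by linarith), h1 x v (by linarith), add_zero]
  · refine mul_le_one' (ENNReal.ofReal_le_one.2 hα.2) ((edata_seed_le P x v).trans ?_)
    split_ifs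
    · exact Gs_le_one (by norm_num) v
    · exact zero_le

theorem Par.Ok.lintegral_fL {P : Par} (h : P.Ok) :
    ∫⁻ q in cell ×ˢ (univ : Set R3), P.fL q.1 q.2 ≠ ⊤ := by
  refine ne_top_of_le_ne_top h.adm_fL.2.2.2.2.ne (lintegral_mono fun q => ?_)
  refine (ENNReal.ofReal_toReal (P.fL_ne_top q.1 q.2)).symm.trans_le (ENNReal.ofReal_le_ofReal ?_)
  exact le_mul_of_one_le_right ENNReal.toReal_nonneg
    (by linarith [sq_nonneg ‖q.2‖, abs_nonneg (Real.log (tX P.fL q.1 q.2))])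

theorem edata_cold_le (P : Qar) {r : ℝ} (hr : 0 ≤ r) (ε : Bool) (X : ℂ) (v : R3) :
    P.cold0 r ε X v ≤ P.cold0 0 ε X v ∧ P.cold0 0 ε X v ≤
      P.cold0 r ε X v + if ‖X‖ ≤ r then P.cold0 0 ε X v ^ (1 : ℝ) else 0 := by
  constructor
  · by_cases hv : P.cold0 r ε X v = 0
    · exact hv.trans_le zero_le
    · obtain ⟨a1, a2⟩ := edata_cond hv
      rw [a2]
      exact (if_pos ⟨hr.trans_lt a1.1, a1.2⟩).ge
  · by_cases hX : ‖X‖ ≤ r
    · rw [if_pos hX, ENNReal.rpow_one]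
      exact le_add_self
    · by_cases hv : P.cold0 0 ε X v = 0
      · exact hv.trans_le zero_le
      · obtain ⟨a1, a2⟩ := edata_cond hv
        rw [a2]
        exact (if_pos ⟨not_le.1 hX, a1.2⟩).ge.trans le_self_add

/-- the difference consists of the cold particles with `‖X‖ ≤ r` (mass `≤ 2 A · 2π r`) and the seed
(mass `≤ π r² ∫ G_{1/2}`) -/
theorem f0_sub_fL : ∀ᶠ P in 𝓕, ∀ α ∈ Icc (0 : ℝ) 1, ∫⁻ q in cell ×ˢ (univ : Set R3),
    ((P.f0 α q.1 q.2 - P.fL q.1 q.2) + (P.fL q.1 q.2 - P.f0 α q.1 q.2)) ≤ ENNReal.ofReal √P.r := by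
  have hG : ∫⁻ v, Gs (1 / 2) v ≠ ⊤ := by
    simpa using lintegral_br_Gs 0 (θ := 1 / 2) (by norm_num)
  filter_upwards [ev_ok, small_r (fun Q => 60 * Q.A + 4 * (∫⁻ v, Gs (1 / 2) v).toReal)
    (c := 1 / 2) (by norm_num)] with P h h1 α hα
  have hr := h.r_pos
  have hA : 0 < P.A := by linarith [h.A_ge]
  have mG : Measurable (Gs (1 / 2)) := measurable_Gs.comp (measurable_const.prodMk measurable_id)
  have mS : Measurable fun p : ℂ × R3 => if ‖p.1‖ ≤ P.r then Gs (1 / 2) p.2 else 0 :=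
    Measurable.ite (measurableSet_le (by fun_prop) measurable_const) (mG.comp measurable_snd)
      measurable_const
  have mC : ∀ ε, Measurable fun q : R3 × R3 =>
      if ‖Xr q.1‖ ≤ P.r then P.cold0 0 ε (Xr q.1) q.2 ^ (1 : ℝ) else 0 := fun ε =>
    Measurable.ite (measurableSet_le (measurable_Xr.comp measurable_fst).norm measurable_const)
      (Measurable.pow_const (edata_mc _ _ _) _) measurable_const
  have h2 : ∫⁻ q in cell ×ˢ (univ : Set R3), (if ‖Xr q.1‖ ≤ P.r then Gs (1 / 2) q.2 else 0) ≤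
      ENNReal.ofReal (4 * (∫⁻ v, Gs (1 / 2) v).toReal * P.r) := by
    refine (edata_int (Φ := fun z v => if ‖z‖ ≤ P.r then Gs (1 / 2) v else 0) mS).trans
      (le_trans (lintegral_mono (g := (Metric.closedBall (0 : ℂ) P.r).indicator
        fun _ => ∫⁻ v, Gs (1 / 2) v) fun z => ?_) ((lintegral_indicator_const_le _ _).trans ?_))
    · by_cases hz : ‖z‖ ≤ P.r
      · simp only [if_pos hz, indicator_of_mem (mem_closedBall_zero_iff.2 hz), le_refl]
      · simp only [if_neg hz, lintegral_zero, zero_le]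
    · rw [Complex.volume_closedBall, ← ENNReal.ofReal_toReal hG,
        ENNReal.toReal_ofReal ENNReal.toReal_nonneg, ← ENNReal.ofReal_pow hr.le,
        ← ENNReal.ofReal_coe_nnreal, ← ENNReal.ofReal_mul (by positivity),
        ← ENNReal.ofReal_mul ENNReal.toReal_nonneg, NNReal.coe_real_pi]
      refine ENNReal.ofReal_le_ofReal ?_
      rw [mul_comm 4, mul_assoc]
      refine mul_le_mul_of_nonneg_left ?_ ENNReal.toReal_nonneg
      have : P.r ≤ 1 := by linarith [h.r_le', h.r₀_le, h.T₁_le']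
      nlinarith [Real.pi_le_four, Real.pi_pos, mul_pos hr hr]
  have h3 : ∀ ε, ∫⁻ q in cell ×ˢ (univ : Set R3),
      (if ‖Xr q.1‖ ≤ P.r then P.cold0 0 ε (Xr q.1) q.2 ^ (1 : ℝ) else 0) ≤
      ENNReal.ofReal (30 * P.A * P.r) := fun ε => by
    refine (edata_cold h le_rfl one_pos (by norm_num) hr ε).trans_eq ?_
    rw [← ENNReal.ofReal_mul (by positivity), Real.rpow_one,
      show (153 / 100 - 103 / 100 * 1 : ℝ) = 1 / 2 by norm_num, ← Real.sqrt_eq_rpow]
    congr 1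
    linear_combination 30 * P.A * Real.mul_self_sqrt hr.le
  refine (lintegral_mono (g := fun q => (if ‖Xr q.1‖ ≤ P.r then Gs (1 / 2) q.2 else 0) +
    ((if ‖Xr q.1‖ ≤ P.r then P.cold0 0 true (Xr q.1) q.2 ^ (1 : ℝ) else 0) +
      if ‖Xr q.1‖ ≤ P.r then P.cold0 0 false (Xr q.1) q.2 ^ (1 : ℝ) else 0)) fun q => ?_).trans ?_
  · have a1 := edata_cold_le P.toQar hr.le true (Xr q.1) q.2
    have a2 := edata_cold_le P.toQar hr.le false (Xr q.1) q.2
    refine add_le_add (tsub_le_iff_left.2 (add_le_add (add_le_add (add_le_add a1.1 a2.1) le_rfl)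
      ((mul_le_of_le_one_left' (ENNReal.ofReal_le_one.2 hα.2)).trans (edata_seed_le P _ _))))
      (tsub_le_iff_left.2 ((add_le_add (add_le_add a1.2 a2.2)
        (le_self_add (b := ENNReal.ofReal α * P.seed q.1 q.2))).trans_eq ?_))
    unfold Par.f0
    ring
  · rw [lintegral_add_right _ ((mC true).fun_add (mC false)), lintegral_add_left (mC true)]
    refine (add_le_add h2 (add_le_add (h3 true) (h3 false))).trans ?_
    rw [← ENNReal.ofReal_add (by positivity) (by positivity),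
      ← ENNReal.ofReal_add (by positivity) (by positivity)]
    refine ENNReal.ofReal_le_ofReal ?_
    rw [← Real.sqrt_eq_rpow] at h1
    have h4 := mul_le_mul_of_nonneg_right h1 (Real.sqrt_nonneg P.r)
    rw [mul_assoc, Real.mul_self_sqrt hr.le] at h4
    linarith

end

end Crest.Agent.R68
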