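import Crest.Agent.R68.Def

/-!
# R68 (S0091): definitions for the late phase
-/

set_option autoImplicit false

namespace Crest.Agent.R68

open MeasureTheory Set Filter Crest.AnalysisR.VecCalc3 Crest.AnalysisR.PDE.Boltzmann
open scoped ENNReal _root_.Topology

noncomputable section

/-- decay factor -/
def Dd (ν τ t : ℝ) : ℝ≥0∞ := ENNReal.ofReal (Real.exp (-ν * max (t - τ) 0))

/-- Gaussian weight of the late phase -/
def Gw (τ t : ℝ) : VF := Gs (1 / 4 - min t τ)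

/-- width of the late clamp -/
def Wl (ν b τ : ℝ) (Sg : PF) : PF := fun t x v =>
  Dd ν τ t * Sg t x v + ENNReal.ofReal b * Gw τ t v

/-- size of the singular remainder -/
def Kl (C τ η t : ℝ) : ℝ≥0∞ :=
  (if t < τ then ENNReal.ofReal C else 0) + ENNReal.ofReal (η * (1 + t) ^ 4)

/-- hypotheses on the transported remainder `Sg` after the time `T₁` -/
structure SgHyp (C τ η T₁ : ℝ) (Sg : PF) : Prop where
  meas : Meas Sg
  per : Per Sg
  mono : ∀ s t, T₁ ≤ s → s ≤ t → ∀ y v, Sg s (y + s • v) v ≤ Sg t (y + t • v) v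
  lin : ∀ t, T₁ ≤ t → ∀ θ ∈ Icc (1 / 5 : ℝ) (1 / 4), ∀ x v,
    Qp (Sg t x) (Gs θ) v ≤ Kl C τ η t * Gs θ v
  quad : ∀ t, T₁ ≤ t → ∀ x v, Qp (Sg t x) (Sg t x) v ≤ Kl C τ η t * Gs (1 / 4) v
  freq : ∀ t, T₁ ≤ t → ∀ x v, Nu (Sg t x) v ≤ Kl C τ η t * br v

end

end Crest.Agent.R68
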