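import Crest.Agent.R68.Par
import Crest.Agent.R68.GDef

/-!
# R68 (S0091): definitions of the construction

Horizontal positions are complex numbers.  "Planar" objects take `(t, X, v)` with `X : ℂ`;
the label of the characteristic through `(t, X, v)` is `Y = X - t • pr v`.  The objects on the
torus are obtained with `X = Xr x = red (pr x)`.

* `cb ε`: the cold stream `ε` (labels `r < ‖Y‖ ≤ r₀` in the sectors `Sec m ε (1/8)`, velocity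
  within `‖Y‖^(1/100)` of `(L Y/‖Y‖, ±1)`, density `~ A/‖X‖`), freely transported.
* `wm ε`: majorant of the "warm" particles produced by collisions inside the stream `ε`.
* `E0`: weight for the hot particles, `Bm = 2 om E0`: majorant of the background (a Maxwellian with
  a hole), `mm`: growth profile of the hot particles created from the seed.
-/

set_option autoImplicit false

namespace Crest.Agent.R68

open MeasureTheory Set Filter Crest.AnalysisR.VecCalc3 Crest.AnalysisR.PDE.Boltzmann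
open scoped ENNReal _root_.Topology

noncomputable section

open Classical

/-- sign of the stream -/
def sg (ε : Bool) : ℝ := if ε then 1 else -1
/-- wedge product -/
def wd (X ζ : ℂ) : ℝ := X.re * ζ.im - X.im * ζ.re
/-- `X / t` projected onto the disc of radius `L` -/
def uf (L t : ℝ) (X : ℂ) : ℂ := (L / max ‖X‖ (L * t)) • X
/-- sectors -/
def Sec (m : ℕ) (ε : Bool) (c : ℝ) : Set ℂ := {z | c * ‖z‖ ^ m ≤ sg ε * (z ^ m).im}
/-- the singular weight `‖a - u‖^(-3/2)` on the unit ball about `u` -/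
def Ws (u : R3) : VF :=
  (Metric.closedBall u 1).indicator fun a => ENNReal.ofReal ‖a - u‖ ^ (-(3 / 2) : ℝ)
/-- density -/
def dens (f : VF) : ℝ≥0∞ := ∫⁻ a, f a
/-- horizontal position on the torus -/
def Xr (x : R3) : ℂ := red (pr x)
/-- label of the characteristic -/
def Yt (t : ℝ) (x v : R3) : ℂ := red (pr x - t • pr v)
/-- position lifted along the characteristic -/
def Xl (t : ℝ) (x v : R3) : ℂ := Yt t x v + t • pr v
/-- profile of the streams -/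
def Jf (r κ δ : ℝ) (Y ζ : ℂ) : ℝ≥0∞ :=
  ENNReal.ofReal ((‖Y‖ + r) ^ (-κ) * (‖Y‖ + r + |wd Y ζ| / δ)⁻¹)
/-- Duhamel operator with the attenuation of `F` and the source `q` -/
def Duh (F q : PF) : PF := fun t x v =>
  ∫⁻ s in Ioo 0 t, att (Hz F (x - t • v) v s t) * q s (x - t • v + s • v) v
/-- number of particles created in `D` before the time `t` -/
def Mb (D : Set (ℝ × ℂ × R3)) (F : PF) (t : ℝ) : ℝ≥0∞ :=
  ∫⁻ p in Om3 t, D.indicator 1 (p.1, Xr p.2.1, p.2.2) * Qp (F p.1 p.2.1) (F p.1 p.2.1) p.2.2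

/-- speed bound of good particles -/
def P8.V (P : P8) : ℝ := 6 * P.U
/-- survival factor of the cold particles -/
def P9.cq (P : P9) : ℝ≥0∞ := ENNReal.ofReal (1 - P.κ₀ / P.V)
/-- centre of the stream `ε` at `(t, X)` -/
def P11.Uf (P : P11) (ε : Bool) (t : ℝ) (X : ℂ) : R3 := mk3 (uf P.L t X) (sg ε)
/-- distance to the centre of the stream -/
def P11.wn (P : P11) (ε : Bool) (t : ℝ) (X : ℂ) (v : R3) : ℝ := ‖v - P.Uf ε t X‖
/-- weight profile -/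
def P13.Om (P : P13) (ρ : ℝ) : ℝ :=
  if 1 < ρ then 0 else if P.δ₁ ≤ ρ then ρ⁻¹ ^ P.Γ else P.δ₁⁻¹ ^ P.Γ * (P.δ₁ / ρ) ^ (3 / 2 : ℝ)
/-- radius constant -/
def P14.V₁ (P : P14) : ℝ := 16 * P.N
/-- growth exponent -/
def P14.μ (P : P14) : ℕ := 8 * P.N
/-- vanishing order of the background -/
def P14.μω (P : P14) : ℕ := 8 * P.N + 12
/-- horizontal velocities of the stream `ε` -/
def P15.SV (P : P15) (ε : Bool) : Set ℂ := {ζ | P.L ≤ ‖ζ‖} ∩ Sec P.m ε (1 / 8)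
/-- distance to them -/
def P15.dv (P : P15) (ε : Bool) (v : R3) : ℝ := Metric.infDist (pr v) (P.SV ε)
/-- cut-off for `dv` -/
def P15.g₀ (P : P15) : ℝ := P.L / (32 * P.m)

namespace Qar
variable (P : Qar)
/-- the basic small quantity -/
def e₀ : ℝ := P.r₀ ^ (1 / 800 : ℝ)
/-- end of the first phase -/
def T₀ : ℝ := P.r₀ / P.C₄
/-- observation time -/
def T' : ℝ := 4 * P.V₁ * P.T₀
/-- amplitude of the hot particles -/
def a : ℝ := P.r₀ ^ (P.μ + 1)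
/-- label radius of the warm particles -/
def RW : ℝ := P.r₀ + P.T₁ * P.r₀ ^ (7 / 1600 : ℝ)
/-- cold datum with labels `ρ < ‖y‖ ≤ r₀` -/
def cold0 (ρ : ℝ) (ε : Bool) (y : ℂ) (v : R3) : ℝ≥0∞ :=
  if ρ < ‖y‖ ∧ ‖y‖ ≤ P.r₀ ∧ y ∈ Sec P.m ε (1 / 8) ∧
      ‖pr v - (P.L / ‖y‖) • y‖ ≤ ‖y‖ ^ (1 / 100 : ℝ) / 2 ∧ |v 2 - sg ε| ≤ ‖y‖ ^ (1 / 100 : ℝ) / 2
    then ENNReal.ofReal (P.A * ‖y‖ ^ (-(103 / 100) : ℝ)) else 0
/-- background datum -/
def fB : XF := fun x v => if ‖v‖ < P.R ∧ P.r₁ ≤ ‖Xr x‖ then Mx v else 0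
/-- the datum of the theorem -/
def fL : XF := fun x v => P.cold0 0 true (Xr x) v + P.cold0 0 false (Xr x) v + P.fB x v
/-- the dominating function -/
def Psi : PF := fun t x v => ENNReal.ofReal P.C₄ *
  (1 + (if ‖v‖ ≤ 4 then ENNReal.ofReal ‖Yt t x v‖ ^ (-(103 / 100) : ℝ) else 0) +
    Ws (P.Uf true t (Xl t x v)) v + Ws (P.Uf false t (Xl t x v)) v) * Gs (1 / 5) v
/-- the observation set -/
def GS : Set (ℝ × R3 × R3) := Om3 P.T' ∩ {p | 0 < ‖Xr p.2.1‖ ∧ ‖Xr p.2.1‖ ≤ P.r₀ ∧ ‖p.2.2‖ ≤ P.V ∧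
  P.δ₀ * ‖Xr p.2.1‖ ≤ |wd (Xr p.2.1) (pr p.2.2)|}
end Qar

namespace Par
variable (P : Par)
/-- shifted time -/
def th (t : ℝ) : ℝ := t + P.r / P.L
/-- inverse density scale -/
def mx (t : ℝ) (X : ℂ) : ℝ := max ‖X‖ (P.L * P.th t)
/-- parabolic distance to the origin -/
def vr (t : ℝ) (X : ℂ) : ℝ := t + ‖X‖ + P.r
/-- local small quantity -/
def ee (t : ℝ) (X : ℂ) : ℝ := (min (P.vr t X) P.r₀) ^ (1 / 800 : ℝ)
/-- velocity spread of the cold particles -/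
def sig (t : ℝ) (X : ℂ) : ℝ := P.ee t X ^ 8
/-- velocity spread of the warm particles -/
def del (t : ℝ) (X : ℂ) : ℝ := P.ee t X ^ 7
/-- cold stream -/
def cb (ε : Bool) (t : ℝ) (X : ℂ) : VF := fun v => P.cold0 P.r ε (X - t • pr v) v
/-- exponent of the warm majorant -/
def Ph (ε : Bool) (t : ℝ) (X : ℂ) (v : R3) : ℝ :=
  P.wn ε t X v / P.sig t X + P.dv ε v / P.del t X +
    max (‖X - t • pr v‖ - P.r₀) 0 / (P.vr t X * P.del t X)
/-- cut-off of the warm majorant -/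
def cut (ε : Bool) (t : ℝ) (X : ℂ) (v : R3) : Prop :=
  P.wn ε t X v ≤ P.del t X ∧ P.dv ε v ≤ P.g₀ ∧ ‖X - t • pr v‖ ≤ P.RW
/-- warm majorant -/
def wm (ε : Bool) (t : ℝ) (X : ℂ) : VF := fun v =>
  if P.cut ε t X v then Jf P.r (19 / 800) (P.del t X) (X - t • pr v) (pr v) *
    ENNReal.ofReal (Real.exp (-P.Ph ε t X v)) else 0
/-- the stream `ε` -/
def StE (ε : Bool) (t : ℝ) (X : ℂ) : VF := fun v => P.cb ε t X v + P.wm ε t X v
/-- both cold streams -/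
def cbP (t : ℝ) (X : ℂ) : VF := fun v => P.cb true t X v + P.cb false t X v
/-- both streams -/
def StP (t : ℝ) (X : ℂ) : VF := fun v => P.StE true t X v + P.StE false t X v
/-- regularised weight profile -/
def Omn (ρ : ℝ) : ℝ≥0∞ := ENNReal.ofReal (P.Om (max ρ (P.r ^ (1 / 100 : ℝ))))
/-- singular part of the weight -/
def Ew (ε : Bool) (t : ℝ) (X : ℂ) : VF := fun v =>
  if ‖X - t • pr v‖ ≤ 10 * P.T₁ then P.Omn (P.wn ε t X v) else 0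
/-- the weight -/
def E0P (t : ℝ) (X : ℂ) : VF := fun v =>
  (1 + P.Ew true t X v + P.Ew false t X v) * Gs (1 / 2 - t) v
/-- streams on the torus -/
def St : PF := fun t x => P.StP t (Xr x)
/-- weight on the torus -/
def E0 : PF := fun t x => P.E0P t (Xr x)
/-- profile of the hole -/
def om (t : ℝ) (x v : R3) : ℝ :=
  min 1 (((‖Yt t x v‖ + P.th t * (P.μω + 2 * ‖v‖)) / P.r₁) ^ P.μω)
/-- background majorant -/
def Bm : PF := fun t x v => 2 * (ENNReal.ofReal (P.om t x v) * P.E0 t x v)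
/-- growth profile -/
def mm (t : ℝ) : ℝ :=
  if t ≤ P.T₀ then P.th t / P.T₀
  else 8 * P.N * (P.th P.T₀ / P.T₀) * (P.th t / P.th P.T₀) ^ P.μ
/-- support of the seed -/
def Sd : Set (ℂ × R3) := {q | P.r / 2 ≤ ‖q.1‖ ∧ ‖q.1‖ ≤ P.r ∧ ‖q.2‖ ≤ P.V ∧
  P.δ₀ * ‖q.1‖ ≤ |wd q.1 (pr q.2)| ∧ 3 ≤ q.2 2}
/-- the seed -/
def seed : XF := fun x v => if (Xr x, v) ∈ P.Sd then Gs (1 / 2) v else 0
/-- approximate data -/
def f0 (α : ℝ) : XF := fun x v => P.cold0 P.r true (Xr x) v + P.cold0 P.r false (Xr x) v +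
  P.fB x v + ENNReal.ofReal α * P.seed x v
/-- early majorant -/
def Pe (z : ℝ) : PF := fun t x v =>
  P.St t x v + P.Bm t x v + ENNReal.ofReal (z * P.mm t) * P.E0 t x v
/-- singular remainder in the late phase -/
def Sg : PF := fun t x v =>
  (if ‖v‖ ≤ 4 ∧ ‖Yt t x v‖ ≤ P.RW then
      ENNReal.ofReal (5 * (P.A + 1) * (‖Yt t x v‖ + P.r) ^ (-(103 / 100) : ℝ)) else 0) +
    ENNReal.ofReal √P.T₁ *
      (P.Omn (P.wn true t (Xl t x v) v) + P.Omn (P.wn false t (Xl t x v) v)) +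
    (if ‖Yt t x v‖ < P.r₁ then Mx v else 0)
/-- upper clamp -/
def Pp (z : ℝ) : PF := fun t x v =>
  if t ≤ P.T₁ then P.Pe z t x v else Mx v + Wl P.ν P.b P.τ P.Sg t x v
/-- lower clamp -/
def Pm : PF := fun t x v => if t ≤ P.T₁ then 0 else Mx v - Wl P.ν P.b P.τ P.Sg t x v
/-- hot part of `F` -/
def hx (F : PF) : PF := fun t x v => F t x v - (P.St t x v + P.Bm t x v)
/-- good particles -/
def Gd : Set (ℝ × ℂ × R3) := {q | P.L * P.th q.1 / 2 ≤ ‖q.2.1‖ ∧ ‖q.2.1‖ ≤ P.V * P.th q.1 ∧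
  ‖q.2.2‖ ≤ P.V ∧ P.δ₀ * ‖q.2.1‖ ≤ |wd q.2.1 (pr q.2.2)|}
/-- semi-good particles -/
def Gsemi : Set (ℝ × ℂ × R3) := {q | P.L * P.th q.1 / 2 ≤ ‖q.2.1‖ ∧ ‖q.2.1‖ ≤ P.V₁ * P.th q.1 ∧
  ‖q.2.2‖ ≤ P.V / 2 ∧ P.δ₀ * ‖q.2.1‖ ≤ |wd q.2.1 (pr q.2.2)|}
/-- parents in the compact part of the operator -/
def Kc (ε : Bool) (t : ℝ) (X : ℂ) : Set R3 := {b | ‖b‖ ≤ 2 * P.U ∧ 1 ≤ P.wn ε t X b}
/-- source of the linear operator -/
def srcR (g : PF) : PF := fun s x v => 2 * Qp (P.St s x) (g s x) v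
/-- compact part -/
def srcK (g : PF) : PF := fun s x v =>
  if ‖Xr x‖ ≤ P.V₁ * P.th s then
    2 * Qp (P.cb true s (Xr x)) ((P.Kc true s (Xr x)).indicator (g s x)) v +
    2 * Qp (P.cb false s (Xr x)) ((P.Kc false s (Xr x)).indicator (g s x)) v
  else 0
/-- small part -/
def srcS (g : PF) : PF := fun s x v =>
  2 * Qp (P.wm true s (Xr x)) (g s x) v + 2 * Qp (P.wm false s (Xr x)) (g s x) v +
  if ‖Xr x‖ ≤ P.V₁ * P.th s then
    2 * Qp (P.cb true s (Xr x)) ((P.Kc true s (Xr x))ᶜ.indicator (g s x)) v +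
    2 * Qp (P.cb false s (Xr x)) ((P.Kc false s (Xr x))ᶜ.indicator (g s x)) v
  else 2 * Qp (P.cbP s (Xr x)) (g s x) v
/-- collision density of the compact part -/
def Theta (g : PF) (s : ℝ) (x : R3) : ℝ≥0∞ :=
  if ‖Xr x‖ ≤ P.V₁ * P.th s then
    dens (P.cb true s (Xr x)) * (∫⁻ b in P.Kc true s (Xr x), g s x b) +
    dens (P.cb false s (Xr x)) * (∫⁻ b in P.Kc false s (Xr x), g s x b)
  else 0
/-- collision mass of the compact part -/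
def Mc (g : PF) (t : ℝ) : ℝ≥0∞ := ∫⁻ p in Ioo 0 t ×ˢ cell, P.Theta g p.1 p.2
/-- rate at which a particle `v` at `(u, X)` creates children in `D` -/
def beta (D : Set (ℝ × ℂ × R3)) (u : ℝ) (X : ℂ) (v : R3) : ℝ≥0∞ :=
  ∫⁻ c, P.cq * P.cbP u X c * ∫⁻ ω, Bk (v - c) ω *
    (D.indicator 1 (u, X, postVel v c ω) + D.indicator 1 (u, X, postVelStar v c ω)) ∂sphereMeasure
/-- mass of the seed -/
def Ms : ℝ≥0∞ := ∫⁻ q in cell ×ˢ (univ : Set R3), P.seed q.1 q.2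
/-- weighted bound in the first phase -/
def Bd (g : PF) (c : ℝ≥0∞) : Prop :=
  ∀ t ∈ Icc 0 P.T₀, ∀ x v, g t x v ≤ c * (ENNReal.ofReal (P.mm t) * P.E0 t x v)
/-- outer region, where the cold density is bounded below -/
def Out (u : ℝ) (X : ℂ) : Prop := (1 + 1 / P.C₃) * P.L * P.th u ≤ ‖X‖

/-- solution of the globally truncated problem -/
structure Glob (z α : ℝ) (F : PF) : Prop where
  meas : Meas F
  per : Per F
  fin : ∀ t x v, F t x v ≠ ⊤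
  mild : ∀ T, Mild F (clamp P.Pm (P.Pp z) F) (P.f0 α) T

/-- solution on `[0, T₁]` below the early majorant -/
structure Sol (α : ℝ) (F : PF) : Prop where
  meas : Meas F
  per : Per F
  fin : ∀ t x v, F t x v ≠ ⊤
  mild : Mild F F (P.f0 α) P.T₁
  le : ∀ t ∈ Icc 0 P.T₁, ∀ x v, F t x v ≤ P.Pe (2 * P.a) t x v
  α_nonneg : 0 ≤ α
  α_le : α ≤ 3 * P.a * P.mm 0

/-- basic relations between the parameters -/
structure Ok : Prop where
  b_pos : 0 < P.b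
  b_le : P.b ≤ 1
  ν_pos : 0 < P.ν
  τ_pos : 0 < P.τ
  τ_le : P.τ ≤ 1 / 20
  η_pos : 0 < P.η
  η_le : P.η ≤ 1
  R_ge : 1 ≤ P.R
  r₁_pos : 0 < P.r₁
  r₁_le : P.r₁ ≤ 1 / 100
  Γ_ge : 10 ≤ P.Γ
  U_ge : 1000 ≤ P.U
  κ₀_pos : 0 < P.κ₀
  κ₀_le : P.κ₀ ≤ 1 / 100
  δ₀_pos : 0 < P.δ₀
  δ₀_le : P.δ₀ ≤ P.κ₀ / 1000000
  L_pos : 0 < P.L
  L_le : P.L ≤ P.δ₀ / 1000
  A_ge : 1 ≤ P.A
  δ₁_pos : 0 < P.δ₁
  δ₁_le : P.δ₁ ≤ 1 / 100
  N_ge_U : 10 * P.U ≤ P.N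
  N_ge_L : 1 / P.L ≤ P.N
  m_ge : 1 ≤ P.m
  C₃_ge : 100 * (P.N : ℝ) ^ 4 ≤ P.C₃
  C₄_ge : P.C₃ ^ 2 ≤ P.C₄
  T₁_pos : 0 < P.T₁
  T₁_le_τ : P.T₁ ≤ P.τ
  T₁_le : P.T₁ ≤ P.r₁ / (100 * (P.R + 100))
  r₀_pos : 0 < P.r₀
  r₀_le : P.r₀ ≤ P.T₁
  e₀_le_g : P.e₀ ≤ P.g₀ / 10
  e₀_le_δ : P.e₀ ≤ P.δ₁ / (100 * P.Γ)
  e₀_le_L : P.e₀ ≤ P.L / (100 * P.C₃ ^ 2 * P.m)
  e₀_le_C : P.e₀ ≤ 1 / P.C₄
  r_pos : 0 < P.r
  r_le : P.r ≤ P.L * P.T₀ / 10
end Par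

theorem ev_e₀ (g : P18 → ℝ) : ∀ᶠ P in 𝓕, 0 < g P.toP18 → P.e₀ ≤ g P.toP18 := by
  filter_upwards [small_r0 (fun Q => (g Q)⁻¹) (c := 1 / 800) (by norm_num)] with P h hg
  have : (g P.toP18)⁻¹ * P.e₀ ≤ 1 := h
  rwa [inv_mul_le_iff₀ hg, mul_one] at this

/-- `g * e₀ ^ c ≤ 1` eventually -/
theorem small_e₀ (g : P18 → ℝ) {c : ℝ} (hc : 0 < c) : ∀ᶠ P in 𝓕, g P.toP18 * P.e₀ ^ c ≤ 1 := by
  filter_upwards [small_r0 g (c := 1 / 800 * c) (by positivity), le_r0 fun _ => 1] with P h h0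
  have : P.e₀ ^ c = P.r₀ ^ (1 / 800 * c) := by rw [Qar.e₀, ← Real.rpow_mul h0.1.le]
  rwa [this]

theorem ev_ok : ∀ᶠ P in 𝓕, P.Ok := by
  filter_upwards [le_b fun _ => 1, le_nu fun _ => 1, le_tau fun _ => 1 / 20, le_eta fun _ => 1,
    big_R fun _ => 1, le_r1 fun _ => 1 / 100, big_Gam fun _ => 10, big_U fun _ => 1000,
    le_k0 fun _ => 1 / 100, le_d0 fun Q => Q.κ₀ / 1000000, le_L fun Q => Q.δ₀ / 1000,
    big_A fun _ => 1, le_d1 fun _ => 1 / 100, big_N fun Q => 10 * Q.U, big_N fun Q => 1 / Q.L,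
    big_m fun _ => 1, big_C3 fun Q => 100 * (Q.N : ℝ) ^ 4, big_C4 fun Q => Q.C₃ ^ 2,
    le_T1 fun Q => Q.τ, le_T1 fun Q => Q.r₁ / (100 * (Q.R + 100)), le_r0 fun Q => Q.T₁,
    ev_e₀ fun Q => Q.g₀ / 10, ev_e₀ fun Q => Q.δ₁ / (100 * Q.Γ),
    ev_e₀ fun Q => Q.L / (100 * Q.C₃ ^ 2 * Q.m), ev_e₀ fun Q => 1 / Q.C₄,
    le_r fun Q => Q.L * Q.T₀ / 10]
    with P hb hν hτ hη hR hr₁ hΓ hU hκ hδ hL hA hδ₁ hN hN' hm hC₃ hC₄ hT hT' hr₀ e1 e2 e3 e4 hr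
  have hm0 : (0 : ℝ) < P.m := lt_of_lt_of_le one_pos hm
  have hΓ0 : (0 : ℝ) < P.Γ := lt_of_lt_of_le (by norm_num) hΓ
  have hN0 : (0 : ℝ) < P.N := by linarith
  have hC0 : 0 < P.C₃ := lt_of_lt_of_le (by positivity) hC₃
  have hC1 : 0 < P.C₄ := lt_of_lt_of_le (by positivity) hC₄
  have hL0 := hL.1
  have hr0 := hr₀.1
  have hR0 : 0 < P.R := by linarith
  have hr1 := hr₁.1
  have hd1 := hδ₁.1
  have hk := hκ.1
  have hd := hδ.1
  exact ⟨hb.1, hb.2 one_pos, hν.1, hτ.1, hτ.2 (by norm_num), hη.1, hη.2 one_pos, hR, hr₁.1,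
    hr₁.2 (by norm_num), by exact_mod_cast hΓ, hU, hκ.1, hκ.2 (by norm_num), hδ.1,
    hδ.2 (by positivity), hL.1, hL.2 (by positivity), hA, hδ₁.1, hδ₁.2 (by norm_num), hN, hN',
    by exact_mod_cast hm, hC₃, hC₄, hT.1, hT.2 hτ.1, hT'.2 (by positivity), hr₀.1, hr₀.2 hT.1,
    e1 (by unfold P15.g₀; positivity), e2 (by positivity), e3 (by positivity), e4 (by positivity),
    hr.1, hr.2 (by unfold Qar.T₀; positivity)⟩

end

end Crest.Agent.R68
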