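import Crest.Agent.R68.ESupp

/-!
# R68 (S0091): upper bound for the cold density
-/

set_option autoImplicit false

namespace Crest.Agent.R68

open MeasureTheory Set Filter Crest.AnalysisR.VecCalc3 Crest.AnalysisR.PDE.Boltzmann
open scoped ENNReal _root_.Topology

noncomputable section

private theorem edens1_low {t : ℝ} (ht : 0 < t) :
    ∫⁻ s in Ioc 0 ((2 * t) ^ (100 / 99 : ℝ)), ENNReal.ofReal (s ^ (-(1 / 100) : ℝ)) ≤
      ENNReal.ofReal (3 * t) := by
  have h0 : 0 ≤ (2 * t) ^ (100 / 99 : ℝ) := by positivity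
  have hi : IntervalIntegrable (fun s : ℝ => s ^ (-(1 / 100) : ℝ)) volume 0
      ((2 * t) ^ (100 / 99 : ℝ)) := intervalIntegral.intervalIntegrable_rpow' (by norm_num)
  rw [← ofReal_integral_eq_lintegral_ofReal hi.1
    (ae_restrict_of_forall_mem measurableSet_Ioc fun s hs => Real.rpow_nonneg hs.1.le _),
    ← intervalIntegral.integral_of_le h0, integral_rpow (Or.inl (by norm_num))]
  apply ENNReal.ofReal_le_ofReal
  rw [← Real.rpow_mul (by positivity), Real.zero_rpow (by norm_num),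
    show (100 / 99 * (-(1 / 100) + 1) : ℝ) = 1 by norm_num, Real.rpow_one, div_le_iff₀ (by norm_num)]
  linarith

private theorem edens1_two {x y : ℝ} (hx : 0 ≤ x) (hy : 0 ≤ y) (h : x ≤ 2 * y) :
    x ^ (1 / 100 : ℝ) ≤ 2 * y ^ (1 / 100 : ℝ) := by
  calc x ^ (1 / 100 : ℝ) ≤ (2 * y) ^ (1 / 100 : ℝ) := Real.rpow_le_rpow hx h (by norm_num)
    _ = 2 ^ (1 / 100 : ℝ) * y ^ (1 / 100 : ℝ) := Real.mul_rpow (by norm_num) hy
    _ ≤ 2 ^ (1 : ℝ) * y ^ (1 / 100 : ℝ) := by
        gcongr <;> norm_num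
    _ = _ := by rw [Real.rpow_one]

/-- radial part: for `s^{0.99} ≤ 2t` integrate `s^{-0.01}` directly (`≤ 3t`); for `s^{0.99} > 2t`
one has `t s^{0.01}/2 ≤ s/4`, so `4D/5 ≤ s ≤ 4D/3`, `|D - s| ≤ t D^{0.01}`,
`s^{-0.01} ≤ 2 D^{-0.01}` (`≤ 4t`). -/
theorem radial_le {t : ℝ} (ht : 0 < t) (D : ℝ) :
    ∫⁻ s in {s : ℝ | 0 < s ∧ |D - s| ≤ t * s ^ (1 / 100 : ℝ) / 2},
      ENNReal.ofReal (s ^ (-(1 / 100) : ℝ)) ≤ ENNReal.ofReal (7 * t) := by
  set s₀ := (2 * t) ^ (100 / 99 : ℝ) with hs₀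
  have hbig : ∀ s : ℝ, 0 < s → |D - s| ≤ t * s ^ (1 / 100 : ℝ) / 2 → s₀ < s →
      0 < D ∧ D ≤ 2 * s ∧ |s - D| ≤ t * D ^ (1 / 100 : ℝ) := by
    intro s hs h1 h2
    have h3 : 2 * t ≤ s ^ (99 / 100 : ℝ) := by
      have := Real.rpow_le_rpow (by positivity) h2.le (show (0 : ℝ) ≤ 99 / 100 by norm_num)
      rwa [hs₀, ← Real.rpow_mul (by positivity), show (100 / 99 * (99 / 100) : ℝ) = 1 by norm_num,
        Real.rpow_one] at this
    have h4 : s ^ (99 / 100 : ℝ) * s ^ (1 / 100 : ℝ) = s := by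
      rw [← Real.rpow_add hs]; norm_num
    have h5 := mul_le_mul_of_nonneg_right h3 (Real.rpow_nonneg hs.le (1 / 100 : ℝ))
    have h6 : |D - s| ≤ s / 4 := by linarith
    rw [abs_le] at h6
    have hD : 0 < D := by linarith
    refine ⟨hD, by linarith, ?_⟩
    have h7 := mul_le_mul_of_nonneg_left (edens1_two hs.le hD.le (by linarith)) ht.le
    rw [abs_sub_comm]
    linarith
  have hlow := edens1_low ht
  by_cases hD : 0 < D
  · set S2 : Set ℝ := Metric.closedBall D (t * D ^ (1 / 100 : ℝ)) ∩ Ici (D / 2) with hS2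
    have hsub : {s : ℝ | 0 < s ∧ |D - s| ≤ t * s ^ (1 / 100 : ℝ) / 2} ⊆ Ioc 0 s₀ ∪ S2 := by
      rintro s ⟨hs, h1⟩
      by_cases h2 : s ≤ s₀
      · exact Or.inl ⟨hs, h2⟩
      · obtain ⟨-, h3, h4⟩ := hbig s hs h1 (not_le.1 h2)
        exact Or.inr ⟨by rwa [Metric.mem_closedBall, Real.dist_eq], by
          rw [mem_Ici]; linarith⟩
    have hDa : 0 < D ^ (1 / 100 : ℝ) := Real.rpow_pos_of_pos hD _
    have h2 : ∫⁻ s in S2, ENNReal.ofReal (s ^ (-(1 / 100) : ℝ)) ≤ ENNReal.ofReal (4 * t) := by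
      calc ∫⁻ s in S2, ENNReal.ofReal (s ^ (-(1 / 100) : ℝ))
          ≤ ∫⁻ _ in S2, ENNReal.ofReal (2 / D ^ (1 / 100 : ℝ)) := by
            refine setLIntegral_mono' (measurableSet_closedBall.inter measurableSet_Ici)
              fun s hs => ENNReal.ofReal_le_ofReal ?_
            have h3 : D / 2 ≤ s := hs.2
            have hs0 : 0 < s := by linarith
            rw [Real.rpow_neg hs0.le, inv_eq_one_div,
              div_le_div_iff₀ (Real.rpow_pos_of_pos hs0 _) hDa, one_mul]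
            exact edens1_two hD.le hs0.le (by linarith)
        _ ≤ ENNReal.ofReal (2 / D ^ (1 / 100 : ℝ)) *
              ENNReal.ofReal (2 * (t * D ^ (1 / 100 : ℝ))) := by
            rw [setLIntegral_const, ← Real.volume_closedBall D]
            gcongr
            exact inter_subset_left
        _ = _ := by
            rw [← ENNReal.ofReal_mul (by positivity)]
            congr 1
            field_simp
            ring
    refine (lintegral_mono_set hsub).trans ((lintegral_union_le _ _ _).trans ?_)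
    rw [show 7 * t = 3 * t + 4 * t by ring, ENNReal.ofReal_add (by positivity) (by positivity)]
    exact add_le_add hlow h2
  · have hsub : {s : ℝ | 0 < s ∧ |D - s| ≤ t * s ^ (1 / 100 : ℝ) / 2} ⊆ Ioc 0 s₀ := by
      rintro s ⟨hs, h1⟩
      by_contra h2
      exact hD (hbig s hs h1 (not_le.1 fun h3 => h2 ⟨hs, h3⟩)).1
    exact (lintegral_mono_set hsub).trans (hlow.trans (ENNReal.ofReal_le_ofReal (by linarith)))

private theorem edens1_angle {R ρ δ φ : ℝ} (hR : 0 < R) (hρ : δ < ρ) (hδ : 0 ≤ δ)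
    (hφ : φ ∈ Ioo (-Real.pi) Real.pi)
    (h : ‖(R : ℂ) - ρ * (Real.cos φ + Real.sin φ * Complex.I)‖ ≤ δ) :
    |R - ρ| ≤ δ ∧ |φ| ≤ Real.pi * δ / (2 * R) := by
  have h1 := pow_le_pow_left₀ (norm_nonneg _) h 2
  rw [Complex.sq_norm, Complex.normSq_apply] at h1
  simp only [Complex.sub_re, Complex.ofReal_re, Complex.mul_re, Complex.add_re, Complex.I_re,
    Complex.ofReal_im, Complex.I_im, Complex.add_im, Complex.mul_im, Complex.sub_im, mul_zero,
    mul_one, zero_mul, sub_zero, add_zero, zero_add, zero_sub] at h1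
  have h2 := Real.sin_sq_add_cos_sq φ
  have h3 : (R * Real.cos φ - ρ) ^ 2 + (R * Real.sin φ) ^ 2 ≤ δ ^ 2 := by
    have e : (R * Real.cos φ - ρ) ^ 2 + (R * Real.sin φ) ^ 2 =
        (R - ρ * Real.cos φ) * (R - ρ * Real.cos φ) +
          -(ρ * Real.sin φ) * -(ρ * Real.sin φ) := by
      linear_combination (R ^ 2 - ρ ^ 2) * h2
    linarith
  have hρ0 : 0 < ρ := hδ.trans_lt hρ
  refine ⟨abs_le_of_sq_le_sq' ?_ hδ |> abs_le.2, ?_⟩
  · have h4 := mul_le_mul_of_nonneg_left (Real.cos_le_one φ) (mul_pos hR hρ0).le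
    have e : (R * Real.cos φ - ρ) ^ 2 + (R * Real.sin φ) ^ 2 =
        R ^ 2 + ρ ^ 2 - 2 * (R * ρ * Real.cos φ) := by
      linear_combination R ^ 2 * h2
    nlinarith
  · have h4 := (abs_le_of_sq_le_sq' (a := R * Real.cos φ - ρ)
      (by nlinarith [sq_nonneg (R * Real.sin φ)]) hδ).1
    have h5 : 0 < Real.cos φ := (mul_pos_iff_of_pos_left hR).1 (by linarith)
    have h6 : |φ| ≤ Real.pi / 2 := by
      by_contra h7
      have h8 : |φ| < Real.pi := abs_lt.2 hφ
      have := Real.cos_nonpos_of_pi_div_two_le_of_le (not_le.1 h7).le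
        (by linarith [Real.pi_pos])
      rw [Real.cos_abs] at this
      linarith
    have h7 := Real.mul_abs_le_abs_sin h6
    have h8 : |R * Real.sin φ| ≤ δ := abs_le.2 (abs_le_of_sq_le_sq'
      (by nlinarith [sq_nonneg (R * Real.cos φ - ρ)]) hδ)
    rw [abs_mul, abs_of_pos hR] at h8
    have h9 := mul_le_mul_of_nonneg_left h7 hR.le
    have hπ := Real.pi_pos
    rw [le_div_iff₀ (by positivity)]
    have h10 : R * (2 / Real.pi * |φ|) * Real.pi = |φ| * (2 * R) := by field_simp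
    nlinarith

private theorem edens1_polar {A L t r0 R : ℝ} (hA : 0 ≤ A) (ht : 0 < t) (hR : 0 < R)
    (hL : ∀ s, 0 < s → s ≤ r0 → s ^ (1 / 100 : ℝ) ≤ L) :
    ∫⁻ y : ℂ, (if 0 < ‖y‖ ∧ ‖y‖ ≤ r0 ∧
        ‖(R : ℂ) - y - (t * L / ‖y‖) • y‖ ≤ t * ‖y‖ ^ (1 / 100 : ℝ) / 2
      then ENNReal.ofReal (A * ‖y‖ ^ (-(102 / 100) : ℝ)) else 0) ≤
      ENNReal.ofReal (12 * A * t ^ 2 / R) := by
  set S : Set ℝ := {s : ℝ | 0 < s ∧ |R - t * L - s| ≤ t * s ^ (1 / 100 : ℝ) / 2} with hS
  have hπ := Real.pi_pos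
  rw [← Complex.lintegral_comp_polarCoord_symm]
  calc _ ≤ ∫⁻ p in polarCoord.target,
        S.indicator (fun s => ENNReal.ofReal (A * s ^ (-(2 / 100) : ℝ))) p.1 *
          (Metric.closedBall (0 : ℝ)
            (Real.pi * (t * p.1 ^ (1 / 100 : ℝ) / 2) / (2 * R))).indicator 1 p.2 := by
        refine setLIntegral_mono' polarCoord.open_target.measurableSet ?_
        rintro ⟨s, φ⟩ ⟨hs, hφ⟩
        have hs0 : 0 < s := hs
        rw [Complex.norm_polarCoord_symm, abs_of_pos hs0]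
        split_ifs with hc
        · obtain ⟨-, h1, h2⟩ := hc
          have hsa := Real.rpow_pos_of_pos hs0 (1 / 100 : ℝ)
          have h3 := mul_le_mul_of_nonneg_left (hL s hs0 h1) ht.le
          have e : (R : ℂ) - Complex.polarCoord.symm (s, φ) -
              (t * L / s) • Complex.polarCoord.symm (s, φ) =
              (R : ℂ) - ((s + t * L : ℝ) : ℂ) * (Real.cos φ + Real.sin φ * Complex.I) := by
            have : (s : ℂ) ≠ 0 := by exact_mod_cast hs0.ne'
            rw [Complex.polarCoord_symm_apply, Complex.real_smul]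
            push_cast
            field_simp
            ring
          rw [e] at h2
          obtain ⟨h4, h5⟩ := edens1_angle hR (by nlinarith) (by positivity) hφ h2
          rw [indicator_of_mem (show s ∈ S from ⟨hs0, by
              rwa [show R - t * L - s = R - (s + t * L) by ring]⟩),
            indicator_of_mem (by rwa [Metric.mem_closedBall, dist_zero_right, Real.norm_eq_abs]),
            Pi.one_apply, mul_one, smul_eq_mul, ← ENNReal.ofReal_mul hs0.le]
          refine ENNReal.ofReal_le_ofReal (le_of_eq ?_)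
          rw [show (-(2 / 100) : ℝ) = 1 + -(102 / 100) by norm_num, Real.rpow_add hs0,
            Real.rpow_one]
          ring
        · simp
    _ ≤ ∫⁻ s : ℝ, ∫⁻ φ : ℝ,
        S.indicator (fun s => ENNReal.ofReal (A * s ^ (-(2 / 100) : ℝ))) s *
          (Metric.closedBall (0 : ℝ)
            (Real.pi * (t * s ^ (1 / 100 : ℝ) / 2) / (2 * R))).indicator 1 φ := by
        refine (setLIntegral_le_lintegral _ _).trans ?_
        rw [Measure.volume_eq_prod]
        exact lintegral_prod_le _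
    _ = ∫⁻ s : ℝ, S.indicator (fun s => ENNReal.ofReal (A * Real.pi * t / (2 * R)) *
          ENNReal.ofReal (s ^ (-(1 / 100) : ℝ))) s := by
        refine lintegral_congr fun s => ?_
        rw [lintegral_const_mul _ (measurable_one.indicator measurableSet_closedBall),
          lintegral_indicator_one measurableSet_closedBall, Real.volume_closedBall]
        by_cases hs : s ∈ S
        · have hs0 : 0 < s := hs.1
          rw [indicator_of_mem hs, indicator_of_mem hs, ← ENNReal.ofReal_mul (by positivity),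
            ← ENNReal.ofReal_mul (by positivity)]
          congr 1
          rw [show (-(1 / 100) : ℝ) = -(2 / 100) + 1 / 100 by norm_num, Real.rpow_add hs0]
          field_simp
        · rw [indicator_of_notMem hs, indicator_of_notMem hs, zero_mul]
    _ ≤ ENNReal.ofReal (A * Real.pi * t / (2 * R)) * ENNReal.ofReal (7 * t) := by
        refine (lintegral_indicator_le _ _).trans ?_
        rw [lintegral_const_mul' _ _ ENNReal.ofReal_ne_top]
        gcongr
        exact radial_le ht _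
    _ ≤ _ := by
        rw [← ENNReal.ofReal_mul (by positivity)]
        refine ENNReal.ofReal_le_ofReal ?_
        have h1 : A * Real.pi * t / (2 * R) * (7 * t) = 7 / 2 * Real.pi * (A * t ^ 2 / R) := by
          field_simp
        have h2 : 12 * A * t ^ 2 / R = 12 * (A * t ^ 2 / R) := by ring
        rw [h1, h2]
        exact mul_le_mul_of_nonneg_right (by linarith [Real.pi_lt_d2]) (by positivity)

private theorem edens1_vert {P : Par} (h : P.Ok) (ε : Bool) (y ζ : ℂ) :
    ∫⁻ s : ℝ, P.cold0 P.r ε y (mk3 ζ s) ≤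
      if 0 < ‖y‖ ∧ ‖y‖ ≤ P.r₀ ∧ ‖ζ - (P.L / ‖y‖) • y‖ ≤ ‖y‖ ^ (1 / 100 : ℝ) / 2
      then ENNReal.ofReal (P.A * ‖y‖ ^ (-(102 / 100) : ℝ)) else 0 := by
  have hA : 0 ≤ P.A := by linarith [h.A_ge]
  split_ifs with hc
  · calc _ ≤ ∫⁻ s : ℝ, (Metric.closedBall (sg ε) (‖y‖ ^ (1 / 100 : ℝ) / 2)).indicator
          (fun _ => ENNReal.ofReal (P.A * ‖y‖ ^ (-(103 / 100) : ℝ))) s := by
          refine lintegral_mono fun s => ?_
          unfold Qar.cold0
          split_ifs with h1
          · rw [indicator_of_mem]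
            simpa [Real.dist_eq] using h1.2.2.2.2
          · exact zero_le
      _ = _ := by
          rw [lintegral_indicator_const measurableSet_closedBall, Real.volume_closedBall,
            ← ENNReal.ofReal_mul (by positivity)]
          congr 1
          rw [show (-(102 / 100) : ℝ) = -(103 / 100) + 1 / 100 by norm_num, Real.rpow_add hc.1]
          ring
  · refine le_of_eq ((lintegral_congr fun s => ?_).trans lintegral_zero)
    unfold Qar.cold0
    refine if_neg fun h1 => hc ⟨h.r_pos.trans h1.1, h1.2.1, ?_⟩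
    simpa using h1.2.2.2.1

private theorem edens1_small {P : Par} (h : P.Ok) {s : ℝ} (hs : 0 < s) (h1 : s ≤ P.r₀) :
    s ^ (1 / 100 : ℝ) ≤ P.L := by
  have h2 := h.e₀_pos
  have h3 := h.e₀_le
  have h4 := h.L_le'
  calc s ^ (1 / 100 : ℝ) ≤ P.r₀ ^ (1 / 100 : ℝ) := Real.rpow_le_rpow hs.le h1 (by norm_num)
    _ = P.e₀ ^ (8 : ℝ) := by
        rw [Qar.e₀, ← Real.rpow_mul h.r₀_pos.le]; norm_num
    _ ≤ P.e₀ ^ (1 : ℝ) := Real.rpow_le_rpow_of_exponent_ge h2 (by linarith) (by norm_num)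
    _ ≤ _ := by rw [Real.rpow_one]; linarith

private theorem edens1_subst {t : ℝ} (ht : 0 < t) (X u : ℂ) (hu : ‖u‖ = 1) (H : ℂ → ℝ≥0∞) :
    ∫⁻ ζ : ℂ, H (X - t • ζ) = ENNReal.ofReal (t ^ 2)⁻¹ * ∫⁻ y, H (u * y) := by
  have h1 : ∫⁻ ζ : ℂ, H (X - t • ζ) = ∫⁻ w, H (X - w) ∂(Measure.map (t • ·) volume) :=
    ((measurableEmbedding_const_smul₀ ht.ne').lintegral_map fun w => H (X - w)).symm
  have h2 : ∫⁻ y, H (u * y) = ∫⁻ y, H y :=
    (rotation ⟨u, by simpa [Submonoid.unitSphere] using hu⟩).measurePreserving.lintegral_comp_emb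
      (rotation ⟨u, by simpa [Submonoid.unitSphere] using hu⟩).toHomeomorph.measurableEmbedding H
  rw [h1, h2, Measure.map_addHaar_smul _ ht.ne', lintegral_smul_measure,
    lintegral_sub_left_eq_self H X, Complex.finrank_real_complex, abs_of_pos (by positivity),
    smul_eq_mul]

/-- If the density is not zero, `‖X‖ ≥ L th / 2` (`cb_supp`), so `mx ≤ 2‖X‖` and it suffices to prove
the bound `11 A/‖X‖`.  `lintegral_mk3`: the vertical integral gives `A s^{-1.02}`, `s = ‖y‖`.
`t = 0`: `y = X`, the disc has area `π s^{0.02}/4`.  `t > 0`: substitute `y = X - tζ`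
(`dζ = dy/t²`), `y = (X/‖X‖) s e^{iφ}` (`Complex.lintegral_comp_polarCoord_symm`); the constraint
is `|‖X‖ - (s + tL) e^{iφ}| ≤ t s^{0.01}/2`.  It implies `|‖X‖ - tL - s| ≤ t s^{0.01}/2`,
`cos φ > 0` (as `s^{0.01}/2 < L`) and `‖X‖ |sin φ| ≤ t s^{0.01}/2`, so
`|φ| ≤ π t s^{0.01}/(4‖X‖)` (`Real.mul_abs_le_abs_sin`).  Total
`A t⁻² · π t/(2‖X‖) · ∫ s^{-0.01} ≤ (7π/2) A/‖X‖` by `radial_le`. -/
theorem Par.Ok.dens_cb_le {P : Par} (h : P.Ok) (ε : Bool) {t : ℝ} (ht : 0 ≤ t) (X : ℂ) :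
    dens (P.cb ε t X) ≤ ENNReal.ofReal (25 * P.A / P.mx t X) := by
  by_cases h0 : ∀ v, P.cb ε t X v = 0
  · rw [dens, lintegral_congr h0, lintegral_zero]
    exact zero_le
  obtain ⟨v, hv⟩ := not_forall.1 h0
  have hA : 0 ≤ P.A := by linarith [h.A_ge]
  have hsupp := (h.cb_supp ht hv).2.2.2.2
  have hth : 0 < P.L * P.th t := mul_pos h.L_pos (h.th_pos ht)
  have hC : 1 / P.C₃ ≤ 1 / 2 :=
    one_div_le_one_div_of_le (by norm_num) (by linarith [h.C₃_ge'])
  have h2X : P.L * P.th t ≤ 2 * ‖X‖ := by nlinarith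
  have hX : 0 < ‖X‖ := by linarith
  refine le_trans ?_ (ENNReal.ofReal_le_ofReal (show 12 * P.A / ‖X‖ ≤ _ from ?_))
  swap
  · rw [div_le_div_iff₀ hX (h.mx_pos ht X)]
    have : P.mx t X ≤ 2 * ‖X‖ := max_le (by linarith) h2X
    nlinarith
  have hm : Measurable (P.cb ε t X) :=
    (P.measurable_cb ε).comp (measurable_const.prodMk (measurable_const.prodMk measurable_id))
  rw [dens, lintegral_mk3 _ hm]
  simp only [Par.cb, pr_mk3]
  refine (lintegral_mono fun ζ => edens1_vert h ε (X - t • ζ) ζ).trans ?_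
  rcases ht.eq_or_lt with rfl | ht0
  · simp only [zero_smul, sub_zero]
    calc _ ≤ ∫⁻ ζ : ℂ, (Metric.closedBall ((P.L / ‖X‖) • X) (‖X‖ ^ (1 / 100 : ℝ) / 2)).indicator
          (fun _ => ENNReal.ofReal (P.A * ‖X‖ ^ (-(102 / 100) : ℝ))) ζ := by
          refine lintegral_mono fun ζ => ?_
          split_ifs with h1
          · rw [indicator_of_mem]
            rw [mem_closedBall_iff_norm]
            exact h1.2.2
          · exact zero_le
      _ ≤ _ := by
          rw [lintegral_indicator_const measurableSet_closedBall, Complex.volume_closedBall,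
            ← ENNReal.ofReal_coe_nnreal, NNReal.coe_real_pi, ← ENNReal.ofReal_pow (by positivity),
            ← ENNReal.ofReal_mul (by positivity), ← ENNReal.ofReal_mul (by positivity)]
          refine ENNReal.ofReal_le_ofReal ?_
          have e : ‖X‖ ^ (-(102 / 100) : ℝ) * (‖X‖ ^ (1 / 100 : ℝ)) ^ 2 = ‖X‖⁻¹ := by
            rw [sq, ← Real.rpow_add hX, ← Real.rpow_add hX, ← Real.rpow_neg_one]
            norm_num
          calc P.A * ‖X‖ ^ (-(102 / 100) : ℝ) * ((‖X‖ ^ (1 / 100 : ℝ) / 2) ^ 2 * Real.pi)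
              = Real.pi / 4 * (P.A * (‖X‖ ^ (-(102 / 100) : ℝ) * (‖X‖ ^ (1 / 100 : ℝ)) ^ 2)) := by
                ring
            _ ≤ 12 * (P.A * ‖X‖⁻¹) := by
                rw [e]
                exact mul_le_mul_of_nonneg_right (by linarith [Real.pi_lt_d2]) (by positivity)
            _ = _ := by ring
  · set u : ℂ := X / ‖X‖ with hu
    have hXc : ((‖X‖ : ℝ) : ℂ) ≠ 0 := by exact_mod_cast hX.ne'
    have hu1 : ‖u‖ = 1 := by
      rw [hu, norm_div, Complex.norm_real, norm_norm, div_self hX.ne']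
    have huX : X = u * ‖X‖ := by rw [hu, div_mul_cancel₀ _ hXc]
    set H : ℂ → ℝ≥0∞ := fun y => if 0 < ‖y‖ ∧ ‖y‖ ≤ P.r₀ ∧
        ‖X - y - (t * P.L / ‖y‖) • y‖ ≤ t * ‖y‖ ^ (1 / 100 : ℝ) / 2
      then ENNReal.ofReal (P.A * ‖y‖ ^ (-(102 / 100) : ℝ)) else 0 with hH
    calc _ ≤ ∫⁻ ζ : ℂ, H (X - t • ζ) := by
          refine lintegral_mono fun ζ => ?_
          split_ifs with h1
          · simp only [hH]
            rw [if_pos]
            refine ⟨h1.1, h1.2.1, ?_⟩
            rw [sub_sub_cancel, mul_div_assoc, mul_smul, ← smul_sub, norm_smul,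
              Real.norm_of_nonneg ht, mul_div_assoc]
            exact mul_le_mul_of_nonneg_left h1.2.2 ht
          · exact zero_le
      _ = ENNReal.ofReal (t ^ 2)⁻¹ * ∫⁻ y, H (u * y) := edens1_subst ht0 X u hu1 H
      _ ≤ ENNReal.ofReal (t ^ 2)⁻¹ * ENNReal.ofReal (12 * P.A * t ^ 2 / ‖X‖) := by
          gcongr
          refine le_trans (le_of_eq (lintegral_congr fun y => ?_))
            (edens1_polar (r0 := P.r₀) (L := P.L) hA ht0 hX fun s hs h1 => edens1_small h hs h1)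
          have e1 : ‖u * y‖ = ‖y‖ := by rw [norm_mul, hu1, one_mul]
          have e2 : ‖X - u * y - (t * P.L / ‖y‖) • (u * y)‖ =
              ‖((‖X‖ : ℝ) : ℂ) - y - (t * P.L / ‖y‖) • y‖ := by
            have : X - u * y - (t * P.L / ‖y‖) • (u * y) =
                u * (((‖X‖ : ℝ) : ℂ) - y - (t * P.L / ‖y‖) • y) := by
              rw [mul_sub, mul_sub, ← huX, mul_smul_comm]
            rw [this, norm_mul, hu1, one_mul]
          simp only [hH, e1, e2]
      _ = _ := by
          rw [← ENNReal.ofReal_mul (by positivity)]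
          congr 1
          field_simp

end

end Crest.Agent.R68
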