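import Crest.Agent.R68.ESupp

/-!
# R68 (S0091): the `L^p` bound for the profile `Jf`
-/

set_option autoImplicit false

namespace Crest.Agent.R68

open MeasureTheory Set Filter Crest.AnalysisR.VecCalc3 Crest.AnalysisR.PDE.Boltzmann
open scoped ENNReal _root_.Topology

noncomputable section

theorem elp_anti {x y : ℝ≥0∞} (h : x ≤ y) {a : ℝ} (ha : 0 ≤ a) : y ^ (-a) ≤ x ^ (-a) := by
  rw [ENNReal.rpow_neg, ENNReal.rpow_neg]
  exact ENNReal.inv_le_inv.2 (ENNReal.rpow_le_rpow h ha)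

theorem elp_half {t δ a : ℝ} (ht : 0 < t) (hδ : 0 < δ) (ha : a ∈ Icc (0 : ℝ) (98 / 100)) :
    ∫⁻ y in Ioc 0 δ, ENNReal.ofReal (t * y) ^ (-a) ≤ ENNReal.ofReal (50 * δ * (t * δ) ^ (-a)) := by
  have h1 : -1 < -a := by linarith [ha.2]
  have hi : IntegrableOn (fun y : ℝ => t ^ (-a) * y ^ (-a)) (Ioc 0 δ) :=
    ((intervalIntegrable_iff_integrableOn_Ioc_of_le hδ.le).1
      (intervalIntegral.intervalIntegrable_rpow' h1)).const_mul _
  rw [setLIntegral_congr_fun measurableSet_Ioc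
    (g := fun y => ENNReal.ofReal (t ^ (-a) * y ^ (-a))) fun y hy => by
      simp only
      rw [ENNReal.ofReal_rpow_of_pos (mul_pos ht hy.1), Real.mul_rpow ht.le hy.1.le],
    ← ofReal_integral_eq_lintegral_ofReal hi
      ((ae_restrict_mem measurableSet_Ioc).mono fun y hy => by
        have := hy.1
        simp only [Pi.zero_apply]
        positivity)]
  refine ENNReal.ofReal_le_ofReal ?_
  rw [integral_const_mul, ← intervalIntegral.integral_of_le hδ.le, integral_rpow (Or.inl h1),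
    Real.zero_rpow (by linarith), sub_zero, Real.rpow_add_one hδ.ne', Real.mul_rpow ht.le hδ.le,
    ← mul_div_assoc, div_le_iff₀ (by linarith)]
  have h2 : 0 < t ^ (-a) * (δ ^ (-a) * δ) := by positivity
  nlinarith [ha.2]

/-- `∫_{|x| ≤ δ} |c - t x|^{-a} dx ≤ 2 ∫_{|x| ≤ 2δ}...`: for `0 ≤ a ≤ 0.98` it is at most
`200 δ (tδ)^{-a}` (split `|c - t x| ≤ tδ`). -/
theorem lintegral_abs_rpow {t δ a : ℝ} (ht : 0 < t) (hδ : 0 < δ) (ha : a ∈ Icc (0 : ℝ) (98 / 100))
    (c : ℝ) : ∫⁻ x in Icc (-δ) δ, ENNReal.ofReal |c - t * x| ^ (-a) ≤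
      ENNReal.ofReal (200 * δ * (t * δ) ^ (-a)) := by
  obtain ⟨h, hh⟩ : ∃ h : ℝ → ℝ≥0∞,
      h = (Ioc 0 δ).indicator fun y => ENNReal.ofReal (t * y) ^ (-a) := ⟨_, rfl⟩
  have hm : Measurable h := hh ▸ Measurable.indicator (by fun_prop) measurableSet_Ioc
  have hI : ∫⁻ y, h y ≤ ENNReal.ofReal (50 * δ * (t * δ) ^ (-a)) := by
    rw [hh, lintegral_indicator measurableSet_Ioc]
    exact elp_half ht hδ ha
  have hp : ∀ x, x ≠ c / t → ENNReal.ofReal |c - t * x| ^ (-a) ≤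
      ENNReal.ofReal (t * δ) ^ (-a) + (h (c / t - x) + h (x - c / t)) := by
    intro x hx
    have e : c - t * x = t * (c / t - x) := by field_simp
    rw [e, abs_mul, abs_of_pos ht]
    rcases le_total δ |c / t - x| with h1 | h1
    · exact le_add_right (elp_anti (ENNReal.ofReal_le_ofReal (by gcongr)) ha.1)
    refine le_add_left ?_
    rcases lt_or_gt_of_ne hx with h2 | h2
    · rw [abs_of_pos (sub_pos.2 h2)] at h1 ⊢
      refine le_add_right (le_of_eq ?_)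
      rw [hh, indicator_of_mem (show c / t - x ∈ Ioc 0 δ from ⟨sub_pos.2 h2, h1⟩)]
    · rw [abs_sub_comm, abs_of_pos (sub_pos.2 h2)] at h1 ⊢
      refine le_add_left (le_of_eq ?_)
      rw [hh, indicator_of_mem (show x - c / t ∈ Ioc 0 δ from ⟨sub_pos.2 h2, h1⟩)]
  have hK : 0 ≤ δ * (t * δ) ^ (-a) := by positivity
  calc _ ≤ ∫⁻ x in Icc (-δ) δ, (ENNReal.ofReal (t * δ) ^ (-a) + (h (c / t - x) + h (x - c / t))) :=
        lintegral_mono_ae (ae_restrict_of_ae ((Measure.ae_ne volume (c / t)).mono hp))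
    _ ≤ ENNReal.ofReal (t * δ) ^ (-a) * ENNReal.ofReal (2 * δ) +
          ∫⁻ x, (h (c / t - x) + h (x - c / t)) := by
        rw [lintegral_add_left measurable_const, setLIntegral_const, Real.volume_Icc,
          show δ - -δ = 2 * δ by ring]
        exact add_le_add le_rfl (setLIntegral_le_lintegral _ _)
    _ ≤ ENNReal.ofReal (t * δ) ^ (-a) * ENNReal.ofReal (2 * δ) +
          (ENNReal.ofReal (50 * δ * (t * δ) ^ (-a)) + ENNReal.ofReal (50 * δ * (t * δ) ^ (-a))) := by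
        rw [lintegral_add_left (by fun_prop), lintegral_sub_left_eq_self,
          lintegral_sub_right_eq_self]
        gcongr
    _ ≤ _ := by
        rw [ENNReal.ofReal_rpow_of_pos (mul_pos ht hδ), ← ENNReal.ofReal_mul (by positivity),
          ← ENNReal.ofReal_add (by positivity) (by positivity),
          ← ENNReal.ofReal_add (by positivity) (by positivity)]
        exact ENNReal.ofReal_le_ofReal (by nlinarith)

theorem elp_pt {y b A B κ : ℝ} (hy : 0 < y) (hb : 0 ≤ b) (hκ : 0 ≤ κ) (hA : A ≤ y) (hB : B ≤ b) :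
    ENNReal.ofReal (y ^ (-κ) * (y + b)⁻¹) ^ pp ≤
      ENNReal.ofReal A ^ (-((κ + 1 / 20) * pp)) * ENNReal.ofReal B ^ (-(19 / 20 * pp)) := by
  have hp : 0 < pp := by unfold pp; norm_num
  have hyb : 0 < y + b := by linarith
  have h1 : y ^ (-κ) * (y + b)⁻¹ ≤ y ^ (-(κ + 1 / 20)) * (y + b) ^ (-(19 / 20) : ℝ) := by
    rw [← Real.rpow_neg_one, show (-1 : ℝ) = -(1 / 20) + -(19 / 20) by norm_num, Real.rpow_add hyb,
      neg_add, Real.rpow_add hy, ← mul_assoc]
    gcongr ?_ * ?_ * _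
    exact Real.rpow_le_rpow_of_nonpos hy (by linarith) (by norm_num)
  refine (ENNReal.rpow_le_rpow (ENNReal.ofReal_le_ofReal h1) hp.le).trans ?_
  rw [ENNReal.ofReal_mul (by positivity), ENNReal.mul_rpow_of_nonneg _ _ hp.le,
    ← ENNReal.ofReal_rpow_of_pos hy, ← ENNReal.ofReal_rpow_of_pos hyb, ← ENNReal.rpow_mul,
    ← ENNReal.rpow_mul, neg_mul, neg_mul]
  exact mul_le_mul' (elp_anti (ENNReal.ofReal_le_ofReal hA) (by positivity))
    (elp_anti (ENNReal.ofReal_le_ofReal (by linarith)) (by positivity))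

theorem elp_mp {e : ℂ} (he : ‖e‖ = 1) (u : ℂ) :
    MeasurePreserving (fun ζ : ℂ => ((e * (ζ - u)).re, (e * (ζ - u)).im)) volume volume :=
  Complex.volume_preserving_equiv_real_prod.comp
    ((rotation ⟨e, mem_sphere_zero_iff_norm.2 he⟩).measurePreserving.comp
      (measurePreserving_sub_right volume u))

theorem elp_B {r κ δ t s : ℝ} {X u : ℂ} (hr : 0 < r) (hκ : κ ∈ Icc (0 : ℝ) (3 / 100)) (hδ : 0 < δ)
    (ht : 0 < t) (hs : 0 < s) (hX : s * δ ≤ ‖X‖) (hu : wd X u = 0) :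
    ∫⁻ ζ in Metric.closedBall u δ, Jf r κ δ (X - t • ζ) ζ ^ pp ≤
      ENNReal.ofReal (200 * δ * (t * δ) ^ (-((κ + 1 / 20) * pp))) *
        ENNReal.ofReal (200 * δ * (s * δ) ^ (-(19 / 20 * pp))) := by
  have hX0 : 0 < ‖X‖ := lt_of_lt_of_le (by positivity) hX
  obtain ⟨e, he⟩ : ∃ e : ℂ, e = (‖X‖⁻¹ : ℝ) * (starRingEnd ℂ) X := ⟨_, rfl⟩
  have he1 : ‖e‖ = 1 := by
    rw [he, norm_mul, Complex.norm_real, Complex.norm_conj, Real.norm_of_nonneg (by positivity),
      inv_mul_cancel₀ hX0.ne']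
  obtain ⟨c, hc⟩ : ∃ c : ℝ, c = (e * (X - t • u)).re := ⟨_, rfl⟩
  obtain ⟨f, hf⟩ : ∃ f : ℝ → ℝ≥0∞, f = (Icc (-δ) δ).indicator
    fun x => ENNReal.ofReal |c - t * x| ^ (-((κ + 1 / 20) * pp)) := ⟨_, rfl⟩
  obtain ⟨g, hg⟩ : ∃ g : ℝ → ℝ≥0∞, g = (Icc (-δ) δ).indicator
    fun x => ENNReal.ofReal |0 - s * x| ^ (-(19 / 20 * pp)) := ⟨_, rfl⟩
  have hfm : Measurable f := hf ▸ Measurable.indicator (by fun_prop) measurableSet_Icc
  have hgm : Measurable g := hg ▸ Measurable.indicator (by fun_prop) measurableSet_Icc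
  have key : ∀ ζ ∈ Metric.closedBall u δ, Jf r κ δ (X - t • ζ) ζ ^ pp ≤
      f (e * (ζ - u)).re * g (e * (ζ - u)).im := by
    intro ζ hζ
    have h1 : ‖e * (ζ - u)‖ ≤ δ := by rwa [norm_mul, he1, one_mul, ← dist_eq_norm]
    rw [hf, hg, indicator_of_mem (mem_Icc.2 (abs_le.1 ((Complex.abs_re_le_norm _).trans h1))),
      indicator_of_mem (mem_Icc.2 (abs_le.1 ((Complex.abs_im_le_norm _).trans h1)))]
    refine elp_pt (by positivity) (by positivity) hκ.1 ?_ ?_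
    · have e1 : c - t * (e * (ζ - u)).re = (e * (X - t • ζ)).re := by
        rw [hc]
        simp only [Complex.real_smul, Complex.mul_re, Complex.sub_re, Complex.sub_im,
          Complex.ofReal_re, Complex.ofReal_im, Complex.mul_im]
        ring
      rw [e1]
      refine (Complex.abs_re_le_norm _).trans ?_
      rw [norm_mul, he1, one_mul]
      linarith
    · have e1 : wd (X - t • ζ) ζ = ‖X‖ * (e * (ζ - u)).im := by
        rw [wd_sub_smul, he]
        unfold wd at hu ⊢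
        simp only [Complex.mul_re, Complex.sub_re, Complex.sub_im, Complex.conj_re, Complex.conj_im,
          Complex.ofReal_re, Complex.ofReal_im, Complex.mul_im]
        field_simp
        linarith
      rw [e1, zero_sub, abs_neg, abs_mul, abs_mul, abs_of_pos hs, abs_of_pos hX0, le_div_iff₀ hδ]
      nlinarith [abs_nonneg (e * (ζ - u)).im]
  have hp : pp = 41 / 40 := rfl
  calc _ ≤ ∫⁻ ζ in Metric.closedBall u δ, f (e * (ζ - u)).re * g (e * (ζ - u)).im :=
        setLIntegral_mono' measurableSet_closedBall key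
    _ ≤ ∫⁻ ζ, f (e * (ζ - u)).re * g (e * (ζ - u)).im := setLIntegral_le_lintegral _ _
    _ = ∫⁻ p : ℝ × ℝ, f p.1 * g p.2 :=
        (elp_mp he1 u).lintegral_comp (f := fun p : ℝ × ℝ => f p.1 * g p.2) (by fun_prop)
    _ = (∫⁻ x, f x) * ∫⁻ x, g x := lintegral_prod_mul hfm.aemeasurable hgm.aemeasurable
    _ ≤ _ := by
        rw [hf, hg, lintegral_indicator measurableSet_Icc, lintegral_indicator measurableSet_Icc]
        refine mul_le_mul' (lintegral_abs_rpow ht hδ ⟨?_, ?_⟩ c) (lintegral_abs_rpow hs hδ ⟨?_, ?_⟩ 0)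
        all_goals rw [hp]
        all_goals nlinarith [hκ.1, hκ.2]

/-- from a bound `C K₀^pp δ²` to `LpB` -/
theorem elp_fin {C K₀ K δ : ℝ} (hC : 1 ≤ C) (hK₀ : 0 ≤ K₀) (h : C * K₀ ≤ K) :
    ENNReal.ofReal (C * K₀ ^ pp * δ ^ 2) ≤ ENNReal.ofReal K ^ pp * ENNReal.ofReal (δ ^ 2) := by
  have hp : 1 ≤ pp := by unfold pp; norm_num
  have h0 : 0 ≤ C * K₀ := by positivity
  rw [ENNReal.ofReal_mul' (sq_nonneg δ), ENNReal.ofReal_rpow_of_nonneg (h0.trans h) (by linarith)]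
  gcongr
  calc C * K₀ ^ pp ≤ C ^ pp * K₀ ^ pp := by
        gcongr
        exact Real.self_le_rpow_of_one_le hC hp
    _ = (C * K₀) ^ pp := (Real.mul_rpow (by linarith) hK₀).symm
    _ ≤ _ := Real.rpow_le_rpow h0 h (by linarith)

/-- Write `u = uf L t X`, `ζ = u + ξ`, `Y = X - tζ`, `‖ζ‖ ≤ 2L`.
Case A, `‖X‖ ≥ 4Lt` or `r ≥ Lt`: `vr ≤ (4/L)(‖Y‖ + r)` and `Jf ≤ (‖Y‖ + r)^{-1-κ}`; the disc has
area `πδ²`, `δ^{-κ-1/20} ≥ 1`.
Case B: `t > 0`, `vr ≤ 2t`, and `‖u‖ ≥ L/2` gives `‖X‖ ≥ Lt/2`.  Rotate by `X̂ = X/‖X‖`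
(`ξ = X̂(ξ₁ + iξ₂)`, `u` is a positive multiple of `X̂`): `|wd Y ζ| = |wd X ζ| = ‖X‖|ξ₂|`,
`‖Y‖ ≥ |c - tξ₁|` with `c = ‖X‖ - t‖u‖`.  With `(a + b)⁻¹ ≤ a^{-1/20} b^{-19/20}`:
`Jf ≤ |c - tξ₁|^{-κ-1/20} (tL|ξ₂|/(2δ))^{-19/20}` a.e.; raise to `pp = 41/40`, Tonelli on the square
`|ξ₁|,|ξ₂| ≤ δ`, `lintegral_abs_rpow` twice.  The constant is `C/L^{1.03} ≤ N`. -/
theorem Jf_LpB : ∀ᶠ P in 𝓕, ∀ κ ∈ Icc (0 : ℝ) (3 / 100), ∀ t, 0 ≤ t → ∀ (X : ℂ) (δ : ℝ), 0 < δ →
    δ ≤ P.L / 8 → P.L / 2 ≤ ‖uf P.L t X‖ →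
    LpB (fun ζ => Jf P.r κ δ (X - t • ζ) ζ) (uf P.L t X) δ
      (ENNReal.ofReal (P.N * P.vr t X ^ (-1 - κ) * δ ^ (-κ - 1 / 20))) := by
  filter_upwards [ev_ok, big_N fun Q => 320000 / Q.L ^ 2] with P hP hN κ hκ t ht X δ hδ hδL hu
  change 320000 / P.L ^ 2 ≤ (P.N : ℝ) at hN
  have hL := hP.L_pos
  have hL1 := hP.L_le'
  have hr := hP.r_pos
  have hvr := hP.vr_pos ht X
  have hp : 0 < pp := by unfold pp; norm_num
  have hδ1 : 1 ≤ δ ^ (-κ - 1 / 20) :=
    Real.one_le_rpow_of_pos_of_le_one_of_nonpos hδ (by linarith) (by linarith [hκ.1])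
  have huL := norm_uf_le hL ht X
  unfold LpB
  by_cases hA : 4 * P.L * t ≤ ‖X‖ ∨ P.L * t ≤ P.r
  · have key : ∀ ζ ∈ Metric.closedBall (uf P.L t X) δ, Jf P.r κ δ (X - t • ζ) ζ ^ pp ≤
        ENNReal.ofReal (((P.L / 4 * P.vr t X) ^ (-1 - κ)) ^ pp) := by
      intro ζ hζ
      have h1 : ‖ζ‖ ≤ 2 * P.L := by
        have := norm_le_norm_add_norm_sub' ζ (uf P.L t X)
        rw [Metric.mem_closedBall, dist_eq_norm] at hζ
        linarith
      have h2 : ‖X‖ ≤ ‖X - t • ζ‖ + 2 * P.L * t := by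
        have := norm_le_norm_sub_add X (t • ζ)
        rw [norm_smul, Real.norm_of_nonneg ht] at this
        nlinarith
      have hY := norm_nonneg (X - t • ζ)
      have h3 : P.L / 4 * P.vr t X ≤ ‖X - t • ζ‖ + P.r := by
        unfold Par.vr
        have a1 : P.L * ‖X‖ ≤ 1 / 1000 * ‖X‖ := by gcongr
        have a2 : P.L * P.r ≤ 1 / 1000 * P.r := by gcongr
        have a3 : 0 ≤ P.L * t := by positivity
        rcases hA with hA | hA <;> linarith
      rw [← ENNReal.ofReal_rpow_of_nonneg (by positivity) hp.le]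
      refine ENNReal.rpow_le_rpow (ENNReal.ofReal_le_ofReal ?_) hp.le
      refine le_trans ?_ (Real.rpow_le_rpow_of_nonpos (by positivity) h3 (by linarith [hκ.1]))
      rw [show -1 - κ = -κ + -1 by ring, Real.rpow_add (by positivity), Real.rpow_neg_one]
      exact mul_le_mul_of_nonneg_left
        (inv_anti₀ (by positivity) (le_add_of_nonneg_right (by positivity))) (by positivity)
    refine (setLIntegral_mono' measurableSet_closedBall key).trans ?_
    rw [setLIntegral_const, Complex.volume_closedBall]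
    refine le_trans ?_ (elp_fin (C := 4) (K₀ := (P.L / 4 * P.vr t X) ^ (-1 - κ)) (by norm_num)
      (by positivity) ?_)
    · rw [mul_comm 4, mul_assoc, ENNReal.ofReal_mul (by positivity), mul_comm 4,
        ENNReal.ofReal_mul (by positivity), ENNReal.ofReal_pow hδ.le]
      gcongr
      rw [← ENNReal.ofReal_coe_nnreal]
      exact ENNReal.ofReal_le_ofReal (by rw [NNReal.coe_real_pi]; exact Real.pi_le_four)
    · have h1 : (P.L / 4) ^ (-1 - κ) ≤ (P.L / 4) ^ (-2 : ℝ) :=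
        Real.rpow_le_rpow_of_exponent_ge (by positivity) (by linarith) (by linarith [hκ.2])
      have h2 : 4 * (P.L / 4) ^ (-2 : ℝ) ≤ P.N := by
        refine le_trans ?_ hN
        rw [Real.rpow_neg (by positivity), Real.rpow_two, le_div_iff₀ (by positivity)]
        field_simp
        norm_num
      rw [Real.mul_rpow (by positivity) hvr.le]
      calc _ = 4 * (P.L / 4) ^ (-1 - κ) * P.vr t X ^ (-1 - κ) * 1 := by ring
        _ ≤ _ := by gcongr; linarith
  · rw [not_or, not_le, not_le] at hA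
    obtain ⟨hA1, hA2⟩ := hA
    have ht0 : 0 < t := (mul_pos_iff_of_pos_left hL).1 (hr.trans hA2)
    have hX : t * P.L / 2 ≤ ‖X‖ := by
      have h1 : ‖uf P.L t X‖ ≤ ‖X‖ / t := by
        unfold uf
        rw [norm_smul, Real.norm_of_nonneg (by positivity)]
        calc _ ≤ P.L / (P.L * t) * ‖X‖ := by gcongr; exact le_max_right _ _
          _ = _ := by field_simp
      have := (le_div_iff₀ ht0).1 (hu.trans h1)
      linarith
    have e1 : t * P.L / (2 * δ) * δ = t * (P.L / 2) := by field_simp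
    refine (elp_B (s := t * P.L / (2 * δ)) hr hκ hδ ht0 (by positivity) (by rw [e1]; linarith)
      (wd_uf _ _ _)).trans ?_
    rw [e1, ← ENNReal.ofReal_mul (by positivity)]
    refine le_trans (le_of_eq ?_) (elp_fin (C := 40000)
      (K₀ := (t * δ) ^ (-(κ + 1 / 20)) * (t * (P.L / 2)) ^ (-(19 / 20) : ℝ)) (by norm_num)
      (by positivity) ?_)
    · rw [Real.mul_rpow (z := pp) (by positivity) (by positivity), ← Real.rpow_mul (by positivity),
        ← Real.rpow_mul (by positivity), neg_mul, neg_mul]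
      congr 1
      ring
    · have h2 : 4 * (40000 * (P.L / 2) ^ (-1 : ℝ)) ≤ P.N := by
        refine le_trans ?_ hN
        rw [Real.rpow_neg_one, le_div_iff₀ (by positivity)]
        field_simp
        linarith
      have h3 : (P.L / 2) ^ (-(19 / 20) : ℝ) ≤ (P.L / 2) ^ (-1 : ℝ) :=
        Real.rpow_le_rpow_of_exponent_ge (by positivity) (by linarith) (by norm_num)
      have h4 : t ^ (-1 - κ) ≤ 4 * P.vr t X ^ (-1 - κ) := by
        have h5 : P.vr t X / 2 ≤ t := by unfold Par.vr; nlinarith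
        refine (Real.rpow_le_rpow_of_nonpos (by positivity) h5 (by linarith [hκ.1])).trans ?_
        rw [div_eq_mul_inv, Real.mul_rpow hvr.le (by norm_num), mul_comm]
        gcongr
        calc (2 : ℝ)⁻¹ ^ (-1 - κ) ≤ 2⁻¹ ^ (-2 : ℝ) :=
              Real.rpow_le_rpow_of_exponent_ge (by norm_num) (by norm_num) (by linarith [hκ.2])
          _ = 4 := by rw [Real.rpow_neg (by norm_num), Real.rpow_two]; norm_num
      have e2 : t ^ (-(κ + 1 / 20)) * t ^ (-(19 / 20) : ℝ) = t ^ (-1 - κ) := by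
        rw [← Real.rpow_add ht0]; congr 1; ring
      rw [Real.mul_rpow ht0.le hδ.le, Real.mul_rpow ht0.le (by positivity),
        show -κ - 1 / 20 = -(κ + 1 / 20) by ring]
      calc _ = 40000 * (P.L / 2) ^ (-(19 / 20) : ℝ) * (t ^ (-(κ + 1 / 20)) * t ^ (-(19 / 20) : ℝ)) *
            δ ^ (-(κ + 1 / 20)) := by ring
        _ ≤ 40000 * (P.L / 2) ^ (-1 : ℝ) * (4 * P.vr t X ^ (-1 - κ)) * δ ^ (-(κ + 1 / 20)) := by
            rw [e2]; gcongr
        _ = 4 * (40000 * (P.L / 2) ^ (-1 : ℝ)) * P.vr t X ^ (-1 - κ) * δ ^ (-(κ + 1 / 20)) := by ring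
        _ ≤ _ := by gcongr

end

end Crest.Agent.R68
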