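import Crest.Agent.R68.ESupp
import Crest.Agent.R68.A8
import Crest.Agent.R68.ELp

/-!
# R68 (S0091): lower bound for the cold density; small and large labels
-/

set_option autoImplicit false

namespace Crest.Agent.R68

open MeasureTheory Set Filter Crest.AnalysisR.VecCalc3 Crest.AnalysisR.PDE.Boltzmann
open scoped ENNReal _root_.Topology

noncomputable section

/-- geometry of the labels in the box -/
theorem edens2_geo {e ξ : ℂ} (he : ‖e‖ = 1) {D t d L R : ℝ} (hD : 0 < D) (ht : 0 ≤ t) (hL : 0 < L)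
    (hd : 0 ≤ d) (hR : t * L ≤ R) (hR0 : 0 < R) (htd : t * d ≤ D) (h1 : |ξ.re| ≤ d / 16)
    (h2 : |ξ.im| ≤ d * D / (16 * R)) :
    ‖e - ‖e * (D - t * ξ)‖⁻¹ • (e * (D - t * ξ))‖ ≤ d / (4 * L) := by
  have a1 : t * |ξ.re| ≤ D / 16 := by nlinarith
  have a2 : D / 2 ≤ D - t * ξ.re := by nlinarith [le_abs_self ξ.re]
  have hz : ‖((D - t * ξ.re : ℝ) • e : ℂ)‖ = D - t * ξ.re := by
    rw [norm_smul, he, mul_one, Real.norm_of_nonneg (by linarith)]
  have hz0 : ((D - t * ξ.re : ℝ) • e : ℂ) ≠ 0 := norm_pos_iff.1 (by rw [hz]; linarith)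
  have hy0 : e * (D - t * ξ) ≠ 0 := by
    refine mul_ne_zero (norm_pos_iff.1 (by rw [he]; norm_num)) fun h => ?_
    have := congrArg Complex.re h
    simp at this
    linarith
  have key := norm_dir_sub_le hz0 hy0
  rw [hz, smul_smul, inv_mul_cancel₀ (by linarith), one_smul] at key
  refine key.trans ?_
  have e1 : ((D - t * ξ.re : ℝ) • e : ℂ) - e * (D - t * ξ) = e * ((t * ξ.im : ℝ) * Complex.I) := by
    conv_lhs => rw [← Complex.re_add_im ξ]
    simp only [Complex.real_smul, Complex.add_re, Complex.ofReal_re, Complex.mul_re, Complex.I_re,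
      Complex.I_im, Complex.ofReal_im]
    push_cast
    ring
  rw [e1, norm_mul, he, one_mul, norm_mul, Complex.norm_I, mul_one, Complex.norm_real,
    Real.norm_eq_abs, abs_mul, abs_of_nonneg ht, div_le_div_iff₀ (by linarith) (by positivity)]
  have a3 : |ξ.im| * (16 * R) ≤ d * D := (le_div_iff₀ (by positivity)).1 h2
  have a4 : t * L * |ξ.im| ≤ R * |ξ.im| := by gcongr
  nlinarith

theorem edens2_cond {P : Par} {ε : Bool} {t : ℝ} {X : ℂ} {v : R3} (hv : P.cb ε t X v ≠ 0) :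
    (P.r < ‖X - t • pr v‖ ∧ ‖X - t • pr v‖ ≤ P.r₀ ∧ X - t • pr v ∈ Sec P.m ε (1 / 8) ∧
      ‖pr v - (P.L / ‖X - t • pr v‖) • (X - t • pr v)‖ ≤ ‖X - t • pr v‖ ^ (1 / 100 : ℝ) / 2 ∧
      |v 2 - sg ε| ≤ ‖X - t • pr v‖ ^ (1 / 100 : ℝ) / 2) ∧
    P.cb ε t X v = ENNReal.ofReal (P.A * ‖X - t • pr v‖ ^ (-(103 / 100) : ℝ)) := by
  unfold Par.cb Qar.cold0 at hv ⊢
  split_ifs at hv ⊢ with hc
  · exact ⟨hc, rfl⟩
  · exact absurd rfl hv

theorem edens2_num {P : Par} (h : P.Ok) {t : ℝ} (ht : 0 ≤ t) {X : ℂ}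
    (hO : P.Out t X) (hX : ‖X‖ ≤ P.r₀ / 2) {D d : ℝ}
    (hD : D = ‖X‖ - P.L * t) (hd : d = D ^ (1 / 100 : ℝ)) :
    0 < D ∧ d * P.m * 100 ≤ P.L ∧ t * d ≤ D / 4 ∧ t * d / 8 < D - P.r := by
  have hL := h.L_pos
  have hr := h.r_pos
  have hC := h.C₃_ge'
  have hm : (1 : ℝ) ≤ P.m := by exact_mod_cast h.m_ge
  have hLt : 0 ≤ P.L * t := by positivity
  have hO' : P.L * t + P.r ≤ P.C₃ * (D - P.r) := by
    have e1 : (1 + 1 / P.C₃) * P.L * P.th t = P.L * t + P.r + (P.L * t + P.r) / P.C₃ := by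
      unfold Par.th; field_simp
    have e2 : (P.L * t + P.r) / P.C₃ ≤ D - P.r := by
      have : (1 + 1 / P.C₃) * P.L * P.th t ≤ ‖X‖ := hO
      linarith
    rw [div_le_iff₀ (by linarith)] at e2
    linarith
  have hDr : 0 < D - P.r := (mul_pos_iff_of_pos_left (show 0 < P.C₃ by linarith)).1 (by linarith)
  have hD0 : 0 < D := by linarith
  have hd0 : 0 < d := hd ▸ Real.rpow_pos_of_pos hD0 _
  have hde : d ≤ P.e₀ := by
    calc d ≤ P.r₀ ^ (1 / 100 : ℝ) := hd ▸ Real.rpow_le_rpow hD0.le (by linarith) (by norm_num)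
      _ ≤ P.e₀ := Real.rpow_le_rpow_of_exponent_ge h.r₀_pos (by linarith [h.r₀_le, h.T₁_le'])
        (by norm_num)
  have hdL : d * (100 * P.C₃ ^ 2 * P.m) ≤ P.L :=
    (le_div_iff₀ (by positivity)).1 (hde.trans h.e₀_le_L)
  have hC2 : P.C₃ ≤ P.C₃ ^ 2 := le_self_pow₀ (by linarith) (by norm_num)
  have hdm : d * P.m * 100 ≤ P.L := by
    have : d * P.m * 100 * 1 ≤ d * P.m * 100 * P.C₃ ^ 2 := by gcongr; linarith
    linarith
  have htd : t * d * 100 ≤ D - P.r := by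
    have a1 : d * (100 * P.C₃ * 1) ≤ d * (100 * P.C₃ ^ 2 * P.m) := by gcongr
    have a2 : t * (d * (100 * P.C₃ * 1)) ≤ t * P.L := by gcongr; linarith
    have a3 : P.C₃ * (t * d * 100) ≤ P.C₃ * (D - P.r) := by linarith
    exact le_of_mul_le_mul_left a3 (by linarith)
  have htd0 : 0 ≤ t * d := by positivity
  exact ⟨hD0, hdm, by linarith, by linarith⟩

theorem edens2_pt {P : Par} (h : P.Ok) (ε : Bool) {t : ℝ} (ht : 0 ≤ t) {X : ℂ}
    (hO : P.Out t X) (hX : ‖X‖ ≤ P.r₀ / 2) (hS : X ∈ Sec P.m ε (1 / 4)) {D d : ℝ}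
    (hD : D = ‖X‖ - P.L * t) (hd : d = D ^ (1 / 100 : ℝ)) {e ξ : ℂ} (he : e = ‖X‖⁻¹ • X)
    (h1 : |ξ.re| ≤ d / 16) (h2 : |ξ.im| ≤ d * D / (16 * ‖X‖)) {s : ℝ} (h3 : |s - sg ε| ≤ d / 4) :
    ENNReal.ofReal (P.A * (16 / 25 * D ^ (-(103 / 100) : ℝ))) ≤
      P.cb ε t X (mk3 (P.L • e + e * ξ) s) := by
  have hL := h.L_pos
  have hA := h.A_ge
  have hLt : 0 ≤ P.L * t := by positivity
  obtain ⟨hD0, hdm, htd', htr⟩ := edens2_num h ht hO hX hD hd
  have hR0 : 0 < ‖X‖ := by linarith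
  have he1 : ‖e‖ = 1 := by
    rw [he, norm_smul, Real.norm_of_nonneg (by positivity), inv_mul_cancel₀ hR0.ne']
  have hXe : X = e * (‖X‖ : ℝ) := by
    rw [he, Complex.real_smul, mul_comm, ← mul_assoc, ← Complex.ofReal_mul, mul_inv_cancel₀ hR0.ne']
    simp
  have hd0 : 0 < d := hd ▸ Real.rpow_pos_of_pos hD0 _
  have htd0 : 0 ≤ t * d := by positivity
  have hξ : ‖ξ‖ ≤ d / 8 := by
    have a1 : d * D / (16 * ‖X‖) ≤ d / 16 := by
      rw [div_le_div_iff₀ (by positivity) (by norm_num)]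
      have : d * D ≤ d * ‖X‖ := by gcongr; linarith
      linarith
    linarith [Complex.norm_le_abs_re_add_abs_im ξ]
  obtain ⟨y, hy⟩ : ∃ y, y = e * (D - t * ξ) := ⟨_, rfl⟩
  have hyX : X - t • (P.L • e + e * ξ) = y := by
    rw [hy, hD]
    conv_lhs => rw [hXe]
    simp only [Complex.real_smul]
    push_cast
    ring
  have hyD : |‖y‖ - D| ≤ t * d / 8 := by
    rw [hy, norm_mul, he1, one_mul]
    have a1 := abs_norm_sub_norm_le ((D : ℂ) - t * ξ) D
    rw [sub_sub_cancel_left, norm_neg, norm_mul, Complex.norm_real, Complex.norm_real,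
      Real.norm_of_nonneg ht, Real.norm_of_nonneg hD0.le] at a1
    have a2 := mul_le_mul_of_nonneg_left hξ ht
    linarith
  obtain ⟨hy1, hy2⟩ := abs_le.1 hyD
  have hy0 : 0 < ‖y‖ := by linarith
  have hdir : ‖e - ‖y‖⁻¹ • y‖ ≤ d / (4 * P.L) := hy ▸ edens2_geo he1 hD0 ht hL hd0.le
    (by linarith) hR0 (by linarith) h1 h2
  have hyd : 3 / 4 * d ≤ ‖y‖ ^ (1 / 100 : ℝ) := by
    calc 3 / 4 * d ≤ (3 / 4) ^ (1 / 100 : ℝ) * d := by
          gcongr
          exact Real.self_le_rpow_of_le_one (by norm_num) (by norm_num) (by norm_num)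
      _ = (3 / 4 * D) ^ (1 / 100 : ℝ) := by rw [hd, Real.mul_rpow (by norm_num) hD0.le]
      _ ≤ _ := Real.rpow_le_rpow (by positivity) (by linarith) (by norm_num)
  unfold Par.cb Qar.cold0
  rw [pr_mk3, mk3_two, hyX, if_pos]
  · refine ENNReal.ofReal_le_ofReal (mul_le_mul_of_nonneg_left ?_ (by linarith))
    calc 16 / 25 * D ^ (-(103 / 100) : ℝ) = (5 / 4) ^ (-2 : ℝ) * D ^ (-(103 / 100) : ℝ) := by
          rw [Real.rpow_neg (x := 5 / 4) (by norm_num), Real.rpow_two]; norm_num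
      _ ≤ (5 / 4) ^ (-(103 / 100) : ℝ) * D ^ (-(103 / 100) : ℝ) := by
          gcongr <;> norm_num
      _ = (5 / 4 * D) ^ (-(103 / 100) : ℝ) := (Real.mul_rpow (by norm_num) hD0.le).symm
      _ ≤ _ := Real.rpow_le_rpow_of_nonpos hy0 (by linarith) (by norm_num)
  refine ⟨by linarith, by linarith, ?_, ?_, by linarith⟩
  · have hy1' : ‖(‖y‖⁻¹ • y : ℂ)‖ = 1 := by
      rw [norm_smul, Real.norm_of_nonneg (by positivity), inv_mul_cancel₀ hy0.ne']
    rw [← smul_mem_Sec (inv_pos.2 hy0)]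
    rw [← smul_mem_Sec (inv_pos.2 hR0), ← he] at hS
    have a1 := im_pow_sub_le he1 hy1' P.m
    have a2 : P.m * ‖e - ‖y‖⁻¹ • y‖ ≤ 1 / 8 := by
      refine (mul_le_mul_of_nonneg_left hdir (Nat.cast_nonneg _)).trans ?_
      rw [← mul_div_assoc, div_le_iff₀ (by positivity)]
      linarith
    have a3 : |sg ε * (e ^ P.m).im - sg ε * ((‖y‖⁻¹ • y) ^ P.m).im| ≤ 1 / 8 := by
      rw [← mul_sub, abs_mul, abs_sg, one_mul]
      exact a1.trans a2
    simp only [Sec, mem_setOf_eq, he1, hy1', one_pow] at hS ⊢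
    linarith [(abs_le.1 a3).2]
  · have e1 : P.L • e + e * ξ - (P.L / ‖y‖) • y = P.L • (e - ‖y‖⁻¹ • y) + e * ξ := by
      rw [smul_sub, smul_smul, div_eq_mul_inv]
      ring
    rw [e1]
    refine (norm_add_le _ _).trans ?_
    rw [norm_smul, norm_mul, he1, one_mul, Real.norm_of_nonneg hL.le]
    have a1 : P.L * ‖e - ‖y‖⁻¹ • y‖ ≤ d / 4 := by
      refine (mul_le_mul_of_nonneg_left hdir hL.le).trans (le_of_eq ?_)
      field_simp
    linarith

/-- Put `D = ‖X‖ - L t ≥ r + (L t + r)/C₃`, `X̂ = X/‖X‖`, `d = D^{0.01} ≤ e₀`.  Consider the velocities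
`ζ = X̂ (L + ξ₁ + iξ₂)`, `|ξ₁| ≤ d/16`, `|ξ₂| ≤ (d/16) D/‖X‖`, `|v₂ - sg ε| ≤ d/4` (volume
`(d/8)(d/8)(D/‖X‖)(d/2)`; multiplication by `X̂` preserves the measure).  The label is
`y = X̂ (D - tξ)`, and `t ≤ C₃ D/L` gives `t‖ξ‖ ≤ D/(800 C₃)`, so `r < ‖y‖ ≤ 2D ≤ r₀`, `‖y‖ ≥ D/2`,
`‖y‖^{0.01} ≥ 3d/4`.  `norm_dir_sub_le` (with the positive real number `D - tξ₁`) gives
`‖X̂ - ŷ‖ ≤ 4t|ξ₂|/D ≤ t d/(4‖X‖) ≤ d/(4L)`; so `‖ζ - Lŷ‖ ≤ d/8 + d/4`, and `y ∈ Sec m ε (1/8)` by
`im_pow_sub_le` (`m d/(4L) ≤ 1/8`).  The amplitude is `≥ A D^{-1.03}/3`. -/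
theorem Par.Ok.dens_cb_ge {P : Par} (h : P.Ok) (ε : Bool) {t : ℝ} (ht : 0 ≤ t) {X : ℂ}
    (hO : P.Out t X) (hX : ‖X‖ ≤ P.r₀ / 2) (hS : X ∈ Sec P.m ε (1 / 4)) :
    ENNReal.ofReal (P.A / (400 * ‖X‖)) ≤ dens (P.cb ε t X) := by
  obtain ⟨D, hD⟩ : ∃ D, D = ‖X‖ - P.L * t := ⟨_, rfl⟩
  obtain ⟨d, hd⟩ : ∃ d, d = D ^ (1 / 100 : ℝ) := ⟨_, rfl⟩
  obtain ⟨e, he⟩ : ∃ e : ℂ, e = ‖X‖⁻¹ • X := ⟨_, rfl⟩
  have hL := h.L_pos
  have hA := h.A_ge
  have hD0 : 0 < D := (edens2_num h ht hO hX hD hd).1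
  have hLt : 0 ≤ P.L * t := by positivity
  have hR0 : 0 < ‖X‖ := by linarith
  have hd0 : 0 < d := hd ▸ Real.rpow_pos_of_pos hD0 _
  have he1 : ‖e‖ = 1 := by
    rw [he, norm_smul, Real.norm_of_nonneg (by positivity), inv_mul_cancel₀ hR0.ne']
  have he2 : e * (starRingEnd ℂ) e = 1 := by rw [Complex.mul_conj', he1]; simp
  have hmp := elp_mp (e := (starRingEnd ℂ) e) (by rw [Complex.norm_conj, he1]) (P.L • e)
  obtain ⟨S, hSd⟩ : ∃ S : Set (ℝ × ℝ), S = Metric.closedBall 0 (d / 16) ×ˢ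
    Metric.closedBall 0 (d * D / (16 * ‖X‖)) := ⟨_, rfl⟩
  have hSm : MeasurableSet S := hSd ▸ measurableSet_closedBall.prod measurableSet_closedBall
  obtain ⟨c, hc⟩ : ∃ c, c = P.A * (16 / 25 * D ^ (-(103 / 100) : ℝ)) := ⟨_, rfl⟩
  have hc0 : 0 ≤ c := by rw [hc]; positivity
  rw [dens, lintegral_mk3 _ (P.mcb ε t X)]
  calc _ = (ENNReal.ofReal c * ENNReal.ofReal (2 * (d / 4))) * volume S / 2 := by
        rw [hSd, Measure.volume_eq_prod, Measure.prod_prod, Real.volume_closedBall,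
          Real.volume_closedBall, ← ENNReal.ofReal_mul hc0, ← ENNReal.ofReal_mul (by positivity),
          ← ENNReal.ofReal_mul (by positivity), ← ENNReal.ofReal_ofNat 2,
          ← ENNReal.ofReal_div_of_pos two_pos]
        congr 1
        have e1 : D ^ (-(103 / 100) : ℝ) * (d * d * d * D) = 1 := by
          rw [hd, ← Real.rpow_add hD0, ← Real.rpow_add hD0, ← Real.rpow_add_one hD0.ne',
            ← Real.rpow_add hD0]
          norm_num
        calc _ = P.A / (400 * ‖X‖) * (D ^ (-(103 / 100) : ℝ) * (d * d * d * D)) := by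
              rw [e1, mul_one]
          _ = _ := by rw [hc]; field_simp; ring
    _ ≤ (ENNReal.ofReal c * ENNReal.ofReal (2 * (d / 4))) * volume S := ENNReal.half_le_self
    _ = ∫⁻ ζ : ℂ, S.indicator (fun _ => ENNReal.ofReal c * ENNReal.ofReal (2 * (d / 4)))
          (((starRingEnd ℂ) e * (ζ - P.L • e)).re, ((starRingEnd ℂ) e * (ζ - P.L • e)).im) := by
        rw [hmp.lintegral_comp (measurable_const.indicator hSm), lintegral_indicator_const hSm]
    _ ≤ _ := by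
        refine lintegral_mono fun ζ => indicator_apply_le' (fun hζ => ?_) fun _ => zero_le
        rw [hSd] at hζ
        obtain ⟨h1, h2⟩ := hζ
        rw [mem_closedBall_zero_iff, Real.norm_eq_abs] at h1 h2
        have e1 : ζ = P.L • e + e * ((starRingEnd ℂ) e * (ζ - P.L • e)) := by
          rw [← mul_assoc, he2]; ring
        rw [← Real.volume_closedBall (sg ε), ← lintegral_indicator_const measurableSet_closedBall]
        refine lintegral_mono fun s => indicator_apply_le' (fun hs => ?_) fun _ => zero_le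
        rw [hc, e1]
        exact edens2_pt h ε ht hO hX hS hD hd he h1 h2 hs

theorem edens2_subst {t : ℝ} (ht : 0 < t) (X : ℂ) (H : ℂ → ℝ≥0∞) :
    ∫⁻ ζ : ℂ, H (X - t • ζ) = ENNReal.ofReal (t ^ 2)⁻¹ * ∫⁻ y, H y := by
  have h1 : ∫⁻ ζ : ℂ, H (X - t • ζ) = ∫⁻ w, H (X - w) ∂(Measure.map (t • ·) volume) :=
    ((measurableEmbedding_const_smul₀ ht.ne').lintegral_map fun w => H (X - w)).symm
  rw [h1, Measure.map_addHaar_smul _ ht.ne', lintegral_smul_measure,
    lintegral_sub_left_eq_self H X, Complex.finrank_real_complex, abs_of_pos (by positivity),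
    smul_eq_mul]

/-- Small labels.  If `t < r/L` then `th² ≤ 4r²/L² ≤ r` and the function vanishes.  Otherwise
`t ≥ th/2`; the vertical integral gives `A‖y‖^{-1.02}`, and substituting `y = X - tζ`
the density is `≤ t⁻² A ∫_{‖y‖ ≤ th²} ‖y‖^{-1.02} ≤ 30 A th^{-0.04}`; `th ≤ r₀`. -/
theorem dens_small : ∀ᶠ P in 𝓕, ∀ ε, ∀ t ∈ Icc 0 P.T', ∀ X,
    dens (fun v => if ‖X - t • pr v‖ ≤ P.th t ^ 2 then P.cb ε t X v else 0) ≤
      ENNReal.ofReal (1 / (P.C₃ * P.th t)) := by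
  filter_upwards [ev_ok, small_r0 (fun Q => 120 * Q.A * Q.C₃) (c := 94 / 100) (by norm_num)]
    with P h h1 ε t ht X
  change 120 * P.A * P.C₃ * P.r₀ ^ (94 / 100 : ℝ) ≤ 1 at h1
  have hL := h.L_pos
  have hr := h.r_pos
  have hA := h.A_ge
  have hC := h.C₃_ge'
  have hth := h.th_pos ht.1
  rcases lt_or_ge t (P.r / P.L) with h2 | h2
  · refine le_of_eq_of_le ((lintegral_congr fun v => ?_).trans lintegral_zero) zero_le
    split_ifs with h3
    · by_contra h4
      have h5 := (edens2_cond h4).1.1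
      have h6 : P.th t ≤ 2 * (P.r / P.L) := by unfold Par.th; linarith
      have h7 : P.r ≤ (P.L / 1000) ^ 2 := by
        have := h.e₀_pos
        have := h.e₀_le
        have := h.L_le'
        calc P.r ≤ P.e₀ ^ 8 := h.r_le'.trans h.r₀_le_e
          _ ≤ P.e₀ ^ 2 := pow_le_pow_of_le_one (by linarith) (by linarith) (by norm_num)
          _ ≤ _ := by gcongr
      have h8 : (2 * (P.r / P.L)) ^ 2 ≤ P.r := by
        rw [mul_pow, div_pow, ← mul_div_assoc, div_le_iff₀ (by positivity)]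
        nlinarith
      have h9 : P.th t ^ 2 ≤ (2 * (P.r / P.L)) ^ 2 := by gcongr
      linarith
    · rfl
  have ht0 : 0 < t := lt_of_lt_of_le (by positivity) h2
  have h3 : P.th t ≤ 2 * t := by unfold Par.th; linarith
  obtain ⟨H, hH⟩ : ∃ H : ℂ → ℝ≥0∞, H = (Metric.closedBall (0 : ℂ) (P.th t ^ 2)).indicator
    fun y => ENNReal.ofReal ‖y - 0‖ ^ (-(3 / 2) : ℝ) := ⟨_, rfl⟩
  have hHm : Measurable H := hH ▸ Measurable.indicator (by fun_prop) measurableSet_closedBall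
  obtain ⟨c, hc⟩ : ∃ c, c = P.A * (P.th t ^ 2) ^ (47 / 100 : ℝ) := ⟨_, rfl⟩
  have hc0 : 0 ≤ c := by rw [hc]; positivity
  have hI : Measurable ((Metric.closedBall (sg ε) (1 / 2)).indicator (1 : ℝ → ℝ≥0∞)) :=
    measurable_one.indicator measurableSet_closedBall
  have hpr := continuous_pr.measurable
  calc _ ≤ ∫⁻ v : R3, ENNReal.ofReal c * H (X - t • pr v) *
        (Metric.closedBall (sg ε) (1 / 2)).indicator 1 (v 2) := by
        refine lintegral_mono fun v => ?_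
        simp only
        split_ifs with h4
        swap
        · exact zero_le
        by_cases h5 : P.cb ε t X v = 0
        · rw [h5]; exact zero_le
        obtain ⟨⟨a1, a2, -, -, a3⟩, a4⟩ := edens2_cond h5
        have hy : 0 < ‖X - t • pr v‖ := hr.trans a1
        have a5 : ‖X - t • pr v‖ ^ (1 / 100 : ℝ) ≤ 1 :=
          Real.rpow_le_one hy.le (by linarith [h.r₀_le, h.T₁_le']) (by norm_num)
        rw [a4, hH, indicator_of_mem (mem_closedBall_zero_iff.2 h4),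
          indicator_of_mem (show v 2 ∈ Metric.closedBall (sg ε) (1 / 2) from
            (show |v 2 - sg ε| ≤ 1 / 2 by linarith)), Pi.one_apply, mul_one, sub_zero,
          ENNReal.ofReal_rpow_of_pos hy, ← ENNReal.ofReal_mul hc0]
        refine ENNReal.ofReal_le_ofReal ?_
        rw [hc, mul_assoc, show (-(103 / 100) : ℝ) = 47 / 100 + -(3 / 2) by norm_num,
          Real.rpow_add hy]
        gcongr
    _ = ENNReal.ofReal c * (ENNReal.ofReal (t ^ 2)⁻¹ * ∫⁻ y, H y) := by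
        rw [lintegral_mk3 _ (by fun_prop), ← edens2_subst ht0 X H,
          ← lintegral_const_mul' _ _ ENNReal.ofReal_ne_top]
        refine lintegral_congr fun ζ => ?_
        simp only [pr_mk3, mk3_two]
        rw [lintegral_const_mul _ hI, lintegral_indicator_one measurableSet_closedBall,
          Real.volume_closedBall]
        simp
    _ ≤ ENNReal.ofReal c * (ENNReal.ofReal (t ^ 2)⁻¹ * ENNReal.ofReal (30 * √(P.th t ^ 2))) := by
        gcongr
        rw [hH, lintegral_indicator measurableSet_closedBall]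
        exact lintegral_disc_rpow 0 (by positivity)
    _ ≤ _ := by
        rw [← ENNReal.ofReal_mul (by positivity), ← ENNReal.ofReal_mul hc0, Real.sqrt_sq hth.le]
        refine ENNReal.ofReal_le_ofReal ?_
        have a1 : P.th t ≤ P.r₀ := by
          have := h.th_T' ht.2
          have a2 : (1 : ℝ) ≤ P.N ^ 4 := one_le_pow₀ (by linarith [h.N_ge])
          nlinarith
        have a2 : (P.th t ^ 2) ^ (47 / 100 : ℝ) ≤ P.r₀ ^ (94 / 100 : ℝ) := by
          rw [← Real.rpow_two, ← Real.rpow_mul hth.le]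
          norm_num
          exact Real.rpow_le_rpow hth.le a1 (by norm_num) |>.trans (le_of_eq (by norm_num))
        have a3 : (t ^ 2)⁻¹ ≤ 4 / P.th t ^ 2 := by
          rw [inv_eq_one_div, div_le_div_iff₀ (by positivity) (by positivity)]
          nlinarith
        have a4 := h.r₀_pos
        rw [le_div_iff₀ (by positivity), hc]
        calc _ ≤ P.A * P.r₀ ^ (94 / 100 : ℝ) * (4 / P.th t ^ 2 * (30 * P.th t)) *
              (P.C₃ * P.th t) := by gcongr
          _ = 120 * P.A * P.C₃ * P.r₀ ^ (94 / 100 : ℝ) := by field_simp; ring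
          _ ≤ 1 := h1

/-- Large labels: the function is at most `A th^{-2.06}` and supported in the unit ball about
`Uf` (`exists_plane_center`). -/
theorem Par.Ok.plane_big {P : Par} (h : P.Ok) (ε : Bool) {t : ℝ} (ht : 0 ≤ t) (X : ℂ) (v : R3)
    (J : ℂ →ₗᵢ[ℝ] R3) :
    ∫⁻ η : ℂ, (if ‖X - t • pr (v + J η)‖ ≤ P.th t ^ 2 then 0 else P.cb ε t X (v + J η)) ≤
      ENNReal.ofReal (4 * P.A * P.th t ^ (-(206 / 100) : ℝ)) := by
  obtain ⟨η₀, hη⟩ := exists_plane_center J (v - P.Uf ε t X)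
  have hA := h.A_ge
  have hth := h.th_pos ht
  calc _ ≤ ∫⁻ η : ℂ, (Metric.closedBall η₀ 1).indicator
        (fun _ => ENNReal.ofReal (P.A * P.th t ^ (-(206 / 100) : ℝ))) η := by
        refine lintegral_mono fun η => ?_
        split_ifs with h1
        · exact zero_le
        by_cases h2 : P.cb ε t X (v + J η) = 0
        · rw [h2]; exact zero_le
        have h3 := (h.cb_supp ht h2).1
        have h4 : ‖η - η₀‖ ≤ 1 := by
          refine (hη η).trans ?_
          rw [show v - P.Uf ε t X + J η = v + J η - P.Uf ε t X by abel]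
          linarith [h.sig_le_del ht X, h.del_le ht X, h.e₀_le, h.L_le',
            show ‖v + J η - P.Uf ε t X‖ ≤ P.sig t X from h3]
        rw [indicator_of_mem (mem_closedBall_iff_norm.2 h4), (edens2_cond h2).2]
        refine ENNReal.ofReal_le_ofReal (mul_le_mul_of_nonneg_left ?_ (by linarith))
        refine (Real.rpow_le_rpow_of_nonpos (by positivity) (not_le.1 h1).le (by norm_num)).trans
          (le_of_eq ?_)
        rw [← Real.rpow_two, ← Real.rpow_mul hth.le]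
        norm_num
    _ ≤ _ := by
        rw [lintegral_indicator_const measurableSet_closedBall, Complex.volume_closedBall,
          ← ENNReal.ofReal_coe_nnreal, NNReal.coe_real_pi, ENNReal.ofReal_one, one_pow, one_mul,
          ← ENNReal.ofReal_mul (by positivity)]
        refine ENNReal.ofReal_le_ofReal ?_
        have : 0 ≤ P.A * P.th t ^ (-(206 / 100) : ℝ) := by positivity
        nlinarith [Real.pi_le_four]

end

end Crest.Agent.R68
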