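import Crest.Agent.R68.A0

/-!
# R68 (S0091), Soft1: one-dimensional lemmas and pointwise inequalities
-/

set_option autoImplicit false

namespace Crest.Agent.R68.Sf

open MeasureTheory Set Filter Crest.AnalysisR.VecCalc3 Crest.AnalysisR.PDE.Boltzmann
open scoped ENNReal _root_.Topology

noncomputable section

theorem soft_ftc {u w : ℝ → ℝ} {T : ℝ} (hT : 0 ≤ T) (hu : AbsolutelyContinuousOnInterval u 0 T)
    (hw : ∀ᵐ s, s ∈ uIcc 0 T → HasDerivAt u (w s) s) : u T = u 0 + ∫ s in Ioo 0 T, w s := by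
  have h := hu.integral_deriv_eq_sub
  rw [intervalIntegral.integral_of_le hT, integral_Ioc_eq_integral_Ioo] at h
  have e : ∫ s in Ioo 0 T, deriv u s = ∫ s in Ioo 0 T, w s :=
    setIntegral_congr_ae measurableSet_Ioo (hw.mono fun s hs h' =>
      (hs (by rw [uIcc_of_le hT]; exact Ioo_subset_Icc_self h')).deriv)
  linarith

theorem soft_prim {q g : ℝ → ℝ} {g₀ T : ℝ} (hT : 0 ≤ T) (hq : IntegrableOn q (Ioo 0 T))
    (hg : ∀ t ∈ Icc 0 T, g t = g₀ + ∫ s in Ioo 0 t, q s) :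
    ∃ G : ℝ → ℝ, AbsolutelyContinuousOnInterval G 0 T ∧
      (∀ᵐ s, s ∈ uIcc 0 T → HasDerivAt G (q s) s) ∧ (∀ t ∈ Icc 0 T, G t = g t) ∧ G 0 = g₀ := by
  have hi : IntervalIntegrable q volume 0 T := (intervalIntegrable_iff_integrableOn_Ioo_of_le hT).2 hq
  refine ⟨fun t => g₀ + ∫ s in (0 : ℝ)..t, q s, ?_, ?_, fun t ht => ?_, by simp⟩
  · exact (contDiffOn_const.absolutelyContinuousOnInterval (f := fun _ => g₀)).add
      (hi.absolutelyContinuousOnInterval_intervalIntegral left_mem_uIcc)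
  · exact hi.ae_hasDerivAt_integral.mono fun s hs h => (hs h 0 left_mem_uIcc).const_add g₀
  · rw [hg t ht]
    beta_reduce
    rw [intervalIntegral.integral_of_le ht.1, integral_Ioc_eq_integral_Ioo]

/-- product rule -/
theorem soft_prod {q g φ φ' : ℝ → ℝ} {g₀ T : ℝ} (hT : 0 ≤ T) (hq : IntegrableOn q (Ioo 0 T))
    (hg : ∀ t ∈ Icc 0 T, g t = g₀ + ∫ s in Ioo 0 t, q s) (hφ : ∀ s, HasDerivAt φ (φ' s) s)
    (hc : Continuous φ') :
    g T * φ T = g₀ * φ 0 + ∫ s in Ioo 0 T, (g s * φ' s + q s * φ s) := by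
  obtain ⟨G, h1, h2, h3, h4⟩ := soft_prim hT hq hg
  have h5 : ContDiff ℝ 1 φ := by
    rw [contDiff_one_iff_deriv]
    exact ⟨fun s => (hφ s).differentiableAt, by
      rwa [show deriv φ = φ' from funext fun s => (hφ s).deriv]⟩
  have h6 := soft_ftc hT (h1.mul h5.contDiffOn.absolutelyContinuousOnInterval)
    (h2.mono fun s hs h => (hs h).mul (hφ s))
  rw [Pi.mul_apply, Pi.mul_apply, h3 T ⟨hT, le_rfl⟩, h4] at h6
  rw [h6]
  congr 1
  refine setIntegral_congr_fun measurableSet_Ioo fun s hs => ?_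
  simp only [h3 s (Ioo_subset_Icc_self hs)]
  ring

/-- chain rule -/
theorem soft_chain {q g β β' : ℝ → ℝ} {g₀ T K : ℝ} (hT : 0 ≤ T) (hq : IntegrableOn q (Ioo 0 T))
    (hg : ∀ t ∈ Icc 0 T, g t = g₀ + ∫ s in Ioo 0 t, q s) (hβ : ∀ z, HasDerivAt β (β' z) z)
    (hK : ∀ z, |β' z| ≤ K) : β (g T) = β g₀ + ∫ s in Ioo 0 T, q s * β' (g s) := by
  obtain ⟨G, h1, h2, h3, h4⟩ := soft_prim hT hq hg
  have hL : ∀ a b, dist (β a) (β b) ≤ K * dist a b := fun a b => by
    rw [dist_eq_norm, dist_eq_norm]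
    exact convex_univ.norm_image_sub_le_of_norm_hasDerivWithin_le
      (fun z _ => (hβ z).hasDerivWithinAt) (fun z _ => hK z) (mem_univ b) (mem_univ a)
  have h5 : AbsolutelyContinuousOnInterval (β ∘ G) 0 T := by
    refine squeeze_zero (fun t => Finset.sum_nonneg fun i _ => dist_nonneg) (fun t => ?_)
      (by simpa using Tendsto.const_mul K h1)
    rw [Finset.mul_sum]
    exact Finset.sum_le_sum fun i _ => hL _ _
  have h6 := soft_ftc hT h5 (h2.mono fun s hs h => (hβ (G s)).comp s (hs h))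
  rw [Function.comp_apply, Function.comp_apply, h3 T ⟨hT, le_rfl⟩, h4] at h6
  rw [h6]
  congr 1
  refine setIntegral_congr_fun measurableSet_Ioo fun s hs => ?_
  simp only [h3 s (Ioo_subset_Icc_self hs)]
  ring

/-! ### the truncated entropy -/

/-- truncation to `[δ, δ⁻¹]` -/
def sph (δ h : ℝ) : ℝ := max δ (min h δ⁻¹)

/-- truncated entropy density -/
def sbe (δ h : ℝ) : ℝ := h * Real.log (sph δ h) - sph δ h + 1

section trunc

variable {δ : ℝ}

theorem continuous_sph (δ : ℝ) : Continuous (sph δ) :=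
  continuous_const.max (continuous_id.min continuous_const)

theorem le_sph (δ h : ℝ) : δ ≤ sph δ h := le_max_left _ _

theorem sph_pos (h0 : 0 < δ) (h : ℝ) : 0 < sph δ h := h0.trans_le (le_sph δ h)

theorem sph_le (h0 : 0 < δ) (h1 : δ ≤ 1) (h : ℝ) : sph δ h ≤ δ⁻¹ :=
  max_le (h1.trans (one_le_inv₀ h0 |>.2 h1)) (min_le_right _ _)

theorem sph_le_add (h1 : δ ≤ 1) {h : ℝ} (hh : 0 ≤ h) : sph δ h ≤ 1 + h :=
  max_le (by linarith) ((min_le_left _ _).trans (by linarith))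

theorem sph_one (h0 : 0 < δ) (h1 : δ ≤ 1) : sph δ 1 = 1 := by
  unfold sph
  rw [min_eq_left (one_le_inv₀ h0 |>.2 h1), max_eq_right h1]

theorem abs_log_sph (h0 : 0 < δ) (h1 : δ ≤ 1) (h : ℝ) : |Real.log (sph δ h)| ≤ -Real.log δ := by
  rw [abs_le, neg_neg]
  refine ⟨Real.log_le_log h0 (le_sph δ h), ?_⟩
  rw [← Real.log_inv]
  exact Real.log_le_log (sph_pos h0 h) (sph_le h0 h1 h)

theorem soft_young {x y : ℝ} (hx : 0 < x) (hy : 0 < y) : x * (Real.log y - Real.log x) ≤ y - x := by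
  have h := Real.log_le_sub_one_of_pos (div_pos hy hx)
  rw [Real.log_div hy.ne' hx.ne'] at h
  have := mul_le_mul_of_nonneg_left h hx.le
  rwa [mul_sub x (y / x), mul_div_cancel₀ _ hx.ne', mul_one] at this

theorem sbe_supp (h0 : 0 < δ) (h1 : δ ≤ 1) (h k : ℝ) :
    sbe δ h + (k - h) * Real.log (sph δ h) ≤ sbe δ k := by
  have e1 := soft_young (sph_pos h0 k) (sph_pos h0 h)
  have e2 : (k - sph δ k) * (Real.log (sph δ h) - Real.log (sph δ k)) ≤ 0 := by
    rcases le_total k δ with c | c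
    · have : sph δ k = δ := max_eq_left ((min_le_left _ _).trans c)
      rw [this]
      exact mul_nonpos_of_nonpos_of_nonneg (by linarith)
        (sub_nonneg.2 (Real.log_le_log h0 (le_sph δ h)))
    · rcases le_total k δ⁻¹ with c' | c'
      · have : sph δ k = k := by unfold sph; rw [min_eq_left c', max_eq_right c]
        rw [this, sub_self, zero_mul]
      · have : sph δ k = δ⁻¹ := by
          unfold sph; rw [min_eq_right c', max_eq_right (h1.trans (one_le_inv₀ h0 |>.2 h1))]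
        rw [this]
        exact mul_nonpos_of_nonneg_of_nonpos (by linarith)
          (sub_nonpos.2 (Real.log_le_log (sph_pos h0 h) (sph_le h0 h1 h)))
  unfold sbe
  nlinarith

theorem continuous_log_sph (h0 : 0 < δ) : Continuous fun h => Real.log (sph δ h) :=
  (continuous_sph δ).log fun h => (sph_pos h0 h).ne'

theorem continuous_sbe (h0 : 0 < δ) : Continuous (sbe δ) :=
  ((continuous_id.mul (continuous_log_sph h0)).sub (continuous_sph δ)).add continuous_const

theorem hasDerivAt_sbe (h0 : 0 < δ) (h1 : δ ≤ 1) (h : ℝ) :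
    HasDerivAt (sbe δ) (Real.log (sph δ h)) h := by
  rw [hasDerivAt_iff_isLittleO, Asymptotics.isLittleO_iff]
  intro c hc
  have h2 : ∀ᶠ k in 𝓝 h, |Real.log (sph δ k) - Real.log (sph δ h)| < c := by
    have := Metric.tendsto_nhds.1 ((continuous_log_sph h0).tendsto h) c hc
    simpa only [Real.dist_eq] using this
  refine h2.mono fun k hk => ?_
  have e1 := sbe_supp h0 h1 h k
  have e2 := sbe_supp h0 h1 k h
  rw [Real.norm_eq_abs, Real.norm_eq_abs, smul_eq_mul, abs_of_nonneg (by linarith)]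
  calc _ ≤ (Real.log (sph δ k) - Real.log (sph δ h)) * (k - h) := by linarith
    _ ≤ |Real.log (sph δ k) - Real.log (sph δ h)| * |k - h| := by
        rw [← abs_mul]; exact le_abs_self _
    _ ≤ _ := mul_le_mul_of_nonneg_right hk.le (abs_nonneg _)

theorem sbe_nonneg (h0 : 0 < δ) (h1 : δ ≤ 1) (h : ℝ) : 0 ≤ sbe δ h := by
  have := sbe_supp h0 h1 1 h
  unfold sbe at this ⊢
  rw [sph_one h0 h1, Real.log_one] at this
  linarith

theorem sbe_le (h0 : 0 < δ) {h : ℝ} (hh : 0 ≤ h) : sbe δ h ≤ h * Real.log h - h + 1 := by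
  unfold sbe
  rcases hh.eq_or_lt with rfl | hh
  · linarith [sph_pos h0 0]
  · linarith [soft_young hh (sph_pos h0 h)]

theorem sbe_le' (h0 : 0 < δ) (h1 : δ ≤ 1) {h : ℝ} (hh : 0 ≤ h) :
    sbe δ h ≤ h * (-Real.log δ) + 1 := by
  unfold sbe
  have := mul_le_mul_of_nonneg_left (abs_le.1 (abs_log_sph h0 h1 h)).2 hh
  linarith [sph_pos h0 h]

end trunc

/-- the truncation parameters -/
def sdl (n : ℕ) : ℝ := 1 / ((n : ℝ) + 1)

theorem sdl_pos (n : ℕ) : 0 < sdl n := Nat.one_div_pos_of_nat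

theorem sdl_le (n : ℕ) : sdl n ≤ 1 := by
  unfold sdl
  rw [div_le_one (by positivity)]
  linarith [Nat.cast_nonneg (α := ℝ) n]

theorem tendsto_sph {h : ℝ} (hh : 0 ≤ h) : Tendsto (fun n => sph (sdl n) h) atTop (𝓝 h) := by
  have h1 : Tendsto (fun n => max (sdl n) h) atTop (𝓝 (max 0 h)) :=
    (tendsto_one_div_add_atTop_nhds_zero_nat (𝕜 := ℝ)).max tendsto_const_nhds
  rw [max_eq_right hh] at h1
  refine h1.congr' ?_
  filter_upwards [tendsto_natCast_atTop_atTop (R := ℝ).eventually_ge_atTop h] with n hn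
  unfold sph sdl
  rw [min_eq_left (by rw [one_div, inv_inv]; linarith)]

theorem tendsto_sbe {h : ℝ} (hh : 0 ≤ h) :
    Tendsto (fun n => sbe (sdl n) h) atTop (𝓝 (h * Real.log h - h + 1)) := by
  refine Tendsto.add_const 1 (Tendsto.sub ?_ (tendsto_sph hh))
  rcases hh.eq_or_lt with rfl | hh'
  · simp
  · exact ((tendsto_sph hh).log hh'.ne').const_mul h

theorem soft_half {δ h0 h1 h2 h3 : ℝ} (d0 : 0 < δ) (d1 : δ ≤ 1) (p0 : 0 ≤ h0) (p1 : 0 ≤ h1)
    (p2 : 0 ≤ h2) (p3 : 0 ≤ h3) :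
    h2 * h3 * (Real.log (sph δ h0) + Real.log (sph δ h1) - Real.log (sph δ h2) -
      Real.log (sph δ h3)) ≤
      (1 + h0) * (1 + h1) + h2 * h3 * (max (Real.log h2) 0 + max (Real.log h3) 0) := by
  have key : ∀ h : ℝ, 0 < h → Real.log h - Real.log (sph δ h) ≤ max (Real.log h) 0 := by
    intro h hh
    rcases le_total h 1 with c | c
    · have : h ≤ sph δ h := le_max_of_le_right (le_min le_rfl (c.trans (one_le_inv₀ d0 |>.2 d1)))
      exact le_max_of_le_right (sub_nonpos.2 (Real.log_le_log hh this))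
    · have : 1 ≤ sph δ h := le_max_of_le_right (le_min c (one_le_inv₀ d0 |>.2 d1))
      exact le_max_of_le_left (by linarith [Real.log_nonneg this])
  rcases p2.eq_or_lt with rfl | q2
  · simp only [zero_mul, add_zero]; positivity
  rcases p3.eq_or_lt with rfl | q3
  · simp only [mul_zero, zero_mul, add_zero]; positivity
  have a0 := mul_pos q2 q3
  have e1 := soft_young a0 (mul_pos (sph_pos d0 h0) (sph_pos d0 h1))
  rw [Real.log_mul (sph_pos d0 h0).ne' (sph_pos d0 h1).ne', Real.log_mul q2.ne' q3.ne'] at e1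
  have e2 := mul_le_mul (sph_le_add d1 p0) (sph_le_add d1 p1) (sph_pos d0 h1).le (by linarith)
  have e3 := mul_le_mul_of_nonneg_left (add_le_add (key h2 q2) (key h3 q3)) a0.le
  linarith

/-- the dominating function -/
def sD (r m : ℝ) : ℝ := m + r + r * max (Real.log (r / m)) 0

theorem sD_nonneg {r m : ℝ} (hr : 0 ≤ r) (hm : 0 < m) : 0 ≤ sD r m := by
  unfold sD
  have := le_max_right (Real.log (r / m)) 0
  positivity

theorem soft_lower {δ r0 r1 r2 r3 m0 m1 m2 m3 : ℝ} (d0 : 0 < δ) (d1 : δ ≤ 1) (p0 : 0 ≤ r0)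
    (p1 : 0 ≤ r1) (p2 : 0 ≤ r2) (p3 : 0 ≤ r3) (q0 : 0 < m0) (q1 : 0 < m1) (q2 : 0 < m2)
    (q3 : 0 < m3) (e : m2 * m3 = m0 * m1) :
    0 ≤ (r2 * r3 - r0 * r1) * (Real.log (sph δ (r2 / m2)) + Real.log (sph δ (r3 / m3)) -
      Real.log (sph δ (r0 / m0)) - Real.log (sph δ (r1 / m1))) +
      (sD r0 m0 * sD r1 m1 + sD r2 m2 * sD r3 m3) := by
  have a0 := div_nonneg p0 q0.le
  have a1 := div_nonneg p1 q1.le
  have a2 := div_nonneg p2 q2.le
  have a3 := div_nonneg p3 q3.le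
  have e1 := mul_le_mul_of_nonneg_left (soft_half d0 d1 a0 a1 a2 a3) (mul_pos q0 q1).le
  have e2 := mul_le_mul_of_nonneg_left (soft_half d0 d1 a2 a3 a0 a1) (mul_pos q0 q1).le
  have f1 : m0 * m1 * (r0 / m0 * (r1 / m1)) = r0 * r1 := by field_simp
  have f2 : m0 * m1 * (r2 / m2 * (r3 / m3)) = r2 * r3 := by rw [← e]; field_simp
  have f3 : m0 * m1 * ((1 + r0 / m0) * (1 + r1 / m1)) = (m0 + r0) * (m1 + r1) := by field_simp
  have f4 : m0 * m1 * ((1 + r2 / m2) * (1 + r3 / m3)) = (m2 + r2) * (m3 + r3) := by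
    rw [← e]; field_simp
  rw [mul_add, ← mul_assoc, ← mul_assoc (m0 * m1) (_ * _), f2, f3] at e1
  rw [mul_add, ← mul_assoc, ← mul_assoc (m0 * m1) (_ * _), f1, f4] at e2
  have g : ∀ {r r' m m' l l' : ℝ}, 0 ≤ r → 0 ≤ r' → 0 < m → 0 < m' → 0 ≤ l → 0 ≤ l' →
      (m + r) * (m' + r') + r * r' * (l + l') ≤ (m + r + r * l) * (m' + r' + r' * l') := by
    intro r r' m m' l l' _ _ _ _ _ _
    have : 0 ≤ m * (r' * l') + r * l * m' + r * l * (r' * l') := by positivity
    nlinarith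
  have g1 := g p0 p1 q0 q1 (le_max_right (Real.log (r0 / m0)) 0) (le_max_right (Real.log (r1 / m1)) 0)
  have g2 := g p2 p3 q2 q3 (le_max_right (Real.log (r2 / m2)) 0) (le_max_right (Real.log (r3 / m3)) 0)
  unfold sD
  linarith

theorem soft_pd_aux {a b : ℕ → ℝ} {A c R : ℝ} (ha : Tendsto a atTop (𝓝 A))
    (hb : Tendsto b atTop (𝓝 0)) (pb : ∀ n, 0 < b n) (hA : 0 < A) (hc : 0 < c) :
    Tendsto (fun n => ENNReal.ofReal (c * (Real.log (a n) - Real.log (b n)) + R)) atTop (𝓝 ⊤) := by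
  refine ENNReal.tendsto_ofReal_atTop.comp (tendsto_atTop_add_const_right _ R
    (Tendsto.const_mul_atTop hc ?_))
  have h1 : Tendsto (fun n => Real.log (b n)) atTop atBot :=
    Real.tendsto_log_nhdsGT_zero.comp
      (tendsto_nhdsWithin_iff.2 ⟨hb, Eventually.of_forall fun n => pb n⟩)
  simp only [sub_eq_add_neg]
  exact (ha.log hA.ne').add_atTop (tendsto_neg_atBot_atTop.comp h1)

theorem soft_pd {a b : ℕ → ℝ} {A B c R : ℝ} (ha : Tendsto a atTop (𝓝 A)) (hb : Tendsto b atTop (𝓝 B))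
    (pa : ∀ n, 0 < a n) (pb : ∀ n, 0 < b n) (hA : 0 ≤ A) (hB : 0 ≤ B) (hc : 0 < c) (hR : 0 ≤ R) :
    Tendsto (fun n => ENNReal.ofReal ((c * A - c * B) * (Real.log (a n) - Real.log (b n)) + R))
      atTop (𝓝 (pairDissipation (c * A) (c * B) + ENNReal.ofReal R)) := by
  unfold pairDissipation
  rcases hA.eq_or_lt with rfl | hA <;> rcases hB.eq_or_lt with rfl | hB
  · simp
  · have := soft_pd_aux (R := R) hb ha pa hB (mul_pos hc hB)
    rw [if_neg (fun h => (mul_pos hc hB).ne' h.2), if_neg (fun h => by simpa using h.1), top_add]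
    refine this.congr fun n => ?_
    congr 2
    ring
  · have := soft_pd_aux (R := R) ha hb pb hA (mul_pos hc hA)
    rw [if_neg (fun h => (mul_pos hc hA).ne' h.1), if_neg (fun h => by simpa using h.2), top_add]
    refine this.congr fun n => ?_
    congr 2
    ring
  · rw [if_neg (fun h => (mul_pos hc hA).ne' h.1), if_pos ⟨mul_pos hc hA, mul_pos hc hB⟩,
      mul_div_mul_left _ _ hc.ne', Real.log_div hA.ne' hB.ne', ← ENNReal.ofReal_add _ hR]
    · exact ENNReal.tendsto_ofReal ((((ha.log hA.ne').sub (hb.log hB.ne')).const_mul _).add_const R)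
    · rcases le_total A B with h | h
      · exact mul_nonneg_of_nonpos_of_nonpos (by nlinarith) (sub_nonpos.2 (Real.log_le_log hA h))
      · exact mul_nonneg (by nlinarith) (sub_nonneg.2 (Real.log_le_log hB h))

theorem soft_fatou {r0 r1 r2 r3 m0 m1 m2 m3 R : ℝ} (p0 : 0 ≤ r0) (p1 : 0 ≤ r1) (p2 : 0 ≤ r2)
    (p3 : 0 ≤ r3) (q0 : 0 < m0) (q1 : 0 < m1) (q2 : 0 < m2) (q3 : 0 < m3) (e : m2 * m3 = m0 * m1)
    (hR : 0 ≤ R) :
    Tendsto (fun n => ENNReal.ofReal ((r2 * r3 - r0 * r1) *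
      (Real.log (sph (sdl n) (r2 / m2)) + Real.log (sph (sdl n) (r3 / m3)) -
      Real.log (sph (sdl n) (r0 / m0)) - Real.log (sph (sdl n) (r1 / m1))) + R)) atTop
      (𝓝 (pairDissipation (r2 * r3) (r0 * r1) + ENNReal.ofReal R)) := by
  have a0 := div_nonneg p0 q0.le
  have a1 := div_nonneg p1 q1.le
  have a2 := div_nonneg p2 q2.le
  have a3 := div_nonneg p3 q3.le
  have h := soft_pd ((tendsto_sph a2).mul (tendsto_sph a3)) ((tendsto_sph a0).mul (tendsto_sph a1))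
    (fun n => mul_pos (sph_pos (sdl_pos n) _) (sph_pos (sdl_pos n) _))
    (fun n => mul_pos (sph_pos (sdl_pos n) _) (sph_pos (sdl_pos n) _))
    (mul_nonneg a2 a3) (mul_nonneg a0 a1) (mul_pos q0 q1) hR
  have f1 : m0 * m1 * (r0 / m0 * (r1 / m1)) = r0 * r1 := by field_simp
  have f2 : m0 * m1 * (r2 / m2 * (r3 / m3)) = r2 * r3 := by rw [← e]; field_simp
  rw [f1, f2] at h
  refine h.congr fun n => ?_
  rw [Real.log_mul (sph_pos (sdl_pos n) _).ne' (sph_pos (sdl_pos n) _).ne',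
    Real.log_mul (sph_pos (sdl_pos n) _).ne' (sph_pos (sdl_pos n) _).ne', sub_sub]

/-! ### the Maxwellian -/

theorem mxw_pos (v : R3) : 0 < maxwellian v := by
  unfold maxwellian
  have := Real.pi_pos
  positivity

theorem continuous_mxw : Continuous maxwellian := by
  unfold maxwellian
  fun_prop

theorem log_mxw (v : R3) : Real.log (maxwellian v) ≤ 0 ∧ -(9 + ‖v‖ ^ 2 / 2) ≤ Real.log (maxwellian v) := by
  have h1 := Real.pi_gt_three
  have h2 := Real.pi_lt_d2
  have h3 : 0 ≤ Real.log (2 * Real.pi) := Real.log_nonneg (by linarith)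
  have h4 := Real.log_le_sub_one_of_pos (show 0 < 2 * Real.pi by linarith)
  unfold maxwellian
  rw [Real.log_mul (by positivity) (Real.exp_pos _).ne', Real.log_exp, Real.log_rpow (by linarith)]
  constructor <;> nlinarith [sq_nonneg ‖v‖]

theorem mxw_coll (v a ω : R3) (hω : ‖ω‖ = 1) :
    maxwellian (postVel v a ω) * maxwellian (postVelStar v a ω) = maxwellian v * maxwellian a := by
  unfold maxwellian
  rw [mul_mul_mul_comm, ← Real.exp_add, mul_mul_mul_comm, ← Real.exp_add]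
  congr 2
  linarith [coll_energy v a ω hω]

theorem sD_le {r : ℝ} (hr : 0 ≤ r) (v : R3) :
    sD r (maxwellian v) ≤ maxwellian v + 10 * ((1 + ‖v‖) ^ 2 * (r + r ^ (11 / 10 : ℝ))) := by
  unfold sD
  have hv := norm_nonneg v
  rcases hr.eq_or_lt with rfl | hr'
  · simp
  have h1 := log_mxw v
  have h2 := Real.log_le_rpow_div hr (show (0 : ℝ) < 1 / 10 by norm_num)
  have h3 : 0 ≤ r ^ (1 / 10 : ℝ) := by positivity
  have h4 : max (Real.log (r / maxwellian v)) 0 ≤ 10 * r ^ (1 / 10 : ℝ) + (9 + ‖v‖ ^ 2 / 2) := by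
    rw [Real.log_div hr'.ne' (mxw_pos v).ne']
    exact max_le (by linarith [h1.2]) (by positivity)
  have h5 : r * r ^ (1 / 10 : ℝ) = r ^ (11 / 10 : ℝ) := by
    rw [show (11 / 10 : ℝ) = 1 + 1 / 10 by norm_num, Real.rpow_add hr', Real.rpow_one]
  have h6 := mul_le_mul_of_nonneg_left h4 hr
  have h7 : 0 ≤ r ^ (11 / 10 : ℝ) := by positivity
  rw [mul_add, mul_left_comm, h5] at h6
  nlinarith [mul_nonneg hr hv, mul_nonneg hr (sq_nonneg ‖v‖), mul_nonneg h7 hv,
    mul_nonneg h7 (sq_nonneg ‖v‖)]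

theorem ent_le_H {z : ℝ} (hz : 0 ≤ z) (v : R3) : z * (1 + ‖v‖ ^ 2 + |Real.log z|) ≤
    (z * Real.log (z / maxwellian v) - z + maxwellian v) + 20 * z + 2 * (‖v‖ ^ 2 * z) +
      2 * maxwellian v := by
  have hm := mxw_pos v
  rcases hz.eq_or_lt with rfl | hz'
  · simp only [zero_mul, mul_zero]; linarith
  have h1 := log_mxw v
  have h2 := soft_young hz' hm
  have h3 := mul_le_mul_of_nonneg_left h1.1 hz
  have h4 := mul_le_mul_of_nonneg_left h1.2 hz
  rw [Real.log_div hz'.ne' hm.ne']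
  rcases le_total 0 (Real.log z) with c | c
  · rw [abs_of_nonneg c]
    nlinarith [mul_nonneg hz (sq_nonneg ‖v‖)]
  · rw [abs_of_nonpos c]
    nlinarith [mul_nonneg hz (sq_nonneg ‖v‖)]

theorem H_le_ent {z : ℝ} (hz : 0 ≤ z) (v : R3) :
    z * Real.log (z / maxwellian v) - z + maxwellian v ≤
      10 * (z * (1 + ‖v‖ ^ 2 + |Real.log z|)) + maxwellian v := by
  have hm := mxw_pos v
  rcases hz.eq_or_lt with rfl | hz'
  · simp
  have h1 := log_mxw v
  have h3 := mul_le_mul_of_nonneg_left (le_abs_self (Real.log z)) hz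
  have h4 := mul_le_mul_of_nonneg_left h1.2 hz
  rw [Real.log_div hz'.ne' hm.ne']
  nlinarith [mul_nonneg hz (sq_nonneg ‖v‖), mul_nonneg hz (abs_nonneg (Real.log z))]

end

end Crest.Agent.R68.Sf
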