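import Crest.Agent.R68.EData
import Crest.Agent.R68.Soft1

/-!
# R68 (S0091): the relative entropy of the data is small
-/

set_option autoImplicit false

namespace Crest.Agent.R68

open MeasureTheory Set Filter Crest.AnalysisR.VecCalc3 Crest.AnalysisR.PDE.Boltzmann
open scoped ENNReal _root_.Topology

noncomputable section

open Classical

theorem eent_cell (Φ : ℂ → R3 → ℝ≥0∞) (hΦ : Measurable fun p : ℂ × R3 => Φ p.1 p.2) :
    ∫⁻ q in cell ×ˢ (univ : Set R3), Φ (Xr q.1) q.2 ≤ ∫⁻ z : ℂ, ∫⁻ v, Φ z v := by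
  have hm : Measurable fun q : R3 × R3 => Φ (Xr q.1) q.2 :=
    hΦ.comp ((measurable_Xr.comp measurable_fst).prodMk measurable_snd)
  rw [Measure.volume_eq_prod, ← Measure.prod_restrict, Measure.restrict_univ,
    lintegral_prod _ hm.aemeasurable]
  have := lintegral_cell_red (fun z => ∫⁻ v, Φ z v) hΦ.lintegral_prod_right' 0
  simp only [sub_zero] at this
  exact this.trans_le (setLIntegral_le_lintegral _ _)

theorem eent_cell' (Φ : R3 → ℝ≥0∞) (hΦ : Measurable Φ) :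
    ∫⁻ q in cell ×ˢ (univ : Set R3), Φ q.2 = ∫⁻ v, Φ v := by
  have hm : Measurable fun q : R3 × R3 => Φ q.2 := hΦ.comp measurable_snd
  rw [Measure.volume_eq_prod, ← Measure.prod_restrict, Measure.restrict_univ,
    lintegral_prod _ hm.aemeasurable]
  simp [volume_cell]

theorem eent_log {f : ℝ} (hf : 0 ≤ f) (v : R3) :
    f * Real.log (f / maxwellian v) - f + maxwellian v ≤
      f * Real.log f + f * (9 + ‖v‖ ^ 2 / 2) + maxwellian v := by
  rcases hf.eq_or_lt with rfl | hf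
  · simp
  · rw [Real.log_div hf.ne' (Sf.mxw_pos v).ne']
    nlinarith [(Sf.log_mxw v).2]

theorem eent_mx (v : R3) : maxwellian v ≤ Real.exp (-(1 / 2) * ‖v‖ ^ 2 / 2) := by
  have := Mx_le_Gs (θ := 1 / 2) (by norm_num) v
  rwa [Mx, Gs, ENNReal.ofReal_le_ofReal_iff (Real.exp_pos _).le] at this

theorem eent_T2 {y : ℝ} {v : R3}
    (hy : y ≤ 10 * ((1 + ‖v‖) ^ 2 * Real.exp (-(1 / 2) * ‖v‖ ^ 2 / 2))) :
    ENNReal.ofReal y ≤ 10 * (br v ^ 2 * Gs (1 / 2) v) := by
  rw [br, Gs, ← ENNReal.ofReal_pow (by positivity), ← ENNReal.ofReal_mul (by positivity),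
    ← ENNReal.ofReal_ofNat 10, ← ENNReal.ofReal_mul (by norm_num)]
  exact ENNReal.ofReal_le_ofReal hy

theorem eent_seed {f : ℝ} {v : R3} (hf : 0 ≤ f) (h1 : f ≤ Real.exp (-(1 / 2) * ‖v‖ ^ 2 / 2)) :
    ENNReal.ofReal (f * Real.log (f / maxwellian v) - f + maxwellian v) ≤
      10 * (br v ^ 2 * Gs (1 / 2) v) := by
  refine eent_T2 ((eent_log hf v).trans ?_)
  have h2 : Real.exp (-(1 / 2) * ‖v‖ ^ 2 / 2) ≤ 1 := Real.exp_le_one_iff.2 (by nlinarith [sq_nonneg ‖v‖])
  have h3 : f * Real.log f ≤ 0 := Real.mul_log_nonpos hf (h1.trans h2)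
  have h4 := eent_mx v
  have h5 : f * (9 + ‖v‖ ^ 2 / 2) ≤ Real.exp (-(1 / 2) * ‖v‖ ^ 2 / 2) * (9 + ‖v‖ ^ 2 / 2) := by gcongr
  have h6 := norm_nonneg v
  have h7 := Real.exp_pos (-(1 / 2) * ‖v‖ ^ 2 / 2)
  nlinarith [mul_nonneg h7.le h6, mul_nonneg h7.le (sq_nonneg ‖v‖)]

theorem eent_cold {f B : ℝ} {v : R3} (hf : 0 ≤ f) (h1 : f ≤ B) (hB : 1 ≤ B) (hv : ‖v‖ ≤ 2) :
    f * Real.log (f / maxwellian v) - f + maxwellian v ≤ 22 * B ^ (11 / 10 : ℝ) := by
  refine (eent_log hf v).trans ?_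
  have hB0 : 0 < B := by linarith
  have a1 : B ≤ B ^ (11 / 10 : ℝ) := by
    calc B = B ^ (1 : ℝ) := (Real.rpow_one B).symm
      _ ≤ _ := Real.rpow_le_rpow_of_exponent_le hB (by norm_num)
  have a2 : f * Real.log f ≤ 10 * B ^ (11 / 10 : ℝ) := by
    rcases hf.eq_or_lt with rfl | hf0
    · simp; positivity
    have b1 := Real.log_le_rpow_div hf0.le (show (0 : ℝ) < 1 / 10 by norm_num)
    have b2 : f ^ (1 / 10 : ℝ) ≤ B ^ (1 / 10 : ℝ) := by gcongr
    have b3 : B ^ (11 / 10 : ℝ) = B * B ^ (1 / 10 : ℝ) := by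
      rw [show (11 / 10 : ℝ) = 1 + 1 / 10 by norm_num, Real.rpow_add hB0, Real.rpow_one]
    calc f * Real.log f ≤ f * (f ^ (1 / 10 : ℝ) / (1 / 10)) := by gcongr
      _ ≤ B * (B ^ (1 / 10 : ℝ) / (1 / 10)) := by gcongr
      _ = _ := by rw [b3]; ring
  have a3 : maxwellian v ≤ 1 := (eent_mx v).trans
    (Real.exp_le_one_iff.2 (by nlinarith [sq_nonneg ‖v‖]))
  have a4 : ‖v‖ ^ 2 ≤ 4 := by nlinarith [norm_nonneg v]
  have a5 : f * (9 + ‖v‖ ^ 2 / 2) ≤ B * 11 := by gcongr; linarith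
  linarith

/-- the bound for the cold part -/
def eentC (P : Par) (X : ℂ) (v : R3) : ℝ≥0∞ :=
  ({v | P.cold0 P.r true X v ≠ 0} ∪ {v | P.cold0 P.r false X v ≠ 0}).indicator
    (fun _ => ENNReal.ofReal (22 * (2 * P.A * ‖X‖ ^ (-(103 / 100) : ℝ)) ^ (11 / 10 : ℝ))) v

theorem eent_c0 {P : Par} {ε : Bool} {X : ℂ} {v : R3} (h : P.cold0 P.r ε X v ≠ 0) :
    P.r < ‖X‖ ∧ ‖X‖ ≤ P.r₀ := by
  by_contra hc
  exact h (if_neg fun hh => hc ⟨hh.1, hh.2.1⟩)

theorem eent_c1 (P : Par) (ε : Bool) (X : ℂ) (v : R3) :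
    P.cold0 P.r ε X v ≤ ENNReal.ofReal (P.A * ‖X‖ ^ (-(103 / 100) : ℝ)) := by
  unfold Qar.cold0; split_ifs <;> simp

theorem eent_pt {P : Par} (h : P.Ok) {α : ℝ} (hα : α ∈ Icc (0 : ℝ) 1) (x v : R3) :
    ENNReal.ofReal (tX (P.f0 α) x v * Real.log (tX (P.f0 α) x v / maxwellian v) -
      tX (P.f0 α) x v + maxwellian v) ≤ (if P.R ≤ ‖v‖ then Mx v else 0) +
      ((if ‖Xr x‖ < P.r₁ then 10 * (br v ^ 2 * Gs (1 / 2) v) else 0) + eentC P (Xr x) v) := by
  have hr : P.r₀ < P.r₁ := by linarith [h.r₀_le, h.T₁_le_r, h.T₁_pos]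
  by_cases hc : v ∈ {v | P.cold0 P.r true (Xr x) v ≠ 0} ∪ {v | P.cold0 P.r false (Xr x) v ≠ 0}
  · have h1 : P.r < ‖Xr x‖ ∧ ‖Xr x‖ ≤ P.r₀ := hc.elim eent_c0 eent_c0
    have h2 : ‖v‖ ≤ 2 := hc.elim ((h.cold0_supp_vol _ h.r_pos.le _ _).2 v)
      ((h.cold0_supp_vol _ h.r_pos.le _ _).2 v)
    have hX0 : 0 < ‖Xr x‖ := h.r_pos.trans h1.1
    have hX1 : ‖Xr x‖ ≤ 1 := by linarith [h1.2, h.r₁_le]
    have hA := h.A_ge
    have h3 : 1 ≤ ‖Xr x‖ ^ (-(103 / 100) : ℝ) :=
      Real.one_le_rpow_of_pos_of_le_one_of_nonpos hX0 hX1 (by norm_num)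
    refine le_add_left (le_add_left ?_)
    rw [eentC, indicator_of_mem hc]
    refine ENNReal.ofReal_le_ofReal (eent_cold ENNReal.toReal_nonneg ?_ (by nlinarith) h2)
    refine ENNReal.toReal_le_of_le_ofReal (by positivity) ?_
    have e1 : P.fB x v = 0 := if_neg fun hh => by linarith [hh.2, h1.2]
    have e2 : P.seed x v = 0 := if_neg fun hh => by linarith [hh.2.1, h1.1]
    simp only [Par.f0, e1, e2, add_zero, mul_zero]
    refine (add_le_add (eent_c1 P _ _ _) (eent_c1 P _ _ _)).trans_eq ?_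
    rw [← ENNReal.ofReal_add (by positivity) (by positivity)]; congr 1; ring
  · have c1 : P.cold0 P.r true (Xr x) v = 0 := by by_contra hh; exact hc (Or.inl hh)
    have c2 : P.cold0 P.r false (Xr x) v = 0 := by by_contra hh; exact hc (Or.inr hh)
    by_cases hX : ‖Xr x‖ < P.r₁
    · have e1 : P.fB x v = 0 := if_neg fun hh => by linarith [hh.2]
      refine le_add_left (le_add_right ?_)
      rw [if_pos hX]
      refine eent_seed ENNReal.toReal_nonneg (ENNReal.toReal_le_of_le_ofReal (Real.exp_pos _).le ?_)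
      simp only [Par.f0, e1, c1, c2, add_zero, zero_add]
      calc ENNReal.ofReal α * P.seed x v ≤ 1 * Gs (1 / 2) v := by
            gcongr
            · exact ENNReal.ofReal_le_one.2 hα.2
            · unfold Par.seed; split_ifs <;> simp
        _ = _ := by rw [one_mul, Gs]
    · have e2 : P.seed x v = 0 := if_neg fun hh => by linarith [hh.2.1, h.r_le', not_lt.1 hX]
      refine le_add_right ?_
      by_cases hv : ‖v‖ < P.R
      · have e1 : P.fB x v = Mx v := if_pos ⟨hv, not_lt.1 hX⟩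
        have e3 : tX (P.f0 α) x v = maxwellian v := by
          simp only [tX, Par.f0, e1, e2, c1, c2, add_zero, zero_add, mul_zero, Mx]
          exact ENNReal.toReal_ofReal (Sf.mxw_pos v).le
        rw [e3, div_self (Sf.mxw_pos v).ne']; simp
      · have e1 : P.fB x v = 0 := if_neg fun hh => hv hh.1
        have e3 : tX (P.f0 α) x v = 0 := by
          simp only [tX, Par.f0, e1, e2, c1, c2, add_zero, mul_zero, ENNReal.toReal_zero]
        rw [e3, if_pos (not_lt.1 hv)]; simp [Mx]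

theorem eent_mC (P : Par) : Measurable fun p : ℂ × R3 => eentC P p.1 p.2 := by
  have m : ∀ ε, MeasurableSet {p : ℂ × R3 | P.cold0 P.r ε p.1 p.2 ≠ 0} := fun ε =>
    (measurable_cold0 P.toQar P.r ε (measurableSet_singleton 0)).compl
  have : (fun p : ℂ × R3 => eentC P p.1 p.2) =
      ({p : ℂ × R3 | P.cold0 P.r true p.1 p.2 ≠ 0} ∪ {p | P.cold0 P.r false p.1 p.2 ≠ 0}).indicator
      fun p => ENNReal.ofReal (22 * (2 * P.A * ‖p.1‖ ^ (-(103 / 100) : ℝ)) ^ (11 / 10 : ℝ)) := by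
    funext p; rfl
  rw [this]
  exact Measurable.indicator (by fun_prop) ((m true).union (m false))

theorem eent_intC {P : Par} (h : P.Ok) : ∫⁻ z : ℂ, ∫⁻ v, eentC P z v ≤
    ENNReal.ofReal (44 * (2 * P.A) ^ (11 / 10 : ℝ) * (30 * √P.r₀)) := by
  have hA : 0 < P.A := by linarith [h.A_ge]
  have key : ∀ z : ℂ, ∫⁻ v, eentC P z v ≤ (Metric.closedBall (0 : ℂ) P.r₀).indicator
      (fun z => ENNReal.ofReal (44 * (2 * P.A) ^ (11 / 10 : ℝ)) *
        ENNReal.ofReal ‖z - 0‖ ^ (-(3 / 2) : ℝ)) z := by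
    intro z
    by_cases hz : P.r < ‖z‖ ∧ ‖z‖ ≤ P.r₀
    · have z0 : 0 < ‖z‖ := h.r_pos.trans hz.1
      have z1 : ‖z‖ ≤ 1 := by linarith [hz.2, h.r₀_le, h.T₁_le']
      rw [indicator_of_mem (mem_closedBall_zero_iff.2 hz.2)]
      refine (lintegral_indicator_const_le _ _).trans ?_
      refine (mul_le_mul_right ((measure_union_le _ _).trans (add_le_add
        (h.cold0_supp_vol _ h.r_pos.le _ _).1 (h.cold0_supp_vol _ h.r_pos.le _ _).1)) _).trans ?_
      rw [sub_zero, ENNReal.ofReal_rpow_of_pos z0, ← ENNReal.ofReal_add (by positivity)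
        (by positivity), ← ENNReal.ofReal_mul (by positivity), ← ENNReal.ofReal_mul (by positivity)]
      refine ENNReal.ofReal_le_ofReal ?_
      rw [Real.mul_rpow (by positivity) (by positivity), ← Real.rpow_mul z0.le]
      have a1 : ‖z‖ ^ (3 / 100 : ℝ) ≤ 1 := Real.rpow_le_one z0.le z1 (by norm_num)
      have a2 : ‖z‖ ^ (-(103 / 100) * (11 / 10) : ℝ) ≤ ‖z‖ ^ (-(3 / 2) : ℝ) :=
        Real.rpow_le_rpow_of_exponent_ge z0 z1 (by norm_num)
      calc _ ≤ 22 * ((2 * P.A) ^ (11 / 10 : ℝ) * ‖z‖ ^ (-(3 / 2) : ℝ)) * (1 + 1) := by gcongr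
        _ = _ := by ring
    · have : ∀ v, eentC P z v = 0 := fun v =>
        indicator_of_notMem (fun hc => hz (hc.elim eent_c0 eent_c0)) _
      simp [this]
  refine (lintegral_mono key).trans ?_
  rw [lintegral_indicator measurableSet_closedBall,
    lintegral_const_mul' _ _ ENNReal.ofReal_ne_top, ENNReal.ofReal_mul (p := 44 * _) (by positivity)]
  gcongr
  exact lintegral_disc_rpow 0 h.r₀_pos

set_option maxHeartbeats 400000 in
/-- The integrand `f log(f/M) - f + M` vanishes where `f = M` (`‖X‖ ≥ r₁`, `‖v‖ < R`), equals `M` where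
`f = 0`; `∫_{‖v‖ ≥ R} M ≤ η/4` (`R` large), `∫_{‖X‖ < r₁} ∫ M ≤ 4 r₁² ∫ M ≤ η/4`.  Elsewhere it is at most
`M + f log⁺ f + f (‖v‖²/2 + 3)`: for the seed (`f ≤ G_{1/2} ≤ 1`, `‖X‖ ≤ r ≤ r₁`) the integral is
`≤ C r₁²`; for the cold particles (`f ≤ 2A‖X‖^{-1.03}`, `log f ≤ 10 f^{0.1}`, `cold0_supp_vol`) it is
`≤ C(A) r₀^{0.8}`. -/
theorem entropy_f0 : ∀ᶠ P in 𝓕, ∀ α ∈ Icc (0 : ℝ) 1,
    relEntropy (tX (P.f0 α)) ≤ ENNReal.ofReal P.η := by
  obtain ⟨c, hc⟩ : ∃ c : ℝ, ∫⁻ v, br v ^ 2 * Gs (1 / 2) v = ENNReal.ofReal c :=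
    ⟨_, (ENNReal.ofReal_toReal (lintegral_br_Gs 2 (by norm_num))).symm⟩
  have mG : Measurable fun v => br v ^ 2 * Gs (1 / 2) v := (measurable_br.pow_const 2).mul (a3_mG _)
  filter_upwards [ev_ok, big_R fun Q => 12 * |c| / Q.η,
    small_r1 (fun Q => 120 * |c| / Q.η) (c := 2) two_pos,
    small_r0 (fun Q => 3 * (44 * (2 * Q.A) ^ (11 / 10 : ℝ) * 30) / Q.η) (c := 1 / 2) (by norm_num)]
    with P h h1 h2 h3 α hα
  replace h1 : 12 * |c| / P.η ≤ P.R := h1
  replace h2 : 120 * |c| / P.η * P.r₁ ^ (2 : ℝ) ≤ 1 := h2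
  replace h3 : 3 * (44 * (2 * P.A) ^ (11 / 10 : ℝ) * 30) / P.η * P.r₀ ^ (1 / 2 : ℝ) ≤ 1 := h3
  have hη := h.η_pos
  have hR := h.R_ge
  have m1 : Measurable fun v : R3 => if P.R ≤ ‖v‖ then Mx v else 0 :=
    Measurable.ite (measurableSet_le measurable_const measurable_norm) measurable_Mx measurable_const
  have m2 : Measurable fun p : ℂ × R3 =>
      if ‖p.1‖ < P.r₁ then 10 * (br p.2 ^ 2 * Gs (1 / 2) p.2) else 0 :=
    Measurable.ite (measurableSet_lt (by fun_prop) measurable_const)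
      ((mG.comp measurable_snd).const_mul _) measurable_const
  have m1' : Measurable fun q : R3 × R3 => if P.R ≤ ‖q.2‖ then Mx q.2 else 0 :=
    m1.comp measurable_snd
  unfold relEntropy
  refine (lintegral_mono fun q : R3 × R3 => eent_pt h hα q.1 q.2).trans ?_
  rw [lintegral_add_left m1', eent_cell' _ m1]
  have i1 : ∫⁻ v, (if P.R ≤ ‖v‖ then Mx v else 0) ≤ ENNReal.ofReal (P.η / 3) := by
    calc _ ≤ ∫⁻ v, ENNReal.ofReal (4 / P.R) * (br v ^ 2 * Gs (1 / 2) v) := by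
          refine lintegral_mono fun v => ?_
          split_ifs with hv
          · calc Mx v ≤ 1 * (1 * Gs (1 / 2) v) * Gs (1 / 2) v := by
                  rw [one_mul, one_mul, ← Gs_add]; exact Mx_le_Gs (by norm_num) v
              _ = Gs (1 / 2) v * (1 * Gs (1 / 2) v) := by ring
              _ ≤ _ := by
                  gcongr
                  · refine ENNReal.ofReal_le_ofReal ?_
                    have a1 : P.R ≤ ‖v‖ ^ 2 := by nlinarith
                    have a2 := Real.add_one_le_exp (‖v‖ ^ 2 / 4)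
                    rw [show -(1 / 2) * ‖v‖ ^ 2 / 2 = -(‖v‖ ^ 2 / 4) by ring, Real.exp_neg,
                      inv_eq_one_div, div_le_div_iff₀ (Real.exp_pos _) (by linarith)]
                    linarith
                  · exact one_le_pow₀ (ENNReal.one_le_ofReal.2 (by linarith [norm_nonneg v]))
          · exact zero_le
      _ = ENNReal.ofReal (4 / P.R) * ENNReal.ofReal c := by rw [lintegral_const_mul _ mG, hc]
      _ ≤ _ := by
          rw [← ENNReal.ofReal_mul (by positivity)]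
          refine ENNReal.ofReal_le_ofReal ?_
          rw [div_le_iff₀ hη] at h1
          rw [div_mul_eq_mul_div, div_le_iff₀ (by linarith)]
          linarith [le_abs_self c]
  have i2 := eent_cell (fun z v => (if ‖z‖ < P.r₁ then 10 * (br v ^ 2 * Gs (1 / 2) v) else 0) +
    eentC P z v) (m2.add (eent_mC P))
  have i3 : ∫⁻ z : ℂ, ∫⁻ v, (if ‖z‖ < P.r₁ then 10 * (br v ^ 2 * Gs (1 / 2) v) else 0) ≤
      ENNReal.ofReal (P.η / 3) := by
    calc _ = ∫⁻ z : ℂ, (Metric.ball (0 : ℂ) P.r₁).indicator (fun _ => 10 * ENNReal.ofReal c) z := by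
          refine lintegral_congr fun z => ?_
          by_cases hz : ‖z‖ < P.r₁
          · simp only [if_pos hz]
            rw [indicator_of_mem (mem_ball_zero_iff.2 hz), lintegral_const_mul _ mG, hc]
          · simp only [if_neg hz]
            rw [indicator_of_notMem (mt mem_ball_zero_iff.1 hz), lintegral_zero]
      _ = 10 * ENNReal.ofReal c * (ENNReal.ofReal P.r₁ ^ 2 * NNReal.pi) := by
          rw [lintegral_indicator_const Metric.isOpen_ball.measurableSet, Complex.volume_ball]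
      _ ≤ ENNReal.ofReal 10 * ENNReal.ofReal |c| * (ENNReal.ofReal (P.r₁ ^ 2) * ENNReal.ofReal 4) := by
          gcongr
          · norm_num
          · exact le_abs_self c
          · rw [ENNReal.ofReal_pow h.r₁_pos.le]
          · rw [← ENNReal.ofReal_coe_nnreal]
            exact ENNReal.ofReal_le_ofReal Real.pi_le_four
      _ ≤ _ := by
          rw [← ENNReal.ofReal_mul (by norm_num), ← ENNReal.ofReal_mul (by positivity),
            ← ENNReal.ofReal_mul (by positivity)]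
          refine ENNReal.ofReal_le_ofReal ?_
          rw [Real.rpow_two, div_mul_eq_mul_div, div_le_iff₀ hη] at h2
          linarith
  have i4 : ∫⁻ z : ℂ, ∫⁻ v, eentC P z v ≤ ENNReal.ofReal (P.η / 3) := by
    refine (eent_intC h).trans (ENNReal.ofReal_le_ofReal ?_)
    rw [← Real.sqrt_eq_rpow, div_mul_eq_mul_div, div_le_iff₀ hη] at h3
    linarith
  have i5 : ∫⁻ z : ℂ, ∫⁻ v, ((if ‖z‖ < P.r₁ then 10 * (br v ^ 2 * Gs (1 / 2) v) else 0) +
      eentC P z v) ≤ ENNReal.ofReal (P.η / 3) + ENNReal.ofReal (P.η / 3) := by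
    refine le_trans (le_of_eq ?_) (add_le_add i3 i4)
    have m4 : Measurable fun z : ℂ =>
        ∫⁻ v, if ‖z‖ < P.r₁ then 10 * (br v ^ 2 * Gs (1 / 2) v) else 0 :=
      m2.lintegral_prod_right'
    rw [← lintegral_add_left m4]
    refine lintegral_congr fun z => ?_
    have m3 : Measurable fun v : R3 => if ‖z‖ < P.r₁ then 10 * (br v ^ 2 * Gs (1 / 2) v) else 0 := by
      split_ifs
      exacts [mG.const_mul _, measurable_const]
    exact lintegral_add_left m3 _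
  refine (add_le_add i1 (i2.trans i5)).trans_eq ?_
  rw [← ENNReal.ofReal_add (by positivity) (by positivity),
    ← ENNReal.ofReal_add (by positivity) (by positivity)]
  congr 1; ring

end

end Crest.Agent.R68
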