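import Crest.Agent.R68.A4
import Crest.Agent.R68.A5

/-!
# R68 (S0091): existence and stability for the truncated equation

Both theorems rest on one estimate.  Let `C = clamp lo hi F`, `C' = clamp lo hi F'`, both
`≤ n G_{1/5}`, and `Near (F s x v) (F' s x v) (d s * G_{1/10} v)` for `s ∈ (0,t)`, `d` measurable.
Clamping preserves `Near`.  Then `Near (Nu C) (Nu C') (c d(s) br v)` (`Qp_Gs_self_le`), so by
`att_near` the attenuation factors differ by at most `c br v ∫₀ᵗ d`;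
`Near (Qp C C) (Qp C' C') (c (n d + d²...))`: avoid `d²` by
`Qp C C ≤ Qp C' C + Qp (dG) C ≤ Qp C' C' + Qp C' (dG) + Qp (dG) C` and `Qp_Gs_Gs_le`, `Qp_comm`;
`Qp C C ≤ c n² br G_{1/5}`, and `br² G_{1/5} ≤ c G_{1/10}` (`br_pow_le`, `Gs_add`).  Hence the
right-hand sides of the mild formula satisfy
`Near (Φ F t) (Φ F' t) ((ε + K ∫₀ᵗ d) G_{1/10})` for `t ≤ T`, `K = K(n, T) < ∞`.
Iterating from the a priori bound `d₀ = const` (`F t ≤ (n + c n² T br) G_{1/5}`) gives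
`d_k(t) ≤ ε e^{Kt} + d₀ (Kt)^k / k!`.
-/

set_option autoImplicit false

namespace Crest.Agent.R68

open MeasureTheory Set Filter Crest.AnalysisR.VecCalc3 Crest.AnalysisR.PDE.Boltzmann
open scoped ENNReal _root_.Topology

noncomputable section

/-- the right-hand side of the mild formula -/
def x1P (C : PF) (f : XF) (t : ℝ) (y v : R3) : ℝ≥0∞ :=
  f y v * att (Hz C y v 0 t) +
    ∫⁻ s in Ioo 0 t, att (Hz C y v s t) * Qp (C s (y + s • v)) (C s (y + s • v)) v

/-- the exponential weight -/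
def x1E (l t : ℝ) : ℝ≥0∞ := ENNReal.ofReal (Real.exp (l * t))

theorem x1_one_le_E {l t : ℝ} (hl : 0 ≤ l) (ht : 0 ≤ t) : 1 ≤ x1E l t := by
  unfold x1E
  rw [← ENNReal.ofReal_one]
  exact ENNReal.ofReal_le_ofReal (Real.one_le_exp (mul_nonneg hl ht))

theorem x1_E_mono {l s t : ℝ} (hl : 0 ≤ l) (h : s ≤ t) : x1E l s ≤ x1E l t :=
  ENNReal.ofReal_le_ofReal (Real.exp_le_exp.2 (mul_le_mul_of_nonneg_left h hl))

theorem x1_E_meas (l : ℝ) : Measurable (x1E l) := by
  unfold x1E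
  fun_prop

theorem x1_int_E {l : ℝ} (hl : 0 < l) (s t : ℝ) :
    ∫⁻ τ in Ioo s t, x1E l τ ≤ x1E l t * ENNReal.ofReal l⁻¹ := by
  refine (lintegral_mono_set (t := Iic t) fun τ hτ => hτ.2.le).trans_eq ?_
  unfold x1E
  rw [← ofReal_integral_eq_lintegral_ofReal (integrableOn_exp_mul_Iic hl t)
    (Eventually.of_forall fun τ => (Real.exp_pos _).le), integral_exp_mul_Iic hl,
    ← ENNReal.ofReal_mul (Real.exp_pos _).le, div_eq_mul_inv]

theorem x1_Gs_meas (θ : ℝ) : Measurable (Gs θ) :=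
  measurable_Gs.comp (measurable_const.prodMk measurable_id)

theorem x1_G5 (v : R3) : Gs (1 / 5) v = Gs (1 / 10) v * Gs (1 / 10) v := by
  rw [← Gs_add]; norm_num

theorem Near.x1_symm {a b e : ℝ≥0∞} (h : Near a b e) : Near b a e := ⟨h.2, h.1⟩

theorem Near.x1_mono {a b e e' : ℝ≥0∞} (h : Near a b e) (he : e ≤ e') : Near a b e' :=
  ⟨h.1.trans (by gcongr), h.2.trans (by gcongr)⟩

theorem Near.x1_trans {a b c e e' : ℝ≥0∞} (h : Near a b e) (h' : Near b c e') :
    Near a c (e + e') :=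
  ⟨h.1.trans ((add_le_add_left h'.1 e).trans_eq (by ring)),
    h'.2.trans ((add_le_add_left h.2 e').trans_eq (by ring))⟩

theorem x1_near_of_le {a b e : ℝ≥0∞} (ha : a ≤ e) (hb : b ≤ e) : Near a b e :=
  ⟨ha.trans le_add_self, hb.trans le_add_self⟩

theorem x1_clamp_le {lo hi F F' : PF} {t : ℝ} {x v : R3} {e : ℝ≥0∞}
    (h : F t x v ≤ F' t x v + e) : clamp lo hi F t x v ≤ clamp lo hi F' t x v + e := by
  unfold clamp
  refine sup_le ?_ (le_sup_right.trans le_self_add)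
  refine le_trans ?_ (add_le_add_left le_sup_left e)
  rcases le_total (F' t x v) (hi t x v) with h1 | h1
  · rw [inf_eq_left.2 h1]; exact inf_le_left.trans h
  · rw [inf_eq_right.2 h1]; exact inf_le_right.trans le_self_add

theorem Near.x1_clamp {lo hi F F' : PF} {t : ℝ} {x v : R3} {e : ℝ≥0∞}
    (h : Near (F t x v) (F' t x v) e) : Near (clamp lo hi F t x v) (clamp lo hi F' t x v) e :=
  ⟨x1_clamp_le h.1, x1_clamp_le h.2⟩

theorem x1_lim {a b c : ℝ≥0∞} (hc : c ≠ ⊤) (h : ∀ k : ℕ, a ≤ b + 2⁻¹ ^ k * c) : a ≤ b := by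
  have h1 : Tendsto (fun k : ℕ => (2⁻¹ : ℝ≥0∞) ^ k * c) atTop (𝓝 (0 * c)) :=
    ENNReal.Tendsto.mul_const (ENNReal.tendsto_pow_atTop_nhds_zero_of_lt_one (by norm_num))
      (Or.inr hc)
  rw [zero_mul] at h1
  have h2 : Tendsto (fun k : ℕ => b + (2⁻¹ : ℝ≥0∞) ^ k * c) atTop (𝓝 (b + 0)) :=
    tendsto_const_nhds.add h1
  rw [add_zero] at h2
  exact ge_of_tendsto' h2 h

theorem x1_Hz_le {C C' : PF} {y v : R3} {s t l : ℝ} {D c1 : ℝ≥0∞} (hC' : Meas C') (hl : 0 < l)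
    (h1 : Nu (Gs (1 / 10)) v ≤ c1 * br v)
    (h : ∀ τ ∈ Ioo s t, ∀ x a, C τ x a ≤ C' τ x a + D * x1E l τ * Gs (1 / 10) a) :
    Hz C y v s t ≤ Hz C' y v s t + c1 * br v * (D * (x1E l t * ENNReal.ofReal l⁻¹)) := by
  unfold Hz
  calc ∫⁻ τ in Ioo s t, Nu (C τ (y + τ • v)) v
      ≤ ∫⁻ τ in Ioo s t, (Nu (C' τ (y + τ • v)) v + c1 * br v * D * x1E l τ) := by
        refine setLIntegral_mono' measurableSet_Ioo fun τ hτ => ?_
        refine (Nu_mono (h τ hτ _) v).trans ?_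
        rw [Nu_add (hC'.slice _ _) ((x1_Gs_meas _).const_mul _), Nu_mul (x1_Gs_meas _)]
        refine add_le_add_right ?_ _
        calc _ ≤ D * x1E l τ * (c1 * br v) := by gcongr
          _ = _ := by ring
    _ ≤ _ := by
        rw [lintegral_add_right _ ((x1_E_meas l).const_mul _),
          lintegral_const_mul _ (x1_E_meas l), mul_assoc]
        gcongr
        exact x1_int_E hl s t

theorem x1_Qp_bd {g : VF} {n c1 : ℝ≥0∞} {v : R3} (b : ∀ a, g a ≤ n * Gs (1 / 5) a)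
    (h : Qp (Gs (1 / 5)) (Gs (1 / 5)) v ≤ c1 * (br v * Gs (1 / 5) v)) :
    Qp g g v ≤ n * n * (c1 * (br v * Gs (1 / 5) v)) := by
  have m5 := x1_Gs_meas (1 / 5)
  refine (Qp_mono b b v).trans ?_
  rw [Qp_mul_left m5 (m5.const_mul n), Qp_mul_right m5 m5, ← mul_assoc]
  gcongr

theorem x1_Qp_le {g g' : VF} (hg : Measurable g) (hg' : Measurable g') {n d c2 : ℝ≥0∞} {v : R3}
    (b : ∀ a, g a ≤ n * Gs (1 / 5) a) (b' : ∀ a, g' a ≤ n * Gs (1 / 5) a)
    (h : ∀ a, g a ≤ g' a + d * Gs (1 / 10) a)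
    (h2 : Qp (Gs (1 / 5)) (Gs (1 / 10)) v ≤ c2 * Gs (1 / 10) v) :
    Qp g g v ≤ Qp g' g' v + d * (2 * n * c2 * Gs (1 / 10) v) := by
  have m5 := x1_Gs_meas (1 / 5)
  have m10 := x1_Gs_meas (1 / 10)
  have e1 : ∀ g : VF, (∀ a, g a ≤ n * Gs (1 / 5) a) →
      Qp g (Gs (1 / 10)) v ≤ n * (c2 * Gs (1 / 10) v) := fun g b => by
    refine (Qp_mono b (fun _ => le_rfl) v).trans ?_
    rw [Qp_mul_left m5 m10]
    gcongr
  calc Qp g g v ≤ Qp (fun a => g' a + d * Gs (1 / 10) a) g v := Qp_mono h (fun _ => le_rfl) v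
    _ = Qp g' g v + d * Qp g (Gs (1 / 10)) v := by
        rw [Qp_add_left hg' (m10.const_mul d) hg, Qp_mul_left m10 hg, Qp_comm m10 hg]
    _ ≤ Qp g' (fun a => g' a + d * Gs (1 / 10) a) v + d * (n * (c2 * Gs (1 / 10) v)) :=
        add_le_add (Qp_mono (fun _ => le_rfl) h v) (mul_le_mul_right (e1 g b) d)
    _ = Qp g' g' v + d * Qp g' (Gs (1 / 10)) v + d * (n * (c2 * Gs (1 / 10) v)) := by
        rw [Qp_add_right hg' hg' (m10.const_mul d), Qp_mul_right hg' m10]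
    _ ≤ Qp g' g' v + d * (n * (c2 * Gs (1 / 10) v)) + d * (n * (c2 * Gs (1 / 10) v)) := by
        gcongr
        exact e1 g' b'
    _ = _ := by ring

/-- the contraction estimate, one inequality -/
theorem x1_est {n : ℝ≥0∞} (hn : n ≠ ⊤) (T : ℝ) : ∃ l : ℝ, 0 < l ∧
    ∀ (C C' : PF) (f f' : XF) (ε D : ℝ≥0∞), Meas C → Meas C' → ∀ t ∈ Icc 0 T,
      (∀ s ∈ Ioo 0 t, ∀ x v, C s x v ≤ n * Gs (1 / 5) v) →
      (∀ s ∈ Ioo 0 t, ∀ x v, C' s x v ≤ n * Gs (1 / 5) v) →
      (∀ s ∈ Ioo 0 t, ∀ x v, Near (C s x v) (C' s x v) (D * x1E l s * Gs (1 / 10) v)) →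
      ∀ y v, f y v ≤ n * Gs (1 / 5) v → f y v ≤ f' y v + ε * Gs (1 / 10) v →
      x1P C f t y v ≤ x1P C' f' t y v + (ε + 2⁻¹ * D) * x1E l t * Gs (1 / 10) v := by
  obtain ⟨c1, hc1, h1⟩ := Qp_Gs_self_le
  obtain ⟨c2, hc2, h2⟩ := Qp_Gs_Gs_le (θ := 1 / 5) (θ' := 1 / 10) (by norm_num) (by norm_num)
  obtain ⟨c3, hc3, h3⟩ := br_pow_le 2 (θ := 1 / 10) (by norm_num)
  obtain ⟨c4, hc4, h4⟩ := br_pow_le 1 (θ := 1 / 10) (by norm_num)
  set A : ℝ≥0∞ := n * c1 * c4 + 2 * n * c2 + ENNReal.ofReal T * (c1 * c1 * n * n * c3) with hA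
  have hAt : A ≠ ⊤ := by rw [hA]; finiteness
  have hl : 0 < 2 * A.toReal + 1 := by positivity
  refine ⟨2 * A.toReal + 1, hl, fun C C' f f' ε D hC hC' t ht b b' hN y v hf hff => ?_⟩
  set l := 2 * A.toReal + 1 with hld
  have hAl : A * ENNReal.ofReal l⁻¹ ≤ 2⁻¹ := by
    rw [← ENNReal.ofReal_toReal hAt, ← ENNReal.ofReal_mul ENNReal.toReal_nonneg,
      show (2⁻¹ : ℝ≥0∞) = ENNReal.ofReal 2⁻¹ by
        rw [ENNReal.ofReal_inv_of_pos two_pos, ENNReal.ofReal_ofNat]]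
    refine ENNReal.ofReal_le_ofReal ?_
    rw [← div_eq_mul_inv, div_le_iff₀ hl]
    linarith
  set I : ℝ≥0∞ := D * (x1E l t * ENNReal.ofReal l⁻¹) with hI
  set η : ℝ≥0∞ := c1 * br v * I with hη
  have hatt : ∀ s, 0 ≤ s → att (Hz C y v s t) ≤ att (Hz C' y v s t) + η := fun s hs =>
    (att_near ⟨x1_Hz_le hC' hl (h1 _ le_rfl v).2 fun τ hτ x a => (hN τ ⟨hs.trans_lt hτ.1, hτ.2⟩ x a).1,
      x1_Hz_le hC hl (h1 _ le_rfl v).2 fun τ hτ x a => (hN τ ⟨hs.trans_lt hτ.1, hτ.2⟩ x a).2⟩).1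
  have t1 : f y v * att (Hz C y v 0 t) ≤ f' y v * att (Hz C' y v 0 t) +
      (ε * Gs (1 / 10) v + n * c1 * c4 * I * Gs (1 / 10) v) := by
    calc _ ≤ f y v * (att (Hz C' y v 0 t) + η) := mul_le_mul_right (hatt 0 le_rfl) _
      _ = f y v * att (Hz C' y v 0 t) + f y v * η := mul_add _ _ _
      _ ≤ (f' y v + ε * Gs (1 / 10) v) * att (Hz C' y v 0 t) + n * Gs (1 / 5) v * η := by gcongr
      _ = f' y v * att (Hz C' y v 0 t) + (ε * Gs (1 / 10) v * att (Hz C' y v 0 t) +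
          n * c1 * (br v ^ 1 * Gs (1 / 10) v) * I * Gs (1 / 10) v) := by
          rw [x1_G5, hη]; ring
      _ ≤ f' y v * att (Hz C' y v 0 t) + (ε * Gs (1 / 10) v * 1 +
          n * c1 * c4 * I * Gs (1 / 10) v) := by
          gcongr
          · exact att_le_one _
          · exact h4 v
      _ = _ := by rw [mul_one]
  have t2 : ∫⁻ s in Ioo 0 t, att (Hz C y v s t) * Qp (C s (y + s • v)) (C s (y + s • v)) v ≤
      (∫⁻ s in Ioo 0 t, att (Hz C' y v s t) * Qp (C' s (y + s • v)) (C' s (y + s • v)) v) +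
      (2 * n * c2 * I * Gs (1 / 10) v +
        ENNReal.ofReal T * (c1 * c1 * n * n * c3) * I * Gs (1 / 10) v) := by
    calc _ ≤ ∫⁻ s in Ioo 0 t,
          (att (Hz C' y v s t) * Qp (C' s (y + s • v)) (C' s (y + s • v)) v +
            (2 * n * c2 * Gs (1 / 10) v * D * x1E l s +
              c1 * c1 * n * n * c3 * I * Gs (1 / 10) v)) := by
          refine setLIntegral_mono' measurableSet_Ioo fun s hs => ?_
          have q1 := x1_Qp_bd (b s hs (y + s • v)) (h1 _ (by norm_num) v).1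
          have q2 := x1_Qp_le (hC.slice s (y + s • v)) (hC'.slice s (y + s • v)) (b s hs _)
            (b' s hs _) (fun a => (hN s hs _ a).1) (h2 v)
          generalize Qp (C s (y + s • v)) (C s (y + s • v)) v = Q at q1 q2 ⊢
          generalize Qp (C' s (y + s • v)) (C' s (y + s • v)) v = Q' at q2 ⊢
          calc _ ≤ (att (Hz C' y v s t) + η) * Q := mul_le_mul_left (hatt s hs.1.le) _
            _ = att (Hz C' y v s t) * Q + η * Q := add_mul _ _ _
            _ ≤ att (Hz C' y v s t) * (Q' + D * x1E l s * (2 * n * c2 * Gs (1 / 10) v)) +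
                η * (n * n * (c1 * (br v * Gs (1 / 5) v))) := by gcongr
            _ = att (Hz C' y v s t) * Q' +
                (att (Hz C' y v s t) * (2 * n * c2 * Gs (1 / 10) v * D * x1E l s) +
                  c1 * c1 * n * n * (br v ^ 2 * Gs (1 / 10) v) * I * Gs (1 / 10) v) := by
                rw [x1_G5, hη]; ring
            _ ≤ att (Hz C' y v s t) * Q' + (1 * (2 * n * c2 * Gs (1 / 10) v * D * x1E l s) +
                  c1 * c1 * n * n * c3 * I * Gs (1 / 10) v) := by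
                gcongr
                · exact att_le_one _
                · exact h3 v
            _ = _ := by rw [one_mul]
      _ ≤ _ := by
          rw [lintegral_add_right _ (((x1_E_meas l).const_mul _).add_const _),
            lintegral_add_right _ measurable_const, lintegral_const_mul _ (x1_E_meas l),
            setLIntegral_const, Real.volume_Ioo, sub_zero]
          refine add_le_add_right (add_le_add ?_ ?_) _
          · calc _ ≤ 2 * n * c2 * Gs (1 / 10) v * D * (x1E l t * ENNReal.ofReal l⁻¹) :=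
                  mul_le_mul_right (x1_int_E hl 0 t) _
              _ = _ := by rw [hI]; ring
          · calc _ ≤ c1 * c1 * n * n * c3 * I * Gs (1 / 10) v * ENNReal.ofReal T :=
                  mul_le_mul_right (ENNReal.ofReal_le_ofReal ht.2) _
              _ = _ := by ring
  unfold x1P
  refine (add_le_add t1 t2).trans ?_
  rw [add_add_add_comm]
  refine add_le_add_right ?_ _
  calc _ = (ε * 1 + A * ENNReal.ofReal l⁻¹ * D * x1E l t) * Gs (1 / 10) v := by
        rw [hA, hI]; ring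
    _ ≤ (ε * x1E l t + 2⁻¹ * D * x1E l t) * Gs (1 / 10) v := by
        gcongr
        exact x1_one_le_E hl.le ht.1
    _ = _ := by ring

/-- the contraction estimate for the truncated equation -/
theorem x1_step {n : ℝ≥0∞} (hn : n ≠ ⊤) (T : ℝ) : ∃ l : ℝ, 0 < l ∧
    ∀ (lo hi : PF), Meas lo → Meas hi → (∀ t x v, lo t x v ≤ hi t x v) →
    (∀ t ∈ Ioo 0 T, ∀ x v, hi t x v ≤ n * Gs (1 / 5) v) →
    ∀ (F F' : PF) (f f' : XF) (ε D : ℝ≥0∞), Meas F → Meas F' →
      (∀ x v, f x v ≤ n * Gs (1 / 5) v) → (∀ x v, f' x v ≤ n * Gs (1 / 5) v) →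
      (∀ x v, Near (f x v) (f' x v) (ε * Gs (1 / 10) v)) →
      (∀ s ∈ Ioo 0 T, ∀ x v, Near (clamp lo hi F s x v) (clamp lo hi F' s x v)
        (D * x1E l s * Gs (1 / 10) v)) →
      ∀ t ∈ Icc 0 T, ∀ y v, Near (x1P (clamp lo hi F) f t y v) (x1P (clamp lo hi F') f' t y v)
        ((ε + 2⁻¹ * D) * x1E l t * Gs (1 / 10) v) := by
  obtain ⟨l, hl, h⟩ := x1_est hn T
  refine ⟨l, hl, fun lo hi ml mh hle hhi F F' f f' ε D mF mF' hf hf' hff hN t ht y v => ?_⟩
  have hs : ∀ s ∈ Ioo 0 t, s ∈ Ioo 0 T := fun s hs => ⟨hs.1, hs.2.trans_le ht.2⟩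
  have hb : ∀ F : PF, ∀ s ∈ Ioo 0 t, ∀ x v, clamp lo hi F s x v ≤ n * Gs (1 / 5) v :=
    fun F s h1 x v => (clamp_le (hle s x v)).trans (hhi s (hs s h1) x v)
  exact ⟨h _ _ f f' ε D (ml.clamp mh mF) (ml.clamp mh mF') t ht (hb F) (hb F')
      (fun s h1 x v => hN s (hs s h1) x v) y v (hf y v) (hff y v).1,
    h _ _ f' f ε D (ml.clamp mh mF') (ml.clamp mh mF) t ht (hb F') (hb F)
      (fun s h1 x v => (hN s (hs s h1) x v).x1_symm) y v (hf' y v) (hff y v).2⟩

theorem x1_base {lo hi : PF} {n D : ℝ≥0∞} {T l : ℝ} (hl : 0 < l) (hD : n ≤ D)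
    (hle : ∀ t x v, lo t x v ≤ hi t x v)
    (hhi : ∀ t ∈ Ioo 0 T, ∀ x v, hi t x v ≤ n * Gs (1 / 5) v) (F F' : PF) :
    ∀ s ∈ Ioo 0 T, ∀ x v, Near (clamp lo hi F s x v) (clamp lo hi F' s x v)
      (D * x1E l s * Gs (1 / 10) v) := fun s hs x v => by
  have h : ∀ F : PF, clamp lo hi F s x v ≤ D * x1E l s * Gs (1 / 10) v := fun F => by
    refine (clamp_le (hle s x v)).trans ((hhi s hs x v).trans ?_)
    exact mul_le_mul' (hD.trans (le_mul_of_one_le_right' (x1_one_le_E hl.le hs.1.le)))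
      (Gs_anti (by norm_num) v)
  exact x1_near_of_le (h F) (h F')

/-- the Picard map -/
def x1S (lo hi : PF) (f : XF) (F : PF) : PF := fun t x v =>
  if 0 ≤ t then x1P (clamp lo hi F) f t (x - t • v) v else 0

theorem x1P_meas {C : PF} {f : XF} (hC : Meas C) (mf : MeasX f) :
    Meas fun t x v => x1P C f t (x - t • v) v := by
  unfold Meas x1P
  have hy : Measurable fun p : ℝ × R3 × R3 => p.2.1 - p.1 • p.2.2 := by fun_prop
  refine Measurable.add (Measurable.mul (mf.comp (hy.prodMk (by fun_prop)))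
    (measurable_att.comp (measurable_Hz hC hy (by fun_prop) measurable_const measurable_fst))) ?_
  simp only [← lintegral_indicator measurableSet_Ioo]
  refine Measurable.lintegral_prod_right' (f := fun q : (ℝ × R3 × R3) × ℝ =>
    (Ioo 0 q.1.1).indicator (fun s => att (Hz C (q.1.2.1 - q.1.1 • q.1.2.2) q.1.2.2 s q.1.1) *
      Qp (C s (q.1.2.1 - q.1.1 • q.1.2.2 + s • q.1.2.2))
        (C s (q.1.2.1 - q.1.1 • q.1.2.2 + s • q.1.2.2)) q.1.2.2) q.2) ?_
  simp only [indicator, mem_Ioo]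
  have hm : Measurable fun p : ((ℝ × R3 × R3) × ℝ) × R3 =>
      C p.1.2 (p.1.1.2.1 - p.1.1.1 • p.1.1.2.2 + p.1.2 • p.1.1.2.2) p.2 :=
    Measurable.comp (g := fun p : ℝ × R3 × R3 => C p.1 p.2.1 p.2.2)
      (f := fun p : ((ℝ × R3 × R3) × ℝ) × R3 =>
        (p.1.2, p.1.1.2.1 - p.1.1.1 • p.1.1.2.2 + p.1.2 • p.1.1.2.2, p.2)) hC (by fun_prop)
  refine Measurable.ite ((measurableSet_lt measurable_const measurable_snd).inter
    (measurableSet_lt measurable_snd (by fun_prop))) (Measurable.mul ?_ ?_) measurable_const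
  · exact measurable_att.comp (measurable_Hz hC (by fun_prop) (by fun_prop) measurable_snd
      (by fun_prop))
  · exact measurable_Qp (f := fun q : (ℝ × R3 × R3) × ℝ =>
        C q.2 (q.1.2.1 - q.1.1 • q.1.2.2 + q.2 • q.1.2.2))
      (g := fun q : (ℝ × R3 × R3) × ℝ =>
        C q.2 (q.1.2.1 - q.1.1 • q.1.2.2 + q.2 • q.1.2.2)) hm hm (by fun_prop)

theorem x1S_meas {lo hi F : PF} {f : XF} (ml : Meas lo) (mh : Meas hi) (mf : MeasX f)
    (mF : Meas F) : Meas (x1S lo hi f F) :=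
  Measurable.ite (measurableSet_le measurable_const measurable_fst)
    (x1P_meas (ml.clamp mh mF) mf) measurable_const

theorem x1S_per {lo hi F : PF} {f : XF} (pl : Per lo) (ph : Per hi) (pf : PerX f)
    (pF : Per F) : Per (x1S lo hi f F) := fun t v x i => by
  have pC := pl.clamp ph pF
  have e : ∀ (s : ℝ) (y : R3), clamp lo hi F s (y + EuclideanSpace.single i 1 + s • v) =
      clamp lo hi F s (y + s • v) := fun s y => by
    funext a
    rw [add_right_comm]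
    exact pC s a _ i
  simp only [x1S]
  split_ifs
  · rw [add_sub_right_comm]
    simp only [x1P, Hz, e]
    rw [show f (x - t • v + EuclideanSpace.single i 1) v = f (x - t • v) v from pf v _ i]
  · rfl

theorem x1S_ne_top {lo hi : PF} {f : XF} {n : ℝ≥0∞} (hn : n ≠ ⊤)
    (hle : ∀ t x v, lo t x v ≤ hi t x v) (hhi : ∀ t x v, 0 < t → hi t x v ≤ n * Gs (1 / 5) v)
    (hf : ∀ x v, f x v ≤ n * Gs (1 / 5) v) (F : PF) (t : ℝ) (x v : R3) :
    x1S lo hi f F t x v ≠ ⊤ := by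
  obtain ⟨c1, hc1, h1⟩ := Qp_Gs_self_le
  have hG := Gs_ne_top (1 / 5) v
  have hbr : br v ≠ ⊤ := ENNReal.ofReal_ne_top
  unfold x1S
  split_ifs
  · refine ne_top_of_le_ne_top (b := n * Gs (1 / 5) v * 1 +
      ∫⁻ _ in Ioo 0 t, 1 * (n * n * (c1 * (br v * Gs (1 / 5) v)))) ?_ ?_
    · rw [setLIntegral_const, Real.volume_Ioo]
      finiteness
    · refine add_le_add (mul_le_mul' (hf _ _) (att_le_one _))
        (setLIntegral_mono' measurableSet_Ioo fun s hs => mul_le_mul' (att_le_one _) ?_)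
      exact x1_Qp_bd (fun a => (clamp_le (hle _ _ _)).trans (hhi _ _ _ hs.1))
        (h1 _ (by norm_num) v).1
  · exact ENNReal.zero_ne_top

/-- Existence.  Picard iteration `F_{k+1} = Φ F_k` with
`Φ F t x v = if 0 ≤ t then (mild right-hand side with y = x - t v) else 0`; by the estimate
`Near (F_{k+1}) (F_k) (d₀ (Kt)^k/k! G)` on every `[0,T]`; put `F = liminf F_k` (measurable,
periodic); `Near F F_k (tail_k G)`, so `Near (Φ F) F_{k+1}`, and `Φ F = F` in the limit. -/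
theorem exists_mild {lo hi : PF} {f : XF} {n : ℝ≥0∞} (hn : n ≠ ⊤) (ml : Meas lo) (mh : Meas hi)
    (pl : Per lo) (ph : Per hi) (mf : MeasX f) (pf : PerX f)
    (hle : ∀ t x v, lo t x v ≤ hi t x v) (hhi : ∀ t x v, 0 < t → hi t x v ≤ n * Gs (1 / 5) v)
    (hf : ∀ x v, f x v ≤ n * Gs (1 / 5) v) :
    ∃ F : PF, Meas F ∧ Per F ∧ (∀ t x v, F t x v ≠ ⊤) ∧ ∀ T, Mild F (clamp lo hi F) f T := by
  set S := x1S lo hi f with hS
  have mS : ∀ F, Meas F → ∀ k, Meas (S^[k] F) := fun F mF k => by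
    induction k with
    | zero => exact mF
    | succ k ih => rw [Function.iterate_succ_apply']; exact x1S_meas ml mh mf ih
  have m0 : Meas fun _ _ _ => 0 := measurable_const
  have pS : ∀ k, Per (S^[k] fun _ _ _ => 0) := fun k => by
    induction k with
    | zero => exact fun _ _ _ _ => rfl
    | succ k ih => rw [Function.iterate_succ_apply']; exact x1S_per pl ph pf ih
  set G : PF := fun t x v => liminf (fun k => (S^[k] fun _ _ _ => 0) t x v) atTop with hG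
  have mG : Meas G := Measurable.liminf fun k => mS _ m0 k
  have pG : Per G := fun t v x i => by
    simp only [hG]
    congr 1
    funext k
    exact pS k t v x i
  have key : ∀ t, 0 ≤ t → ∀ x v, S G t x v = G t x v := fun T hT x v => by
    obtain ⟨l, hl, h⟩ := x1_step hn T
    have hhi' : ∀ t ∈ Ioo 0 T, ∀ x v, hi t x v ≤ n * Gs (1 / 5) v := fun t ht x v => hhi t x v ht.1
    have st : ∀ (F F' : PF) (D : ℝ≥0∞), Meas F → Meas F' →
        (∀ s ∈ Ioo 0 T, ∀ x v, Near (clamp lo hi F s x v) (clamp lo hi F' s x v)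
          (D * x1E l s * Gs (1 / 10) v)) →
        ∀ t ∈ Icc 0 T, ∀ x v, Near (S F t x v) (S F' t x v)
          (2⁻¹ * D * x1E l t * Gs (1 / 10) v) := fun F F' D mF mF' hN t ht x v => by
      have := h lo hi ml mh hle hhi' F F' f f 0 D mF mF' hf hf
        (fun x v => ⟨le_self_add, le_self_add⟩) hN t ht (x - t • v) v
      rw [zero_add] at this
      simpa only [hS, x1S, if_pos ht.1] using this
    have it : ∀ k : ℕ, ∀ F F' : PF, Meas F → Meas F' → ∀ t ∈ Icc 0 T, ∀ x v,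
        Near (S^[k + 1] F t x v) (S^[k + 1] F' t x v)
          (2⁻¹ ^ (k + 1) * n * x1E l t * Gs (1 / 10) v) := fun k F F' mF mF' => by
      induction k with
      | zero => simpa using st F F' n mF mF' (x1_base hl le_rfl hle hhi' F F')
      | succ k ih =>
        rw [Function.iterate_succ_apply' S (k + 1) F, Function.iterate_succ_apply' S (k + 1) F',
          pow_succ' _ (k + 1), mul_assoc 2⁻¹]
        exact st _ _ _ (mS F mF _) (mS F' mF' _) fun s hs x v =>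
          (ih s (Ioo_subset_Icc_self hs) x v).x1_clamp
    have nG : ∀ k : ℕ, ∀ t ∈ Icc 0 T, ∀ x v, Near (G t x v) ((S^[k + 1] fun _ _ _ => 0) t x v)
        (2⁻¹ ^ (k + 1) * n * x1E l t * Gs (1 / 10) v) := fun k t ht x v => by
      have ev : ∀ᶠ j in atTop, Near ((S^[j] fun _ _ _ => 0) t x v)
          ((S^[k + 1] fun _ _ _ => 0) t x v) (2⁻¹ ^ (k + 1) * n * x1E l t * Gs (1 / 10) v) := by
        filter_upwards [eventually_ge_atTop (k + 1)] with j hj
        obtain ⟨i, rfl⟩ := Nat.exists_eq_add_of_le hj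
        rw [Function.iterate_add_apply]
        exact it k _ _ (mS _ m0 i) m0 t ht x v
      refine ⟨liminf_le_of_frequently_le' (ev.mono fun j hj => hj.1).frequently, ?_⟩
      rw [← tsub_le_iff_right]
      exact le_liminf_of_le (h := ev.mono fun j hj => tsub_le_iff_right.2 hj.2)
    have fin : ∀ k : ℕ, Near (S G T x v) (G T x v)
        (2⁻¹ ^ k * (n * x1E l T * Gs (1 / 10) v)) := fun k => by
      have a1 := st G _ _ mG (mS _ m0 (k + 1)) (fun s hs x v =>
        (nG k s (Ioo_subset_Icc_self hs) x v).x1_clamp) T ⟨hT, le_rfl⟩ x v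
      have a2 := (nG (k + 1) T ⟨hT, le_rfl⟩ x v).x1_symm
      rw [Function.iterate_succ_apply' S (k + 1)] at a2
      refine (a1.x1_trans a2).x1_mono ?_
      have e : (2⁻¹ : ℝ≥0∞) * 2⁻¹ + 2⁻¹ * 2⁻¹ ≤ 1 := by
        rw [← mul_add, ENNReal.inv_two_add_inv_two, mul_one]
        exact ENNReal.inv_le_one.2 one_le_two
      calc _ = (2⁻¹ * 2⁻¹ + 2⁻¹ * 2⁻¹) * (2⁻¹ ^ k * (n * x1E l T * Gs (1 / 10) v)) := by ring
        _ ≤ 1 * _ := mul_le_mul_left e _
        _ = _ := one_mul _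
    have hc : n * x1E l T * Gs (1 / 10) v ≠ ⊤ :=
      ENNReal.mul_ne_top (ENNReal.mul_ne_top hn ENNReal.ofReal_ne_top) (Gs_ne_top _ _)
    exact le_antisymm (x1_lim hc fun k => (fin k).1) (x1_lim hc fun k => (fin k).2)
  refine ⟨S G, x1S_meas ml mh mf mG, x1S_per pl ph pf pG, x1S_ne_top hn hle hhi hf G, fun T => ?_⟩
  refine Mild.congr (C := clamp lo hi G) (fun t ht y v => ?_) fun s hs x v => ?_
  · simp only [hS, x1S, if_pos ht.1, add_sub_cancel_right, x1P]
  · simp only [clamp, key s hs.1.le]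

/-- Stability (and uniqueness, `ε = 0`). -/
theorem mild_stable {lo hi : PF} {n : ℝ≥0∞} (hn : n ≠ ⊤) (ml : Meas lo) (mh : Meas hi) (T : ℝ)
    (hle : ∀ t x v, lo t x v ≤ hi t x v)
    (hhi : ∀ t ∈ Ioo 0 T, ∀ x v, hi t x v ≤ n * Gs (1 / 5) v) :
    ∃ K : ℝ≥0∞, K ≠ ⊤ ∧ ∀ (F F' : PF) (f f' : XF) (ε : ℝ≥0∞), Meas F → Meas F' →
      Mild F (clamp lo hi F) f T → Mild F' (clamp lo hi F') f' T →
      (∀ x v, f x v ≤ n * Gs (1 / 5) v) → (∀ x v, f' x v ≤ n * Gs (1 / 5) v) →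
      (∀ x v, Near (f x v) (f' x v) (ε * Gs (1 / 10) v)) →
      ∀ t ∈ Icc 0 T, ∀ x v, Near (F t x v) (F' t x v) (K * ε * Gs (1 / 10) v) := by
  obtain ⟨l, hl, h⟩ := x1_step hn T
  have hE : ∀ t, x1E l t ≠ ⊤ := fun t => ENNReal.ofReal_ne_top
  refine ⟨2 * x1E l T, ENNReal.mul_ne_top ENNReal.ofNat_ne_top (hE T),
    fun F F' f f' ε mF mF' hM hM' hf hf' hff => ?_⟩
  have st : ∀ D : ℝ≥0∞, (∀ s ∈ Ioo 0 T, ∀ x v, Near (clamp lo hi F s x v) (clamp lo hi F' s x v)
      (D * x1E l s * Gs (1 / 10) v)) → ∀ t ∈ Icc 0 T, ∀ x v,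
      Near (F t x v) (F' t x v) ((ε + 2⁻¹ * D) * x1E l t * Gs (1 / 10) v) :=
    fun D hN t ht x v => by
    have e1 := hM t ht (x - t • v) v
    have e2 := hM' t ht (x - t • v) v
    rw [sub_add_cancel] at e1 e2
    rw [e1, e2]
    exact h lo hi ml mh hle hhi F F' f f' ε D mF mF' hf hf' hff hN t ht (x - t • v) v
  have e : ∀ k : ℕ, ε + 2⁻¹ * (2 * ε + 2⁻¹ ^ k * n) = 2 * ε + 2⁻¹ ^ (k + 1) * n := fun k => by
    rw [mul_add, ← mul_assoc, ENNReal.inv_mul_cancel two_ne_zero ENNReal.ofNat_ne_top]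
    ring
  have it : ∀ k : ℕ, ∀ t ∈ Icc 0 T, ∀ x v,
      Near (F t x v) (F' t x v) ((2 * ε + 2⁻¹ ^ (k + 1) * n) * x1E l t * Gs (1 / 10) v) := by
    intro k
    induction k with
    | zero => rw [← e]; exact st _ (x1_base hl (by simp) hle hhi F F')
    | succ k ih =>
      rw [← e]
      exact st _ fun s hs x v => (ih s (Ioo_subset_Icc_self hs) x v).x1_clamp
  intro t ht x v
  have hc : 2⁻¹ * n * x1E l T * Gs (1 / 10) v ≠ ⊤ := by
    have := hE T
    have := Gs_ne_top (1 / 10) v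
    finiteness
  have fin : ∀ k : ℕ, Near (F t x v) (F' t x v) (2 * x1E l T * ε * Gs (1 / 10) v +
      2⁻¹ ^ k * (2⁻¹ * n * x1E l T * Gs (1 / 10) v)) := fun k => by
    refine (it k t ht x v).x1_mono ?_
    calc _ ≤ (2 * ε + 2⁻¹ ^ (k + 1) * n) * x1E l T * Gs (1 / 10) v := by
          gcongr
          exact x1_E_mono hl.le ht.2
      _ = _ := by ring
  exact ⟨x1_lim hc fun k => (fin k).1.trans_eq (add_assoc _ _ _).symm,
    x1_lim hc fun k => (fin k).2.trans_eq (add_assoc _ _ _).symm⟩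

/-- a bounded solution of the untruncated mild equation satisfies the additive form and the
integrability hypothesis (`Mild.am`, `Nu_Gs_le`, `lintegral_br_Gs`, `volume_cell`) -/
theorem Mild.am_of_le {F : PF} {f : XF} {T : ℝ} {n : ℝ≥0∞} (hn : n ≠ ⊤) (h : Mild F F f T)
    (hF : Meas F) (hb : ∀ t ∈ Ioo 0 T, ∀ x v, F t x v ≤ n * Gs (1 / 5) v) :
    (∀ y v, AM F f T y v) ∧ Integ F T := by
  obtain ⟨c, hc, h1⟩ := Nu_Gs_le (θ := 1 / 5) (by norm_num)
  refine ⟨fun y v => h.am hF ?_, fun k => ?_⟩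
  · have hbr : br v ≠ ⊤ := ENNReal.ofReal_ne_top
    refine ne_top_of_le_ne_top (b := ∫⁻ _ in Ioo 0 T, n * (c * br v)) ?_
      (setLIntegral_mono' measurableSet_Ioo fun s hs => ?_)
    · rw [setLIntegral_const, Real.volume_Ioo]
      finiteness
    · refine (Nu_mono (hb s hs _) v).trans ?_
      rw [Nu_mul (x1_Gs_meas _)]
      exact mul_le_mul_right (h1 v) _
  · have hM := lintegral_br_Gs k (θ := 1 / 5) (by norm_num)
    have hn' : n ^ (11 / 10 : ℝ) ≠ ⊤ := ENNReal.rpow_ne_top_of_nonneg (by norm_num) hn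
    have hm : ∀ t ∈ Ioo 0 T, ∀ x, mom k (F t x) ≤
        (n + n ^ (11 / 10 : ℝ)) * ∫⁻ v, br v ^ k * Gs (1 / 5) v := fun t ht x => by
      rw [← lintegral_const_mul' _ _ (ENNReal.add_ne_top.2 ⟨hn, hn'⟩)]
      refine lintegral_mono fun v => ?_
      have h2 : F t x v ^ (11 / 10 : ℝ) ≤ n ^ (11 / 10 : ℝ) * Gs (1 / 5) v := by
        refine (ENNReal.rpow_le_rpow (hb t ht x v) (by norm_num)).trans ?_
        rw [ENNReal.mul_rpow_of_nonneg _ _ (by norm_num)]
        refine mul_le_mul_right ?_ _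
        exact ENNReal.rpow_le_self_of_le_one (Gs_le_one (by norm_num) v) (by norm_num)
      calc _ ≤ br v ^ k * (n * Gs (1 / 5) v + n ^ (11 / 10 : ℝ) * Gs (1 / 5) v) :=
            mul_le_mul_right (add_le_add (hb t ht x v) h2) _
        _ = _ := by ring
    have hcell : MeasurableSet cell := by
      have : cell = ⋂ i : Fin 3, (fun x : R3 => x i) ⁻¹' Ico 0 1 := by
        ext x; simp [cell]
      rw [this]
      exact MeasurableSet.iInter fun i => measurableSet_Ico.preimage (by fun_prop)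
    refine lt_of_le_of_lt (setLIntegral_mono' (measurableSet_Ioo.prod hcell)
      fun p hp => pow_le_pow_left' (hm p.1 hp.1 p.2) 2) ?_
    rw [setLIntegral_const, Measure.volume_eq_prod, Measure.prod_prod, volume_cell,
      Real.volume_Ioo]
    finiteness

end

end Crest.Agent.R68
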