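import Crest.Agent.R68.EHI
import Crest.Agent.R68.EBound
import Crest.Agent.R68.X1

/-!
# R68 (S0091): choice of the seed amplitude
-/

set_option autoImplicit false

namespace Crest.Agent.R68

open MeasureTheory Set Filter Crest.AnalysisR.VecCalc3 Crest.AnalysisR.PDE.Boltzmann
open scoped ENNReal _root_.Topology

noncomputable section

theorem exists_glob : ∀ᶠ P in 𝓕, ∀ z ∈ Icc 0 (2 * P.a), ∀ α ∈ Icc (0 : ℝ) 1, ∃ F, P.Glob z α F := by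
  filter_upwards [Pp_le_Gs] with P ⟨n, hn, h1, h2⟩ z hz α hα
  obtain ⟨F, a1, a2, a3, a4⟩ := exists_mild hn P.meas_Pm (P.meas_Pp z) P.per_Pm (P.per_Pp z)
    (P.measX_f0 α) (P.perX_f0 α) (P.Pm_le_Pp z) (h1 z hz) (h2 α hα)
  exact ⟨F, a1, a2, a3, a4⟩

theorem eex_clamp_eq (P : Par) {z s : ℝ} {F : PF} {x v : R3} (hs : s ≤ P.T₁)
    (h : F s x v ≤ P.Pe z s x v) : clamp P.Pm (P.Pp z) F s x v = F s x v := by
  refine clamp_eq ?_ ?_
  · simp only [Par.Pm, if_pos hs, zero_le]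
  · simpa only [Par.Pp, if_pos hs] using h

theorem eex_clamp_le (P : Par) (z : ℝ) (F : PF) : ∀ s ∈ Ioo 0 P.T₁, ∀ x v,
    clamp P.Pm (P.Pp z) F s x v ≤ P.Pe z s x v := fun s hs x v => by
  simpa only [Par.Pp, if_pos hs.2.le] using clamp_le (F := F) (P.Pm_le_Pp z s x v)

theorem Par.Glob.sol {P : Par} (h : P.Ok) {α : ℝ} {F : PF} (hG : P.Glob (2 * P.a) α F)
    (hle : ∀ t ∈ Icc 0 P.T₁, ∀ x v, F t x v ≤ P.Pe (2 * P.a) t x v)
    (hα : α ∈ Icc 0 (3 * P.a * P.mm 0)) : P.Sol α F := by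
  have _ := h
  exact ⟨hG.meas, hG.per, hG.fin, (hG.mild P.T₁).congr fun s hs x v =>
    eex_clamp_eq P hs.2.le (hle s ⟨hs.1.le, hs.2.le⟩ x v), hle, hα.1, hα.2⟩

/-- Let `F⁰` solve `Glob 0 0`.  By `quiet_le` it is below `Pe 0 ≤ Pe (2a)` on `[0,T₁]`, so both clamps
are inactive and `F⁰` is a mild solution on `[0,T₁]` for the clamp `Pp (2a)` (`Mild.congr`);
`mild_stable` with `ε = 0` identifies it with `F`. -/
theorem glob_zero_le : ∀ᶠ P in 𝓕, ∀ F, P.Glob (2 * P.a) 0 F → ∀ t ∈ Icc 0 P.T₁, ∀ x v,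
    F t x v ≤ P.Pe 0 t x v := by
  filter_upwards [ev_ok, exists_glob, quiet_le, Pp_le_Gs] with P h hex hq ⟨n, hn, h1, h2⟩ F hF t ht
    x v
  have ha := h.a_pos
  obtain ⟨F0, hF0⟩ := hex 0 ⟨le_rfl, by linarith⟩ 0 ⟨le_rfl, zero_le_one⟩
  have h3 := hq F0 _ (P.meas_Pm.clamp (P.meas_Pp 0) hF0.meas) (hF0.mild P.T₁) (eex_clamp_le P 0 F0)
  have h4 : Mild F0 (clamp P.Pm (P.Pp (2 * P.a)) F0) (P.f0 0) P.T₁ :=
    (hF0.mild P.T₁).congr fun s hs x v => by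
      have h5 := h3 s ⟨hs.1.le, hs.2.le⟩ x v
      rw [eex_clamp_eq P hs.2.le h5,
        eex_clamp_eq P hs.2.le (h5.trans (h.Pe_mono (by linarith) hs.1.le x v))]
  obtain ⟨K, -, hK⟩ := mild_stable hn P.meas_Pm (P.meas_Pp (2 * P.a)) P.T₁ (P.Pm_le_Pp _)
    fun t ht x v => h1 _ ⟨by linarith, le_rfl⟩ t x v ht.1
  have h5 := (hK F F0 (P.f0 0) (P.f0 0) 0 hF.meas hF0.meas (hF.mild _) h4
    (h2 0 ⟨le_rfl, zero_le_one⟩) (h2 0 ⟨le_rfl, zero_le_one⟩)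
    (fun _ _ => ⟨le_self_add, le_self_add⟩) t ht x v).1
  rw [mul_zero, zero_mul, add_zero] at h5
  exact h5.trans (h3 t ht x v)

theorem eex_num {r L T a K q : ℝ} {k : ℕ} (hr : 0 < r) (hL : 0 < L) (hT : 0 < T) (hK : 0 < K)
    (hk : 2 ≤ k) (hq0 : 0 ≤ q) (hq : q ≤ r * K) (h1 : r ≤ 1 / K) (h2 : r ≤ a / (2 * K ^ 2 * L * T)) :
    2 * q ^ k ≤ a * (r / L / T) := by
  rw [le_div_iff₀ hK] at h1
  rw [le_div_iff₀ (by positivity)] at h2
  have h3 : q ^ k ≤ (r * K) ^ 2 :=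
    (pow_le_pow_left₀ hq0 hq k).trans (pow_le_pow_of_le_one (by positivity) h1 hk)
  rw [div_div, ← mul_div_assoc, le_div_iff₀ (by positivity)]
  have h4 := mul_le_mul_of_nonneg_right h3 (show 0 ≤ 2 * (L * T) by positivity)
  have h5 := mul_le_mul_of_nonneg_right h2 hr.le
  nlinarith

/-- a point of the seed: `x = mk3 r 0`, `v = mk3 I 3`.  There `St 0 = 0` and `Ew = 0`
(`wn ≥ |v 2 - sg ε| ≥ 2`), `E0 0 x v = seed x v = Gs (1/2) v`, and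
`2 om ≤ 2 ((r + (r/L)(μω + 8))/r₁)^{μω} ≤ a r/(L T₀) = a mm 0` for small `r`. -/
theorem seed_point : ∀ᶠ P in 𝓕, ∃ x v : R3, ‖v‖ ≤ P.V₁ ∧ P.St 0 x v = 0 ∧
    P.seed x v = P.E0 0 x v ∧ P.Bm 0 x v ≤ ENNReal.ofReal (P.a * P.mm 0) * P.E0 0 x v := by
  filter_upwards [ev_ok, le_r fun Q => 1 / ((1 + (Q.μω + 8) / Q.L) / Q.r₁),
    le_r fun Q => Q.a / (2 * ((1 + (Q.μω + 8) / Q.L) / Q.r₁) ^ 2 * Q.L * Q.T₀)] with P h h1 h2
  have hr := h.r_pos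
  have hL := h.L_pos
  have hr1 := h.r₁_pos
  have hT := h.T₀_pos
  have ha := h.a_pos
  have hK : 0 < (1 + (P.μω + 8) / P.L) / P.r₁ := by positivity
  have hv : ‖mk3 Complex.I 3‖ ^ 2 = 10 := by rw [norm_mk3_sq, Complex.norm_I]; norm_num
  have hv1 : 3 ≤ ‖mk3 Complex.I 3‖ := by nlinarith [norm_nonneg (mk3 Complex.I 3)]
  have hv2 : ‖mk3 Complex.I 3‖ ≤ 4 := by nlinarith [norm_nonneg (mk3 Complex.I 3)]
  have hn : ‖(P.r : ℂ)‖ = P.r := by rw [Complex.norm_real, Real.norm_of_nonneg hr.le]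
  have hX : Xr (mk3 (P.r : ℂ) 0) = P.r := by
    rw [Xr, pr_mk3]
    refine red_of_small ?_
    rw [hn]
    linarith [h.r_le', h.r₀_le, h.T₁_le']
  have hY : Yt 0 (mk3 (P.r : ℂ) 0) (mk3 Complex.I 3) = P.r := by
    rw [Yt, zero_smul, sub_zero]
    exact hX
  have hE : ∀ ε, P.Ew ε 0 (P.r : ℂ) (mk3 Complex.I 3) = 0 := fun ε => by
    have h3 := h.wn_ge_two ε 0 (P.r : ℂ) (mk3 Complex.I 3)
    have h4 : 1 < |(3 : ℝ) - sg ε| := by cases ε <;> norm_num [sg]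
    rw [mk3_two] at h3
    simp only [Par.Ew, h.Omn_zero (h4.trans_le h3), ite_self]
  refine ⟨mk3 (P.r : ℂ) 0, mk3 Complex.I 3, ?_, ?_, ?_, ?_⟩
  · unfold P14.V₁
    linarith [h.N_ge]
  · by_contra h0
    linarith [(h.StP_supp ⟨le_rfl, h.T₁_pos.le⟩ h0).1]
  · rw [Par.seed, Par.E0, Par.E0P, hX]
    simp only [hE, add_zero, one_mul, sub_zero]
    refine if_pos ⟨?_, ?_, ?_, ?_, le_rfl⟩
    · simp only [hn]; linarith
    · simp only [hn, le_refl]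
    · exact hv2.trans (by linarith [h.V_ge])
    · have h3 : wd (P.r : ℂ) (pr (mk3 Complex.I 3)) = P.r := by simp [wd]
      simp only [hn, h3, abs_of_pos hr]
      exact mul_le_of_le_one_left hr.le (by linarith [h.δ₀_le, h.κ₀_le])
  · rw [Par.Bm, ← mul_assoc]
    refine mul_le_mul_left ?_ _
    rw [← ENNReal.ofReal_ofNat 2, ← ENNReal.ofReal_mul zero_le_two]
    refine ENNReal.ofReal_le_ofReal ((mul_le_mul_of_nonneg_left (min_le_right _ _)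
      zero_le_two).trans ?_)
    rw [hY, hn, Par.mm, if_pos hT.le, Par.th, zero_add]
    refine eex_num hr hL hT hK (by unfold P14.μω; omega) (by positivity) ?_ (h1.2 (by positivity))
      (h2.2 (by positivity))
    rw [← mul_div_assoc]
    refine div_le_div_of_nonneg_right ?_ hr1.le
    have h3 : P.r / P.L * (P.μω + 2 * ‖mk3 Complex.I 3‖) ≤ P.r / P.L * (P.μω + 8) :=
      mul_le_mul_of_nonneg_left (by linarith) (by positivity)
    have h4 : P.r * (1 + (P.μω + 8) / P.L) = P.r + P.r / P.L * (P.μω + 8) := by ring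
    linarith

theorem eex_f0_le (P : Par) (α α' : ℝ) (x v : R3) :
    P.f0 α x v ≤ P.f0 α' x v + ENNReal.ofReal |α - α'| * Gs (1 / 10) v := by
  have h1 : P.seed x v ≤ Gs (1 / 10) v := by
    unfold Par.seed
    split_ifs
    · exact Gs_anti (by norm_num) v
    · exact zero_le
  have h2 : ENNReal.ofReal α ≤ ENNReal.ofReal α' + ENNReal.ofReal |α - α'| :=
    (ENNReal.ofReal_le_ofReal (by linarith [le_abs_self (α - α')])).trans ENNReal.ofReal_add_le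
  unfold Par.f0
  rw [add_assoc _ (_ * _)]
  refine add_le_add le_rfl ((mul_le_mul_left h2 _).trans ?_)
  rw [add_mul]
  exact add_le_add le_rfl (mul_le_mul_right h1 _)

/-- intermediate values of a Lipschitz function with values in `ℝ≥0∞` -/
theorem eex_ivt {Z : ℝ → ℝ≥0∞} {b c : ℝ} {K : ℝ≥0∞} (hK : K ≠ ⊤) (hb : 0 ≤ b) (hc : 0 ≤ c)
    (h0 : Z 0 = 0) (h1 : ENNReal.ofReal c ≤ Z b)
    (h : ∀ α ∈ Icc 0 b, ∀ α' ∈ Icc 0 b, Z α ≤ Z α' + K * ENNReal.ofReal |α - α'|) :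
    ∃ α ∈ Icc 0 b, Z α = ENNReal.ofReal c := by
  have hf : ∀ α ∈ Icc 0 b, Z α ≠ ⊤ := fun α hα =>
    ne_top_of_le_ne_top (by rw [h0]; finiteness) (h α hα 0 ⟨le_rfl, hb⟩)
  have h2 : ∀ α ∈ Icc 0 b, ∀ α' ∈ Icc 0 b,
      (Z α).toReal ≤ (Z α').toReal + K.toReal * |α - α'| := fun α hα α' hα' => by
    have := ENNReal.toReal_mono (by have := hf α' hα'; finiteness) (h α hα α' hα')
    rwa [ENNReal.toReal_add (hf α' hα') (by finiteness), ENNReal.toReal_mul,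
      ENNReal.toReal_ofReal (abs_nonneg _)] at this
  have h3 : ContinuousOn (fun α => (Z α).toReal) (Icc 0 b) := by
    refine LipschitzOnWith.continuousOn (K := K.toNNReal)
      (LipschitzOnWith.of_le_add_mul _ fun α hα α' hα' => ?_)
    rw [Real.dist_eq]
    exact h2 α hα α' hα'
  obtain ⟨α, hα, e⟩ := intermediate_value_Icc hb h3 (show c ∈ Icc (Z 0).toReal (Z b).toReal from
    ⟨by rw [h0]; exact hc, (ENNReal.ofReal_le_iff_le_toReal (hf b ⟨hb, le_rfl⟩)).1 h1⟩)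
  exact ⟨α, hα, by rw [← e, ENNReal.ofReal_toReal (hf α hα)]⟩

/-- the weighted supremum over `[0,T₀] × {‖v‖ ≤ V₁}` -/
def eexZ (P : Par) (g : PF) : ℝ≥0∞ :=
  ⨆ q : {q : ℝ × R3 × R3 // q.1 ∈ Icc 0 P.T₀ ∧ ‖q.2.2‖ ≤ P.V₁},
    g q.1.1 q.1.2.1 q.1.2.2 / (ENNReal.ofReal (P.mm q.1.1) * P.E0 q.1.1 q.1.2.1 q.1.2.2)

theorem eex_W {P : Par} (h : P.Ok) {t : ℝ} (ht : 0 ≤ t) (x : R3) {v : R3} (hv : ‖v‖ ≤ P.V₁) :
    ENNReal.ofReal (P.mm 0) * ENNReal.ofReal (Real.exp (-P.V₁ ^ 2)) ≤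
      ENNReal.ofReal (P.mm t) * P.E0 t x v := by
  refine mul_le_mul' (ENNReal.ofReal_le_ofReal (h.mm_mono le_rfl ht))
    (le_trans ?_ ((Gs_anti (by linarith : 1 / 2 - t ≤ 2) v).trans (h.Gs_le_E0P _ v)))
  refine ENNReal.ofReal_le_ofReal (Real.exp_le_exp.2 ?_)
  nlinarith [norm_nonneg v]

theorem eex_W0 {P : Par} (h : P.Ok) :
    ENNReal.ofReal (P.mm 0) * ENNReal.ofReal (Real.exp (-P.V₁ ^ 2)) ≠ 0 :=
  mul_ne_zero (ENNReal.ofReal_pos.2 (h.mm_pos le_rfl)).ne' (ENNReal.ofReal_pos.2 (Real.exp_pos _)).ne'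

theorem eexZ_le {P : Par} (h : P.Ok) {g : PF} {c : ℝ≥0∞} : eexZ P g ≤ c ↔
    ∀ t ∈ Icc 0 P.T₀, ∀ x v, ‖v‖ ≤ P.V₁ → g t x v ≤ c * (ENNReal.ofReal (P.mm t) * P.E0 t x v) := by
  have key : ∀ t ∈ Icc 0 P.T₀, ∀ x v, ‖v‖ ≤ P.V₁ →
      (g t x v / (ENNReal.ofReal (P.mm t) * P.E0 t x v) ≤ c ↔
        g t x v ≤ c * (ENNReal.ofReal (P.mm t) * P.E0 t x v)) := fun t ht x v hv =>
    ENNReal.div_le_iff (fun h0 => eex_W0 h (le_antisymm (h0 ▸ eex_W h ht.1 x hv) zero_le))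
      (ENNReal.mul_ne_top ENNReal.ofReal_ne_top (h.E0P_ne_top _ _ _))
  rw [eexZ, iSup_le_iff]
  exact ⟨fun H t ht x v hv => (key t ht x v hv).1 (H ⟨(t, x, v), ht, hv⟩),
    fun H q => (key _ q.2.1 _ _ q.2.2).2 (H _ q.2.1 _ _ q.2.2)⟩

theorem eexZ_lip {P : Par} (h : P.Ok) {F F' : PF} {e : ℝ≥0∞}
    (hF : ∀ t ∈ Icc 0 P.T₀, ∀ x v, F t x v ≤ F' t x v + e) : eexZ P (P.hx F) ≤ eexZ P (P.hx F') +
      e / (ENNReal.ofReal (P.mm 0) * ENNReal.ofReal (Real.exp (-P.V₁ ^ 2))) := by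
  refine (eexZ_le h).2 fun t ht x v hv => ?_
  rw [add_mul]
  refine le_trans ?_ (add_le_add ((eexZ_le h).1 le_rfl t ht x v hv)
    (mul_le_mul_right (eex_W h ht.1 x hv) _))
  rw [ENNReal.div_mul_cancel (eex_W0 h) (by finiteness)]
  unfold Par.hx
  rw [tsub_le_iff_right, add_right_comm]
  exact (hF t ht x v).trans (add_le_add le_tsub_add le_rfl)

/-- Choose solutions `F α` (`exists_glob`; `3 a mm 0 ≤ 1` by `a_mm_le`) and put
`Z α = ⨆ (t ∈ [0,T₀]) (x) (‖v‖ ≤ V₁), hx (F α) t x v / (mm t * E0 t x v)`.  By `mild_stable`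
(the data differ by `|α - α'| seed ≤ |α - α'| G_{1/10}`) and
`mm t * E0 ≥ mm 0 * exp(-V₁²/4) > 0`, `Near (Z α) (Z α') (K |α - α'|)`; `Z 0 = 0`
(`glob_zero_le`), `Z (3 a mm 0) ≥ 2a` (`seed_point`, `Mild.zero`).  The intermediate value theorem
for `(Z α).toReal` gives `Z α = 3a/4`.  `HI` and `E12` (with `C = clamp ..`) give the bounds for
`‖v‖ > V₁` and for `t > T₀`. -/
theorem exists_loud : ∀ᶠ P in 𝓕, ∃ α ∈ Icc 0 (3 * P.a * P.mm 0), ∃ F, P.Glob (2 * P.a) α F ∧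
    (∀ t ∈ Icc 0 P.T₁, ∀ x v, F t x v ≤ P.Pe (2 * P.a) t x v) ∧
    P.Bd (P.hx F) (ENNReal.ofReal P.a) ∧ ¬ P.Bd (P.hx F) (ENNReal.ofReal (P.a / 2)) := by
  filter_upwards [ev_ok, exists_glob, glob_zero_le, seed_point, Pp_le_Gs, a_mm_le, HI, E12] with P h
    hex hz ⟨x0, v0, s1, s2, s3, s4⟩ ⟨n, hn, h1, h2⟩ hmm hHI hE
  have ha := h.a_pos
  have hm0 := h.mm_pos le_rfl
  have hT : P.T₀ ≤ P.T₁ := h.T₀_le.trans h.T'_le
  have hb0 : 0 ≤ 3 * P.a * P.mm 0 := by positivity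
  have hb1 : ∀ α ∈ Icc 0 (3 * P.a * P.mm 0), α ∈ Icc (0 : ℝ) 1 := fun α hα =>
    ⟨hα.1, by linarith [hα.2, hmm 0 ⟨le_rfl, h.T₁_pos.le⟩, h.e₀_le, h.L_le']⟩
  have h2a : 2 * P.a ∈ Icc 0 (2 * P.a) := ⟨by linarith, le_rfl⟩
  choose! F hF using hex _ h2a
  obtain ⟨K, hK, hst⟩ := mild_stable hn P.meas_Pm (P.meas_Pp (2 * P.a)) P.T₁ (P.Pm_le_Pp _)
    fun t ht x v => h1 _ h2a t x v ht.1
  obtain ⟨α, hα, hZ⟩ := eex_ivt (Z := fun α => eexZ P (P.hx (F α))) (c := 3 / 4 * P.a)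
    (K := K / (ENNReal.ofReal (P.mm 0) * ENNReal.ofReal (Real.exp (-P.V₁ ^ 2))))
    (ENNReal.div_ne_top hK (eex_W0 h)) hb0 (by positivity)
    (le_antisymm ((eexZ_le h).2 fun t ht x v _ => by
      have h3 := hz _ (hF 0 ⟨le_rfl, zero_le_one⟩) t ⟨ht.1, ht.2.trans hT⟩ x v
      rw [Par.Pe, zero_mul, ENNReal.ofReal_zero, zero_mul, add_zero] at h3
      rw [zero_mul]
      exact (tsub_eq_zero_of_le h3).le) zero_le)
    (le_of_not_ge fun h3 => by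
      have h4 := (eexZ_le h).1 h3 0 ⟨le_rfl, h.T₀_pos.le⟩ x0 v0 s1
      have h5 := ((hF _ (hb1 _ ⟨hb0, le_rfl⟩)).mild 0).zero le_rfl x0 v0
      rw [Par.hx, tsub_le_iff_right, h5, s2, zero_add, ← mul_assoc,
        ← ENNReal.ofReal_mul (by positivity)] at h4
      have h6 : ENNReal.ofReal (3 * P.a * P.mm 0) * P.E0 0 x0 v0 ≤
          ENNReal.ofReal (3 / 4 * P.a * P.mm 0 + P.a * P.mm 0) * P.E0 0 x0 v0 := by
        rw [ENNReal.ofReal_add (by positivity) (by positivity), add_mul]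
        refine le_trans ?_ (h4.trans (add_le_add le_rfl s4))
        rw [← s3]
        exact le_add_self
      have h7 : P.E0 0 x0 v0 ≠ 0 := fun h0 =>
        Gs_ne_zero _ v0 (le_antisymm ((h.Gs_le_E0P (t := 0) (Xr x0) v0).trans_eq h0) zero_le)
      rw [ENNReal.mul_le_mul_iff_left h7 (h.E0P_ne_top _ _ _),
        ENNReal.ofReal_le_ofReal_iff (by positivity)] at h6
      nlinarith [mul_pos ha hm0])
    fun α hα α' hα' => by
      have b1 := hb1 α hα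
      have b2 := hb1 α' hα'
      refine (eexZ_lip h (F' := F α') (e := K * ENNReal.ofReal |α - α'|) fun t ht x v => ?_).trans_eq ?_
      · refine (hst _ _ _ _ (ENNReal.ofReal |α - α'|) (hF α b1).meas (hF α' b2).meas
          ((hF α b1).mild _) ((hF α' b2).mild _) (h2 α b1) (h2 α' b2) (fun x v =>
            ⟨eex_f0_le P α α' x v, by rw [abs_sub_comm]; exact eex_f0_le P α' α x v⟩)
          t ⟨ht.1, ht.2.trans hT⟩ x v).1.trans (add_le_add le_rfl ?_)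
        exact mul_le_of_le_one_right' (Gs_le_one (by norm_num) v)
      · rw [ENNReal.mul_div_right_comm]
  have hG := hF α (hb1 α hα)
  have mC := P.meas_Pm.clamp (P.meas_Pp (2 * P.a)) hG.meas
  have h3 := hHI _ h2a α _ _ mC (hG.mild _) (eex_clamp_le P _ _)
  have h4 := hE α hα _ mC (eex_clamp_le P _ (F α))
  have hBd : P.Bd (P.hx (F α)) (ENNReal.ofReal P.a) := fun t ht x v => by
    have ht' : t ∈ Icc 0 P.T₁ := ⟨ht.1, ht.2.trans hT⟩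
    rcases le_or_gt ‖v‖ P.V₁ with hv | hv
    · exact ((eexZ_le h).1 hZ.le t ht x v hv).trans
        (mul_le_mul_left (ENNReal.ofReal_le_ofReal (by linarith)) _)
    · refine (tsub_le_iff_left.2 (h3 t ht' x v).1).trans (((h4 t ht' x v).1 ht.2 hv).trans ?_)
      rw [← mul_assoc, ← ENNReal.ofReal_mul ha.le]
      exact mul_le_mul_left (ENNReal.ofReal_le_ofReal
        (mul_le_mul_of_nonneg_right (by linarith) (h.mm_pos ht.1).le)) _
  refine ⟨α, hα, F α, hG, fun t ht x v => ?_, hBd, fun h5 => ?_⟩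
  · rcases le_or_gt t P.T₀ with h5 | h5
    · refine (tsub_le_iff_left.1 (hBd t ⟨ht.1, h5⟩ x v)).trans (add_le_add le_rfl ?_)
      rw [← mul_assoc, ← ENNReal.ofReal_mul ha.le]
      exact mul_le_mul_left (ENNReal.ofReal_le_ofReal
        (mul_le_mul_of_nonneg_right (by linarith) (h.mm_pos ht.1).le)) _
    · exact (h3 t ht x v).1.trans (add_le_add le_rfl ((h4 t ht x v).2 h5))
  · have h6 := hZ.ge.trans ((eexZ_le h).2 fun t ht x v _ => h5 t ht x v)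
    rw [ENNReal.ofReal_le_ofReal_iff (by positivity)] at h6
    linarith

end

end Crest.Agent.R68
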