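import Crest.Agent.R68.ECold
import Crest.Agent.R68.EDens2

/-!
# R68 (S0091): children, and the collision frequency of a hot particle
-/

set_option autoImplicit false

namespace Crest.Agent.R68

open MeasureTheory Set Filter Crest.AnalysisR.VecCalc3 Crest.AnalysisR.PDE.Boltzmann
open scoped ENNReal _root_.Topology

noncomputable section

open Classical

/-- collision frequency with the streams that are not close in velocity -/
def Par.far (P : Par) (u : ℝ) (X : ℂ) (v : R3) : ℝ≥0∞ :=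
  (if P.κ₀ ≤ P.wn true u X v then P.cq * Nu (P.cb true u X) v else 0) +
    (if P.κ₀ ≤ P.wn false u X v then P.cq * Nu (P.cb false u X) v else 0)

theorem Par.measurable_far (P : Par) :
    Measurable fun p : ℝ × ℂ × R3 => P.far p.1 p.2.1 p.2.2 := by
  have key : ∀ ε, Measurable fun p : ℝ × ℂ × R3 =>
      if P.κ₀ ≤ P.wn ε p.1 p.2.1 p.2.2 then P.cq * Nu (P.cb ε p.1 p.2.1) p.2.2 else 0 := fun ε =>
    Measurable.ite (measurableSet_le measurable_const (measurable_wn P.toP11 ε))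
      ((measurable_Nu (f := fun a : ℝ × ℂ × R3 => P.cb ε a.1 a.2.1)
        ((P.measurable_cb ε).comp (measurable_fst.fst.prodMk
          (measurable_fst.snd.fst.prodMk measurable_snd))) measurable_snd.snd).const_mul _)
      measurable_const
  exact (key true).add (key false)

/-- With `n = mk3 (I X) 0/‖X‖` (`wd_eq_inner`): `⟪n, v'⟫ = ⟪n,v⟫ - ⟪w,ω⟫⟪n,ω⟫`,
`⟪n, v*'⟫ = ⟪n,c⟫ + ⟪w,ω⟫⟪n,ω⟫`, `w = v - c`; `good_slow`. -/
theorem wedge_bad {X : ℂ} (hX : X ≠ 0) (v c : R3) {δ : ℝ} (hδ : δ ≤ ‖v - c‖ / 100000) :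
    ∫⁻ ω in {ω | |wd X (pr (postVel v c ω))| < δ * ‖X‖}, Bk (v - c) ω ∂sphereMeasure ≤
      Nn (v - c) / 40 ∧
    ∫⁻ ω in {ω | |wd X (pr (postVelStar v c ω))| < δ * ‖X‖}, Bk (v - c) ω ∂sphereMeasure ≤
      Nn (v - c) / 40 := by
  have hX' : 0 < ‖X‖ := norm_pos_iff.2 hX
  set n : R3 := ‖X‖⁻¹ • mk3 (Complex.I * X) 0 with hn
  have h1 : ‖n‖ = 1 := by
    rw [hn, norm_smul, norm_mk3_zero, norm_mul, Complex.norm_I, one_mul, norm_inv, norm_norm,
      inv_mul_cancel₀ hX'.ne']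
  have h2 : ∀ p : R3, |wd X (pr p)| < δ * ‖X‖ → |inner ℝ n p| ≤ ‖v - c‖ / 100000 := fun p hp => by
    rw [hn, real_inner_smul_left, ← wd_eq_inner, abs_mul, abs_of_pos (inv_pos.2 hX'),
      inv_mul_le_iff₀ hX']
    nlinarith
  refine ⟨(lintegral_mono_set fun ω hω => ?_).trans (good_slow (v - c) h1 (inner ℝ n v)),
    (lintegral_mono_set fun ω hω => ?_).trans (good_slow (v - c) h1 (-inner ℝ n c))⟩
  · have := h2 _ hω
    rwa [postVel, inner_sub_right, real_inner_smul_right, abs_sub_comm] at this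
  · have := h2 _ hω
    rwa [postVelStar, inner_add_right, real_inner_smul_right, add_comm, ← sub_neg_eq_add] at this

private theorem ef1_good {w : R3} {S B B' : Set R3} (hS : MeasurableSet S)
    (h : ∀ ω, ‖ω‖ = 1 → ω ∉ B → ω ∉ B' → ω ∈ S)
    (h1 : ∫⁻ ω in B, Bk w ω ∂sphereMeasure ≤ Nn w / 40)
    (h2 : ∫⁻ ω in B', Bk w ω ∂sphereMeasure ≤ Nn w / 40) :
    ENNReal.ofReal (19 / 20 * (2 * Real.pi * ‖w‖)) ≤ ∫⁻ ω in S, Bk w ω ∂sphereMeasure := by
  have h0 : 0 ≤ 2 * Real.pi * ‖w‖ := by positivity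
  have h3 : ∫⁻ ω in Sᶜ, Bk w ω ∂sphereMeasure ≤ Nn w / 40 + Nn w / 40 := by
    refine le_trans (lintegral_mono_set' (t := B ∪ B') (ae_sphere.mono fun ω hω hc => ?_))
      ((lintegral_union_le _ _ _).trans (add_le_add h1 h2))
    by_contra hn
    exact hc (h ω hω (fun a => hn (Or.inl a)) fun a => hn (Or.inr a))
  have h4 : Nn w ≤ ∫⁻ ω in S, Bk w ω ∂sphereMeasure + (Nn w / 40 + Nn w / 40) :=
    (lintegral_add_compl _ hS).ge.trans (add_le_add_right h3 _)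
  rw [← tsub_le_iff_right, Nn_eq, ← ENNReal.ofReal_ofNat 40,
    ← ENNReal.ofReal_div_of_pos (by norm_num), ← ENNReal.ofReal_add (by positivity) (by positivity),
    ← ENNReal.ofReal_sub _ (by positivity)] at h4
  exact le_trans (ENNReal.ofReal_le_ofReal (by linarith)) h4

private theorem ef1_child {D : Set (ℝ × ℂ × R3)} (hD : MeasurableSet D) {u δ : ℝ} {X : ℂ} {v c : R3}
    (hX : X ≠ 0) (hδ : δ ≤ ‖v - c‖ / 100000) {B B' : Set R3}
    (h1 : ∫⁻ ω in B, Bk (v - c) ω ∂sphereMeasure ≤ Nn (v - c) / 40)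
    (h2 : ∫⁻ ω in B', Bk (v - c) ω ∂sphereMeasure ≤ Nn (v - c) / 40)
    (g1 : ∀ ω, ‖ω‖ = 1 → ω ∉ B → δ * ‖X‖ ≤ |wd X (pr (postVel v c ω))| → (u, X, postVel v c ω) ∈ D)
    (g2 : ∀ ω, ‖ω‖ = 1 → ω ∉ B' → δ * ‖X‖ ≤ |wd X (pr (postVelStar v c ω))| →
      (u, X, postVelStar v c ω) ∈ D) :
    19 / 10 * Nn (v - c) ≤ ∫⁻ ω, Bk (v - c) ω * (D.indicator 1 (u, X, postVel v c ω) +
      D.indicator 1 (u, X, postVelStar v c ω)) ∂sphereMeasure := by
  have e : ∀ p : R3 → R3, Measurable p →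
      (Measurable fun ω => Bk (v - c) ω * D.indicator 1 (u, X, p ω)) ∧
      MeasurableSet {ω | (u, X, p ω) ∈ D} ∧
      ∫⁻ ω, Bk (v - c) ω * D.indicator 1 (u, X, p ω) ∂sphereMeasure =
        ∫⁻ ω in {ω | (u, X, p ω) ∈ D}, Bk (v - c) ω ∂sphereMeasure := fun p hp => by
    have hm : Measurable fun ω => (u, X, p ω) := by fun_prop
    refine ⟨Measurable.fun_mul (by fun_prop) ((measurable_one.indicator hD).comp hm), hm hD, ?_⟩
    rw [← lintegral_indicator (s := {ω | (u, X, p ω) ∈ D}) (hm hD)]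
    refine lintegral_congr fun ω => ?_
    by_cases hω : (u, X, p ω) ∈ D <;> simp [hω]
  obtain ⟨a1, a2, a3⟩ := e (postVel v c) (by fun_prop)
  obtain ⟨-, b2, b3⟩ := e (postVelStar v c) (by fun_prop)
  obtain ⟨w1, w2⟩ := wedge_bad hX v c hδ
  simp only [mul_add]
  rw [lintegral_add_left a1, a3, b3]
  refine le_trans (le_of_eq ?_) (add_le_add
    (ef1_good a2 (fun ω hω x y => g1 ω hω x (not_lt.1 y)) h1 w1)
    (ef1_good b2 (fun ω hω x y => g2 ω hω x (not_lt.1 y)) h2 w2))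
  rw [← ENNReal.ofReal_add (by positivity) (by positivity), ← add_mul,
    ENNReal.ofReal_mul (by norm_num), Nn_eq,
    show (19 / 20 + 19 / 20 : ℝ) = 19 / 10 by norm_num, ENNReal.ofReal_div_of_pos (by norm_num),
    ENNReal.ofReal_ofNat, ENNReal.ofReal_ofNat]

private theorem ef1_beta (P : Par) (D : Set (ℝ × ℂ × R3)) (u : ℝ) (X : ℂ) (v : R3)
    (g : Bool → R3 → ℝ≥0∞) (hg : Measurable (g true))
    (h : ∀ ε c, g ε c ≤ P.cq * P.cb ε u X c * ∫⁻ ω, Bk (v - c) ω *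
      (D.indicator 1 (u, X, postVel v c ω) + D.indicator 1 (u, X, postVelStar v c ω))
        ∂sphereMeasure) : (∫⁻ c, g true c) + ∫⁻ c, g false c ≤ P.beta D u X v := by
  rw [← lintegral_add_left hg]
  refine lintegral_mono fun c => (add_le_add (h true c) (h false c)).trans (le_of_eq ?_)
  simp only [Par.cbP]
  ring

/-- what is used about the support of a cold stream -/
private theorem Par.Ok.ef1_supp {P : Par} (h : P.Ok) {ε : Bool} {u : ℝ} (hu : 0 ≤ u) {X : ℂ} {c : R3}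
    (hc : P.cb ε u X c ≠ 0) (v : R3) : P.L * P.th u / 2 ≤ ‖X‖ ∧ X ≠ 0 ∧ ‖c‖ ≤ 2 ∧
      P.wn ε u X v - P.κ₀ / 2 ≤ ‖v - c‖ ∧ ‖v - c‖ ≤ P.wn ε u X v + P.κ₀ / 2 := by
  obtain ⟨h1, -, -, -, h2⟩ := h.cb_supp hu hc
  have h3 : P.wn ε u X c ≤ P.κ₀ / 2 := by
    linarith [h.sig_le_del hu X, h.del_le hu X, h.e₀_le, h.L_le, h.δ₀_le, h.κ₀_pos]
  have h4 : 0 < P.L * P.th u := mul_pos h.L_pos (h.th_pos hu)
  have h5 : 1 / P.C₃ ≤ 1 / 2 := one_div_le_one_div_of_le two_pos (by linarith [h.C₃_ge'])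
  have h6 : P.L * P.th u / 2 ≤ ‖X‖ := by nlinarith
  have h7 := norm_le_norm_add_norm_sub' c (P.Uf ε u X)
  have h8 := norm_sub_le_norm_sub_add_norm_sub v c (P.Uf ε u X)
  have h9 := norm_sub_le_norm_sub_add_norm_sub v (P.Uf ε u X) c
  rw [norm_sub_rev (P.Uf ε u X) c] at h9
  unfold P11.wn at *
  exact ⟨h6, norm_pos_iff.1 (by linarith), by linarith [h.norm_Uf_le ε hu X, h.κ₀_le], by linarith,
    by linarith⟩

/-- for `c` in the support of `cb ε`: `‖X‖ ≥ L th/2` (`cb_supp`), `‖c‖ ≤ 2`,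
`‖v - c‖ ≥ κ₀ - sig ≥ κ₀/2`; each child is good except on a set carrying `2 Nn/40`
(`wedge_bad`, `good_fast`) -/
theorem Par.Ok.beta_ge {P : Par} (h : P.Ok) {u : ℝ} (hu : u ∈ Icc 0 P.T₁) {X : ℂ} {v : R3}
    (hX : ‖X‖ ≤ P.V * P.th u) (hv : ‖v‖ ≤ P.V) :
    19 / 10 * P.far u X v ≤ P.beta P.Gd u X v := by
  have hm : ∀ ε, Measurable fun c => Nn (v - c) * P.cb ε u X c := fun ε => a0_measN (P.mcb ε u X) v
  have key := ef1_beta P P.Gd u X v (fun ε c => if P.κ₀ ≤ P.wn ε u X v then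
    19 / 10 * (P.cq * (Nn (v - c) * P.cb ε u X c)) else 0) ?_ fun ε c => ?_
  · refine le_trans (le_of_eq ?_) key
    have e : ∀ ε, ∫⁻ c, (if P.κ₀ ≤ P.wn ε u X v then
        19 / 10 * (P.cq * (Nn (v - c) * P.cb ε u X c)) else 0) =
        19 / 10 * (if P.κ₀ ≤ P.wn ε u X v then P.cq * Nu (P.cb ε u X) v else 0) := fun ε => by
      split_ifs
      · rw [lintegral_const_mul _ ((hm ε).const_mul _), lintegral_const_mul _ (hm ε), Nu]
      · simp
    rw [e, e, Par.far, mul_add]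
  · split_ifs
    exacts [((hm true).const_mul _).const_mul _, measurable_const]
  · split_ifs with hw
    swap
    · exact zero_le
    by_cases hc : P.cb ε u X c = 0
    · simp [hc]
    obtain ⟨s1, s2, s3, s4, -⟩ := h.ef1_supp hu.1 hc v
    obtain ⟨f1, f2⟩ := good_fast (by linarith [h.V_ge]) hv s3
    calc _ = P.cq * P.cb ε u X c * (19 / 10 * Nn (v - c)) := by ring
      _ ≤ _ := mul_le_mul_right (ef1_child P.measurableSet_Gd s2
        (by linarith [h.δ₀_le, h.κ₀_pos]) f1 f2 (fun ω _ a b => ⟨s1, hX, not_lt.1 a, b⟩)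
        fun ω _ a b => ⟨s1, hX, not_lt.1 a, b⟩) _

/-- children have speed `≤ √(4U² + 4) ≤ 3U = V/2` (`coll_energy`), `‖b - c‖ ≥ 1/2`,
`2 · (39/40) · π · cq ≥ 1` -/
theorem Par.Ok.beta_semi_ge {P : Par} (h : P.Ok) {u : ℝ} (hu : u ∈ Icc 0 P.T₁) {X : ℂ}
    (hX : ‖X‖ ≤ P.V₁ * P.th u) (b : R3) :
    (P.Kc true u X).indicator (fun _ => dens (P.cb true u X)) b +
      (P.Kc false u X).indicator (fun _ => dens (P.cb false u X)) b ≤ P.beta P.Gsemi u X b := by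
  have key := ef1_beta P P.Gsemi u X b
    (fun ε c => (P.Kc ε u X).indicator (fun _ => P.cb ε u X c) b) ?_ fun ε c => ?_
  · refine le_trans (le_of_eq ?_) key
    have e : ∀ ε, ∫⁻ c, (P.Kc ε u X).indicator (fun _ => P.cb ε u X c) b =
        (P.Kc ε u X).indicator (fun _ => dens (P.cb ε u X)) b := fun ε => by
      by_cases hb : b ∈ P.Kc ε u X <;> simp [hb, dens]
    rw [e, e]
  · by_cases hb : b ∈ P.Kc true u X
    · simpa only [indicator_of_mem hb] using P.mcb true u X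
    · simp only [indicator_of_notMem hb, measurable_const]
  · by_cases hb : b ∈ P.Kc ε u X
    swap
    · rw [indicator_of_notMem hb]
      exact zero_le
    by_cases hc : P.cb ε u X c = 0
    · simp [hc]
    obtain ⟨s1, s2, s3, s4, -⟩ := h.ef1_supp hu.1 hc b
    have h1 : 1 / 2 ≤ ‖b - c‖ := by linarith [hb.2, h.κ₀_le]
    have h2 : ∀ p q : R3, ‖p‖ ^ 2 + ‖q‖ ^ 2 = ‖b‖ ^ 2 + ‖c‖ ^ 2 → ‖p‖ ≤ P.V / 2 := fun p q e => by
      have hU := h.U_ge
      have := pow_le_pow_left₀ (norm_nonneg _) hb.1 2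
      have := pow_le_pow_left₀ (norm_nonneg _) s3 2
      unfold P8.V
      refine (abs_le_of_sq_le_sq' ?_ (by linarith)).2
      nlinarith [sq_nonneg ‖q‖]
    have h3 := ef1_child (B := ∅) (B' := ∅) (u := u) P.measurableSet_Gsemi s2
      (by linarith [h.δ₀_le, h.κ₀_le] : P.δ₀ ≤ ‖b - c‖ / 100000) (by simp) (by simp)
      (fun ω hω _ a => ⟨s1, hX, h2 _ _ (coll_energy b c ω hω), a⟩)
      fun ω hω _ a => ⟨s1, hX, h2 _ _ ((add_comm _ _).trans (coll_energy b c ω hω)), a⟩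
    have h4 : (2 : ℝ≥0∞) ≤ 19 / 10 * Nn (b - c) := by
      refine le_trans ?_ (le_mul_of_one_le_left' ?_)
      · rw [Nn_eq]
        exact (ENNReal.ofReal_ofNat 2).ge.trans
          (ENNReal.ofReal_le_ofReal (by nlinarith [Real.pi_gt_three]))
      · rw [ENNReal.le_div_iff_mul_le (by simp) (by simp)]
        norm_num
    rw [indicator_of_mem hb]
    calc P.cb ε u X c ≤ 2 * P.cq * P.cb ε u X c := le_mul_of_one_le_left' h.cq_ge
      _ = P.cq * P.cb ε u X c * 2 := by ring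
      _ ≤ _ := mul_le_mul_right (h4.trans h3) _

private theorem ef1_Nu_ge {f : VF} (hf : Measurable f) {v : R3} {ρ : ℝ}
    (h : ∀ c, f c ≠ 0 → ρ ≤ ‖v - c‖) : ENNReal.ofReal (2 * Real.pi * ρ) * dens f ≤ Nu f v := by
  rw [dens, ← lintegral_const_mul _ hf]
  refine lintegral_mono fun c => ?_
  by_cases hc : f c = 0
  · simp [hc]
  · rw [Nn_eq]
    have := h c hc
    gcongr

private theorem ef1_Nu_le {f : VF} (hf : Measurable f) {v : R3} {ρ d : ℝ} (hρ : 0 ≤ ρ)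
    (h : ∀ c, f c ≠ 0 → ‖v - c‖ ≤ ρ) (hd : dens f ≤ ENNReal.ofReal d) :
    Nu f v ≤ ENNReal.ofReal (7 * ρ * d) := by
  rw [ENNReal.ofReal_mul (by positivity)]
  refine le_trans ?_ (mul_le_mul_right hd _)
  rw [dens, ← lintegral_const_mul _ hf]
  refine lintegral_mono fun c => ?_
  by_cases hc : f c = 0
  · simp [hc]
  · rw [Nn_eq]
    have := h c hc
    gcongr
    linarith [Real.pi_lt_d2]

/-- `Nn_eq`, `‖v - c‖ ≥ wn - sig ≥ 9/10`, `dens_cb_ge`, `cq_ge` -/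
theorem Par.Ok.far_ge {P : Par} (h : P.Ok) {ε : Bool} {u : ℝ} (hu : 0 ≤ u) {X : ℂ} {v : R3}
    (hO : P.Out u X) (hX : ‖X‖ ≤ P.r₀ / 2) (hS : X ∈ Sec P.m ε (1 / 4)) (hv : 1 ≤ |v 2 - sg ε|) :
    ENNReal.ofReal (P.A / (300 * ‖X‖)) ≤ P.far u X v := by
  have hw := hv.trans (h.wn_ge_two ε u X v)
  have hk := h.κ₀_le
  have h1 : P.cq * Nu (P.cb ε u X) v ≤ P.far u X v := by
    have : P.κ₀ ≤ P.wn ε u X v := by linarith
    cases ε
    · simp only [Par.far, if_pos this, le_add_self]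
    · simp only [Par.far, if_pos this, le_self_add]
  have h2 := ef1_Nu_ge (P.mcb ε u X) (v := v) (ρ := 1 / 2) fun c hc => by
    linarith [(h.ef1_supp hu hc v).2.2.2.1]
  have hA : 0 ≤ P.A := by linarith [h.A_ge]
  refine le_trans ?_ ((mul_le_mul_right
    ((mul_le_mul_right (h.dens_cb_ge ε hu hO hX hS) _).trans h2) _).trans h1)
  calc _ ≤ 2 * P.cq * ENNReal.ofReal (P.A / (300 * ‖X‖)) := le_mul_of_one_le_left' h.cq_ge
    _ = P.cq * (ENNReal.ofReal 2 * ENNReal.ofReal (P.A / (300 * ‖X‖))) := by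
      rw [ENNReal.ofReal_ofNat]; ring
    _ ≤ _ := by
      rw [← ENNReal.ofReal_mul (by norm_num), ← ENNReal.ofReal_mul (by positivity)]
      refine mul_le_mul_right (ENNReal.ofReal_le_ofReal ?_) _
      have : 0 ≤ P.A / ‖X‖ := by positivity
      rw [mul_comm 300, mul_comm 400, ← div_div, ← div_div]
      nlinarith [Real.pi_gt_three]

theorem far_le_Nu : ∀ᶠ P in 𝓕, ∀ α F, P.Sol α F → ∀ u ∈ Icc 0 P.T', ∀ x v,
    P.far u (Xr x) v ≤ Nu (F u x) v := by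
  filter_upwards [Nu_cb_le] with P h α F hF u hu x v
  refine le_trans ?_ (h α F hF u hu x v)
  rw [show P.cbP u (Xr x) = fun a => P.cb true u (Xr x) a + P.cb false u (Xr x) a from rfl,
    Nu_add (P.mcb _ _ _) (P.mcb _ _ _), mul_add]
  refine add_le_add ?_ ?_ <;> split_ifs <;> simp

private theorem Par.Ok.ef1_cb {P : Par} (h : P.Ok) (ε : Bool) {u : ℝ} (hu : 0 ≤ u) (X : ℂ) {v : R3}
    (hv : ‖v‖ ≤ P.V) : Nu (P.cb ε u X) v ≤ ENNReal.ofReal (7 * (P.V + 2) * (25 * P.A / P.mx u X)) ∧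
      Nu (P.cb ε u X) v ≤ (if P.κ₀ ≤ P.wn ε u X v then P.cq * Nu (P.cb ε u X) v else 0) +
        if (1 - 1 / P.C₃) * (P.L * P.th u) ≤ ‖X‖ then
          ENNReal.ofReal (1000 * P.κ₀ * P.A / ‖X‖) else 0 := by
  have hV := h.V_ge
  have hk := h.κ₀_pos
  have hA : 0 ≤ P.A := by linarith [h.A_ge]
  have h1 := ef1_Nu_le (P.mcb ε u X) (v := v) (ρ := P.V + 2) (by linarith)
    (fun c hc => (norm_sub_le _ _).trans (add_le_add hv (h.ef1_supp hu hc v).2.2.1))
    (h.dens_cb_le ε hu X)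
  refine ⟨h1, ?_⟩
  by_cases h0 : ∀ c, P.cb ε u X c = 0
  · simp [Nu, h0]
  obtain ⟨c, hc⟩ := not_forall.1 h0
  have hX : 0 < ‖X‖ := norm_pos_iff.2 (h.ef1_supp hu hc v).2.1
  have h2 : 25 * P.A / P.mx u X ≤ 25 * (P.A / ‖X‖) := by
    rw [← mul_div_assoc]
    exact div_le_div_of_nonneg_left (by positivity) hX (le_max_left _ _)
  have h3 : 0 ≤ P.A / ‖X‖ := by positivity
  have hm0 := h.mx_pos hu X
  rw [if_pos (h.cb_supp hu hc).2.2.2.2, mul_div_assoc (1000 * P.κ₀)]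
  split_ifs with hw
  · have hkV : 0 ≤ P.κ₀ / P.V := by positivity
    have e : P.cq + ENNReal.ofReal (P.κ₀ / P.V) = 1 := by
      rw [P9.cq, ← ENNReal.ofReal_add (sub_nonneg.2 ((div_le_one (by linarith)).2
        (by linarith [h.κ₀_le]))) hkV, sub_add_cancel, ENNReal.ofReal_one]
    conv_lhs => rw [← one_mul (Nu _ _), ← e, add_mul]
    refine add_le_add_right ((mul_le_mul_right h1 _).trans ?_) _
    rw [← ENNReal.ofReal_mul hkV]
    refine ENNReal.ofReal_le_ofReal ?_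
    calc _ ≤ P.κ₀ / P.V * (7 * (2 * P.V) * (25 * (P.A / ‖X‖))) := by gcongr; linarith
      _ = 350 * (P.κ₀ * (P.A / ‖X‖)) := by field_simp; ring
      _ ≤ _ := by nlinarith [mul_nonneg hk.le h3]
  · rw [zero_add]
    refine (ef1_Nu_le (P.mcb ε u X) (v := v) (ρ := 2 * P.κ₀) (by linarith) (fun c hc => by
      linarith [(h.ef1_supp hu hc v).2.2.2.2, not_le.1 hw]) (h.dens_cb_le ε hu X)).trans
      (ENNReal.ofReal_le_ofReal ?_)
    calc _ ≤ 7 * (2 * P.κ₀) * (25 * (P.A / ‖X‖)) := by gcongr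
      _ ≤ _ := by nlinarith [mul_nonneg hk.le h3]

/-- `F ≤ St + 3E0`.  For a far stream `Nu cb = cq Nu cb + (κ₀/V) Nu cb` and
`Nu cb ≤ 2π(V+2) 25A/mx`; for a near stream `Nu cb ≤ 2π · 2κ₀ · 25 A/mx`; `cb = 0` unless
`(1 - 1/C₃) L th ≤ ‖X‖` (`cb_supp`), `‖X‖ ≤ mx`.  Warm part: `2 · 2π(V+2) e₀/(L th)`; hot part:
`3 C₃ (1+V)`, and `th ≤ r₀`. -/
theorem Nu_upper : ∀ᶠ P in 𝓕, ∀ α F, P.Sol α F → ∀ u ∈ Icc 0 P.T', ∀ x v, ‖v‖ ≤ P.V →
    Nu (F u x) v ≤ P.far u (Xr x) v +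
      ((if (1 - 1 / P.C₃) * (P.L * P.th u) ≤ ‖Xr x‖ then
        ENNReal.ofReal (2000 * P.κ₀ * P.A / ‖Xr x‖) else 0) +
        ENNReal.ofReal (1 / (P.C₃ * P.th u))) ∧
    Nu (F u x) v ≤ ENNReal.ofReal (P.N ^ 2 / P.th u) := by
  filter_upwards [ev_ok, Pe_le, dens_wm_le, Qp_E0,
    small_e₀ (fun Q => 28 * (Q.V + 2) * Q.C₃ / Q.L) one_pos,
    small_r0 (fun Q => 6 * Q.C₃ ^ 2 * (1 + Q.V)) one_pos,
    big_N fun Q => 350 * (Q.V + 2) * Q.A / Q.L + 1]
    with P h hPe hwm hE k1 k2 k3 α F hF u hu x v hv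
  replace k1 : 28 * (P.V + 2) * P.C₃ / P.L * P.e₀ ≤ 1 := by simpa only [Real.rpow_one] using k1
  replace k2 : 6 * P.C₃ ^ 2 * (1 + P.V) * P.r₀ ≤ 1 := by simpa only [Real.rpow_one] using k2
  replace k3 : 350 * (P.V + 2) * P.A / P.L + 1 ≤ P.N := k3
  have hu' : u ∈ Icc 0 P.T₁ := ⟨hu.1, hu.2.trans h.T'_le⟩
  have hV := h.V_ge
  have hL := h.L_pos
  have hC := h.C₃_ge'
  have hth := h.th_pos hu.1
  have hN := h.N_ge
  have he := h.e₀_pos
  have hA : 0 ≤ P.A := by linarith [h.A_ge]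
  have hk := h.κ₀_pos
  have hmx : P.L * P.th u ≤ P.mx u (Xr x) := le_max_right _ _
  have w1 : ∀ ε, Nu (P.wm ε u (Xr x)) v ≤ ENNReal.ofReal (1 / (P.C₃ * P.th u) / 4) := fun ε => by
    refine (ef1_Nu_le (P.mwm ε u (Xr x)) (v := v) (ρ := P.V + 2) (by linarith) (fun c hc => ?_)
      (hwm ε u hu' _)).trans (ENNReal.ofReal_le_ofReal ?_)
    · have : P.cut ε u (Xr x) c := by
        by_contra hn
        exact hc (by simp only [Par.wm, if_neg hn])
      linarith [norm_sub_le v c, (h.cut_supp hu' this).1]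
    · calc _ ≤ 7 * (P.V + 2) * (P.e₀ / (P.L * P.th u)) := by
            gcongr
            exact hmx.trans (h.mx_le_vr hu.1 _)
        _ = 28 * (P.V + 2) * P.C₃ / P.L * P.e₀ * (1 / (P.C₃ * P.th u) / 4) := by
            field_simp
            norm_num
        _ ≤ _ := mul_le_of_le_one_left (by positivity) k1
  have w2 : 3 * Nu (P.E0 u x) v ≤ ENNReal.ofReal (1 / (P.C₃ * P.th u) / 2) := by
    refine (mul_le_mul_right (hE u hu' _ v).2 3).trans ?_
    rw [br, ← ENNReal.ofReal_ofNat 3, ← ENNReal.ofReal_mul (by linarith),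
      ← ENNReal.ofReal_mul (by norm_num)]
    refine ENNReal.ofReal_le_ofReal ?_
    have h1 : P.th u ≤ P.r₀ :=
      (le_mul_of_one_le_left hth.le (one_le_pow₀ (by linarith))).trans (h.th_T' hu.2)
    calc _ ≤ 3 * (P.C₃ * (1 + P.V)) := by gcongr
      _ = 6 * P.C₃ ^ 2 * (1 + P.V) * P.th u * (1 / (P.C₃ * P.th u) / 2) := by
          field_simp
          norm_num
      _ ≤ _ := mul_le_of_le_one_left (by positivity) (le_trans (by gcongr) k2)
  have w3 : Nu (F u x) v ≤ Nu (P.cb true u (Xr x)) v + Nu (P.cb false u (Xr x)) v +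
      ENNReal.ofReal (1 / (P.C₃ * P.th u)) := by
    refine (Nu_mono (fun a => (hF.le u hu' x a).trans (hPe u hu' x a)) v).trans ?_
    have e : Nu (P.St u x) v = (Nu (P.cb true u (Xr x)) v + Nu (P.wm true u (Xr x)) v) +
        (Nu (P.cb false u (Xr x)) v + Nu (P.wm false u (Xr x)) v) := by
      rw [← Nu_add (P.mcb _ _ _) (P.mwm _ _ _), ← Nu_add (P.mcb _ _ _) (P.mwm _ _ _)]
      exact Nu_add (P.mStE _ _ _) (P.mStE _ _ _) v
    have m := P.meas_E0.slice u x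
    rw [Nu_add (P.meas_St.slice u x) (m.const_mul 3), Nu_mul m, e,
      show 1 / (P.C₃ * P.th u) = 1 / (P.C₃ * P.th u) / 4 + 1 / (P.C₃ * P.th u) / 4 +
        1 / (P.C₃ * P.th u) / 2 by ring,
      ENNReal.ofReal_add (by positivity) (by positivity),
      ENNReal.ofReal_add (by positivity) (by positivity)]
    calc _ = Nu (P.cb true u (Xr x)) v + Nu (P.cb false u (Xr x)) v +
          (Nu (P.wm true u (Xr x)) v + Nu (P.wm false u (Xr x)) v + 3 * Nu (P.E0 u x) v) := by ring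
      _ ≤ _ := add_le_add_right (add_le_add (add_le_add (w1 _) (w1 _)) w2) _
  obtain ⟨a1, a2⟩ := h.ef1_cb true hu.1 (Xr x) hv
  obtain ⟨b1, b2⟩ := h.ef1_cb false hu.1 (Xr x) hv
  refine ⟨w3.trans ?_, w3.trans ((add_le_add_left (add_le_add a1 b1) _).trans ?_)⟩
  · rw [← add_assoc]
    refine add_le_add_left ((add_le_add a2 b2).trans (le_of_eq ?_)) _
    rw [add_add_add_comm, Par.far]
    congr 1
    split_ifs
    · rw [← ENNReal.ofReal_add (by positivity) (by positivity)]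
      congr 1
      ring
    · simp
  · have hm0 := h.mx_pos hu.1 (Xr x)
    rw [← ENNReal.ofReal_add (by positivity) (by positivity),
      ← ENNReal.ofReal_add (by positivity) (by positivity)]
    refine ENNReal.ofReal_le_ofReal ?_
    calc _ ≤ 7 * (P.V + 2) * (25 * P.A / (P.L * P.th u)) +
          7 * (P.V + 2) * (25 * P.A / (P.L * P.th u)) + 1 / (1 * P.th u) := by
          gcongr
          linarith
      _ = (350 * (P.V + 2) * P.A / P.L + 1) / P.th u := by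
          field_simp
          ring
      _ ≤ _ := by
          gcongr
          nlinarith

end

end Crest.Agent.R68
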