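import Crest.Agent.R68.ETrig
import Crest.Agent.R68.ESupp

/-!
# R68 (S0091): time spent in the outer region

A parent is given by `s ≥ 0`, a label `Y : ℂ` and `v`; its position at time `u` is
`X(u) = Y + u • pr v`; `wd (X u) (pr v) = wd Y (pr v)` (`wd_add_smul`).  For a (semi-)good parent
`X(s) ≠ 0`, `|wd| ≥ δ₀‖X(s)‖ ≥ δ₀ L th(s)/2`, and `‖pr v‖ ≥ δ₀` (`abs_wd_le`).
-/

set_option autoImplicit false

namespace Crest.Agent.R68

open MeasureTheory Set Filter Crest.AnalysisR.VecCalc3 Crest.AnalysisR.PDE.Boltzmann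
open scoped ENNReal _root_.Topology

noncomputable section

open Classical

theorem ef5_X (Y ζ : ℂ) (s u : ℝ) : Y + u • ζ = (Y + s • ζ) + (u - s) • ζ := by
  rw [sub_smul]; abel

theorem ef5_th (P : Par) (s u : ℝ) : P.th u = P.th s + (u - s) := by
  unfold Par.th; ring

theorem ef5_norm (Y ζ : ℂ) {s u : ℝ} (hu : s ≤ u) :
    ‖Y + u • ζ‖ ≤ ‖Y + s • ζ‖ + (u - s) * ‖ζ‖ := by
  rw [ef5_X Y ζ s u]
  refine (norm_add_le _ _).trans ?_
  rw [norm_smul, Real.norm_of_nonneg (sub_nonneg.2 hu)]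

theorem ef5_V₁ {P : Par} (h : P.Ok) : P.V ≤ P.V₁ ∧ 1 ≤ P.V₁ := by
  have h1 := h.V_le
  have h2 := h.N_ge
  unfold P14.V₁
  constructor <;> linarith

theorem ef5_base {P : Par} (h : P.Ok) {s : ℝ} {Y : ℂ} {v : R3} (hs : 0 ≤ s)
    (hG : (s, Y + s • pr v, v) ∈ P.Gd ∪ P.Gsemi) :
    ‖Y + s • pr v‖ ≤ P.V₁ * P.th s ∧ ‖pr v‖ ≤ P.V ∧ P.δ₀ * (P.L * P.th s / 2) ≤ |wd Y (pr v)| ∧
      P.δ₀ ≤ ‖pr v‖ := by
  have hθ := h.th_pos hs
  have hL := h.L_pos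
  have hδ := h.δ₀_pos
  have hV := h.V_ge
  have hp := norm_pr_le v
  have key : P.L * P.th s / 2 ≤ ‖Y + s • pr v‖ ∧ ‖Y + s • pr v‖ ≤ P.V₁ * P.th s ∧ ‖v‖ ≤ P.V ∧
      P.δ₀ * ‖Y + s • pr v‖ ≤ |wd (Y + s • pr v) (pr v)| := by
    rcases hG with ⟨h1, h2, h3, h4⟩ | ⟨h1, h2, h3, h4⟩
    · exact ⟨h1, h2.trans (mul_le_mul_of_nonneg_right (ef5_V₁ h).1 hθ.le), h3, h4⟩
    · exact ⟨h1, h2, by simp only [] at h3; linarith, h4⟩
  obtain ⟨h1, h2, h3, h4⟩ := key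
  refine ⟨h2, hp.trans h3, ?_, ?_⟩
  · rw [wd_add_smul] at h4
    exact (mul_le_mul_of_nonneg_left h1 hδ.le).trans h4
  · have h5 := h4.trans (abs_wd_le _ _)
    have h6 : 0 < ‖Y + s • pr v‖ := lt_of_lt_of_le (by positivity) h1
    rw [mul_comm] at h5
    exact le_of_mul_le_mul_left h5 h6

theorem ef5_C₃ {P : Par} (h : P.Ok) : 0 < 1 / P.C₃ ∧ 1 / P.C₃ ≤ 1 / 100 := by
  have := h.C₃_ge'
  exact ⟨by positivity, one_div_le_one_div_of_le (by norm_num) this⟩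

theorem ef5_out {Y ζ : ℂ} (hζ : ζ ≠ 0) (O : ℝ → Prop) {a b M c d : ℝ} (hc : 0 ≤ c) (hM : 0 < M)
    (hd : 2 * c / ‖ζ‖ ≤ d) (h1 : ∀ u ∈ Ioo a b, ‖Y + u • ζ‖ ≤ M)
    (h2 : ∀ u ∈ Ioo a b, ¬ O u → ‖Y + u • ζ‖ ≤ c) :
    ENNReal.ofReal (1 / M * (b - a - d)) ≤
      ∫⁻ u in Ioo a b, if O u then ENNReal.ofReal (1 / ‖Y + u • ζ‖) else 0 := by
  set H : Set ℝ := {u : ℝ | ‖Y + u • ζ‖ ≤ c} with hH
  have hHm : MeasurableSet H := by
    refine measurableSet_le ?_ measurable_const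
    fun_prop
  have hv : volume H ≤ ENNReal.ofReal d :=
    (volume_hole Y hζ hc).trans (ENNReal.ofReal_le_ofReal hd)
  have hd0 : 0 ≤ d := le_trans (by positivity) hd
  calc ENNReal.ofReal (1 / M * (b - a - d))
      = ENNReal.ofReal (1 / M) * (ENNReal.ofReal (b - a) - ENNReal.ofReal d) := by
        rw [ENNReal.ofReal_mul (by positivity), ENNReal.ofReal_sub _ hd0]
    _ ≤ ENNReal.ofReal (1 / M) * volume (Ioo a b \ H) := by
        gcongr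
        refine le_trans ?_ le_measure_sdiff
        rw [Real.volume_Ioo]
        exact tsub_le_tsub_left hv _
    _ = ∫⁻ _ in Ioo a b \ H, ENNReal.ofReal (1 / M) := by
        rw [setLIntegral_const]
    _ ≤ ∫⁻ u in Ioo a b \ H, if O u then ENNReal.ofReal (1 / ‖Y + u • ζ‖) else 0 := by
        refine setLIntegral_mono' (measurableSet_Ioo.diff hHm) fun u hu => ?_
        have h3 : c < ‖Y + u • ζ‖ := not_le.1 hu.2
        have h4 : O u := by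
          by_contra h4
          exact absurd (h2 u hu.1 h4) (not_le.2 h3)
        rw [if_pos h4]
        exact ENNReal.ofReal_le_ofReal (one_div_le_one_div_of_le (hc.trans_lt h3) (h1 u hu.1))
    _ ≤ _ := lintegral_mono_set sdiff_subset

theorem ef5_ann {x y z A δ C : ℝ} (hA : 1 ≤ A) (hδ : 0 < δ) (hC0 : 0 < C) (hC : 768 * A ^ 2 / δ ^ 2 ≤ C)
    (c2 : 1 / C ≤ 1 / 100) (hz : 0 < z) (t3 : z ≤ y) (t4 : y ≤ 2 * z) (d1 : (1 - 1 / C) * y ≤ x)
    (d2 : x < (1 + 1 / C) * y) :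
    |x ^ 2 - y ^ 2| ≤ (z / (8 * A)) ^ 2 * δ ^ 2 ∧ 1 / x ≤ 2 / z := by
  have e5 : 768 * A ^ 2 * (1 / C) ≤ δ ^ 2 := by
    rw [div_le_iff₀ (by positivity)] at hC
    rw [mul_one_div, div_le_iff₀ hC0]
    linarith
  have c1 : 0 < 1 / C := by positivity
  generalize 1 / C = κ at *
  have hy : 0 < y := hz.trans_le t3
  have e0 : κ * y ≤ 1 / 100 * y := by gcongr
  have e2 : |x - y| ≤ κ * y := abs_le.2 ⟨by linarith, by linarith⟩
  have e3 : |x + y| ≤ 3 * y := abs_le.2 ⟨by linarith, by linarith⟩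
  have e4 : |x ^ 2 - y ^ 2| ≤ 3 * y * (κ * y) := by
    rw [sq_sub_sq, abs_mul]
    gcongr
  constructor
  · calc _ ≤ 3 * κ * y ^ 2 := by linarith
      _ ≤ 3 * κ * (2 * z) ^ 2 := by gcongr
      _ = (z / (8 * A)) ^ 2 * (768 * A ^ 2 * κ) := by field_simp; ring
      _ ≤ _ := by gcongr
  · rw [div_le_div_iff₀ (by linarith) hz]
    linarith

/-- `exists_hole` (with `p + q u = (1 + 1/C₃) L th u`), `trig_lower` on the two outer intervals with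
`D = V₁ th + 3 V V₁ th`; the errors add up to `≤ 300 V V₁/(m δ₀ L) ≤ 1/A`. -/
theorem out_le_core : ∀ᶠ P in 𝓕, ∀ (ε : Bool) (s : ℝ) (Y : ℂ) (v : R3), 0 ≤ s →
    (s, Y + s • pr v, v) ∈ P.Gd ∪ P.Gsemi → ∀ u₁ u₂, s ≤ u₁ → u₁ ≤ u₂ →
    u₂ ≤ s + 3 * P.V₁ * P.th s →
    ∫⁻ u in Ioo u₁ u₂, (if P.Out u (Y + u • pr v) then ENNReal.ofReal (1 / ‖Y + u • pr v‖) else 0) ≤
      6 * (∫⁻ u in Ioo u₁ u₂, if P.Out u (Y + u • pr v) ∧ Y + u • pr v ∈ Sec P.m ε (1 / 4) then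
        ENNReal.ofReal (1 / ‖Y + u • pr v‖) else 0) + ENNReal.ofReal (1 / P.A) := by
  filter_upwards [ev_ok, big_m fun Q => 264 * Q.A * Q.V * Q.V₁ / (Q.δ₀ * Q.L)]
    with P h hm ε s Y v hs hG u₁ u₂ h1 h12 h2
  change 264 * P.A * P.V * P.V₁ / (P.δ₀ * P.L) ≤ (P.m : ℝ) at hm
  obtain ⟨b1, b2, b3, b4⟩ := ef5_base h hs hG
  have hθ := h.th_pos hs
  have hL := h.L_pos
  have hδ := h.δ₀_pos
  have hV := h.V_ge
  have hA := h.A_ge
  obtain ⟨-, hV₁⟩ := ef5_V₁ h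
  have hm0 : (0 : ℝ) < P.m := by exact_mod_cast h.m_ge
  have hw0 : 0 < |wd Y (pr v)| := lt_of_lt_of_le (by positivity) b3
  have hw : wd Y (pr v) ≠ 0 := abs_pos.1 hw0
  obtain ⟨a, b, ha, hab, hb, o1, o2, o3⟩ := exists_hole Y (pr v)
    ((1 + 1 / P.C₃) * P.L * (P.r / P.L)) ((1 + 1 / P.C₃) * P.L) h12
  have hO : ∀ u, P.Out u (Y + u • pr v) ↔
      (1 + 1 / P.C₃) * P.L * (P.r / P.L) + (1 + 1 / P.C₃) * P.L * u ≤ ‖Y + u • pr v‖ := fun u => by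
    unfold Par.Out Par.th
    rw [mul_add, add_comm]
  set f : ℝ → ℝ≥0∞ := fun u =>
    if P.Out u (Y + u • pr v) then ENNReal.ofReal (1 / ‖Y + u • pr v‖) else 0 with hf
  set g : ℝ → ℝ≥0∞ := fun u => if P.Out u (Y + u • pr v) ∧ Y + u • pr v ∈ Sec P.m ε (1 / 4) then
    ENNReal.ofReal (1 / ‖Y + u • pr v‖) else 0 with hg
  have hVθ : 0 < P.V₁ * P.th s := by positivity
  have key : ∀ c d : ℝ, u₁ ≤ c → c ≤ d → d ≤ u₂ → (∀ u ∈ Ioo c d, P.Out u (Y + u • pr v)) →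
      ∫⁻ u in Ioo c d, f u ≤ 6 * (∫⁻ u in Ioo c d, g u) + ENNReal.ofReal (1 / (2 * P.A)) := by
    intro c d hc hcd hd hout
    have hD : ∀ u ∈ Icc c d, ‖Y + u • pr v‖ ≤ 4 * P.V * (P.V₁ * P.th s) := by
      intro u hu
      have e1 := ef5_norm Y (pr v) (s := s) (u := u) (by linarith [hu.1])
      have e2 : (u - s) * ‖pr v‖ ≤ (3 * (P.V₁ * P.th s)) * P.V :=
        mul_le_mul (by linarith [hu.2]) b2 (norm_nonneg _) (by positivity)
      nlinarith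
    have t := trig_lower hw h.m_ge ε hcd hD
    calc ∫⁻ u in Ioo c d, f u ≤ ∫⁻ u in Ioo c d, ENNReal.ofReal (1 / ‖Y + u • pr v‖) := by
          refine lintegral_mono fun u => ?_
          simp only [hf]
          split_ifs
          · exact le_rfl
          · exact zero_le
      _ ≤ _ := t
      _ ≤ _ := by
          refine add_le_add (le_of_eq ?_) (ENNReal.ofReal_le_ofReal ?_)
          · congr 1
            refine setLIntegral_congr_fun measurableSet_Ioo fun u hu => ?_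
            simp only [hg, indicator, hout u hu, true_and]
          · have e2 : ‖pr v‖ * (d - c) ≤ P.V * (3 * (P.V₁ * P.th s)) :=
              mul_le_mul b2 (by linarith) (by linarith) (by positivity)
            rw [div_le_iff₀ (by positivity)] at hm
            rw [div_le_div_iff₀ (by positivity) (by positivity)]
            have e3 : (P.m : ℝ) * (P.δ₀ * (P.L * P.th s / 2)) ≤ P.m * |wd Y (pr v)| := by gcongr
            have e4 : 264 * P.A * P.V * P.V₁ * (P.th s / 2) ≤ P.m * (P.δ₀ * P.L) * (P.th s / 2) := by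
              gcongr
            have e5 : 6 * (2 * (4 * P.V * (P.V₁ * P.th s)) + ‖pr v‖ * (d - c)) * (2 * P.A) ≤
                6 * (2 * (4 * P.V * (P.V₁ * P.th s)) + P.V * (3 * (P.V₁ * P.th s))) * (2 * P.A) := by
              gcongr
            nlinarith
  have k1 := key u₁ a le_rfl ha (hab.trans hb) fun u hu => (hO u).2 (o1 u hu)
  have k2 := key b u₂ (ha.trans hab) hb le_rfl fun u hu => (hO u).2 (o3 u hu)
  have hz : ∫⁻ u in Icc a b, f u = 0 := by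
    rw [← Measure.restrict_congr_set Ioo_ae_eq_Icc,
      setLIntegral_congr_fun (g := fun _ => 0) measurableSet_Ioo fun u hu => by
        simp only [hf]
        rw [if_neg]
        rw [hO]
        exact not_le.2 (o2 u hu)]
    simp
  have hsub : Ioo u₁ u₂ ⊆ (Ioo u₁ a ∪ Ioo b u₂) ∪ Icc a b := by
    intro u hu
    by_cases c1 : u < a
    · exact Or.inl (Or.inl ⟨hu.1, c1⟩)
    by_cases c2 : b < u
    · exact Or.inl (Or.inr ⟨c2, hu.2⟩)
    exact Or.inr ⟨not_lt.1 c1, not_lt.1 c2⟩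
  have hg2 : (∫⁻ u in Ioo u₁ a, g u) + ∫⁻ u in Ioo b u₂, g u ≤ ∫⁻ u in Ioo u₁ u₂, g u := by
    rw [← lintegral_union measurableSet_Ioo]
    · refine lintegral_mono_set (union_subset (Ioo_subset_Ioo le_rfl (hab.trans hb))
        (Ioo_subset_Ioo (ha.trans hab) le_rfl))
    · rw [Set.disjoint_left]
      intro u c1 c2
      linarith [c1.2, c2.1]
  calc ∫⁻ u in Ioo u₁ u₂, f u ≤ ∫⁻ u in (Ioo u₁ a ∪ Ioo b u₂) ∪ Icc a b, f u :=
        lintegral_mono_set hsub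
    _ ≤ (∫⁻ u in Ioo u₁ a ∪ Ioo b u₂, f u) + ∫⁻ u in Icc a b, f u := lintegral_union_le _ _ _
    _ ≤ (∫⁻ u in Ioo u₁ a, f u) + ∫⁻ u in Ioo b u₂, f u := by
        rw [hz, add_zero]; exact lintegral_union_le _ _ _
    _ ≤ (6 * (∫⁻ u in Ioo u₁ a, g u) + ENNReal.ofReal (1 / (2 * P.A))) +
        (6 * (∫⁻ u in Ioo b u₂, g u) + ENNReal.ofReal (1 / (2 * P.A))) := add_le_add k1 k2
    _ = 6 * ((∫⁻ u in Ioo u₁ a, g u) + ∫⁻ u in Ioo b u₂, g u) +
        (ENNReal.ofReal (1 / (2 * P.A)) + ENNReal.ofReal (1 / (2 * P.A))) := by ring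
    _ ≤ _ := by
        rw [← ENNReal.ofReal_add (by positivity) (by positivity),
          show 1 / (2 * P.A) + 1 / (2 * P.A) = 1 / P.A by field_simp; ring]
        gcongr

/-- Thin annulus.  On it `|‖X(u)‖² - L² th(u)²| ≤ 3 L² th(u)²/C₃ ≤ 12 L² th(s)²/C₃`; this quadratic
polynomial in `u` has leading coefficient `‖ζ‖² - L² ≥ δ₀²/2`; `quad_sublevel` after dividing by
`δ₀²`; `1/‖X‖ ≤ 2/(L th(s))`; `28/(δ₀ √C₃) ≤ 1/A`. -/
theorem annulus_le : ∀ᶠ P in 𝓕, ∀ (s : ℝ) (Y : ℂ) (v : R3), 0 ≤ s →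
    (s, Y + s • pr v, v) ∈ P.Gd →
    ∫⁻ u in Ioo s (s + P.th s / 30), (if (1 - 1 / P.C₃) * (P.L * P.th u) ≤ ‖Y + u • pr v‖ ∧
      ¬ P.Out u (Y + u • pr v) then ENNReal.ofReal (1 / ‖Y + u • pr v‖) else 0) ≤
      ENNReal.ofReal (1 / P.A) := by
  filter_upwards [ev_ok, big_C3 fun Q => 768 * Q.A ^ 2 / Q.δ₀ ^ 2] with P h hC s Y v hs hG
  change 768 * P.A ^ 2 / P.δ₀ ^ 2 ≤ P.C₃ at hC
  obtain ⟨-, -, -, b4⟩ := ef5_base h hs (Or.inl hG)
  have hθ := h.th_pos hs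
  have hL := h.L_pos
  have hδ := h.δ₀_pos
  have hA := h.A_ge
  have hLδ := h.L_le
  obtain ⟨c1, c2⟩ := ef5_C₃ h
  have hC0 : 0 < P.C₃ := by linarith [h.C₃_ge']
  set ζ := pr v with hζ
  have ha : 1 / 2 ≤ |(ζ.re ^ 2 + ζ.im ^ 2 - P.L ^ 2) / P.δ₀ ^ 2| := by
    refine le_trans ?_ (le_abs_self _)
    rw [le_div_iff₀ (by positivity)]
    have e1 : ‖ζ‖ ^ 2 = ζ.re ^ 2 + ζ.im ^ 2 := by rw [Complex.sq_norm, Complex.normSq_apply]; ring
    have e2 : P.δ₀ ^ 2 ≤ ‖ζ‖ ^ 2 := by gcongr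
    nlinarith
  have hq := quad_sublevel (b := (2 * (Y.re * ζ.re + Y.im * ζ.im) - 2 * P.L ^ 2 * (P.r / P.L)) / P.δ₀ ^ 2)
    (c := (Y.re ^ 2 + Y.im ^ 2 - P.L ^ 2 * (P.r / P.L) ^ 2) / P.δ₀ ^ 2) ha
    (sq_nonneg (P.L * P.th s / (8 * P.A)))
  rw [Real.sqrt_sq (by positivity)] at hq
  set S : Set ℝ := {u : ℝ | |(ζ.re ^ 2 + ζ.im ^ 2 - P.L ^ 2) / P.δ₀ ^ 2 * u ^ 2 +
    (2 * (Y.re * ζ.re + Y.im * ζ.im) - 2 * P.L ^ 2 * (P.r / P.L)) / P.δ₀ ^ 2 * u +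
    (Y.re ^ 2 + Y.im ^ 2 - P.L ^ 2 * (P.r / P.L) ^ 2) / P.δ₀ ^ 2| ≤ (P.L * P.th s / (8 * P.A)) ^ 2}
    with hS
  have hSm : MeasurableSet S := by
    refine measurableSet_le ?_ measurable_const
    fun_prop
  calc _ ≤ ∫⁻ u in Ioo s (s + P.th s / 30), S.indicator (fun _ => ENNReal.ofReal (2 / (P.L * P.th s))) u := by
        refine setLIntegral_mono' measurableSet_Ioo fun u hu => ?_
        split_ifs with hc
        swap
        · exact zero_le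
        obtain ⟨d1, d2⟩ := hc
        unfold Par.Out at d2
        rw [not_le, mul_assoc] at d2
        have t1 : P.th s ≤ P.th u := by rw [ef5_th P s u]; linarith [hu.1]
        have t2 : P.th u ≤ 2 * P.th s := by rw [ef5_th P s u]; linarith [hu.2]
        have t3 : P.L * P.th s ≤ P.L * P.th u := by gcongr
        have t4 : P.L * P.th u ≤ P.L * (2 * P.th s) := by gcongr
        have t5 : 0 < P.L * P.th s := by positivity
        have hmem : u ∈ S := by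
          have e1 : (ζ.re ^ 2 + ζ.im ^ 2 - P.L ^ 2) / P.δ₀ ^ 2 * u ^ 2 +
              (2 * (Y.re * ζ.re + Y.im * ζ.im) - 2 * P.L ^ 2 * (P.r / P.L)) / P.δ₀ ^ 2 * u +
              (Y.re ^ 2 + Y.im ^ 2 - P.L ^ 2 * (P.r / P.L) ^ 2) / P.δ₀ ^ 2 =
              (‖Y + u • ζ‖ ^ 2 - (P.L * P.th u) ^ 2) / P.δ₀ ^ 2 := by
            rw [Complex.sq_norm, Complex.normSq_apply]
            simp only [Par.th, Complex.add_re, Complex.add_im, Complex.smul_re, Complex.smul_im, smul_eq_mul]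
            ring
          rw [hS, mem_ofPred_eq, e1, abs_div, abs_of_pos (by positivity : 0 < P.δ₀ ^ 2),
            div_le_iff₀ (by positivity)]
          exact (ef5_ann hA hδ hC0 hC c2 t5 t3 (t4.trans_eq (by ring)) d1 d2).1
        rw [indicator_of_mem hmem]
        refine ENNReal.ofReal_le_ofReal ?_
        exact (ef5_ann hA hδ hC0 hC c2 t5 t3 (t4.trans_eq (by ring)) d1 d2).2
    _ ≤ ∫⁻ u, S.indicator (fun _ => ENNReal.ofReal (2 / (P.L * P.th s))) u := setLIntegral_le_lintegral _ _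
    _ = ENNReal.ofReal (2 / (P.L * P.th s)) * volume S := lintegral_indicator_const hSm _
    _ ≤ ENNReal.ofReal (2 / (P.L * P.th s)) * ENNReal.ofReal (4 * (P.L * P.th s / (8 * P.A))) := by
        gcongr
    _ = _ := by
        rw [← ENNReal.ofReal_mul (by positivity)]
        congr 1
        field_simp
        ring

/-- `¬ Out` forces `‖X(u)‖ ≤ 3 L th(s)` (`volume_hole`: measure `≤ 6 L th/δ₀ ≤ 0.006 th`), and
`‖X(u)‖ ≤ V th(u) ≤ (31/30) V th(s)` -/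
theorem Par.Ok.out_main {P : Par} (h : P.Ok) {s : ℝ} {Y : ℂ} {v : R3} (hs : 0 ≤ s)
    (hG : (s, Y + s • pr v, v) ∈ P.Gd) :
    ENNReal.ofReal (1 / (200 * P.V)) ≤ ∫⁻ u in Ioo s (s + P.th s / 30),
      if P.Out u (Y + u • pr v) then ENNReal.ofReal (1 / ‖Y + u • pr v‖) else 0 := by
  obtain ⟨-, b2, -, b4⟩ := ef5_base h hs (Or.inl hG)
  have hθ := h.th_pos hs
  have hL := h.L_pos
  have hδ := h.δ₀_pos
  have hLδ := h.L_le
  have hV := h.V_ge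
  obtain ⟨c1, c2⟩ := ef5_C₃ h
  have hz : 0 < ‖pr v‖ := hδ.trans_le b4
  have t2 : ∀ u ∈ Ioo s (s + P.th s / 30), P.th u ≤ 2 * P.th s := fun u hu => by
    rw [ef5_th P s u]; linarith [hu.2]
  refine le_trans (ENNReal.ofReal_le_ofReal ?_) (ef5_out (norm_pos_iff.1 hz)
    (fun u => P.Out u (Y + u • pr v)) (M := 2 * P.V * P.th s) (c := 3 * P.L * P.th s)
    (d := P.th s / 100) (by positivity) (by positivity) ?_ (fun u hu => ?_) fun u hu ho => ?_)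
  · rw [show s + P.th s / 30 - s - P.th s / 100 = 7 / 300 * P.th s by ring,
      show 1 / (2 * P.V * P.th s) * (7 / 300 * P.th s) = 7 / (600 * P.V) by field_simp; ring,
      div_le_div_iff₀ (by positivity) (by positivity)]
    linarith
  · rw [div_le_iff₀ hz]
    nlinarith
  · have e1 := ef5_norm Y (pr v) hu.1.le
    have e2 : (u - s) * ‖pr v‖ ≤ P.th s * P.V :=
      mul_le_mul (by linarith [hu.2]) b2 (norm_nonneg _) hθ.le
    have e3 : ‖Y + s • pr v‖ ≤ P.V * P.th s := hG.2.1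
    linarith
  · unfold Par.Out at ho
    rw [not_le, mul_assoc] at ho
    have e1 : P.L * P.th u ≤ P.L * (2 * P.th s) := mul_le_mul_of_nonneg_left (t2 u hu) hL.le
    have e2 : 0 < P.L * P.th u := mul_pos hL (h.th_pos (hs.trans hu.1.le))
    nlinarith

theorem Par.Ok.norm_main {P : Par} (h : P.Ok) {s : ℝ} {Y : ℂ} {v : R3}
    (hG : (s, Y + s • pr v, v) ∈ P.Gd) {u : ℝ} (hu : s ≤ u) : ‖Y + u • pr v‖ ≤ P.V * P.th u := by
  have _ := h
  have e1 := ef5_norm Y (pr v) hu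
  have e2 : (u - s) * ‖pr v‖ ≤ (u - s) * P.V :=
    mul_le_mul_of_nonneg_left ((norm_pr_le v).trans hG.2.2.1) (sub_nonneg.2 hu)
  have e3 : ‖Y + s • pr v‖ ≤ P.V * P.th s := hG.2.1
  rw [ef5_th P s u]
  linarith

theorem Par.Ok.norm_semi {P : Par} (h : P.Ok) {s : ℝ} {Y : ℂ} {v : R3} (hs : 0 ≤ s)
    (hG : (s, Y + s • pr v, v) ∈ P.Gsemi) {u : ℝ} (hu : s + P.V₁ * P.th s ≤ u) :
    ‖Y + u • pr v‖ ≤ P.V * P.th u := by
  have hθ := h.th_pos hs
  have hV := h.V_ge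
  obtain ⟨-, hV₁⟩ := ef5_V₁ h
  have h0 : 0 < P.V₁ * P.th s := by positivity
  have e1 := ef5_norm Y (pr v) (s := s) (u := u) (by linarith)
  have e2 : (u - s) * ‖pr v‖ ≤ (u - s) * (P.V / 2) :=
    mul_le_mul_of_nonneg_left ((norm_pr_le v).trans hG.2.2.1) (by linarith)
  have e3 : ‖Y + s • pr v‖ ≤ P.V₁ * P.th s := hG.2.1
  rw [ef5_th P s u]
  nlinarith

/-- `¬ Out` forces `‖X(u)‖ ≤ 8 L V₁ th(s)` (measure `≤ V₁ th(s)`), `‖X(u)‖ ≤ 4 V V₁ th(s)` -/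
theorem Par.Ok.out_semi {P : Par} (h : P.Ok) {s : ℝ} {Y : ℂ} {v : R3} (hs : 0 ≤ s)
    (hG : (s, Y + s • pr v, v) ∈ P.Gsemi) :
    ENNReal.ofReal (1 / (4 * P.V)) ≤ ∫⁻ u in Ioo (s + P.V₁ * P.th s) (s + 3 * P.V₁ * P.th s),
      if P.Out u (Y + u • pr v) then ENNReal.ofReal (1 / ‖Y + u • pr v‖) else 0 := by
  obtain ⟨-, -, -, b4⟩ := ef5_base h hs (Or.inr hG)
  have hθ := h.th_pos hs
  have hL := h.L_pos
  have hδ := h.δ₀_pos
  have hLδ := h.L_le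
  have hV := h.V_ge
  obtain ⟨-, hV₁⟩ := ef5_V₁ h
  have h0 : 0 < P.V₁ * P.th s := by positivity
  have h1 : P.th s ≤ P.V₁ * P.th s := le_mul_of_one_le_left hθ.le hV₁
  obtain ⟨c1, c2⟩ := ef5_C₃ h
  have hz : 0 < ‖pr v‖ := hδ.trans_le b4
  have t2 : ∀ u ∈ Ioo (s + P.V₁ * P.th s) (s + 3 * P.V₁ * P.th s),
      P.th u ≤ 4 * (P.V₁ * P.th s) := fun u hu => by
    rw [ef5_th P s u]; linarith [hu.2]
  refine le_trans (ENNReal.ofReal_le_ofReal (le_of_eq ?_)) (ef5_out (norm_pos_iff.1 hz)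
    (fun u => P.Out u (Y + u • pr v)) (M := P.V * (4 * (P.V₁ * P.th s))) (c := 8 * P.L * (P.V₁ * P.th s))
    (d := P.V₁ * P.th s) (by positivity) (by positivity) ?_ (fun u hu => ?_) fun u hu ho => ?_)
  · field_simp; ring
  · rw [div_le_iff₀ hz]
    nlinarith
  · exact (h.norm_semi hs hG hu.1.le).trans (mul_le_mul_of_nonneg_left (t2 u hu) (by linarith))
  · unfold Par.Out at ho
    rw [not_le, mul_assoc] at ho
    have e1 : P.L * P.th u ≤ P.L * (4 * (P.V₁ * P.th s)) := mul_le_mul_of_nonneg_left (t2 u hu) hL.le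
    have e2 : 0 < P.L * P.th u := mul_pos hL (h.th_pos (by linarith [hu.1]))
    nlinarith

end

end Crest.Agent.R68
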