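import Crest.Agent.R68.EF5
import Crest.Agent.R68.EF1

/-!
# R68 (S0091): expected number of good children

Lifts: with `X_s = Xr (y + s v)`, `‖X_s‖ ≤ V₁ th ≤ r₀/N²` and `Y = X_s - s • pr v`, one has
`Xr (y + u v) = Y + u • pr v` for `u ∈ [s, T']` (`Xr_add`, `th_T'`).  Choose `ε` with
`1 ≤ |v 2 - sg ε|`.
-/

set_option autoImplicit false

namespace Crest.Agent.R68

open MeasureTheory Set Filter Crest.AnalysisR.VecCalc3 Crest.AnalysisR.PDE.Boltzmann
open scoped ENNReal _root_.Topology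

noncomputable section

open Classical

theorem ef7_abs {ν far bad β : ℝ → ℝ≥0∞} (hν : Measurable ν) (hf : Measurable far)
    (hb : Measurable bad) {s e : ℝ} (hse : s ≤ e) (hfin : ∫⁻ u in Ioo s e, ν u ≠ ⊤)
    (h1 : ∀ u ∈ Ioo s e, ν u ≤ far u + bad u)
    (h2 : ∀ u ∈ Ioo s e, ∫⁻ τ in Ioo s u, bad τ ≤
      ENNReal.ofReal (1 / 100) * ((∫⁻ τ in Ioo s u, ν τ) + 1))
    (h3 : ENNReal.ofReal 3 ≤ ∫⁻ u in Ioo s e, ν u) (h4 : ∀ u ∈ Ioo s e, 19 / 10 * far u ≤ β u) :
    3 / 2 ≤ ∫⁻ u in Ioo s e, att (∫⁻ τ in Ioo s u, ν τ) * β u := by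
  have hH : Measurable fun u => att (∫⁻ τ in Ioo s u, ν τ) := by
    refine measurable_att.comp (Monotone.measurable fun a b hab => ?_)
    exact lintegral_mono_set (Ioo_subset_Ioo_right hab)
  set J := ∫⁻ u in Ioo s e, far u * att (∫⁻ τ in Ioo s u, ν τ) with hJ
  have e1 := layer_fwd_eq hν hse hfin
  have e2 := layer_fwd_cmp hb hν h2
  have e3 : att (∫⁻ u in Ioo s e, ν u) ≤ ENNReal.ofReal (1 / 20) := by
    refine (att_le_exp h3).trans (ENNReal.ofReal_le_ofReal ?_)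
    rw [Real.exp_neg, one_div]
    refine inv_anti₀ (by norm_num) ?_
    have h := Real.exp_one_gt_d9
    have : Real.exp 3 = Real.exp 1 ^ 3 := by rw [← Real.exp_nat_mul]; norm_num
    rw [this]
    calc (20 : ℝ) ≤ 2.7182818283 ^ 3 := by norm_num
      _ ≤ _ := by gcongr
  have e4 : ∫⁻ u in Ioo s e, ν u * att (∫⁻ τ in Ioo s u, ν τ) ≤
      J + ∫⁻ u in Ioo s e, bad u * att (∫⁻ τ in Ioo s u, ν τ) := by
    rw [hJ, ← lintegral_add_left (hf.fun_mul hH)]
    refine setLIntegral_mono' measurableSet_Ioo fun u hu => ?_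
    rw [← add_mul]; gcongr; exact h1 u hu
  have e5 : ENNReal.ofReal (93 / 100) + ENNReal.ofReal (7 / 100) ≤ J + ENNReal.ofReal (7 / 100) := by
    rw [← ENNReal.ofReal_add (by norm_num) (by norm_num)]
    calc ENNReal.ofReal (93 / 100 + 7 / 100) = 1 := by norm_num
      _ = _ := e1.symm
      _ ≤ J + 2 * ENNReal.ofReal (1 / 100) + ENNReal.ofReal (1 / 20) := by
        gcongr
        exact e4.trans (by gcongr)
      _ = J + ENNReal.ofReal (7 / 100) := by
        rw [add_assoc, ← ENNReal.ofReal_ofNat 2, ← ENNReal.ofReal_mul (by norm_num),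
          ← ENNReal.ofReal_add (by norm_num) (by norm_num)]
        norm_num
  have e6 : ENNReal.ofReal (93 / 100) ≤ J := ENNReal.le_of_add_le_add_right ENNReal.ofReal_ne_top e5
  calc (3 / 2 : ℝ≥0∞) = ENNReal.ofReal (3 / 2) := by
        rw [ENNReal.ofReal_div_of_pos (by norm_num)]; norm_num
    _ ≤ ENNReal.ofReal (19 / 10) * ENNReal.ofReal (93 / 100) := by
        rw [← ENNReal.ofReal_mul (by norm_num)]; exact ENNReal.ofReal_le_ofReal (by norm_num)
    _ ≤ 19 / 10 * J := by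
        gcongr
        rw [ENNReal.ofReal_div_of_pos (by norm_num)]; norm_num
    _ = ∫⁻ u in Ioo s e, 19 / 10 * (far u * att (∫⁻ τ in Ioo s u, ν τ)) :=
        (lintegral_const_mul _ (hf.fun_mul hH)).symm
    _ ≤ _ := setLIntegral_mono' measurableSet_Ioo fun u hu => by
        rw [← mul_assoc, mul_comm]; gcongr; exact h4 u hu

theorem ef7_th_mono (P : Par) {s u : ℝ} (h : s ≤ u) : P.th s ≤ P.th u := by
  unfold Par.th; linarith

theorem ef7_small {P : Par} (h : P.Ok) {u : ℝ} (hu0 : 0 ≤ u) (hu : u ≤ P.T') :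
    100 * (P.N * P.th u) ≤ P.r₀ := by
  have h1 := h.th_T' hu
  have h2 := h.N_ge
  have h3 := h.th_pos hu0
  have h4 : (100 : ℝ) ≤ P.N ^ 3 := le_trans (by norm_num) (pow_le_pow_left₀ (by norm_num) h2 3)
  have h5 : 0 < P.N * P.th u := by positivity
  calc 100 * (P.N * P.th u) ≤ P.N ^ 3 * (P.N * P.th u) := by gcongr
    _ = P.N ^ 4 * P.th u := by ring
    _ ≤ _ := h1

theorem ef7_lift {P : Par} (h : P.Ok) {s u : ℝ} {y v : R3} (hs : 0 ≤ s) (hsu : s ≤ u)
    (hu : u ≤ P.T') (hX : ‖Xr (y + s • v)‖ ≤ P.V₁ * P.th s) (hv : ‖v‖ ≤ P.V) :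
    Xr (y + u • v) = (Xr (y + s • v) - s • pr v) + u • pr v := by
  have e : y + u • v = (y + s • v) + (u - s) • v := by rw [sub_smul]; abel
  have h1 := ef7_small h (hs.trans hsu) hu
  have h2 : P.r₀ ≤ 1 := by linarith [h.r₀_le, h.T₁_le']
  have h3 := ef7_th_mono P hsu
  have h4 : u - s ≤ P.th u := by
    have := div_pos h.r_pos h.L_pos
    unfold Par.th; linarith
  have h5 : ‖pr v‖ ≤ P.N := (norm_pr_le v).trans (hv.trans h.V_le)
  have h6 : (0 : ℝ) ≤ P.N := Nat.cast_nonneg _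
  have h7 : |u - s| * ‖pr v‖ ≤ P.th u * P.N := by
    rw [abs_of_nonneg (by linarith)]
    exact mul_le_mul h4 h5 (norm_nonneg _) (h.th_pos (hs.trans hsu)).le
  have h8 : P.V₁ * P.th s ≤ 16 * (P.N * P.th u) := by
    unfold P14.V₁; nlinarith
  rw [e, Xr_add (by nlinarith), sub_smul]; abel

theorem ef7_eps (v : R3) : ∃ ε, 1 ≤ |v 2 - sg ε| := by
  rcases le_total 0 (v 2) with h | h
  · exact ⟨false, by simp only [sg]; rw [abs_of_nonneg] <;> norm_num <;> linarith⟩
  · exact ⟨true, by simp only [sg]; rw [abs_of_nonpos] <;> norm_num <;> linarith⟩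

theorem ef7_mfar (P : Par) (Y : ℂ) (v : R3) : Measurable fun u : ℝ => P.far u (Y + u • pr v) v :=
  P.measurable_far.comp (f := fun u : ℝ => (u, Y + u • pr v, v)) (by fun_prop)

theorem ef7_core : ∀ᶠ P in 𝓕, ∀ (s : ℝ) (Y : ℂ) (v : R3), 0 ≤ s →
    (s, Y + s • pr v, v) ∈ P.Gd ∪ P.Gsemi → ∀ u₁ u₂, s ≤ u₁ → u₁ ≤ u₂ →
    u₂ ≤ s + 3 * P.V₁ * P.th s → u₂ ≤ P.T' →
    (∀ u ∈ Ioo u₁ u₂, ‖Y + u • pr v‖ ≤ P.V * P.th u) →
    ENNReal.ofReal P.A * (∫⁻ u in Ioo u₁ u₂,
      (if P.Out u (Y + u • pr v) then ENNReal.ofReal (1 / ‖Y + u • pr v‖) else 0)) ≤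
      1800 * (∫⁻ u in Ioo u₁ u₂, P.far u (Y + u • pr v) v) + 1 := by
  filter_upwards [ev_ok, out_le_core] with P h hcore s Y v hs hG u₁ u₂ h1 h2 h3 h4 hX
  obtain ⟨ε, hε⟩ := ef7_eps v
  have hA : 0 < P.A := by linarith [h.A_ge]
  refine (mul_le_mul_right (hcore ε s Y v hs hG u₁ u₂ h1 h2 h3) _).trans ?_
  rw [mul_add, ← ENNReal.ofReal_mul hA.le, mul_one_div_cancel hA.ne', ENNReal.ofReal_one]
  refine add_le_add_left ?_ _
  rw [mul_left_comm, ← lintegral_const_mul' _ _ ENNReal.ofReal_ne_top,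
    show (1800 : ℝ≥0∞) = 6 * 300 by norm_num, mul_assoc,
    ← lintegral_const_mul' 300 _ (by norm_num)]
  gcongr 6 * ?_
  refine setLIntegral_mono' measurableSet_Ioo fun u hu => ?_
  split_ifs with hc
  · have hu0 : 0 ≤ u := hs.trans (h1.trans hu.1.le)
    have h5 := ef7_small h hu0 (hu.2.le.trans h4)
    have h6 : P.V * P.th u ≤ P.N * P.th u := by gcongr; exacts [(h.th_pos hu0).le, h.V_le]
    have h7 : 0 ≤ P.N * P.th u := mul_nonneg (Nat.cast_nonneg _) (h.th_pos hu0).le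
    have h8 := h.far_ge hu0 hc.1 ((hX u hu).trans (by linarith)) hc.2 hε
    calc ENNReal.ofReal P.A * ENNReal.ofReal (1 / ‖Y + u • pr v‖)
        = 300 * ENNReal.ofReal (P.A / (300 * ‖Y + u • pr v‖)) := by
          rw [← ENNReal.ofReal_mul hA.le, ← ENNReal.ofReal_ofNat 300,
            ← ENNReal.ofReal_mul (by norm_num)]
          congr 1
          generalize ‖Y + u • pr v‖ = w
          rcases eq_or_ne w 0 with rfl | h0
          · simp
          · field_simp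
      _ ≤ _ := by gcongr
  · simp

theorem ef7_mnu {F : PF} (hF : Meas F) (y v : R3) : Measurable fun u : ℝ => Nu (F u (y + u • v)) v :=
  hF.Nu.comp (f := fun u : ℝ => (u, y + u • v, v)) (by fun_prop)

theorem ef7_H_le {P : Par} (h : P.Ok) {F : PF} {y v : R3} {s e c : ℝ} (hs : 0 ≤ s) (hc : 0 ≤ c)
    (hse : s ≤ e) (he : e - s ≤ c * P.th s)
    (hν : ∀ u ∈ Ioo s e, Nu (F u (y + u • v)) v ≤ ENNReal.ofReal (P.N ^ 2 / P.th u)) :
    Hz F y v s e ≤ ENNReal.ofReal (c * P.N ^ 2) := by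
  have ht := h.th_pos hs
  calc Hz F y v s e ≤ ∫⁻ _ in Ioo s e, ENNReal.ofReal (P.N ^ 2 / P.th s) := by
        refine setLIntegral_mono' measurableSet_Ioo fun u hu => (hν u hu).trans ?_
        exact ENNReal.ofReal_le_ofReal
          (div_le_div_of_nonneg_left (by positivity) ht (ef7_th_mono P hu.1.le))
    _ = ENNReal.ofReal (P.N ^ 2 / P.th s * (e - s)) := by
        rw [setLIntegral_const, Real.volume_Ioo, ← ENNReal.ofReal_mul (by positivity)]
    _ ≤ _ := by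
        refine ENNReal.ofReal_le_ofReal ?_
        calc P.N ^ 2 / P.th s * (e - s) ≤ P.N ^ 2 / P.th s * (c * P.th s) := by gcongr
          _ = _ := by field_simp

/-- Let `ν(u) = Nu (F u ·) v`, `H(u) = ∫_s^u ν`, `I(u) = ∫_s^u 1_{Out}/‖X‖`.  `far_le_Nu`, `far_ge`,
`out_le_core` give `A I(u) ≤ 1800 H(u) + 1`.  By `Nu_upper`, `ν ≤ far + bad` with
`∫_s^u bad ≤ 2000 κ₀ (A I(u) + 1) + 1/(30 C₃) ≤ (H(u) + 1)/100` (`annulus_le`), so
`∫ bad · att ≤ 2/100` (`layer_fwd_cmp`).  `out_main` gives `H(end) ≥ 3`, `att ≤ e⁻³ ≤ 1/20`.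
`layer_fwd_eq` (`H` is finite by the second part of `Nu_upper`): `∫ far · att ≥ 93/100`;
`beta_ge`, `norm_main`. -/
theorem flight_main : ∀ᶠ P in 𝓕, ∀ α F, P.Sol α F → ∀ (s : ℝ) (y v : R3), 0 ≤ s →
    s + P.th s / 30 ≤ P.T' → (s, Xr (y + s • v), v) ∈ P.Gd →
    3 / 2 ≤ ∫⁻ u in Ioo s (s + P.th s / 30),
      att (Hz F y v s u) * P.beta P.Gd u (Xr (y + u • v)) v := by
  filter_upwards [ev_ok, ef7_core, annulus_le, far_le_Nu, Nu_upper,
    le_k0 fun _ => 1 / 1000000000, big_A fun Q => 2000000 * Q.V]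
    with P h hcore hann hfar hup hκ hA α F hS s y v hs he hG
  replace hκ : P.κ₀ ≤ 1 / 1000000000 := hκ.2 (by norm_num)
  replace hA : 2000000 * P.V ≤ P.A := hA
  set Y := Xr (y + s • v) - s • pr v with hY
  have hth := h.th_pos hs
  have hV := h.V_ge
  have hVN := h.V_le
  have hA0 : 0 < P.A := by linarith
  have hV1 : P.V ≤ P.V₁ := by unfold P14.V₁; linarith
  have hXs : Xr (y + s • v) = Y + s • pr v := by rw [hY]; abel
  have hl : ∀ u, s ≤ u → u ≤ s + P.th s / 30 → Xr (y + u • v) = Y + u • pr v := fun u h1 h2 =>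
    ef7_lift h hs h1 (h2.trans he) (hG.2.1.trans (by gcongr)) hG.2.2.1
  have hG' : (s, Y + s • pr v, v) ∈ P.Gd := hXs ▸ hG
  have hT : ∀ u ∈ Ioo s (s + P.th s / 30), u ∈ Icc 0 P.T' := fun u hu =>
    ⟨hs.trans hu.1.le, hu.2.le.trans he⟩
  have hwin : s + P.th s / 30 ≤ s + 3 * P.V₁ * P.th s := by nlinarith
  have hI : ∀ u, s ≤ u → u ≤ s + P.th s / 30 → ENNReal.ofReal P.A * (∫⁻ τ in Ioo s u,
      (if P.Out τ (Y + τ • pr v) then ENNReal.ofReal (1 / ‖Y + τ • pr v‖) else 0)) ≤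
      1800 * Hz F y v s u + 1 := fun u h1 h2 => by
    refine (hcore s Y v hs (Or.inl hG') s u le_rfl h1 (h2.trans hwin) (h2.trans he)
      fun τ hτ => h.norm_main hG' hτ.1.le).trans ?_
    gcongr
    refine setLIntegral_mono' measurableSet_Ioo fun τ hτ => ?_
    rw [← hl τ hτ.1.le (hτ.2.le.trans h2)]
    exact hfar α F hS τ (hT τ ⟨hτ.1, hτ.2.trans_le h2⟩) _ _
  have mX : Measurable fun τ : ℝ => Y + τ • pr v := by fun_prop
  have mth := P.measurable_th
  have mO : MeasurableSet {τ : ℝ | P.Out τ (Y + τ • pr v)} :=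
    measurableSet_le (by fun_prop) (by fun_prop)
  have mA : MeasurableSet {τ : ℝ | (1 - 1 / P.C₃) * (P.L * P.th τ) ≤ ‖Y + τ • pr v‖} :=
    measurableSet_le (by fun_prop) (by fun_prop)
  have m1 : Measurable fun τ : ℝ =>
      if P.Out τ (Y + τ • pr v) then ENNReal.ofReal (1 / ‖Y + τ • pr v‖) else 0 :=
    Measurable.ite mO (by fun_prop) measurable_const
  have key := ef7_abs (ν := fun u => Nu (F u (y + u • v)) v)
    (far := fun u => P.far u (Y + u • pr v) v)
    (bad := fun u => (if (1 - 1 / P.C₃) * (P.L * P.th u) ≤ ‖Y + u • pr v‖ then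
      ENNReal.ofReal (2000 * P.κ₀ * P.A / ‖Y + u • pr v‖) else 0) +
        ENNReal.ofReal (1 / (P.C₃ * P.th u)))
    (β := fun u => P.beta P.Gd u (Xr (y + u • v)) v) (ef7_mnu hS.meas y v) (ef7_mfar P Y v)
    ((Measurable.ite mA (by fun_prop) measurable_const).add (by fun_prop))
    (s := s) (e := s + P.th s / 30) (by linarith) ?_ ?_ ?_ ?_ ?_
  · exact key
  · refine ne_top_of_le_ne_top ENNReal.ofReal_ne_top (ef7_H_le h (F := F) (y := y) (v := v) hs
      (c := 1) zero_le_one (by linarith) (by linarith) fun u hu => ?_)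
    exact (hup α F hS u (hT u hu) _ v hG.2.2.1).2
  · intro u hu
    have := (hup α F hS u (hT u hu) (y + u • v) v hG.2.2.1).1
    rwa [hl u hu.1.le hu.2.le] at this
  · intro u hu
    change _ ≤ _ * (Hz F y v s u + 1)
    have hκ0 := h.κ₀_pos
    have hC := h.C₃_ge'
    have a1 : ∫⁻ τ in Ioo s u, ENNReal.ofReal (1 / (P.C₃ * P.th τ)) ≤ ENNReal.ofReal (1 / 1000) := by
      calc _ ≤ ∫⁻ _ in Ioo s u, ENNReal.ofReal (1 / (P.C₃ * P.th s)) := by
            refine setLIntegral_mono' measurableSet_Ioo fun τ hτ => ENNReal.ofReal_le_ofReal ?_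
            have := ef7_th_mono P hτ.1.le
            gcongr
        _ = ENNReal.ofReal (1 / (P.C₃ * P.th s) * (u - s)) := by
            rw [setLIntegral_const, Real.volume_Ioo, ← ENNReal.ofReal_mul (by positivity)]
        _ ≤ _ := by
            refine ENNReal.ofReal_le_ofReal ?_
            have h1 : u - s ≤ P.th s / 30 := by linarith [hu.2]
            calc 1 / (P.C₃ * P.th s) * (u - s) ≤ 1 / (100 * P.th s) * (P.th s / 30) := by
                  gcongr; linarith [hu.1]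
              _ = 1 / 3000 := by field_simp; norm_num
              _ ≤ _ := by norm_num
    have a2 : ∫⁻ τ in Ioo s u, (if (1 - 1 / P.C₃) * (P.L * P.th τ) ≤ ‖Y + τ • pr v‖ then
        ENNReal.ofReal (2000 * P.κ₀ * P.A / ‖Y + τ • pr v‖) else 0) ≤
        ENNReal.ofReal (2000 * P.κ₀) * (1800 * Hz F y v s u + 1 + 1) := by
      calc _ ≤ ∫⁻ τ in Ioo s u, ENNReal.ofReal (2000 * P.κ₀) * (ENNReal.ofReal P.A *
            ((if P.Out τ (Y + τ • pr v) then ENNReal.ofReal (1 / ‖Y + τ • pr v‖) else 0) +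
            (if (1 - 1 / P.C₃) * (P.L * P.th τ) ≤ ‖Y + τ • pr v‖ ∧ ¬ P.Out τ (Y + τ • pr v) then
              ENNReal.ofReal (1 / ‖Y + τ • pr v‖) else 0))) := by
            refine lintegral_mono fun τ => ?_
            have e : ENNReal.ofReal (2000 * P.κ₀ * P.A / ‖Y + τ • pr v‖) =
                ENNReal.ofReal (2000 * P.κ₀) * (ENNReal.ofReal P.A *
                  ENNReal.ofReal (1 / ‖Y + τ • pr v‖)) := by
              rw [← ENNReal.ofReal_mul hA0.le, ← ENNReal.ofReal_mul (by positivity)]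
              congr 1; ring
            by_cases c1 : (1 - 1 / P.C₃) * (P.L * P.th τ) ≤ ‖Y + τ • pr v‖
            · by_cases c2 : P.Out τ (Y + τ • pr v)
              · simp only [c1, c2, if_true, not_true, and_false, if_false, add_zero, e, le_refl]
              · simp only [c1, c2, if_true, not_false_iff, and_self, if_false, zero_add, e, le_refl]
            · simp only [c1, if_false, zero_le]
        _ = ENNReal.ofReal (2000 * P.κ₀) * (ENNReal.ofReal P.A * (∫⁻ τ in Ioo s u,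
            (if P.Out τ (Y + τ • pr v) then ENNReal.ofReal (1 / ‖Y + τ • pr v‖) else 0)) +
            ENNReal.ofReal P.A * ∫⁻ τ in Ioo s u,
            (if (1 - 1 / P.C₃) * (P.L * P.th τ) ≤ ‖Y + τ • pr v‖ ∧ ¬ P.Out τ (Y + τ • pr v) then
              ENNReal.ofReal (1 / ‖Y + τ • pr v‖) else 0)) := by
            rw [lintegral_const_mul' _ _ ENNReal.ofReal_ne_top,
              lintegral_const_mul' _ _ ENNReal.ofReal_ne_top, lintegral_add_left m1, mul_add]
        _ ≤ _ := by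
            gcongr
            · exact hI u hu.1.le hu.2.le
            · refine (mul_le_mul_right ((lintegral_mono_set (Ioo_subset_Ioo_right hu.2.le)).trans
                (hann s Y v hs hG')) _).trans ?_
              rw [← ENNReal.ofReal_mul hA0.le, mul_one_div_cancel hA0.ne', ENNReal.ofReal_one]
    rw [lintegral_add_right _ (by fun_prop)]
    refine (add_le_add a2 a1).trans ?_
    have b1 : ENNReal.ofReal (2000 * P.κ₀) * 1800 ≤ ENNReal.ofReal (1 / 100) := by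
      rw [← ENNReal.ofReal_ofNat 1800, ← ENNReal.ofReal_mul (by positivity)]
      exact ENNReal.ofReal_le_ofReal (by linarith)
    have b2 : ENNReal.ofReal (2000 * P.κ₀) * (1 + 1) + ENNReal.ofReal (1 / 1000) ≤
        ENNReal.ofReal (1 / 100) := by
      rw [one_add_one_eq_two, ← ENNReal.ofReal_ofNat 2, ← ENNReal.ofReal_mul (by positivity),
        ← ENNReal.ofReal_add (by positivity) (by norm_num)]
      exact ENNReal.ofReal_le_ofReal (by linarith)
    calc _ = ENNReal.ofReal (2000 * P.κ₀) * 1800 * Hz F y v s u +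
          (ENNReal.ofReal (2000 * P.κ₀) * (1 + 1) + ENNReal.ofReal (1 / 1000)) := by ring
      _ ≤ ENNReal.ofReal (1 / 100) * Hz F y v s u + ENNReal.ofReal (1 / 100) := by gcongr
      _ = _ := by ring
  · change _ ≤ Hz F y v s (s + P.th s / 30)
    have a1 := (mul_le_mul_right (h.out_main hs hG') (ENNReal.ofReal P.A)).trans
      (hI _ (by linarith) le_rfl)
    by_contra hlt
    have a2 : 1800 * Hz F y v s (s + P.th s / 30) + 1 ≤ ENNReal.ofReal 5401 := by
      calc _ ≤ 1800 * ENNReal.ofReal 3 + 1 := by gcongr; exact (not_le.1 hlt).le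
        _ = _ := by norm_num
    have a3 := a1.trans a2
    rw [← ENNReal.ofReal_mul hA0.le, ENNReal.ofReal_le_ofReal_iff (by norm_num), mul_one_div,
      div_le_iff₀ (by positivity)] at a3
    linarith
  · intro u hu
    rw [hl u hu.1.le hu.2.le]
    exact h.beta_ge ⟨(hT u hu).1, (hT u hu).2.trans h.T'_le⟩ (h.norm_main hG' hu.1.le) hG.2.2.1

/-- `H ≤ (N²/th(s)) 3V₁ th(s) = 48 N³`, so `att ≥ exp(-48N³) ≥ 1/C₄`; on
`(s + V₁ th, s + 3V₁ th)`: `∫ beta ≥ (A/300)(1/(4V) - 1/A)/6 ≥ 1` (`beta_ge`, `norm_semi`, `far_ge`,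
`out_le_core`, `out_semi`). -/
theorem flight_semi : ∀ᶠ P in 𝓕, ∀ α F, P.Sol α F → ∀ (s : ℝ) (y v : R3), 0 ≤ s →
    s + 3 * P.V₁ * P.th s ≤ P.T' → (s, Xr (y + s • v), v) ∈ P.Gsemi →
    ENNReal.ofReal (1 / P.C₄) ≤ ∫⁻ u in Ioo s (s + 3 * P.V₁ * P.th s),
      att (Hz F y v s u) * P.beta P.Gd u (Xr (y + u • v)) v := by
  filter_upwards [ev_ok, ef7_core, Nu_upper, big_A fun Q => 10000 * Q.V,
    big_C4 fun Q => Real.exp (3 * Q.V₁ * Q.N ^ 2)]
    with P h hcore hup hA hC α F hS s y v hs he hG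
  replace hA : 10000 * P.V ≤ P.A := hA
  replace hC : Real.exp (3 * P.V₁ * P.N ^ 2) ≤ P.C₄ := hC
  set Y := Xr (y + s • v) - s • pr v with hY
  have hth := h.th_pos hs
  have hV := h.V_ge
  have hVN := h.V_le
  have hA0 : 0 < P.A := by linarith
  have hV1 : P.V ≤ P.V₁ := by unfold P14.V₁; linarith
  have hV0 : 0 < P.V₁ := by linarith
  have hv : ‖v‖ ≤ P.V := hG.2.2.1.trans (by linarith)
  have hXs : Xr (y + s • v) = Y + s • pr v := by rw [hY]; abel
  have hl : ∀ u, s ≤ u → u ≤ s + 3 * P.V₁ * P.th s → Xr (y + u • v) = Y + u • pr v :=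
    fun u h1 h2 => ef7_lift h hs h1 (h2.trans he) hG.2.1 hv
  have hG' : (s, Y + s • pr v, v) ∈ P.Gsemi := hXs ▸ hG
  have hp : 0 < P.V₁ * P.th s := by positivity
  have hT : ∀ u ∈ Ioo s (s + 3 * P.V₁ * P.th s), u ∈ Icc 0 P.T' := fun u hu =>
    ⟨hs.trans hu.1.le, hu.2.le.trans he⟩
  have hsub : Ioo (s + P.V₁ * P.th s) (s + 3 * P.V₁ * P.th s) ⊆ Ioo s (s + 3 * P.V₁ * P.th s) :=
    Ioo_subset_Ioo_left (by linarith)
  have a1 : (1 : ℝ≥0∞) ≤ ∫⁻ u in Ioo (s + P.V₁ * P.th s) (s + 3 * P.V₁ * P.th s),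
      P.far u (Y + u • pr v) v := by
    have b1 := (mul_le_mul_right (h.out_semi hs hG') (ENNReal.ofReal P.A)).trans
      (hcore s Y v hs (Or.inr hG') _ _ (by linarith) (by linarith) le_rfl he
        fun u hu => h.norm_semi hs hG' hu.1.le)
    by_contra hlt
    have b2 := b1.trans (show _ ≤ ENNReal.ofReal 1801 from by
      calc _ ≤ 1800 * (1 : ℝ≥0∞) + 1 := by gcongr; exact (not_le.1 hlt).le
        _ = _ := by norm_num)
    rw [← ENNReal.ofReal_mul hA0.le, ENNReal.ofReal_le_ofReal_iff (by norm_num), mul_one_div,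
      div_le_iff₀ (by positivity)] at b2
    linarith
  have a2 : ∀ u ∈ Ioo s (s + 3 * P.V₁ * P.th s), ENNReal.ofReal (1 / P.C₄) ≤ att (Hz F y v s u) := by
    intro u hu
    refine le_trans (ENNReal.ofReal_le_ofReal ?_) (exp_le_att (x := 3 * P.V₁ * P.N ^ 2)
      (by positivity) (ef7_H_le h hs (by positivity) hu.1.le (by linarith [hu.2]) fun τ hτ =>
        (hup α F hS τ (hT τ ⟨hτ.1, hτ.2.trans hu.2⟩) _ v hv).2))
    rw [Real.exp_neg, one_div]
    exact inv_anti₀ (Real.exp_pos _) hC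
  calc ENNReal.ofReal (1 / P.C₄) = ENNReal.ofReal (1 / P.C₄) * 1 := (mul_one _).symm
    _ ≤ ENNReal.ofReal (1 / P.C₄) * ∫⁻ u in Ioo (s + P.V₁ * P.th s) (s + 3 * P.V₁ * P.th s),
        P.far u (Y + u • pr v) v := by gcongr
    _ = ∫⁻ u in Ioo (s + P.V₁ * P.th s) (s + 3 * P.V₁ * P.th s),
        ENNReal.ofReal (1 / P.C₄) * P.far u (Y + u • pr v) v :=
        (lintegral_const_mul' _ _ ENNReal.ofReal_ne_top).symm
    _ ≤ ∫⁻ u in Ioo (s + P.V₁ * P.th s) (s + 3 * P.V₁ * P.th s),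
        att (Hz F y v s u) * P.beta P.Gd u (Xr (y + u • v)) v := by
        refine setLIntegral_mono' measurableSet_Ioo fun u hu => ?_
        have hu' := hsub hu
        refine mul_le_mul' (a2 u hu') ?_
        rw [hl u hu'.1.le hu'.2.le]
        refine le_trans ?_ (h.beta_ge ⟨(hT u hu').1, (hT u hu').2.trans h.T'_le⟩
          (h.norm_semi hs hG' hu.1.le) hv)
        refine le_mul_of_one_le_left zero_le ?_
        rw [ENNReal.le_div_iff_mul_le (by norm_num) (by norm_num)]; norm_num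
    _ ≤ _ := lintegral_mono_set hsub

end

end Crest.Agent.R68
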