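import Crest.Agent.R68.EW0

/-!
# R68 (S0091): closure of the warm class, leakage
-/

set_option autoImplicit false

namespace Crest.Agent.R68

open MeasureTheory Set Filter Crest.AnalysisR.VecCalc3 Crest.AnalysisR.PDE.Boltzmann
open scoped ENNReal _root_.Topology

noncomputable section

private theorem ew1_int {a t : ℝ} (ha : 0 < a) (ht : 0 ≤ t) :
    ∫⁻ s in Ioo 0 t, ENNReal.ofReal ((a + s) ^ 2)⁻¹ ≤ ENNReal.ofReal a⁻¹ := by
  have hc : ContinuousOn (fun s : ℝ => ((a + s) ^ 2)⁻¹) (uIcc 0 t) := by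
    rw [uIcc_of_le ht]
    exact ContinuousOn.inv₀ (by fun_prop) fun s hs => by have := hs.1; positivity
  have hi := hc.intervalIntegrable (μ := volume)
  have hd : ∀ s ∈ uIcc 0 t, HasDerivAt (fun s : ℝ => -(a + s)⁻¹) ((a + s) ^ 2)⁻¹ s := by
    intro s hs
    rw [uIcc_of_le ht] at hs
    have h0 : a + s ≠ 0 := by have := hs.1; positivity
    have := (((hasDerivAt_id s).const_add a).inv h0).neg
    simp only [id, neg_div, neg_neg, one_div] at this
    exact this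
  rw [← ofReal_integral_eq_lintegral_ofReal (hi.1.mono_set Ioo_subset_Ioc_self)
    (ae_of_all _ fun s => by positivity), ← integral_Ioc_eq_integral_Ioo,
    ← intervalIntegral.integral_of_le ht, intervalIntegral.integral_eq_sub_of_hasDerivAt hd hi]
  refine ENNReal.ofReal_le_ofReal ?_
  have : 0 ≤ (a + t)⁻¹ := by positivity
  rw [add_zero]
  linarith

open Classical in
/-- If `cut` never holds on `(0,t)` the integral vanishes.  Otherwise `‖pr v‖ ≤ 2L` and `cut` holds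
at `t` (`cut_mono`).  At a time `s` where `cut` holds, with `X = Y + sζ`:
`vr s X ≥ ‖Y‖ + r + s/2` and `|wd Y ζ| = |wd X ζ| ≤ ‖X‖ del(s) ≤ vr(s) del(t)`, so
`vr s X ≥ D/2 + s/4`, `D = ‖Y‖ + r + |wd Y ζ|/del(t)`; `Ph_anti`;
`∫₀^∞ (D/2 + s/4)^{-2-κ} ≤ 9 D^{-1-κ} ≤ 9 (‖Y‖+r)^{-κ} D⁻¹`. -/
theorem warm_closure : ∀ᶠ P in 𝓕, ∀ ε, ∀ t ∈ Icc 0 P.T₁, ∀ (Y : ℂ) (v : R3),
    ∫⁻ s in Ioo 0 t, (if P.cut ε s (Y + s • pr v) v then
      Qp (P.StE ε s (Y + s • pr v)) (P.StE ε s (Y + s • pr v)) v else 0) ≤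
      P.wm ε t (Y + t • pr v) v := by
  filter_upwards [ev_ok, Qp_StE_le] with P h hQ ε t ht Y v
  by_cases hex : ∃ s ∈ Ioo 0 t, P.cut ε s (Y + s • pr v) v
  swap
  · rw [setLIntegral_congr_fun measurableSet_Ioo (g := fun _ => 0)
      fun s hs => if_neg fun hc => hex ⟨s, hs, hc⟩, lintegral_zero]
    exact zero_le
  obtain ⟨s₀, hs₀, hc₀⟩ := hex
  have hct := h.cut_mono ε hs₀.1.le hs₀.2.le Y hc₀
  have hv : ‖pr v‖ ≤ 1 / 2 := by linarith [(h.cut_supp ht hct).2.1, h.L_le']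
  have hr := h.r_pos
  have hδ := h.del_pos ht.1 (Y + t • pr v)
  have he := h.e₀_pos
  obtain ⟨D, hD⟩ : ∃ D, D = ‖Y‖ + P.r + |wd Y (pr v)| / P.del t (Y + t • pr v) := ⟨_, rfl⟩
  have hD0 : 0 < D := by rw [hD]; positivity
  obtain ⟨c, hc⟩ : ∃ c, c = P.e₀ / 10 * (16 * (‖Y‖ + P.r) ^ (-(19 / 800) : ℝ)) *
    Real.exp (-P.Ph ε t (Y + t • pr v) v) := ⟨_, rfl⟩
  have hc0 : 0 ≤ c := by rw [hc]; positivity
  calc _ ≤ ∫⁻ s in Ioo 0 t, ENNReal.ofReal c * ENNReal.ofReal ((2 * D + s) ^ 2)⁻¹ := by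
        refine setLIntegral_mono' measurableSet_Ioo fun s hs => ?_
        split_ifs with hcs
        swap
        · exact zero_le
        refine (hQ ε s ⟨hs.1.le, hs.2.le.trans ht.2⟩ _ v).trans ?_
        rw [← ENNReal.ofReal_mul hc0]
        refine ENNReal.ofReal_le_ofReal ?_
        have hs0 := hs.1
        have h1 : ‖Y‖ + P.r + s / 2 ≤ P.vr s (Y + s • pr v) := by
          have h2 := norm_sub_le (Y + s • pr v) (s • pr v)
          rw [add_sub_cancel_right, norm_smul, Real.norm_of_nonneg hs0.le] at h2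
          have h3 := mul_le_mul_of_nonneg_left hv hs0.le
          unfold Par.vr
          linarith
        have h2 : |wd Y (pr v)| / P.del t (Y + t • pr v) ≤ P.vr s (Y + s • pr v) := by
          rw [div_le_iff₀ hδ, ← wd_add_smul Y (pr v) s]
          refine (h.abs_wd_le_wn ε s _ v).trans (mul_le_mul ?_ (hcs.1.trans ?_) (norm_nonneg _)
            (h.vr_pos hs0.le _).le)
          · unfold Par.vr
            linarith
          · exact pow_le_pow_left₀ (h.ee_pos hs0.le _).le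
              (h.ee_mono hs0.le hs.2.le Y (by linarith)) 7
        have h3 := h.Ph_anti ε hs0.le hs.2.le Y (v := v) (by linarith)
        have h4 := h.vr_pos hs0.le (Y + s • pr v)
        generalize P.vr s (Y + s • pr v) = w at *
        have h5 : w ^ (-(19 / 800) : ℝ) ≤ (‖Y‖ + P.r) ^ (-(19 / 800) : ℝ) :=
          Real.rpow_le_rpow_of_nonpos (by positivity) (by linarith) (by norm_num)
        have h6 : (w ^ 2)⁻¹ ≤ 16 * ((2 * D + s) ^ 2)⁻¹ := by
          rw [← div_eq_mul_inv, le_div_iff₀ (by positivity), inv_mul_le_iff₀ (by positivity)]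
          have h7 : 2 * D + s ≤ 4 * w := by linarith
          have h8 := pow_le_pow_left₀ (by positivity) h7 2
          linarith
        have h7 : w ^ (-2 - 19 / 800 : ℝ) = w ^ (-(19 / 800) : ℝ) * (w ^ 2)⁻¹ := by
          rw [← Real.rpow_natCast, ← Real.rpow_neg h4.le, ← Real.rpow_add h4]
          norm_num
        rw [h7, hc]
        calc _ ≤ P.e₀ / 10 * ((‖Y‖ + P.r) ^ (-(19 / 800) : ℝ) * (16 * ((2 * D + s) ^ 2)⁻¹)) *
              Real.exp (-P.Ph ε t (Y + t • pr v) v) := by gcongr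
          _ = _ := by ring
    _ ≤ ENNReal.ofReal c * ENNReal.ofReal (2 * D)⁻¹ := by
        rw [lintegral_const_mul' _ _ ENNReal.ofReal_ne_top]
        exact mul_le_mul_right (ew1_int (by positivity) ht.1) _
    _ ≤ _ := by
        rw [Par.wm, if_pos hct, Jf, add_sub_cancel_right, ← hD, ← ENNReal.ofReal_mul hc0,
          ← ENNReal.ofReal_mul (by positivity)]
        refine ENNReal.ofReal_le_ofReal ?_
        have h1 : P.e₀ ≤ 1 := by linarith [h.e₀_le, h.L_le']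
        calc _ = 4 / 5 * P.e₀ * ((‖Y‖ + P.r) ^ (-(19 / 800) : ℝ) * D⁻¹ *
              Real.exp (-P.Ph ε t (Y + t • pr v) v)) := by
              rw [hc]
              field_simp
              norm_num
          _ ≤ _ := mul_le_of_le_one_left (by positivity) (by linarith)

private theorem ew1_vr {P : Par} (h : P.Ok) {t : ℝ} (ht : t ≤ P.T₁) {X : ℂ} (hX : ‖X‖ ≤ 3 * P.T₁) :
    P.vr t X ≤ 5 * P.T₁ := by
  unfold Par.vr
  linarith [h.r_le', h.r₀_le]

private theorem ew1_Ph {P : Par} (h : P.Ok) {ε : Bool} {t : ℝ} (ht : t ∈ Icc 0 P.T₁) {X : ℂ}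
    {v : R3} (hX : ‖X‖ ≤ 3 * P.T₁) (hv : ‖pr v‖ ≤ 1) (hc : ¬ P.cut ε t X v) :
    (P.ee t X)⁻¹ ≤ P.Ph ε t X v := by
  have he := h.ee_pos ht.1 X
  have he0 := h.ee_le ht.1 X
  have he1 : P.e₀ ≤ 1 / 1000 := by linarith [h.e₀_le, h.L_le']
  have hσ := h.sig_pos ht.1 X
  have hδ := h.del_pos ht.1 X
  have hw := h.vr_pos ht.1 X
  have a1 : 0 ≤ P.wn ε t X v / P.sig t X := div_nonneg (norm_nonneg _) hσ.le
  have a2 : 0 ≤ P.dv ε v / P.del t X := div_nonneg (h.dv_nonneg ε v) hδ.le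
  have a3 : 0 ≤ max (‖X - t • pr v‖ - P.r₀) 0 / (P.vr t X * P.del t X) :=
    div_nonneg (le_max_right _ _) (by positivity)
  unfold Par.Ph
  simp only [Par.cut, not_and_or, not_le] at hc
  rcases hc with hc | hc | hc
  · have : (P.ee t X)⁻¹ ≤ P.wn ε t X v / P.sig t X := by
      refine le_trans (le_of_eq ?_) (div_le_div_of_nonneg_right hc.le hσ.le)
      unfold Par.del Par.sig
      field_simp
    linarith
  · have : (P.ee t X)⁻¹ ≤ P.dv ε v / P.del t X := by
      rw [le_div_iff₀ hδ]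
      have b1 : (P.ee t X)⁻¹ * P.del t X = P.ee t X * P.ee t X ^ 5 := by
        unfold Par.del
        field_simp
      have b2 : P.ee t X ^ 5 ≤ 1 := pow_le_one₀ he.le (by linarith)
      rw [b1]
      nlinarith [h.e₀_le_g]
    linarith
  · have b1 : ‖X - t • pr v‖ ≤ P.vr t X := by
      have h5 := norm_sub_le X (t • pr v)
      rw [norm_smul, Real.norm_of_nonneg ht.1] at h5
      have h6 := mul_le_mul_of_nonneg_left hv ht.1
      unfold Par.vr
      linarith [h.r_pos]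
    have b2 : P.ee t X = P.e₀ := by
      rw [Par.ee, min_eq_right (h.RW_ge.trans (hc.le.trans b1))]
      rfl
    have b3 : P.e₀ ^ 4 ≤ P.r₀ ^ (7 / 1600 : ℝ) := by
      rw [Qar.e₀, ← Real.rpow_natCast, ← Real.rpow_mul h.r₀_pos.le]
      exact Real.rpow_le_rpow_of_exponent_ge h.r₀_pos (by linarith [h.r₀_le, h.T₁_le'])
        (by norm_num)
    have hT := h.T₁_pos
    have he' := h.e₀_pos
    have : (P.ee t X)⁻¹ ≤ max (‖X - t • pr v‖ - P.r₀) 0 / (P.vr t X * P.del t X) := by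
      rw [le_div_iff₀ (by positivity), Par.del, b2]
      refine le_trans ?_ (le_max_left _ _)
      have b4 := ew1_vr h ht.2 hX
      have b5 : P.T₁ * P.e₀ ^ 4 ≤ ‖X - t • pr v‖ - P.r₀ := by
        have := mul_le_mul_of_nonneg_left b3 hT.le
        unfold Qar.RW at hc
        linarith
      calc _ = P.vr t X * P.e₀ ^ 2 * P.e₀ ^ 4 := by field_simp
        _ ≤ 5 * P.T₁ * (1 / 1000) ^ 2 * P.e₀ ^ 4 := by gcongr
        _ ≤ P.T₁ * P.e₀ ^ 4 := by
            gcongr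
            linarith
        _ ≤ _ := b5
    linarith

/-- If the gain is not zero, `wn ≤ 2 del`, `‖v‖ ≤ 2`, `‖pr v‖ ≤ 1`, `‖X‖ ≤ 3T₁`, `vr ≤ 5T₁ ≤ 1`.  Failure
of `cut` gives `Ph ≥ 1/ee`: `del/sig = 1/ee`; `g₀/del ≥ 10 e₀/ee⁷`; if `‖Y‖ > RW` then
`vr ≥ ‖Y‖ ≥ r₀`, `ee = e₀`, `Ph ≥ e₀^{3.5}/(5 e₀⁷)`.  Then `vr^{-3} ≤ ee^{-2400}`,
`vr^{μω} ≥ ee^{800 μω}`, and `e^{-1/ee} ≤ k! ee^k` for `k = 800(μω+3)+1`
(`Real.pow_div_factorial_le_exp`), `3 k! e₀ ≤ 1`. -/
theorem warm_leak : ∀ᶠ P in 𝓕, ∀ ε, ∀ t ∈ Icc 0 P.T₁, ∀ X v, ¬ P.cut ε t X v →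
    Qp (P.StE ε t X) (P.StE ε t X) v ≤ ENNReal.ofReal (P.vr t X ^ P.μω) * Gs (1 / 2) v := by
  filter_upwards [ev_ok, Qp_StE_le,
    small_e₀ (fun Q => ((800 * (Q.μω + 3)).factorial : ℝ)) one_pos] with P h hQ hk ε t ht X v hc
  by_cases h0 : Qp (P.StE ε t X) (P.StE ε t X) v = 0
  · rw [h0]
    exact zero_le
  obtain ⟨h1, hX⟩ := h.Qp_StE_supp ht h0
  have h2 : P.wn ε t X v ≤ 1 / 2 := by linarith [h.del_le ht.1 X, h.e₀_le, h.L_le']
  have hv : ‖v‖ ≤ 2 := by
    have h5 := norm_le_norm_sub_add v (P.Uf ε t X)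
    have h6 : ‖v - P.Uf ε t X‖ ≤ 1 / 2 := h2
    linarith [h.norm_Uf_le ε ht.1 X]
  have hv' : ‖pr v‖ ≤ 1 := by
    have h3 := norm_le_norm_sub_add (pr v) (uf P.L t X)
    linarith [h.wn_ge_pr ε t X v, norm_uf_le h.L_pos ht.1 X, h.L_le']
  have hP := ew1_Ph h ht hX hv' hc
  have hw := h.vr_pos ht.1 X
  have hw1 : P.vr t X ≤ 1 := by linarith [ew1_vr h ht.2 hX, h.T₁_le']
  have he := h.ee_pos ht.1 X
  have he0 := h.e₀_pos
  refine (hQ ε t ht X v).trans ?_
  rw [Gs, ← ENNReal.ofReal_mul (by positivity)]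
  refine ENNReal.ofReal_le_ofReal ?_
  obtain ⟨k, hk'⟩ : ∃ k : ℕ, k = 800 * (P.μω + 3) := ⟨_, rfl⟩
  have hk1 : (k.factorial : ℝ) * P.e₀ ≤ 1 := by
    rw [hk']
    simpa only [Real.rpow_one] using hk
  have a1 : P.vr t X ^ (-2 - 19 / 800 : ℝ) ≤ P.vr t X ^ P.μω * (P.ee t X)⁻¹ ^ k := by
    have b1 := h.vr_rpow_le ht.1 X (x := P.μω + 3) (by positivity)
    have b2 : P.ee t X ^ (-(800 * (P.μω + 3)) : ℝ) = (P.ee t X)⁻¹ ^ k := by
      rw [Real.rpow_neg he.le, inv_pow, ← Real.rpow_natCast, hk']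
      push_cast
      rfl
    rw [← b2]
    refine le_trans ?_ (mul_le_mul_of_nonneg_left b1 (by positivity))
    rw [← Real.rpow_natCast, ← Real.rpow_add hw]
    exact Real.rpow_le_rpow_of_exponent_ge hw hw1 (by linarith)
  have a2 : (P.ee t X)⁻¹ ^ k * Real.exp (-P.Ph ε t X v) ≤ k.factorial := by
    have b1 := (Real.pow_div_factorial_le_exp _ (inv_pos.2 he).le k).trans (Real.exp_le_exp.2 hP)
    rw [div_le_iff₀ (by positivity)] at b1
    rw [Real.exp_neg, ← div_eq_mul_inv, div_le_iff₀ (Real.exp_pos _), mul_comm]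
    exact b1
  have a3 : 1 / 10 ≤ Real.exp (-(1 / 2) * ‖v‖ ^ 2 / 2) := by
    have b1 : (-1 : ℝ) ≤ -(1 / 2) * ‖v‖ ^ 2 / 2 := by nlinarith [norm_nonneg v]
    linarith [Real.exp_neg_one_gt_d9, Real.exp_le_exp.2 b1]
  calc _ ≤ P.e₀ / 10 * (P.vr t X ^ P.μω * (P.ee t X)⁻¹ ^ k) * Real.exp (-P.Ph ε t X v) := by gcongr
    _ = P.vr t X ^ P.μω * (P.e₀ / 10 * ((P.ee t X)⁻¹ ^ k * Real.exp (-P.Ph ε t X v))) := by ring
    _ ≤ P.vr t X ^ P.μω * (P.e₀ / 10 * k.factorial) := by gcongr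
    _ ≤ _ := by
        gcongr
        linarith

/-- On the torus.  `Qp_StP`; for each stream split according to `cut ε s (Xr (y + s v)) v`.  If it
holds for some `s`, all lifts are valid (`cut_lift`) and `warm_closure` applies with `Y = Xr y`.
The rest is bounded by `warm_leak`, `Qp_StE_supp`, `vr_pow_le_om`, `om_mono`, `Gs_le_E0P`.
`cb_char`. -/
theorem warm_torus : ∀ᶠ P in 𝓕, ∀ t ∈ Icc 0 P.T₁, ∀ y v : R3,
    P.cold0 P.r true (Xr y) v + P.cold0 P.r false (Xr y) v +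
      ∫⁻ s in Ioo 0 t, Qp (P.St s (y + s • v)) (P.St s (y + s • v)) v ≤
    P.St t (y + t • v) v +
      ENNReal.ofReal (2 * P.T₁) * (ENNReal.ofReal (P.om t (y + t • v) v) * P.E0 t (y + t • v) v) := by
  classical
  filter_upwards [ev_ok, warm_closure, warm_leak] with P h hC hL t ht y v
  obtain ⟨c, hc⟩ : ∃ c, c = ENNReal.ofReal (P.om t (y + t • v) v) * P.E0 t (y + t • v) v := ⟨_, rfl⟩
  have key : ∀ ε, ∫⁻ s in Ioo 0 t, Qp (P.StE ε s (Xr (y + s • v))) (P.StE ε s (Xr (y + s • v))) v ≤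
      P.wm ε t (Xr (y + t • v)) v + ENNReal.ofReal P.T₁ * c := fun ε => by
    calc _ ≤ ∫⁻ s in Ioo 0 t, ((if P.cut ε s (Xr (y + s • v)) v then
          Qp (P.StE ε s (Xr (y + s • v))) (P.StE ε s (Xr (y + s • v))) v else 0) + c) := by
          refine setLIntegral_mono' measurableSet_Ioo fun s hs => ?_
          have hs' : s ∈ Icc 0 P.T₁ := ⟨hs.1.le, hs.2.le.trans ht.2⟩
          split_ifs with hcs
          · exact le_self_add
          rw [zero_add]
          by_cases h0 : Qp (P.StE ε s (Xr (y + s • v))) (P.StE ε s (Xr (y + s • v))) v = 0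
          · rw [h0]
            exact zero_le
          refine (hL ε s hs' _ v hcs).trans (hc ▸ mul_le_mul' (ENNReal.ofReal_le_ofReal ?_) ?_)
          · refine (h.vr_pow_le_om hs'.1 _ v ?_).trans (h.om_mono hs'.1 hs.2.le y v)
            linarith [ew1_vr h hs'.2 (h.Qp_StE_supp hs' h0).2, h.T₁_le']
          · exact (Gs_anti (by linarith [ht.1]) v).trans (h.Gs_le_E0P _ v)
      _ ≤ _ := by
          rw [lintegral_add_right _ measurable_const, setLIntegral_const, Real.volume_Ioo, sub_zero,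
            mul_comm c]
          refine add_le_add ?_ (mul_le_mul_left (ENNReal.ofReal_le_ofReal ht.2) _)
          by_cases hex : ∃ s ∈ Ioo 0 t, P.cut ε s (Xr (y + s • v)) v
          swap
          · rw [setLIntegral_congr_fun measurableSet_Ioo (g := fun _ => 0)
              fun s hs => if_neg fun hc => hex ⟨s, hs, hc⟩, lintegral_zero]
            exact zero_le
          obtain ⟨s₀, hs₀, hc₀⟩ := hex
          have hl := fun u (hu : u ∈ Icc 0 P.T₁) =>
            h.cut_lift ⟨hs₀.1.le, hs₀.2.le.trans ht.2⟩ hc₀ hu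
          rw [hl t ht]
          refine le_trans (le_of_eq ?_) (hC ε t ht (Xr y) v)
          refine setLIntegral_congr_fun measurableSet_Ioo fun s hs => ?_
          simp only [hl s ⟨hs.1.le, hs.2.le.trans ht.2⟩]
  have hf : Measurable fun p : ℝ × R3 => P.StE true p.1 (Xr (y + p.1 • v)) p.2 :=
    (P.measurable_StE true).comp
      (measurable_fst.prodMk ((measurable_Xr.comp (by fun_prop)).prodMk measurable_snd))
  have hm : Measurable fun s : ℝ =>
      Qp (P.StE true s (Xr (y + s • v))) (P.StE true s (Xr (y + s • v))) v :=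
    measurable_Qp (f := fun s : ℝ => P.StE true s (Xr (y + s • v)))
      (g := fun s : ℝ => P.StE true s (Xr (y + s • v))) hf hf measurable_const
  have e : ∫⁻ s in Ioo 0 t, Qp (P.St s (y + s • v)) (P.St s (y + s • v)) v =
      (∫⁻ s in Ioo 0 t, Qp (P.StE true s (Xr (y + s • v))) (P.StE true s (Xr (y + s • v))) v) +
      ∫⁻ s in Ioo 0 t, Qp (P.StE false s (Xr (y + s • v))) (P.StE false s (Xr (y + s • v))) v := by
    rw [← lintegral_add_left hm]
    exact setLIntegral_congr_fun measurableSet_Ioo fun s hs => h.Qp_StP hs.1.le _ v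
  rw [e, ← hc, ← h.cb_char true ht, ← h.cb_char false ht,
    ENNReal.ofReal_mul zero_le_two, ENNReal.ofReal_ofNat]
  refine (add_le_add_right (add_le_add (key true) (key false)) _).trans (le_of_eq ?_)
  simp only [Par.St, Par.StP, Par.StE]
  ring

end

end Crest.Agent.R68
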