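import Crest.Agent.R68.EB
import Crest.Agent.R68.EW1
import Crest.Agent.R68.A4

/-!
# R68 (S0091): the basic inequality for the hot part
-/

set_option autoImplicit false

namespace Crest.Agent.R68

open MeasureTheory Set Filter Crest.AnalysisR.VecCalc3 Crest.AnalysisR.PDE.Boltzmann
open scoped ENNReal _root_.Topology

noncomputable section

/-- the terms of order `z`, `α` -/
def Par.hot (P : Par) (z α : ℝ) (C : PF) : PF := fun t x v =>
  ENNReal.ofReal α * P.seed (x - t • v) v + Duh C (P.srcR (P.hx C)) t x v +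
    ENNReal.ofReal (z * P.mm t / P.C₄) * P.E0 t x v

theorem ehi_br (v : R3) : 1 ≤ br v :=
  ENNReal.one_le_ofReal.2 (le_add_of_nonneg_right (norm_nonneg _))

theorem ehi_expand {c f b g : VF} (hf : Measurable f) (hb : Measurable b) (hg : Measurable g)
    (hc : ∀ a, c a ≤ f a + b a + g a) (v : R3) :
    Qp c c v ≤ Qp f f v + (2 * Qp f b v + Qp b b v) + 2 * Qp f g v + (2 * Qp b g v + Qp g g v) := by
  have hfb : Measurable fun a => f a + b a := hf.add hb
  have hs : Measurable fun a => f a + b a + g a := hfb.add hg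
  refine (Qp_mono hc hc v).trans_eq ?_
  rw [Qp_add_left hfb hg hs, Qp_add_left hf hb hs, Qp_add_right hf hfb hg, Qp_add_right hf hf hb,
    Qp_add_right hb hfb hg, Qp_add_right hb hf hb, Qp_add_right hg hfb hg, Qp_add_right hg hf hb,
    Qp_comm hb hf, Qp_comm hg hf, Qp_comm hg hb]
  ring

theorem ehi_hx (P : Par) {C : PF} {z s : ℝ} {x v : R3} (h : C s x v ≤ P.Pe z s x v) :
    P.hx C s x v ≤ ENNReal.ofReal (z * P.mm s) * P.E0 s x v :=
  tsub_le_iff_left.2 h

theorem ehi_meas {A B : PF} (hA : Meas A) (hB : Meas B) (y v : R3) :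
    Measurable fun s : ℝ => Qp (A s (y + s • v)) (B s (y + s • v)) v := by
  have hm : Measurable fun s : ℝ => (s, y + s • v, v) := by fun_prop
  have h := Measurable.comp (hA.Qp hB) hm
  exact h

theorem ehi_int {S B g C : PF} (mS : Meas S) (mB : Meas B) (mg : Meas g)
    (hc : ∀ s x a, C s x a ≤ S s x a + B s x a + g s x a) {w : ℝ → ℝ≥0∞} (hw : ∀ s, w s ≤ 1)
    (t : ℝ) (y v : R3) :
    ∫⁻ s in Ioo 0 t, w s * Qp (C s (y + s • v)) (C s (y + s • v)) v ≤
      (∫⁻ s in Ioo 0 t, Qp (S s (y + s • v)) (S s (y + s • v)) v) +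
      (∫⁻ s in Ioo 0 t, (2 * Qp (S s (y + s • v)) (B s (y + s • v)) v +
        Qp (B s (y + s • v)) (B s (y + s • v)) v)) +
      (∫⁻ s in Ioo 0 t, w s * (2 * Qp (S s (y + s • v)) (g s (y + s • v)) v)) +
      ∫⁻ s in Ioo 0 t, (2 * Qp (B s (y + s • v)) (g s (y + s • v)) v +
        Qp (g s (y + s • v)) (g s (y + s • v)) v) := by
  have m1 := ehi_meas mS mS y v
  have m2 : Measurable fun s : ℝ => 2 * Qp (S s (y + s • v)) (B s (y + s • v)) v +
      Qp (B s (y + s • v)) (B s (y + s • v)) v :=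
    ((ehi_meas mS mB y v).const_mul 2).add (ehi_meas mB mB y v)
  have m3 : Measurable fun s : ℝ => 2 * Qp (B s (y + s • v)) (g s (y + s • v)) v +
      Qp (g s (y + s • v)) (g s (y + s • v)) v :=
    ((ehi_meas mB mg y v).const_mul 2).add (ehi_meas mg mg y v)
  have m12 : Measurable fun s : ℝ => Qp (S s (y + s • v)) (S s (y + s • v)) v +
      (2 * Qp (S s (y + s • v)) (B s (y + s • v)) v + Qp (B s (y + s • v)) (B s (y + s • v)) v) :=
    m1.add m2
  rw [← lintegral_add_left m1, ← lintegral_add_left m12, ← lintegral_add_right _ m3]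
  refine lintegral_mono fun s => ?_
  refine (mul_le_mul_right (ehi_expand (mS.slice s _) (mB.slice s _) (mg.slice s _)
    (hc s _) v) _).trans ?_
  rw [mul_add, mul_add]
  exact add_le_add (add_le_add (mul_le_of_le_one_left' (hw s)) le_rfl)
    (mul_le_of_le_one_left' (hw s))

/-- the mild formula split into its parts -/
theorem ehi_split (P : Par) {α T t : ℝ} {F C : PF} (hC : Meas C) (hM : Mild F C (P.f0 α) T)
    (ht : t ∈ Icc 0 T) (y v : R3) :
    F t (y + t • v) v ≤ (P.cold0 P.r true (Xr y) v + P.cold0 P.r false (Xr y) v +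
        ∫⁻ s in Ioo 0 t, Qp (P.St s (y + s • v)) (P.St s (y + s • v)) v) +
      (P.fB y v + ∫⁻ s in Ioo 0 t, (2 * Qp (P.St s (y + s • v)) (P.Bm s (y + s • v)) v +
        Qp (P.Bm s (y + s • v)) (P.Bm s (y + s • v)) v)) +
      (ENNReal.ofReal α * P.seed y v + Duh C (P.srcR (P.hx C)) t (y + t • v) v +
        ∫⁻ s in Ioo 0 t, (2 * Qp (P.Bm s (y + s • v)) (P.hx C s (y + s • v)) v +
          Qp (P.hx C s (y + s • v)) (P.hx C s (y + s • v)) v)) := by
  have h1 := ehi_int P.meas_St P.meas_Bm (P.meas_hx hC) (C := C) (fun _ _ _ => le_add_tsub)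
    (fun s => att_le_one (Hz C y v s t)) t y v
  rw [Duh_eq]
  rw [hM t ht y v]
  refine (add_le_add (mul_le_of_le_one_right' (att_le_one _)) h1).trans_eq ?_
  unfold Par.f0 Par.srcR
  ring

/-- Write `x = y + t v`.  With `h = hx C`: `C ≤ St + Bm + h` and `h ≤ z mm E0` on `(0,T₁)`
(`St`, `Bm` finite).  Expand `Qp C C` (`Qp_comm`), bound `att ≤ 1` except in the term
`2 Qp St h`; `warm_torus`, `B_int`, `small_terms`, `fB_le` (`om_mono`, `E0_mono`), `fB ≤ Mx`. -/
theorem HI : ∀ᶠ P in 𝓕, ∀ z ∈ Icc 0 (2 * P.a), ∀ (α : ℝ) (F C : PF), Meas C →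
    Mild F C (P.f0 α) P.T₁ → (∀ s ∈ Ioo 0 P.T₁, ∀ x v, C s x v ≤ P.Pe z s x v) →
    ∀ t ∈ Icc 0 P.T₁, ∀ x v,
    F t x v ≤ P.St t x v + P.Bm t x v + P.hot z α C t x v ∧
    F t x v ≤ P.St t x v + (Mx v + ENNReal.ofReal (2 * P.C₃ * P.T₁) * (br v * P.E0 t x v) +
      ENNReal.ofReal (3 * P.C₃ * √P.T₁) * Gs (1 / 2 - t) v) + P.hot z α C t x v := by
  filter_upwards [ev_ok, warm_torus, B_int, small_terms] with P h hw hB hs z hz α F C hC hM hle t ht
    x v
  obtain ⟨y, rfl⟩ : ∃ y, x = y + t • v := ⟨x - t • v, (sub_add_cancel _ _).symm⟩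
  have h1 := ehi_split P hC hM ht y v
  have h2 := hw t ht y v
  obtain ⟨h3, h4⟩ := hB t ht y v
  have h5 := hs z hz (P.hx C) (fun s hs x v => ehi_hx P (hle s hs x v)) t ht y v
  have hT := h.T₁_pos
  have hT' := h.T₁_le'
  have hom := h.om_nonneg ht.1 (y + t • v) v
  have h6 : ENNReal.ofReal α * P.seed y v + Duh C (P.srcR (P.hx C)) t (y + t • v) v +
      ∫⁻ s in Ioo 0 t, (2 * Qp (P.Bm s (y + s • v)) (P.hx C s (y + s • v)) v +
        Qp (P.hx C s (y + s • v)) (P.hx C s (y + s • v)) v) ≤ P.hot z α C t (y + t • v) v := by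
    rw [Par.hot, add_sub_cancel_right]
    exact add_le_add le_rfl h5
  constructor
  · have h7 : P.fB y v ≤ ENNReal.ofReal (P.om t (y + t • v) v) * P.E0 t (y + t • v) v := by
      have a1 := h.om_mono le_rfl ht.1 y v
      have a2 := h.E0_mono le_rfl ht.1 ht.2 y v
      rw [zero_smul, add_zero] at a1 a2
      exact (h.fB_le y v).trans (mul_le_mul' (ENNReal.ofReal_le_ofReal a1) a2)
    refine h1.trans (add_le_add ((add_le_add h2 (add_le_add h7 h3)).trans ?_) h6)
    rw [add_assoc]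
    refine add_le_add le_rfl ?_
    rw [Par.Bm, ← mul_assoc, ← mul_assoc, ← add_mul, ← add_mul]
    refine mul_le_mul_left ?_ _
    generalize P.om t (y + t • v) v = o at hom
    rw [← ENNReal.ofReal_ofNat 2,
      ← ENNReal.ofReal_mul (by linarith), ← ENNReal.ofReal_mul (by linarith),
      ← ENNReal.ofReal_add hom (by linarith), ← ENNReal.ofReal_add (by positivity) (by linarith)]
    exact ENNReal.ofReal_le_ofReal (by nlinarith)
  · have h7 : P.fB y v ≤ Mx v := by
      unfold Qar.fB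
      split_ifs
      · exact le_rfl
      · exact zero_le
    have hC3 := h.C₃_ge'
    have h8 : ENNReal.ofReal (2 * P.T₁) *
        (ENNReal.ofReal (P.om t (y + t • v) v) * P.E0 t (y + t • v) v) ≤
        ENNReal.ofReal (P.C₃ * P.T₁) * (br v * P.E0 t (y + t • v) v) :=
      mul_le_mul' (ENNReal.ofReal_le_ofReal (by nlinarith)) (mul_le_mul_left
        ((ENNReal.ofReal_le_one.2 (h.om_le_one _ _ _)).trans (ehi_br v)) _)
    refine h1.trans (add_le_add ((add_le_add (h2.trans (add_le_add le_rfl h8))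
      (add_le_add h7 h4)).trans_eq ?_) h6)
    rw [show 2 * P.C₃ * P.T₁ = P.C₃ * P.T₁ + P.C₃ * P.T₁ by ring,
      ENNReal.ofReal_add (by positivity) (by positivity)]
    ring

/-- `NL`, `L/mx ≤ 1/th`, `E0_mono` -/
theorem R_le : ∀ᶠ P in 𝓕, ∀ (F g : PF) (c : ℝ≥0∞), Meas g → ∀ t ∈ Icc 0 P.T₁,
    (∀ s ∈ Ioo 0 t, ∀ x v, g s x v ≤ c * (ENNReal.ofReal (P.mm s) * P.E0 s x v)) → ∀ x v,
    br v * Duh F (P.srcR g) t x v ≤
      c * (∫⁻ s in Ioo 0 t, ENNReal.ofReal (P.N * (P.mm s / P.th s))) * P.E0 t x v := by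
  filter_upwards [ev_ok, NL] with P h hNL F g c hg t ht hle x v
  obtain ⟨y, rfl⟩ : ∃ y, x = y + t • v := ⟨x - t • v, (sub_add_cancel _ _).symm⟩
  have m1 : Measurable fun s => ENNReal.ofReal (P.N * (P.mm s / P.th s)) :=
    ((P.measurable_mm.div P.measurable_th).const_mul _).ennreal_ofReal
  rw [Duh_eq, ← lintegral_const_mul' _ _ (show br v ≠ ⊤ from ENNReal.ofReal_ne_top),
    ← lintegral_const_mul _ m1, ← lintegral_mul_const _ (m1.const_mul c)]
  refine setLIntegral_mono' measurableSet_Ioo fun s hs => ?_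
  have hs' : s ∈ Icc 0 P.T₁ := ⟨hs.1.le, hs.2.le.trans ht.2⟩
  have h1 := hNL s hs' (Xr (y + s • v)) (g s (y + s • v)) (hg.slice _ _) v
    (c * ENNReal.ofReal (P.mm s)) fun a => by
      rw [mul_assoc]
      refine (hle s hs _ a).trans (mul_le_mul_right (mul_le_mul_right ?_ _) _)
      exact le_mul_of_one_le_left' (ENNReal.one_le_ofReal.2 (Real.one_le_exp (by positivity)))
  refine (mul_le_mul_right (mul_le_of_le_one_left' (att_le_one _)) _).trans (h1.trans ?_)
  refine mul_le_mul' ?_ (h.E0_mono hs.1.le hs.2.le ht.2 y v)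
  have hm := h.mm_pos hs.1.le
  have hth := h.th_pos hs.1.le
  have hL := h.L_pos
  rw [mul_assoc, ← ENNReal.ofReal_mul hm.le]
  refine mul_le_mul_right (ENNReal.ofReal_le_ofReal ?_) _
  have h2 : P.N * P.L / P.mx s (Xr (y + s • v)) ≤ P.N * P.L / (P.L * P.th s) :=
    div_le_div_of_nonneg_left (by positivity) (by positivity) (le_max_right _ _)
  refine (mul_le_mul_of_nonneg_left h2 hm.le).trans_eq ?_
  field_simp

/-- `R_le`, `int_mm_early`, `int_mm_late`, `seed_le`, `mm_zero_le`, `mm_late`; the seed vanishes for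
`‖v‖ > V` -/
theorem E12 : ∀ᶠ P in 𝓕, ∀ α ∈ Icc 0 (3 * P.a * P.mm 0), ∀ C : PF, Meas C →
    (∀ s ∈ Ioo 0 P.T₁, ∀ x v, C s x v ≤ P.Pe (2 * P.a) s x v) → ∀ t ∈ Icc 0 P.T₁, ∀ x v,
    (t ≤ P.T₀ → P.V₁ < ‖v‖ →
      P.hot (2 * P.a) α C t x v ≤ ENNReal.ofReal (P.a / 2 * P.mm t) * P.E0 t x v) ∧
    (P.T₀ < t → P.hot (2 * P.a) α C t x v ≤ ENNReal.ofReal (2 * P.a * P.mm t) * P.E0 t x v) := by
  filter_upwards [ev_ok, R_le] with P h hR α hα C hC hle t ht x v
  have ha := h.a_pos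
  have hm := h.mm_pos ht.1
  have hN := h.N_ge
  have hC4 : 100 ≤ P.C₄ := h.C₃_ge'.trans h.C₄_ge'
  have h1 := hR C (P.hx C) (ENNReal.ofReal (2 * P.a)) (P.meas_hx hC) t ht (fun s hs x v => by
    rw [← mul_assoc, ← ENNReal.ofReal_mul (by positivity)]
    exact ehi_hx P (hle s ⟨hs.1, hs.2.trans_le ht.2⟩ x v)) x v
  have h2 : 2 * P.a * P.mm t / P.C₄ ≤ P.a * P.mm t / 50 := by
    refine (div_le_div_of_nonneg_left (by positivity) (by norm_num) hC4).trans_eq (by ring)
  have ham := mul_pos ha hm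
  refine ⟨fun h3 h4 => ?_, fun h3 => ?_⟩
  · have h5 : P.seed (x - t • v) v = 0 := by
      refine if_neg fun h5 => ?_
      have h6 : ‖v‖ ≤ P.V := h5.2.2.1
      unfold P14.V₁ at h4
      linarith [h.V_le]
    have h6 : ∫⁻ s in Ioo 0 t, ENNReal.ofReal (P.N * (P.mm s / P.th s)) ≤
        ENNReal.ofReal (P.N * P.mm t) := by
      simp only [ENNReal.ofReal_mul (Nat.cast_nonneg (α := ℝ) P.N)]
      rw [lintegral_const_mul' _ _ ENNReal.ofReal_ne_top]
      exact mul_le_mul_right (h.int_mm_early ht.1 h3) _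
    have h7 : ENNReal.ofReal (16 * P.N) * Duh C (P.srcR (P.hx C)) t x v ≤
        ENNReal.ofReal (16 * P.N) * (ENNReal.ofReal (P.a * P.mm t / 8) * P.E0 t x v) := by
      refine (mul_le_mul_left (ENNReal.ofReal_le_ofReal
        (h4.le.trans (le_add_of_nonneg_left zero_le_one))) _).trans (h1.trans ?_)
      rw [← mul_assoc]
      refine mul_le_mul_left ((mul_le_mul_right h6 _).trans_eq ?_) _
      rw [← ENNReal.ofReal_mul (by positivity), ← ENNReal.ofReal_mul (by positivity)]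
      congr 1
      ring
    rw [ENNReal.mul_le_mul_iff_right (ENNReal.ofReal_pos.2 (by positivity)).ne'
      ENNReal.ofReal_ne_top] at h7
    rw [Par.hot, h5, mul_zero, zero_add]
    refine (add_le_add h7 (mul_le_mul_left (ENNReal.ofReal_le_ofReal h2) _)).trans ?_
    rw [← add_mul, ← ENNReal.ofReal_add (by positivity) (by positivity)]
    exact mul_le_mul_left (ENNReal.ofReal_le_ofReal (by linarith)) _
  · have h5 : ENNReal.ofReal α * P.seed (x - t • v) v ≤
        ENNReal.ofReal (P.a * P.mm t) * P.E0 t x v := by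
      have a2 := h.E0_mono le_rfl ht.1 ht.2 (x - t • v) v
      rw [zero_smul, add_zero, sub_add_cancel] at a2
      refine mul_le_mul' (ENNReal.ofReal_le_ofReal (hα.2.trans ?_)) ((h.seed_le _ v).trans a2)
      have a3 := mul_le_mul_of_nonneg_left h.mm_zero_le ha.le
      have a4 := mul_le_mul_of_nonneg_left (show 3 ≤ P.mm t by linarith [h.mm_late h3]) ha.le
      linarith
    have h7 : Duh C (P.srcR (P.hx C)) t x v ≤ ENNReal.ofReal (P.a * P.mm t / 2) * P.E0 t x v := by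
      refine (le_mul_of_one_le_left' (ehi_br v)).trans (h1.trans (mul_le_mul_left
        ((mul_le_mul_right (h.int_mm_late h3) _).trans_eq ?_) _))
      rw [← ENNReal.ofReal_mul (by positivity)]
      congr 1
      ring
    refine (add_le_add (add_le_add h5 h7) (mul_le_mul_left (ENNReal.ofReal_le_ofReal h2) _)).trans ?_
    rw [← add_mul, ← add_mul, ← ENNReal.ofReal_add (by positivity) (by positivity),
      ← ENNReal.ofReal_add (by positivity) (by positivity)]
    exact mul_le_mul_left (ENNReal.ofReal_le_ofReal (by linarith)) _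

theorem quiet_le : ∀ᶠ P in 𝓕, ∀ F C : PF, Meas C → Mild F C (P.f0 0) P.T₁ →
    (∀ s ∈ Ioo 0 P.T₁, ∀ x v, C s x v ≤ P.Pe 0 s x v) → ∀ t ∈ Icc 0 P.T₁, ∀ x v,
    F t x v ≤ P.Pe 0 t x v := by
  filter_upwards [ev_ok, HI, R_le] with P h hHI hR F C hC hM hle t ht x v
  have h1 := (hHI 0 ⟨le_rfl, by linarith [h.a_pos]⟩ 0 F C hC hM hle t ht x v).1
  have h2 := hR C (P.hx C) 0 (P.meas_hx hC) t ht (fun s hs x v => by
    have := ehi_hx P (hle s ⟨hs.1, hs.2.trans_le ht.2⟩ x v)
    rw [zero_mul, ENNReal.ofReal_zero, zero_mul] at this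
    rwa [zero_mul]) x v
  rw [zero_mul, zero_mul] at h2
  have h3 := (le_mul_of_one_le_left' (ehi_br v)).trans h2
  refine h1.trans (add_le_add le_rfl ?_)
  rw [Par.hot, le_antisymm h3 zero_le]
  simp

end

end Crest.Agent.R68
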