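import Crest.Agent.R68.EHI
import Crest.Agent.R68.EBound

/-!
# R68 (S0091): the state at time `T₁`
-/

set_option autoImplicit false

namespace Crest.Agent.R68

open MeasureTheory Set Filter Crest.AnalysisR.VecCalc3 Crest.AnalysisR.PDE.Boltzmann
open scoped ENNReal _root_.Topology

noncomputable section

theorem eint_O {P : Par} (h : P.Ok) (ε : Bool) {t : ℝ} (ht : 0 ≤ t) (X : ℂ) (v : R3) :
    br v * P.Omn (P.wn ε t X v) ≤ 4 * P.Omn (P.wn ε t X v) := by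
  by_cases h0 : P.Omn (P.wn ε t X v) = 0
  · rw [h0, mul_zero, mul_zero]
  · have h1 : P.wn ε t X v ≤ 1 := not_lt.1 fun h1 => h0 (h.Omn_zero h1)
    have h2 := h.norm_Uf_le ε ht X
    have h3 := norm_sub_norm_le v (P.Uf ε t X)
    unfold P11.wn at h1
    refine mul_le_mul_left ?_ _
    rw [br, ← ENNReal.ofReal_ofNat 4]
    exact ENNReal.ofReal_le_ofReal (by linarith)

theorem eint_num {s η K C e : ℝ} (hs : 0 < s) (hη : η ≤ 1) (hK : 0 ≤ K) (hC : 100 ≤ C)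
    (h1 : s * (C * (6 * K + 30)) ≤ η) (h2 : e ≤ s / 2) :
    2 * C * s ^ 2 * 4 + e ≤ s ∧ 2 * C * s ^ 2 * K + 3 * C * s + e ≤ η := by
  have hC0 : 0 < C := by linarith
  have a1 : 0 ≤ s * C * K := by positivity
  have a2 : s * C * 30 ≤ η := by nlinarith
  have a3 : s * C * K * 6 ≤ η := by nlinarith [mul_pos hs hC0]
  have a4 : s ≤ 1 := by nlinarith
  have a5 : s * 100 ≤ s * C := by nlinarith
  constructor
  · nlinarith [mul_pos hs hs]
  · have : s * (s * C * K) ≤ s * C * K := by nlinarith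
    nlinarith

/-- second form of `HI` with `C = F`, `E12` (`T₀ < T₁`), `a_mm_le`, `St_le`, `Ew_le_Xl`; on the
support of `Ew`, `br ≤ 4` and `8 C₃ T₁ + e₀ ≤ √T₁`; `br G_{1/2-T₁} ≤ c G_{1/4}` (`br_pow_le`). -/
theorem interface_up : ∀ᶠ P in 𝓕, ∀ α F, P.Sol α F → ∀ x v,
    F P.T₁ x v ≤ Mx v + (P.Sg P.T₁ x v + ENNReal.ofReal P.η * Gs (1 / 4) v) := by
  obtain ⟨c, hc, hbr⟩ := br_pow_le 1 (θ := 1 / 5) (by norm_num)
  filter_upwards [ev_ok, HI, E12, a_mm_le,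
    le_T1 fun Q => (Q.η / (Q.C₃ * (6 * c.toReal + 30))) ^ 2, ev_e₀ fun Q => √Q.T₁ / 2]
    with P h hH hE ha hT he α F hF x v
  have hT0 := h.T₁_pos
  have hT1 := h.T₁_le'
  have ht : P.T₁ ∈ Icc 0 P.T₁ := ⟨hT0.le, le_rfl⟩
  have hC := h.C₃_ge'
  have hη := h.η_pos
  have hK : 0 ≤ c.toReal := ENNReal.toReal_nonneg
  have hs : 0 < √P.T₁ := Real.sqrt_pos.2 hT0
  have hD : 0 < P.C₃ * (6 * c.toReal + 30) := by positivity
  have n1 : √P.T₁ * (P.C₃ * (6 * c.toReal + 30)) ≤ P.η := by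
    rw [← le_div_iff₀ hD]
    exact Real.sqrt_le_iff.2 ⟨by positivity, hT.2 (by positivity)⟩
  obtain ⟨n2, n3⟩ := eint_num hs h.η_le hK hC n1 (he (by positivity))
  rw [Real.sq_sqrt hT0.le] at n2 n3
  have hle : ∀ s ∈ Ioo 0 P.T₁, ∀ x v, F s x v ≤ P.Pe (2 * P.a) s x v :=
    fun s hs => hF.le s ⟨hs.1.le, hs.2.le⟩
  have hap := h.a_pos
  have h1 := (hH (2 * P.a) ⟨by positivity, le_rfl⟩ α F F hF.meas hF.mild hle _ ht x v).2
  have hT01 : P.T₀ < P.T₁ := by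
    have b1 := h.r₀_le
    have b2 := h.r₀_pos
    have b3 := h.C₄_ge'
    have : P.T₀ < P.r₀ := by
      unfold Qar.T₀
      rw [div_lt_iff₀ (by linarith)]
      nlinarith
    linarith
  have h2 := (hE α ⟨hF.α_nonneg, hF.α_le⟩ F hF.meas hle _ ht x v).2 hT01
  have h3 : ENNReal.ofReal (2 * P.a * P.mm P.T₁) ≤ ENNReal.ofReal P.e₀ := by
    refine ENNReal.ofReal_le_ofReal ?_
    have := ha _ ht
    have := mul_pos h.a_pos (h.mm_pos hT0.le)
    nlinarith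
  have hG1 : Gs (1 / 2 - P.T₁) v ≤ Gs (1 / 4) v := Gs_anti (by linarith) v
  have hG2 : Gs (1 / 2 - P.T₁) v ≤ 1 := Gs_le_one (by linarith) v
  have hG3 : br v * Gs (1 / 2 - P.T₁) v ≤ ENNReal.ofReal c.toReal * Gs (1 / 4) v := by
    rw [ENNReal.ofReal_toReal hc]
    calc br v * Gs (1 / 2 - P.T₁) v ≤ br v * Gs (1 / 5 + 1 / 4) v :=
          mul_le_mul_right (Gs_anti (by linarith) v) _
      _ = br v ^ 1 * Gs (1 / 5) v * Gs (1 / 4) v := by rw [Gs_add, pow_one, mul_assoc]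
      _ ≤ _ := mul_le_mul_left (hbr v) _
  have e3 := h.Ew_le_Xl true ht x v
  have e4 := h.Ew_le_Xl false ht x v
  have o1 := eint_O h true hT0.le (Xl P.T₁ x v) v
  have o2 := eint_O h false hT0.le (Xl P.T₁ x v) v
  have hS := h.St_le ht x v
  unfold Par.Sg
  set O₁ := P.Omn (P.wn true P.T₁ (Xl P.T₁ x v) v)
  set O₂ := P.Omn (P.wn false P.T₁ (Xl P.T₁ x v) v)
  have hE0 : P.E0 P.T₁ x v ≤ (1 + O₁ + O₂) * Gs (1 / 2 - P.T₁) v := by
    unfold Par.E0 Par.E0P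
    gcongr
  have k1 : P.E0 P.T₁ x v ≤ Gs (1 / 4) v + (O₁ + O₂) := by
    refine hE0.trans ?_
    rw [add_assoc, add_mul, one_mul]
    exact add_le_add hG1 (mul_le_of_le_one_right' hG2)
  have k2 : br v * P.E0 P.T₁ x v ≤ ENNReal.ofReal c.toReal * Gs (1 / 4) v + 4 * (O₁ + O₂) := by
    refine (mul_le_mul_right hE0 _).trans ?_
    calc br v * ((1 + O₁ + O₂) * Gs (1 / 2 - P.T₁) v) =
          br v * Gs (1 / 2 - P.T₁) v + (br v * O₁ + br v * O₂) * Gs (1 / 2 - P.T₁) v := by ring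
      _ ≤ ENNReal.ofReal c.toReal * Gs (1 / 4) v + (4 * O₁ + 4 * O₂) * 1 := by gcongr
      _ = _ := by ring
  have he0 := h.e₀_pos
  have m1 : ENNReal.ofReal (2 * P.C₃ * P.T₁) * 4 + ENNReal.ofReal P.e₀ ≤ ENNReal.ofReal √P.T₁ := by
    rw [← ENNReal.ofReal_ofNat 4, ← ENNReal.ofReal_mul (by positivity),
      ← ENNReal.ofReal_add (by positivity) he0.le]
    exact ENNReal.ofReal_le_ofReal n2
  have m2 : ENNReal.ofReal (2 * P.C₃ * P.T₁) * ENNReal.ofReal c.toReal +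
      ENNReal.ofReal (3 * P.C₃ * √P.T₁) + ENNReal.ofReal P.e₀ ≤ ENNReal.ofReal P.η := by
    rw [← ENNReal.ofReal_mul (by positivity), ← ENNReal.ofReal_add (by positivity) (by positivity),
      ← ENNReal.ofReal_add (by positivity) he0.le]
    exact ENNReal.ofReal_le_ofReal n3
  refine h1.trans ?_
  generalize (if ‖v‖ ≤ 4 ∧ ‖Yt P.T₁ x v‖ ≤ P.RW then
      ENNReal.ofReal (5 * (P.A + 1) * (‖Yt P.T₁ x v‖ + P.r) ^ (-(103 / 100) : ℝ)) else 0) = S
    at hS ⊢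
  calc _ ≤ S + (Mx v + ENNReal.ofReal (2 * P.C₃ * P.T₁) *
          (ENNReal.ofReal c.toReal * Gs (1 / 4) v + 4 * (O₁ + O₂)) +
        ENNReal.ofReal (3 * P.C₃ * √P.T₁) * Gs (1 / 4) v) +
        ENNReal.ofReal P.e₀ * (Gs (1 / 4) v + (O₁ + O₂)) :=
        add_le_add (add_le_add hS (add_le_add (add_le_add le_rfl (mul_le_mul_right k2 _))
          (mul_le_mul_right hG1 _))) (h2.trans (mul_le_mul' h3 k1))
    _ = Mx v + (S + (ENNReal.ofReal (2 * P.C₃ * P.T₁) * 4 + ENNReal.ofReal P.e₀) * (O₁ + O₂) + 0 +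
        (ENNReal.ofReal (2 * P.C₃ * P.T₁) * ENNReal.ofReal c.toReal +
          ENNReal.ofReal (3 * P.C₃ * √P.T₁) + ENNReal.ofReal P.e₀) * Gs (1 / 4) v) := by ring
    _ ≤ _ := by
        gcongr
        exact zero_le

/-- `x = y + T₁ v`.  If `‖v‖ ≥ R`: `M ≤ exp(-3R²/8) G_{1/4}`.  If `‖Xr y‖ < r₁`: third term of `Sg`.
Otherwise `F ≥ M att` and along the characteristic `‖Xr (y + s v)‖ ≥ r₁ - R T₁ > 3T₁`
(`norm_Yt_le`), so `St` vanishes (`StP_supp`), `Hz ≤ 3 C₃ (1 + R) T₁ ≤ η` (`Pe_le`, `Qp_E0`),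
`one_le_att_add`. -/
theorem interface_low : ∀ᶠ P in 𝓕, ∀ α F, P.Sol α F → ∀ x v,
    Mx v ≤ F P.T₁ x v + (P.Sg P.T₁ x v + ENNReal.ofReal P.η * Gs (1 / 4) v) := by
  filter_upwards [ev_ok, Pe_le, Qp_E0, big_R fun Q => 3 / Q.η,
    le_T1 fun Q => Q.η / (3 * Q.C₃ * (1 + Q.R))] with P h hPe hQ hR hT α F hF x v
  have hT0 := h.T₁_pos
  have hη := h.η_pos
  have hR1 := h.R_ge
  have hC := h.C₃_ge'
  have ht : P.T₁ ∈ Icc 0 P.T₁ := ⟨hT0.le, le_rfl⟩
  obtain ⟨y, rfl⟩ : ∃ y, x = y + P.T₁ • v := ⟨x - P.T₁ • v, (sub_add_cancel _ _).symm⟩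
  by_cases hv : ‖v‖ < P.R
  swap
  · refine le_trans ?_ (le_add_self.trans le_add_self)
    push Not at hv
    have a1 : Gs (3 / 4) v ≤ ENNReal.ofReal P.η := by
      refine ENNReal.ofReal_le_ofReal ?_
      have b1 : 3 / P.η ≤ ‖v‖ := le_trans hR hv
      have b2 : 1 / P.η ≤ 3 / 4 * ‖v‖ ^ 2 / 2 := by
        have : 3 / P.η = 3 * (1 / P.η) := by ring
        have : 0 < 1 / P.η := by positivity
        nlinarith
      have b3 := Real.add_one_le_exp (1 / P.η)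
      calc Real.exp (-(3 / 4) * ‖v‖ ^ 2 / 2) ≤ Real.exp (-(1 / P.η)) :=
            Real.exp_le_exp.2 (by linarith)
        _ ≤ P.η := by
            rw [Real.exp_neg, inv_le_comm₀ (Real.exp_pos _) hη, inv_eq_one_div]
            linarith
    calc Mx v ≤ Gs (3 / 4 + 1 / 4) v := Mx_le_Gs (by norm_num) v
      _ = Gs (3 / 4) v * Gs (1 / 4) v := Gs_add _ _ _
      _ ≤ _ := mul_le_mul_left a1 _
  by_cases hy : ‖Xr y‖ < P.r₁
  · refine le_trans ?_ (le_self_add.trans le_add_self)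
    unfold Par.Sg
    rw [Yt_char, if_pos hy]
    exact le_add_self
  push Not at hy
  have hfB : P.fB y v = Mx v := if_pos ⟨hv, hy⟩
  have h1 : Mx v * att (Hz F y v 0 P.T₁) ≤ F P.T₁ (y + P.T₁ • v) v := by
    rw [hF.mild _ ht y v]
    refine le_trans (mul_le_mul_left ?_ _) le_self_add
    rw [← hfB]
    exact le_add_self.trans le_self_add
  have h2 : ∀ s ∈ Ioo 0 P.T₁, Nu (F s (y + s • v)) v ≤ ENNReal.ofReal (3 * P.C₃ * (1 + P.R)) := by
    intro s hs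
    have hs' : s ∈ Icc 0 P.T₁ := ⟨hs.1.le, hs.2.le⟩
    have a1 : ∀ a, P.St s (y + s • v) a = 0 := by
      intro a
      by_contra hne
      have b1 := (h.StP_supp hs' hne).2
      have b2 := norm_Yt_le hs.1.le (y + s • v) v
      rw [Yt_char] at b2
      have b3 : s * ‖pr v‖ ≤ P.T₁ * P.R :=
        mul_le_mul hs.2.le ((norm_pr_le v).trans hv.le) (norm_nonneg _) hT0.le
      have b4 := h.T₁_le
      rw [le_div_iff₀ (by positivity)] at b4
      nlinarith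
    have a2 : ∀ a, F s (y + s • v) a ≤ 3 * P.E0P s (Xr (y + s • v)) a := by
      intro a
      have := (hF.le s hs' (y + s • v) a).trans (hPe s hs' _ a)
      rwa [a1, zero_add] at this
    refine (Nu_mono a2 v).trans ?_
    rw [Nu_mul (P.mE0P _ _)]
    refine (mul_le_mul_right (hQ s hs' _ v).2 _).trans ?_
    rw [br, ← ENNReal.ofReal_ofNat 3, ← ENNReal.ofReal_mul (by positivity),
      ← ENNReal.ofReal_mul (by positivity)]
    refine ENNReal.ofReal_le_ofReal ?_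
    nlinarith
  have h3 : Hz F y v 0 P.T₁ ≤ ENNReal.ofReal P.η := by
    calc Hz F y v 0 P.T₁ ≤ ∫⁻ _ in Ioo 0 P.T₁, ENNReal.ofReal (3 * P.C₃ * (1 + P.R)) :=
          setLIntegral_mono' measurableSet_Ioo h2
      _ = ENNReal.ofReal (3 * P.C₃ * (1 + P.R) * P.T₁) := by
          rw [setLIntegral_const, Real.volume_Ioo, sub_zero, ← ENNReal.ofReal_mul (by positivity)]
      _ ≤ _ := by
          refine ENNReal.ofReal_le_ofReal ?_
          have := hT.2 (by positivity)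
          rw [le_div_iff₀ (by positivity)] at this
          linarith
  calc Mx v = Mx v * 1 := (mul_one _).symm
    _ ≤ Mx v * (att (Hz F y v 0 P.T₁) + Hz F y v 0 P.T₁) := mul_le_mul_right (one_le_att_add _) _
    _ = Mx v * att (Hz F y v 0 P.T₁) + Hz F y v 0 P.T₁ * Mx v := by ring
    _ ≤ _ := add_le_add h1 ((mul_le_mul' h3 (Mx_le_Gs (by norm_num) v)).trans le_add_self)

end

end Crest.Agent.R68
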