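import Crest.Agent.R68.ENL
import Crest.Agent.R68.EDens2

/-!
# R68 (S0091): splitting the kernel into a small and a bounded part
-/

set_option autoImplicit false

namespace Crest.Agent.R68

open MeasureTheory Set Filter Crest.AnalysisR.VecCalc3 Crest.AnalysisR.PDE.Boltzmann
open scoped ENNReal _root_.Topology

noncomputable section

private theorem ek0_th {P : Par} (h : P.Ok) {s : ℝ} (hs : s ∈ Icc 0 P.T₀) :
    s ≤ P.T' ∧ s ≤ P.T₁ ∧ P.th s ≤ P.r₀ := by
  have h1 := hs.2.trans h.T₀_le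
  have a1 := h.th_T' h1
  have a2 : (1 : ℝ) ≤ P.N ^ 4 := one_le_pow₀ (by linarith [h.N_ge])
  have a3 := h.th_pos hs.1
  exact ⟨h1, h1.trans h.T'_le, by nlinarith⟩

private theorem ek0_e {P : Par} (h : P.Ok) {s : ℝ} (hs : 0 ≤ s) (X : ℂ) :
    2 * (P.e₀ / P.vr s X) ≤ 1 / (P.C₃ * P.th s) := by
  have hL := h.L_pos
  have hC := h.C₃_ge'
  have hth := h.th_pos hs
  have he := h.e₀_pos
  have hm : (1 : ℝ) ≤ P.m := by exact_mod_cast h.m_ge
  have h1 : P.L * P.th s ≤ P.vr s X := (le_max_right _ _).trans (h.mx_le_vr hs X)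
  have h2 := h.e₀_le_L
  rw [le_div_iff₀ (by positivity)] at h2
  have h3 : 2 * P.e₀ * P.C₃ ≤ P.L := by
    refine le_trans ?_ h2
    have : 2 * P.C₃ ≤ 100 * P.C₃ ^ 2 * P.m := by nlinarith
    nlinarith
  rw [← mul_div_assoc, div_le_div_iff₀ (h.vr_pos hs X) (by positivity)]
  nlinarith

private theorem ek0_N {P : Par} (h : P.Ok) {s : ℝ} (hs : 0 ≤ s) (X : ℂ) {D : ℝ≥0∞}
    (hD : D ≤ ENNReal.ofReal (1 / (P.C₃ * P.th s)) + ENNReal.ofReal (P.e₀ / P.vr s X)) :
    P.N * (D + ENNReal.ofReal (P.e₀ / P.vr s X)) ≤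
      ENNReal.ofReal (1 / (P.N ^ 3 * P.th s) / 4) := by
  have hC := h.C₃_ge'
  have hth := h.th_pos hs
  have he := h.e₀_pos
  have hvr := h.vr_pos hs X
  have hN := h.N_ge
  refine (mul_le_mul' le_rfl (add_le_add hD le_rfl)).trans ?_
  rw [← ENNReal.ofReal_add (by positivity) (by positivity),
    ← ENNReal.ofReal_add (by positivity) (by positivity), ← ENNReal.ofReal_natCast,
    ← ENNReal.ofReal_mul (by positivity)]
  refine ENNReal.ofReal_le_ofReal ?_
  calc _ ≤ P.N * (2 * (1 / (P.C₃ * P.th s))) :=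
        mul_le_mul_of_nonneg_left (by linarith [ek0_e h hs X]) (by positivity)
    _ ≤ P.N * (2 * (1 / (100 * P.N ^ 4 * P.th s))) := by
        have := h.C₃_ge
        gcongr
    _ = 1 / (P.N ^ 3 * P.th s) / 50 := by field_simp; norm_num
    _ ≤ _ := div_le_div_of_nonneg_left (by positivity) (by norm_num) (by norm_num)

private theorem ek0_big {P : Par} (h : P.Ok) (ε : Bool) {s : ℝ} (hs : 0 ≤ s) (X : ℂ) {g : VF}
    (hg : Measurable g) {v : R3} {κ : ℝ} (hκ : 0 < κ) (h0 : ∀ a, g a ≠ 0 → κ ≤ ‖a - v‖) :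
    2 * Qp (fun a => if ‖X - s • pr a‖ ≤ P.th s ^ 2 then 0 else P.cb ε s X a) g v ≤
      ENNReal.ofReal (16 * P.A * κ⁻¹ * P.th s ^ (-(206 / 100) : ℝ)) * ∫⁻ a, g a := by
  have hm : Measurable fun a => if ‖X - s • pr a‖ ≤ P.th s ^ 2 then 0 else P.cb ε s X a :=
    Measurable.ite (measurableSet_le (by fun_prop) measurable_const) measurable_const
      (P.mcb ε s X)
  have hA : 0 ≤ P.A := by linarith [h.A_ge]
  have hth := h.th_pos hs
  rw [Qp_comm hm hg]
  refine (enl_plane hg hm v _ fun a _ J _ => h.plane_big ε hs X v J).trans ?_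
  have h1 : As g v ≤ ENNReal.ofReal κ⁻¹ * ∫⁻ a, g a := by
    rw [As, ← lintegral_const_mul _ hg]
    refine lintegral_mono fun a => ?_
    by_cases ha : g a = 0
    · simp [ha]
    rw [mul_comm, ENNReal.ofReal_inv_of_pos hκ, norm_sub_rev]
    exact mul_le_mul' (ENNReal.inv_le_inv.2 (ENNReal.ofReal_le_ofReal (h0 a ha))) le_rfl
  refine (mul_le_mul' le_rfl h1).trans (le_of_eq ?_)
  rw [← mul_assoc, ← ENNReal.ofReal_ofNat 4, ← ENNReal.ofReal_mul (by norm_num),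
    ← ENNReal.ofReal_mul (by positivity)]
  congr 2
  ring

/-- Split `g` according to `‖a - v‖ ≤ κ = N^{-10}`: `NL_near` gives `N⁻⁴/th`.  For the rest split each
stream into `wm`, small labels, large labels.  `NL_f` with `dens_wm_le`, `dens_small` (each
`≤ N (1/(C₃ th) + 2e₀/(L th))`, `C₃ ≥ 100 N⁴`).  Large labels: `Qp_comm`, `Qp_le_plane` with `g`
first, `‖v - a‖⁻¹ ≤ N^{10}`, `plane_big`: in total `32 A N^{10} th^{-2.06} ≤ th^{-5/2}` as
`th ≤ r₀`. -/
theorem K0 : ∀ᶠ P in 𝓕, ∀ s ∈ Icc 0 P.T₀, ∀ X, ∀ g : VF, Measurable g → ∀ c : ℝ≥0∞,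
    (∀ a, g a ≤ c * P.E0P s X a) → ∀ v, 2 * Qp (P.StP s X) g v ≤
      c * ENNReal.ofReal (1 / (P.N ^ 3 * P.th s)) * P.E0P s X v +
        ENNReal.ofReal (P.th s ^ (-(5 / 2) : ℝ)) * ∫⁻ a, g a := by
  filter_upwards [ev_ok, NL_near, NL_f, dens_wm_le, dens_small,
    small_r0 (fun Q => 32 * Q.A * Q.N ^ 10) (c := 44 / 100) (by norm_num)]
    with P h hnear hf hwm hsm hs1 s hs X g hg c hc v
  obtain ⟨t1, t2, t3⟩ := ek0_th h hs
  have hs' : s ∈ Icc 0 P.T₁ := ⟨hs.1, t2⟩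
  have hN := h.N_ge
  have hN0 : (0 : ℝ) < P.N := by linarith
  have hth := h.th_pos hs.1
  have hA : 0 ≤ P.A := by linarith [h.A_ge]
  set κ : ℝ := ((P.N : ℝ) ^ 10)⁻¹ with hκ
  have hκ0 : 0 < κ := by positivity
  have hκ1 : κ ≤ 1 := inv_le_one_of_one_le₀ (one_le_pow₀ (by linarith))
  have hS : MeasurableSet {a : R3 | ‖a - v‖ ≤ κ} := measurableSet_le (by fun_prop) measurable_const
  set g1 : VF := fun a => if ‖a - v‖ ≤ κ then g a else 0 with hg1
  set g2 : VF := fun a => if ‖a - v‖ ≤ κ then 0 else g a with hg2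
  have m1 : Measurable g1 := Measurable.ite hS hg measurable_const
  have m2 : Measurable g2 := Measurable.ite hS measurable_const hg
  have l1 : ∀ a, g1 a ≤ g a := fun a => by
    simp only [hg1]; split_ifs <;> simp
  have l2 : ∀ a, g2 a ≤ g a := fun a => by
    simp only [hg2]; split_ifs <;> simp
  have e1 : g = fun a => g1 a + g2 a := by
    funext a
    simp only [hg1, hg2]; split_ifs <;> simp
  have b1 : 2 * Qp (P.StP s X) g1 v ≤
      c * ENNReal.ofReal (1 / (P.N ^ 3 * P.th s) / 2) * P.E0P s X v := by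
    refine (hnear s hs' X g1 m1 v c κ ⟨hκ0, hκ1⟩ (fun a => (l1 a).trans (hc a))
      fun a ha => if_neg (not_le.2 ha)).trans
      (mul_le_mul' (mul_le_mul' le_rfl (ENNReal.ofReal_le_ofReal ?_)) le_rfl)
    have : √κ = ((P.N : ℝ) ^ 5)⁻¹ := by
      rw [hκ, Real.sqrt_inv, show (P.N : ℝ) ^ 10 = ((P.N : ℝ) ^ 5) ^ 2 by ring,
        Real.sqrt_sq (by positivity)]
    rw [this, show P.N * ((P.N : ℝ) ^ 5)⁻¹ / P.th s = 1 / (P.N ^ 3 * P.th s) / P.N by field_simp]
    exact div_le_div_of_nonneg_left (by positivity) (by norm_num) (by linarith)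
  have b2 : ∀ ε, 2 * Qp (P.StE ε s X) g2 v ≤
      c * ENNReal.ofReal (1 / (P.N ^ 3 * P.th s) / 4) * P.E0P s X v +
        ENNReal.ofReal (P.th s ^ (-(5 / 2) : ℝ) / 2) * ∫⁻ a, g a := by
    intro ε
    have hS' : MeasurableSet {a : R3 | ‖X - s • pr a‖ ≤ P.th s ^ 2} :=
      measurableSet_le (by fun_prop) measurable_const
    have m3 : Measurable fun a => if ‖X - s • pr a‖ ≤ P.th s ^ 2 then P.cb ε s X a else 0 :=
      Measurable.ite hS' (P.mcb ε s X) measurable_const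
    have m4 : Measurable fun a => if ‖X - s • pr a‖ ≤ P.th s ^ 2 then 0 else P.cb ε s X a :=
      Measurable.ite hS' measurable_const (P.mcb ε s X)
    have m5 : Measurable fun a => (if ‖X - s • pr a‖ ≤ P.th s ^ 2 then P.cb ε s X a else 0) +
        P.wm ε s X a := m3.add (P.mwm ε s X)
    have e2 : P.StE ε s X = fun a => ((if ‖X - s • pr a‖ ≤ P.th s ^ 2 then P.cb ε s X a else 0) +
        P.wm ε s X a) + if ‖X - s • pr a‖ ≤ P.th s ^ 2 then 0 else P.cb ε s X a := by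
      funext a
      unfold Par.StE
      split_ifs
      · rw [add_zero]
      · rw [zero_add, add_comm]
    have c1 := hf ε s hs' X _ g2 m5 m2 (fun a => by rw [e2]; exact le_self_add) v c
      fun a => (l2 a).trans (hc a)
    have c2 := ek0_big h ε hs.1 X m2 (v := v) hκ0 fun a ha => by
      by_contra h1
      exact ha (if_pos (not_le.1 h1).le)
    rw [e2, Qp_add_left m5 m4 m2, mul_add]
    refine add_le_add (c1.trans (mul_le_mul' (mul_le_mul' le_rfl (ek0_N h hs.1 X ?_)) le_rfl))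
      (c2.trans (mul_le_mul' (ENNReal.ofReal_le_ofReal ?_) (lintegral_mono l2)))
    · exact (lintegral_add_left m3 _).le.trans
        (add_le_add (hsm ε s ⟨hs.1, t1⟩ X) (hwm ε s hs' X))
    · have a1 : P.th s ^ (44 / 100 : ℝ) ≤ P.r₀ ^ (44 / 100 : ℝ) :=
        Real.rpow_le_rpow hth.le t3 (by norm_num)
      have a2 : 32 * P.A * P.N ^ 10 * P.th s ^ (44 / 100 : ℝ) ≤ 1 :=
        (mul_le_mul_of_nonneg_left a1 (by positivity)).trans hs1
      rw [show (-(206 / 100) : ℝ) = 44 / 100 + -(5 / 2) by norm_num, Real.rpow_add hth, hκ, inv_inv]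
      nlinarith [Real.rpow_pos_of_pos hth (-(5 / 2) : ℝ)]
  have e3 : ENNReal.ofReal (1 / (P.N ^ 3 * P.th s)) = ENNReal.ofReal (1 / (P.N ^ 3 * P.th s) / 2) +
      (ENNReal.ofReal (1 / (P.N ^ 3 * P.th s) / 4) +
        ENNReal.ofReal (1 / (P.N ^ 3 * P.th s) / 4)) := by
    rw [← ENNReal.ofReal_add (by positivity) (by positivity),
      ← ENNReal.ofReal_add (by positivity) (by positivity)]
    congr 1
    ring
  have e4 : ENNReal.ofReal (P.th s ^ (-(5 / 2) : ℝ)) =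
      ENNReal.ofReal (P.th s ^ (-(5 / 2) : ℝ) / 2) +
        ENNReal.ofReal (P.th s ^ (-(5 / 2) : ℝ) / 2) := by
    rw [← ENNReal.ofReal_add (by positivity) (by positivity), add_halves]
  have e5 : Qp (P.StP s X) g v = Qp (P.StP s X) g1 v +
      (Qp (P.StE true s X) g2 v + Qp (P.StE false s X) g2 v) := by
    rw [← enl_StP P s X m2, ← Qp_add_right (P.mStP s X) m1 m2, ← e1]
  rw [e5, e3, e4, mul_add, mul_add]
  exact (add_le_add b1 (add_le_add (b2 true) (b2 false))).trans (le_of_eq (by ring))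

/-- if `dens cb ≤ 1/(C₃ th)` use `NL_f`; otherwise `K0` and `C₃ th^{-3/2} ≤ th^{-2}` -/
theorem K0' : ∀ᶠ P in 𝓕, ∀ ε, ∀ s ∈ Icc 0 P.T₀, ∀ X, ∀ g : VF, Measurable g → ∀ c : ℝ≥0∞,
    (∀ a, g a ≤ c * P.E0P s X a) → ∀ v, 2 * Qp (P.cb ε s X) g v ≤
      c * ENNReal.ofReal (1 / (P.N ^ 3 * P.th s)) * P.E0P s X v +
        ENNReal.ofReal (1 / P.th s ^ 2) * (dens (P.cb ε s X) * ∫⁻ a, g a) := by
  filter_upwards [ev_ok, K0, NL_f, small_r0 (fun Q => Q.C₃) (c := 1 / 2) (by norm_num)]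
    with P h hK hf hs1 ε s hs X g hg c hc v
  obtain ⟨t1, t2, t3⟩ := ek0_th h hs
  have hN0 : (0 : ℝ) < P.N := by linarith [h.N_ge]
  have hC : 0 < P.C₃ := by linarith [h.C₃_ge']
  have hth := h.th_pos hs.1
  rcases le_total (dens (P.cb ε s X)) (ENNReal.ofReal (1 / (P.C₃ * P.th s))) with h1 | h1
  · refine le_trans ?_ le_self_add
    refine (hf ε s ⟨hs.1, t2⟩ X _ g (P.mcb ε s X) hg (fun a => le_self_add) v c hc).trans
      (mul_le_mul' (mul_le_mul' le_rfl ((ek0_N h hs.1 X (h1.trans le_self_add)).trans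
        (ENNReal.ofReal_le_ofReal ?_))) le_rfl)
    exact div_le_self (by positivity) (by norm_num)
  · have h2 : ∀ a, P.cb ε s X a ≤ P.StP s X a := fun a => by
      cases ε
      · exact le_self_add.trans le_add_self
      · exact le_self_add.trans le_self_add
    refine (mul_le_mul' le_rfl (Qp_mono h2 (fun _ => le_rfl) v)).trans
      ((hK s hs X g hg c hc v).trans (add_le_add le_rfl ?_))
    rw [← mul_assoc]
    refine mul_le_mul' (le_trans ?_ (mul_le_mul' le_rfl h1)) le_rfl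
    rw [← ENNReal.ofReal_mul (by positivity)]
    refine ENNReal.ofReal_le_ofReal ?_
    have a1 : P.th s ^ (1 / 2 : ℝ) ≤ P.r₀ ^ (1 / 2 : ℝ) :=
      Real.rpow_le_rpow hth.le t3 (by norm_num)
    have a2 : P.C₃ * P.th s ^ (1 / 2 : ℝ) ≤ 1 := (mul_le_mul_of_nonneg_left a1 hC.le).trans hs1
    rw [show (-(5 / 2) : ℝ) = 1 / 2 + -((3 : ℕ) : ℝ) by norm_num, Real.rpow_add hth,
      Real.rpow_neg hth.le, Real.rpow_natCast]
    calc _ = P.C₃ * P.th s ^ (1 / 2 : ℝ) * (1 / P.th s ^ 2 * (1 / (P.C₃ * P.th s))) := by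
          field_simp
      _ ≤ _ := mul_le_of_le_one_left (by positivity) a2

/-- `coll_energy` -/
theorem Qp_eq_zero_of_norm {f g : VF} {ρ ρ' : ℝ} {v : R3} (hρ : 0 ≤ ρ) (hρ' : 0 ≤ ρ')
    (hf : ∀ a, f a ≠ 0 → ‖a‖ ≤ ρ) (hg : ∀ a, g a ≠ 0 → ‖a‖ ≤ ρ') (hv : ρ + ρ' < ‖v‖) :
    Qp f g v = 0 := by
  refine le_antisymm ((Qp_le_mul (f' := fun _ => 0) (g' := fun _ => 0) measurable_const
    measurable_const v 0 fun a ω hω => ?_).trans (zero_mul _).le) zero_le
  rw [zero_mul, nonpos_iff_eq_zero]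
  by_contra h0
  have h1 := pow_le_pow_left₀ (norm_nonneg _) (hf _ (left_ne_zero_of_mul h0)) 2
  have h2 := pow_le_pow_left₀ (norm_nonneg _) (hg _ (right_ne_zero_of_mul h0)) 2
  have h3 := coll_energy v a ω hω
  have h4 := pow_lt_pow_left₀ hv (by positivity) two_ne_zero
  nlinarith [mul_nonneg hρ hρ', sq_nonneg ‖a‖]

end

end Crest.Agent.R68
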