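import Crest.Agent.R68.ECold
import Crest.Agent.R68.EHI

/-!
# R68 (S0091): norms of the operators `R` and `S`
-/

set_option autoImplicit false

namespace Crest.Agent.R68

open MeasureTheory Set Filter Crest.AnalysisR.VecCalc3 Crest.AnalysisR.PDE.Boltzmann
open scoped ENNReal _root_.Topology

noncomputable section

theorem esn_Qp {f g g₁ g₂ : VF} (hf : Measurable f) (h₁ : Measurable g₁) (h₂ : Measurable g₂)
    (h : ∀ a, g a ≤ g₁ a + g₂ a) (v : R3) : 2 * Qp f g v ≤ 2 * Qp f g₁ v + 2 * Qp f g₂ v := by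
  rw [← mul_add, ← Qp_add_right hf h₁ h₂]
  exact mul_le_mul_right (Qp_mono (fun _ => le_rfl) h v) 2

theorem esn_Qp_ind {f g g₁ g₂ : VF} {K : Set R3} (hK : MeasurableSet K) (hf : Measurable f)
    (h₁ : Measurable g₁) (h₂ : Measurable g₂) (h : ∀ a, g a ≤ g₁ a + g₂ a) (v : R3) :
    2 * Qp f (K.indicator g) v ≤ 2 * Qp f (K.indicator g₁) v + 2 * Qp f (K.indicator g₂) v :=
  esn_Qp hf (h₁.indicator hK) (h₂.indicator hK) (fun a => by
    by_cases ha : a ∈ K
    · simpa only [indicator_of_mem ha] using h a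
    · simp only [indicator_of_notMem ha, zero_le]) v

theorem esn_split {f g : VF} {K : Set R3} (hK : MeasurableSet K) (hf : Measurable f)
    (hg : Measurable g) (v : R3) :
    Qp f g v = Qp f (Kᶜ.indicator g) v + Qp f (K.indicator g) v := by
  rw [← Qp_add_right hf (hg.indicator hK.compl) (hg.indicator hK)]
  congr 1
  funext a
  exact (indicator_compl_add_self_apply K g a).symm

namespace Par
variable (P : Par)
theorem srcR_eq {g : PF} (hg : Meas g) (s : ℝ) (x v : R3) :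
    P.srcR g s x v = P.srcS g s x v + P.srcK g s x v := by
  have mg := hg.slice s x
  have e1 : ∀ ε, Qp (P.StE ε s (Xr x)) (g s x) v =
      Qp (P.cb ε s (Xr x)) (g s x) v + Qp (P.wm ε s (Xr x)) (g s x) v := fun ε =>
    Qp_add_left (P.mcb ε s _) (P.mwm ε s _) mg v
  have e2 : Qp (P.cbP s (Xr x)) (g s x) v =
      Qp (P.cb true s (Xr x)) (g s x) v + Qp (P.cb false s (Xr x)) (g s x) v :=
    Qp_add_left (P.mcb _ s _) (P.mcb _ s _) mg v
  unfold srcR srcS srcK St
  rw [enl_StP P s _ mg, e1, e1]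
  split_ifs
  · rw [esn_split (P.mKc true s (Xr x)) (P.mcb true s _) mg,
      esn_split (P.mKc false s (Xr x)) (P.mcb false s _) mg]
    ring
  · rw [e2]
    ring
theorem srcR_mono {g g' : PF} {s : ℝ} {x : R3} (h : ∀ a, g s x a ≤ g' s x a) (v : R3) :
    P.srcR g s x v ≤ P.srcR g' s x v := by
  exact mul_le_mul_right (Qp_mono (fun _ => le_rfl) h v) 2
theorem srcR_add {g g' : PF} (hg : Meas g) (hg' : Meas g') (s : ℝ) (x v : R3) :
    P.srcR (fun s x v => g s x v + g' s x v) s x v = P.srcR g s x v + P.srcR g' s x v := by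
  unfold srcR
  rw [← mul_add, ← Qp_add_right (P.meas_St.slice s x) (hg.slice s x) (hg'.slice s x)]
theorem srcS_le_add {g g₁ g₂ : PF} (h₁ : Meas g₁) (h₂ : Meas g₂) {s : ℝ} {x : R3}
    (h : ∀ a, g s x a ≤ g₁ s x a + g₂ s x a) (v : R3) :
    P.srcS g s x v ≤ P.srcS g₁ s x v + P.srcR g₂ s x v := by
  have m₁ := h₁.slice s x
  have m₂ := h₂.slice s x
  refine le_trans ?_ (add_le_add le_rfl (le_self_add.trans_eq (P.srcR_eq h₂ s x v).symm))
  have a1 := esn_Qp (P.mwm true s (Xr x)) m₁ m₂ h v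
  have a2 := esn_Qp (P.mwm false s (Xr x)) m₁ m₂ h v
  unfold srcS
  split_ifs
  · exact (add_le_add (add_le_add a1 a2) (add_le_add
      (esn_Qp_ind (P.mKc true s (Xr x)).compl (P.mcb true s _) m₁ m₂ h v)
      (esn_Qp_ind (P.mKc false s (Xr x)).compl (P.mcb false s _) m₁ m₂ h v))).trans_eq (by ring)
  · exact (add_le_add (add_le_add a1 a2) (esn_Qp (P.mcbP s _) m₁ m₂ h v)).trans_eq (by ring)
theorem srcK_le_add {g g₁ g₂ : PF} (h₁ : Meas g₁) (h₂ : Meas g₂) {s : ℝ} {x : R3}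
    (h : ∀ a, g s x a ≤ g₁ s x a + g₂ s x a) (v : R3) :
    P.srcK g s x v ≤ P.srcR g₁ s x v + P.srcR g₂ s x v := by
  have m₁ := h₁.slice s x
  have m₂ := h₂.slice s x
  refine le_trans ?_ (add_le_add (le_add_self.trans_eq (P.srcR_eq h₁ s x v).symm)
    (le_add_self.trans_eq (P.srcR_eq h₂ s x v).symm))
  unfold srcK
  split_ifs
  · exact (add_le_add (esn_Qp_ind (P.mKc true s (Xr x)) (P.mcb true s _) m₁ m₂ h v)
      (esn_Qp_ind (P.mKc false s (Xr x)) (P.mcb false s _) m₁ m₂ h v)).trans_eq (by ring)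
  · exact zero_le
end Par

/-- Warm partners: `NL_f`, `dens_wm_le` (`4 N e₀/(L th) ≤ 1/(16 th)`).  Far region: `NL`,
`N L/mx ≤ N L/(V₁ th) ≤ 1/(16 th)`.  Near region, for each `ε`: `NL_slow` or `NL_loss`. -/
theorem srcS_le : ∀ᶠ P in 𝓕, ∀ s ∈ Icc 0 P.T₁, ∀ (g : PF), Meas g → ∀ (x : R3) (c : ℝ≥0∞),
    (∀ a, g s x a ≤ c * P.E0 s x a) → ∀ v, P.srcS g s x v ≤
      c * (ENNReal.ofReal (3 / (16 * P.th s)) + Nu (P.cbP s (Xr x)) v / 32) * P.E0 s x v := by
  filter_upwards [ev_ok, NL_f, NL, NL_slow, NL_loss, dens_wm_le, ev_e₀ fun Q => Q.L / (64 * Q.N)]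
    with P h h1 h2 h3 h4 h5 h6 s hs g hg x c hgc v
  have mg := hg.slice s x
  have hth := h.th_pos hs.1
  have hL := h.L_pos
  have hN := h.N_ge
  have hN0 : (0 : ℝ) < P.N := by linarith
  have he := h.e₀_pos
  have hw : ∀ ε, 2 * Qp (P.wm ε s (Xr x)) (g s x) v ≤
      c * ENNReal.ofReal (1 / (32 * P.th s)) * P.E0 s x v := fun ε => by
    refine (h1 ε s hs (Xr x) _ _ (P.mwm ε s _) mg (fun _ => le_add_self) v c hgc).trans
      (mul_le_mul_left (mul_le_mul_right ((mul_le_mul_right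
        (add_le_add (h5 ε s hs _) le_rfl) _).trans ?_) c) _)
    have hv := h.vr_pos hs.1 (Xr x)
    rw [← ENNReal.ofReal_add (by positivity) (by positivity), ← ENNReal.ofReal_natCast,
      ← ENNReal.ofReal_mul hN0.le]
    refine ENNReal.ofReal_le_ofReal ?_
    have a1 : P.e₀ / P.vr s (Xr x) ≤ P.L / (64 * P.N) / (P.L * P.th s) :=
      div_le_div₀ (by positivity) (h6 (by positivity)) (by positivity)
        ((le_max_right _ _).trans (h.mx_le_vr hs.1 _))
    refine (mul_le_mul_of_nonneg_left (add_le_add a1 a1) hN0.le).trans_eq ?_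
    field_simp
    norm_num
  have hc : ∀ ε, 2 * Qp (P.cb ε s (Xr x)) ((P.Kc ε s (Xr x))ᶜ.indicator (g s x)) v ≤
      c * (ENNReal.ofReal (1 / (32 * P.th s)) + Nu (P.cb ε s (Xr x)) v / 32) * P.E0 s x v :=
    fun ε => by
      rcases lt_or_ge (P.wn ε s (Xr x) v) P.δ₁ with a1 | a1
      · exact (mul_le_mul_right (Qp_mono (fun _ => le_rfl) (indicator_le_self _ _) v) 2).trans
          ((h3 ε s hs _ _ mg v c hgc a1).trans
            (mul_le_mul_left (mul_le_mul_right le_self_add c) _))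
      · exact (h4 ε s hs _ _ mg v c hgc a1).trans
          (mul_le_mul_left (mul_le_mul_right le_add_self c) _)
  have e4 : 4 * ENNReal.ofReal (1 / (32 * P.th s)) ≤ ENNReal.ofReal (3 / (16 * P.th s)) := by
    generalize P.th s = θ at hth
    rw [← ENNReal.ofReal_ofNat 4, ← ENNReal.ofReal_mul (by norm_num)]
    refine ENNReal.ofReal_le_ofReal ?_
    rw [mul_one_div, div_le_div_iff₀ (by positivity) (by positivity)]
    linarith
  unfold Par.srcS
  split_ifs with hX
  · have e5 : Nu (P.cbP s (Xr x)) v = Nu (P.cb true s (Xr x)) v + Nu (P.cb false s (Xr x)) v :=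
      Nu_add (P.mcb _ s _) (P.mcb _ s _) v
    refine (add_le_add (add_le_add (hw true) (hw false)) (add_le_add (hc true) (hc false))).trans
      (le_trans (le_of_eq ?_) (mul_le_mul_left (mul_le_mul_right (add_le_add e4 le_rfl) c) _))
    rw [e5, ENNReal.add_div]
    ring
  · have a1 : 2 * Qp (P.cbP s (Xr x)) (g s x) v ≤
        c * (2 * ENNReal.ofReal (1 / (32 * P.th s))) * P.E0 s x v := by
      refine (mul_le_mul_right (Qp_mono (f' := P.StP s (Xr x))
        (fun _ => add_le_add le_self_add le_self_add) (fun _ => le_rfl) v) 2).trans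
        ((le_mul_of_one_le_left' (enl_br v)).trans ((h2 s hs _ _ mg v c (enl_exp hgc v)).trans
          (mul_le_mul_left (mul_le_mul_right ?_ c) _)))
      have a2 : P.N * P.L / P.mx s (Xr x) ≤ P.N * 1 / (16 * P.N * P.th s) :=
        div_le_div₀ (by positivity) (mul_le_mul_of_nonneg_left (by linarith [h.L_le']) hN0.le)
          (by positivity) ((not_le.1 hX).le.trans (le_max_left _ _))
      refine (ENNReal.ofReal_le_ofReal a2).trans_eq ?_
      generalize P.th s = θ at hth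
      generalize (P.N : ℝ) = n at hN0
      rw [← ENNReal.ofReal_ofNat 2, ← ENNReal.ofReal_mul (by norm_num)]
      congr 1
      field_simp
      norm_num
    refine (add_le_add (add_le_add (hw true) (hw false)) a1).trans
      (le_trans (le_of_eq ?_) (mul_le_mul_left (mul_le_mul_right (e4.trans le_self_add) c) _))
    ring

theorem esn_pt {w c m M E E' n n' q : ℝ≥0∞} {μ θ : ℝ} (hμ : 0 ≤ μ) (hθ : 0 < θ) (hw : w ≤ 1)
    (hm : ENNReal.ofReal μ ≤ M) (hE : E ≤ E') (h1 : 1 ≤ 2 * q) (h2 : q * n ≤ n')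
    (h : m ≤ c * ENNReal.ofReal μ * (ENNReal.ofReal (3 / (16 * θ)) + n / 32) * E) :
    w * m ≤ c * E' * ENNReal.ofReal (3 / 16) * ENNReal.ofReal (μ / θ) +
      c * E' * ENNReal.ofReal (1 / 16) * M * (n' * w) := by
  have e1 : ENNReal.ofReal μ * ENNReal.ofReal (3 / (16 * θ)) =
      ENNReal.ofReal (3 / 16) * ENNReal.ofReal (μ / θ) := by
    rw [← ENNReal.ofReal_mul hμ, ← ENNReal.ofReal_mul (by norm_num)]
    congr 1
    field_simp
  have e2 : n / 32 ≤ ENNReal.ofReal (1 / 16) * n' := by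
    refine ENNReal.div_le_of_le_mul ?_
    have e3 : ENNReal.ofReal (1 / 16) * 32 = 2 := by
      rw [← ENNReal.ofReal_ofNat 32, ← ENNReal.ofReal_mul (by norm_num), ← ENNReal.ofReal_ofNat 2]
      norm_num
    rw [mul_right_comm, e3]
    refine (le_mul_of_one_le_left' h1).trans ?_
    rw [mul_assoc]
    exact mul_le_mul_right h2 2
  calc w * m ≤ w * (c * ENNReal.ofReal μ * (ENNReal.ofReal (3 / (16 * θ)) +
        ENNReal.ofReal (1 / 16) * n') * E') :=
        mul_le_mul_right (h.trans (mul_le_mul' (mul_le_mul_right (add_le_add le_rfl e2) _) hE)) w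
    _ = c * E' * (ENNReal.ofReal μ * ENNReal.ofReal (3 / (16 * θ))) * w +
        c * E' * ENNReal.ofReal (1 / 16) * ENNReal.ofReal μ * (n' * w) := by ring
    _ ≤ _ := by
        rw [e1, ← mul_assoc]
        exact add_le_add (mul_le_of_le_one_right' hw) (mul_le_mul_left (mul_le_mul_right hm _) _)

/-- `srcS_le` with the constant `c mm(s)`; `int_mm_early`, `mm_mono`, `E0_mono`;
`∫ att · Nu cbP ≤ 2 ∫ att · Nu F ≤ 2` (`Nu_cb_le`, `cq_ge`, `layer_bwd_le`) -/
theorem S_norm : ∀ᶠ P in 𝓕, ∀ α F, P.Sol α F → ∀ (g : PF) (c : ℝ≥0∞), Meas g → P.Bd g c →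
    P.Bd (Duh F (P.srcS g)) (c / 4) := by
  filter_upwards [ev_ok, srcS_le, Nu_cb_le] with P h h1 h2 α F hF g c hg hB t ht x v
  obtain ⟨y, rfl⟩ : ∃ y, x = y + t • v := ⟨x - t • v, (sub_add_cancel _ _).symm⟩
  have hT : P.T₀ ≤ P.T₁ := h.T₀_le.trans h.T'_le
  have m1 : Measurable fun s => ENNReal.ofReal (P.mm s / P.th s) :=
    (P.measurable_mm.div P.measurable_th).ennreal_ofReal
  have m2 : Measurable fun s : ℝ => Nu (F s (y + s • v)) v := by
    have hm : Measurable fun s : ℝ => (s, y + s • v, v) := by fun_prop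
    have := Measurable.comp hF.meas.Nu hm
    exact this
  have m3 : Measurable fun s : ℝ => Nu (F s (y + s • v)) v * att (Hz F y v s t) :=
    m2.mul (measurable_att.comp (measurable_Hz hF.meas measurable_const measurable_const
      measurable_id measurable_const))
  rw [Duh_eq]
  refine (setLIntegral_mono' measurableSet_Ioo fun s hs => esn_pt (h.mm_pos hs.1.le).le
    (h.th_pos hs.1.le) (att_le_one _) (ENNReal.ofReal_le_ofReal (h.mm_mono hs.1.le hs.2.le))
    (h.E0_mono hs.1.le hs.2.le (ht.2.trans hT) y v) h.cq_ge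
    (h2 α F hF s ⟨hs.1.le, hs.2.le.trans (ht.2.trans h.T₀_le)⟩ _ v)
    (h1 s ⟨hs.1.le, hs.2.le.trans (ht.2.trans hT)⟩ g hg _ _ (fun a =>
      (hB s ⟨hs.1.le, hs.2.le.trans ht.2⟩ _ a).trans_eq (mul_assoc _ _ _).symm) v)).trans ?_
  rw [lintegral_add_left (m1.const_mul _), lintegral_const_mul _ m1, lintegral_const_mul _ m3]
  refine (add_le_add (mul_le_mul_right (h.int_mm_early ht.1 ht.2) _)
    (mul_le_of_le_one_right' (layer_bwd_le m2 0 t))).trans_eq ?_
  have e : (4 : ℝ≥0∞)⁻¹ = ENNReal.ofReal (3 / 16) + ENNReal.ofReal (1 / 16) := by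
    rw [← ENNReal.ofReal_add (by norm_num) (by norm_num), ← ENNReal.ofReal_ofNat 4,
      ← ENNReal.ofReal_inv_of_pos (by norm_num)]
    norm_num
  rw [div_eq_mul_inv c, e]
  ring

/-- `R_le`, `int_mm_early` -/
theorem R_norm : ∀ᶠ P in 𝓕, ∀ (F g : PF) (c : ℝ≥0∞), Meas g → P.Bd g c →
    P.Bd (Duh F (P.srcR g)) (P.N * c) := by
  filter_upwards [ev_ok, R_le] with P h hR F g c hg hB t ht x v
  have h1 := hR F g c hg t ⟨ht.1, ht.2.trans (h.T₀_le.trans h.T'_le)⟩
    (fun s hs => hB s ⟨hs.1.le, hs.2.le.trans ht.2⟩) x v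
  simp only [ENNReal.ofReal_mul (Nat.cast_nonneg (α := ℝ) P.N), ENNReal.ofReal_natCast] at h1
  rw [lintegral_const_mul' _ _ (ENNReal.natCast_ne_top _)] at h1
  refine (le_mul_of_one_le_left' (enl_br v)).trans (h1.trans ((mul_le_mul_left (mul_le_mul_right
    (mul_le_mul_right (h.int_mm_early ht.1 ht.2) _) c) _).trans_eq ?_))
  ring

end

end Crest.Agent.R68
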