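import Crest.Agent.R68.EK0
import Crest.Agent.R68.ESn

/-!
# R68 (S0091): the inner Duhamel step
-/

set_option autoImplicit false

namespace Crest.Agent.R68

open MeasureTheory Set Filter Crest.AnalysisR.VecCalc3 Crest.AnalysisR.PDE.Boltzmann
open scoped ENNReal _root_.Topology

noncomputable section

open Classical in
/-- main part of the compact operator -/
def Par.pm (P : Par) (g : PF) : PF := fun s x a =>
  if ‖a‖ ≤ 3 * P.U then ENNReal.ofReal (P.N ^ 8 / P.th s ^ 2) *
    ∫⁻ s' in Ioo 0 (s - P.th s / P.N ^ 4), P.Theta g s' (x - (s - s') • a) else 0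

theorem ek1_meas {α : Type*} [MeasurableSpace α] {b : α → ℝ} {f : α → ℝ → ℝ≥0∞}
    (hb : Measurable b) (hf : Measurable fun q : α × ℝ => f q.1 q.2) :
    Measurable fun p => ∫⁻ s in Ioo 0 (b p), f p s := by
  simp only [← lintegral_indicator measurableSet_Ioo]
  refine Measurable.lintegral_prod_right'
    (f := fun q : α × ℝ => (Ioo 0 (b q.1)).indicator (f q.1) q.2) ?_
  simp only [indicator, mem_Ioo]
  exact Measurable.ite ((measurableSet_lt measurable_const measurable_snd).inter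
    (measurableSet_lt measurable_snd (hb.comp measurable_fst))) hf measurable_const

theorem Par.meas_pm (P : Par) {g : PF} (hg : Meas g) : Meas (P.pm g) := by
  have m1 : Measurable fun p : ℝ × R3 × R3 => P.th p.1 := P.measurable_th.comp measurable_fst
  have m2 : Measurable fun q : (ℝ × R3 × R3) × ℝ =>
      P.Theta g q.2 (q.1.2.1 - (q.1.1 - q.2) • q.1.2.2) := by
    have hm : Measurable fun q : (ℝ × R3 × R3) × ℝ => (q.2, q.1.2.1 - (q.1.1 - q.2) • q.1.2.2) := by
      fun_prop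
    have := Measurable.comp (P.measurable_Theta hg) hm
    exact this
  exact Measurable.ite (measurableSet_le (by fun_prop) measurable_const)
    (Measurable.mul (measurable_const.div (m1.pow_const 2)).ennreal_ofReal
      (ek1_meas (f := fun (p : ℝ × R3 × R3) s' => P.Theta g s' (p.2.1 - (p.1 - s') • p.2.2))
        (measurable_fst.sub (m1.div_const _)) m2)) measurable_const

theorem ek1_zero {P : Par} (h : P.Ok) (g : PF) {s : ℝ} (hs : s ∈ Icc 0 P.T₁) (x : R3) {a : R3}
    (ha : 3 * P.U < ‖a‖) : P.srcK g s x a = 0 := by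
  have hU := h.U_ge
  have h1 : ∀ ε, Qp (P.cb ε s (Xr x)) ((P.Kc ε s (Xr x)).indicator (g s x)) a = 0 := fun ε =>
    Qp_eq_zero_of_norm (ρ := 3 / 2) (ρ' := 2 * P.U) (by norm_num) (by linarith)
      (fun b hb => (h.cut_supp hs (h.cb_cut hs.1 hb).1).1)
      (fun b hb => (mem_of_indicator_ne_zero hb).1) (by linarith)
  simp only [Par.srcK, h1, mul_zero, add_zero, ite_self]

/-- crude bound for the source -/
theorem ek1_crude : ∀ᶠ P in 𝓕, ∀ (g : PF) (c : ℝ≥0∞), Meas g → P.Bd g c → ∀ s ∈ Icc 0 P.T₀,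
    ∀ x a, P.srcK g s x a ≤ c * ENNReal.ofReal (P.N / P.T₀) * P.E0 s x a := by
  filter_upwards [ev_ok, NL] with P h hNL g c hg hB s hs x a
  have h1 := hNL s ⟨hs.1, hs.2.trans (h.T₀_le.trans h.T'_le)⟩ (Xr x) _ (hg.slice s x) a
    (c * ENNReal.ofReal (P.mm s))
    (enl_exp (fun b => (hB s hs x b).trans_eq (mul_assoc _ _ _).symm) a)
  refine (le_add_self.trans_eq (P.srcR_eq hg s x a).symm).trans
    ((le_mul_of_one_le_left' (enl_br a)).trans (h1.trans (mul_le_mul_left ?_ _)))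
  have hm := h.mm_pos hs.1
  have hth := h.th_pos hs.1
  have hL := h.L_pos
  rw [mul_assoc, ← ENNReal.ofReal_mul hm.le]
  refine mul_le_mul_right (ENNReal.ofReal_le_ofReal ?_) _
  have h2 : P.N * P.L / P.mx s (Xr x) ≤ P.N * P.L / (P.L * P.th s) :=
    div_le_div_of_nonneg_left (by positivity) (by positivity) (le_max_right _ _)
  refine (mul_le_mul_of_nonneg_left h2 hm.le).trans_eq ?_
  rw [div_eq_mul_one_div _ P.T₀, ← h.mm_div hs.1 hs.2]
  field_simp

/-- the bound from the kernel splitting -/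
theorem ek1_fine : ∀ᶠ P in 𝓕, ∀ (g : PF) (c : ℝ≥0∞), Meas g → P.Bd g c → ∀ s ∈ Icc 0 P.T₀,
    ∀ x a, P.srcK g s x a ≤ c * ENNReal.ofReal (2 / P.N ^ 3) * P.E0 s x a *
      ENNReal.ofReal (P.mm s / P.th s) + ENNReal.ofReal (1 / P.th s ^ 2) * P.Theta g s x := by
  filter_upwards [ev_ok, K0'] with P h hK g c hg hB s hs x a
  have hm := h.mm_pos hs.1
  have hth := h.th_pos hs.1
  have hN : (0 : ℝ) < P.N := by linarith [h.N_ge]
  have h1 : ∀ ε, 2 * Qp (P.cb ε s (Xr x)) ((P.Kc ε s (Xr x)).indicator (g s x)) a ≤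
      c * ENNReal.ofReal (P.mm s) * ENNReal.ofReal (1 / (P.N ^ 3 * P.th s)) * P.E0 s x a +
        ENNReal.ofReal (1 / P.th s ^ 2) *
          (dens (P.cb ε s (Xr x)) * ∫⁻ b in P.Kc ε s (Xr x), g s x b) := fun ε => by
    rw [← lintegral_indicator (P.mKc ε s _)]
    exact hK ε s hs _ _ ((hg.slice s x).indicator (P.mKc ε s _)) _ (fun b =>
      (indicator_le_self _ _ b).trans ((hB s hs x b).trans_eq (mul_assoc _ _ _).symm)) a
  have e : ENNReal.ofReal (2 / P.N ^ 3) * ENNReal.ofReal (P.mm s / P.th s) =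
      ENNReal.ofReal (P.mm s) * ENNReal.ofReal (1 / (P.N ^ 3 * P.th s)) +
        ENNReal.ofReal (P.mm s) * ENNReal.ofReal (1 / (P.N ^ 3 * P.th s)) := by
    rw [← ENNReal.ofReal_mul (by positivity), ← ENNReal.ofReal_mul hm.le,
      ← ENNReal.ofReal_add (by positivity) (by positivity)]
    congr 1
    field_simp
    norm_num
  unfold Par.srcK Par.Theta
  split_ifs
  · refine (add_le_add (h1 true) (h1 false)).trans_eq ?_
    rw [mul_right_comm (c * ENNReal.ofReal (2 / P.N ^ 3)), mul_assoc c (ENNReal.ofReal (2 / _)), e]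
    ring
  · exact zero_le

/-- For `‖a‖ > 3U` the source vanishes (`Qp_eq_zero_of_norm`).  Let `κ = N⁻⁴`.  On the times
`s' ≤ κ th(s)` or `s' ≥ s - κ th(s)` (measure `≤ 2κ th(s)`) use `srcK ≤ srcR ≤ c N/T₀ · E0`
(`NL`, `mm_div`).  On the other times use `K0'` for both streams with the constant `c mm(s')`;
`th(s') ≥ κ th(s)`.  `E0_mono`, `int_mm_early`. -/
theorem K1 : ∀ᶠ P in 𝓕, ∀ (F g : PF) (c : ℝ≥0∞), Meas g → P.Bd g c → ∀ s ∈ Icc 0 P.T₀, ∀ x a,
    Duh F (P.srcK g) s x a ≤ ENNReal.ofReal (4 / P.N ^ 3) * c *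
      (ENNReal.ofReal (P.mm s) * P.E0 s x a) + P.pm g s x a := by
  filter_upwards [ev_ok, ek1_crude, ek1_fine] with P h h1 h2 F g c hg hB s hs x a
  obtain ⟨y, rfl⟩ : ∃ y, x = y + s • a := ⟨x - s • a, (sub_add_cancel _ _).symm⟩
  have hT : P.T₀ ≤ P.T₁ := h.T₀_le.trans h.T'_le
  rw [Duh_eq]
  rcases lt_or_ge (3 * P.U) ‖a‖ with ha | ha
  · refine le_trans (setLIntegral_mono' (g := fun _ => 0) measurableSet_Ioo fun u hu => ?_) ?_
    · rw [ek1_zero h g ⟨hu.1.le, hu.2.le.trans (hs.2.trans hT)⟩ _ ha, mul_zero]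
    · rw [lintegral_zero]
      exact zero_le
  have hth := h.th_pos hs.1
  have hN : (0 : ℝ) < P.N := by linarith [h.N_ge]
  have hT0 := h.T₀_pos
  have hd : 0 < P.th s / P.N ^ 4 := by positivity
  have e1 : ∀ u : ℝ, y + s • a - (s - u) • a = y + u • a := fun u => by
    rw [sub_smul]; abel
  rw [Par.pm, if_pos ha]
  simp only [e1]
  have m1 : Measurable fun u => ENNReal.ofReal (P.mm u / P.th u) :=
    (P.measurable_mm.div P.measurable_th).ennreal_ofReal
  have mB : MeasurableSet (Icc 0 (P.th s / P.N ^ 4) ∪ Icc (s - P.th s / P.N ^ 4) s) :=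
    measurableSet_Icc.union measurableSet_Icc
  have key : ∀ u ∈ Ioo 0 s, att (Hz F y a u s) * P.srcK g u (y + u • a) a ≤
      (Icc 0 (P.th s / P.N ^ 4) ∪ Icc (s - P.th s / P.N ^ 4) s).indicator
        (fun _ => c * ENNReal.ofReal (P.N / P.T₀) * P.E0 s (y + s • a) a) u +
      (c * ENNReal.ofReal (2 / P.N ^ 3) * P.E0 s (y + s • a) a * ENNReal.ofReal (P.mm u / P.th u) +
        (Ioo 0 (s - P.th s / P.N ^ 4)).indicator
          (fun u => ENNReal.ofReal (P.N ^ 8 / P.th s ^ 2) * P.Theta g u (y + u • a)) u) := by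
    intro u hu
    have hu' : u ∈ Icc 0 P.T₀ := ⟨hu.1.le, hu.2.le.trans hs.2⟩
    have hE := h.E0_mono hu.1.le hu.2.le (hs.2.trans hT) y a
    refine (mul_le_of_le_one_left' (att_le_one _)).trans ?_
    by_cases hB' : u ∈ Icc 0 (P.th s / P.N ^ 4) ∪ Icc (s - P.th s / P.N ^ 4) s
    · rw [indicator_of_mem hB']
      exact ((h1 g c hg hB u hu' _ a).trans (mul_le_mul_right hE _)).trans le_self_add
    · have b1 : P.th s / P.N ^ 4 < u := lt_of_not_ge fun b => hB' (Or.inl ⟨hu.1.le, b⟩)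
      have b2 : u < s - P.th s / P.N ^ 4 := lt_of_not_ge fun b => hB' (Or.inr ⟨b, hu.2.le⟩)
      rw [indicator_of_mem (show u ∈ Ioo 0 (s - P.th s / P.N ^ 4) from ⟨hu.1, b2⟩)]
      refine ((h2 g c hg hB u hu' _ a).trans (add_le_add
        (mul_le_mul_left (mul_le_mul_right hE _) _)
        (mul_le_mul_left (ENNReal.ofReal_le_ofReal ?_) _))).trans le_add_self
      have b3 : P.th s / P.N ^ 4 ≤ P.th u :=
        b1.le.trans (le_add_of_nonneg_right (div_pos h.r_pos h.L_pos).le)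
      refine (one_div_le_one_div_of_le (by positivity) (pow_le_pow_left₀ hd.le b3 2)).trans_eq ?_
      field_simp
  refine (setLIntegral_mono' measurableSet_Ioo key).trans ?_
  rw [lintegral_add_left (measurable_const.indicator mB), lintegral_add_left (m1.const_mul _),
    lintegral_const_mul _ m1, ← add_assoc]
  refine add_le_add ((add_le_add (setLIntegral_le_lintegral _ _)
    (mul_le_mul_right (h.int_mm_early hs.1 hs.2) _)).trans ?_)
    ((setLIntegral_le_lintegral _ _).trans_eq ?_)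
  · rw [lintegral_indicator mB, setLIntegral_const]
    refine (add_le_add (mul_le_mul_right (measure_union_le _ _) _) le_rfl).trans_eq ?_
    rw [Real.volume_Icc, Real.volume_Icc, sub_zero, sub_sub_cancel,
      ← ENNReal.ofReal_add hd.le hd.le]
    have e2 : ENNReal.ofReal (P.N / P.T₀) * ENNReal.ofReal (P.th s / P.N ^ 4 + P.th s / P.N ^ 4) =
        ENNReal.ofReal (2 / P.N ^ 3) * ENNReal.ofReal (P.mm s) := by
      rw [← ENNReal.ofReal_mul (by positivity), ← ENNReal.ofReal_mul (by positivity), Par.mm,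
        if_pos hs.2]
      congr 1
      field_simp
      norm_num
    have e3 : ENNReal.ofReal (4 / P.N ^ 3) =
        ENNReal.ofReal (2 / P.N ^ 3) + ENNReal.ofReal (2 / P.N ^ 3) := by
      rw [← ENNReal.ofReal_add (by positivity) (by positivity)]
      congr 1
      ring
    rw [mul_right_comm (c * ENNReal.ofReal (P.N / P.T₀)), mul_assoc c (ENNReal.ofReal (P.N / _)),
      e2, e3]
    ring
  · rw [lintegral_indicator measurableSet_Ioo, lintegral_const_mul' _ _ ENNReal.ofReal_ne_top]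

/-- Tonelli, `disp3` with `τ = s - s' ≥ th(s)/N⁴`, `6Uτ + 2 ≤ 3`; `27 N^{20} ≤ 1/th(s)` -/
theorem K2 : ∀ᶠ P in 𝓕, ∀ g : PF, Meas g → Per g → ∀ s ∈ Icc 0 P.T₀, ∀ x,
    ∫⁻ a, P.pm g s x a ≤ ENNReal.ofReal ((P.th s)⁻¹ ^ 6) * P.Mc g s := by
  filter_upwards [ev_ok, le_r0 fun Q => 1 / (27 * (Q.N : ℝ) ^ 20)] with P h h1 g hg pg s hs x
  have hth := h.th_pos hs.1
  have hN1 : (1 : ℝ) ≤ P.N := by linarith [h.N_ge]
  have hN : (0 : ℝ) < P.N := by linarith
  have hU := h.U_ge
  have h2 := h.th_T' (hs.2.trans h.T₀_le)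
  have h3 : P.N * P.th s ≤ P.r₀ :=
    (mul_le_mul_of_nonneg_right (le_self_pow₀ hN1 (by norm_num)) hth.le).trans h2
  have h4 : P.th s ≤ P.r₀ := (le_mul_of_one_le_left hth.le hN1).trans h3
  have mT := P.measurable_Theta hg
  have mS : ∀ u, Measurable (P.Theta g u) := fun u => by
    have := Measurable.comp mT (measurable_prodMk_left (x := u))
    exact this
  have m2 : Measurable fun q : R3 × ℝ => P.Theta g q.2 (x - (s - q.2) • q.1) := by
    have hm : Measurable fun q : R3 × ℝ => (q.2, x - (s - q.2) • q.1) := by fun_prop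
    have := Measurable.comp mT hm
    exact this
  have e1 : ∫⁻ a, P.pm g s x a = ENNReal.ofReal (P.N ^ 8 / P.th s ^ 2) *
      ∫⁻ u in Ioo 0 (s - P.th s / P.N ^ 4), ∫⁻ a in Metric.closedBall (0 : R3) (3 * P.U),
        P.Theta g u (x - (s - u) • a) := by
    rw [← lintegral_lintegral_swap (f := fun (a : R3) (u : ℝ) => P.Theta g u (x - (s - u) • a))
      m2.aemeasurable, ← lintegral_const_mul' _ _ ENNReal.ofReal_ne_top,
      ← lintegral_indicator measurableSet_closedBall]
    refine lintegral_congr fun a => ?_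
    simp only [Par.pm, indicator, mem_closedBall_zero_iff]
  have e2 : P.Mc g s = ∫⁻ u in Ioo 0 s, ∫⁻ z in cell, P.Theta g u z := by
    rw [Par.Mc, Measure.volume_eq_prod, ← Measure.prod_restrict, lintegral_prod _ mT.aemeasurable]
  have h5 : ∀ u ∈ Ioo 0 (s - P.th s / P.N ^ 4), ∫⁻ a in Metric.closedBall (0 : R3) (3 * P.U),
      P.Theta g u (x - (s - u) • a) ≤
      ENNReal.ofReal (27 * P.N ^ 12 / P.th s ^ 3) * ∫⁻ z in cell, P.Theta g u z := by
    intro u hu
    have hd : 0 < P.th s / P.N ^ 4 := by positivity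
    have b1 : P.th s / P.N ^ 4 ≤ s - u := by linarith [hu.2]
    refine (disp3 _ (mS u) (P.per_Theta pg u) x (hd.trans_le b1) (by linarith)).trans
      (mul_le_mul_left (ENNReal.ofReal_le_ofReal ?_) _)
    have b2 : 2 * (3 * P.U) * (s - u) ≤ 1 := by
      have b3 : s - u ≤ P.th s := by
        have := (div_pos h.r_pos h.L_pos).le
        unfold Par.th
        linarith [hu.1]
      have b4 : 2 * (3 * P.U) ≤ P.N := by linarith [h.N_ge_U]
      linarith [mul_le_mul b4 b3 (hd.le.trans b1) hN.le, h.r₀_le, h.T₁_le']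
    have b5 : 0 ≤ 2 * (3 * P.U) * (s - u) := mul_nonneg (by linarith) (hd.le.trans b1)
    refine (div_le_div₀ (c := 3 ^ 3) (by norm_num) (pow_le_pow_left₀ (by linarith) (by linarith) 3)
      (pow_pos hd 3) (pow_le_pow_left₀ hd.le b1 3)).trans_eq ?_
    field_simp
    norm_num
  rw [e1, e2]
  refine (mul_le_mul_right ((setLIntegral_mono' measurableSet_Ioo h5).trans (lintegral_mono_set
    (Ioo_subset_Ioo_right (sub_le_self _ (by positivity))))) _).trans ?_
  rw [lintegral_const_mul' _ _ ENNReal.ofReal_ne_top, ← mul_assoc,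
    ← ENNReal.ofReal_mul (by positivity)]
  refine mul_le_mul_left (ENNReal.ofReal_le_ofReal ?_) _
  have h6 := h4.trans (h1.2 (by positivity))
  rw [le_div_iff₀ (by positivity)] at h6
  calc _ = P.th s * (27 * P.N ^ 20) * (P.th s)⁻¹ ^ 6 := by field_simp
    _ ≤ _ := mul_le_of_le_one_left (by positivity) h6

theorem Par.Mc_mono (P : Par) (g : PF) {s t : ℝ} (h : s ≤ t) : P.Mc g s ≤ P.Mc g t := by
  exact lintegral_mono_set (prod_mono (Ioo_subset_Ioo_right h) Subset.rfl)

end

end Crest.Agent.R68
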