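import Crest.Agent.R68.EK1

/-!
# R68 (S0091): the double Duhamel estimate
-/

set_option autoImplicit false

namespace Crest.Agent.R68

open MeasureTheory Set Filter Crest.AnalysisR.VecCalc3 Crest.AnalysisR.PDE.Boltzmann
open scoped ENNReal _root_.Topology

noncomputable section

private theorem ek3_mono {P : Par} {g : PF} {c c' : ℝ≥0∞} (h : P.Bd g c) (hc : c ≤ c') :
    P.Bd g c' := fun t ht x v => (h t ht x v).trans (mul_le_mul_left hc _)

private theorem ek3_le {P : Par} {g g' : PF} {c : ℝ≥0∞} (h : P.Bd g' c)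
    (hg : ∀ t ∈ Icc 0 P.T₀, ∀ x v, g t x v ≤ g' t x v) : P.Bd g c :=
  fun t ht x v => (hg t ht x v).trans (h t ht x v)

private theorem ek3_add {P : Par} {g g₁ g₂ : PF} {c₁ c₂ : ℝ≥0∞} (h₁ : P.Bd g₁ c₁) (h₂ : P.Bd g₂ c₂)
    (hg : ∀ t ∈ Icc 0 P.T₀, ∀ x v, g t x v ≤ g₁ t x v + g₂ t x v) : P.Bd g (c₁ + c₂) :=
  fun t ht x v => (hg t ht x v).trans
    ((add_le_add (h₁ t ht x v) (h₂ t ht x v)).trans (add_mul _ _ _).ge)

private theorem ek3_T {P : Par} (h : P.Ok) {t : ℝ} (ht : t ∈ Icc 0 P.T₀) : t ∈ Icc 0 P.T₁ :=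
  ⟨ht.1, ht.2.trans (h.T₀_le.trans h.T'_le)⟩

private theorem ek3_th {P : Par} (h : P.Ok) (t : ℝ) : t ≤ P.th t :=
  le_add_of_nonneg_right (div_pos h.r_pos h.L_pos).le

private theorem ek3_mm {P : Par} {t : ℝ} (ht : t ≤ P.T₀) : P.mm t = P.th t / P.T₀ := if_pos ht

/-- the main part -/
private theorem ek3_main : ∀ᶠ P in 𝓕, ∀ (F q : PF) (M : ℝ → ℝ≥0∞) (c d : ℝ≥0∞), Meas q →
    P.Bd q (P.N * c) → (∀ s x a, q s x a ≠ 0 → ‖a‖ ≤ 3 * P.U) → Monotone M →
    (∀ s ∈ Icc 0 P.T₀, ∀ x, ∫⁻ a, q s x a ≤ ENNReal.ofReal ((P.th s)⁻¹ ^ 6) * M s) →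
    (∀ t ∈ Icc 0 P.T₀, ENNReal.ofReal (P.T₀ * (P.th t)⁻¹ ^ 9) * M t ≤ d) →
    P.Bd (Duh F (P.srcR q)) (ENNReal.ofReal (2 / P.N ^ 2) * c + d) := by
  filter_upwards [ev_ok, NL, K0, small_r0 (fun Q => (Q.N : ℝ) ^ 36 * Real.exp (4 * Q.U ^ 2))
    (c := 1 / 2) (by norm_num)] with P h hNL hK0 hs F q M c d hq hb h0 hM hi hd t ht x v
  obtain ⟨y, rfl⟩ : ∃ y, x = y + t • v := ⟨x - t • v, by rw [sub_add_cancel]⟩
  rw [Duh_eq]
  have hU := h.U_ge
  have hI : ∀ s ∈ Ioo 0 t, s ∈ Icc 0 P.T₀ := fun s hs => ⟨hs.1.le, hs.2.le.trans ht.2⟩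
  by_cases hv : 4 * P.U < ‖v‖
  · rw [setLIntegral_congr_fun measurableSet_Ioo (g := fun _ => 0) fun s hs => ?_, lintegral_zero]
    · exact zero_le
    have : Qp (P.St s (y + s • v)) (q s (y + s • v)) v = 0 :=
      Qp_eq_zero_of_norm (ρ := 3 / 2) (ρ' := 3 * P.U) (by norm_num) (by linarith)
        (fun a ha => (h.StP_supp (ek3_T h (hI s hs)) ha).1) (h0 s _) (by linarith)
    simp only [Par.srcR, this, mul_zero]
  have hN : (10000 : ℝ) ≤ P.N := h.N_ge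
  have hN0 : (0 : ℝ) < P.N := by linarith
  have hT := h.T₀_pos
  have hr₀ := h.r₀_pos
  have hth := h.th_pos ht.1
  obtain ⟨θ, hθ⟩ : ∃ θ, θ = P.th t / P.N ^ 4 := ⟨_, rfl⟩
  have hθ0 : 0 < θ := by rw [hθ]; positivity
  have hθr : θ ≤ P.r₀ := by
    have h1 := h.th_T' (ht.2.trans h.T₀_le)
    have h2 : (1 : ℝ) ≤ P.N ^ 4 := one_le_pow₀ (by linarith)
    rw [hθ]
    exact (div_le_self hth.le h2).trans ((le_mul_of_one_le_left hth.le h2).trans h1)
  obtain ⟨E, hE⟩ : ∃ E, E = P.E0 t (y + t • v) v := ⟨_, rfl⟩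
  rw [← hE]
  obtain ⟨K₁, hK₁⟩ : ∃ K₁, K₁ = P.N * c * ENNReal.ofReal (P.N / P.T₀) * E := ⟨_, rfl⟩
  obtain ⟨K₂, hK₂⟩ : ∃ K₂, K₂ = P.N * c * ENNReal.ofReal (1 / (P.N ^ 3 * P.T₀)) * E +
    ENNReal.ofReal (θ⁻¹ ^ 9 * P.r₀ ^ (1 / 2 : ℝ)) * M t := ⟨_, rfl⟩
  have hpt : ∀ s ∈ Ioo 0 t, att (Hz F y v s t) * P.srcR q s (y + s • v) v ≤
      (Ioc 0 θ).indicator (fun _ => K₁) s + K₂ := by
    intro s hs
    have hs' := hI s hs
    have hths := h.th_pos hs'.1
    have hmm := h.mm_pos hs'.1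
    have hEs : P.E0P s (Xr (y + s • v)) v ≤ E :=
      hE ▸ h.E0_mono hs'.1 hs.2.le (ek3_T h ht).2 y v
    have hqa : ∀ a, q s (y + s • v) a ≤
        P.N * c * ENNReal.ofReal (P.mm s) * P.E0P s (Xr (y + s • v)) a := fun a =>
      (hb s hs' _ a).trans (mul_assoc _ _ _).ge
    refine (mul_le_of_le_one_left' (att_le_one _)).trans ?_
    by_cases hc : s ≤ θ
    · rw [indicator_of_mem (mem_Ioc.2 ⟨hs.1, hc⟩)]
      refine le_trans ?_ le_self_add
      have h1 := hNL s (ek3_T h hs') (Xr (y + s • v)) _ (hq.slice s (y + s • v)) v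
        (P.N * c * ENNReal.ofReal (P.mm s)) fun a => (hqa a).trans (mul_le_mul_right
          (le_mul_of_one_le_left' (ENNReal.one_le_ofReal.2 (Real.one_le_exp (by positivity)))) _)
      refine ((le_mul_of_one_le_left' (a5_one_le_br v)).trans h1).trans ?_
      rw [hK₁, mul_assoc (P.N * c), ← ENNReal.ofReal_mul hmm.le]
      gcongr
      have h2 : P.L * P.th s ≤ P.mx s (Xr (y + s • v)) := le_max_right _ _
      have hL := h.L_pos
      calc _ ≤ P.mm s * (P.N * P.L / (P.L * P.th s)) := by gcongr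
        _ = _ := by
          rw [ek3_mm hs'.2]
          field_simp
    · refine le_trans ?_ le_add_self
      refine (hK0 s hs' (Xr (y + s • v)) _ (hq.slice s (y + s • v)) _ hqa v).trans ?_
      rw [hK₂]
      refine add_le_add ?_ ?_
      · rw [mul_assoc (P.N * c), ← ENNReal.ofReal_mul hmm.le]
        gcongr
        rw [ek3_mm hs'.2]
        exact le_of_eq (by field_simp)
      · refine (mul_le_mul_right (hi s hs' _) _).trans ?_
        rw [← mul_assoc, ← ENNReal.ofReal_mul (by positivity)]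
        refine mul_le_mul' (ENNReal.ofReal_le_ofReal ?_) (hM hs.2.le)
        have h1 : θ ≤ P.th s := (not_le.1 hc).le.trans (ek3_th h s)
        have h2 : θ ^ (-(5 / 2) : ℝ) = θ⁻¹ ^ 3 * θ ^ (1 / 2 : ℝ) := by
          rw [inv_pow, ← Real.rpow_natCast, ← Real.rpow_neg hθ0.le, ← Real.rpow_add hθ0]
          norm_num
        calc _ ≤ θ ^ (-(5 / 2) : ℝ) * θ⁻¹ ^ 6 :=
              mul_le_mul (Real.rpow_le_rpow_of_nonpos hθ0 h1 (by norm_num))
                (pow_le_pow_left₀ (by positivity) (inv_anti₀ hθ0 h1) 6) (by positivity)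
                (by positivity)
          _ = θ⁻¹ ^ 9 * θ ^ (1 / 2 : ℝ) := by rw [h2]; ring
          _ ≤ _ := by gcongr
  have hG : ENNReal.ofReal (Real.exp (-(4 * P.U ^ 2))) ≤ E := by
    rw [hE]
    refine le_trans ?_ (h.Gs_le_E0P (t := t) (Xr (y + t • v)) v)
    refine ENNReal.ofReal_le_ofReal (Real.exp_le_exp.2 ?_)
    have h1 := pow_le_pow_left₀ (norm_nonneg v) (not_lt.1 hv) 2
    nlinarith [mul_nonneg ht.1 (sq_nonneg ‖v‖)]
  have a1 : K₁ * ENNReal.ofReal θ =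
      ENNReal.ofReal (1 / P.N ^ 2) * c * (ENNReal.ofReal (P.mm t) * E) := by
    have : (P.N : ℝ≥0∞) * ENNReal.ofReal (P.N / P.T₀) * ENNReal.ofReal θ =
        ENNReal.ofReal (1 / P.N ^ 2) * ENNReal.ofReal (P.mm t) := by
      rw [← ENNReal.ofReal_natCast, ← ENNReal.ofReal_mul hN0.le, ← ENNReal.ofReal_mul (by positivity),
        ← ENNReal.ofReal_mul (by positivity), ek3_mm ht.2, hθ]
      congr 1
      field_simp
    calc _ = (P.N : ℝ≥0∞) * ENNReal.ofReal (P.N / P.T₀) * ENNReal.ofReal θ * (c * E) := by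
          rw [hK₁]; ring
      _ = _ := by rw [this]; ring
  have a2 : K₂ * ENNReal.ofReal (P.th t) ≤
      ENNReal.ofReal (1 / P.N ^ 2) * c * (ENNReal.ofReal (P.mm t) * E) +
        d * (ENNReal.ofReal (P.mm t) * E) := by
    rw [hK₂, add_mul]
    refine add_le_add (le_of_eq ?_) ?_
    · have : (P.N : ℝ≥0∞) * ENNReal.ofReal (1 / (P.N ^ 3 * P.T₀)) * ENNReal.ofReal (P.th t) =
          ENNReal.ofReal (1 / P.N ^ 2) * ENNReal.ofReal (P.mm t) := by
        rw [← ENNReal.ofReal_natCast, ← ENNReal.ofReal_mul hN0.le,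
          ← ENNReal.ofReal_mul (by positivity), ← ENNReal.ofReal_mul (by positivity), ek3_mm ht.2]
        congr 1
        field_simp
      calc _ = (P.N : ℝ≥0∞) * ENNReal.ofReal (1 / (P.N ^ 3 * P.T₀)) * ENNReal.ofReal (P.th t) *
            (c * E) := by ring
        _ = _ := by rw [this]; ring
    · refine le_trans ?_ (mul_le_mul' (hd t ht) (mul_le_mul_right hG _))
      rw [mul_right_comm, mul_right_comm (ENNReal.ofReal _) (M t),
        ← ENNReal.ofReal_mul (h.mm_pos ht.1).le, ← ENNReal.ofReal_mul (by positivity),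
        ← ENNReal.ofReal_mul (by positivity)]
      refine mul_le_mul_left (ENNReal.ofReal_le_ofReal ?_) _
      have hs' : (P.N : ℝ) ^ 36 * Real.exp (4 * P.U ^ 2) * P.r₀ ^ (1 / 2 : ℝ) ≤ 1 := hs
      calc _ = (P.N ^ 36 * Real.exp (4 * P.U ^ 2) * P.r₀ ^ (1 / 2 : ℝ)) *
            (P.T₀ * (P.th t)⁻¹ ^ 9 * (P.mm t * Real.exp (-(4 * P.U ^ 2)))) := by
            rw [ek3_mm ht.2, hθ, Real.exp_neg]
            field_simp
        _ ≤ _ := mul_le_of_le_one_left (by have := h.mm_pos ht.1; positivity) hs'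
  calc _ ≤ ∫⁻ s in Ioo 0 t, ((Ioc 0 θ).indicator (fun _ => K₁) s + K₂) :=
        setLIntegral_mono' measurableSet_Ioo hpt
    _ ≤ K₁ * ENNReal.ofReal θ + K₂ * ENNReal.ofReal (P.th t) := by
        rw [lintegral_add_right _ measurable_const, setLIntegral_const, Real.volume_Ioo, sub_zero]
        refine add_le_add ((setLIntegral_le_lintegral _ _).trans (le_of_eq ?_))
          (mul_le_mul_right (ENNReal.ofReal_le_ofReal (ek3_th h t)) _)
        rw [lintegral_indicator_const measurableSet_Ioc, Real.volume_Ioc, sub_zero]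
    _ ≤ _ := by
        refine (add_le_add a1.le a2).trans (le_of_eq ?_)
        rw [show (2 : ℝ) / P.N ^ 2 = 1 / P.N ^ 2 + 1 / P.N ^ 2 by ring,
          ENNReal.ofReal_add (by positivity) (by positivity)]
        ring

/-- Let `p = Duh F (srcK g)`, `q = p ⊓ pm g`, `p₁ = p - q`.  By `K1`, `Bd p₁ (4c/N³)`, so `R p₁`
contributes `4c/N²` (`R_norm`).  `q ≤ p` has `Bd q (N c)` (`srcK ≤ srcR`, `R_norm`) and vanishes for
`‖a‖ > 3U`, so `srcR q` vanishes for `‖v‖ > 4U`.  In `R q (t)` the times `s ≤ th(t)/N⁴` contribute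
`N · N c · N⁻⁴` (`NL`, `mm_div`); for the others use `K0` (constant `N c mm(s)`: `c/N²`) and `K2`,
`Mc_mono`: at most `th(t) (th(t)/N⁴)^{-17/2} Mc(t)`, while
`mm(t) E0 ≥ (th(t)/T₀) exp(-4U²)` for `‖v‖ ≤ 4U`, and `N^{34} exp(4U²) ≤ th^{-1/2}`. -/
theorem K3 : ∀ᶠ P in 𝓕, ∀ (F g : PF) (c d : ℝ≥0∞), Meas F → Meas g → Per g → P.Bd g c →
    (∀ t ∈ Icc 0 P.T₀, ENNReal.ofReal (P.T₀ * (P.th t)⁻¹ ^ 9) * P.Mc g t ≤ d) →
    P.Bd (Duh F (P.srcR (Duh F (P.srcK g)))) (ENNReal.ofReal (10 / P.N ^ 2) * c + d) := by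
  filter_upwards [ev_ok, K1, K2, R_norm, ek3_main] with P h hK1 hK2 hR hmain F g c d hF hg hp hb hd
  obtain ⟨p, hpd⟩ : ∃ p, p = Duh F (P.srcK g) := ⟨_, rfl⟩
  have hpm : Meas p := hpd ▸ hF.duh (P.meas_srcK hg)
  obtain ⟨q, hqd⟩ : ∃ q : PF, q = fun s x a => min (p s x a) (P.pm g s x a) := ⟨_, rfl⟩
  have hqm : Meas q := hqd ▸ Measurable.min hpm (P.meas_pm hg)
  obtain ⟨p₁, hp₁⟩ : ∃ p₁ : PF, p₁ = fun s x a => p s x a - q s x a := ⟨_, rfl⟩
  have hp₁m : Meas p₁ := hp₁ ▸ Measurable.sub hpm hqm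
  have hqp : ∀ s x a, q s x a ≤ p s x a := fun s x a => by rw [hqd]; exact min_le_left _ _
  have hqp' : ∀ s x a, q s x a ≤ P.pm g s x a := fun s x a => by rw [hqd]; exact min_le_right _ _
  have e : p = fun s x a => p₁ s x a + q s x a := by
    funext s x a
    rw [hp₁]
    exact (tsub_add_cancel_of_le (hqp s x a)).symm
  have b1 : P.Bd p₁ (ENNReal.ofReal (4 / P.N ^ 3) * c) := fun s hs x a => by
    simp only [hp₁, hqd, tsub_min]
    rw [tsub_le_iff_right, hpd]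
    exact hK1 F g c hg hb s hs x a
  have b2 : P.Bd q (P.N * c) := ek3_le (hR F g c hg hb) fun s _ x a => (hqp s x a).trans <| by
    rw [hpd]
    exact Duh_mono F (fun s _ x v => P.srcR_eq hg s x v ▸ le_add_self) x a
  have b3 := hmain F q (P.Mc g) c d hqm b2 (fun s x a ha => by
      by_contra hc
      exact ha (le_zero_iff.1 ((hqp' s x a).trans (if_neg hc).le)))
    (fun _ _ hst => P.Mc_mono g hst)
    (fun s hs x => (lintegral_mono (hqp' s x)).trans (hK2 g hg hp s hs x)) hd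
  have hN : (10000 : ℝ) ≤ P.N := h.N_ge
  have hN0 : (0 : ℝ) < P.N := by linarith
  rw [← hpd]
  refine ek3_mono (ek3_add (hR F p₁ _ hp₁m b1) b3 fun t _ x v => le_of_eq ?_) ?_
  · rw [← Duh_add hF (P.meas_srcR hp₁m), e]
    congr 1
    funext s x v
    rw [P.srcR_add hp₁m hqm]
  · rw [← add_assoc, ← mul_assoc, ← add_mul, ← ENNReal.ofReal_natCast, ← ENNReal.ofReal_mul hN0.le,
      ← ENNReal.ofReal_add (by positivity) (by positivity)]
    gcongr
    rw [show P.N * (4 / (P.N : ℝ) ^ 3) + 2 / P.N ^ 2 = 6 / P.N ^ 2 by field_simp; norm_num]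
    gcongr
    norm_num

/-- `Bd g c ∧ (∀ c', Bd g c' → Bd g (e + c'/4))` with `c < ∞` gives `Bd g (4e/3)`; here stated as
`2 e` (iterate, or take the infimum of the admissible constants). -/
theorem Par.Bd.absorb {P : Par} (h : P.Ok) {g : PF} {c e : ℝ≥0∞} (hc : c ≠ ⊤) (h0 : P.Bd g c)
    (h1 : ∀ c', P.Bd g c' → P.Bd g (e + c' / 4)) : P.Bd g (2 * e) := by
  have hk : ∀ k : ℕ, P.Bd g (2 * e + c * 4⁻¹ ^ k) := fun k => by
    induction k with
    | zero => exact ek3_mono h0 (by simp)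
    | succ k ih =>
      refine ek3_mono (h1 _ ih) ?_
      have h2 : 2 * e * 4⁻¹ ≤ e := by
        rw [mul_right_comm]
        refine mul_le_of_le_one_left' ?_
        rw [← div_eq_mul_inv]
        exact ENNReal.div_le_of_le_mul (by norm_num)
      rw [div_eq_mul_inv, add_mul, ← add_assoc, pow_succ, mul_assoc c, two_mul e]
      gcongr
      rwa [← two_mul]
  intro t ht x v
  have hW : ENNReal.ofReal (P.mm t) * P.E0 t x v ≠ ⊤ :=
    ENNReal.mul_ne_top ENNReal.ofReal_ne_top (h.E0P_ne_top t _ v)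
  have h2 : Tendsto (fun k : ℕ => (4⁻¹ : ℝ≥0∞) ^ k) atTop (𝓝 0) :=
    ENNReal.tendsto_pow_atTop_nhds_zero_of_lt_one (by norm_num)
  have h3 := ENNReal.Tendsto.mul_const
    ((tendsto_const_nhds (x := 2 * e)).add (ENNReal.Tendsto.const_mul (a := c) h2 (Or.inr hc)))
    (Or.inr hW)
  rw [mul_zero, add_zero] at h3
  exact ge_of_tendsto' h3 fun k => hk k t ht x v

/-- Lasota-Yorke dichotomy.  Suppose both alternatives fail.  Let `h = hx F`, `p = Duh F (srcK h)`,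
`h₁ = h - p`, `e = a/(25 N)`.  By `HI` (first form, `C = F`), `h ≤ g₀ + Duh (srcS h) + p` with
`g₀ = α seed + (2a/C₄) mm E0`, `Bd g₀ (a/(100N) + 2a/C₄)` (`seed_le`, monotonicity); `K3` gives
`Bd (R p) (10a/N² + a/(100N))`.  So `h₁ ≤ g₀ + S h₁ + R p` and `Bd h₁ (2e)` (`S_norm`, `absorb`),
`p ≤ R h₁ + R p` has `Bd p (2Ne + e)`, and `h ≤ h₁ + p` has `Bd h (3Ne) `, `3Ne ≤ a/2`. -/
theorem LY : ∀ᶠ P in 𝓕, ∀ α F, P.Sol α F → P.Bd (P.hx F) (ENNReal.ofReal P.a) →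
    ¬ P.Bd (P.hx F) (ENNReal.ofReal (P.a / 2)) →
    P.a * P.mm 0 / (100 * (P.N : ℝ)) ≤ α ∨ ∃ t ∈ Icc 0 P.T₀,
      ENNReal.ofReal (P.a * P.th t ^ 9 / (100 * P.N * P.T₀)) ≤ P.Mc (P.hx F) t := by
  filter_upwards [ev_ok, HI, K3, S_norm, R_norm] with P h hHI hK3 hS hR α F hF hb hn
  by_contra hcon
  rw [not_or, not_le, not_exists] at hcon
  obtain ⟨hα, hMc⟩ := hcon
  apply hn
  have hN : (10000 : ℝ) ≤ P.N := h.N_ge
  have hN0 : (0 : ℝ) < P.N := by linarith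
  have ha := h.a_pos
  have hT := h.T₀_pos
  have hC : 200 * (P.N : ℝ) ≤ P.C₄ := by
    have h1 : (P.N : ℝ) ^ 4 = P.N * P.N ^ 3 := by ring
    have h2 : (2 : ℝ) ≤ P.N ^ 3 := le_trans (by linarith) (le_self_pow₀ (by linarith) (by norm_num))
    nlinarith [h.C₃_ge, h.C₄_ge']
  have hC0 : 0 < P.C₄ := by linarith
  have hI := hHI (2 * P.a) ⟨by positivity, le_rfl⟩ α F F hF.meas hF.mild
    fun s hs => hF.le s ⟨hs.1.le, hs.2.le⟩
  obtain ⟨g, hgd⟩ : ∃ g, g = P.hx F := ⟨_, rfl⟩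
  have hg : Meas g := hgd ▸ P.meas_hx hF.meas
  have hgp : Per g := hgd ▸ P.per_hx hF.per
  rw [← hgd] at hb hMc ⊢
  obtain ⟨u, hu⟩ : ∃ u, u = ENNReal.ofReal (P.a / (100 * P.N)) := ⟨_, rfl⟩
  obtain ⟨g₀, hg₀⟩ : ∃ g₀ : PF, g₀ = fun t x v => ENNReal.ofReal α * P.seed (x - t • v) v +
    ENNReal.ofReal (2 * P.a * P.mm t / P.C₄) * P.E0 t x v := ⟨_, rfl⟩
  have b0 : P.Bd g₀ (u + u) := fun t ht x v => by
    have hm := h.mm_pos ht.1
    rw [hg₀, add_mul, hu, ← mul_assoc, ← ENNReal.ofReal_mul (by positivity)]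
    refine add_le_add (mul_le_mul' (ENNReal.ofReal_le_ofReal (hα.le.trans ?_)) ?_)
      (mul_le_mul_left (ENNReal.ofReal_le_ofReal ?_) _)
    · rw [div_mul_eq_mul_div]
      gcongr
      exact h.mm_mono le_rfl ht.1
    · have := h.E0_mono le_rfl ht.1 (ek3_T h ht).2 (x - t • v) v
      rw [zero_smul, add_zero, sub_add_cancel] at this
      exact (h.seed_le _ v).trans this
    · calc _ ≤ 2 * P.a * P.mm t / (200 * P.N) := by gcongr
        _ = _ := by field_simp; norm_num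
  obtain ⟨p, hpd⟩ : ∃ p, p = Duh F (P.srcK g) := ⟨_, rfl⟩
  have hpm : Meas p := hpd ▸ hF.meas.duh (P.meas_srcK hg)
  have b1 : P.Bd (Duh F (P.srcR p)) (u + u) := by
    rw [hpd]
    refine ek3_mono (hK3 F g _ u hF.meas hg hgp hb fun t ht => ?_) (add_le_add_left ?_ _)
    · have hth := h.th_pos ht.1
      refine (mul_le_mul_right (not_le.1 fun hc => hMc t ⟨ht, hc⟩).le _).trans (le_of_eq ?_)
      rw [hu, ← ENNReal.ofReal_mul (by positivity)]
      congr 1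
      field_simp
    · rw [hu, ← ENNReal.ofReal_mul (by positivity)]
      refine ENNReal.ofReal_le_ofReal ?_
      rw [div_mul_eq_mul_div, div_le_div_iff₀ (by positivity) (by positivity)]
      nlinarith [mul_pos ha hN0]
  obtain ⟨g₁, hg₁⟩ : ∃ g₁ : PF, g₁ = fun s x a => g s x a - p s x a := ⟨_, rfl⟩
  have hg₁m : Meas g₁ := hg₁ ▸ Measurable.sub hg hpm
  have hle : ∀ s x a, g s x a ≤ g₁ s x a + p s x a := fun s x a => by
    rw [hg₁]
    exact le_tsub_add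
  have h1 : ∀ t ∈ Icc 0 P.T₀, ∀ x v, g₁ t x v ≤
      (g₀ t x v + Duh F (P.srcR p) t x v) + Duh F (P.srcS g₁) t x v := fun t ht x v => by
    have a1 : g t x v ≤ P.hot (2 * P.a) α F t x v := by
      rw [hgd]
      exact tsub_le_iff_left.2 (hI t (ek3_T h ht) x v).1
    have a2 : Duh F (P.srcR g) t x v = Duh F (P.srcS g) t x v + p t x v := by
      rw [hpd, ← Duh_add hF.meas (P.meas_srcS hg)]
      congr 1
      funext s x v
      exact P.srcR_eq hg s x v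
    have a3 : Duh F (P.srcS g) t x v ≤ Duh F (P.srcS g₁) t x v + Duh F (P.srcR p) t x v := by
      rw [← Duh_add hF.meas (P.meas_srcS hg₁m)]
      exact Duh_mono F (fun s _ x v => P.srcS_le_add hg₁m hpm (hle s x) v) x v
    rw [hg₁]
    refine tsub_le_iff_right.2 (a1.trans ?_)
    rw [Par.hot, ← hgd, a2, ← hg₁, hg₀]
    calc _ ≤ ENNReal.ofReal α * P.seed (x - t • v) v +
          (Duh F (P.srcS g₁) t x v + Duh F (P.srcR p) t x v + p t x v) +
          ENNReal.ofReal (2 * P.a * P.mm t / P.C₄) * P.E0 t x v := by gcongr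
      _ = _ := by ring
  have b2 : P.Bd (fun t x v => g₀ t x v + Duh F (P.srcR p) t x v) (u + u + (u + u)) :=
    ek3_add b0 b1 fun _ _ _ _ => le_rfl
  have b3 : P.Bd g₁ (2 * (u + u + (u + u))) :=
    Par.Bd.absorb h ENNReal.ofReal_ne_top
      (ek3_le hb fun s _ x a => by rw [hg₁]; exact tsub_le_self)
      fun c' hc' => ek3_add b2 (hS α F hF g₁ c' hg₁m hc') h1
  have b4 : P.Bd p (P.N * (2 * (u + u + (u + u))) + (u + u)) :=
    ek3_add (hR F g₁ _ hg₁m b3) b1 fun t _ x v => by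
      rw [← Duh_add hF.meas (P.meas_srcR hg₁m)]
      conv_lhs => rw [hpd]
      exact Duh_mono F (fun s _ x v => P.srcK_le_add hg₁m hpm (hle s x) v) x v
  refine ek3_mono (ek3_add b3 b4 fun t _ => hle t) ?_
  calc _ = (8 * P.N + 10) * u := by ring
    _ = ENNReal.ofReal ((8 * P.N + 10) * (P.a / (100 * P.N))) := by
        rw [ENNReal.ofReal_mul (by positivity), ENNReal.ofReal_add (by positivity) (by norm_num),
          ENNReal.ofReal_mul (by norm_num), ENNReal.ofReal_natCast, hu]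
        norm_num
    _ ≤ _ := by
        refine ENNReal.ofReal_le_ofReal ?_
        rw [← mul_div_assoc, div_le_div_iff₀ (by positivity) (by positivity)]
        nlinarith [mul_pos ha hN0]

end

end Crest.Agent.R68
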