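import Crest.Agent.R68.ERen2
import Crest.Agent.R68.EK3

/-!
# R68 (S0091): lower bound for the loud solutions
-/

set_option autoImplicit false

namespace Crest.Agent.R68

open MeasureTheory Set Filter Crest.AnalysisR.VecCalc3 Crest.AnalysisR.PDE.Boltzmann
open scoped ENNReal _root_.Topology

noncomputable section

theorem eloud_exp : 1 / 600 ≤ Real.exp (-(25 / 4)) := by
  have h1 : Real.exp (25 / 4) ^ 4 ≤ 600 ^ 4 := by
    rw [← Real.exp_nat_mul, show ((4 : ℕ) : ℝ) * (25 / 4) = (25 : ℕ) * 1 by norm_num, Real.exp_nat_mul]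
    calc Real.exp 1 ^ 25 ≤ (272 / 100) ^ 25 := by
          gcongr
          linarith [Real.exp_one_lt_d9]
      _ ≤ _ := by norm_num
  have h2 : Real.exp (25 / 4) ≤ 600 := le_of_pow_le_pow_left₀ (by norm_num) (by norm_num) h1
  rw [Real.exp_neg, ← one_div]
  exact one_div_le_one_div_of_le (Real.exp_pos _) h2

theorem eloud_vel {P : Par} (h : P.Ok) {x : R3} (h1 : P.r / 2 ≤ ‖Xr x‖) (h2 : ‖Xr x‖ ≤ P.r) :
    ENNReal.ofReal (1 / 200) ≤ ∫⁻ v, P.seed x v := by
  have hr := h.r_pos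
  have hX : 0 < ‖Xr x‖ := by linarith
  obtain ⟨w, hw⟩ : ∃ w : ℂ, w = (2 / ‖Xr x‖ : ℝ) • (Complex.I * Xr x) := ⟨_, rfl⟩
  have hw1 : ‖w‖ = 2 := by
    rw [hw, norm_smul, norm_mul, Complex.norm_I, one_mul, Real.norm_of_nonneg (by positivity),
      div_mul_cancel₀ _ hX.ne']
  have hw2 : wd (Xr x) w = 2 * ‖Xr x‖ := by
    have e := Complex.sq_norm (Xr x)
    rw [Complex.normSq_apply] at e
    rw [hw]
    simp only [wd, Complex.real_smul, Complex.mul_re, Complex.mul_im, Complex.ofReal_re,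
      Complex.ofReal_im, Complex.I_re, Complex.I_im]
    field_simp
    linarith
  have hm : Measurable (P.seed x) := P.measX_seed.comp (measurable_const.prodMk measurable_id)
  rw [lintegral_mk3 _ hm]
  calc _ ≤ ENNReal.ofReal (1 / 600) * volume (Metric.closedBall w 1) := by
        rw [Complex.volume_closedBall, ← ENNReal.ofReal_coe_nnreal, NNReal.coe_real_pi,
          ENNReal.ofReal_one, one_pow, one_mul, ← ENNReal.ofReal_mul (by norm_num)]
        exact ENNReal.ofReal_le_ofReal (by linarith [Real.pi_gt_three])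
    _ ≤ _ := by
        rw [← lintegral_indicator_const measurableSet_closedBall]
        refine lintegral_mono fun ζ => indicator_apply_le' (fun hζ => ?_) fun _ => zero_le
        rw [mem_closedBall_iff_norm] at hζ
        calc ENNReal.ofReal (1 / 600) = ENNReal.ofReal (1 / 600) * volume (Icc (3 : ℝ) 4) := by
              rw [Real.volume_Icc]; norm_num
          _ ≤ _ := by
            rw [← lintegral_indicator_const measurableSet_Icc]
            refine lintegral_mono fun s => indicator_apply_le' (fun hs => ?_) fun _ => zero_le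
            have a1 : ‖ζ‖ ≤ 3 := by linarith [norm_le_norm_sub_add ζ w]
            have a2 : ‖mk3 ζ s‖ ^ 2 ≤ 5 ^ 2 := by
              rw [norm_mk3_sq]
              nlinarith [norm_nonneg ζ, hs.1, hs.2]
            have a3 : ‖mk3 ζ s‖ ≤ 5 := le_of_pow_le_pow_left₀ two_ne_zero (by norm_num) a2
            have a4 : ‖Xr x‖ ≤ |wd (Xr x) ζ| := by
              have e : wd (Xr x) ζ = wd (Xr x) w + wd (Xr x) (ζ - w) := by
                simp only [wd, Complex.sub_re, Complex.sub_im]; ring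
              have b1 := (abs_le.1 ((abs_wd_le (Xr x) (ζ - w)).trans
                (mul_le_of_le_one_right hX.le hζ))).1
              exact le_trans (by linarith) (le_abs_self _)
            unfold Par.seed
            rw [if_pos]
            · exact ENNReal.ofReal_le_ofReal (eloud_exp.trans (Real.exp_le_exp.2 (by linarith)))
            · refine ⟨h1, h2, by linarith [h.V_ge], ?_, hs.1⟩
              simp only [pr_mk3]
              exact le_trans (mul_le_of_le_one_left hX.le (by linarith [h.δ₀_le, h.κ₀_le])) a4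

/-- `lintegral_cell_red`; for `r/2 ≤ ‖X‖ ≤ r` the velocities `mk3 ζ s`, `‖ζ - 2 I X/‖X‖‖ ≤ 1`,
`3 ≤ s ≤ 4` are admissible (`|wd| ≥ ‖X‖`, `‖v‖ ≤ 5`, `Gs (1/2) ≥ e^{-25/4} ≥ 1/600`);
`(3π/4) π / 600 ≥ 1/100`. -/
theorem Par.Ok.Ms_ge {P : Par} (h : P.Ok) : ENNReal.ofReal (P.r ^ 2 / 100) ≤ P.Ms := by
  have hr := h.r_pos
  have hr1 : P.r < 1 / 2 := by linarith [h.r_le', h.r₀_le, h.T₁_le']
  obtain ⟨S, hS⟩ : ∃ S : Set ℂ, S = Metric.closedBall 0 P.r \ Metric.ball 0 (P.r / 2) := ⟨_, rfl⟩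
  have hSm : MeasurableSet S := hS ▸ measurableSet_closedBall.diff measurableSet_ball
  have hsub : S ⊆ {z : ℂ | |z.re| < 1 / 2 ∧ |z.im| < 1 / 2} := fun z hz => by
    rw [hS] at hz
    have := mem_closedBall_zero_iff.1 hz.1
    exact ⟨by linarith [Complex.abs_re_le_norm z], by linarith [Complex.abs_im_le_norm z]⟩
  have hvol : ENNReal.ofReal (2 * P.r ^ 2) ≤ volume S := by
    rw [hS]
    refine le_trans ?_ le_measure_sdiff
    rw [Complex.volume_closedBall, Complex.volume_ball, ← ENNReal.ofReal_coe_nnreal,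
      NNReal.coe_real_pi, ← ENNReal.ofReal_pow hr.le, ← ENNReal.ofReal_pow (by positivity),
      ← ENNReal.ofReal_mul (by positivity), ← ENNReal.ofReal_mul (by positivity),
      ← ENNReal.ofReal_sub _ (by positivity)]
    exact ENNReal.ofReal_le_ofReal (by nlinarith [Real.pi_gt_three, sq_nonneg P.r])
  unfold Par.Ms
  rw [Measure.volume_eq_prod, ← Measure.prod_restrict, Measure.restrict_univ,
    lintegral_prod _ P.measX_seed.aemeasurable]
  calc _ = ENNReal.ofReal (1 / 200) * ENNReal.ofReal (2 * P.r ^ 2) := by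
        rw [← ENNReal.ofReal_mul (by norm_num)]; congr 1; ring
    _ ≤ ENNReal.ofReal (1 / 200) * volume S := by gcongr
    _ = ∫⁻ x in cell, S.indicator (fun _ => ENNReal.ofReal (1 / 200)) (red (pr x - 0)) := by
        rw [lintegral_cell_red _ (measurable_const.indicator hSm), lintegral_indicator hSm,
          Measure.restrict_restrict hSm, inter_eq_left.2 hsub, setLIntegral_const]
    _ ≤ _ := by
        refine lintegral_mono fun x => indicator_apply_le' (fun hx => ?_) fun _ => zero_le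
        rw [sub_zero, hS] at hx
        exact eloud_vel h (not_lt.1 fun h' => hx.2 (mem_ball_zero_iff.2 h'))
          (mem_closedBall_zero_iff.1 hx.1)

/-- Abstract growth lemma in the variable `θ = th t`: let `k ≥ 1` be maximal with
`(31/30)^k θ₀ ≤ Θ`; induction gives `B((31/30)^k θ₀) ≥ (3/2)^k (c + B θ₀)`, and
`(31/30)^{12} ≤ 3/2`. -/
theorem growth {B : ℝ → ℝ≥0∞} (hB : Monotone B) {c : ℝ≥0∞} {θ₀ Θ : ℝ} (h0 : 0 < θ₀)
    (h1 : 31 / 30 * θ₀ ≤ Θ)
    (hs : ∀ θ, θ₀ ≤ θ → 31 / 30 * θ ≤ Θ → 3 / 2 * (c + B θ) ≤ B (31 / 30 * θ)) :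
    ENNReal.ofReal ((Θ / θ₀) ^ 12 / 2) * (c + B θ₀) ≤ B Θ := by
  have e : (3 / 2 : ℝ≥0∞) = ENNReal.ofReal (3 / 2) := by
    rw [ENNReal.ofReal_div_of_pos two_pos]; simp
  have key : ∀ k : ℕ, (31 / 30) ^ (k + 1) * θ₀ ≤ Θ →
      ENNReal.ofReal ((3 / 2) ^ (k + 1)) * (c + B θ₀) ≤ B ((31 / 30) ^ (k + 1) * θ₀) := by
    intro k
    induction k with
    | zero =>
      intro hk
      rw [zero_add, pow_one, pow_one, ← e]
      exact hs θ₀ le_rfl h1
    | succ k ih =>
      intro hk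
      have a1 : (1 : ℝ) ≤ (31 / 30) ^ (k + 1) := one_le_pow₀ (by norm_num)
      have a2 : (31 / 30 : ℝ) ^ (k + 1 + 1) * θ₀ = 31 / 30 * ((31 / 30) ^ (k + 1) * θ₀) := by ring
      have a3 : 0 < (31 / 30 : ℝ) ^ (k + 1) * θ₀ := by positivity
      rw [a2] at hk ⊢
      refine le_trans ?_ (hs _ (le_mul_of_one_le_left h0.le a1) hk)
      rw [pow_succ', ENNReal.ofReal_mul (by norm_num), ← e, mul_assoc]
      gcongr
      exact le_add_left (ih (by linarith))
  have h2 : 31 / 30 ≤ Θ / θ₀ := (le_div_iff₀ h0).2 h1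
  obtain ⟨n, a1, a2⟩ := exists_nat_pow_near (x := Θ / θ₀) (y := 31 / 30) (by linarith) (by norm_num)
  obtain _ | k := n
  · rw [zero_add, pow_one] at a2
    linarith
  have a3 := (le_div_iff₀ h0).1 a1
  refine le_trans ?_ ((key k a3).trans (hB a3))
  gcongr
  calc (Θ / θ₀) ^ 12 / 2 ≤ ((31 / 30) ^ (k + 1 + 1)) ^ 12 / 2 := by gcongr
    _ = ((31 / 30) ^ 12) ^ (k + 1 + 1) / 2 := by rw [← pow_mul, ← pow_mul, mul_comm]
    _ ≤ (3 / 2) ^ (k + 1 + 1) / 2 := by gcongr; norm_num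
    _ ≤ _ := by
      have : (0 : ℝ) < (3 / 2) ^ (k + 1) := by positivity
      rw [pow_succ]
      linarith

/-- `th_T'` -/
theorem Par.Ok.Mb_le_GS {P : Par} (h : P.Ok) (F : PF) :
    Mb P.Gd F P.T' ≤ ∫⁻ p in P.GS, Qp (F p.1 p.2.1) (F p.1 p.2.1) p.2.2 := by
  have hm : MeasurableSet (Om3 P.T') :=
    measurableSet_Ioo.prod (measurableSet_cell.prod MeasurableSet.univ)
  rw [← lintegral_indicator (measurableSet_GS _)]
  refine le_trans (setLIntegral_mono' hm fun p hp => ?_) (setLIntegral_le_lintegral _ _)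
  by_cases hG : (p.1, Xr p.2.1, p.2.2) ∈ P.Gd
  · obtain ⟨a1, a2, a3, a4⟩ := id hG
    have ht := h.th_pos hp.1.1.le
    have hL := h.L_pos
    have b1 := h.th_T' hp.1.2.le
    have b2 : P.V ≤ (P.N : ℝ) ^ 4 := h.V_le.trans (le_self_pow₀ (by linarith [h.N_ge]) (by norm_num))
    rw [indicator_of_mem hG, Pi.one_apply, one_mul, indicator_of_mem]
    exact ⟨hp, lt_of_lt_of_le (by positivity) a1,
      a2.trans ((mul_le_mul_of_nonneg_right b2 ht.le).trans b1), a3, a4⟩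
  · rw [indicator_of_notMem hG, zero_mul]
    exact zero_le

theorem eloud_fin {P : Par} (h : P.Ok) {α : ℝ} {F : PF}
    (hm : ∀ t, 0 ≤ t → t + P.th t / 30 ≤ P.T' →
      3 / 2 * (ENNReal.ofReal α * P.Ms + Mb P.Gd F t) ≤ Mb P.Gd F (t + P.th t / 30))
    {t K : ℝ} (ht : 0 ≤ t) (hK : 0 ≤ K) (h1 : 31 / 30 * P.th t ≤ P.th P.T')
    (h2 : ENNReal.ofReal (K * P.th t ^ 9) ≤ ENNReal.ofReal α * P.Ms + Mb P.Gd F t) :
    ENNReal.ofReal (K * P.T₀ ^ 9 / 2) ≤ Mb P.Gd F P.T' := by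
  have h0 := h.th_pos ht
  have hrL : 0 < P.r / P.L := div_pos h.r_pos h.L_pos
  have key := growth (B := fun θ => Mb P.Gd F (θ - P.r / P.L)) (c := ENNReal.ofReal α * P.Ms)
    (fun a b hab => Mb_mono _ _ (by linarith)) h0 h1 fun θ a1 a2 => by
      have e : P.th (θ - P.r / P.L) = θ := by unfold Par.th; ring
      unfold Par.th at a1 a2
      have := hm (θ - P.r / P.L) (by linarith) (by rw [e]; linarith)
      rwa [e, show θ - P.r / P.L + θ / 30 = 31 / 30 * θ - P.r / P.L by ring] at this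
  have e1 : ∀ s, P.th s - P.r / P.L = s := fun s => by unfold Par.th; ring
  simp only [e1] at key
  refine le_trans ?_ (le_trans (mul_le_mul' le_rfl h2) key)
  rw [← ENNReal.ofReal_mul (by positivity)]
  refine ENNReal.ofReal_le_ofReal ?_
  have hT := h.T₀_pos
  have a1 : P.T₀ ≤ P.th P.T' := by unfold Par.th; linarith [h.T₀_le]
  have a2 : 1 ≤ P.th P.T' / P.th t := (one_le_div h0).2 (by linarith)
  calc K * P.T₀ ^ 9 / 2 ≤ K * P.th P.T' ^ 9 / 2 := by gcongr
    _ = (P.th P.T' / P.th t) ^ 9 / 2 * (K * P.th t ^ 9) := by field_simp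
    _ ≤ _ := by gcongr; norm_num

/-- There is `t̂ ≥ 0` with `(31/30) th t̂ ≤ th T'` and `α Ms + Mb Gd F t̂ ≥ a (th t̂)⁹/(C₄^{12} T₀)`:
in the first case of `LY` take `t̂ = 0` (`Ms_ge`, `r = L th 0`, `mm 0 = th 0/T₀`), in the second
`t̂ = t + 3V₁ th t` (`Mc_le_Mb`, `renew_semi`; `th t̂ = (1 + 3V₁) th t`, `th t ≤ 1.1 T₀`).
`growth` for `B θ = Mb Gd F (θ - r/L)` and `renew_main` give
`Mb Gd F T' ≥ a (th T')⁹/(2 C₄^{12} T₀) ≥ a T₀⁸/(2 C₄^{12}) = r₀^{μ+9}/(2 C₄^{20})`. -/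
theorem loud : ∀ᶠ P in 𝓕, ∀ α F, P.Sol α F → P.Bd (P.hx F) (ENNReal.ofReal P.a) →
    ¬ P.Bd (P.hx F) (ENNReal.ofReal (P.a / 2)) →
    ENNReal.ofReal (P.r₀ ^ (P.μ + 10)) ≤ ∫⁻ p in P.GS, Qp (F p.1 p.2.1) (F p.1 p.2.1) p.2.2 := by
  filter_upwards [ev_ok, LY, renew_main, renew_semi, Mc_le_Mb, small_r0 (fun Q =>
    2 * (10000 * Q.N / Q.L ^ 2 + 100 * Q.N * Q.C₄ * (1 + 3 * Q.V₁) ^ 9) * Q.C₄ ^ 8) one_pos]
    with P h hLY hm hs hM h1 α F hF b1 b2
  obtain ⟨C, hC⟩ : ∃ C, C = 10000 * P.N / P.L ^ 2 + 100 * P.N * P.C₄ * (1 + 3 * P.V₁) ^ 9 := ⟨_, rfl⟩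
  change 2 * (10000 * P.N / P.L ^ 2 + 100 * P.N * P.C₄ * (1 + 3 * P.V₁) ^ 9) * P.C₄ ^ 8 *
    P.r₀ ^ (1 : ℝ) ≤ 1 at h1
  rw [← hC, Real.rpow_one] at h1
  have hL := h.L_pos
  have hN := h.N_ge
  have hN0 : (0 : ℝ) < P.N := by linarith
  have hC4 : 0 < P.C₄ := by linarith [h.C₃_ge', h.C₄_ge']
  have hV : 100 ≤ P.V₁ := by unfold P14.V₁; linarith
  have hT := h.T₀_pos
  have ha := h.a_pos
  have hr := h.r_pos
  have hr0 := h.r₀_pos
  have c1 : 0 < 10000 * P.N / P.L ^ 2 := by positivity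
  have c2 : 0 < 100 * P.N * P.C₄ * (1 + 3 * P.V₁) ^ 9 := by positivity
  have hC0 : 0 < C := by linarith
  have hz := h.th_zero_le
  have hT' : 4 * P.V₁ * P.T₀ ≤ P.th P.T' := by
    have : 0 < P.r / P.L := by positivity
    unfold Par.th Qar.T'
    linarith
  refine le_trans ?_ (h.Mb_le_GS F)
  have key : ENNReal.ofReal (P.a / (C * P.T₀) * P.T₀ ^ 9 / 2) ≤ Mb P.Gd F P.T' := by
    rcases hLY α F hF b1 b2 with h2 | ⟨t, ht, h2⟩
    · have h0 := h.th_pos le_rfl
      refine eloud_fin h (hm α F hF) le_rfl (by positivity) (by nlinarith) (le_add_right ?_)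
      refine le_trans ?_ (mul_le_mul' (ENNReal.ofReal_le_ofReal h2) h.Ms_ge)
      have e1 : P.mm 0 = P.th 0 / P.T₀ := if_pos hT.le
      have e2 : P.r = P.L * P.th 0 := by unfold Par.th; field_simp; ring
      rw [e1, ← ENNReal.ofReal_mul (by positivity)]
      refine ENNReal.ofReal_le_ofReal ?_
      have a1 : P.th 0 ≤ 1 := by linarith [h.T₀_le, h.T'_le, h.T₁_le']
      calc P.a / (C * P.T₀) * P.th 0 ^ 9 ≤ P.a / (10000 * P.N / P.L ^ 2 * P.T₀) * P.th 0 ^ 3 := by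
            gcongr ?_ * ?_
            · gcongr
              linarith
            · exact pow_le_pow_of_le_one h0.le a1 (by norm_num)
        _ = P.a * (P.th 0 / P.T₀) / (100 * P.N) * ((P.L * P.th 0) ^ 2 / 100) := by
            field_simp; norm_num
        _ = _ := by rw [← e2]
    · have h0 := h.th_pos ht.1
      have a1 : P.th t ≤ 11 / 10 * P.T₀ := by
        unfold Par.th at hz ⊢
        linarith [ht.2]
      have e1 : P.th (t + 3 * P.V₁ * P.th t) = (1 + 3 * P.V₁) * P.th t := by unfold Par.th; ring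
      have a2 : 31 / 30 * ((1 + 3 * P.V₁) * P.th t) ≤ P.th P.T' := by
        have : (1 + 3 * P.V₁) * P.th t ≤ (1 + 3 * P.V₁) * (11 / 10 * P.T₀) := by gcongr
        nlinarith
      have a3 : t + 3 * P.V₁ * P.th t ≤ P.T' := by
        have b3 : 0 < (1 + 3 * P.V₁) * P.th t := by positivity
        have : P.th (t + 3 * P.V₁ * P.th t) ≤ P.th P.T' := by rw [e1]; linarith
        exact le_of_add_le_add_right this
      refine eloud_fin h (hm α F hF) (t := t + 3 * P.V₁ * P.th t) (by have := ht.1; positivity)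
        (by positivity) (by rwa [e1]) (le_add_left ?_)
      refine le_trans ?_ ((mul_le_mul' le_rfl (h2.trans (hM α F hF t
        ⟨ht.1, ht.2.trans h.T₀_le⟩))).trans (hs α F hF t ht.1 a3))
      rw [e1, ← ENNReal.ofReal_mul (by positivity)]
      refine ENNReal.ofReal_le_ofReal ?_
      calc P.a / (C * P.T₀) * ((1 + 3 * P.V₁) * P.th t) ^ 9 ≤
            P.a / (100 * P.N * P.C₄ * (1 + 3 * P.V₁) ^ 9 * P.T₀) * ((1 + 3 * P.V₁) * P.th t) ^ 9 := by
            gcongr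
            linarith
        _ = _ := by field_simp
  refine le_trans (ENNReal.ofReal_le_ofReal ?_) key
  have e : P.a / (C * P.T₀) * P.T₀ ^ 9 / 2 = P.r₀ ^ (P.μ + 9) / (2 * C * P.C₄ ^ 8) := by
    unfold Qar.a Qar.T₀
    field_simp
    ring
  rw [e, le_div_iff₀ (by positivity)]
  calc _ = P.r₀ ^ (P.μ + 9) * (2 * C * P.C₄ ^ 8 * P.r₀) := by ring
    _ ≤ _ := mul_le_of_le_one_right (by positivity) h1

end

end Crest.Agent.R68
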