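import Crest.Agent.R68.EPl

/-!
# R68 (S0091): plane integral of the weight outside the compact set
-/

set_option autoImplicit false

namespace Crest.Agent.R68

open MeasureTheory Set Filter Crest.AnalysisR.VecCalc3 Crest.AnalysisR.PDE.Boltzmann
open scoped ENNReal _root_.Topology

noncomputable section

private theorem epl3_rad {w : ℝ} (hw : 0 < w) (j : ℕ) :
    ∫⁻ s in Ioi (0 : ℝ), ENNReal.ofReal (s * (√(w ^ 2 + s ^ 2))⁻¹ ^ (j + 3)) =
      ENNReal.ofReal (w⁻¹ ^ (j + 1) / (j + 1)) := by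
  have hpos : ∀ s : ℝ, 0 < w ^ 2 + s ^ 2 := fun s => by positivity
  have hd : ∀ s ∈ Ici (0 : ℝ), HasDerivAt (fun s : ℝ => -((√(w ^ 2 + s ^ 2))⁻¹ ^ (j + 1) / (j + 1)))
      (s * (√(w ^ 2 + s ^ 2))⁻¹ ^ (j + 3)) s := by
    intro s _
    have h0 : 0 < √(w ^ 2 + s ^ 2) := Real.sqrt_pos.2 (hpos s)
    have h1 : HasDerivAt (fun s : ℝ => w ^ 2 + s ^ 2) (2 * s) s := by
      simpa using (hasDerivAt_pow 2 s).const_add (w ^ 2)
    have h2 := (((h1.sqrt (hpos s).ne').inv h0.ne').pow (j + 1)).div_const ((j : ℝ) + 1) |>.neg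
    refine h2.congr_deriv ?_
    simp only [Pi.inv_apply, Nat.add_sub_cancel, pow_succ, Nat.cast_add, Nat.cast_one]
    field_simp
  have h0 : ∀ s ∈ Ioi (0 : ℝ), 0 ≤ s * (√(w ^ 2 + s ^ 2))⁻¹ ^ (j + 3) := fun s hs => by
    have : 0 < s := hs
    positivity
  have hl : Tendsto (fun s : ℝ => -((√(w ^ 2 + s ^ 2))⁻¹ ^ (j + 1) / (j + 1))) atTop
      (𝓝 (-(0 ^ (j + 1) / (j + 1)))) := by
    refine ((Tendsto.pow ?_ _).div_const _).neg
    exact (Real.tendsto_sqrt_atTop.comp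
      (tendsto_atTop_add_const_left _ _ (tendsto_pow_atTop two_ne_zero))).inv_tendsto_atTop
  rw [← ofReal_integral_eq_lintegral_ofReal (integrableOn_Ioi_deriv_of_nonneg' hd h0 hl)
    (ae_restrict_of_forall_mem measurableSet_Ioi h0),
    integral_Ioi_of_hasDerivAt_of_nonneg' hd h0 hl]
  congr 1
  simp [Real.sqrt_sq hw.le]

/-- polar coordinates, `∫ ρ (w² + ρ²)^{-Γ/2} dρ = w^{2-Γ}/(Γ - 2)` -/
theorem lintegral_steep {w : ℝ} (hw : 0 < w) {k : ℕ} (hk : 3 ≤ k) :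
    ∫⁻ η : ℂ, ENNReal.ofReal ((√(w ^ 2 + ‖η‖ ^ 2))⁻¹ ^ k) ≤
      ENNReal.ofReal (7 * w ^ 2 * w⁻¹ ^ k / (k - 2)) := by
  obtain ⟨j, rfl⟩ : ∃ j, k = j + 3 := ⟨k - 3, by omega⟩
  rw [← Complex.lintegral_comp_polarCoord_symm, polarCoord_target, Measure.volume_eq_prod,
    ← Measure.prod_restrict]
  refine (lintegral_prod_le _).trans ?_
  calc _ = ∫⁻ s in Ioi (0 : ℝ), ENNReal.ofReal (2 * Real.pi) *
        ENNReal.ofReal (s * (√(w ^ 2 + s ^ 2))⁻¹ ^ (j + 3)) := by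
        refine setLIntegral_congr_fun measurableSet_Ioi fun s hs => ?_
        have hs0 : 0 < s := hs
        simp only [Complex.norm_polarCoord_symm, sq_abs, smul_eq_mul]
        rw [setLIntegral_const, Real.volume_Ioo, ← ENNReal.ofReal_mul hs0.le, mul_comm]
        congr 2
        ring
    _ ≤ _ := by
        rw [lintegral_const_mul' _ _ ENNReal.ofReal_ne_top, epl3_rad hw,
          ← ENNReal.ofReal_mul (by positivity)]
        refine ENNReal.ofReal_le_ofReal ?_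
        have e : 7 * w ^ 2 * w⁻¹ ^ (j + 3) / (((j + 3 : ℕ) : ℝ) - 2) =
            7 * (w⁻¹ ^ (j + 1) / (j + 1)) := by
          rw [show ((j + 3 : ℕ) : ℝ) - 2 = j + 1 by push_cast; ring, pow_add, pow_add]
          field_simp
        rw [e]
        exact mul_le_mul_of_nonneg_right (by linarith [Real.pi_lt_d2]) (by positivity)

private theorem epl3_E0 (P : Par) (ε : Bool) (t : ℝ) (X : ℂ) (a : R3) :
    P.E0P t X a = (1 + P.Ew ε t X a + P.Ew (!ε) t X a) * Gs (1 / 2 - t) a := by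
  cases ε
  · rw [Par.E0P, add_right_comm]; rfl
  · rfl

private theorem epl3_far {P : Par} (h : P.Ok) {t : ℝ} (ht : t ∈ Icc 0 P.T₁) {X : ℂ}
    (hX : ‖X‖ ≤ 3 * P.T₁) {a : R3} (ha : 3 ≤ ‖a‖) : P.E0P t X a = Gs (1 / 2 - t) a := by
  have h1 : ∀ ε, P.Ew ε t X a = 0 := fun ε => by
    rw [h.Ew_eq ε ht hX]
    refine h.Omn_zero ?_
    have := norm_le_norm_sub_add a (P.Uf ε t X)
    have h3 := h.norm_Uf_le ε ht.1 X
    unfold P11.wn
    linarith
  simp only [Par.E0P, h1, add_zero, one_mul]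

private theorem epl3_bern {S ρ : ℝ} {k : ℕ} (hk : 1 ≤ k) (hS : 0 < S)
    (h : S - S / (50 * k) ≤ ρ) : 0 < ρ ∧ ρ⁻¹ ^ k ≤ 2 * S⁻¹ ^ k := by
  have hk' : (1 : ℝ) ≤ k := by exact_mod_cast hk
  have h1 : 1 / (50 * (k : ℝ)) ≤ 1 / 50 := one_div_le_one_div_of_le (by norm_num) (by linarith)
  have h2 : (1 + -(1 / (50 * (k : ℝ)))) * S ≤ ρ := le_of_eq_of_le (by ring) h
  have h3 : 0 < (1 + -(1 / (50 * (k : ℝ)))) := by linarith
  have hρ : 0 < ρ := (mul_pos h3 hS).trans_le h2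
  have h4 := one_add_mul_le_pow (a := -(1 / (50 * (k : ℝ)))) (by linarith) k
  have h5 : (k : ℝ) * -(1 / (50 * (k : ℝ))) = -(1 / 50) := by field_simp
  have h6 := pow_le_pow_left₀ (mul_pos h3 hS).le h2 k
  rw [mul_pow] at h6
  have h7 : 0 < S ^ k := pow_pos hS k
  refine ⟨hρ, ?_⟩
  rw [inv_pow, inv_pow, ← div_eq_mul_inv, inv_eq_one_div, div_le_div_iff₀ (pow_pos hρ k) h7]
  nlinarith

private theorem epl3_near {P : Par} (h : P.Ok) {ε : Bool} {t : ℝ} (ht : t ∈ Icc 0 P.T₁) {X : ℂ}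
    (hX : ‖X‖ ≤ 3 * P.T₁) {v c z : R3} (hc : ‖c - P.Uf ε t X‖ ≤ P.e₀)
    (hw : P.δ₁ ≤ P.wn ε t X v) (hz : inner ℝ z (c - v) = 0) (hb : P.wn ε t X (v + z) < 1) :
    1 + P.Ew ε t X (v + z) + P.Ew (!ε) t X (v + z) ≤
      4 * ENNReal.ofReal ((√(P.wn ε t X v ^ 2 + ‖z‖ ^ 2))⁻¹ ^ P.Γ) := by
  have hδ := h.δ₁_pos
  have he := h.e₀_pos
  have hΓ : (10 : ℝ) ≤ P.Γ := by exact_mod_cast h.Γ_ge
  have h1 : P.Ew (!ε) t X (v + z) = 0 := by
    rw [h.Ew_eq _ ht hX]
    refine h.Omn_zero ?_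
    have := h.wn_add_wn t X (v + z)
    cases ε
    · simp only [Bool.not_false]; linarith
    · simp only [Bool.not_true]; linarith
  have h2 : ‖v + z - c‖ ^ 2 = ‖v - c‖ ^ 2 + ‖z‖ ^ 2 := by
    rw [add_sub_right_comm, norm_add_sq_real, real_inner_comm, ← neg_sub c v, inner_neg_right, hz]
    ring
  have h3 : P.wn ε t X v ≤ ‖v - c‖ + P.e₀ :=
    (norm_sub_le_norm_sub_add_norm_sub v c _).trans (by linarith)
  have h4 : ‖v - c‖ ≤ ‖v + z - c‖ :=
    le_of_sq_le_sq (by linarith [sq_nonneg ‖z‖]) (norm_nonneg _)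
  set S := √(P.wn ε t X v ^ 2 + ‖z‖ ^ 2) with hS
  have h5 : S ≤ ‖v + z - c‖ + P.e₀ := by
    refine Real.sqrt_le_iff.2 ⟨by positivity, ?_⟩
    have := pow_le_pow_left₀ (by linarith) h3 2
    nlinarith
  have h6 : ‖v + z - c‖ ≤ P.wn ε t X (v + z) + P.e₀ := by
    refine (norm_sub_le_norm_sub_add_norm_sub (v + z) (P.Uf ε t X) c).trans ?_
    rw [norm_sub_rev (P.Uf ε t X)]
    unfold P11.wn
    linarith
  have h7 : P.wn ε t X v ≤ S := Real.le_sqrt_of_sq_le (by linarith [sq_nonneg ‖z‖])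
  have h8 : 2 * P.e₀ ≤ S / (50 * P.Γ) := by
    have h9 := h.e₀_le_δ
    rw [le_div_iff₀ (by positivity)] at h9 ⊢
    linarith
  obtain ⟨h9, h10⟩ := epl3_bern (k := P.Γ) (S := S) (ρ := P.wn ε t X (v + z))
    (by linarith [h.Γ_ge]) (by linarith) (by linarith)
  have h11 : 1 ≤ (P.wn ε t X (v + z))⁻¹ ^ P.Γ := one_le_pow₀ (one_le_inv_iff₀.2 ⟨h9, hb.le⟩)
  rw [h1, add_zero, h.Ew_eq _ ht hX]
  calc _ ≤ ENNReal.ofReal (2 * S⁻¹ ^ P.Γ) + ENNReal.ofReal (2 * S⁻¹ ^ P.Γ) :=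
        add_le_add (ENNReal.one_le_ofReal.2 (h11.trans h10))
          ((h.Omn_le_pow h9).trans (ENNReal.ofReal_le_ofReal h10))
    _ = _ := by
        rw [ENNReal.ofReal_mul (by norm_num), ENNReal.ofReal_ofNat]
        ring

private theorem epl3_low {P : Par} (h : P.Ok) {ε : Bool} {t : ℝ} (ht : t ∈ Icc 0 P.T₁) {X : ℂ}
    (hX : ‖X‖ ≤ 3 * P.T₁) {v : R3} (hw : P.δ₁ ≤ P.wn ε t X v) {k : ℕ} (hk : k ≤ P.Γ) :
    ENNReal.ofReal ((P.wn ε t X v)⁻¹ ^ k) * Gs (1 / 2 - t) v ≤ P.E0P t X v := by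
  have hw0 : 0 < P.wn ε t X v := h.δ₁_pos.trans_le hw
  rw [epl3_E0 P ε]
  refine mul_le_mul' (le_trans ?_ le_self_add) le_rfl
  rcases le_total (P.wn ε t X v) 1 with h1 | h1
  · rw [h.Ew_eq _ ht hX, h.Omn_mid hw h1]
    exact (ENNReal.ofReal_le_ofReal (pow_le_pow_right₀ (one_le_inv_iff₀.2 ⟨hw0, h1⟩) hk)).trans
      le_add_self
  · exact (ENNReal.ofReal_le_one.2 (pow_le_one₀ (by positivity) (inv_le_one_of_one_le₀ h1))).trans
      le_self_add

private theorem epl3_tail {θ : ℝ} (hθ : 49 / 100 ≤ θ) {a : R3} (ha : 998 ≤ ‖a‖) :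
    Gs θ a ≤ ENNReal.ofReal (1 / 100000) * Gs (θ / 2) a := by
  conv_lhs => rw [← add_halves θ, Gs_add]
  refine mul_le_mul' (ENNReal.ofReal_le_ofReal ?_) le_rfl
  have h1 : 998 ^ 2 ≤ ‖a‖ ^ 2 := pow_le_pow_left₀ (by norm_num) ha 2
  have h2 : 100000 ≤ θ / 2 * ‖a‖ ^ 2 / 2 := by nlinarith
  have h3 := Real.add_one_le_exp (θ / 2 * ‖a‖ ^ 2 / 2)
  rw [neg_mul, neg_div, Real.exp_neg, one_div]
  exact inv_anti₀ (by norm_num) (by linarith)

/-- Let `w = wn ε t X v`, `b = v + Jη`, `θ = 1/2 - t`; `‖b - c‖² = ‖v - c‖² + ‖η‖²`.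
* `‖v‖ > U`: both `Ew b` vanish; `Gs_plane_le`, `plane_Gs` give `≤ 40 G(v)` and `w ≥ U - 2`.
* `‖v‖ ≤ U`.  Note `G(v) ≤ w² E0P v` and `w^{-Γ} G(v) ≤ E0P v` (`Ew_eq`, `Omn_mid`).  On
  `‖b‖ > 2U`: `‖η‖ > U`, `Ew b = 0`, `G_θ(c+z) ≤ G_{θ/2}(c+z) exp(-θ(U-2)²/4)`.  On `wn ε b < 1`:
  the other `Ew` vanishes (`wn_add_wn`), `ρ = wn ε b ≥ √(w²+‖η‖²) - 2e₀ ≥ (1 - 1/(50Γ))√(w²+‖η‖²)`,
  so `1 + Ew ε b ≤ 2ρ^{-Γ} ≤ 4 (√(w²+‖η‖²))^{-Γ}` (`Omn_le_pow`, Bernoulli), `G(b) ≤ 3 G(v)`,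
  `lintegral_steep`, `84/(Γ-2) ≤ 1/200`. -/
theorem plane_S : ∀ᶠ P in 𝓕, ∀ ε, ∀ t ∈ Icc 0 P.T₁, ∀ (X : ℂ) (v c : R3), ‖X‖ ≤ 3 * P.T₁ →
    ‖c - P.Uf ε t X‖ ≤ P.e₀ → P.δ₁ ≤ P.wn ε t X v →
    ∀ J : ℂ →ₗᵢ[ℝ] R3, (∀ η, inner ℝ (J η) (c - v) = 0) →
    ∫⁻ η : ℂ, (P.Kc ε t X)ᶜ.indicator (P.E0P t X) (v + J η) ≤
      ENNReal.ofReal (P.wn ε t X v ^ 2 / 100) * P.E0P t X v := by
  filter_upwards [ev_ok, big_Gam fun _ => 16802] with P h hΓ ε t ht X v c hX hc hw J hJ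
  have hT := h.T₁_le'
  have hθ : 49 / 100 ≤ 1 / 2 - t := by linarith [ht.2]
  have hθ' : 1 / 2 - t ∈ Icc (0 : ℝ) (1 / 2) := ⟨by linarith, by linarith [ht.1]⟩
  have hU := h.U_ge
  have hUf := h.norm_Uf_le ε ht.1 X
  have hc2 : ‖c‖ ≤ 2 := by
    have := norm_le_norm_sub_add c (P.Uf ε t X)
    linarith [h.e₀_le, h.L_le']
  have hw0 : 0 < P.wn ε t X v := h.δ₁_pos.trans_le hw
  have hπ := Real.pi_lt_d2
  have hπ0 := Real.pi_pos
  have hG := fun η => Gs_plane_le hθ' hc2 (hJ η)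
  have hmG : ∀ θ, Measurable fun η : ℂ => Gs θ (c + J η) := fun θ =>
    (a5_meas θ).comp (J.continuous.const_add c).measurable
  rcases lt_or_ge P.U ‖v‖ with hv | hv
  · calc _ ≤ ∫⁻ η : ℂ, 3 * Gs (1 / 2 - t) v * Gs (1 / 2 - t) (c + J η) := by
          refine lintegral_mono fun η => (indicator_le_self _ _ _).trans ?_
          have h2 : ‖v + J η - c‖ ^ 2 = ‖v - c‖ ^ 2 + ‖J η‖ ^ 2 := by
            rw [add_sub_right_comm, norm_add_sq_real, real_inner_comm, ← neg_sub c v,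
              inner_neg_right, hJ]
            ring
          have h4 : ‖v - c‖ ≤ ‖v + J η - c‖ :=
            le_of_sq_le_sq (by linarith [sq_nonneg ‖J η‖]) (norm_nonneg _)
          rw [epl3_far h ht hX (by
            linarith [norm_sub_le (v + J η) c, norm_le_norm_sub_add v c]), mul_assoc]
          exact hG η
      _ ≤ 3 * Gs (1 / 2 - t) v * ENNReal.ofReal (2 * Real.pi / (1 / 2 - t)) := by
          rw [lintegral_const_mul _ (hmG _)]
          exact mul_le_mul' le_rfl (plane_Gs (by linarith) c J)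
      _ ≤ _ := by
          rw [mul_right_comm, ← ENNReal.ofReal_ofNat 3, ← ENNReal.ofReal_mul (by norm_num)]
          refine mul_le_mul' (ENNReal.ofReal_le_ofReal ?_) (h.Gs_le_E0P X v)
          have h1 : 2 * Real.pi / (1 / 2 - t) ≤ 13 := by
            rw [div_le_iff₀ (by linarith)]; linarith
          have h2 : 998 ≤ P.wn ε t X v := by
            have := norm_le_norm_sub_add v (P.Uf ε t X)
            unfold P11.wn
            linarith
          nlinarith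
  · have hlow2 : Gs (1 / 2 - t) v ≤ ENNReal.ofReal (P.wn ε t X v ^ 2) * P.E0P t X v := by
      refine le_trans (le_of_eq ?_)
        (mul_le_mul' le_rfl (epl3_low h ht hX hw (k := 2) (by linarith [h.Γ_ge])))
      rw [← mul_assoc, ← ENNReal.ofReal_mul (by positivity), ← mul_pow, mul_inv_cancel₀ hw0.ne',
        one_pow, ENNReal.ofReal_one, one_mul]
    calc _ ≤ ∫⁻ η : ℂ, (3 * Gs (1 / 2 - t) v * ENNReal.ofReal (1 / 100000) *
            Gs ((1 / 2 - t) / 2) (c + J η) + 12 * Gs (1 / 2 - t) v *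
            ENNReal.ofReal ((√(P.wn ε t X v ^ 2 + ‖η‖ ^ 2))⁻¹ ^ P.Γ)) := by
          refine lintegral_mono fun η => ?_
          by_cases hK : v + J η ∈ (P.Kc ε t X)ᶜ
          swap
          · rw [indicator_of_notMem hK]; exact zero_le
          rw [indicator_of_mem hK]
          rcases not_and_or.1 hK with h1 | h1
          · rw [not_le] at h1
            have h2 := norm_add_le v (J η)
            have h3 := norm_le_norm_sub_add (J η) (-c)
            rw [sub_neg_eq_add, norm_neg, add_comm (J η)] at h3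
            rw [epl3_far h ht hX (by linarith)]
            refine le_trans ?_ le_self_add
            rw [mul_assoc, mul_assoc]
            exact (hG η).trans (mul_le_mul' le_rfl (mul_le_mul' le_rfl
              (epl3_tail hθ (by linarith))))
          · rw [not_le] at h1
            have h2 := epl3_near h ht hX hc hw (hJ η) h1
            rw [J.norm_map] at h2
            rw [epl3_E0 P ε]
            refine le_trans ?_ le_add_self
            refine (mul_le_mul' h2 ((hG η).trans (mul_le_mul' le_rfl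
              (mul_le_of_le_one_right' (Gs_le_one hθ'.1 _))))).trans (le_of_eq ?_)
            ring
      _ ≤ 3 * Gs (1 / 2 - t) v * ENNReal.ofReal (1 / 100000) *
            ENNReal.ofReal (2 * Real.pi / ((1 / 2 - t) / 2)) + 12 * Gs (1 / 2 - t) v *
            ENNReal.ofReal (7 * P.wn ε t X v ^ 2 * (P.wn ε t X v)⁻¹ ^ P.Γ / (P.Γ - 2)) := by
          rw [lintegral_add_left ((hmG _).const_mul _), lintegral_const_mul _ (hmG _),
            lintegral_const_mul _ (by fun_prop)]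
          exact add_le_add (mul_le_mul' le_rfl (plane_Gs (by linarith) c J))
            (mul_le_mul' le_rfl (lintegral_steep hw0 (by linarith [h.Γ_ge])))
      _ ≤ ENNReal.ofReal (P.wn ε t X v ^ 2 / 200) * P.E0P t X v +
            ENNReal.ofReal (P.wn ε t X v ^ 2 / 200) * P.E0P t X v := by
          refine add_le_add ?_ ?_
          · calc _ = ENNReal.ofReal (3 * (1 / 100000 * (2 * Real.pi / ((1 / 2 - t) / 2)))) *
                  Gs (1 / 2 - t) v := by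
                  rw [ENNReal.ofReal_mul (by norm_num), ENNReal.ofReal_mul (by norm_num),
                    ENNReal.ofReal_ofNat]
                  ring
              _ ≤ ENNReal.ofReal (1 / 200) *
                  (ENNReal.ofReal (P.wn ε t X v ^ 2) * P.E0P t X v) := by
                  refine mul_le_mul' (ENNReal.ofReal_le_ofReal ?_) hlow2
                  have h1 : 2 * Real.pi / ((1 / 2 - t) / 2) ≤ 26 := by
                    rw [div_le_iff₀ (by linarith)]; linarith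
                  linarith
              _ = _ := by
                  rw [← mul_assoc, ← ENNReal.ofReal_mul (by norm_num)]
                  congr 2
                  ring
          · have h1 : (0 : ℝ) < P.Γ - 2 := by linarith
            calc _ = ENNReal.ofReal (12 * (7 * P.wn ε t X v ^ 2 / (P.Γ - 2))) *
                  (ENNReal.ofReal ((P.wn ε t X v)⁻¹ ^ P.Γ) * Gs (1 / 2 - t) v) := by
                  rw [mul_div_right_comm, ENNReal.ofReal_mul (by positivity),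
                    ENNReal.ofReal_mul (by norm_num), ENNReal.ofReal_ofNat]
                  ring
              _ ≤ _ := by
                  refine mul_le_mul' (ENNReal.ofReal_le_ofReal ?_) (epl3_low h ht hX hw le_rfl)
                  rw [← mul_div_assoc, div_le_div_iff₀ h1 (by norm_num)]
                  nlinarith [sq_nonneg (P.wn ε t X v)]
      _ = _ := by
          rw [← add_mul, ← ENNReal.ofReal_add (by positivity) (by positivity)]
          congr 2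
          ring

end

end Crest.Agent.R68
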