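import Crest.Agent.R68.EAs
import Crest.Agent.R68.EPl3
import Crest.Agent.R68.EDens1

/-!
# R68 (S0091): collisions of hot particles with the streams

All bounds come from `Qp_le_plane` with the stream as first argument:
`2 Qp f g v ≤ 4 As f v * sup (plane integral of g)`; the points `c` of the support of `f` have
`‖c‖ ≤ 2` (`StE_cut`, `cut_supp`), and `‖J η‖ = ‖η‖`.  Also `mx ≤ vr`, `L th ≤ mx`,
`(1 + Ew ε) G ≤ E0P`.
-/

set_option autoImplicit false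

namespace Crest.Agent.R68

open MeasureTheory Set Filter Crest.AnalysisR.VecCalc3 Crest.AnalysisR.PDE.Boltzmann
open scoped ENNReal _root_.Topology

noncomputable section

theorem enl_br (v : R3) : 1 ≤ br v :=
  ENNReal.one_le_ofReal.2 (le_add_of_nonneg_right (norm_nonneg _))

theorem enl_plane {f g : VF} (hf : Measurable f) (hg : Measurable g) (v : R3) (K : ℝ≥0∞)
    (hK : ∀ a, f a ≠ 0 → ∀ J : ℂ →ₗᵢ[ℝ] R3, (∀ η, inner ℝ (J η) (a - v) = 0) →
      ∫⁻ η : ℂ, g (v + J η) ≤ K) : 2 * Qp f g v ≤ 4 * K * As f v := by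
  have h := Qp_le_plane hf hg v (fun _ => K) hK
  have m : Measurable fun a : R3 => f a * (ENNReal.ofReal ‖v - a‖)⁻¹ :=
    hf.mul (by fun_prop)
  rw [lintegral_mul_const _ m] at h
  refine (mul_le_mul_right h 2).trans_eq ?_
  unfold As
  ring

theorem enl_mJ {g : VF} (hg : Measurable g) (v : R3) (J : ℂ →ₗᵢ[ℝ] R3) :
    Measurable fun η : ℂ => g (v + J η) :=
  hg.comp (measurable_const.add J.continuous.measurable)

theorem enl_exp {g E : VF} {c : ℝ≥0∞} (h : ∀ a, g a ≤ c * E a) (v a : R3) :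
    g a ≤ c * (ENNReal.ofReal (Real.exp (3 * ‖a - v‖)) * E a) :=
  (h a).trans (mul_le_mul_right
    (le_mul_of_one_le_left' (ENNReal.one_le_ofReal.2 (Real.one_le_exp (by positivity)))) _)

theorem enl_int {g E : VF} {c K : ℝ≥0∞} (hE : Measurable E) {v : R3}
    (h : ∀ a, g a ≤ c * (ENNReal.ofReal (Real.exp (3 * ‖a - v‖)) * E a)) (J : ℂ →ₗᵢ[ℝ] R3)
    (hK : ∫⁻ η : ℂ, ENNReal.ofReal (Real.exp (3 * ‖η‖)) * E (v + J η) ≤ K) :
    ∫⁻ η : ℂ, g (v + J η) ≤ c * K := by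
  have m : Measurable fun η : ℂ => ENNReal.ofReal (Real.exp (3 * ‖η‖)) * E (v + J η) :=
    Measurable.mul (by fun_prop) (enl_mJ hE v J)
  refine le_trans (lintegral_mono fun η => ?_) ((lintegral_const_mul c m).trans_le
    (mul_le_mul_right hK c))
  have := h (v + J η)
  rwa [add_sub_cancel_left, J.norm_map] at this

theorem enl_Ew (P : Par) (ε : Bool) (t : ℝ) (X : ℂ) (v : R3) :
    (1 + P.Ew ε t X v) * Gs (1 / 2 - t) v ≤ P.E0P t X v := by
  refine mul_le_mul_left ?_ _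
  cases ε
  · rw [add_right_comm]; exact le_self_add
  · exact le_self_add

theorem enl_supp {P : Par} (h : P.Ok) {ε : Bool} {t : ℝ} (ht : t ∈ Icc 0 P.T₁) {X : ℂ} {f : VF}
    (hf : ∀ a, f a ≤ P.StE ε t X a) {a : R3} (ha : f a ≠ 0) : ‖a‖ ≤ 2 := by
  have h1 : P.StE ε t X a ≠ 0 := fun h0 => ha (le_antisymm ((hf a).trans_eq h0) zero_le)
  linarith [(h.cut_supp ht (h.StE_cut ht.1 h1)).1]

theorem enl_alg {c d e W G E b A Q : ℝ≥0∞} {x y : ℝ} (hxy : 40 * x ≤ y)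
    (hQ : Q ≤ 4 * (c * (ENNReal.ofReal x * G)) * A) (hA : b * A ≤ (10 * d + e) * W)
    (hE : W * G ≤ E) : b * Q ≤ c * (ENNReal.ofReal y * (d + e)) * E := by
  have h1 : 40 * ENNReal.ofReal x ≤ ENNReal.ofReal y := by
    rw [← ENNReal.ofReal_ofNat 40, ← ENNReal.ofReal_mul (by norm_num)]
    exact ENNReal.ofReal_le_ofReal hxy
  have h2 : 10 * d + e ≤ 10 * (d + e) := by
    rw [mul_add]
    exact add_le_add le_rfl (le_mul_of_one_le_left' (by norm_num))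
  calc b * Q ≤ b * (4 * (c * (ENNReal.ofReal x * G)) * A) := mul_le_mul_right hQ b
    _ = 4 * (c * (ENNReal.ofReal x * G)) * (b * A) := by ring
    _ ≤ 4 * (c * (ENNReal.ofReal x * G)) * (10 * (d + e) * W) :=
        mul_le_mul_right (hA.trans (mul_le_mul_left h2 W)) _
    _ = c * (40 * ENNReal.ofReal x * (d + e)) * (W * G) := by ring
    _ ≤ _ := mul_le_mul' (mul_le_mul_right (mul_le_mul_left h1 _) c) hE

/-- `As_le`, `plane_E0` -/
theorem NL_core : ∃ c₂ : ℝ, 0 < c₂ ∧ ∀ᶠ P in 𝓕, ∀ ε, ∀ t ∈ Icc 0 P.T₁, ∀ X, ∀ f g : VF,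
    Measurable f → Measurable g → (∀ a, f a ≤ P.StE ε t X a) → ∀ (v : R3) (c : ℝ≥0∞),
    ((∀ a, g a ≤ c * (ENNReal.ofReal (Real.exp (3 * ‖a - v‖)) * P.E0P t X a)) →
      br v * (2 * Qp f g v) ≤ c * (ENNReal.ofReal (c₂ * P.δ₁⁻¹ ^ P.Γ) *
        (dens f + ENNReal.ofReal (P.e₀ / P.vr t X))) * P.E0P t X v) ∧
    ∀ κ ∈ Ioc (0 : ℝ) 1, (∀ a, g a ≤ c * P.E0P t X a) → (∀ a, κ < ‖a - v‖ → g a = 0) →
      2 * Qp f g v ≤ c * (ENNReal.ofReal (c₂ * P.δ₁⁻¹ ^ P.Γ * √κ) *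
        (dens f + ENNReal.ofReal (P.e₀ / P.vr t X))) * P.E0P t X v := by
  obtain ⟨c₁, hc, hpl⟩ := plane_E0
  refine ⟨40 * c₁, by positivity, ?_⟩
  filter_upwards [ev_ok, As_le] with P h hAs ε t ht X f g hf hg hle v c
  have hA := (hAs ε t ht X f hf hle v).1
  refine ⟨fun hgc => ?_, fun κ hκ hgc hg0 => ?_⟩
  · refine enl_alg ?_ (enl_plane hf hg v _ fun a ha J hJ => enl_int (P.mE0P t X) hgc J
      (hpl P h t ht X v a (enl_supp h ht hle ha) J hJ).1) hA (enl_Ew P ε t X v)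
    rw [← mul_assoc]
    refine mul_le_mul_of_nonneg_left (pow_le_pow_right₀ ?_ (Nat.sub_le _ _)) (by positivity)
    exact (one_le_inv₀ h.δ₁_pos).2 (by linarith [h.δ₁_le])
  · refine (le_mul_of_one_le_left' (enl_br v)).trans (enl_alg (x := c₁ * P.δ₁⁻¹ ^ P.Γ * √κ)
      (le_of_eq (by ring)) (enl_plane hf hg v _ fun a ha J hJ => ?_) hA (enl_Ew P ε t X v))
    refine le_trans ?_ (mul_le_mul_right
      ((hpl P h t ht X v a (enl_supp h ht hle ha) J hJ).2 κ hκ) c)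
    rw [← lintegral_const_mul c (enl_mJ (P.mE0P t X) v J),
      ← lintegral_indicator measurableSet_closedBall]
    refine lintegral_mono fun η => ?_
    by_cases hη : η ∈ Metric.closedBall (0 : ℂ) κ
    · rw [indicator_of_mem hη]
      exact hgc _
    · rw [hg0 _ (by rwa [add_sub_cancel_left, J.norm_map, ← not_le, ← mem_closedBall_zero_iff])]
      exact zero_le

theorem NL_f : ∀ᶠ P in 𝓕, ∀ ε, ∀ t ∈ Icc 0 P.T₁, ∀ X, ∀ f g : VF,
    Measurable f → Measurable g → (∀ a, f a ≤ P.StE ε t X a) → ∀ (v : R3) (c : ℝ≥0∞),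
    (∀ a, g a ≤ c * P.E0P t X a) →
    2 * Qp f g v ≤ c * (P.N * (dens f + ENNReal.ofReal (P.e₀ / P.vr t X))) * P.E0P t X v := by
  obtain ⟨c₂, -, hc⟩ := NL_core
  filter_upwards [hc, big_N fun Q => c₂ * Q.δ₁⁻¹ ^ Q.Γ] with P hc hN ε t ht X f g hf hg hle v c hgc
  refine (le_mul_of_one_le_left' (enl_br v)).trans
    (((hc ε t ht X f g hf hg hle v c).1 (enl_exp hgc v)).trans ?_)
  refine mul_le_mul_left (mul_le_mul_right (mul_le_mul_left ?_ _) c) _
  rw [← ENNReal.ofReal_natCast]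
  exact ENNReal.ofReal_le_ofReal hN

theorem enl_dens : ∀ᶠ P in 𝓕, ∀ ε, ∀ t ∈ Icc 0 P.T₁, ∀ X,
    dens (P.StE ε t X) + ENNReal.ofReal (P.e₀ / P.vr t X) ≤
      ENNReal.ofReal ((25 * P.A + 2) / P.mx t X) := by
  filter_upwards [ev_ok, dens_wm_le] with P h hw ε t ht X
  have hm := h.mx_pos ht.1 X
  have hA := h.A_ge
  have h1 : dens (P.StE ε t X) = dens (P.cb ε t X) + dens (P.wm ε t X) :=
    lintegral_add_left (P.mcb ε t X) _
  have h2 : ENNReal.ofReal (P.e₀ / P.vr t X) ≤ ENNReal.ofReal (1 / P.mx t X) :=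
    ENNReal.ofReal_le_ofReal (div_le_div₀ zero_le_one (by linarith [h.e₀_le, h.L_le']) hm
      (h.mx_le_vr ht.1 X))
  rw [h1]
  refine (add_le_add (add_le_add (h.dens_cb_le ε ht.1 X) ((hw ε t ht X).trans h2)) h2).trans_eq ?_
  rw [← ENNReal.ofReal_add (by positivity) (by positivity),
    ← ENNReal.ofReal_add (by positivity) (by positivity)]
  congr 1
  ring

theorem enl_two {c E Q Q' D D' : ℝ≥0∞} {x y z : ℝ} (hx : 0 ≤ x) (hy : 0 ≤ y) (hz : 2 * (x * y) ≤ z)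
    (h1 : Q ≤ c * (ENNReal.ofReal x * D) * E) (h2 : Q' ≤ c * (ENNReal.ofReal x * D') * E)
    (hD : D ≤ ENNReal.ofReal y) (hD' : D' ≤ ENNReal.ofReal y) :
    Q + Q' ≤ c * ENNReal.ofReal z * E := by
  have h3 : ∀ D, D ≤ ENNReal.ofReal y →
      c * (ENNReal.ofReal x * D) * E ≤ c * ENNReal.ofReal (x * y) * E := fun D hD => by
    rw [ENNReal.ofReal_mul hx]
    exact mul_le_mul_left (mul_le_mul_right (mul_le_mul_right hD _) c) E
  refine (add_le_add (h1.trans (h3 D hD)) (h2.trans (h3 D' hD'))).trans ?_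
  rw [← add_mul, ← mul_add, ← ENNReal.ofReal_add (by positivity) (by positivity)]
  exact mul_le_mul_left (mul_le_mul_right (ENNReal.ofReal_le_ofReal (by linarith)) c) E

theorem enl_StP (P : Par) (t : ℝ) (X : ℂ) {g : VF} (hg : Measurable g) (v : R3) :
    Qp (P.StP t X) g v = Qp (P.StE true t X) g v + Qp (P.StE false t X) g v :=
  Qp_add_left (P.mStE true t X) (P.mStE false t X) hg v

/-- `dens_cb_le`, `dens_wm_le`; `2 c₂ δ₁^{-Γ} (25 A + 2) ≤ N L` -/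
theorem NL : ∀ᶠ P in 𝓕, ∀ t ∈ Icc 0 P.T₁, ∀ X, ∀ g : VF, Measurable g → ∀ (v : R3) (c : ℝ≥0∞),
    (∀ a, g a ≤ c * (ENNReal.ofReal (Real.exp (3 * ‖a - v‖)) * P.E0P t X a)) →
    br v * (2 * Qp (P.StP t X) g v) ≤
      c * ENNReal.ofReal (P.N * P.L / P.mx t X) * P.E0P t X v := by
  obtain ⟨c₂, hc₂, hc⟩ := NL_core
  filter_upwards [ev_ok, hc, enl_dens, big_N fun Q => 2 * (c₂ * Q.δ₁⁻¹ ^ Q.Γ * (25 * Q.A + 2)) / Q.L]
    with P h hc hd hN t ht X g hg v c hgc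
  have hm := h.mx_pos ht.1 X
  have hA := h.A_ge
  have hδ := h.δ₁_pos
  rw [div_le_iff₀ h.L_pos] at hN
  rw [enl_StP P t X hg, mul_add, mul_add]
  refine enl_two (by positivity) (by positivity) ?_
    ((hc true t ht X _ g (P.mStE _ t X) hg (fun _ => le_rfl) v c).1 hgc)
    ((hc false t ht X _ g (P.mStE _ t X) hg (fun _ => le_rfl) v c).1 hgc) (hd true t ht X)
    (hd false t ht X)
  rw [← mul_div_assoc, ← mul_div_assoc]
  exact div_le_div_of_nonneg_right hN hm.le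

theorem NL_near : ∀ᶠ P in 𝓕, ∀ t ∈ Icc 0 P.T₁, ∀ X, ∀ g : VF, Measurable g →
    ∀ (v : R3) (c : ℝ≥0∞), ∀ κ ∈ Ioc (0 : ℝ) 1, (∀ a, g a ≤ c * P.E0P t X a) →
    (∀ a, κ < ‖a - v‖ → g a = 0) →
    2 * Qp (P.StP t X) g v ≤ c * ENNReal.ofReal (P.N * √κ / P.th t) * P.E0P t X v := by
  obtain ⟨c₂, hc₂, hc⟩ := NL_core
  filter_upwards [ev_ok, hc, enl_dens, big_N fun Q => 2 * (c₂ * Q.δ₁⁻¹ ^ Q.Γ * (25 * Q.A + 2)) / Q.L]
    with P h hc hd hN t ht X g hg v c κ hκ hgc hg0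
  have hm := h.mx_pos ht.1 X
  have hA := h.A_ge
  have hδ := h.δ₁_pos
  have hL := h.L_pos
  have hth := h.th_pos ht.1
  rw [div_le_iff₀ hL] at hN
  rw [enl_StP P t X hg, mul_add]
  refine enl_two (by positivity) (by positivity) ?_
    ((hc true t ht X _ g (P.mStE _ t X) hg (fun _ => le_rfl) v c).2 κ hκ hgc hg0)
    ((hc false t ht X _ g (P.mStE _ t X) hg (fun _ => le_rfl) v c).2 κ hκ hgc hg0) (hd true t ht X)
    (hd false t ht X)
  calc _ = 2 * (c₂ * P.δ₁⁻¹ ^ P.Γ * (25 * P.A + 2)) * √κ / P.mx t X := by ring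
    _ ≤ P.N * P.L * √κ / (P.L * P.th t) :=
        div_le_div₀ (by positivity) (mul_le_mul_of_nonneg_right hN (Real.sqrt_nonneg _))
          (by positivity) (le_max_right _ _)
    _ = _ := by field_simp

theorem enl_slow {c δ A L e th mx vr : ℝ} {k : ℕ} (hk : 2 ≤ k) (hc : 0 < c) (hδ : 0 < δ)
    (hA : 0 < A) (hL : 0 < L) (he : 0 < e) (hth : 0 < th) (h1 : L * th ≤ mx) (h2 : mx ≤ vr)
    (h3 : δ ≤ L / (12800 * c * A)) (h4 : e ≤ L / (256 * (c * δ⁻¹ ^ (k - 2)))) :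
    4 * (c * δ⁻¹ ^ (k - 2)) * (2 * δ ^ (k - 1) * (25 * A / mx) + e / vr) ≤ 1 / (32 * th) := by
  have e1 : δ⁻¹ ^ (k - 2) * δ ^ (k - 1) = δ := by
    rw [show k - 1 = k - 2 + 1 by omega, pow_succ, ← mul_assoc, ← mul_pow, inv_mul_cancel₀ hδ.ne',
      one_pow, one_mul]
  have hD : 0 < c * δ⁻¹ ^ (k - 2) := by positivity
  rw [le_div_iff₀ (by positivity)] at h3 h4
  have a1 : 25 * A / mx ≤ 25 * A / (L * th) :=
    div_le_div_of_nonneg_left (by positivity) (by positivity) h1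
  have a2 : e / vr ≤ e / (L * th) := div_le_div_of_nonneg_left he.le (by positivity) (h1.trans h2)
  calc _ ≤ 4 * (c * δ⁻¹ ^ (k - 2)) * (2 * δ ^ (k - 1) * (25 * A / (L * th)) + e / (L * th)) :=
        mul_le_mul_of_nonneg_left (add_le_add (mul_le_mul_of_nonneg_left a1 (by positivity)) a2)
          (by positivity)
    _ = (200 * c * A * (δ⁻¹ ^ (k - 2) * δ ^ (k - 1)) + 4 * (c * δ⁻¹ ^ (k - 2)) * e) / (L * th) := by
        ring
    _ ≤ (L / 32) / (L * th) := by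
        rw [e1]
        exact div_le_div_of_nonneg_right (by linarith) (by positivity)
    _ = _ := by field_simp

/-- slow children: second part of `As_le`, `plane_E0`:
`4 c₁ δ₁^{2-Γ} (2 δ₁^{Γ-1} 25 A/(L th) + e₀/(L th)) ≤ 1/(32 th)` -/
theorem NL_slow : ∀ᶠ P in 𝓕, ∀ ε, ∀ t ∈ Icc 0 P.T₁, ∀ X, ∀ g : VF, Measurable g →
    ∀ (v : R3) (c : ℝ≥0∞), (∀ a, g a ≤ c * P.E0P t X a) → P.wn ε t X v < P.δ₁ →
    2 * Qp (P.cb ε t X) g v ≤ c * ENNReal.ofReal (1 / (32 * P.th t)) * P.E0P t X v := by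
  obtain ⟨c₁, hc, hpl⟩ := plane_E0
  filter_upwards [ev_ok, As_le, le_d1 fun Q => Q.L / (12800 * c₁ * Q.A),
    ev_e₀ fun Q => Q.L / (256 * (c₁ * Q.δ₁⁻¹ ^ (Q.Γ - 2)))] with P h hAs h1 h2 ε t ht X g hg v c hgc
    hw
  have hA : 0 < P.A := by linarith [h.A_ge]
  have hδ := h.δ₁_pos
  have hL := h.L_pos
  have hm := h.mx_pos ht.1 X
  have hv := h.vr_pos ht.1 X
  have he := h.e₀_pos
  have hle : ∀ a, P.cb ε t X a ≤ P.StE ε t X a := fun a => le_self_add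
  have h3 := enl_plane (P.mcb ε t X) hg v _ fun a ha J hJ => enl_int (P.mE0P t X) (enl_exp hgc v) J
    (hpl P h t ht X v a (enl_supp h ht hle ha) J hJ).1
  have h4 := ((hAs ε t ht X _ (P.mcb ε t X) hle v).2 hw).trans (mul_le_mul_left
    (add_le_add (mul_le_mul_right (h.dens_cb_le ε ht.1 X) _) le_rfl) _)
  have h5 := ENNReal.ofReal_le_ofReal (enl_slow (by linarith [h.Γ_ge]) hc hδ hA hL he
    (h.th_pos ht.1) (le_max_right _ _) (h.mx_le_vr ht.1 X) (h1.2 (by positivity))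
    (h2 (by positivity)))
  rw [ENNReal.ofReal_mul (by positivity), ENNReal.ofReal_mul (by norm_num), ENNReal.ofReal_ofNat,
    ENNReal.ofReal_add (by positivity) (by positivity),
    ENNReal.ofReal_mul (p := 2 * _) (by positivity)] at h5
  refine h3.trans ((mul_le_mul_right h4 _).trans (le_trans (le_of_eq ?_) (mul_le_mul'
    (mul_le_mul_right h5 c) ((mul_le_mul_left le_add_self _).trans (enl_Ew P ε t X v)))))
  unfold Par.mx
  ring

/-- comparison with the loss term: `As_le_far`, `plane_S` give `0.08 w dens`, while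
`Nu cb v ≥ 2π (w - sig) dens ≥ 6 w dens` (`Nn_eq`, `cb_supp`) -/
theorem NL_loss : ∀ᶠ P in 𝓕, ∀ ε, ∀ t ∈ Icc 0 P.T₁, ∀ X, ∀ g : VF, Measurable g →
    ∀ (v : R3) (c : ℝ≥0∞), (∀ a, g a ≤ c * P.E0P t X a) → P.δ₁ ≤ P.wn ε t X v →
    2 * Qp (P.cb ε t X) ((P.Kc ε t X)ᶜ.indicator g) v ≤
      c * (Nu (P.cb ε t X) v / 32) * P.E0P t X v := by
  filter_upwards [ev_ok, plane_S] with P h hS ε t ht X g hg v c hgc hw
  have hδ := h.δ₁_pos
  have hs : P.sig t X ≤ P.e₀ := (h.sig_le_del ht.1 X).trans (h.del_le ht.1 X)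
  have hs2 : 2 * P.sig t X ≤ P.wn ε t X v := by
    have hΓ : (10 : ℝ) ≤ P.Γ := by exact_mod_cast h.Γ_ge
    have : P.δ₁ / (100 * P.Γ) ≤ P.δ₁ / 2 :=
      div_le_div_of_nonneg_left hδ.le two_pos (by linarith)
    linarith [h.e₀_le_δ]
  have hsupp : ∀ a, P.cb ε t X a ≠ 0 → ‖a - P.Uf ε t X‖ ≤ P.sig t X := fun a ha =>
    (h.cb_supp ht.1 ha).1
  have mK := (P.mKc ε t X).compl
  have h1 := enl_plane (P.mcb ε t X) (hg.indicator mK) v
    (c * (ENNReal.ofReal (P.wn ε t X v ^ 2 / 100) * P.E0P t X v)) fun a ha J hJ => by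
      refine le_trans ?_ (mul_le_mul_right (hS ε t ht X v a
        (h.cut_supp ht (h.cb_cut ht.1 ha).1).2.2.1 ((hsupp a ha).trans hs) hw J hJ) c)
      rw [← lintegral_const_mul c (enl_mJ ((P.mE0P t X).indicator mK) v J)]
      refine lintegral_mono fun η => ?_
      by_cases hη : v + J η ∈ (P.Kc ε t X)ᶜ
      · simp only [indicator_of_mem hη]
        exact hgc _
      · simp only [indicator_of_notMem hη, zero_le]
  have h2 := As_le_far (P.mcb ε t X) (h.sig_pos ht.1 X) hsupp hs2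
  have h3 : ENNReal.ofReal (3 * P.wn ε t X v) * dens (P.cb ε t X) ≤ Nu (P.cb ε t X) v := by
    rw [dens, ← lintegral_const_mul _ (P.mcb ε t X)]
    refine lintegral_mono fun a => ?_
    by_cases ha : P.cb ε t X a = 0
    · simp only [ha, mul_zero, le_refl]
    refine mul_le_mul_left ?_ _
    rw [Nn_eq]
    refine ENNReal.ofReal_le_ofReal ?_
    have a1 : P.wn ε t X v ≤ ‖v - a‖ + ‖a - P.Uf ε t X‖ := norm_sub_le_norm_sub_add_norm_sub _ _ _
    nlinarith [hsupp a ha, Real.pi_gt_three, norm_nonneg (v - a)]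
  have hw0 : 0 < P.wn ε t X v := hδ.trans_le hw
  have h4 : 4 * ENNReal.ofReal (P.wn ε t X v ^ 2 / 100) *
      (ENNReal.ofReal (2 / P.wn ε t X v) * dens (P.cb ε t X)) ≤ Nu (P.cb ε t X) v / 32 := by
    rw [ENNReal.le_div_iff_mul_le (Or.inl (by norm_num)) (Or.inl (by norm_num))]
    refine le_trans ?_ h3
    rw [← mul_assoc, mul_right_comm]
    refine mul_le_mul_left ?_ _
    generalize P.wn ε t X v = w at hw0
    rw [← ENNReal.ofReal_ofNat 4, ← ENNReal.ofReal_ofNat 32, ← ENNReal.ofReal_mul (by norm_num),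
      ← ENNReal.ofReal_mul (by positivity), ← ENNReal.ofReal_mul (by positivity)]
    refine ENNReal.ofReal_le_ofReal ?_
    have : 4 * (w ^ 2 / 100) * (2 / w) * 32 = 64 / 25 * w := by field_simp; norm_num
    linarith
  refine h1.trans ((mul_le_mul_right h2 _).trans (le_trans (le_of_eq ?_)
    (mul_le_mul_left (mul_le_mul_right h4 c) _)))
  unfold P11.wn
  ring

end

end Crest.Agent.R68
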