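import Crest.Agent.R68.EDef

/-!
# R68 (S0091): elementary numerical consequences of `Ok`; the profiles `Om`, `mm`
-/

set_option autoImplicit false

namespace Crest.Agent.R68

open MeasureTheory Set Filter Crest.AnalysisR.VecCalc3 Crest.AnalysisR.PDE.Boltzmann
open scoped ENNReal _root_.Topology

noncomputable section

namespace Par.Ok
variable {P : Par} (h : P.Ok)
include h
theorem N_ge : (10000 : ℝ) ≤ P.N := by
  have := h.N_ge_U; have := h.U_ge; linarith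
theorem L_le' : P.L ≤ 1 / 1000 := by
  have := h.L_le; have := h.δ₀_le; have := h.κ₀_le; linarith
theorem V_ge : 6000 ≤ P.V := by
  have := h.U_ge; unfold P8.V; linarith
theorem V_le : P.V ≤ P.N := by
  have := h.U_ge; have := h.N_ge_U; unfold P8.V; linarith
theorem C₃_ge' : 100 ≤ P.C₃ := by
  have h1 : (1 : ℝ) ≤ (P.N : ℝ) ^ 4 := one_le_pow₀ (by have := h.N_ge; linarith)
  have := h.C₃_ge; linarith
theorem C₄_ge' : P.C₃ ≤ P.C₄ := by
  have := h.C₃_ge'; have := h.C₄_ge; nlinarith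
theorem g₀_pos : 0 < P.g₀ := by
  have h1 : (1 : ℝ) ≤ P.m := by exact_mod_cast h.m_ge
  have := h.L_pos
  unfold P15.g₀; positivity
theorem g₀_le : P.g₀ ≤ P.L / 32 := by
  have h1 : (1 : ℝ) ≤ P.m := by exact_mod_cast h.m_ge
  have := h.L_pos
  unfold P15.g₀
  exact div_le_div_of_nonneg_left this.le (by norm_num) (by linarith)
theorem T₁_le' : P.T₁ ≤ 1 / 1000000 := by
  have h1 := h.T₁_le
  have h2 := h.R_ge
  have h3 := h.r₁_le
  have h4 := h.T₁_pos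
  rw [le_div_iff₀ (by positivity)] at h1
  nlinarith
theorem T₁_le_r : 10000 * P.T₁ ≤ P.r₁ := by
  have h1 := h.T₁_le
  have h2 := h.R_ge
  have h4 := h.T₁_pos
  rw [le_div_iff₀ (by positivity)] at h1
  nlinarith
theorem e₀_pos : 0 < P.e₀ := by
  exact Real.rpow_pos_of_pos h.r₀_pos _
theorem e₀_le : P.e₀ ≤ P.L / 1000 := by
  have h1 : (1 : ℝ) ≤ P.m := by exact_mod_cast h.m_ge
  have h2 := h.C₃_ge'
  refine h.e₀_le_L.trans (div_le_div_of_nonneg_left h.L_pos.le (by norm_num) ?_)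
  have : (10000 : ℝ) ≤ P.C₃ ^ 2 := by nlinarith
  nlinarith
theorem r₀_eq : P.r₀ = P.e₀ ^ 800 := by
  rw [Qar.e₀, ← Real.rpow_natCast, ← Real.rpow_mul h.r₀_pos.le]
  norm_num
theorem r₀_le_e : P.r₀ ≤ P.e₀ ^ 8 := by
  rw [h.r₀_eq]
  have h1 := h.e₀_le
  have h2 := h.L_le'
  exact pow_le_pow_of_le_one h.e₀_pos.le (by linarith) (by norm_num)
theorem T₀_pos : 0 < P.T₀ := by
  have := h.r₀_pos; have := h.C₃_ge'; have := h.C₄_ge'
  exact div_pos h.r₀_pos (by linarith)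
theorem T₀_le : P.T₀ ≤ P.T' := by
  have := h.T₀_pos; have := h.N_ge
  unfold Qar.T' P14.V₁
  nlinarith
theorem enum_C₄ : 100 * (P.N : ℝ) ^ 5 ≤ P.C₄ := by
  have h1 := h.C₃_ge
  have h2 := h.C₄_ge
  have h3 := h.N_ge
  have h4 : (0 : ℝ) ≤ 100 * (P.N : ℝ) ^ 4 := by positivity
  have h5 : (100 * (P.N : ℝ) ^ 4) ^ 2 ≤ P.C₃ ^ 2 := by gcongr
  have h6 : (P.N : ℝ) ^ 5 ≤ (P.N : ℝ) ^ 8 := pow_le_pow_right₀ (by linarith) (by norm_num)
  have h7 : (0 : ℝ) ≤ (P.N : ℝ) ^ 8 := by positivity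
  nlinarith
theorem enum_T₀_le_r₀ : P.T₀ ≤ P.r₀ := by
  have := h.C₃_ge'; have := h.C₄_ge'
  exact div_le_self h.r₀_pos.le (by linarith)

theorem T'_le : P.T' ≤ P.T₁ := by
  have h1 := h.enum_C₄
  have h2 := h.N_ge
  have h3 := h.r₀_le
  have h4 := h.r₀_pos
  have h5 : (0 : ℝ) < P.C₄ := by have := h.C₃_ge'; have := h.C₄_ge'; linarith
  have h6 : (P.N : ℝ) ≤ (P.N : ℝ) ^ 5 := le_self_pow₀ (by linarith) (by norm_num)
  unfold Qar.T' P14.V₁ Qar.T₀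
  rw [← mul_div_assoc, div_le_iff₀ h5]
  have : 4 * (16 * (P.N : ℝ)) ≤ P.C₄ := by linarith
  calc 4 * (16 * (P.N : ℝ)) * P.r₀ ≤ P.C₄ * P.T₁ := by gcongr
    _ = _ := mul_comm _ _
theorem r_le' : P.r ≤ P.r₀ := by
  have h1 := h.r_le
  have h2 := h.L_le'
  have h3 := h.enum_T₀_le_r₀
  have h4 := h.T₀_pos
  nlinarith
theorem a_pos : 0 < P.a := by
  exact pow_pos h.r₀_pos _
theorem RW_ge : P.r₀ ≤ P.RW := by
  have := h.T₁_pos
  have := Real.rpow_pos_of_pos h.r₀_pos (7 / 1600 : ℝ)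
  unfold Qar.RW
  nlinarith
theorem RW_le : P.RW ≤ 2 * P.T₁ := by
  have h1 := h.T₁_pos
  have h2 := h.r₀_le
  have h3 := h.T₁_le'
  have h4 : P.r₀ ^ (7 / 1600 : ℝ) ≤ 1 := Real.rpow_le_one h.r₀_pos.le (by linarith) (by norm_num)
  unfold Qar.RW
  nlinarith
theorem th_pos {t : ℝ} (ht : 0 ≤ t) : 0 < P.th t := by
  have := div_pos h.r_pos h.L_pos
  unfold Par.th; linarith
theorem th_zero_le : P.th 0 ≤ P.T₀ / 10 := by
  have h1 := h.r_le
  unfold Par.th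
  rw [zero_add, div_le_iff₀ h.L_pos]
  linarith
theorem th_le {t : ℝ} (ht : t ≤ P.T₁) : P.th t ≤ 2 * P.T₁ := by
  have h1 := h.th_zero_le
  have h2 := h.T₀_le
  have h3 := h.T'_le
  have h4 := h.T₀_pos
  unfold Par.th at h1 ⊢
  linarith
/-- `T' = 64 N r₀ / C₄` and `C₄ ≥ 10⁴ N⁸` -/
theorem th_T' {t : ℝ} (ht : t ≤ P.T') : P.N ^ 4 * P.th t ≤ P.r₀ := by
  have h1 := h.th_zero_le
  have h2 := h.enum_C₄
  have h3 := h.N_ge
  have h4 := h.T₀_pos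
  have h5 : (0 : ℝ) < P.C₄ := by have := h.C₃_ge'; have := h.C₄_ge'; linarith
  have h6 : P.th t ≤ 65 * P.N * P.T₀ := by
    unfold Par.th at h1 ⊢
    unfold Qar.T' P14.V₁ at ht
    nlinarith
  have h7 : P.r₀ = P.C₄ * P.T₀ := by unfold Qar.T₀; field_simp
  have h8 : (0 : ℝ) ≤ (P.N : ℝ) ^ 5 := by positivity
  calc (P.N : ℝ) ^ 4 * P.th t ≤ (P.N : ℝ) ^ 4 * (65 * P.N * P.T₀) := by gcongr
    _ = (65 * (P.N : ℝ) ^ 5) * P.T₀ := by ring
    _ ≤ P.C₄ * P.T₀ := by gcongr; linarith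
    _ = _ := h7.symm
theorem mx_pos {t : ℝ} (ht : 0 ≤ t) (X : ℂ) : 0 < P.mx t X := by
  exact lt_max_of_lt_right (mul_pos h.L_pos (h.th_pos ht))
theorem vr_pos {t : ℝ} (ht : 0 ≤ t) (X : ℂ) : 0 < P.vr t X := by
  have := h.r_pos; have := norm_nonneg X
  unfold Par.vr; linarith
theorem mx_le_vr {t : ℝ} (ht : 0 ≤ t) (X : ℂ) : P.mx t X ≤ P.vr t X := by
  have h1 := h.r_pos; have h2 := norm_nonneg X
  have h3 := h.L_le'; have h4 := h.L_pos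
  unfold Par.mx Par.vr Par.th
  refine max_le (by linarith) ?_
  rw [mul_add, mul_div_cancel₀ _ h4.ne']
  nlinarith
theorem ee_pos {t : ℝ} (ht : 0 ≤ t) (X : ℂ) : 0 < P.ee t X := by
  exact Real.rpow_pos_of_pos (lt_min (h.vr_pos ht X) h.r₀_pos) _
theorem ee_le {t : ℝ} (ht : 0 ≤ t) (X : ℂ) : P.ee t X ≤ P.e₀ := by
  exact Real.rpow_le_rpow (lt_min (h.vr_pos ht X) h.r₀_pos).le (min_le_right _ _) (by norm_num)
theorem sig_pos {t : ℝ} (ht : 0 ≤ t) (X : ℂ) : 0 < P.sig t X := by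
  exact pow_pos (h.ee_pos ht X) _
theorem del_pos {t : ℝ} (ht : 0 ≤ t) (X : ℂ) : 0 < P.del t X := by
  exact pow_pos (h.ee_pos ht X) _
theorem sig_le_del {t : ℝ} (ht : 0 ≤ t) (X : ℂ) : P.sig t X ≤ P.del t X := by
  have h1 := h.ee_le ht X
  have h2 := h.e₀_le
  have h3 := h.L_le'
  exact pow_le_pow_of_le_one (h.ee_pos ht X).le (by linarith) (by norm_num)
theorem del_le {t : ℝ} (ht : 0 ≤ t) (X : ℂ) : P.del t X ≤ P.e₀ := by
  have h1 := h.ee_le ht X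
  have h2 := h.e₀_le
  have h3 := h.L_le'
  exact (pow_le_of_le_one (h.ee_pos ht X).le (by linarith) (by norm_num)).trans h1
theorem sig_eq {t : ℝ} (ht : 0 ≤ t) (X : ℂ) :
    P.sig t X = (min (P.vr t X) P.r₀) ^ (1 / 100 : ℝ) := by
  rw [Par.sig, Par.ee, ← Real.rpow_natCast, ← Real.rpow_mul (lt_min (h.vr_pos ht X) h.r₀_pos).le]
  norm_num
theorem r_le_sig {t : ℝ} (ht : 0 ≤ t) (X : ℂ) : P.r ^ (1 / 100 : ℝ) ≤ P.sig t X := by
  rw [h.sig_eq ht]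
  refine Real.rpow_le_rpow h.r_pos.le (le_min ?_ h.r_le') (by norm_num)
  have := norm_nonneg X
  unfold Par.vr; linarith
/-- negative powers of `vr` in terms of `ee` -/
theorem vr_rpow_le {t : ℝ} (ht : 0 ≤ t) (X : ℂ) {x : ℝ} (hx : 0 ≤ x) :
    P.vr t X ^ (-x) ≤ P.ee t X ^ (-(800 * x)) := by
  have h0 := lt_min (h.vr_pos ht X) h.r₀_pos
  rw [Par.ee, ← Real.rpow_mul h0.le, show (1 / 800 : ℝ) * (-(800 * x)) = -x by ring]
  exact Real.rpow_le_rpow_of_nonpos h0 (min_le_left _ _) (by linarith)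
theorem cq_le : P.cq ≤ 1 := by
  have h1 := h.V_ge
  have h2 := h.κ₀_pos
  have : 0 ≤ P.κ₀ / P.V := by positivity
  unfold P9.cq
  exact ENNReal.ofReal_le_one.2 (by linarith)
theorem cq_ge : 1 ≤ 2 * P.cq := by
  have h1 := h.V_ge
  have h2 := h.κ₀_le
  have h3 : P.κ₀ / P.V ≤ 1 / 2 := by
    rw [div_le_iff₀ (by linarith)]; linarith
  unfold P9.cq
  rw [show (2 : ℝ≥0∞) = ENNReal.ofReal 2 by simp, ← ENNReal.ofReal_mul (by norm_num)]
  exact ENNReal.one_le_ofReal.2 (by linarith)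
theorem Om_nonneg {ρ : ℝ} (hρ : 0 < ρ) : 0 ≤ P.Om ρ := by
  have := h.δ₁_pos
  unfold P13.Om
  split_ifs <;> positivity
theorem Om_anti {ρ ρ' : ℝ} (hρ : 0 < ρ) (hle : ρ ≤ ρ') : P.Om ρ' ≤ P.Om ρ := by
  have hd := h.δ₁_pos
  have hρ' : 0 < ρ' := hρ.trans_le hle
  by_cases h1 : 1 < ρ'
  · have : P.Om ρ' = 0 := by unfold P13.Om; rw [if_pos h1]
    rw [this]; exact h.Om_nonneg hρ
  have h1' : ¬ 1 < ρ := fun h2 => h1 (h2.trans_le hle)
  unfold P13.Om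
  rw [if_neg h1, if_neg h1']
  by_cases h2 : P.δ₁ ≤ ρ
  · rw [if_pos h2, if_pos (h2.trans hle)]
    gcongr
  rw [if_neg h2]
  push Not at h2
  by_cases h3 : P.δ₁ ≤ ρ'
  · rw [if_pos h3]
    have h4 : 1 ≤ (P.δ₁ / ρ) ^ (3 / 2 : ℝ) :=
      Real.one_le_rpow ((one_le_div hρ).2 h2.le) (by norm_num)
    calc ρ'⁻¹ ^ P.Γ ≤ P.δ₁⁻¹ ^ P.Γ := by gcongr
      _ ≤ _ := le_mul_of_one_le_right (by positivity) h4
  · rw [if_neg h3]
    gcongr
theorem Omn_anti {ρ ρ' : ℝ} (hle : ρ ≤ ρ') : P.Omn ρ' ≤ P.Omn ρ := by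
  exact ENNReal.ofReal_le_ofReal
    (h.Om_anti (lt_max_of_lt_right (Real.rpow_pos_of_pos h.r_pos _)) (max_le_max_right _ hle))
theorem Omn_zero {ρ : ℝ} (hρ : 1 < ρ) : P.Omn ρ = 0 := by
  unfold Par.Omn P13.Om
  rw [if_pos (lt_max_of_lt_left hρ), ENNReal.ofReal_zero]
theorem Omn_ne_top (ρ : ℝ) : P.Omn ρ ≠ ⊤ := by
  have := h.r_pos
  exact ENNReal.ofReal_ne_top
theorem Omn_le_pow {ρ : ℝ} (hρ : 0 < ρ) : P.Omn ρ ≤ ENNReal.ofReal (ρ⁻¹ ^ P.Γ) := by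
  refine ENNReal.ofReal_le_ofReal ((h.Om_anti hρ (le_max_left _ _)).trans ?_)
  have hd := h.δ₁_pos
  unfold P13.Om
  split_ifs with h1 h2
  · positivity
  · exact le_rfl
  · push Not at h2
    have h3 : 1 ≤ P.δ₁ / ρ := (one_le_div hρ).2 h2.le
    have hΓ : (10 : ℝ) ≤ P.Γ := by exact_mod_cast h.Γ_ge
    have h4 : (P.δ₁ / ρ) ^ (3 / 2 : ℝ) ≤ (P.δ₁ / ρ) ^ P.Γ := by
      rw [← Real.rpow_natCast]
      exact Real.rpow_le_rpow_of_exponent_le h3 (by linarith)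
    calc P.δ₁⁻¹ ^ P.Γ * (P.δ₁ / ρ) ^ (3 / 2 : ℝ) ≤ P.δ₁⁻¹ ^ P.Γ * (P.δ₁ / ρ) ^ P.Γ := by gcongr
      _ = _ := by rw [← mul_pow]; congr 1; field_simp
theorem enum_r_le_δ : P.r ^ (1 / 100 : ℝ) ≤ P.δ₁ := by
  have h1 := h.r_le_sig le_rfl 0
  have h2 := h.sig_le_del le_rfl 0
  have h3 := h.del_le le_rfl 0
  have h4 := h.e₀_le_δ
  have hΓ : (10 : ℝ) ≤ P.Γ := by exact_mod_cast h.Γ_ge
  have h5 : P.δ₁ / (100 * P.Γ) ≤ P.δ₁ := div_le_self h.δ₁_pos.le (by linarith)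
  linarith

theorem Omn_mid {ρ : ℝ} (h1 : P.δ₁ ≤ ρ) (h2 : ρ ≤ 1) : P.Omn ρ = ENNReal.ofReal (ρ⁻¹ ^ P.Γ) := by
  have h3 := h.enum_r_le_δ
  unfold Par.Omn P13.Om
  rw [max_eq_left (h3.trans h1), if_neg (not_lt.2 h2), if_pos h1]
/-- lower bound in the slow range -/
theorem Omn_ge {ρ s : ℝ} (h1 : ρ ≤ s) (h2 : P.r ^ (1 / 100 : ℝ) ≤ s) (h3 : s ≤ P.δ₁) :
    ENNReal.ofReal (P.δ₁⁻¹ ^ P.Γ * (P.δ₁ / s) ^ (3 / 2 : ℝ)) ≤ P.Omn ρ := by
  have h0 : 0 < P.r ^ (1 / 100 : ℝ) := Real.rpow_pos_of_pos h.r_pos _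
  refine ENNReal.ofReal_le_ofReal
    (le_trans (le_of_eq ?_) (h.Om_anti (lt_max_of_lt_right h0) (max_le h1 h2)))
  have hd := h.δ₁_pos
  have hd' := h.δ₁_le
  unfold P13.Om
  rw [if_neg (by linarith)]
  split_ifs with h4
  · obtain rfl : s = P.δ₁ := le_antisymm h3 h4
    rw [div_self hd.ne', Real.one_rpow, mul_one]
  · rfl
theorem enum_Om_le {ρ : ℝ} (hρ : 0 < ρ) : P.Om ρ ≤ P.δ₁⁻¹ ^ P.Γ * ρ ^ (-(3 / 2) : ℝ) := by
  have hd := h.δ₁_pos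
  have hd' := h.δ₁_le
  unfold P13.Om
  split_ifs with h1 h2
  · positivity
  · push Not at h1
    have h3 : 1 ≤ ρ ^ (-(3 / 2) : ℝ) :=
      Real.one_le_rpow_of_pos_of_le_one_of_nonpos hρ h1 (by norm_num)
    calc ρ⁻¹ ^ P.Γ ≤ P.δ₁⁻¹ ^ P.Γ := by gcongr
      _ ≤ _ := le_mul_of_one_le_right (by positivity) h3
  · have h3 : (P.δ₁ / ρ) ^ (3 / 2 : ℝ) ≤ ρ ^ (-(3 / 2) : ℝ) := by
      rw [Real.rpow_neg hρ.le, ← Real.inv_rpow hρ.le]
      refine Real.rpow_le_rpow (by positivity) ?_ (by norm_num)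
      rw [div_eq_mul_inv]
      exact mul_le_of_le_one_left (by positivity) (by linarith)
    gcongr

theorem Omn_le_Ws (u v : R3) : P.Omn ‖v - u‖ ≤ ENNReal.ofReal (P.δ₁⁻¹ ^ P.Γ) * Ws u v := by
  have hd := h.δ₁_pos
  by_cases h1 : 1 < ‖v - u‖
  · rw [h.Omn_zero h1]; exact zero_le
  push Not at h1
  have h2 : v ∈ Metric.closedBall u 1 := by rwa [mem_closedBall_iff_norm]
  unfold Ws
  rw [indicator_of_mem h2]
  rcases (norm_nonneg (v - u)).eq_or_lt with h3 | h3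
  · rw [← h3, ENNReal.ofReal_zero, ENNReal.zero_rpow_of_neg (by norm_num), ENNReal.mul_top]
    · exact le_top
    · exact (ENNReal.ofReal_pos.2 (by positivity)).ne'
  · rw [ENNReal.ofReal_rpow_of_pos h3, ← ENNReal.ofReal_mul (by positivity)]
    exact ENNReal.ofReal_le_ofReal ((h.Om_anti h3 (le_max_left _ _)).trans (h.enum_Om_le h3))
theorem Omn_le_const (ρ : ℝ) : P.Omn ρ ≤ ENNReal.ofReal (P.δ₁⁻¹ ^ P.Γ / P.r) := by
  have hd := h.δ₁_pos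
  have hr := h.r_pos
  have h0 : 0 < P.r ^ (1 / 100 : ℝ) := Real.rpow_pos_of_pos hr _
  have h1 : P.r ≤ 1 := by
    have := h.r_le'; have := h.r₀_le; have := h.T₁_le'; linarith
  refine ENNReal.ofReal_le_ofReal
    ((h.Om_anti h0 (le_max_right _ _)).trans ((h.enum_Om_le h0).trans ?_))
  rw [div_eq_mul_inv (P.δ₁⁻¹ ^ P.Γ) P.r, ← Real.rpow_mul hr.le, ← Real.rpow_neg_one P.r]
  exact mul_le_mul_of_nonneg_left (Real.rpow_le_rpow_of_exponent_ge hr h1 (by norm_num))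
    (by positivity)
theorem mm_pos {t : ℝ} (ht : 0 ≤ t) : 0 < P.mm t := by
  have h1 := h.th_pos ht
  have h2 := h.T₀_pos
  have h3 := h.th_pos h2.le
  have h4 : (0 : ℝ) < P.N := by have := h.N_ge; linarith
  unfold Par.mm
  split_ifs <;> positivity
theorem mm_mono {s t : ℝ} (hs : 0 ≤ s) (hst : s ≤ t) : P.mm s ≤ P.mm t := by
  have h1 := h.th_pos hs
  have h2 := h.T₀_pos
  have h3 := h.th_pos h2.le
  have h4 := h.N_ge
  have hth : ∀ {x y : ℝ}, x ≤ y → P.th x ≤ P.th y := fun hxy => by unfold Par.th; linarith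
  have h5 := hth hst
  unfold Par.mm
  by_cases a1 : t ≤ P.T₀
  · rw [if_pos a1, if_pos (hst.trans a1)]
    gcongr
  rw [if_neg a1]
  push Not at a1
  by_cases a2 : s ≤ P.T₀
  · rw [if_pos a2]
    have h6 : 1 ≤ (P.th t / P.th P.T₀) ^ P.μ := one_le_pow₀ ((one_le_div h3).2 (hth a1.le))
    have h7 := hth a2
    calc P.th s / P.T₀ ≤ P.th P.T₀ / P.T₀ := by gcongr
      _ ≤ 8 * P.N * (P.th P.T₀ / P.T₀) := le_mul_of_one_le_left (by positivity) (by linarith)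
      _ ≤ _ := le_mul_of_one_le_right (by positivity) h6
  · rw [if_neg a2]
    gcongr
theorem mm_zero_le : P.mm 0 ≤ 1 := by
  have h1 := h.th_zero_le
  have h2 := h.T₀_pos
  unfold Par.mm
  rw [if_pos h2.le, div_le_one h2]
  linarith
theorem mm_late {t : ℝ} (ht : P.T₀ < t) : 8 * P.N ≤ P.mm t := by
  have h2 := h.T₀_pos
  have h3 := h.th_pos h2.le
  have h4 := h.N_ge
  have h5 := div_pos h.r_pos h.L_pos
  have h6 : 1 ≤ (P.th t / P.th P.T₀) ^ P.μ :=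
    one_le_pow₀ ((one_le_div h3).2 (by unfold Par.th; linarith))
  have h7 : 1 ≤ P.th P.T₀ / P.T₀ := (one_le_div h2).2 (by unfold Par.th; linarith)
  unfold Par.mm
  rw [if_neg (not_le.2 ht)]
  calc 8 * (P.N : ℝ) ≤ 8 * P.N * (P.th P.T₀ / P.T₀) := le_mul_of_one_le_right (by positivity) h7
    _ ≤ _ := le_mul_of_one_le_right (by positivity) h6
/-- `mm / th = 1 / T₀` in the first phase -/
theorem mm_div {t : ℝ} (h0 : 0 ≤ t) (ht : t ≤ P.T₀) : P.mm t / P.th t = 1 / P.T₀ := by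
  have h1 := h.th_pos h0
  have h2 := h.T₀_pos
  unfold Par.mm
  rw [if_pos ht]
  field_simp
theorem int_mm_early {t : ℝ} (h0 : 0 ≤ t) (ht : t ≤ P.T₀) :
    ∫⁻ s in Ioo 0 t, ENNReal.ofReal (P.mm s / P.th s) ≤ ENNReal.ofReal (P.mm t) := by
  have h2 := h.T₀_pos
  have h5 := div_pos h.r_pos h.L_pos
  rw [setLIntegral_congr_fun measurableSet_Ioo (g := fun _ => ENNReal.ofReal (1 / P.T₀))
    (fun s hs => by simp only []; rw [h.mm_div hs.1.le (hs.2.le.trans ht)]),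
    setLIntegral_const, Real.volume_Ioo, ← ENNReal.ofReal_mul (by positivity)]
  refine ENNReal.ofReal_le_ofReal ?_
  unfold Par.mm
  rw [if_pos ht, sub_zero, one_div, inv_mul_eq_div]
  gcongr
  unfold Par.th; linarith
/-- `∫₀^{T₀} = 1 ≤ mm t / (8N)`, and `∫_{T₀}^t mm / th ≤ mm t / μ` -/
theorem int_mm_late {t : ℝ} (ht : P.T₀ < t) :
    ∫⁻ s in Ioo 0 t, ENNReal.ofReal (P.N * (P.mm s / P.th s)) ≤ ENNReal.ofReal (P.mm t / 4) := by
  have h2 := h.T₀_pos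
  have h3 := h.th_pos h2.le
  have h4 := h.N_ge
  have h5 := h.mm_late ht
  have hsub : Ioo 0 t ⊆ Ioc 0 P.T₀ ∪ Ioo P.T₀ t := fun s hs => by
    rcases le_or_gt s P.T₀ with a | a
    · exact Or.inl ⟨hs.1, a⟩
    · exact Or.inr ⟨a, hs.2⟩
  refine (lintegral_mono_set hsub).trans ((lintegral_union_le _ _ _).trans ?_)
  have e1 : ∫⁻ s in Ioc 0 P.T₀, ENNReal.ofReal (P.N * (P.mm s / P.th s)) ≤
      ENNReal.ofReal (P.mm t / 8) := by
    rw [setLIntegral_congr_fun measurableSet_Ioc (g := fun _ => ENNReal.ofReal (P.N * (1 / P.T₀)))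
      (fun s hs => by simp only []; rw [h.mm_div hs.1.le hs.2]),
      setLIntegral_const, Real.volume_Ioc, ← ENNReal.ofReal_mul (by positivity)]
    refine ENNReal.ofReal_le_ofReal ?_
    rw [sub_zero, mul_assoc, one_div, inv_mul_cancel₀ h2.ne']
    linarith
  have e2 : ∫⁻ s in Ioo P.T₀ t, ENNReal.ofReal (P.N * (P.mm s / P.th s)) ≤
      ENNReal.ofReal (P.mm t / 8) := by
    set c : ℝ := 8 * P.N * (P.th P.T₀ / P.T₀) with hc
    have hc0 : 0 < c := by positivity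
    have hμ : P.μ = (P.μ - 1) + 1 := by
      have : 1 ≤ P.N := by exact_mod_cast (by linarith : (1 : ℝ) ≤ P.N)
      unfold P14.μ; omega
    have hμ' : ((P.μ : ℕ) : ℝ) = 8 * P.N := by unfold P14.μ; push_cast; ring
    set g' : ℝ → ℝ := fun s => c / 8 * (P.μ * (P.th s / P.th P.T₀) ^ (P.μ - 1) * (1 / P.th P.T₀))
      with hg'
    have hcont : Continuous g' := by
      rw [hg']; unfold Par.th; fun_prop
    have hder : ∀ s, HasDerivAt (fun s => c / 8 * (P.th s / P.th P.T₀) ^ P.μ) (g' s) s := by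
      intro s
      have a1 : HasDerivAt (fun s => P.th s / P.th P.T₀) (1 / P.th P.T₀) s :=
        ((hasDerivAt_id s).add_const (P.r / P.L)).div_const _
      exact (a1.pow P.μ).const_mul (c / 8)
    have hnn : ∀ s ∈ Ioo P.T₀ t, 0 ≤ g' s := fun s hs => by
      have := h.th_pos (h2.trans hs.1).le
      rw [hg']; positivity
    rw [setLIntegral_congr_fun measurableSet_Ioo (g := fun s => ENNReal.ofReal (g' s))
      (fun s hs => by
        have hs0 := h.th_pos (h2.trans hs.1).le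
        simp only [hg']
        congr 1
        unfold Par.mm
        rw [if_neg (not_le.2 hs.1), ← hc, hμ']
        conv_lhs => rw [hμ, pow_succ]
        field_simp)]
    rw [← ofReal_integral_eq_lintegral_ofReal
      (hcont.integrableOn_Icc.mono_set Ioo_subset_Icc_self)
      ((ae_restrict_mem measurableSet_Ioo).mono hnn), ← integral_Ioc_eq_integral_Ioo,
      ← intervalIntegral.integral_of_le ht.le,
      intervalIntegral.integral_eq_sub_of_hasDerivAt (fun s _ => hder s)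
        (hcont.intervalIntegrable _ _)]
    refine ENNReal.ofReal_le_ofReal ?_
    have a3 : P.mm t = c * (P.th t / P.th P.T₀) ^ P.μ := by
      unfold Par.mm; rw [if_neg (not_le.2 ht)]
    have a4 : 0 ≤ c / 8 * (P.th P.T₀ / P.th P.T₀) ^ P.μ := by positivity
    rw [a3]; linarith
  refine (add_le_add e1 e2).trans (le_of_eq ?_)
  have h6 : 0 ≤ P.mm t / 8 := by linarith
  rw [← ENNReal.ofReal_add h6 h6]
  congr 1; ring
end Par.Ok

/-- `mm T₁ ≤ 16 N (2 C₄ T₁ / r₀)^μ`, `a = r₀^(μ+1)` -/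
theorem a_mm_le : ∀ᶠ P in 𝓕, ∀ t ∈ Icc 0 P.T₁, 3 * P.a * P.mm t ≤ P.e₀ := by
  filter_upwards [ev_ok, small_e₀ (fun Q => 48 * Q.N * (2 * Q.T₁ * Q.C₄) ^ Q.μ) (c := 799)
    (by norm_num)] with P h h1 t ht
  change 48 * (P.N : ℝ) * (2 * P.T₁ * P.C₄) ^ P.μ * P.e₀ ^ (799 : ℝ) ≤ 1 at h1
  have h2 := h.T₀_pos
  have h3 := h.th_pos h2.le
  have h4 := h.N_ge
  have h5 := h.r₀_pos
  have h6 := h.T₁_pos
  have h7 : (0 : ℝ) < P.C₄ := by have := h.C₃_ge'; have := h.C₄_ge'; linarith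
  have h8 := h.e₀_pos
  have ha := h.a_pos
  have hlt : P.T₀ < P.T₁ := by
    refine lt_of_lt_of_le ?_ h.T'_le
    unfold Qar.T' P14.V₁; nlinarith
  have b1 : P.th P.T₀ / P.T₀ ≤ 2 := by
    have := h.th_zero_le
    rw [div_le_iff₀ h2]; unfold Par.th at this ⊢; linarith
  have b2 : P.th P.T₁ / P.th P.T₀ ≤ 2 * P.T₁ * P.C₄ / P.r₀ := by
    have c1 := h.th_le (le_refl P.T₁)
    have c2 : P.T₀ ≤ P.th P.T₀ := by
      have := div_pos h.r_pos h.L_pos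
      unfold Par.th; linarith
    calc P.th P.T₁ / P.th P.T₀ ≤ 2 * P.T₁ / P.T₀ := by gcongr
      _ = _ := by unfold Qar.T₀; field_simp
  have b0 := h.th_pos h6.le
  have b3 : P.mm t ≤ 8 * P.N * 2 * (2 * P.T₁ * P.C₄ / P.r₀) ^ P.μ := by
    refine (h.mm_mono ht.1 ht.2).trans ?_
    unfold Par.mm
    rw [if_neg (not_le.2 hlt)]
    gcongr
  have b4 : P.r₀ = P.e₀ ^ (799 : ℝ) * P.e₀ := by
    rw [h.r₀_eq, show (799 : ℝ) = ((799 : ℕ) : ℝ) by norm_num, Real.rpow_natCast, ← h.r₀_eq,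
      ← pow_succ]
    exact h.r₀_eq
  calc 3 * P.a * P.mm t ≤ 3 * P.a * (8 * P.N * 2 * (2 * P.T₁ * P.C₄ / P.r₀) ^ P.μ) := by gcongr
    _ = 48 * (P.N : ℝ) * (2 * P.T₁ * P.C₄) ^ P.μ * P.r₀ := by
        unfold Qar.a; rw [div_pow, pow_succ]; field_simp; ring
    _ = 48 * (P.N : ℝ) * (2 * P.T₁ * P.C₄) ^ P.μ * P.e₀ ^ (799 : ℝ) * P.e₀ := by
        conv_lhs => rw [b4]
        ring
    _ ≤ 1 * P.e₀ := by gcongr
    _ = _ := one_mul _

end

end Crest.Agent.R68
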