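import Crest.Agent.R68.A8
import Crest.Agent.R68.ESupp

/-!
# R68 (S0091): plane integrals of the weight
-/

set_option autoImplicit false

namespace Crest.Agent.R68

open MeasureTheory Set Filter Crest.AnalysisR.VecCalc3 Crest.AnalysisR.PDE.Boltzmann
open scoped ENNReal _root_.Topology

noncomputable section

/-- `G(v + z) G(c) = G(v) G(c + z)` for `z ⊥ c - v` -/
theorem Gs_plane (θ : ℝ) {v c z : R3} (h : inner ℝ z (c - v) = 0) :
    Gs θ (v + z) * Gs θ c = Gs θ v * Gs θ (c + z) := by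
  rw [a5_Gs_mul, a5_Gs_mul, norm_add_sq_real, norm_add_sq_real]
  rw [inner_sub_right, sub_eq_zero] at h
  rw [real_inner_comm z v, real_inner_comm z c, h]
  congr 2
  ring

theorem Gs_plane_le {θ : ℝ} (hθ : θ ∈ Icc (0 : ℝ) (1 / 2)) {v c z : R3} (hc : ‖c‖ ≤ 2)
    (h : inner ℝ z (c - v) = 0) : Gs θ (v + z) ≤ 3 * (Gs θ v * Gs θ (c + z)) := by
  have h1 : (1 : ℝ≥0∞) ≤ 3 * Gs θ c := by
    unfold Gs
    rw [← ENNReal.ofReal_ofNat 3, ← ENNReal.ofReal_mul (by norm_num)]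
    refine ENNReal.one_le_ofReal.2 ?_
    have h2 : ‖c‖ ^ 2 ≤ 4 := by nlinarith [norm_nonneg c]
    have h3 : -1 ≤ -θ * ‖c‖ ^ 2 / 2 := by nlinarith [hθ.1, hθ.2, sq_nonneg ‖c‖]
    have h4 := Real.exp_le_exp.2 h3
    have h5 : Real.exp (-1) * Real.exp 1 = 1 := by rw [← Real.exp_add]; simp
    have h6 := Real.exp_one_lt_d9
    have h7 := Real.exp_pos (-1)
    nlinarith
  calc Gs θ (v + z) ≤ 3 * Gs θ c * Gs θ (v + z) := le_mul_of_one_le_left' h1
    _ = 3 * (Gs θ (v + z) * Gs θ c) := by ring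
    _ = _ := by rw [Gs_plane θ h]

private theorem epl_out {δ : ℝ} (hδ : 0 < δ) :
    ∫⁻ η : ℂ, ENNReal.ofReal ((Ioi δ).indicator (fun y : ℝ => y ^ (-3 : ℝ)) ‖η‖) =
      ENNReal.ofReal (2 * Real.pi * δ⁻¹) := by
  obtain ⟨f, hf⟩ : ∃ f : ℝ → ℝ, f = (Ioi δ).indicator fun y => y ^ (-3 : ℝ) := ⟨_, rfl⟩
  have hd : Module.finrank ℝ ℂ - 1 = 1 := by rw [Complex.finrank_real_complex]
  have he : ∀ y ∈ Ioi (0 : ℝ), y ^ (Module.finrank ℝ ℂ - 1) • f y =
      (Ioi δ).indicator (fun y => y ^ (-2 : ℝ)) y := fun y hy => by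
    have hy : 0 < y := hy
    rw [hd, pow_one, hf, smul_eq_mul]
    by_cases h : y ∈ Ioi δ
    · rw [indicator_of_mem h, indicator_of_mem h,
        show (-2 : ℝ) = 1 + -3 by norm_num, Real.rpow_add hy, Real.rpow_one]
    · rw [indicator_of_notMem h, indicator_of_notMem h, mul_zero]
  have hI : IntegrableOn (fun y : ℝ => y ^ (-2 : ℝ)) (Ioi δ) :=
    integrableOn_Ioi_rpow_of_lt (by norm_num) hδ
  have hi : Integrable fun η : ℂ => f ‖η‖ := by
    rw [integrable_fun_norm_addHaar volume (f := f)]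
    refine IntegrableOn.congr_fun ?_ (fun y hy => (he y hy).symm) measurableSet_Ioi
    exact ((integrable_indicator_iff measurableSet_Ioi).2 hI).integrableOn
  have hv : ∫ η : ℂ, f ‖η‖ = 2 * Real.pi * δ⁻¹ := by
    rw [integral_fun_norm_addHaar volume f, setIntegral_congr_fun measurableSet_Ioi he,
      integral_indicator measurableSet_Ioi, Measure.restrict_restrict measurableSet_Ioi,
      inter_eq_left.2 (Ioi_subset_Ioi hδ.le), integral_Ioi_rpow_of_lt (by norm_num) hδ,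
      Complex.finrank_real_complex, Measure.real, Complex.volume_ball,
      show (-2 : ℝ) + 1 = -1 by norm_num, Real.rpow_neg_one]
    norm_num
    ring
  have h0 : ∀ η : ℂ, 0 ≤ f ‖η‖ := fun η => by
    rw [hf]
    by_cases h : ‖η‖ ∈ Ioi δ
    · rw [indicator_of_mem h]; positivity
    · rw [indicator_of_notMem h]
  rw [← hv, ofReal_integral_eq_lintegral_ofReal hi (ae_of_all _ h0), hf]

private theorem epl_pt {P : Par} (h : P.Ok) (η : ℂ) : P.Omn ‖η‖ ≤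
    ENNReal.ofReal (P.δ₁⁻¹ ^ P.Γ * P.δ₁ ^ (3 / 2 : ℝ)) * (Metric.closedBall (0 : ℂ) P.δ₁).indicator
      (fun η => ENNReal.ofReal ‖η - 0‖ ^ (-(3 / 2) : ℝ)) η +
    ENNReal.ofReal (P.δ₁⁻¹ ^ (P.Γ - 3)) *
      ENNReal.ofReal ((Ioi P.δ₁).indicator (fun y : ℝ => y ^ (-3 : ℝ)) ‖η‖) := by
  have hd := h.δ₁_pos
  have hd' := h.δ₁_le
  have hΓ := h.Γ_ge
  by_cases h1 : ‖η‖ ≤ P.δ₁
  · refine le_trans ?_ le_self_add
    rw [indicator_of_mem (mem_closedBall_zero_iff.2 h1), sub_zero]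
    rcases (norm_nonneg η).eq_or_lt with h3 | h3
    · rw [← h3, ENNReal.ofReal_zero, ENNReal.zero_rpow_of_neg (by norm_num), ENNReal.mul_top]
      · exact le_top
      · exact (ENNReal.ofReal_pos.2 (by positivity)).ne'
    · rw [ENNReal.ofReal_rpow_of_pos h3, ← ENNReal.ofReal_mul (by positivity)]
      refine ENNReal.ofReal_le_ofReal ((h.Om_anti h3 (le_max_left _ _)).trans (le_of_eq ?_))
      have e : (P.δ₁ / ‖η‖) ^ (3 / 2 : ℝ) = P.δ₁ ^ (3 / 2 : ℝ) * ‖η‖ ^ (-(3 / 2) : ℝ) := by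
        rw [Real.div_rpow hd.le h3.le, Real.rpow_neg h3.le, div_eq_mul_inv]
      unfold P13.Om
      rw [if_neg (by linarith), mul_assoc, ← e]
      split_ifs with h4
      · rw [le_antisymm h1 h4, div_self hd.ne', Real.one_rpow, mul_one]
      · rfl
  · push Not at h1
    have h3 := hd.trans h1
    refine le_trans ?_ le_add_self
    rw [indicator_of_mem (mem_Ioi.2 h1), ← ENNReal.ofReal_mul (by positivity)]
    refine (h.Omn_le_pow h3).trans (ENNReal.ofReal_le_ofReal ?_)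
    rw [show (-3 : ℝ) = -((3 : ℕ) : ℝ) by norm_num, Real.rpow_neg h3.le, Real.rpow_natCast,
      ← inv_pow]
    calc ‖η‖⁻¹ ^ P.Γ = ‖η‖⁻¹ ^ (P.Γ - 3) * ‖η‖⁻¹ ^ 3 := by
          rw [← pow_add]
          congr 1
          omega
      _ ≤ _ := by gcongr

/-- on the disc of radius `δ₁` use `Omn ≤ δ₁^{3/2-Γ} ρ^{-3/2}` and `lintegral_disc_rpow`; outside
`Omn ρ ≤ ρ^{-Γ} ≤ δ₁^{3-Γ} ρ^{-3}` and `∫_{ρ ≥ δ₁} ρ^{-3} = 2π/δ₁` -/
theorem Par.Ok.lintegral_Omn {P : Par} (h : P.Ok) (η₀ : ℂ) :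
    ∫⁻ η : ℂ, P.Omn ‖η - η₀‖ ≤ ENNReal.ofReal (40 * P.δ₁⁻¹ ^ (P.Γ - 2)) := by
  have hd := h.δ₁_pos
  have hΓ := h.Γ_ge
  rw [lintegral_sub_right_eq_self (fun η : ℂ => P.Omn ‖η‖) η₀]
  refine (lintegral_mono (epl_pt h)).trans ?_
  have hm : Measurable ((Metric.closedBall (0 : ℂ) P.δ₁).indicator
      fun η => ENNReal.ofReal ‖η - 0‖ ^ (-(3 / 2) : ℝ)) :=
    Measurable.indicator (by fun_prop) measurableSet_closedBall
  rw [lintegral_add_left (hm.const_mul _), lintegral_const_mul _ hm,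
    lintegral_const_mul' _ _ ENNReal.ofReal_ne_top, epl_out hd,
    lintegral_indicator measurableSet_closedBall]
  refine (add_le_add (mul_le_mul_right (lintegral_disc_rpow 0 hd) _) le_rfl).trans ?_
  rw [← ENNReal.ofReal_mul (by positivity), ← ENNReal.ofReal_mul (by positivity),
    ← ENNReal.ofReal_add (by positivity) (by positivity)]
  refine ENNReal.ofReal_le_ofReal ?_
  have e1 : P.δ₁ ^ (3 / 2 : ℝ) * √P.δ₁ = P.δ₁ ^ 2 := by
    rw [Real.sqrt_eq_rpow, ← Real.rpow_add hd, ← Real.rpow_natCast]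
    norm_num
  have e2 : P.δ₁⁻¹ ^ P.Γ * P.δ₁ ^ 2 = P.δ₁⁻¹ ^ (P.Γ - 2) := by
    rw [show P.δ₁⁻¹ ^ P.Γ = P.δ₁⁻¹ ^ (P.Γ - 2) * P.δ₁⁻¹ ^ 2 by rw [← pow_add]; congr 1; omega,
      mul_assoc, ← mul_pow, inv_mul_cancel₀ hd.ne', one_pow, mul_one]
  have e3 : P.δ₁⁻¹ ^ (P.Γ - 3) * P.δ₁⁻¹ = P.δ₁⁻¹ ^ (P.Γ - 2) := by
    rw [← pow_succ]
    congr 1
    omega
  have hp : 0 < P.δ₁⁻¹ ^ (P.Γ - 2) := by positivity
  calc _ = 30 * (P.δ₁⁻¹ ^ P.Γ * (P.δ₁ ^ (3 / 2 : ℝ) * √P.δ₁)) +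
        2 * Real.pi * (P.δ₁⁻¹ ^ (P.Γ - 3) * P.δ₁⁻¹) := by ring
    _ ≤ _ := by
        rw [e1, e2, e3]
        nlinarith [Real.pi_le_four]

private theorem epl_exp {θ : ℝ} (hθ : 49 / 100 ≤ θ) {c : R3} (hc : ‖c‖ ≤ 2) (J : ℂ →ₗᵢ[ℝ] R3)
    (η : ℂ) : ENNReal.ofReal (Real.exp (3 * ‖η‖)) * Gs θ (c + J η) ≤
      ENNReal.ofReal (Real.exp 25) * Gs (1 / 4) (c + J η) := by
  unfold Gs
  rw [← ENNReal.ofReal_mul (by positivity), ← ENNReal.ofReal_mul (by positivity), ← Real.exp_add,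
    ← Real.exp_add]
  refine ENNReal.ofReal_le_ofReal (Real.exp_le_exp.2 ?_)
  have h1 : ‖η‖ ≤ ‖c + J η‖ + 2 := by
    have h2 := norm_sub_le (c + J η) c
    rw [add_sub_cancel_left, J.norm_map] at h2
    linarith
  nlinarith [sq_nonneg (‖c + J η‖ - 25 / 2), sq_nonneg ‖c + J η‖]

private theorem epl_Ew {P : Par} (h : P.Ok) (ε : Bool) (t : ℝ) (X : ℂ) (v : R3)
    (J : ℂ →ₗᵢ[ℝ] R3) : ∃ η₀ : ℂ, ∀ η, P.Ew ε t X (v + J η) ≤ P.Omn ‖η - η₀‖ := by
  obtain ⟨η₀, h₀⟩ := exists_plane_center J (v - P.Uf ε t X)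
  refine ⟨η₀, fun η => ?_⟩
  unfold Par.Ew
  split_ifs
  · refine h.Omn_anti ?_
    unfold P11.wn
    rw [add_sub_right_comm]
    exact h₀ η
  · exact zero_le

/-- Gaussian part: `Gs_plane_le`, `‖c + z‖ ≥ ‖z‖ - 2`, `θ ≥ 0.49`.  Singular part: if
`Ew (v + z) ≠ 0` then `‖v + z‖ ≤ 2.1` and `‖z‖ ≤ ‖v + z - c‖ ≤ 5` (Pythagoras);
`exists_plane_center`, `Omn_anti`, `lintegral_Omn`; for the second claim `E0P_le_Ws`,
`plane_Ws_small`. -/
theorem plane_E0 : ∃ c₁ : ℝ, 0 < c₁ ∧ ∀ P : Par, P.Ok → ∀ t ∈ Icc 0 P.T₁, ∀ (X : ℂ) (v c : R3),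
    ‖c‖ ≤ 2 → ∀ J : ℂ →ₗᵢ[ℝ] R3, (∀ η, inner ℝ (J η) (c - v) = 0) →
    (∫⁻ η : ℂ, ENNReal.ofReal (Real.exp (3 * ‖η‖)) * P.E0P t X (v + J η) ≤
      ENNReal.ofReal (c₁ * P.δ₁⁻¹ ^ (P.Γ - 2)) * Gs (1 / 2 - t) v) ∧
    ∀ κ ∈ Ioc (0 : ℝ) 1, ∫⁻ η in Metric.closedBall (0 : ℂ) κ, P.E0P t X (v + J η) ≤
      ENNReal.ofReal (c₁ * P.δ₁⁻¹ ^ P.Γ * √κ) * Gs (1 / 2 - t) v := by
  have hK : (1 : ℝ) ≤ Real.exp 25 := Real.one_le_exp (by norm_num)
  refine ⟨360 * Real.exp 25, by positivity, fun P h t ht X v c hc J hJ => ?_⟩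
  have hd := h.δ₁_pos
  have hd' := h.δ₁_le
  have hT := ht.2.trans h.T₁_le'
  have hθ : 1 / 2 - t ∈ Icc (0 : ℝ) (1 / 2) := ⟨by linarith, by linarith [ht.1]⟩
  have hδ : (1 : ℝ) ≤ P.δ₁⁻¹ := (one_le_inv₀ hd).2 (by linarith)
  have hG : Gs (1 / 2 - t) v ≠ ⊤ := ENNReal.ofReal_ne_top
  constructor
  · obtain ⟨η₁, h₁⟩ := epl_Ew h true t X v J
    obtain ⟨η₂, h₂⟩ := epl_Ew h false t X v J
    have hD : (1 : ℝ) ≤ P.δ₁⁻¹ ^ (P.Γ - 2) := one_le_pow₀ hδ
    have m1 : Measurable fun η : ℂ => Gs (1 / 4) (c + J η) :=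
      (a5_meas _).comp (measurable_const.add J.continuous.measurable)
    have m2 : Measurable fun η : ℂ => P.Omn ‖η - η₁‖ := by fun_prop
    calc _ ≤ ∫⁻ η : ℂ, 3 * ENNReal.ofReal (Real.exp 25) * Gs (1 / 2 - t) v *
          (Gs (1 / 4) (c + J η) + P.Omn ‖η - η₁‖ + P.Omn ‖η - η₂‖) := by
          refine lintegral_mono fun η => ?_
          have a1 := Gs_plane_le hθ hc (hJ η)
          have a2 := epl_exp (θ := 1 / 2 - t) (by linarith) hc J η
          have a3 : Gs (1 / 4) (c + J η) ≤ 1 := Gs_le_one (by norm_num) _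
          unfold Par.E0P
          calc _ ≤ ENNReal.ofReal (Real.exp (3 * ‖η‖)) * ((1 + P.Omn ‖η - η₁‖ + P.Omn ‖η - η₂‖) *
                (3 * (Gs (1 / 2 - t) v * Gs (1 / 2 - t) (c + J η)))) := by
                gcongr
                · exact h₁ η
                · exact h₂ η
            _ = 3 * Gs (1 / 2 - t) v * (1 + P.Omn ‖η - η₁‖ + P.Omn ‖η - η₂‖) *
                (ENNReal.ofReal (Real.exp (3 * ‖η‖)) * Gs (1 / 2 - t) (c + J η)) := by ring
            _ ≤ 3 * Gs (1 / 2 - t) v * (1 + P.Omn ‖η - η₁‖ + P.Omn ‖η - η₂‖) *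
                (ENNReal.ofReal (Real.exp 25) * Gs (1 / 4) (c + J η)) := by gcongr
            _ = 3 * ENNReal.ofReal (Real.exp 25) * Gs (1 / 2 - t) v *
                (Gs (1 / 4) (c + J η) + Gs (1 / 4) (c + J η) * P.Omn ‖η - η₁‖ +
                  Gs (1 / 4) (c + J η) * P.Omn ‖η - η₂‖) := by ring
            _ ≤ _ := by
                gcongr
                · exact mul_le_of_le_one_left' a3
                · exact mul_le_of_le_one_left' a3
      _ ≤ 3 * ENNReal.ofReal (Real.exp 25) * Gs (1 / 2 - t) v *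
          (ENNReal.ofReal (2 * Real.pi / (1 / 4)) + ENNReal.ofReal (40 * P.δ₁⁻¹ ^ (P.Γ - 2)) +
            ENNReal.ofReal (40 * P.δ₁⁻¹ ^ (P.Γ - 2))) := by
          rw [lintegral_const_mul' _ _ (by finiteness), lintegral_add_left (m1.fun_add m2),
            lintegral_add_left m1]
          gcongr
          · exact plane_Gs (by norm_num) c J
          · exact h.lintegral_Omn η₁
          · exact h.lintegral_Omn η₂
      _ ≤ _ := by
          rw [mul_right_comm, ← ENNReal.ofReal_add (by positivity) (by positivity),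
            ← ENNReal.ofReal_add (by positivity) (by positivity), ← ENNReal.ofReal_ofNat 3,
            ← ENNReal.ofReal_mul (by norm_num), ← ENNReal.ofReal_mul (by positivity)]
          refine mul_le_mul_left (ENNReal.ofReal_le_ofReal ?_) _
          have : 2 * Real.pi / (1 / 4) + 40 * P.δ₁⁻¹ ^ (P.Γ - 2) + 40 * P.δ₁⁻¹ ^ (P.Γ - 2) ≤
              120 * P.δ₁⁻¹ ^ (P.Γ - 2) := by nlinarith [Real.pi_le_four]
          nlinarith
  · intro κ hκ
    have hD : (1 : ℝ) ≤ P.δ₁⁻¹ ^ P.Γ := one_le_pow₀ hδ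
    have hs := Real.sqrt_pos.2 hκ.1
    have hs2 : κ ^ 2 ≤ √κ := by
      have a1 : κ ≤ √κ := by
        refine Real.le_sqrt_of_sq_le ?_
        nlinarith [hκ.1, hκ.2]
      nlinarith [hκ.1, hκ.2]
    have m1 : ∀ u, Measurable fun η : ℂ => Ws u (v + J η) := fun u =>
      emeas_Ws measurable_const (measurable_const.add J.continuous.measurable)
    calc _ ≤ ∫⁻ η in Metric.closedBall (0 : ℂ) κ, 3 * Gs (1 / 2 - t) v *
          (1 + ENNReal.ofReal (P.δ₁⁻¹ ^ P.Γ) *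
            (Ws (P.Uf true t X) (v + J η) + Ws (P.Uf false t X) (v + J η))) := by
          refine lintegral_mono fun η => (h.E0P_le_Ws t X _).trans ?_
          rw [mul_comm, mul_assoc 3, ← mul_assoc 3]
          gcongr
          refine (Gs_plane_le hθ hc (hJ η)).trans ?_
          gcongr
          exact mul_le_of_le_one_right' (Gs_le_one hθ.1 _)
      _ ≤ 3 * Gs (1 / 2 - t) v * (ENNReal.ofReal (4 * √κ) + ENNReal.ofReal (P.δ₁⁻¹ ^ P.Γ) *
            (ENNReal.ofReal (30 * √κ) + ENNReal.ofReal (30 * √κ))) := by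
          rw [lintegral_const_mul' _ _ (by finiteness), lintegral_add_left measurable_const,
            lintegral_const_mul' _ _ ENNReal.ofReal_ne_top, lintegral_add_left (m1 _),
            setLIntegral_const, one_mul, Complex.volume_closedBall]
          gcongr
          · rw [← ENNReal.ofReal_pow hκ.1.le, ← ENNReal.ofReal_coe_nnreal,
              ← ENNReal.ofReal_mul (by positivity), NNReal.coe_real_pi]
            exact ENNReal.ofReal_le_ofReal (by nlinarith [Real.pi_le_four, Real.pi_pos])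
          · exact plane_Ws_small _ v J hκ.1
          · exact plane_Ws_small _ v J hκ.1
      _ ≤ _ := by
          rw [mul_right_comm, ← ENNReal.ofReal_add (by positivity) (by positivity),
            ← ENNReal.ofReal_mul (by positivity), ← ENNReal.ofReal_add (by positivity) (by positivity),
            ← ENNReal.ofReal_ofNat 3, ← ENNReal.ofReal_mul (by norm_num)]
          refine mul_le_mul_left (ENNReal.ofReal_le_ofReal ?_) _
          have a1 : √κ ≤ P.δ₁⁻¹ ^ P.Γ * √κ := le_mul_of_one_le_left hs.le hD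
          have a2 : P.δ₁⁻¹ ^ P.Γ * √κ ≤ Real.exp 25 * (P.δ₁⁻¹ ^ P.Γ * √κ) :=
            le_mul_of_one_le_left (by positivity) hK
          nlinarith

end

end Crest.Agent.R68
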