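import Crest.Agent.R68.A8
import Crest.Agent.R68.ENum

/-!
# R68 (S0091): the dominating function is admissible
-/

set_option autoImplicit false

namespace Crest.Agent.R68

open MeasureTheory Set Filter Crest.AnalysisR.VecCalc3 Crest.AnalysisR.PDE.Boltzmann
open scoped ENNReal _root_.Topology

noncomputable section

/-- velocity integral of the spatial singularity -/
def rhoY (t : ℝ) (x : R3) : ℝ≥0∞ :=
  ∫⁻ v in Metric.closedBall (0 : R3) 4, ENNReal.ofReal ‖Yt t x v‖ ^ (-(1133 / 1000) : ℝ)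

theorem epsi_fin {s : ℝ} (hs : s < 2) (κ : ℝ) :
    ∫⁻ z in Metric.closedBall (0 : ℂ) κ, ENNReal.ofReal ‖z‖ ^ (-s) ≠ ⊤ := by
  have hi : IntegrableOn (fun p : ℂ => ‖p‖ ^ (-s)) (Metric.ball 0 (κ + 1)) volume := by
    refine integrableOn_ball_of_norm_le_rpow (C := 1) (α := s) (by simp) (by simpa using hs)
      (ae_of_all _ fun p => ?_) (Measurable.aestronglyMeasurable (by fun_prop))
    rw [Real.norm_of_nonneg (by positivity), one_mul]
  refine ne_top_of_le_ne_top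
    (hi.mono_set (Metric.closedBall_subset_ball (lt_add_one κ))).lintegral_lt_top.ne ?_
  refine lintegral_mono_ae (ae_restrict_of_ae ?_)
  have h0 : ∀ᵐ p : ℂ, p ≠ 0 := by
    rw [ae_iff]
    simp
  filter_upwards [h0] with p hp
  rw [ENNReal.ofReal_rpow_of_pos (norm_pos_iff.2 hp)]

theorem epsi_sq {s : ℝ} (hs : s < 2) :
    ∫⁻ z in {z : ℂ | |z.re| < 1 / 2 ∧ |z.im| < 1 / 2}, ENNReal.ofReal ‖z‖ ^ (-s) ≠ ⊤ := by
  refine ne_top_of_le_ne_top (epsi_fin hs 1) (lintegral_mono_set fun z hz => ?_)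
  rw [mem_closedBall_zero_iff]
  linarith [Complex.norm_le_abs_re_add_abs_im z, hz.1, hz.2]

theorem epsi_cmp {a b c s : ℝ} (hs : 0 ≤ s) (hc : 0 < c) (h : a ≤ c * b) :
    ENNReal.ofReal b ^ (-s) ≤ ENNReal.ofReal c ^ s * ENNReal.ofReal a ^ (-s) := by
  have h1 := a6_anti (ENNReal.ofReal_le_ofReal h) hs
  rw [ENNReal.ofReal_mul hc.le, ENNReal.mul_rpow_of_ne_top ENNReal.ofReal_ne_top
    ENNReal.ofReal_ne_top] at h1
  refine le_trans (le_of_eq ?_) (mul_le_mul_right h1 _)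
  rw [← mul_assoc, ← ENNReal.rpow_add _ _ (ENNReal.ofReal_pos.2 hc).ne' ENNReal.ofReal_ne_top,
    add_neg_cancel, ENNReal.rpow_zero, one_mul]

theorem epsi_vert {j : ℂ → ℝ≥0∞} (hj : Measurable j) :
    ∫⁻ v in Metric.closedBall (0 : R3) 4, j (pr v) ≤ 8 * ∫⁻ z in Metric.closedBall (0 : ℂ) 4, j z := by
  have h := a6_vert hj 0 4 (φ := fun _ => 1) measurable_const (k := fun _ => 8) fun z => by
    rw [setLIntegral_const, Real.volume_closedBall, one_mul]
    norm_num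
  simp only [mul_one] at h
  rw [lintegral_indicator measurableSet_closedBall, lintegral_mul_const _ hj, mul_comm] at h
  exact h

/-- `lintegral_mk3`.  `t ≥ 1/32`: `disp2`.  `t < 1/32`, `X = Xr x`: if `‖X‖ ≥ 8t` then
`‖Yt‖ ≥ ‖X‖/2` (`norm_Xr_le`); otherwise `Yt = X - tζ` (`Yt_eq`), substitute `z = X - tζ`,
`‖z‖ ≤ 12 t`. -/
theorem rhoY_le : ∃ C : ℝ≥0∞, C ≠ ⊤ ∧ ∀ t, 0 < t → ∀ x, rhoY t x ≤
    C * (1 + ENNReal.ofReal (max ‖Xr x‖ t) ^ (-(1133 / 1000) : ℝ)) := by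
  unfold rhoY
  have hs : (1133 / 1000 : ℝ) < 2 := by norm_num
  have hs0 : (0 : ℝ) ≤ 1133 / 1000 := by norm_num
  generalize (1133 / 1000 : ℝ) = s at hs hs0 ⊢
  have h1 := epsi_sq hs
  have h2 := epsi_fin hs 12
  have h3 : volume (Metric.closedBall (0 : R3) 4) ≠ ⊤ := measure_closedBall_lt_top.ne
  have p : ∀ c : ℝ, ENNReal.ofReal c ^ s ≠ ⊤ := fun c =>
    ENNReal.rpow_ne_top_of_nonneg hs0 ENNReal.ofReal_ne_top
  have mN : Measurable fun z : ℂ => ENNReal.ofReal ‖z‖ ^ (-s) := by fun_prop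
  generalize hD₁ : ∫⁻ z in {z : ℂ | |z.re| < 1 / 2 ∧ |z.im| < 1 / 2}, ENNReal.ofReal ‖z‖ ^ (-s) = D₁
    at h1
  generalize hD₂ : ∫⁻ z in Metric.closedBall (0 : ℂ) 12, ENNReal.ofReal ‖z‖ ^ (-s) = D₂ at h2
  refine ⟨8 * (ENNReal.ofReal (72 ^ 2) * D₁) +
    (ENNReal.ofReal 2 ^ s * volume (Metric.closedBall (0 : R3) 4) + 8 * (ENNReal.ofReal 8 ^ s * D₂)),
    by have := p 2; have := p 8; finiteness, fun t ht x => ?_⟩
  rcases le_or_gt (1 / 32) t with h | h
  · refine le_trans ?_ (le_self_add.trans (le_mul_of_one_le_right' le_self_add))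
    refine (epsi_vert (j := fun ζ => ENNReal.ofReal ‖red (pr x - t • ζ)‖ ^ (-s))
      (by fun_prop)).trans (mul_le_mul_right ((disp2 _ mN (pr x) ht (by norm_num)).trans ?_) _)
    rw [hD₁]
    refine mul_le_mul_left (ENNReal.ofReal_le_ofReal ?_) _
    rw [div_le_iff₀ (by positivity), ← mul_pow]
    exact pow_le_pow_left₀ (by positivity) (by linarith) 2
  refine le_trans ?_ (mul_le_mul' le_add_self le_add_self)
  rcases le_or_gt (8 * t) ‖Xr x‖ with h' | h'
  · refine le_trans ?_ (mul_le_mul_left le_self_add _)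
    rw [mul_right_comm, ← setLIntegral_const]
    refine setLIntegral_mono' measurableSet_closedBall fun v hv => epsi_cmp hs0 two_pos ?_
    have e1 := norm_Xr_le ht.le x v
    have e2 := mul_le_mul_of_nonneg_left ((norm_pr_le v).trans (mem_closedBall_zero_iff.1 hv)) ht.le
    exact max_le (by linarith) (by linarith)
  · refine le_trans ?_ (mul_le_mul_left le_add_self _)
    have e1 : ∀ v ∈ Metric.closedBall (0 : R3) 4, ENNReal.ofReal ‖Yt t x v‖ ^ (-s) =
        ENNReal.ofReal t ^ (-s) * ENNReal.ofReal ‖t⁻¹ • Xr x - (1 : ℝ) • pr v‖ ^ (-s) := by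
      intro v hv
      have e2 := mul_le_mul_of_nonneg_left ((norm_pr_le v).trans (mem_closedBall_zero_iff.1 hv)) ht.le
      have e3 := norm_sub_le (Xr x) (t • pr v)
      rw [norm_smul, Real.norm_of_nonneg ht.le] at e3
      rw [Yt_eq (by linarith), ← ENNReal.mul_rpow_of_ne_top ENNReal.ofReal_ne_top
        ENNReal.ofReal_ne_top, ← ENNReal.ofReal_mul ht.le, one_smul, ← norm_smul_of_nonneg ht.le,
        smul_sub, smul_inv_smul₀ ht.ne']
    rw [setLIntegral_congr_fun measurableSet_closedBall e1]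
    refine (epsi_vert (j := fun ζ => ENNReal.ofReal t ^ (-s) *
      ENNReal.ofReal ‖t⁻¹ • Xr x - (1 : ℝ) • ζ‖ ^ (-s)) (by fun_prop)).trans ?_
    rw [lintegral_const_mul _ (by fun_prop), mul_assoc, mul_right_comm]
    refine mul_le_mul_right (mul_le_mul' (epsi_cmp hs0 (by norm_num)
      (max_le h'.le (by linarith))) ((a7_scale volume _ mN (t⁻¹ • Xr x) one_pos 4).trans ?_)) _
    rw [one_pow, inv_one, ENNReal.ofReal_one, one_mul, ← hD₂]
    refine lintegral_mono_set (Metric.closedBall_subset_closedBall' ?_)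
    rw [dist_zero_right, norm_smul, Real.norm_of_nonneg (inv_nonneg.2 ht.le)]
    have := (inv_mul_le_iff₀ ht).2 (show ‖Xr x‖ ≤ t * 8 by linarith)
    linarith

/-- `lintegral_cell_red`; `∫_ℂ max(‖z‖,t)^{-2.266} dz ≤ C t^{-0.266}`, integrable at `0` -/
theorem lintegral_max_rpow (T : ℝ) : ∫⁻ p in Ioo 0 T ×ˢ cell,
    (ENNReal.ofReal (max ‖Xr p.2‖ p.1) ^ (-(1133 / 1000) : ℝ)) ^ 2 ≠ ⊤ := by
  obtain ⟨C, hC, -, h⟩ := a6_one (a := 383 / 500) (by norm_num) (by norm_num)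
  have h1 : ∫⁻ t in Ioo 0 T, ENNReal.ofReal |t - 0| ^ (-(383 / 500 : ℝ)) ≠ ⊤ := by
    refine ne_top_of_le_ne_top (ENNReal.mul_ne_top hC (ENNReal.rpow_ne_top_of_nonneg (by norm_num)
      ENNReal.ofReal_ne_top)) ((lintegral_mono_set fun t ht => ?_).trans
        (h 0 0 (|T| + 1) (by positivity)))
    rw [mem_closedBall_zero_iff, Real.norm_of_nonneg ht.1.le]
    linarith [ht.2, le_abs_self T]
  have h2 : ∫⁻ x in cell, ENNReal.ofReal ‖Xr x‖ ^ (-(3 / 2 : ℝ)) ≠ ⊤ := by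
    have := lintegral_cell_red (fun z => ENNReal.ofReal ‖z‖ ^ (-(3 / 2 : ℝ))) (by fun_prop) 0
    simp only [sub_zero] at this
    exact this ▸ epsi_sq (by norm_num)
  refine ne_top_of_le_ne_top (ENNReal.mul_ne_top h1 h2) ?_
  rw [← lintegral_prod_mul (by fun_prop) (by fun_prop), Measure.prod_restrict,
    ← Measure.volume_eq_prod]
  refine setLIntegral_mono' (measurableSet_Ioo.prod measurableSet_cell) fun p hp => ?_
  rw [← ENNReal.rpow_two, ← ENNReal.rpow_mul,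
    show (-(1133 / 1000) * 2 : ℝ) = -(383 / 500 + 3 / 2) by norm_num,
    a6_split ENNReal.ofReal_ne_top (by norm_num) (by norm_num), sub_zero, abs_of_pos hp.1.1]
  exact mul_le_mul' (a6_anti (ENNReal.ofReal_le_ofReal (le_max_right _ _)) (by norm_num))
    (a6_anti (ENNReal.ofReal_le_ofReal (le_max_left _ _)) (by norm_num))

theorem measurable_rhoY : Measurable fun p : ℝ × R3 => rhoY p.1 p.2 := by
  unfold rhoY
  exact Measurable.lintegral_prod_right' (f := fun q : (ℝ × R3) × R3 =>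
    ENNReal.ofReal ‖Yt q.1.1 q.1.2 q.2‖ ^ (-(1133 / 1000) : ℝ)) (by fun_prop)

theorem epsi_add (a b : ℝ≥0∞) :
    (a + b) ^ (11 / 10 : ℝ) ≤ 2 * (a ^ (11 / 10 : ℝ) + b ^ (11 / 10 : ℝ)) := by
  refine (ENNReal.rpow_add_le_mul_rpow_add_rpow a b (by norm_num)).trans (mul_le_mul_left ?_ _)
  exact (ENNReal.rpow_le_rpow_of_exponent_le one_le_two (by norm_num)).trans (ENNReal.rpow_one 2).le

theorem epsi_pt {c A W W' G N : ℝ≥0∞} (hG : G ≤ 1) (hA : A ≤ N) (hA' : A ^ (11 / 10 : ℝ) ≤ N) :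
    c * (1 + A + W + W') * G + (c * (1 + A + W + W') * G) ^ (11 / 10 : ℝ) ≤
      (c + 8 * c ^ (11 / 10 : ℝ)) * G *
        (1 + (N + (W + W ^ (11 / 10 : ℝ)) + (W' + W' ^ (11 / 10 : ℝ)))) := by
  have h1 : G ^ (11 / 10 : ℝ) ≤ G :=
    (ENNReal.rpow_le_rpow_of_exponent_ge hG (by norm_num)).trans (ENNReal.rpow_one G).le
  have h2 : (1 + A + W + W') ^ (11 / 10 : ℝ) ≤
      8 * (1 + (N + (W + W ^ (11 / 10 : ℝ)) + (W' + W' ^ (11 / 10 : ℝ)))) := by
    have e1 := epsi_add 1 A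
    rw [ENNReal.one_rpow] at e1
    calc (1 + A + W + W') ^ (11 / 10 : ℝ)
        ≤ 2 * (2 * (2 * (1 + N) + W ^ (11 / 10 : ℝ)) + W' ^ (11 / 10 : ℝ)) := by
          refine (epsi_add _ _).trans ?_
          gcongr
          refine (epsi_add _ _).trans ?_
          gcongr
          exact e1.trans (by gcongr)
      _ ≤ _ + (8 * W + 8 * W' + 4 * W ^ (11 / 10 : ℝ) + 6 * W' ^ (11 / 10 : ℝ)) := le_self_add
      _ = _ := by ring
  have h3 : 1 + A + W + W' ≤ 1 + (N + (W + W ^ (11 / 10 : ℝ)) + (W' + W' ^ (11 / 10 : ℝ))) := by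
    calc 1 + A + W + W' ≤ 1 + N + W + W' := by gcongr
      _ ≤ _ + (W ^ (11 / 10 : ℝ) + W' ^ (11 / 10 : ℝ)) := le_self_add
      _ = _ := by ring
  rw [ENNReal.mul_rpow_of_nonneg _ _ (by norm_num), ENNReal.mul_rpow_of_nonneg _ _ (by norm_num)]
  refine (add_le_add (mul_le_mul_left (mul_le_mul_right h3 _) _)
    (mul_le_mul' (mul_le_mul_right h2 _) h1)).trans (le_of_eq ?_)
  ring

/-- `(a+b+c+d)^{1.1} ≤ 4^{1.1} Σ`, `‖Yt‖ ≤ 1`, `exists_lifts`, `lintegral_Ws`, `br_pow_le` -/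
theorem Par.Ok.mom_Psi {P : Par} (h : P.Ok) (k : ℕ) : ∃ C : ℝ≥0∞, C ≠ ⊤ ∧ ∀ t, 0 < t → ∀ x,
    mom k (P.Psi t x) ≤ C * (ENNReal.ofReal ((1 + t) ^ 2) + rhoY t x) := by
  obtain ⟨B, hB, b1⟩ := br_pow_le k (θ := 1 / 5) (by norm_num)
  have hI := lintegral_br_Gs k (θ := 1 / 5) (by norm_num)
  obtain ⟨D, hD, d1⟩ := lintegral_Ws
  have hc : ENNReal.ofReal P.C₄ + 8 * ENNReal.ofReal P.C₄ ^ (11 / 10 : ℝ) ≠ ⊤ := by finiteness
  have mI : Measurable fun v => br v ^ k * Gs (1 / 5) v :=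
    (measurable_br.pow_const k).mul (a5_meas _)
  generalize hcc : ENNReal.ofReal P.C₄ + 8 * ENNReal.ofReal P.C₄ ^ (11 / 10 : ℝ) = c at hc
  refine ⟨c * ((∫⁻ v, br v ^ k * Gs (1 / 5) v) + B * (1 + 72 * D)), by finiteness,
    fun t ht x => ?_⟩
  have hW : ∀ ε, ∃ g : R3 → ℝ≥0∞, Measurable g ∧ ∫⁻ v, g v ≤ 36 * ENNReal.ofReal ((1 + t) ^ 2) * D ∧
      ∀ v, Ws (P.Uf ε t (Xl t x v)) v + Ws (P.Uf ε t (Xl t x v)) v ^ (11 / 10 : ℝ) ≤ g v := by
    intro ε
    obtain ⟨K, k1, -, k2⟩ := exists_lifts ht.le x (P.Uf ε t) fun X =>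
      (h.norm_Uf_le ε ht.le X).trans (by norm_num)
    have m : ∀ u : R3, Measurable fun v => Ws u v + Ws u v ^ (11 / 10 : ℝ) := fun u =>
      (emeas_Ws measurable_const measurable_id).add
        ((emeas_Ws measurable_const measurable_id).pow_const _)
    refine ⟨fun v => ∑ u ∈ K, (Ws u v + Ws u v ^ (11 / 10 : ℝ)),
      Finset.measurable_sum _ fun u _ => m u, ?_, fun v => ?_⟩
    · rw [lintegral_finsetSum _ fun u _ => m u]
      refine (Finset.sum_le_card_nsmul _ _ D fun u _ => d1 u).trans ?_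
      rw [nsmul_eq_mul]
      refine mul_le_mul_left ?_ _
      rw [← ENNReal.ofReal_natCast, ← ENNReal.ofReal_ofNat, ← ENNReal.ofReal_mul (by norm_num)]
      exact ENNReal.ofReal_le_ofReal k1
    · beta_reduce
      rw [Finset.sum_add_distrib]
      exact add_le_add (k2 v).1 (k2 v).2
  obtain ⟨g₁, m1, i1, w1⟩ := hW true
  obtain ⟨g₂, m2, i2, w2⟩ := hW false
  have mN : Measurable ((Metric.closedBall (0 : R3) 4).indicator fun v =>
      ENNReal.ofReal ‖Yt t x v‖ ^ (-(1133 / 1000) : ℝ)) :=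
    Measurable.indicator (by fun_prop) measurableSet_closedBall
  have h1 : 1 ≤ ENNReal.ofReal ((1 + t) ^ 2) :=
    ENNReal.one_le_ofReal.2 (one_le_pow₀ (by linarith))
  calc mom k (P.Psi t x) ≤ ∫⁻ v, c * (br v ^ k * Gs (1 / 5) v + B *
        ((Metric.closedBall (0 : R3) 4).indicator (fun v =>
          ENNReal.ofReal ‖Yt t x v‖ ^ (-(1133 / 1000) : ℝ)) v + g₁ v + g₂ v)) := by
        refine lintegral_mono fun v => ?_
        have hG : Gs (1 / 5) v ≤ 1 := ENNReal.ofReal_le_one.2 (Real.exp_le_one_iff.2 (by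
          have := sq_nonneg ‖v‖
          linarith))
        refine (mul_le_mul_right (epsi_pt (N := (Metric.closedBall (0 : R3) 4).indicator (fun v =>
          ENNReal.ofReal ‖Yt t x v‖ ^ (-(1133 / 1000) : ℝ)) v) hG ?_ ?_) _).trans ?_
        · split_ifs with hv
          · rw [indicator_of_mem (mem_closedBall_zero_iff.2 hv)]
            exact ENNReal.rpow_le_rpow_of_exponent_ge
              (ENNReal.ofReal_le_one.2 (norm_red_le_one _)) (by norm_num)
          · exact zero_le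
        · split_ifs with hv
          · rw [indicator_of_mem (mem_closedBall_zero_iff.2 hv), ← ENNReal.rpow_mul]
            exact le_of_eq (by norm_num)
          · rw [ENNReal.zero_rpow_of_pos (by norm_num)]
            exact zero_le
        · rw [hcc, ← mul_assoc, mul_left_comm, mul_assoc, mul_add, mul_one]
          gcongr
          exacts [b1 v, w1 v, w2 v]
    _ = c * ((∫⁻ v, br v ^ k * Gs (1 / 5) v) + B * (rhoY t x + (∫⁻ v, g₁ v) + ∫⁻ v, g₂ v)) := by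
        rw [lintegral_const_mul' _ _ hc, lintegral_add_left mI, lintegral_const_mul' _ _ hB,
          lintegral_add_right _ m2, lintegral_add_right _ m1,
          lintegral_indicator measurableSet_closedBall, rhoY]
    _ ≤ c * ((∫⁻ v, br v ^ k * Gs (1 / 5) v) * ENNReal.ofReal ((1 + t) ^ 2) +
          B * (rhoY t x + 36 * ENNReal.ofReal ((1 + t) ^ 2) * D +
            36 * ENNReal.ofReal ((1 + t) ^ 2) * D)) := by
        gcongr
        exact le_mul_of_one_le_right' h1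
    _ ≤ _ + c * ((∫⁻ v, br v ^ k * Gs (1 / 5) v) * rhoY t x +
          B * (ENNReal.ofReal ((1 + t) ^ 2) + 72 * D * rhoY t x)) := le_self_add
    _ = _ := by ring

theorem Par.Ok.integ_Psi {P : Par} (h : P.Ok) (T : ℝ) : Integ P.Psi T := by
  intro k
  obtain ⟨C, hC, h1⟩ := h.mom_Psi k
  obtain ⟨C', hC', h2⟩ := rhoY_le
  have h3 := lintegral_max_rpow T
  have h4 : volume (Ioo 0 T ×ˢ cell) ≠ ⊤ := by
    rw [Measure.volume_eq_prod, Measure.prod_prod, volume_cell, mul_one, Real.volume_Ioo]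
    exact ENNReal.ofReal_ne_top
  have hK : (C * (ENNReal.ofReal ((1 + T) ^ 2) + C')) ^ 2 * 4 ≠ ⊤ := by finiteness
  refine lt_of_le_of_lt (setLIntegral_mono' (g := fun p =>
    (C * (ENNReal.ofReal ((1 + T) ^ 2) + C')) ^ 2 * 4 *
      (1 + (ENNReal.ofReal (max ‖Xr p.2‖ p.1) ^ (-(1133 / 1000) : ℝ)) ^ 2))
    (measurableSet_Ioo.prod measurableSet_cell) fun p hp => ?_) ?_
  · have e1 := (h1 p.1 hp.1.1 p.2).trans (mul_le_mul_right (add_le_add
      ((ENNReal.ofReal_le_ofReal (pow_le_pow_left₀ (by linarith [hp.1.1])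
        (add_le_add_right hp.1.2.le 1) 2)).trans (le_mul_of_one_le_right' (le_self_add
          (b := ENNReal.ofReal (max ‖Xr p.2‖ p.1) ^ (-(1133 / 1000) : ℝ)))))
      (h2 p.1 hp.1.1 p.2)) C)
    rw [← add_mul, ← mul_assoc] at e1
    refine (pow_le_pow_left' e1 2).trans ?_
    rw [mul_pow, mul_assoc]
    refine mul_le_mul_right ?_ _
    generalize ENNReal.ofReal (max ‖Xr p.2‖ p.1) ^ (-(1133 / 1000) : ℝ) = m
    rcases le_total 1 m with hm | hm
    · calc (1 + m) ^ 2 ≤ (m + m) ^ 2 := by gcongr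
        _ ≤ _ + 4 := le_self_add
        _ = _ := by ring
    · calc (1 + m) ^ 2 ≤ (1 + 1) ^ 2 := by gcongr
        _ ≤ _ + 4 * m ^ 2 := le_self_add
        _ = _ := by ring
  · rw [lintegral_const_mul' _ _ hK, lintegral_add_left measurable_const, setLIntegral_const, one_mul]
    exact lt_top_iff_ne_top.2 (by finiteness)

end

end Crest.Agent.R68
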