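import Crest.Agent.R68.ELp
import Crest.Agent.R68.A6

/-!
# R68 (S0091): collisions inside a stream
-/

set_option autoImplicit false

namespace Crest.Agent.R68

open MeasureTheory Set Filter Crest.AnalysisR.VecCalc3 Crest.AnalysisR.PDE.Boltzmann
open scoped ENNReal _root_.Topology

noncomputable section

theorem Par.Ok.Qp_StE_supp {P : Par} (h : P.Ok) {ε : Bool} {t : ℝ} (ht : t ∈ Icc 0 P.T₁) {X : ℂ}
    {v : R3} (hv : Qp (P.StE ε t X) (P.StE ε t X) v ≠ 0) :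
    P.wn ε t X v ≤ 2 * P.del t X ∧ ‖X‖ ≤ 3 * P.T₁ := by
  have h1 : ∀ a, P.StE ε t X a ≠ 0 → ‖a - P.Uf ε t X‖ ≤ P.del t X := fun a ha =>
    (h.StE_cut ht.1 ha).1
  refine ⟨not_lt.1 fun hc => hv (Qp_ball_zero h1 h1 hc), ?_⟩
  by_contra hX
  have : P.StE ε t X = fun _ => 0 := funext fun a => by
    by_contra ha
    exact hX (h.cut_supp ht (h.StE_cut ht.1 ha)).2.2.1
  rw [this, Qp_zero_left] at hv
  exact hv rfl

/-- subadditivity of the exponent along a collision: `wn v ≤ wn v' + wn v*'`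
(`coll_energy_sub`), `‖v - v'‖ ≤ 3 del`, `dv_le_add`, `t ≤ vr`. -/
theorem Par.Ok.Ph_coll {P : Par} (h : P.Ok) {ε : Bool} {t : ℝ} (ht : 0 ≤ t) {X : ℂ} {v a ω : R3}
    (hω : ‖ω‖ = 1) (h1 : P.cut ε t X (postVel v a ω)) (h2 : P.cut ε t X (postVelStar v a ω)) :
    P.Ph ε t X v ≤ P.Ph ε t X (postVel v a ω) + P.Ph ε t X (postVelStar v a ω) + 6 := by
  have hE := coll_energy_sub v a ω (P.Uf ε t X) hω
  generalize postVel v a ω = b at *
  generalize postVelStar v a ω = b' at *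
  have hσ := h.sig_pos ht X
  have hδ := h.del_pos ht X
  have hw := h.vr_pos ht X
  have a1 : P.wn ε t X v ≤ P.wn ε t X b + P.wn ε t X b' := by
    refine le_of_sq_le_sq ?_ (add_nonneg (norm_nonneg _) (norm_nonneg _))
    unfold P11.wn
    nlinarith [sq_nonneg ‖a - P.Uf ε t X‖,
      mul_nonneg (norm_nonneg (b - P.Uf ε t X)) (norm_nonneg (b' - P.Uf ε t X))]
  have a2 : ‖v - b‖ ≤ 3 * P.del t X := by
    have := norm_sub_le_norm_sub_add_norm_sub v (P.Uf ε t X) b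
    rw [norm_sub_rev (P.Uf ε t X) b] at this
    have e1 := h1.1
    have e2 := h2.1
    unfold P11.wn at a1 e1 e2
    linarith
  have b1 : P.wn ε t X v / P.sig t X ≤ P.wn ε t X b / P.sig t X + P.wn ε t X b' / P.sig t X := by
    rw [← add_div]
    exact div_le_div_of_nonneg_right a1 hσ.le
  have b2 : P.dv ε v / P.del t X ≤ P.dv ε b / P.del t X + 3 := by
    rw [div_add' _ _ _ hδ.ne']
    exact div_le_div_of_nonneg_right (by linarith [h.dv_le_add ε v b]) hδ.le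
  have b3 : max (‖X - t • pr v‖ - P.r₀) 0 / (P.vr t X * P.del t X) ≤
      max (‖X - t • pr b‖ - P.r₀) 0 / (P.vr t X * P.del t X) + 3 := by
    rw [div_add' _ _ _ (mul_pos hw hδ).ne']
    refine div_le_div_of_nonneg_right ?_ (mul_pos hw hδ).le
    have c1 := norm_sub_le (X - t • pr b) (t • pr (v - b))
    rw [show X - t • pr b - t • pr (v - b) = X - t • pr v by rw [pr_sub, smul_sub]; abel, norm_smul,
      Real.norm_of_nonneg ht] at c1
    have c2 : t ≤ P.vr t X := by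
      unfold Par.vr
      linarith [norm_nonneg X, h.r_pos]
    have c3 : t * ‖pr (v - b)‖ ≤ P.vr t X * (3 * P.del t X) :=
      mul_le_mul c2 ((norm_pr_le _).trans a2) (norm_nonneg _) hw.le
    have c4 := le_max_left (‖X - t • pr b‖ - P.r₀) 0
    have c5 := le_max_right (‖X - t • pr b‖ - P.r₀) 0
    have c6 := mul_pos hw hδ
    exact max_le (by linarith) (by linarith)
  have b4 : 0 ≤ P.dv ε b' / P.del t X := div_nonneg (h.dv_nonneg ε b') hδ.le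
  have b5 : 0 ≤ max (‖X - t • pr b'‖ - P.r₀) 0 / (P.vr t X * P.del t X) :=
    div_nonneg (le_max_right _ _) (mul_pos hw hδ).le
  unfold Par.Ph
  linarith

private theorem ew0_num {P : Par} (h : P.Ok) {t : ℝ} (ht : 0 ≤ t) (X : ℂ) {κ₁ κ₂ : ℝ} (n : ℕ)
    (h1 : 19 / 800 ≤ κ₁ + κ₂)
    (h2 : 17 / 10 ≤ n * (39 / 10 - κ₁ - κ₂) - 800 * (κ₁ + κ₂ - 19 / 800)) :
    P.N * P.vr t X ^ (-1 - κ₁) * (P.ee t X ^ n) ^ (-κ₁ - 1 / 20) *
      (P.N * P.vr t X ^ (-1 - κ₂) * (P.ee t X ^ n) ^ (-κ₂ - 1 / 20)) * (P.ee t X ^ n) ^ 4 ≤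
      P.N ^ 2 * P.vr t X ^ (-2 - 19 / 800 : ℝ) * P.e₀ ^ (17 / 10 : ℝ) := by
  have he := h.ee_pos ht X
  have he0 := h.ee_le ht X
  have he1 : P.ee t X ≤ 1 := by linarith [h.e₀_le, h.L_le']
  have hw := h.vr_pos ht X
  have a1 := h.vr_rpow_le ht X (sub_nonneg.2 h1)
  have a2 : P.vr t X ^ (-1 - κ₁) * P.vr t X ^ (-1 - κ₂) =
      P.vr t X ^ (-2 - 19 / 800 : ℝ) * P.vr t X ^ (-(κ₁ + κ₂ - 19 / 800)) := by
    rw [← Real.rpow_add hw, ← Real.rpow_add hw]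
    congr 1
    ring
  have a3 : (P.ee t X ^ n) ^ (-κ₁ - 1 / 20) * (P.ee t X ^ n) ^ (-κ₂ - 1 / 20) * (P.ee t X ^ n) ^ 4 =
      P.ee t X ^ (n * (39 / 10 - κ₁ - κ₂)) := by
    rw [Real.rpow_mul he.le, Real.rpow_natCast, ← Real.rpow_natCast _ 4,
      ← Real.rpow_add (pow_pos he n), ← Real.rpow_add (pow_pos he n)]
    congr 1
    push_cast
    ring
  have a4 : P.ee t X ^ (-(800 * (κ₁ + κ₂ - 19 / 800))) * P.ee t X ^ (n * (39 / 10 - κ₁ - κ₂)) ≤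
      P.e₀ ^ (17 / 10 : ℝ) := by
    rw [← Real.rpow_add he]
    exact (Real.rpow_le_rpow_of_exponent_ge he he1 (by linarith)).trans
      (Real.rpow_le_rpow he.le he0 (by norm_num))
  calc _ = P.N ^ 2 * (P.vr t X ^ (-1 - κ₁) * P.vr t X ^ (-1 - κ₂)) *
        ((P.ee t X ^ n) ^ (-κ₁ - 1 / 20) * (P.ee t X ^ n) ^ (-κ₂ - 1 / 20) * (P.ee t X ^ n) ^ 4) := by
        ring
    _ = P.N ^ 2 * P.vr t X ^ (-2 - 19 / 800 : ℝ) * (P.vr t X ^ (-(κ₁ + κ₂ - 19 / 800)) *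
        P.ee t X ^ (n * (39 / 10 - κ₁ - κ₂))) := by rw [a2, a3]; ring
    _ ≤ P.N ^ 2 * P.vr t X ^ (-2 - 19 / 800 : ℝ) * (P.ee t X ^ (-(800 * (κ₁ + κ₂ - 19 / 800))) *
        P.ee t X ^ (n * (39 / 10 - κ₁ - κ₂))) := by gcongr
    _ ≤ _ := by gcongr

/-- the profile on a ball -/
private def ew0B (P : Par) (ε : Bool) (t : ℝ) (X : ℂ) (κ δ : ℝ) : VF :=
  (Metric.closedBall (P.Uf ε t X) δ).indicator fun a => Jf P.r κ δ (X - t • pr a) (pr a)

private theorem ew0_mj (r κ δ t : ℝ) (X : ℂ) : Measurable fun ζ : ℂ => Jf r κ δ (X - t • ζ) ζ :=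
  (measurable_Jf r κ).comp (f := fun ζ : ℂ => (δ, X - t • ζ, ζ)) (by fun_prop)

private theorem ew0_mB (P : Par) (ε : Bool) (t : ℝ) (X : ℂ) (κ δ : ℝ) :
    Measurable (ew0B P ε t X κ δ) :=
  a6_meas (ew0_mj P.r κ δ t X) _ _

private theorem ew0_cb {P : Par} (h : P.Ok) (ε : Bool) {t : ℝ} (ht : 0 ≤ t) (X : ℂ) {δ : ℝ}
    (hδ : P.sig t X ≤ δ) (v : R3) :
    P.cb ε t X v ≤ ENNReal.ofReal (3 * P.A) * ew0B P ε t X (3 / 100) δ v :=
  (h.cb_le_Jf ε ht X hδ v).trans (indicator_const_mul _ _ _ _).le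

private theorem ew0_St {P : Par} (h : P.Ok) (ε : Bool) {t : ℝ} (ht : 0 ≤ t) (X : ℂ) (a : R3) :
    P.StE ε t X a ≤ ENNReal.ofReal (Real.exp (-P.Ph ε t X a)) *
      (ENNReal.ofReal (Real.exp 2) * P.cb ε t X a + ew0B P ε t X (19 / 800) (P.del t X) a) := by
  rw [mul_add]
  refine add_le_add ?_ ?_
  · by_cases hc : P.cb ε t X a = 0
    · rw [hc]
      exact zero_le
    rw [← mul_assoc, ← ENNReal.ofReal_mul (Real.exp_pos _).le, ← Real.exp_add]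
    refine le_mul_of_one_le_left' (ENNReal.one_le_ofReal.2 (Real.one_le_exp ?_))
    linarith [(h.cb_cut ht hc).2]
  · unfold Par.wm
    split_ifs with hc
    · rw [ew0B, indicator_of_mem (mem_closedBall_iff_norm.2 hc.1), mul_comm]
    · exact zero_le

/-- `StE ≤ e^{-Ph} g` with `g = e² cb + Jw`, `Jw` the bound of `wm_le_Jf` (`cb_cut`); by `Ph_coll`,
`Qp_le_mul`: `Qp StE StE v ≤ e⁶ e^{-Ph v} Qp g g v`.  Expand; `Qp_ball` with `cb_le_Jf`, `Jf_LpB`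
(radius `sig` for cold-cold, `del` otherwise; `cut_supp` gives `‖uf‖ ≥ L/2` unless `StE = 0`).
With `vr^{-x} ≤ ee^{-800x}`, `sig = ee⁸`, `del = ee⁷` the three terms are
`C A² N² vr^{-2-19/800}` times `ee^{-29+30.72}`, `ee^{-24+26.92}`, `ee^{-19+26.96}`, each
`≤ ee^{1.7} ≤ e₀ · e₀^{0.7}`. -/
theorem Qp_StE_le : ∀ᶠ P in 𝓕, ∀ ε, ∀ t ∈ Icc 0 P.T₁, ∀ X v,
    Qp (P.StE ε t X) (P.StE ε t X) v ≤ ENNReal.ofReal
      (P.e₀ / 10 * P.vr t X ^ (-2 - 19 / 800 : ℝ) * Real.exp (-P.Ph ε t X v)) := by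
  obtain ⟨C, hC, hB⟩ := Qp_ball
  filter_upwards [ev_ok, Jf_LpB, small_e₀ (fun Q => 10 * Real.exp 6 *
    (Real.exp 2 * (3 * Q.A) + 1) ^ 2 * C.toReal * Q.N ^ 2) (c := 7 / 10) (by norm_num)]
    with P h hJ hs ε t ht X v
  by_cases hex : ∃ a, P.cut ε t X a
  swap
  · have : P.StE ε t X = fun _ => 0 := funext fun a => by
      by_contra ha
      exact hex ⟨a, h.StE_cut ht.1 ha⟩
    rw [this, Qp_zero_left]
    exact zero_le
  obtain ⟨a₀, ha₀⟩ := hex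
  have hu := (h.cut_supp ht ha₀).2.2.2
  have he := h.ee_pos ht.1 X
  have he0 := h.e₀_pos
  have hw := h.vr_pos ht.1 X
  have hA : 0 < P.A := by linarith [h.A_ge]
  have hσδ := h.sig_le_del ht.1 X
  have hδL : P.del t X ≤ P.L / 8 := by linarith [h.del_le ht.1 X, h.e₀_le, h.L_pos]
  obtain ⟨M, hM⟩ : ∃ M, M = C.toReal *
    (P.N ^ 2 * P.vr t X ^ (-2 - 19 / 800 : ℝ) * P.e₀ ^ (17 / 10 : ℝ)) := ⟨_, rfl⟩
  have hM0 : 0 ≤ M := by rw [hM]; positivity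
  have key : ∀ (κ₁ κ₂ : ℝ) (n : ℕ), κ₁ ∈ Icc (0 : ℝ) (3 / 100) → κ₂ ∈ Icc (0 : ℝ) (3 / 100) →
      P.ee t X ^ n ≤ P.L / 8 → 19 / 800 ≤ κ₁ + κ₂ →
      17 / 10 ≤ n * (39 / 10 - κ₁ - κ₂) - 800 * (κ₁ + κ₂ - 19 / 800) →
      Qp (ew0B P ε t X κ₁ (P.ee t X ^ n)) (ew0B P ε t X κ₂ (P.ee t X ^ n)) v ≤ ENNReal.ofReal M := by
    intro κ₁ κ₂ n k1 k2 hL h1 h2
    have hn := pow_pos he n
    have e : pr (P.Uf ε t X) = uf P.L t X := pr_mk3 _ _
    refine (hB _ _ (P.Uf ε t X) _ _ _ (ew0_mj P.r κ₁ _ t X) (ew0_mj P.r κ₂ _ t X) hn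
      (e ▸ hJ κ₁ k1 t ht.1 X _ hn hL hu) (e ▸ hJ κ₂ k2 t ht.1 X _ hn hL hu) v).trans ?_
    rw [hM, ENNReal.ofReal_mul ENNReal.toReal_nonneg, ENNReal.ofReal_toReal hC, mul_assoc, mul_assoc,
      ← mul_assoc (ENNReal.ofReal _), ← ENNReal.ofReal_mul (by positivity),
      ← ENNReal.ofReal_mul (by positivity)]
    exact mul_le_mul_right (ENNReal.ofReal_le_ofReal (ew0_num h ht.1 X n h1 h2)) _
  have q1 : Qp (ew0B P ε t X (3 / 100) (P.sig t X)) (ew0B P ε t X (3 / 100) (P.sig t X)) v ≤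
      ENNReal.ofReal M :=
    key _ _ 8 (by norm_num) (by norm_num) (hσδ.trans hδL) (by norm_num) (by norm_num)
  have q2 : Qp (ew0B P ε t X (3 / 100) (P.del t X)) (ew0B P ε t X (19 / 800) (P.del t X)) v ≤
      ENNReal.ofReal M :=
    key _ _ 7 (by norm_num) (by norm_num) hδL (by norm_num) (by norm_num)
  have q3 : Qp (ew0B P ε t X (19 / 800) (P.del t X)) (ew0B P ε t X (3 / 100) (P.del t X)) v ≤
      ENNReal.ofReal M :=
    key _ _ 7 (by norm_num) (by norm_num) hδL (by norm_num) (by norm_num)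
  have q4 : Qp (ew0B P ε t X (19 / 800) (P.del t X)) (ew0B P ε t X (19 / 800) (P.del t X)) v ≤
      ENNReal.ofReal M :=
    key _ _ 7 (by norm_num) (by norm_num) hδL (by norm_num) (by norm_num)
  obtain ⟨W, hW⟩ : ∃ W, W = ew0B P ε t X (19 / 800) (P.del t X) := ⟨_, rfl⟩
  have hWm : Measurable W := hW ▸ ew0_mB P ε t X _ _
  rw [← hW] at q2 q3 q4
  obtain ⟨α, hα⟩ : ∃ α, α = ENNReal.ofReal (3 * P.A) := ⟨_, rfl⟩
  obtain ⟨E, hE⟩ : ∃ E, E = ENNReal.ofReal (Real.exp 2) := ⟨_, rfl⟩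
  have c1 := fun δ (hδ : P.sig t X ≤ δ) => ew0_cb h ε ht.1 X hδ
  rw [← hα] at c1
  have r1 : Qp (P.cb ε t X) (P.cb ε t X) v ≤ α * (α * ENNReal.ofReal M) := by
    refine (Qp_mono (c1 _ le_rfl) (c1 _ le_rfl) v).trans ?_
    rw [Qp_mul_left (ew0_mB P ε t X _ _) ((ew0_mB P ε t X _ _).const_mul _),
      Qp_mul_right (ew0_mB P ε t X _ _) (ew0_mB P ε t X _ _)]
    gcongr
  have r2 : Qp (P.cb ε t X) W v ≤ α * ENNReal.ofReal M := by
    refine (Qp_mono (c1 _ hσδ) (fun _ => le_rfl) v).trans ?_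
    rw [Qp_mul_left (ew0_mB P ε t X _ _) hWm]
    gcongr
  have r3 : Qp W (P.cb ε t X) v ≤ α * ENNReal.ofReal M := by
    refine (Qp_mono (fun _ => le_rfl) (c1 _ hσδ) v).trans ?_
    rw [Qp_mul_right hWm (ew0_mB P ε t X _ _)]
    gcongr
  have hcm := P.mcb ε t X
  have hEm : Measurable fun a => E * P.cb ε t X a := hcm.const_mul E
  have hg : Measurable fun a => E * P.cb ε t X a + W a := hEm.add hWm
  refine (Qp_le_mul hg hg v (ENNReal.ofReal (Real.exp (6 - P.Ph ε t X v))) fun a ω hω => ?_).trans ?_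
  · by_cases h1 : P.StE ε t X (postVel v a ω) = 0
    · rw [h1, zero_mul]
      exact zero_le
    by_cases h2 : P.StE ε t X (postVelStar v a ω) = 0
    · rw [h2, mul_zero]
      exact zero_le
    refine (mul_le_mul' (ew0_St h ε ht.1 X _) (ew0_St h ε ht.1 X _)).trans ?_
    rw [mul_mul_mul_comm, ← hW, ← hE, ← ENNReal.ofReal_mul (Real.exp_pos _).le, ← Real.exp_add]
    refine mul_le_mul_left (ENNReal.ofReal_le_ofReal (Real.exp_le_exp.2 ?_)) _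
    linarith [h.Ph_coll ht.1 hω (h.StE_cut ht.1 h1) (h.StE_cut ht.1 h2)]
  rw [Qp_add_left hEm hWm hg, Qp_mul_left hcm hg, Qp_add_right hcm hEm hWm,
    Qp_add_right hWm hEm hWm, Qp_mul_right hcm hcm, Qp_mul_right hWm hcm]
  calc _ ≤ ENNReal.ofReal (Real.exp (6 - P.Ph ε t X v)) *
        (E * (E * (α * (α * ENNReal.ofReal M)) + α * ENNReal.ofReal M) +
          (E * (α * ENNReal.ofReal M) + ENNReal.ofReal M)) := by gcongr
    _ = ENNReal.ofReal (Real.exp (6 - P.Ph ε t X v)) * ((E * α + 1) ^ 2 * ENNReal.ofReal M) := by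
        ring
    _ ≤ _ := by
        rw [hE, hα, ← ENNReal.ofReal_mul (Real.exp_pos _).le, ← ENNReal.ofReal_one,
          ← ENNReal.ofReal_add (by positivity) zero_le_one, ← ENNReal.ofReal_pow (by positivity),
          ← ENNReal.ofReal_mul (by positivity), ← ENNReal.ofReal_mul (Real.exp_pos _).le]
        refine ENNReal.ofReal_le_ofReal ?_
        have e : P.e₀ ^ (17 / 10 : ℝ) = P.e₀ ^ (7 / 10 : ℝ) * P.e₀ := by
          rw [← Real.rpow_add_one he0.ne']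
          norm_num
        calc _ = (10 * Real.exp 6 * (Real.exp 2 * (3 * P.A) + 1) ^ 2 * C.toReal * P.N ^ 2 *
              P.e₀ ^ (7 / 10 : ℝ)) *
              (P.e₀ / 10 * P.vr t X ^ (-2 - 19 / 800 : ℝ) * Real.exp (-P.Ph ε t X v)) := by
              rw [hM, e, sub_eq_add_neg, Real.exp_add]
              ring
          _ ≤ _ := mul_le_of_le_one_left (by positivity) hs

end

end Crest.Agent.R68
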