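import Crest.Agent.R68.EB
import Crest.Agent.R68.EW0

/-!
# R68 (S0091): upper bound for the quiet solutions
-/

set_option autoImplicit false

namespace Crest.Agent.R68

open MeasureTheory Set Filter Crest.AnalysisR.VecCalc3 Crest.AnalysisR.PDE.Boltzmann
open scoped ENNReal _root_.Topology

noncomputable section

/-- on `GS`: `‖Yt‖ ≤ r₀ + T' V`, `th ≤ r₀/N⁴` (`th_T'`) -/
theorem Par.Ok.om_GS {P : Par} (h : P.Ok) {p : ℝ × R3 × R3} (hp : p ∈ P.GS) :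
    P.om p.1 p.2.1 p.2.2 ≤ (2 * P.r₀ / P.r₁) ^ P.μω := by
  obtain ⟨t, x, v⟩ := p
  obtain ⟨⟨ht, -⟩, -, h2, h3, -⟩ := hp
  simp only at ht h2 h3 ⊢
  have h4 := norm_Yt_le ht.1.le x v
  have h5 := h.th_T' ht.2.le
  have h6 := h.th_pos ht.1.le
  have h7 : t ≤ P.th t := le_add_of_nonneg_right (div_pos h.r_pos h.L_pos).le
  have h8 := h3.trans h.V_le
  have hN := h.N_ge
  have h9 : t * ‖pr v‖ ≤ P.th t * P.N :=
    mul_le_mul h7 ((norm_pr_le v).trans h8) (norm_nonneg _) h6.le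
  have h10 : 12 * (P.N : ℝ) ≤ P.N ^ 4 := by
    have : (12 : ℝ) ≤ P.N ^ 3 := le_trans (by norm_num) (pow_le_pow_left₀ (by norm_num) hN 3)
    nlinarith
  have hr := h.r₁_pos
  refine (min_le_right _ _).trans (pow_le_pow_left₀ (by positivity)
    (div_le_div_of_nonneg_right ?_ hr.le) _)
  rw [eb_mu]
  nlinarith

/-- `Qp_StP`, `Qp_StE_supp`, `abs_wd_le_wn`, `2 del < δ₀` -/
theorem Par.Ok.Qp_St_GS {P : Par} (h : P.Ok) {p : ℝ × R3 × R3} (hp : p ∈ P.GS) :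
    Qp (P.St p.1 p.2.1) (P.St p.1 p.2.1) p.2.2 = 0 := by
  obtain ⟨t, x, v⟩ := p
  obtain ⟨⟨ht, -⟩, h1, -, -, h4⟩ := hp
  simp only at ht h1 h4 ⊢
  have h0 : ∀ ε, Qp (P.StE ε t (Xr x)) (P.StE ε t (Xr x)) v = 0 := fun ε => by
    by_contra h5
    have h6 := (h.Qp_StE_supp ⟨ht.1.le, ht.2.le.trans h.T'_le⟩ h5).1
    have h7 := le_of_mul_le_mul_left
      (((mul_comm _ _).trans_le h4).trans (h.abs_wd_le_wn ε t (Xr x) v)) h1
    linarith [h.del_le ht.1.le (Xr x), h.e₀_le, h.L_le, h.δ₀_pos]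
  change Qp (P.StP t (Xr x)) (P.StP t (Xr x)) v = 0
  rw [h.Qp_StP ht.1.le, h0, h0, add_zero]

/-- `E0P_le_Ws`, `lintegral_Ws`, `lintegral_br_Gs` -/
theorem lintegral_E0P : ∀ᶠ P in 𝓕, ∀ t ∈ Icc 0 P.T₁, ∀ X,
    ∫⁻ v, br v * P.E0P t X v ≤ ENNReal.ofReal P.C₃ := by
  have h1 := lintegral_br_Gs 1 (θ := 1 / 4) (by norm_num)
  obtain ⟨C2, hC2, h2⟩ := br_pow_le 1 (θ := 1 / 4) (by norm_num)
  obtain ⟨C3, hC3, h3⟩ := lintegral_Ws
  simp only [pow_one] at h1 h2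
  filter_upwards [ev_ok, big_C3 fun Q => (∫⁻ v, br v * Gs (1 / 4) v).toReal +
    Q.δ₁⁻¹ ^ Q.Γ * (C2.toReal * (C3.toReal + C3.toReal))] with P h hC t ht X
  have hδ := h.δ₁_pos
  have mW : ∀ u, Measurable (Ws u) := fun u => emeas_Ws measurable_const measurable_id
  have hW : ∀ u, ∫⁻ a, Ws u a ≤ C3 := fun u => (lintegral_mono fun a => le_self_add).trans (h3 u)
  calc _ ≤ ∫⁻ v, (br v * Gs (1 / 4) v + ENNReal.ofReal (P.δ₁⁻¹ ^ P.Γ) *
        (C2 * (Ws (P.Uf true t X) v + Ws (P.Uf false t X) v))) := by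
        refine lintegral_mono fun v => ?_
        refine (mul_le_mul' le_rfl ((h.E0P_le_Ws t X v).trans (mul_le_mul' le_rfl
          (Gs_anti (θ := 1 / 4) (by linarith [ht.2, h.T₁_le']) v)))).trans ?_
        calc _ = br v * Gs (1 / 4) v + ENNReal.ofReal (P.δ₁⁻¹ ^ P.Γ) * (br v * Gs (1 / 4) v *
              (Ws (P.Uf true t X) v + Ws (P.Uf false t X) v)) := by ring
          _ ≤ _ := add_le_add le_rfl (mul_le_mul' le_rfl (mul_le_mul' (h2 v) le_rfl))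
    _ ≤ (∫⁻ v, br v * Gs (1 / 4) v) + ENNReal.ofReal (P.δ₁⁻¹ ^ P.Γ) * (C2 * (C3 + C3)) := by
        rw [lintegral_add_left (measurable_br.fun_mul (a5_meas _)),
          lintegral_const_mul' _ _ ENNReal.ofReal_ne_top, lintegral_const_mul' _ _ hC2,
          lintegral_add_left (mW _)]
        gcongr <;> exact hW _
    _ ≤ _ := by
        refine le_trans (le_of_eq ?_) (ENNReal.ofReal_le_ofReal hC)
        rw [ENNReal.ofReal_add (by positivity) (by positivity), ENNReal.ofReal_mul (by positivity),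
          ENNReal.ofReal_mul (by positivity), ENNReal.ofReal_add (by positivity) (by positivity),
          ENNReal.ofReal_toReal h1, ENNReal.ofReal_toReal hC2, ENNReal.ofReal_toReal hC3]

private theorem equiet_pt : ∀ᶠ P in 𝓕, ∀ F : PF,
    (∀ t ∈ Icc 0 P.T₁, ∀ x v, F t x v ≤ P.Pe 0 t x v) → ∀ p ∈ P.GS,
    Qp (F p.1 p.2.1) (F p.1 p.2.1) p.2.2 ≤
      ENNReal.ofReal ((2 * P.r₀ / P.r₁) ^ P.μω * (2 * P.N + P.C₃)) *
        (Metric.closedBall (0 : ℂ) 1).indicator (fun ζ => ENNReal.ofReal ‖0 - ζ‖ ^ (-(1 : ℝ)))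
          (Xr p.2.1) * (br p.2.2 * P.E0P p.1 (Xr p.2.1) p.2.2) := by
  filter_upwards [ev_ok, NL, Qp_Bm] with P h hNL hBm F hF p hp
  have h1 := h.om_GS hp
  have h2 := h.Qp_St_GS hp
  obtain ⟨t, x, v⟩ := p
  obtain ⟨⟨ht, -⟩, hX0, hX, -, -⟩ := hp
  simp only at ht hX0 hX h1 h2 ⊢
  have ht' : t ∈ Icc 0 P.T₁ := ⟨ht.1.le, ht.2.le.trans h.T'_le⟩
  have hX1 : ‖Xr x‖ ≤ 1 := by linarith [h.r₀_le, h.T₁_le']
  have mS := P.meas_St.slice t x
  have mB := P.meas_Bm.slice t x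
  have hom := h.om_nonneg ht.1.le x v
  have hC : 0 ≤ P.C₃ := by linarith [h.C₃_ge']
  have hω : 0 ≤ (2 * P.r₀ / P.r₁) ^ P.μω := hom.trans h1
  have hle : ∀ a, F t x a ≤ P.St t x a + P.Bm t x a := fun a => by
    simpa [Par.Pe] using hF t ht' x a
  have h3 : br v * (2 * Qp (P.St t x) (P.Bm t x) v) ≤ 2 * ENNReal.ofReal (P.om t x v) *
      ENNReal.ofReal (P.N * P.L / P.mx t (Xr x)) * P.E0P t (Xr x) v := by
    refine hNL t ht' (Xr x) _ mB v _ fun a => ?_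
    refine (mul_le_mul' le_rfl (mul_le_mul' (ENNReal.ofReal_le_ofReal
      (h.om_le_exp ht.1.le x v a)) le_rfl)).trans (le_of_eq ?_)
    rw [ENNReal.ofReal_mul (by positivity)]
    unfold Par.E0
    ring
  have h4 : P.N * P.L / P.mx t (Xr x) ≤ P.N * ‖Xr x‖⁻¹ := by
    rw [mul_div_assoc, ← one_div]
    refine mul_le_mul_of_nonneg_left ?_ (by positivity)
    exact div_le_div₀ zero_le_one (by linarith [h.L_le']) hX0 (le_max_left _ _)
  have h5 : P.C₃ ≤ P.C₃ * ‖Xr x‖⁻¹ :=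
    le_mul_of_one_le_right hC (one_le_inv_iff₀.2 ⟨hX0, hX1⟩)
  have h6 : 2 * Qp (P.St t x) (P.Bm t x) v ≤
      2 * ENNReal.ofReal ((2 * P.r₀ / P.r₁) ^ P.μω) * ENNReal.ofReal (P.N * ‖Xr x‖⁻¹) *
        (br v * P.E0P t (Xr x) v) :=
    (le_mul_of_one_le_left' (enl_br v)).trans (h3.trans (mul_le_mul' (mul_le_mul'
      (mul_le_mul' le_rfl (ENNReal.ofReal_le_ofReal h1)) (ENNReal.ofReal_le_ofReal h4))
      (le_mul_of_one_le_left' (enl_br v))))
  have h7 : Qp (P.Bm t x) (P.Bm t x) v ≤ ENNReal.ofReal (P.C₃ * ‖Xr x‖⁻¹) *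
      ENNReal.ofReal ((2 * P.r₀ / P.r₁) ^ P.μω) * (br v * P.E0P t (Xr x) v) :=
    (hBm t ht' x v).trans (mul_le_mul' (mul_le_mul' (ENNReal.ofReal_le_ofReal h5)
      (ENNReal.ofReal_le_ofReal h1)) (mul_le_mul' le_rfl (h.Gs_le_E0P _ v)))
  refine (Qp_mono hle hle v).trans ?_
  rw [Qp_add_left mS mB (mS.fun_add mB), Qp_add_right mS mS mB, Qp_add_right mB mS mB, h2, zero_add,
    Qp_comm mB mS, ← add_assoc, ← two_mul]
  refine (add_le_add h6 h7).trans (le_of_eq ?_)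
  rw [indicator_of_mem (by rwa [mem_closedBall_zero_iff]), zero_sub, norm_neg,
    ENNReal.rpow_neg_one, ← ENNReal.ofReal_inv_of_pos hX0, ← add_mul, ← ENNReal.ofReal_ofNat 2,
    ← ENNReal.ofReal_mul (by norm_num), ← ENNReal.ofReal_mul (by positivity),
    ← ENNReal.ofReal_mul (by positivity), ← ENNReal.ofReal_mul (by positivity),
    ← ENNReal.ofReal_add (by positivity) (by positivity)]
  congr 2
  ring

/-- `F ≤ St + Bm`; `2 Qp St Bm ≤ 2 om N L/mx E0 ≤ 2 om N/‖X‖ E0` (`NL`, `om_le_exp`), `Qp_Bm`;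
`∫_cell 1_{0 < ‖X‖ ≤ r₀}/‖X‖ ≤ 7` (`lintegral_cell_red`); `μω = μ + 12`. -/
theorem quiet : ∀ᶠ P in 𝓕, ∀ F : PF, (∀ t ∈ Icc 0 P.T₁, ∀ x v, F t x v ≤ P.Pe 0 t x v) →
    ∫⁻ p in P.GS, Qp (F p.1 p.2.1) (F p.1 p.2.1) p.2.2 ≤ ENNReal.ofReal (P.r₀ ^ (P.μ + 10) / 2) := by
  obtain ⟨C, hC, hI⟩ := a6_inv
  filter_upwards [ev_ok, equiet_pt, lintegral_E0P, small_r0
    (fun Q => 2 * ((2 / Q.r₁) ^ Q.μω * (2 * Q.N + Q.C₃) * Q.C₃ * C.toReal)) (c := 2) two_pos]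
    with P h hpt hE hs F hF
  set K := ENNReal.ofReal ((2 * P.r₀ / P.r₁) ^ P.μω * (2 * P.N + P.C₃)) with hK
  set Φ : ℂ → ℝ≥0∞ :=
    (Metric.closedBall (0 : ℂ) 1).indicator (fun ζ => ENNReal.ofReal ‖0 - ζ‖ ^ (-(1 : ℝ))) with hΦ
  have mΦ : Measurable Φ := Measurable.indicator (by fun_prop) measurableSet_closedBall
  have h1 : ∫⁻ x in cell, Φ (Xr x) ≤ C := by
    have := lintegral_cell_red Φ mΦ 0
    simp only [sub_zero] at this
    refine (le_of_eq this).trans ((setLIntegral_le_lintegral _ _).trans ?_)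
    rw [hΦ, lintegral_indicator measurableSet_closedBall]
    simpa using hI 0 0 1 one_pos
  have hC₃ : 0 ≤ P.C₃ := by linarith [h.C₃_ge']
  have hr₀ := h.r₀_pos
  have hr₁ := h.r₁_pos
  calc _ ≤ ∫⁻ p in Om3 P.T', K * Φ (Xr p.2.1) * (br p.2.2 * P.E0P p.1 (Xr p.2.1) p.2.2) :=
        (setLIntegral_mono' (measurableSet_GS P.toQar) (hpt F hF)).trans
          (lintegral_mono_set inter_subset_left)
    _ ≤ ∫⁻ t in Ioo 0 P.T', ∫⁻ x in cell, ∫⁻ v, K * Φ (Xr x) * (br v * P.E0P t (Xr x) v) := by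
        rw [Om3, Measure.volume_eq_prod, ← Measure.prod_restrict]
        refine (lintegral_prod_le _).trans (lintegral_mono fun t => ?_)
        rw [Measure.volume_eq_prod, ← Measure.prod_restrict, Measure.restrict_univ]
        exact lintegral_prod_le _
    _ ≤ ∫⁻ _ in Ioo 0 P.T', K * ENNReal.ofReal P.C₃ * C := by
        refine setLIntegral_mono' measurableSet_Ioo fun t ht => ?_
        calc _ ≤ ∫⁻ x in cell, K * ENNReal.ofReal P.C₃ * Φ (Xr x) := by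
              refine lintegral_mono fun x => ?_
              rw [lintegral_const_mul _ (measurable_br.fun_mul (P.mE0P t _)), mul_right_comm]
              exact mul_le_mul' (mul_le_mul' le_rfl
                (hE t ⟨ht.1.le, ht.2.le.trans h.T'_le⟩ _)) le_rfl
          _ ≤ _ := by
              rw [lintegral_const_mul _ (mΦ.fun_comp measurable_Xr)]
              exact mul_le_mul' le_rfl h1
    _ ≤ K * ENNReal.ofReal P.C₃ * C := by
        rw [setLIntegral_const, Real.volume_Ioo]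
        exact mul_le_of_le_one_right' (ENNReal.ofReal_le_one.2
          (by linarith [h.T'_le, h.T₁_le']))
    _ ≤ _ := by
        rw [hK, ← ENNReal.ofReal_toReal hC, ← ENNReal.ofReal_mul (by positivity),
          ← ENNReal.ofReal_mul (by positivity)]
        refine ENNReal.ofReal_le_ofReal ?_
        rw [Real.rpow_two] at hs
        have e : P.r₀ ^ P.μω = P.r₀ ^ (P.μ + 10) * P.r₀ ^ 2 := by
          rw [← pow_add]; rfl
        rw [show 2 * P.r₀ / P.r₁ = 2 / P.r₁ * P.r₀ by ring, mul_pow, e]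
        calc _ = 2 * ((2 / P.r₁) ^ P.μω * (2 * P.N + P.C₃) * P.C₃ * C.toReal) * P.r₀ ^ 2 *
              (P.r₀ ^ (P.μ + 10) / 2) := by ring
          _ ≤ _ := mul_le_of_le_one_left (by positivity) hs

end

end Crest.Agent.R68
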