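import Crest.Agent.R68.EMeas
import Crest.Agent.R68.A4

/-!
# R68 (S0091): duality
-/

set_option autoImplicit false

namespace Crest.Agent.R68

open MeasureTheory Set Filter Crest.AnalysisR.VecCalc3 Crest.AnalysisR.PDE.Boltzmann
open scoped ENNReal _root_.Topology

noncomputable section

theorem eren_cell {Θ : XF} (hm : MeasX Θ) :
    ∫⁻ q in cell ×ˢ (univ : Set R3), Θ q.1 q.2 = ∫⁻ x in cell, ∫⁻ v, Θ x v := by
  rw [Measure.volume_eq_prod, setLIntegral_prod _ hm.aemeasurable, Measure.restrict_univ]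

theorem eren_Om3' {G : PF} (hG : Meas G) (t : ℝ) : ∫⁻ p in Om3 t, G p.1 p.2.1 p.2.2 =
    ∫⁻ u in Ioo 0 t, ∫⁻ q in cell ×ˢ (univ : Set R3), G u q.1 q.2 := by
  rw [Om3, Measure.volume_eq_prod, setLIntegral_prod _ hG.aemeasurable]

theorem eren_Om3 {G : PF} (hG : Meas G) (t : ℝ) : ∫⁻ p in Om3 t, G p.1 p.2.1 p.2.2 =
    ∫⁻ u in Ioo 0 t, ∫⁻ x in cell, ∫⁻ v, G u x v := by
  rw [eren_Om3' hG]
  exact lintegral_congr fun u => eren_cell (hG.sliceX u)

theorem eren_weak {f g c φ : R3 → ℝ≥0∞} (hg : Measurable g) (hc : Measurable c) (hφ : Measurable φ)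
    (hle : ∀ v, c v + g v ≤ f v) :
    ∫⁻ v, g v * ∫⁻ a, c a * ∫⁻ ω, Bk (v - a) ω * (φ (postVel v a ω) + φ (postVelStar v a ω))
      ∂sphereMeasure ≤ ∫⁻ v, φ v * Qp f f v := by
  have h1 : Measurable fun p : R3 × R3 => g p.1 * c p.2 *
      ∫⁻ ω, Bk (p.1 - p.2) ω * φ (postVel p.1 p.2 ω) ∂sphereMeasure := by
    refine Measurable.mul (by fun_prop) ?_
    exact Measurable.lintegral_prod_right' (f := fun r : (R3 × R3) × R3 =>
      Bk (r.1.1 - r.1.2) r.2 * φ (postVel r.1.1 r.1.2 r.2)) (by fun_prop)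
  calc _ ≤ ∫⁻ v, ((∫⁻ a, g v * c a * ∫⁻ ω, Bk (v - a) ω * φ (postVel v a ω) ∂sphereMeasure) +
        ∫⁻ a, g v * c a * ∫⁻ ω, Bk (v - a) ω * φ (postVelStar v a ω) ∂sphereMeasure) := by
        refine lintegral_mono fun v => (lintegral_const_mul_le _ _).trans ?_
        refine le_trans (lintegral_mono fun a => le_of_eq ?_)
          (lintegral_add_left (h1.comp (measurable_const.prodMk measurable_id)) _).le
        simp only [Function.comp, id, mul_add]
        rw [lintegral_add_left (by fun_prop)]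
        ring
    _ = (∫⁻ v, φ v * Qp g c v) + ∫⁻ v, φ v * Qp c g v := by
        rw [lintegral_add_left h1.lintegral_prod_right', Qp_weak hg hc hφ, Qp_weak' hg hc hφ]
    _ ≤ ∫⁻ v, (φ v * Qp g c v + φ v * Qp c g v) := le_lintegral_add _ _
    _ ≤ _ := by
        refine lintegral_mono fun v => ?_
        rw [← mul_add]
        refine mul_le_mul' le_rfl (le_trans ?_ (Qp_mono hle hle v))
        rw [Qp_add_left hc hg (hc.fun_add hg), Qp_add_right hc hc hg, Qp_add_right hg hc hg, add_comm]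
        exact add_le_add le_add_self le_self_add

theorem eren_mβ (P : Par) {D : Set (ℝ × ℂ × R3)} (hD : MeasurableSet D) :
    Meas fun u x v => P.beta D u (Xr x) v :=
  (P.measurable_beta hD).comp (f := fun p : ℝ × R3 × R3 => (p.1, Xr p.2.1, p.2.2)) (by fun_prop)

theorem eren_mq {F : PF} (hF : Meas F) {D : Set (ℝ × ℂ × R3)} (hD : MeasurableSet D) :
    Meas fun u x v => D.indicator 1 (u, Xr x, v) * Qp (F u x) (F u x) v :=
  Measurable.mul ((measurable_one.indicator hD).comp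
    (f := fun p : ℝ × R3 × R3 => (p.1, Xr p.2.1, p.2.2)) (by fun_prop)) (hF.Qp hF)

theorem eren_mg {F q : PF} {q₀ : XF} (hF : Meas F) (hq : Meas q) (hq₀ : MeasX q₀) :
    Meas fun u x v => q₀ (x - u • v) v * att (Hz F (x - u • v) v 0 u) + Duh F q u x v :=
  Measurable.add (Measurable.mul
    (hq₀.comp (f := fun p : ℝ × R3 × R3 => (p.2.1 - p.1 • p.2.2, p.2.2)) (by fun_prop))
    (measurable_att.comp (measurable_Hz hF (by fun_prop) (by fun_prop) (by fun_prop) (by fun_prop))))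
    (hF.duh hq)

/-- `Qp F F ≥ Qp g c + Qp c g` with `c = cq cbP`; `Qp_weak`, `Qp_weak'` with
`φ = 1_D (u, Xr x, ·)`; Tonelli on `Om3 t`. -/
theorem Par.births_ge (P : Par) {F g : PF} (hF : Meas F) (hg : Meas g) {D : Set (ℝ × ℂ × R3)}
    (hD : MeasurableSet D) {t : ℝ}
    (hle : ∀ u ∈ Ioo 0 t, ∀ x v, P.cq * P.cbP u (Xr x) v + g u x v ≤ F u x v) :
    ∫⁻ p in Om3 t, g p.1 p.2.1 p.2.2 * P.beta D p.1 (Xr p.2.1) p.2.2 ≤ Mb D F t := by
  rw [Mb, eren_Om3 (eren_mq hF hD),
    eren_Om3 (G := fun u x v => g u x v * P.beta D u (Xr x) v) (Measurable.mul hg (eren_mβ P hD))]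
  refine setLIntegral_mono' measurableSet_Ioo fun u hu => lintegral_mono fun x => ?_
  exact eren_weak (c := fun a => P.cq * P.cbP u (Xr x) a) (φ := fun v => D.indicator 1 (u, Xr x, v))
    (hg.slice u x) ((P.mcbP u (Xr x)).const_mul _)
    ((measurable_one.indicator hD).comp (by fun_prop)) (hle u hu x)

/-- integrals over `Om3 t` in characteristic coordinates (`lintegral_shear`) -/
theorem lintegral_Om3_char {G : PF} (hG : Meas G) (pG : Per G) (t : ℝ) :
    ∫⁻ p in Om3 t, G p.1 p.2.1 p.2.2 =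
      ∫⁻ q in cell ×ˢ (univ : Set R3), ∫⁻ u in Ioo 0 t, G u (q.1 + u • q.2) q.2 := by
  rw [eren_Om3' hG, ← lintegral_congr fun u => lintegral_shear (G u) (hG.sliceX u) (pG u) u]
  exact lintegral_lintegral_swap (Measurable.aemeasurable
    (emeas_comp hG (by fun_prop) (by fun_prop) (by fun_prop)))

/-- In characteristic coordinates the right-hand side is
`∫_{(y,v)} [q₀ ∫₀^{t₂} att β + ∫_s q(s) ∫_s^{t₂} att β]` (Tonelli on `0 < s < u < t₂`). -/
theorem dual_ge {F q β : PF} {q₀ : XF} (hF : Meas F) (pF : Per F) (hq : Meas q) (pq : Per q)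
    (hβ : Meas β) (pβ : Per β) (hq₀ : MeasX q₀) (pq₀ : PerX q₀) {t₁ t₂ : ℝ} (h12 : t₁ ≤ t₂)
    {κ : ℝ≥0∞}
    (h0 : ∀ y v, q₀ y v ≠ 0 → κ ≤ ∫⁻ u in Ioo 0 t₂, att (Hz F y v 0 u) * β u (y + u • v) v)
    (h1 : ∀ s ∈ Ioo 0 t₁, ∀ y v, q s (y + s • v) v ≠ 0 →
      κ ≤ ∫⁻ u in Ioo s t₂, att (Hz F y v s u) * β u (y + u • v) v) :
    κ * ((∫⁻ r in cell ×ˢ (univ : Set R3), q₀ r.1 r.2) + ∫⁻ p in Om3 t₁, q p.1 p.2.1 p.2.2) ≤
      ∫⁻ p in Om3 t₂, (q₀ (p.2.1 - p.1 • p.2.2) p.2.2 * att (Hz F (p.2.1 - p.1 • p.2.2) p.2.2 0 p.1) +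
        Duh F q p.1 p.2.1 p.2.2) * β p.1 p.2.1 p.2.2 := by
  have pG : Per fun u x v =>
      (q₀ (x - u • v) v * att (Hz F (x - u • v) v 0 u) + Duh F q u x v) * β u x v := by
    intro u v x i
    have e1 : ∀ s : ℝ, x + EuclideanSpace.single i 1 - u • v + s • v =
        x - u • v + s • v + EuclideanSpace.single i 1 := fun s => by abel
    have e2 : q₀ (x + EuclideanSpace.single i 1 - u • v) v = q₀ (x - u • v) v := by
      rw [add_sub_right_comm]
      exact pq₀ v _ i
    simp only [Hz, e1, e2, emeas_pF pF, emeas_pF pβ, emeas_pF (pF.duh pq)]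
  rw [lintegral_Om3_char hq pq, lintegral_Om3_char (G := fun u x v =>
    (q₀ (x - u • v) v * att (Hz F (x - u • v) v 0 u) + Duh F q u x v) * β u x v)
    (Measurable.mul (eren_mg hF hq hq₀) hβ) pG]
  refine (mul_le_mul' le_rfl (le_lintegral_add _ _)).trans ((lintegral_const_mul_le _ _).trans
    (lintegral_mono fun r => ?_))
  obtain ⟨y, v⟩ := r
  simp only [add_sub_cancel_right, Duh_eq, add_mul, mul_add]
  refine le_trans (add_le_add ?_ ?_) (le_lintegral_add _ _)
  · by_cases h : q₀ y v = 0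
    · rw [h, mul_zero]
      exact zero_le
    rw [mul_comm]
    refine (mul_le_mul' le_rfl (h0 y v h)).trans ((lintegral_const_mul_le _ _).trans ?_)
    simp only [mul_assoc, le_refl]
  · have hK : Measurable fun p : ℝ × ℝ => att (Hz F y v p.2 p.1) * q p.2 (y + p.2 • v) v :=
      (measurable_att.comp (measurable_Hz hF measurable_const measurable_const measurable_snd
        measurable_fst)).mul (emeas_comp hq (by fun_prop) (by fun_prop) (by fun_prop))
    calc _ ≤ ∫⁻ s in Ioo 0 t₁, ∫⁻ u in Ioo s t₂,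
          att (Hz F y v s u) * q s (y + s • v) v * β u (y + u • v) v := by
          refine (lintegral_const_mul_le _ _).trans
            (setLIntegral_mono' measurableSet_Ioo fun s hs => ?_)
          by_cases h : q s (y + s • v) v = 0
          · rw [h, mul_zero]
            exact zero_le
          rw [mul_comm]
          refine (mul_le_mul' le_rfl (h1 s hs y v h)).trans ((lintegral_const_mul_le _ _).trans
            (lintegral_mono fun u => le_of_eq (by ring)))
      _ ≤ ∫⁻ s in Ioo 0 t₂, ∫⁻ u in Ioo s t₂,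
          att (Hz F y v s u) * q s (y + s • v) v * β u (y + u • v) v :=
          lintegral_mono_set (Ioo_subset_Ioo_right h12)
      _ = _ := by
          rw [← a4_tri (K := fun s u => att (Hz F y v s u) * q s (y + s • v) v * β u (y + u • v) v)
            (hK.mul (emeas_comp hβ (by fun_prop) (by fun_prop) (by fun_prop)))]
          exact lintegral_congr fun u =>
            lintegral_mul_const _ (hK.comp (measurable_const.prodMk measurable_id))

end

end Crest.Agent.R68
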