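import Crest.Agent.R68.ERen
import Crest.Agent.R68.EF7

/-!
# R68 (S0091): renewal inequalities
-/

set_option autoImplicit false

namespace Crest.Agent.R68

open MeasureTheory Set Filter Crest.AnalysisR.VecCalc3 Crest.AnalysisR.PDE.Boltzmann
open scoped ENNReal _root_.Topology

noncomputable section

theorem eren2_gen {P : Par} {α : ℝ} {F : PF} (hF : Meas F) (pF : Per F)
    (hlow : ∀ t ∈ Icc 0 P.T', ∀ x v, P.cq * P.cbP t (Xr x) v +
      (ENNReal.ofReal α * P.seed (x - t • v) v * att (Hz F (x - t • v) v 0 t) +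
        Duh F (fun s x v => Qp (F s x) (F s x) v) t x v) ≤ F t x v)
    {D : Set (ℝ × ℂ × R3)} (hD : MeasurableSet D) {q₀ : XF} (hq₀ : MeasX q₀) (pq₀ : PerX q₀)
    (hle : ∀ x v, q₀ x v ≤ ENNReal.ofReal α * P.seed x v) {t₁ t₂ : ℝ} (h12 : t₁ ≤ t₂)
    (h2 : t₂ ≤ P.T') {κ : ℝ≥0∞}
    (h0 : ∀ y v, q₀ y v ≠ 0 →
      κ ≤ ∫⁻ u in Ioo 0 t₂, att (Hz F y v 0 u) * P.beta P.Gd u (Xr (y + u • v)) v)
    (h1 : ∀ s ∈ Ioo 0 t₁, ∀ y v, (s, Xr (y + s • v), v) ∈ D →
      κ ≤ ∫⁻ u in Ioo s t₂, att (Hz F y v s u) * P.beta P.Gd u (Xr (y + u • v)) v) :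
    κ * ((∫⁻ r in cell ×ˢ (univ : Set R3), q₀ r.1 r.2) + Mb D F t₁) ≤ Mb P.Gd F t₂ := by
  have hq := eren_mq hF hD
  refine (dual_ge (β := fun u x v => P.beta P.Gd u (Xr x) v) hF pF hq
    (fun u v x i => by simp only [emeas_pXr, emeas_pF pF]) (eren_mβ P P.measurableSet_Gd)
    (fun u v x i => by simp only [emeas_pXr]) hq₀ pq₀ h12 h0 fun s hs y v h => h1 s hs y v ?_).trans
    (P.births_ge hF (eren_mg hF hq hq₀) P.measurableSet_Gd fun u hu x v => ?_)
  · by_contra hn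
    exact h (by rw [indicator_of_notMem hn, zero_mul])
  · refine le_trans (add_le_add le_rfl (add_le_add (mul_le_mul' (hle _ _) le_rfl)
      (Duh_mono F (fun s _ x v => ?_) x v))) (hlow u ⟨hu.1.le, hu.2.le.trans h2⟩ x v)
    exact mul_le_of_le_one_left' (indicator_le_self' (fun _ _ => zero_le) _)

/-- `dual_ge` with `q₀ = α seed`, `q = 1_{Gd} Qp F F`, `β = beta Gd`; seeds are good at time `0`
(`L th 0 = r`); `flight_main`, `F_lower`, `births_ge`. -/
theorem renew_main : ∀ᶠ P in 𝓕, ∀ α F, P.Sol α F → ∀ t, 0 ≤ t → t + P.th t / 30 ≤ P.T' →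
    3 / 2 * (ENNReal.ofReal α * P.Ms + Mb P.Gd F t) ≤ Mb P.Gd F (t + P.th t / 30) := by
  filter_upwards [ev_ok, F_lower, flight_main] with P h hl hf α F hF t ht hT
  have hth := h.th_pos ht
  have mono : ∀ s, s ≤ t → s + P.th s / 30 ≤ t + P.th t / 30 := fun s hs => by
    linarith [ef7_th_mono P hs]
  rw [Par.Ms, ← lintegral_const_mul' _ _ ENNReal.ofReal_ne_top]
  refine eren2_gen (q₀ := fun x v => ENNReal.ofReal α * P.seed x v) hF.meas hF.per (hl α F hF)
    P.measurableSet_Gd (Measurable.const_mul P.measX_seed _)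
    (fun v x i => congrArg (ENNReal.ofReal α * ·) (P.perX_seed v x i)) (fun _ _ => le_rfl) (by linarith) hT
    (fun y v h0 => ?_) fun s hs y v hG => ?_
  · refine (hf α F hF 0 y v le_rfl ((mono 0 ht).trans hT) ?_).trans
      (lintegral_mono_set (Ioo_subset_Ioo_right (mono 0 ht)))
    have h1 : (Xr y, v) ∈ P.Sd := by
      by_contra hn
      exact h0 (by rw [Par.seed, if_neg hn, mul_zero])
    obtain ⟨a1, a2, a3, a4, -⟩ := h1
    have hL := h.L_pos
    have e : P.L * P.th 0 = P.r := by unfold Par.th; field_simp; ring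
    rw [zero_smul, add_zero]
    refine ⟨by rwa [e], a2.trans ?_, a3, a4⟩
    rw [← e]
    exact mul_le_mul_of_nonneg_right (by linarith [h.L_le', h.V_ge]) (h.th_pos le_rfl).le
  · exact (hf α F hF s y v hs.1.le ((mono s hs.2.le).trans hT) hG).trans
      (lintegral_mono_set (Ioo_subset_Ioo_right (mono s hs.2.le)))

/-- the same with `q₀ = 0`, `q = 1_{Gsemi} Qp F F`, `flight_semi` -/
theorem renew_semi : ∀ᶠ P in 𝓕, ∀ α F, P.Sol α F → ∀ t, 0 ≤ t → t + 3 * P.V₁ * P.th t ≤ P.T' →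
    ENNReal.ofReal (1 / P.C₄) * Mb P.Gsemi F t ≤ Mb P.Gd F (t + 3 * P.V₁ * P.th t) := by
  filter_upwards [ev_ok, F_lower, flight_semi] with P h hl hf α F hF t ht hT
  have hth := h.th_pos ht
  have hV : 0 < P.V₁ := by unfold P14.V₁; linarith [h.N_ge]
  have mono : ∀ s, s ≤ t → s + 3 * P.V₁ * P.th s ≤ t + 3 * P.V₁ * P.th t := fun s hs => by
    have := ef7_th_mono P hs
    gcongr
  refine le_trans (mul_le_mul' le_rfl le_add_self) (eren2_gen (q₀ := fun _ _ => 0) hF.meas hF.per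
    (hl α F hF) P.measurableSet_Gsemi measurable_const (fun _ _ _ => rfl) (fun _ _ => zero_le)
    (le_add_of_nonneg_right (by positivity)) hT (fun y v h0 => absurd rfl h0)
    fun s hs y v hG => ?_)
  exact (hf α F hF s y v hs.1.le ((mono s hs.2.le).trans hT) hG).trans
    (lintegral_mono_set (Ioo_subset_Ioo_right (mono s hs.2.le)))

/-- `births_ge` with `g = hx F` (`cq_cb_hx_le`), `beta_semi_ge` -/
theorem Mc_le_Mb : ∀ᶠ P in 𝓕, ∀ α F, P.Sol α F → ∀ t ∈ Icc 0 P.T',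
    P.Mc (P.hx F) t ≤ Mb P.Gsemi F t := by
  filter_upwards [ev_ok, cq_cb_hx_le] with P h hl α F hF t ht
  have hg := P.meas_hx hF.meas
  refine le_trans ?_ (P.births_ge hF.meas hg P.measurableSet_Gsemi fun u hu =>
    hl α F hF u ⟨hu.1.le, hu.2.le.trans ht.2⟩)
  rw [eren_Om3 (G := fun u x v => P.hx F u x v * P.beta P.Gsemi u (Xr x) v)
    (Measurable.mul hg (eren_mβ P P.measurableSet_Gsemi)), Par.Mc, Measure.volume_eq_prod,
    setLIntegral_prod _ (P.measurable_Theta hg).aemeasurable]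
  refine setLIntegral_mono' measurableSet_Ioo fun u hu => lintegral_mono fun x => ?_
  simp only [Par.Theta]
  split_ifs with hX
  swap
  · exact zero_le
  have key : ∀ ε, dens (P.cb ε u (Xr x)) * ∫⁻ b in P.Kc ε u (Xr x), P.hx F u x b ≤
      ∫⁻ b, P.hx F u x b * (P.Kc ε u (Xr x)).indicator (fun _ => dens (P.cb ε u (Xr x))) b := by
    intro ε
    rw [← lintegral_indicator (P.mKc ε _ _)]
    refine (lintegral_const_mul_le _ _).trans (lintegral_mono fun b => le_of_eq ?_)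
    by_cases hb : b ∈ P.Kc ε u (Xr x)
    · rw [indicator_of_mem hb, indicator_of_mem hb, mul_comm]
    · rw [indicator_of_notMem hb, indicator_of_notMem hb, mul_zero, mul_zero]
  refine (add_le_add (key true) (key false)).trans ((le_lintegral_add _ _).trans
    (lintegral_mono fun b => ?_))
  rw [← mul_add]
  exact mul_le_mul' le_rfl (h.beta_semi_ge ⟨hu.1.le, (hu.2.le.trans ht.2).trans h.T'_le⟩ hX b)

end

end Crest.Agent.R68
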