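import Crest.Agent.R68.A8
import Crest.Agent.R68.ENum

/-!
# R68 (S0091): the three parts of the remainder `Sg`
-/

set_option autoImplicit false

namespace Crest.Agent.R68

open MeasureTheory Set Filter Crest.AnalysisR.VecCalc3 Crest.AnalysisR.PDE.Boltzmann
open scoped ENNReal _root_.Topology

noncomputable section

/-- first part -/
def Par.Sg1 (P : Par) (t : ℝ) (x : R3) : VF := fun v =>
  if ‖v‖ ≤ 4 ∧ ‖Yt t x v‖ ≤ P.RW then
    ENNReal.ofReal (5 * (P.A + 1) * (‖Yt t x v‖ + P.r) ^ (-(103 / 100) : ℝ)) else 0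
/-- second part -/
def Par.Sg2 (P : Par) (t : ℝ) (x : R3) : VF := fun v => ENNReal.ofReal √P.T₁ *
  (P.Omn (P.wn true t (Xl t x v) v) + P.Omn (P.wn false t (Xl t x v) v))

theorem esg1_pr0 : pr 0 = 0 := by
  apply Complex.ext <;> simp [pr]

theorem esg1_c {t τ ρ : ℝ} (hτ : 0 < τ) (ht : τ ≤ t) (hρ : 0 ≤ ρ) :
    (2 * ρ * t + 2) ^ 2 / t ^ 2 ≤ (2 * ρ + 2 / τ) ^ 2 := by
  have ht0 : 0 < t := hτ.trans_le ht
  rw [← div_pow, show (2 * ρ * t + 2) / t = 2 * ρ + 2 / t by field_simp]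
  gcongr

theorem esg1_pt {K y r : ℝ} (hK : 1 ≤ K) (hy : 0 ≤ y) (hr : 0 < r) (h1 : y + r ≤ 1) :
    ENNReal.ofReal (K * (y + r) ^ (-(103 / 100) : ℝ)) ^ pp ≤
      ENNReal.ofReal (K ^ 2) * ENNReal.ofReal y ^ (-(3 / 2) : ℝ) := by
  have h0 : 0 < y + r := by linarith
  have hp : (0 : ℝ) ≤ pp := by unfold pp; norm_num
  rw [ENNReal.ofReal_rpow_of_nonneg (by positivity) hp, Real.mul_rpow (by positivity) (by positivity),
    ← Real.rpow_mul h0.le, ENNReal.ofReal_mul (by positivity)]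
  refine mul_le_mul' (ENNReal.ofReal_le_ofReal ?_) ?_
  · rw [← Real.rpow_two]
    exact Real.rpow_le_rpow_of_exponent_le hK (by unfold pp; norm_num)
  · refine le_trans ?_ (a6_anti (ENNReal.ofReal_le_ofReal (show y ≤ y + r by linarith))
      (a := 3 / 2) (by norm_num))
    rw [ENNReal.ofReal_rpow_of_pos h0]
    exact ENNReal.ofReal_le_ofReal
      (Real.rpow_le_rpow_of_exponent_ge h0 h1 (by unfold pp; norm_num))

/-- `Sg1 = (closedBall 0 4).indicator (j ∘ pr)` with `j ζ = Φ (red (pr x - tζ))`; `disp2` gives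
`∫_{‖ζ‖ ≤ 4} j^pp ≤ (8 + 2/T₁)² (5(A+1))^pp ∫_{‖z‖ ≤ RW} ‖z‖^{-1.06} ≤ C(A,T₁) RW^{0.9}` and
`RW ≤ 2 r₀^{7/1600}`. -/
theorem Sg1_LpB : ∀ᶠ P in 𝓕, ∀ t, P.T₁ ≤ t → ∀ x, ∃ j : ℂ → ℝ≥0∞, Measurable j ∧
    LpB j (pr 0) 4 (ENNReal.ofReal P.T₁) ∧
      ∀ v, P.Sg1 t x v = (Metric.closedBall (0 : R3) 4).indicator (fun a => j (pr a)) v := by
  filter_upwards [ev_ok, small_r0
    (fun Q => (8 + 2 / Q.T₁) ^ 2 * (5 * (Q.A + 1)) ^ 2 * 60 / Q.T₁ ^ 2) (c := 7 / 3200)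
    (by norm_num)] with P h hs t ht x
  change (8 + 2 / P.T₁) ^ 2 * (5 * (P.A + 1)) ^ 2 * 60 / P.T₁ ^ 2 * P.r₀ ^ (7 / 3200 : ℝ) ≤ 1
    at hs
  have hT := h.T₁_pos
  have hT1 := h.T₁_le'
  have hA := h.A_ge
  have hr0 := h.r₀_pos
  have hr1 := h.r₀_le
  have hr2 := h.r_le'
  have hRW := h.RW_le
  have hRW0 : 0 < P.RW := hr0.trans_le h.RW_ge
  let Φ : ℂ → ℝ≥0∞ := fun z => if ‖z‖ ≤ P.RW then
    ENNReal.ofReal (5 * (P.A + 1) * (‖z‖ + P.r) ^ (-(103 / 100) : ℝ)) else 0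
  have hΦ : Measurable Φ := by
    refine Measurable.ite (measurableSet_le measurable_norm measurable_const) ?_ measurable_const
    fun_prop
  refine ⟨fun ζ => Φ (red (pr x - t • ζ)), hΦ.comp (measurable_red.comp (by fun_prop)), ?_, fun v => ?_⟩
  · have hp : (0 : ℝ) < pp := by unfold pp; norm_num
    have h1 := disp2 (fun z => Φ z ^ pp) (hΦ.pow_const _) (pr x) (hT.trans_le ht)
      (show (0 : ℝ) ≤ 4 by norm_num)
    have h2 : ∫⁻ z in {z : ℂ | |z.re| < 1 / 2 ∧ |z.im| < 1 / 2}, Φ z ^ pp ≤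
        ENNReal.ofReal ((5 * (P.A + 1)) ^ 2) * ENNReal.ofReal (30 * √P.RW) := by
      refine (setLIntegral_le_lintegral _ _).trans
        (le_trans ?_ (mul_le_mul' le_rfl (lintegral_disc_rpow 0 hRW0)))
      simp only [sub_zero]
      rw [← lintegral_const_mul' _ _ ENNReal.ofReal_ne_top,
        ← lintegral_indicator measurableSet_closedBall]
      refine lintegral_mono fun z => ?_
      by_cases hz : ‖z‖ ≤ P.RW
      · rw [indicator_of_mem (mem_closedBall_zero_iff.2 hz)]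
        simp only [Φ, if_pos hz]
        exact esg1_pt (by linarith) (norm_nonneg _) h.r_pos (by linarith)
      · simp only [Φ, if_neg hz]
        rw [ENNReal.zero_rpow_of_pos hp]
        exact zero_le
    have h3 : √P.RW ≤ 2 * P.r₀ ^ (7 / 3200 : ℝ) := by
      have e1 : (P.r₀ ^ (7 / 3200 : ℝ)) ^ 2 = P.r₀ ^ (7 / 1600 : ℝ) := by
        rw [← Real.rpow_two, ← Real.rpow_mul hr0.le]; norm_num
      have e2 : P.r₀ ≤ P.r₀ ^ (7 / 1600 : ℝ) := by
        conv_lhs => rw [← Real.rpow_one P.r₀]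
        exact Real.rpow_le_rpow_of_exponent_ge hr0 (by linarith) (by norm_num)
      rw [Real.sqrt_le_iff]
      refine ⟨by positivity, ?_⟩
      rw [mul_pow, e1]
      unfold Qar.RW
      nlinarith
    unfold LpB
    rw [esg1_pr0]
    refine h1.trans ((mul_le_mul' (ENNReal.ofReal_le_ofReal (esg1_c hT ht (by norm_num))) h2).trans ?_)
    rw [ENNReal.ofReal_rpow_of_pos hT, ← ENNReal.ofReal_mul (by positivity),
      ← ENNReal.ofReal_mul (by positivity), ← ENNReal.ofReal_mul (by positivity)]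
    refine ENNReal.ofReal_le_ofReal ?_
    have h4 : P.T₁ ^ 2 ≤ P.T₁ ^ pp := by
      rw [← Real.rpow_two]
      exact Real.rpow_le_rpow_of_exponent_ge hT (by linarith) (by unfold pp; norm_num)
    rw [div_mul_eq_mul_div, div_le_one (by positivity)] at hs
    calc (2 * 4 + 2 / P.T₁) ^ 2 * ((5 * (P.A + 1)) ^ 2 * (30 * √P.RW))
        ≤ (2 * 4 + 2 / P.T₁) ^ 2 * ((5 * (P.A + 1)) ^ 2 * (30 * (2 * P.r₀ ^ (7 / 3200 : ℝ)))) := by
          gcongr
      _ = (8 + 2 / P.T₁) ^ 2 * (5 * (P.A + 1)) ^ 2 * 60 * P.r₀ ^ (7 / 3200 : ℝ) := by ring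
      _ ≤ P.T₁ ^ 2 := hs
      _ ≤ _ := by nlinarith [sq_nonneg P.T₁]
  · by_cases hv : ‖v‖ ≤ 4
    · rw [indicator_of_mem (mem_closedBall_zero_iff.2 hv)]
      simp only [Par.Sg1, Φ, hv, true_and, Yt]
    · rw [indicator_of_notMem (by rwa [mem_closedBall_zero_iff])]
      simp only [Par.Sg1, hv, false_and, if_false]

/-- `exists_lifts` for both streams, `Omn_le_Ws`, `norm_Uf_le` -/
theorem Par.Ok.Sg2_le {P : Par} (h : P.Ok) {t : ℝ} (ht : 0 ≤ t) (x : R3) :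
    ∃ K K' : Finset R3, (K.card : ℝ) ≤ 36 * (1 + t) ^ 2 ∧ (K'.card : ℝ) ≤ 36 * (1 + t) ^ 2 ∧
      (∀ u ∈ K, ‖u‖ ≤ 2) ∧ (∀ u ∈ K', ‖u‖ ≤ 2) ∧ ∀ v, P.Sg2 t x v ≤
        ENNReal.ofReal (√P.T₁ * P.δ₁⁻¹ ^ P.Γ) * ((∑ u ∈ K, Ws u v) + ∑ u ∈ K', Ws u v) := by
  obtain ⟨K, k1, k2, k3⟩ := exists_lifts ht x (fun X => P.Uf true t X) fun X =>
    (h.norm_Uf_le true ht X).trans (by norm_num)
  obtain ⟨K', k1', k2', k3'⟩ := exists_lifts ht x (fun X => P.Uf false t X) fun X =>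
    (h.norm_Uf_le false ht X).trans (by norm_num)
  refine ⟨K, K', k1, k1', k2, k2', fun v => ?_⟩
  rw [ENNReal.ofReal_mul (Real.sqrt_nonneg _), mul_assoc, mul_add]
  unfold Par.Sg2
  refine mul_le_mul' le_rfl (add_le_add ?_ ?_)
  · exact (h.Omn_le_Ws _ v).trans (mul_le_mul' le_rfl (k3 v).1)
  · exact (h.Omn_le_Ws _ v).trans (mul_le_mul' le_rfl (k3' v).1)

/-- `disp2` -/
theorem volume_hole_shadow {t τ ρ r₁ : ℝ} (hτ : 0 < τ) (ht : τ ≤ t) (hρ : 0 ≤ ρ) (hr : 0 ≤ r₁)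
    (x : R3) : volume {a : R3 | ‖a‖ ≤ ρ ∧ ‖Yt t x a‖ < r₁} ≤
      ENNReal.ofReal (2 * ρ * (2 * ρ + 2 / τ) ^ 2 * (4 * r₁ ^ 2)) := by
  have ht0 : 0 < t := hτ.trans_le ht
  let Φ : ℂ → ℝ≥0∞ := (Metric.ball (0 : ℂ) r₁).indicator 1
  have hΦ : Measurable Φ := measurable_one.indicator measurableSet_ball
  have hj : Measurable fun ζ : ℂ => Φ (red (pr x - t • ζ)) :=
    hΦ.comp (measurable_red.comp (by fun_prop))
  have hS : MeasurableSet {a : R3 | ‖a‖ ≤ ρ ∧ ‖Yt t x a‖ < r₁} :=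
    (measurableSet_le measurable_norm measurable_const).inter (measurableSet_lt
      (emeas_Yt measurable_const measurable_const measurable_id).norm measurable_const)
  have h1 := a6_vert hj (0 : R3) ρ (φ := fun _ => 1) measurable_const
    (k := fun _ => ENNReal.ofReal (2 * ρ)) fun z => by
      rw [setLIntegral_const, Real.volume_closedBall, one_mul]
  have h2 := disp2 Φ hΦ (pr x) ht0 hρ
  have h3 : ∫⁻ z in {z : ℂ | |z.re| < 1 / 2 ∧ |z.im| < 1 / 2}, Φ z ≤ ENNReal.ofReal (4 * r₁ ^ 2) := by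
    refine (setLIntegral_le_lintegral _ _).trans ?_
    rw [lintegral_indicator_one measurableSet_ball, Complex.volume_ball, ← ENNReal.ofReal_pow hr,
      ← ENNReal.ofReal_coe_nnreal, ← ENNReal.ofReal_mul (by positivity)]
    refine ENNReal.ofReal_le_ofReal ?_
    have := Real.pi_le_four
    rw [NNReal.coe_real_pi]
    nlinarith [sq_nonneg r₁]
  rw [esg1_pr0, lintegral_mul_const _ hj] at h1
  calc _ = ∫⁻ a, (Metric.closedBall (0 : R3) ρ).indicator
        (fun a => Φ (red (pr x - t • pr a))) a * 1 := by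
        rw [← lintegral_indicator_one hS]
        refine lintegral_congr fun a => ?_
        by_cases c1 : ‖a‖ ≤ ρ <;> simp [indicator, Φ, Yt, c1]
    _ ≤ _ := h1
    _ ≤ ENNReal.ofReal ((2 * ρ + 2 / τ) ^ 2) * ENNReal.ofReal (4 * r₁ ^ 2) * ENNReal.ofReal (2 * ρ) :=
        mul_le_mul' (h2.trans (mul_le_mul' (ENNReal.ofReal_le_ofReal (esg1_c hτ ht hρ)) h3)) le_rfl
    _ = _ := by
        rw [← ENNReal.ofReal_mul (by positivity), ← ENNReal.ofReal_mul (by positivity)]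
        congr 1
        ring

theorem esg1_far {κ : ℝ} (h0 : 0 < κ) (h1 : κ ≤ 1) {a : R3} (ha : 8 / κ < ‖a‖) :
    Gs (3 / 4) a ≤ ENNReal.ofReal κ * Gs (1 / 2) a := by
  rw [show (3 / 4 : ℝ) = 1 / 4 + 1 / 2 by norm_num, Gs_add]
  refine mul_le_mul' (ENNReal.ofReal_le_ofReal ?_) le_rfl
  rw [div_lt_iff₀ h0] at ha
  have h2 : 8 ≤ ‖a‖ := by nlinarith [norm_nonneg a]
  have h3 := Real.add_one_le_exp (‖a‖ ^ 2 / 8)
  rw [show -(1 / 4 : ℝ) * ‖a‖ ^ 2 / 2 = -(‖a‖ ^ 2 / 8) by ring, Real.exp_neg,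
    inv_le_iff_one_le_mul₀ (Real.exp_pos _)]
  have h4 : ‖a‖ ≤ ‖a‖ ^ 2 / 8 := by nlinarith
  have h5 : κ * ‖a‖ ≤ κ * Real.exp (‖a‖ ^ 2 / 8) := mul_le_mul_of_nonneg_left (by linarith) h0.le
  linarith

theorem esg1_near {κ : ℝ} (h0 : 0 < κ) (h1 : κ ≤ 1) {v a : R3} (hav : a ≠ v) (hp : ‖v - a‖ ≤ κ ^ 2) :
    (ENNReal.ofReal ‖v - a‖)⁻¹ ≤ ENNReal.ofReal κ * Ws v a := by
  have h2 : 0 < ‖v - a‖ := norm_pos_iff.2 (sub_ne_zero.2 hav.symm)
  have h3 : a ∈ Metric.closedBall v 1 := by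
    rw [mem_closedBall_iff_norm']
    nlinarith
  rw [Ws, indicator_of_mem h3, norm_sub_rev a v, ENNReal.ofReal_rpow_of_pos h2,
    ← ENNReal.ofReal_inv_of_pos h2, ← ENNReal.ofReal_mul h0.le]
  refine ENNReal.ofReal_le_ofReal ?_
  have h4 : ‖v - a‖ ^ (1 / 2 : ℝ) ≤ κ := by
    rw [← Real.sqrt_eq_rpow, Real.sqrt_le_iff]
    exact ⟨h0.le, hp⟩
  calc ‖v - a‖⁻¹ = ‖v - a‖ ^ (1 / 2 : ℝ) * ‖v - a‖ ^ (-(3 / 2) : ℝ) := by
        rw [← Real.rpow_add h2, ← Real.rpow_neg_one]; norm_num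
    _ ≤ _ := by gcongr

theorem esg1_gen : ∃ C : ℝ, 0 < C ∧ ∀ κ : ℝ, 0 < κ → κ ≤ 1 → ∀ (p : R3 → Prop) [DecidablePred p],
    MeasurableSet {a : R3 | ‖a‖ ≤ 8 / κ ∧ p a} →
    (∀ v, As (fun a => if p a then Gs (3 / 4) a else 0) v ≤
      ENNReal.ofReal (C * κ) + ENNReal.ofReal (9 / κ ^ 2) * volume {a : R3 | ‖a‖ ≤ 8 / κ ∧ p a}) ∧
    ∫⁻ a, br a * (if p a then Gs (3 / 4) a else 0) ≤
      ENNReal.ofReal (C * κ) + ENNReal.ofReal (9 / κ ^ 2) * volume {a : R3 | ‖a‖ ≤ 8 / κ ∧ p a} := by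
  obtain ⟨C1, c1, hC1⟩ := As_Gs_le (θ := 1 / 2) (by norm_num)
  obtain ⟨C2, c2, hC2⟩ := lintegral_Ws
  have c3 := lintegral_br_Gs 1 (θ := 1 / 2) (by norm_num)
  simp only [pow_one] at c3
  set C3 := ∫⁻ a, br a * Gs (1 / 2) a with hC3
  have c4 : C1 + C2 + C3 ≠ ⊤ := by finiteness
  refine ⟨(C1 + C2 + C3).toReal + 1, by positivity, fun κ h0 h1 p _ hS => ?_⟩
  set S := {a : R3 | ‖a‖ ≤ 8 / κ ∧ p a} with hSd
  have hC : ENNReal.ofReal κ * (C1 + C2 + C3) ≤ ENNReal.ofReal (((C1 + C2 + C3).toReal + 1) * κ) := by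
    rw [mul_comm _ κ, ENNReal.ofReal_mul h0.le]
    refine mul_le_mul' le_rfl ?_
    conv_lhs => rw [← ENNReal.ofReal_toReal c4]
    exact ENNReal.ofReal_le_ofReal (by linarith)
  have hG1 : ∀ a, Gs (3 / 4) a ≤ 1 := Gs_le_one (by norm_num)
  have mG := a5_meas (1 / 2)
  refine ⟨fun v => ?_, ?_⟩
  · have hae : ∀ᵐ a : R3, a ≠ v := by
      simp [ae_iff]
    have m1 : Measurable fun a : R3 => Gs (1 / 2) a * (ENNReal.ofReal ‖v - a‖)⁻¹ := by fun_prop
    have m2 : Measurable fun a : R3 => Ws v a := emeas_Ws measurable_const measurable_id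
    calc _ ≤ ∫⁻ a, (ENNReal.ofReal κ * (Gs (1 / 2) a * (ENNReal.ofReal ‖v - a‖)⁻¹) +
            ENNReal.ofReal κ * Ws v a) + S.indicator (fun _ => ENNReal.ofReal (9 / κ ^ 2)) a := by
          refine lintegral_mono_ae (hae.mono fun a hav => ?_)
          beta_reduce
          split_ifs with hp
          swap
          · simp
          by_cases c1 : 8 / κ < ‖a‖
          · refine le_add_right (le_add_right ?_)
            rw [← mul_assoc]
            exact mul_le_mul' (esg1_far h0 h1 c1) le_rfl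
          by_cases c2 : ‖v - a‖ ≤ κ ^ 2
          · refine le_add_right (le_add_left ?_)
            exact (mul_le_mul' (hG1 a) (esg1_near h0 h1 hav c2)).trans_eq (one_mul _)
          · refine le_add_left ?_
            rw [indicator_of_mem (show a ∈ S from ⟨not_lt.1 c1, hp⟩)]
            refine (mul_le_mul' (hG1 a) le_rfl).trans ?_
            rw [not_le] at c2
            rw [one_mul, ← ENNReal.ofReal_inv_of_pos ((pow_pos h0 2).trans c2)]
            refine ENNReal.ofReal_le_ofReal ((inv_anti₀ (pow_pos h0 2) c2.le).trans ?_)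
            rw [← one_div]
            gcongr
            norm_num
      _ = ENNReal.ofReal κ * As (Gs (1 / 2)) v + ENNReal.ofReal κ * (∫⁻ a, Ws v a) +
            ENNReal.ofReal (9 / κ ^ 2) * volume S := by
          rw [lintegral_add_right _ (measurable_const.indicator hS),
            lintegral_add_left (m1.const_mul _), lintegral_const_mul _ m1, lintegral_const_mul _ m2,
            lintegral_indicator_const hS]
          rfl
      _ ≤ _ := by
          refine add_le_add (le_trans ?_ hC) le_rfl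
          rw [← mul_add]
          refine mul_le_mul' le_rfl (le_add_right (add_le_add ?_
            ((lintegral_mono fun a => le_self_add).trans (hC2 v))))
          exact (le_mul_of_one_le_left' (a5_one_le_br v)).trans (hC1 v)
  · have m1 : Measurable fun a : R3 => br a * Gs (1 / 2) a := measurable_br.mul mG
    calc _ ≤ ∫⁻ a, ENNReal.ofReal κ * (br a * Gs (1 / 2) a) +
            S.indicator (fun _ => ENNReal.ofReal (9 / κ ^ 2)) a := by
          refine lintegral_mono fun a => ?_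
          split_ifs with hp
          swap
          · simp
          by_cases c1 : 8 / κ < ‖a‖
          · refine le_add_right ?_
            rw [mul_left_comm]
            exact mul_le_mul' le_rfl (esg1_far h0 h1 c1)
          · refine le_add_left ?_
            rw [indicator_of_mem (show a ∈ S from ⟨not_lt.1 c1, hp⟩)]
            refine (mul_le_mul' le_rfl (hG1 a)).trans ?_
            rw [mul_one]
            refine ENNReal.ofReal_le_ofReal ?_
            have e1 : 1 ≤ 1 / κ := one_le_one_div h0 h1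
            have e2 : 9 / κ = 1 / κ + 8 / κ := by ring
            have e3 : 9 / κ ≤ 9 / κ ^ 2 := by
              gcongr
              nlinarith
            linarith [not_lt.1 c1]
      _ = ENNReal.ofReal κ * C3 + ENNReal.ofReal (9 / κ ^ 2) * volume S := by
          rw [lintegral_add_left (m1.const_mul _), lintegral_const_mul _ m1,
            lintegral_indicator_const hS]
      _ ≤ _ := add_le_add (le_trans (mul_le_mul' le_rfl le_add_self) hC) le_rfl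

/-- The hole disperses.  Choose `ρ` large and `κ` small depending on `c η`: on `‖a‖ > ρ` use
`G_{3/4} ≤ exp(-ρ²/8) G_{1/2}` (`As_Gs_le`, `lintegral_br_Gs`); on `‖v - a‖ < κ` the potential is
`≤ 2πκ²` (`lintegral_polar`); the rest is bounded with `volume_hole_shadow`, `r₁` being small
(use `ev_r1`). -/
theorem hole_small {c : ℝ} (hc : 0 < c) : ∀ᶠ P in 𝓕, ∀ t, P.τ ≤ t → ∀ x,
    (∀ v, As (fun a => if ‖Yt t x a‖ < P.r₁ then Gs (3 / 4) a else 0) v ≤ ENNReal.ofReal (c * P.η)) ∧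
    ∫⁻ a, br a * (if ‖Yt t x a‖ < P.r₁ then Gs (3 / 4) a else 0) ≤ ENNReal.ofReal (c * P.η) := by
  obtain ⟨C, hC, hgen⟩ := esg1_gen
  filter_upwards [ev_ok, small_r1 (fun Q => 9 / min 1 (c * Q.η / (2 * C)) ^ 2 *
    (2 * (8 / min 1 (c * Q.η / (2 * C))) * (2 * (8 / min 1 (c * Q.η / (2 * C))) + 2 / Q.τ) ^ 2 * 4) /
    (c * Q.η / 2)) (c := 2) (by norm_num)] with P h hs t ht x
  change 9 / min 1 (c * P.η / (2 * C)) ^ 2 *
    (2 * (8 / min 1 (c * P.η / (2 * C))) * (2 * (8 / min 1 (c * P.η / (2 * C))) + 2 / P.τ) ^ 2 * 4) /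
    (c * P.η / 2) * P.r₁ ^ (2 : ℝ) ≤ 1 at hs
  have hη := h.η_pos
  have hκ0 : 0 < min 1 (c * P.η / (2 * C)) := lt_min one_pos (by positivity)
  have hκ1 : min 1 (c * P.η / (2 * C)) ≤ 1 := min_le_left _ _
  have hκ2 : min 1 (c * P.η / (2 * C)) ≤ c * P.η / (2 * C) := min_le_right _ _
  generalize min 1 (c * P.η / (2 * C)) = κ at hs hκ0 hκ1 hκ2
  have hS : MeasurableSet {a : R3 | ‖a‖ ≤ 8 / κ ∧ ‖Yt t x a‖ < P.r₁} :=
    (measurableSet_le measurable_norm measurable_const).inter (measurableSet_lt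
      (emeas_Yt measurable_const measurable_const measurable_id).norm measurable_const)
  obtain ⟨g1, g2⟩ := hgen κ hκ0 hκ1 (fun a => ‖Yt t x a‖ < P.r₁) hS
  have hv := volume_hole_shadow h.τ_pos ht (show 0 ≤ 8 / κ by positivity) h.r₁_pos.le x
  have key : ENNReal.ofReal (C * κ) + ENNReal.ofReal (9 / κ ^ 2) *
      volume {a : R3 | ‖a‖ ≤ 8 / κ ∧ ‖Yt t x a‖ < P.r₁} ≤ ENNReal.ofReal (c * P.η) := by
    refine (add_le_add le_rfl (mul_le_mul' le_rfl hv)).trans ?_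
    rw [← ENNReal.ofReal_mul (by positivity), ← ENNReal.ofReal_add (by positivity) (by positivity)]
    refine ENNReal.ofReal_le_ofReal ?_
    rw [Real.rpow_two, div_mul_eq_mul_div, div_le_one (by positivity)] at hs
    rw [le_div_iff₀ (by positivity)] at hκ2
    have e : 9 / κ ^ 2 * (2 * (8 / κ) * (2 * (8 / κ) + 2 / P.τ) ^ 2 * (4 * P.r₁ ^ 2)) =
        9 / κ ^ 2 * (2 * (8 / κ) * (2 * (8 / κ) + 2 / P.τ) ^ 2 * 4) * P.r₁ ^ 2 := by ring
    rw [e]
    linarith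
  exact ⟨fun v => (g1 v).trans key, g2.trans key⟩

end

end Crest.Agent.R68
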