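import Crest.Agent.R68.ESg1

/-!
# R68 (S0091): the hypotheses of the late phase
-/

set_option autoImplicit false

namespace Crest.Agent.R68

open MeasureTheory Set Filter Crest.AnalysisR.VecCalc3 Crest.AnalysisR.PDE.Boltzmann
open scoped ENNReal _root_.Topology

noncomputable section

private theorem esg3_mW (u : R3) : Measurable (Ws u) :=
  measurable_Ws.comp (f := fun a : R3 => (u, a)) (by fun_prop)

private theorem esg3_sum {α : Type*} [MeasurableSpace α] {μ : Measure α} {K : Finset R3} {n : ℝ}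
    (hK : (K.card : ℝ) ≤ n) {φ : R3 → α → ℝ≥0∞} (hφ : ∀ u, Measurable (φ u)) {C : ℝ≥0∞}
    (hC : ∀ u, ∫⁻ a, φ u a ∂μ ≤ C) : ∫⁻ a, ∑ u ∈ K, φ u a ∂μ ≤ ENNReal.ofReal n * C := by
  rw [lintegral_finsetSum _ fun u _ => hφ u]
  refine (Finset.sum_le_card_nsmul _ _ C fun u _ => hC u).trans ?_
  rw [nsmul_eq_mul, ← ENNReal.ofReal_natCast]
  exact mul_le_mul_left (ENNReal.ofReal_le_ofReal hK) _

private theorem esg3_two {α : Type*} [MeasurableSpace α] {μ : Measure α} {K K' : Finset R3} {n β : ℝ}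
    (hn : 0 ≤ n) (hβ : 0 ≤ β) (hK : (K.card : ℝ) ≤ n) (hK' : (K'.card : ℝ) ≤ n) {φ : R3 → α → ℝ≥0∞}
    (hφ : ∀ u, Measurable (φ u)) {C : ℝ≥0∞} (hC : ∀ u, ∫⁻ a, φ u a ∂μ ≤ C) {f : α → ℝ≥0∞}
    (hf : ∀ a, f a ≤ ENNReal.ofReal β * ((∑ u ∈ K, φ u a) + ∑ u ∈ K', φ u a)) :
    ∫⁻ a, f a ∂μ ≤ ENNReal.ofReal (β * (2 * n)) * C := by
  refine (lintegral_mono hf).trans ?_
  rw [lintegral_const_mul' _ _ ENNReal.ofReal_ne_top,
    lintegral_add_left (Finset.measurable_sum _ fun u _ => hφ u), ENNReal.ofReal_mul hβ, two_mul,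
    ENNReal.ofReal_add hn hn, mul_assoc, add_mul]
  exact mul_le_mul_right (add_le_add (esg3_sum hK hφ hC) (esg3_sum hK' hφ hC)) _

private theorem esg3_m2 (P : Par) (t : ℝ) (x : R3) : Measurable (P.Sg2 t x) := by
  have h1 : Measurable fun v : R3 => Xl t x v :=
    measurable_Xl.comp (f := fun v : R3 => (t, x, v)) (by fun_prop)
  have h2 : ∀ ε, Measurable fun v : R3 => P.Omn (P.wn ε t (Xl t x v) v) := fun ε =>
    P.measurable_Omn.comp ((measurable_wn P.toP11 ε).comp (f := fun v : R3 => (t, Xl t x v, v))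
      (measurable_const.prodMk (h1.prodMk measurable_id)))
  exact ((h2 true).add (h2 false)).const_mul _

private theorem esg3_m1 (P : Par) (t : ℝ) (x : R3) : Measurable (P.Sg1 t x) := by
  have h1 : Measurable fun v : R3 => Yt t x v :=
    measurable_Yt.comp (f := fun v : R3 => (t, x, v)) (by fun_prop)
  refine Measurable.ite ?_ (by fun_prop) measurable_const
  exact (measurableSet_le measurable_norm measurable_const).inter
    (measurableSet_le h1.norm measurable_const)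

/-- `S = Sg1 + Sg2` is supported in `‖a‖ ≤ 4`.  `As_ball`, `dens_ball`, `Qp_ball` (radius `4`,
`Sg1_LpB`), `Sg2_le`, `As_Ws`, `lintegral_Ws`, `Qp_Ws_Ws`; the mixed term by `Qp_le_plane` with
`Sg1` first and `plane_Ws`.  Everything is `≤ C(δ₁, Γ) √T₁ (1+t)⁴`. -/
theorem Sg12_le {c : ℝ} (hc : 0 < c) : ∀ᶠ P in 𝓕, ∀ t, P.T₁ ≤ t → ∀ x,
    (∀ a, 4 < ‖a‖ → P.Sg1 t x a + P.Sg2 t x a = 0) ∧
    (∀ v, As (fun a => P.Sg1 t x a + P.Sg2 t x a) v ≤ ENNReal.ofReal (c * P.η * (1 + t) ^ 4)) ∧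
    (∫⁻ a, (P.Sg1 t x a + P.Sg2 t x a) ≤ ENNReal.ofReal (c * P.η * (1 + t) ^ 4)) ∧
    ∀ v, Qp (fun a => P.Sg1 t x a + P.Sg2 t x a) (fun a => P.Sg1 t x a + P.Sg2 t x a) v ≤
      ENNReal.ofReal (c * P.η * (1 + t) ^ 4) := by
  obtain ⟨Ca, hCa, ha⟩ := As_ball
  obtain ⟨Cq, hCq, hq⟩ := Qp_ball
  obtain ⟨CA, hCA, hA⟩ := As_Ws
  obtain ⟨CL, hCL, hL⟩ := lintegral_Ws
  obtain ⟨C₀, hC₀⟩ : ∃ C₀, C₀ = Ca * 16 + 512 + Cq * 256 + CA + CL + 30 := ⟨_, rfl⟩
  have hC₀t : C₀ ≠ ⊤ := by rw [hC₀]; finiteness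
  obtain ⟨c₀, hc₀⟩ : ∃ c₀, c₀ = C₀.toReal := ⟨_, rfl⟩
  have hc₀0 : 0 ≤ c₀ := hc₀ ▸ ENNReal.toReal_nonneg
  have hc₀e : C₀ = ENNReal.ofReal c₀ := by rw [hc₀, ENNReal.ofReal_toReal hC₀t]
  have k1 : Ca * 16 ≤ C₀ := by
    rw [hC₀]
    exact le_self_add.trans (le_self_add.trans (le_self_add.trans (le_self_add.trans le_self_add)))
  have k2 : 512 ≤ C₀ := by
    rw [hC₀]
    exact le_add_self.trans (le_self_add.trans (le_self_add.trans (le_self_add.trans le_self_add)))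
  have k3 : Cq * 256 ≤ C₀ := by
    rw [hC₀]
    exact le_add_self.trans (le_self_add.trans (le_self_add.trans le_self_add))
  have k4 : CA ≤ C₀ := by
    rw [hC₀]
    exact le_add_self.trans (le_self_add.trans le_self_add)
  have k5 : CL ≤ C₀ := by
    rw [hC₀]
    exact le_add_self.trans le_self_add
  have k6 : 30 ≤ C₀ := by
    rw [hC₀]
    exact le_add_self
  filter_upwards [ev_ok, Sg1_LpB, small_T1 (fun Q => (c₀ * (1 + 72 * Q.δ₁⁻¹ ^ Q.Γ) +
    4 * (c₀ * (1 + 72 * Q.δ₁⁻¹ ^ Q.Γ)) ^ 2) / (c * Q.η)) (c := 1 / 2) (by norm_num)]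
    with P h hS1 hs t ht x
  have hT := h.T₁_pos
  have ht0 : 0 ≤ t := hT.le.trans ht
  have hη := h.η_pos
  have hδ := h.δ₁_pos
  obtain ⟨j, hj, hjL, hje⟩ := hS1 t ht x
  obtain ⟨K, K', hK, hK', hKu, hKu', h2⟩ := h.Sg2_le ht0 x
  have e1 : P.Sg1 t x = (Metric.closedBall (0 : R3) 4).indicator fun a => j (pr a) := funext hje
  have m1 := esg3_m1 P t x
  have m2 := esg3_m2 P t x
  obtain ⟨s, hsd⟩ : ∃ s, s = √P.T₁ := ⟨_, rfl⟩
  have hs0 : 0 < s := hsd ▸ Real.sqrt_pos.2 hT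
  have hs1 : s ≤ 1 := hsd ▸ Real.sqrt_le_one.2 (by linarith [h.T₁_le'])
  have hsT : P.T₁ ≤ s := by
    have : s * s = P.T₁ := hsd ▸ Real.mul_self_sqrt hT.le
    nlinarith
  obtain ⟨D, hD⟩ : ∃ D, D = P.δ₁⁻¹ ^ P.Γ := ⟨_, rfl⟩
  have hD0 : 0 ≤ D := by rw [hD]; positivity
  obtain ⟨w, hw⟩ : ∃ w, w = (1 + t) ^ 2 := ⟨_, rfl⟩
  have hw1 : 1 ≤ w := hw ▸ one_le_pow₀ (by linarith)
  rw [← hsd, ← hD] at h2
  rw [← hw] at hK hK'
  obtain ⟨B, hB⟩ : ∃ B, B = c₀ * (1 + 72 * D) := ⟨_, rfl⟩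
  have hB0 : 0 ≤ B := by rw [hB]; positivity
  have hs' : (B + 4 * B ^ 2) * s ≤ c * P.η := by
    have h1 : (B + 4 * B ^ 2) / (c * P.η) * s ≤ 1 := by
      rw [hB, hD, hsd, Real.sqrt_eq_rpow]
      exact hs
    rwa [div_mul_eq_mul_div, div_le_one (by positivity)] at h1
  have hw4 : (1 + t) ^ 4 = w ^ 2 := by rw [hw]; ring
  have hsum : ENNReal.ofReal s * C₀ + ENNReal.ofReal (s * D * (2 * (36 * w))) * C₀ ≤
      ENNReal.ofReal (B * s * w) := by
    rw [hc₀e, ← ENNReal.ofReal_mul hs0.le, ← ENNReal.ofReal_mul (by positivity),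
      ← ENNReal.ofReal_add (by positivity) (by positivity), hB]
    refine ENNReal.ofReal_le_ofReal ?_
    nlinarith [mul_le_mul_of_nonneg_left hw1 (mul_nonneg hs0.le hc₀0)]
  have hfin : ENNReal.ofReal (B * s * w) ≤ ENNReal.ofReal (c * P.η * (1 + t) ^ 4) := by
    refine ENNReal.ofReal_le_ofReal ?_
    rw [hw4]
    refine mul_le_mul (le_trans ?_ hs') (by nlinarith) (by linarith) (by positivity)
    nlinarith [mul_nonneg (sq_nonneg B) hs0.le]
  have hTs : ENNReal.ofReal P.T₁ ≤ ENNReal.ofReal s := ENNReal.ofReal_le_ofReal hsT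
  have a1 : ∀ v, As (fun a => P.Sg1 t x a + P.Sg2 t x a) v ≤ ENNReal.ofReal (B * s * w) := fun v => by
    rw [As_add m1 m2]
    refine le_trans (add_le_add ?_ ?_) hsum
    · rw [e1]
      refine (ha j 0 4 _ hj (by norm_num) hjL v).trans ?_
      rw [mul_right_comm, mul_comm, show ENNReal.ofReal (4 ^ 2) = 16 by norm_num]
      exact mul_le_mul' hTs k1
    · refine esg3_two (φ := fun u a => Ws u a * (ENNReal.ofReal ‖v - a‖)⁻¹) (by positivity)
        (by positivity) hK hK' (fun u => (esg3_mW u).mul (by fun_prop))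
        (fun u => (hA u v).trans k4) fun a => ?_
      rw [← Finset.sum_mul, ← Finset.sum_mul, ← add_mul, ← mul_assoc]
      exact mul_le_mul_left (h2 a) _
  have a2 : ∫⁻ a, (P.Sg1 t x a + P.Sg2 t x a) ≤ ENNReal.ofReal (B * s * w) := by
    rw [lintegral_add_left m1]
    refine le_trans (add_le_add ?_ ?_) hsum
    · rw [e1]
      refine (dens_ball hj (by norm_num) hjL).trans ?_
      rw [mul_right_comm, mul_comm, show 8 * ENNReal.ofReal (4 ^ 3) = 512 by norm_num]
      exact mul_le_mul' hTs k2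
    · exact esg3_two (φ := Ws) (by positivity) (by positivity) hK hK' esg3_mW
        (fun u => ((lintegral_mono fun a => le_self_add).trans (hL u)).trans k5) h2
  have a3 : ∀ (v : R3) (J : ℂ →ₗᵢ[ℝ] R3), ∫⁻ η : ℂ, P.Sg2 t x (v + J η) ≤
      ENNReal.ofReal (B * s * w) := fun v J =>
    (esg3_two (φ := fun u η => Ws u (v + J η)) (by positivity) (by positivity) hK hK'
      (fun u => (esg3_mW u).comp (measurable_const.add J.continuous.measurable))
      (fun u => (plane_Ws u v J).trans k6) fun η => h2 _).trans (le_add_self.trans hsum)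
  refine ⟨fun a h4 => ?_, fun v => (a1 v).trans hfin, a2.trans hfin, fun v => ?_⟩
  · have z : ∀ u : R3, ‖u‖ ≤ 2 → Ws u a = 0 := fun u hu => indicator_of_notMem (fun hc => by
      have := norm_le_norm_sub_add a u
      linarith [mem_closedBall_iff_norm.1 hc]) _
    rw [add_eq_zero]
    refine ⟨if_neg fun hc => absurd hc.1 (not_le.2 h4), le_zero_iff.1 ((h2 a).trans (le_of_eq ?_))⟩
    rw [Finset.sum_eq_zero fun u hu => z u (hKu u hu), Finset.sum_eq_zero fun u hu => z u (hKu' u hu),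
      add_zero, mul_zero]
  · have m12 : Measurable fun a => P.Sg1 t x a + P.Sg2 t x a := m1.add m2
    have q1 : Qp (P.Sg1 t x) (P.Sg1 t x) v ≤ ENNReal.ofReal (B * s * w) := by
      refine le_trans ?_ (le_self_add.trans hsum)
      rw [e1]
      refine (hq j j 0 4 _ _ hj hj (by norm_num) hjL hjL v).trans ?_
      rw [show ENNReal.ofReal (4 ^ 4) = 256 by norm_num]
      calc _ ≤ Cq * ENNReal.ofReal s * 1 * 256 := by
            gcongr
            exact ENNReal.ofReal_le_one.2 (hsT.trans hs1)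
        _ = ENNReal.ofReal s * (Cq * 256) := by ring
        _ ≤ _ := mul_le_mul_right k3 _
    have q2 : Qp (fun a => P.Sg1 t x a + P.Sg2 t x a) (P.Sg2 t x) v ≤
        2 * (ENNReal.ofReal (B * s * w) * ENNReal.ofReal (B * s * w)) := by
      refine (Qp_le_plane m12 m2 v (fun _ => ENNReal.ofReal (B * s * w)) fun a _ J _ => a3 v J).trans ?_
      rw [lintegral_mul_const' _ _ ENNReal.ofReal_ne_top]
      gcongr
      exact a1 v
    have q3 : Qp (P.Sg2 t x) (P.Sg1 t x) v ≤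
        2 * (ENNReal.ofReal (B * s * w) * ENNReal.ofReal (B * s * w)) := by
      rw [Qp_comm m2 m1]
      exact (Qp_mono (fun a => le_self_add) (fun _ => le_rfl) v).trans q2
    rw [Qp_add_right m12 m1 m2, Qp_add_left m1 m2 m1]
    refine (add_le_add (add_le_add q1 q3) q2).trans ?_
    rw [← ENNReal.ofReal_mul (by positivity), ← ENNReal.ofReal_ofNat 2,
      ← ENNReal.ofReal_mul (by norm_num), ← ENNReal.ofReal_add (by positivity) (by positivity),
      ← ENNReal.ofReal_add (by positivity) (by positivity), hw4]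
    refine ENNReal.ofReal_le_ofReal (le_trans ?_ (mul_le_mul_of_nonneg_right hs' (by positivity)))
    have b1 : B * s * w ≤ B * s * w ^ 2 := mul_le_mul_of_nonneg_left (by nlinarith) (by positivity)
    have b2 : B ^ 2 * s * w ^ 2 * s ≤ B ^ 2 * s * w ^ 2 := mul_le_of_le_one_right (by positivity) hs1
    nlinarith

private theorem esg3_exp (n : ℕ) : Real.exp n ≤ 3 ^ n := by
  rw [← Real.exp_one_pow]
  exact pow_le_pow_left₀ (Real.exp_pos _).le (by linarith [Real.exp_one_lt_d9]) n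

/-- `mono`: `Yt_char`, `Xl_char`, `wn_anti`, `Omn_anti`.  `lin` (prove it with `Kl/3`): `Qp_Gs_le`,
`Gs (-θ) ≤ e²` on `‖a‖ ≤ 4`, `M G_{-θ} ≤ G_{3/4}`, `As_Gs_le` for `t < τ`, `hole_small` for `t ≥ τ`.
`quad`: with `S₃ ≤ G_{1/4}`, `Qp Sg Sg ≤ Qp S S + 2 Qp Sg G_{1/4}` (`Qp_comm`), `Qp S S v = 0` for
`‖v‖ > 8` (`Qp_ball_zero`), `G_{1/4} ≥ e⁻⁸` on `‖v‖ ≤ 8`.  `freq`: `Nu_le_br`. -/
theorem sgHyp : ∃ C : ℝ, ∀ᶠ P in 𝓕, SgHyp C P.τ P.η P.T₁ P.Sg := by
  obtain ⟨CH, hCH, hH⟩ := As_Gs_le (θ := 3 / 4) (by norm_num)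
  have hCG := lintegral_br_Gs 1 (θ := 3 / 4) (by norm_num)
  simp only [pow_one] at hCG
  obtain ⟨CG, hG⟩ : ∃ CG, CG = ∫⁻ v, br v * Gs (3 / 4) v := ⟨_, rfl⟩
  rw [← hG] at hCG
  refine ⟨(2 * (80 * CH + 7 * CG)).toReal, ?_⟩
  filter_upwards [ev_ok, Sg12_le (c := 1 / 20000) (by norm_num),
    hole_small (c := 1 / 20000) (by norm_num)] with P h h12 hh
  have hη := h.η_pos
  have key : ∀ t, P.T₁ ≤ t → ∀ x, ∃ (S H : VF) (z J : ℝ≥0∞), Measurable S ∧ Measurable H ∧
      Kl (2 * (80 * CH + 7 * CG)).toReal P.τ P.η t = 2 * (80 * CH + 7 * CG) * J + 20000 * z ∧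
      (∀ a, P.Sg t x a ≤ S a + H a * Gs (1 / 4) a) ∧ (∀ a, H a ≤ 1) ∧ (∀ a, 4 < ‖a‖ → S a = 0) ∧
      (∀ v, As S v ≤ z) ∧ ∫⁻ a, S a ≤ z ∧ (∀ v, Qp S S v ≤ z) ∧ (∀ v, As H v ≤ CH * J + z) ∧
      ∫⁻ a, br a * H a ≤ CG * J + z := by
    intro t ht x
    have ht0 : 0 ≤ t := h.T₁_pos.le.trans ht
    obtain ⟨a1, a2, a3, a4⟩ := h12 t ht x
    have h1 : Measurable fun v : R3 => Yt t x v :=
      measurable_Yt.comp (f := fun v : R3 => (t, x, v)) (by fun_prop)
    have hle : ∀ a, (if ‖Yt t x a‖ < P.r₁ then Gs (3 / 4) a else 0) ≤ Gs (3 / 4) a := fun a => by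
      split_ifs
      exacts [le_rfl, zero_le]
    have hz : ENNReal.ofReal (1 / 20000 * P.η) ≤ ENNReal.ofReal (1 / 20000 * P.η * (1 + t) ^ 4) :=
      ENNReal.ofReal_le_ofReal (le_mul_of_one_le_right (by positivity) (one_le_pow₀ (by linarith)))
    refine ⟨_, fun a => if ‖Yt t x a‖ < P.r₁ then Gs (3 / 4) a else 0, _,
      if t < P.τ then 1 else 0, (esg3_m1 P t x).add (esg3_m2 P t x),
      Measurable.ite (measurableSet_lt h1.norm measurable_const) (a5_meas _) measurable_const,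
      ?_, fun a => ?_, fun a => (hle a).trans (Gs_le_one (by norm_num) a), a1, a2, a3, a4,
      fun v => ?_, ?_⟩
    · rw [Kl, ENNReal.ofReal_toReal (by finiteness), ← ENNReal.ofReal_ofNat 20000,
        ← ENNReal.ofReal_mul (by norm_num)]
      congr 1
      · split_ifs
        · rw [mul_one]
        · rw [mul_zero]
      · congr 1
        ring
    · refine add_le_add le_rfl ?_
      dsimp only
      split_ifs
      · rw [← Gs_add]
        exact Mx_le_Gs (by norm_num) a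
      · exact zero_le
    · split_ifs with hτ
      · rw [mul_one]
        exact (((As_mono hle v).trans (le_mul_of_one_le_left' (a5_one_le_br v))).trans (hH v)).trans
          le_self_add
      · exact (((hh t (not_lt.1 hτ) x).1 v).trans hz).trans le_add_self
    · split_ifs with hτ
      · rw [mul_one, hG]
        exact (lintegral_mono fun a => mul_le_mul_right (hle a) _).trans le_self_add
      · exact ((hh t (not_lt.1 hτ) x).2.trans hz).trans le_add_self
  have lin : ∀ {S H : VF} {z J : ℝ≥0∞}, Measurable S → Measurable H → (∀ a, 4 < ‖a‖ → S a = 0) →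
      (∀ v, As S v ≤ z) → (∀ v, As H v ≤ CH * J + z) → ∀ θ ∈ Icc (1 / 5 : ℝ) (1 / 4), ∀ v,
      Qp (fun a => S a + H a * Gs (1 / 4) a) (Gs θ) v ≤ (80 * CH * J + 800 * z) * Gs θ v := by
    intro S H z J mS mH h0 hS hH' θ hθ v
    have hθ0 : 0 < θ := lt_of_lt_of_le (by norm_num) hθ.1
    refine (Qp_Gs_le (mS.add (mH.mul (a5_meas _))) hθ0 v).trans ?_
    have b1 : ENNReal.ofReal (4 * Real.pi / θ) ≤ 80 := by
      rw [← ENNReal.ofReal_ofNat 80]
      refine ENNReal.ofReal_le_ofReal ?_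
      rw [div_le_iff₀ hθ0]
      linarith [Real.pi_le_four, hθ.1]
    have b2 : ∀ a, (S a + H a * Gs (1 / 4) a) * Gs (-θ) a ≤ 9 * S a + H a := fun a => by
      rw [add_mul]
      refine add_le_add ?_ ?_
      · by_cases ha : 4 < ‖a‖
        · rw [h0 a ha, zero_mul]
          exact zero_le
        rw [mul_comm, ← ENNReal.ofReal_ofNat 9]
        refine mul_le_mul_left (ENNReal.ofReal_le_ofReal ?_) _
        have c1 := pow_le_pow_left₀ (norm_nonneg a) (not_lt.1 ha) 2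
        have c2 : - -θ * ‖a‖ ^ 2 / 2 ≤ (2 : ℕ) := by
          push_cast
          nlinarith [hθ.2, sq_nonneg ‖a‖]
        exact (Real.exp_le_exp.2 c2).trans ((esg3_exp 2).trans (by norm_num))
      · rw [mul_assoc, ← Gs_add]
        exact mul_le_of_le_one_right' (Gs_le_one (by linarith [hθ.2]) a)
    have b3 := As_mono b2 v
    rw [As_add (mS.const_mul 9) mH, As_mul mS] at b3
    calc _ ≤ 80 * Gs θ v * (9 * z + (CH * J + z)) :=
          mul_le_mul' (mul_le_mul_left b1 _)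
            (b3.trans (add_le_add (mul_le_mul_right (hS v) _) (hH' v)))
      _ = _ := by ring
  refine ⟨P.meas_Sg, P.per_Sg, fun s t hs hst y v => ?_, fun t ht θ hθ x v => ?_,
    fun t ht x v => ?_, fun t ht x v => ?_⟩
  · have hs0 := h.T₁_pos.le.trans hs
    simp only [Par.Sg, Yt_char, Xl_char]
    gcongr
    · exact h.Omn_anti (h.wn_anti true hs0 hst _ v)
    · exact h.Omn_anti (h.wn_anti false hs0 hst _ v)
  · obtain ⟨S, H, z, J, mS, mH, hK, hle, -, h0, hS, -, -, hH', -⟩ := key t ht x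
    refine ((Qp_mono hle (fun _ => le_rfl) v).trans (lin mS mH h0 hS hH' θ hθ v)).trans ?_
    rw [hK]
    refine mul_le_mul_left ?_ _
    calc _ ≤ (80 * CH * J + 800 * z) + ((80 * CH + 14 * CG) * J + 19200 * z) := le_self_add
      _ = _ := by ring
  · obtain ⟨S, H, z, J, mS, mH, hK, hle, h1, h0, hS, -, hQ, hH', -⟩ := key t ht x
    have mG := a5_meas (1 / 4)
    have mHG : Measurable fun a => H a * Gs (1 / 4) a := mH.mul mG
    have mA : Measurable fun a => S a + H a * Gs (1 / 4) a := mS.add mHG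
    have hHG : ∀ a, H a * Gs (1 / 4) a ≤ Gs (1 / 4) a := fun a => mul_le_of_le_one_left' (h1 a)
    have q0 := lin mS mH h0 hS hH' (1 / 4) ⟨by norm_num, le_rfl⟩ v
    have q1 : Qp S S v ≤ 6561 * z * Gs (1 / 4) v := by
      by_cases hv : 2 * 4 < ‖v - 0‖
      · have hs : ∀ a, S a ≠ 0 → ‖a - 0‖ ≤ 4 := fun a ha => by
          rw [sub_zero]
          exact not_lt.1 fun hc => ha (h0 a hc)
        rw [Qp_ball_zero hs hs hv]
        exact zero_le
      rw [sub_zero, not_lt] at hv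
      rw [mul_right_comm]
      refine (hQ v).trans (le_mul_of_one_le_left' ?_)
      rw [Gs, ← ENNReal.ofReal_ofNat 6561, ← ENNReal.ofReal_mul (by norm_num), ENNReal.one_le_ofReal]
      have c1 := pow_le_pow_left₀ (norm_nonneg v) hv 2
      have c2 : 0 ≤ (8 : ℕ) + -(1 / 4) * ‖v‖ ^ 2 / 2 := by
        push_cast
        linarith
      have c3 := Real.one_le_exp c2
      rw [Real.exp_add] at c3
      exact c3.trans (mul_le_mul_of_nonneg_right ((esg3_exp 8).trans (by norm_num))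
        (Real.exp_pos _).le)
    have q2 : Qp (fun a => H a * Gs (1 / 4) a) S v ≤ (80 * CH * J + 800 * z) * Gs (1 / 4) v := by
      rw [Qp_comm mHG mS]
      exact (Qp_mono (fun a => le_self_add) hHG v).trans q0
    refine (Qp_mono hle hle v).trans ?_
    rw [Qp_add_right mA mS mHG, Qp_add_left mS mHG mS, hK]
    refine (add_le_add (add_le_add q1 q2) ((Qp_mono (fun _ => le_rfl) hHG v).trans q0)).trans ?_
    rw [← add_mul, ← add_mul]
    refine mul_le_mul_left ?_ _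
    calc _ ≤ (6561 * z + (80 * CH * J + 800 * z) + (80 * CH * J + 800 * z)) +
          (14 * CG * J + 11839 * z) := le_self_add
      _ = _ := by ring
  · obtain ⟨S, H, z, J, mS, mH, hK, hle, -, h0, -, hS, -, -, hH'⟩ := key t ht x
    refine (Nu_le_br (P.meas_Sg.slice t x) v).trans ?_
    rw [mul_right_comm, hK]
    refine mul_le_mul_left ?_ _
    have b1 : ∫⁻ a, br a * P.Sg t x a ≤ 5 * z + (CG * J + z) := by
      calc _ ≤ ∫⁻ a, (5 * S a + br a * H a) := by
            refine lintegral_mono fun a => (mul_le_mul_right (hle a) _).trans ?_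
            rw [mul_add]
            refine add_le_add ?_
              (mul_le_mul_right (mul_le_of_le_one_right' (Gs_le_one (by norm_num) a)) _)
            by_cases ha : 4 < ‖a‖
            · rw [h0 a ha, mul_zero]
              exact zero_le
            rw [← ENNReal.ofReal_ofNat 5]
            exact mul_le_mul_left (ENNReal.ofReal_le_ofReal (by linarith [not_lt.1 ha])) _
        _ ≤ _ := by
            rw [lintegral_add_left (mS.const_mul 5), lintegral_const_mul _ mS]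
            gcongr
    calc _ ≤ 7 * (5 * z + (CG * J + z)) := mul_le_mul_right b1 _
      _ ≤ 7 * (5 * z + (CG * J + z)) + ((160 * CH + 7 * CG) * J + 19958 * z) := le_self_add
      _ = _ := by ring

end

end Crest.Agent.R68
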