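import Crest.Agent.R68.EGeo
import Crest.Agent.R68.EMeas
import Crest.Agent.R68.A2

/-!
# R68 (S0091): a straight line spends a fixed fraction of its time in the core sectors
-/

set_option autoImplicit false

namespace Crest.Agent.R68

open MeasureTheory Set Filter Crest.AnalysisR.VecCalc3 Crest.AnalysisR.PDE.Boltzmann
open scoped ENNReal _root_.Topology

noncomputable section

theorem etrig_ne {X₀ ζ : ℂ} (hw : wd X₀ ζ ≠ 0) (u : ℝ) : X₀ + u • ζ ≠ 0 := fun h => by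
  have := wd_add_smul X₀ ζ u
  rw [h] at this
  exact hw (by rw [← this]; simp [wd])

theorem etrig_dX (X₀ ζ : ℂ) (u : ℝ) : HasDerivAt (fun u : ℝ => X₀ + u • ζ) ζ u := by
  simpa using ((hasDerivAt_id u).smul_const ζ).const_add X₀

theorem etrig_dn {X₀ ζ : ℂ} (hw : wd X₀ ζ ≠ 0) (u : ℝ) :
    HasDerivAt (fun u : ℝ => ‖X₀ + u • ζ‖) (inner ℝ (X₀ + u • ζ) ζ / ‖X₀ + u • ζ‖) u := by
  have h0 : ‖X₀ + u • ζ‖ ≠ 0 := norm_ne_zero_iff.2 (etrig_ne hw u)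
  have h1 := ((etrig_dX X₀ ζ u).norm_sq).sqrt (pow_ne_zero 2 h0)
  simp only [Real.sqrt_sq (norm_nonneg _)] at h1
  convert h1 using 1
  field_simp

theorem etrig_key (X ζ : ℂ) :
    ζ * (‖X‖ : ℂ) ^ 2 = X * ((inner ℝ X ζ : ℝ) + Complex.I * (wd X ζ : ℝ)) := by
  have h : ((‖X‖ : ℂ)) ^ 2 = ((X.re * X.re + X.im * X.im : ℝ) : ℂ) := by
    rw [← Complex.ofReal_pow, Complex.sq_norm, Complex.normSq_apply]
  rw [h]
  apply Complex.ext <;> simp [wd, Complex.inner] <;> ring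

theorem etrig_dG {X₀ ζ : ℂ} (hw : wd X₀ ζ ≠ 0) {k : ℕ} (hk : 1 ≤ k) (u : ℝ) :
    HasDerivAt (fun u : ℝ => ((X₀ + u • ζ) / ‖X₀ + u • ζ‖) ^ k * ‖X₀ + u • ζ‖)
      (Complex.I * k * (wd X₀ ζ : ℝ) * (((X₀ + u • ζ) / ‖X₀ + u • ζ‖) ^ k / ‖X₀ + u • ζ‖) +
        ((X₀ + u • ζ) / ‖X₀ + u • ζ‖) ^ k * (inner ℝ (X₀ + u • ζ) ζ / ‖X₀ + u • ζ‖ : ℝ)) u := by
  have h0 : ((‖X₀ + u • ζ‖ : ℝ) : ℂ) ≠ 0 := by exact_mod_cast norm_ne_zero_iff.2 (etrig_ne hw u)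
  have hn := (etrig_dn hw u).ofReal_comp
  have he := ((etrig_dX X₀ ζ u).div hn h0).pow k
  have := he.mul hn
  refine HasDerivAt.congr_deriv this ?_
  obtain ⟨j, rfl⟩ : ∃ j, k = j + 1 := ⟨k - 1, by omega⟩
  have hk := etrig_key (X₀ + u • ζ) ζ
  rw [wd_add_smul] at hk
  simp only [Nat.add_sub_cancel, Pi.pow_apply, Pi.div_apply]
  generalize X₀ + u • ζ = X at *
  congr 1
  push_cast
  rw [pow_succ (X / (‖X‖ : ℂ)) j]
  generalize (X / (‖X‖ : ℂ)) ^ j = E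
  field_simp
  linear_combination E * hk

theorem etrig_cont {X₀ ζ : ℂ} (hw : wd X₀ ζ ≠ 0) :
    Continuous fun u : ℝ => (X₀ + u • ζ) / (‖X₀ + u • ζ‖ : ℂ) :=
  Continuous.div (by fun_prop) (by fun_prop)
    fun u => by exact_mod_cast norm_ne_zero_iff.2 (etrig_ne hw u)

theorem etrig_cont' {X₀ ζ : ℂ} (hw : wd X₀ ζ ≠ 0) (k : ℕ) :
    Continuous fun u : ℝ => ((X₀ + u • ζ) / (‖X₀ + u • ζ‖ : ℂ)) ^ k / (‖X₀ + u • ζ‖ : ℂ) :=
  Continuous.div ((etrig_cont hw).pow k) (by fun_prop)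
    fun u => by exact_mod_cast norm_ne_zero_iff.2 (etrig_ne hw u)

theorem etrig_unit {X : ℂ} (hX : X ≠ 0) : ‖X / (‖X‖ : ℂ)‖ = 1 := by
  rw [norm_div, Complex.norm_real, norm_norm, div_self (norm_ne_zero_iff.2 hX)]

theorem etrig_pt {X : ℂ} (hX : X ≠ 0) (m : ℕ) (ε : Bool) :
    1 / ‖X‖ ≤ 6 * (Sec m ε (1 / 4)).indicator (fun X => 1 / ‖X‖) X +
      (2 * ((X / ‖X‖) ^ (2 * m) / ‖X‖).re - 3 * sg ε * ((X / ‖X‖) ^ m / ‖X‖).im) := by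
  have hn : 0 < ‖X‖ := norm_pos_iff.2 hX
  set E := (X / (‖X‖ : ℂ)) ^ m with hE
  have hE1 : ‖E‖ = 1 := by rw [hE, norm_pow, etrig_unit hX, one_pow]
  have h1 : E.re * E.re + E.im * E.im = 1 := by
    rw [← Complex.normSq_apply, ← Complex.sq_norm, hE1]; norm_num
  have h2 : (X / (‖X‖ : ℂ)) ^ (2 * m) = E * E := by rw [hE, two_mul, pow_add]
  have h3 : (X ^ m).im = ‖X‖ ^ m * E.im := by
    have : X ^ m = ((‖X‖ ^ m : ℝ) : ℂ) * E := by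
      rw [hE, div_pow]; push_cast
      have : (‖X‖ : ℂ) ≠ 0 := by exact_mod_cast hn.ne'
      field_simp
    rw [this, Complex.im_ofReal_mul]
  rw [h2, Complex.div_ofReal_re, Complex.div_ofReal_im, Complex.mul_re]
  have hs := sg_sq ε
  set s := sg ε * E.im with hsd
  have hs2 : s ^ 2 = E.im * E.im := by rw [hsd, mul_pow, hs]; ring
  have hs1 : s ^ 2 ≤ 1 := by nlinarith [mul_self_nonneg E.re]
  have hs3 : -1 ≤ s ∧ s ≤ 1 := abs_le.1 (by rwa [← sq_le_one_iff_abs_le_one])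
  have e : 2 * ((E.re * E.re - E.im * E.im) / ‖X‖) - 3 * sg ε * (E.im / ‖X‖) =
      (2 - 4 * s ^ 2 - 3 * s) * (1 / ‖X‖) := by
    rw [hs2, hsd, show E.re * E.re = 1 - E.im * E.im by linarith]; ring
  rw [e]
  have hi : 0 < 1 / ‖X‖ := by positivity
  by_cases hm : X ∈ Sec m ε (1 / 4)
  · rw [indicator_of_mem hm]
    nlinarith [mul_nonneg (show 0 ≤ 7 - 4 * s ^ 2 - 3 * s by linarith [hs3.2]) hi.le]
  · rw [indicator_of_notMem hm]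
    have h4 : s < 1 / 4 := by
      by_contra hc
      refine hm ?_
      change 1 / 4 * ‖X‖ ^ m ≤ sg ε * (X ^ m).im
      rw [h3]
      have : 0 < ‖X‖ ^ m := by positivity
      nlinarith [not_lt.1 hc]
    nlinarith [mul_nonneg (mul_nonneg (show 0 ≤ 1 - 4 * s by linarith)
      (show 0 ≤ s + 1 by linarith [hs3.1])) hi.le]

/-- Integration by parts: with `X(u) = X₀ + uζ ≠ 0`, `e(u) = X/‖X‖`, `w = wd X₀ ζ`:
`e' = i (w/‖X‖²) e`, so `e^k/‖X‖ = (e^k)' ‖X‖/(i k w)`, and `|(‖X‖)'| ≤ ‖ζ‖`. -/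
theorem osc_le {X₀ ζ : ℂ} (hw : wd X₀ ζ ≠ 0) {k : ℕ} (hk : 1 ≤ k) {u₁ u₂ D : ℝ} (h12 : u₁ ≤ u₂)
    (hD : ∀ u ∈ Icc u₁ u₂, ‖X₀ + u • ζ‖ ≤ D) :
    ‖∫ u in u₁..u₂, ((X₀ + u • ζ) / ‖X₀ + u • ζ‖) ^ k / ‖X₀ + u • ζ‖‖ ≤
      (2 * D + ‖ζ‖ * (u₂ - u₁)) / (k * |wd X₀ ζ|) := by
  have hk0 : (0 : ℝ) < k := by exact_mod_cast hk
  have hw0 : 0 < |wd X₀ ζ| := abs_pos.2 hw
  have c2 : Continuous fun u : ℝ => ((X₀ + u • ζ) / (‖X₀ + u • ζ‖ : ℂ)) ^ k *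
      (inner ℝ (X₀ + u • ζ) ζ / ‖X₀ + u • ζ‖ : ℝ) :=
    ((etrig_cont hw).pow k).mul (Complex.continuous_ofReal.comp (Continuous.div (by fun_prop)
      (by fun_prop) fun u => norm_ne_zero_iff.2 (etrig_ne hw u)))
  have c1 := etrig_cont' hw k
  have h1 := intervalIntegral.integral_eq_sub_of_hasDerivAt (a := u₁) (b := u₂)
    (fun u _ => etrig_dG hw hk u) (((c1.const_mul _).add c2).intervalIntegrable _ _)
  rw [intervalIntegral.integral_add ((c1.const_mul _).intervalIntegrable _ _)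
    (c2.intervalIntegrable _ _), intervalIntegral.integral_const_mul] at h1
  have h2 : ‖∫ u in u₁..u₂, ((X₀ + u • ζ) / (‖X₀ + u • ζ‖ : ℂ)) ^ k *
      (inner ℝ (X₀ + u • ζ) ζ / ‖X₀ + u • ζ‖ : ℝ)‖ ≤ ‖ζ‖ * |u₂ - u₁| := by
    refine intervalIntegral.norm_integral_le_of_norm_le_const fun u _ => ?_
    have hn := norm_pos_iff.2 (etrig_ne hw u)
    rw [norm_mul, norm_pow, etrig_unit (etrig_ne hw u), one_pow, one_mul, Complex.norm_real,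
      Real.norm_eq_abs, abs_div, abs_norm, div_le_iff₀ hn, mul_comm]
    exact abs_real_inner_le_norm _ _
  have h3 : ∀ u ∈ Icc u₁ u₂, ‖((X₀ + u • ζ) / (‖X₀ + u • ζ‖ : ℂ)) ^ k * ‖X₀ + u • ζ‖‖ ≤ D := by
    intro u hu
    rw [norm_mul, norm_pow, etrig_unit (etrig_ne hw u), one_pow, one_mul, Complex.norm_real,
      norm_norm]
    exact hD u hu
  rw [le_div_iff₀ (by positivity)]
  have h4 := eq_sub_of_add_eq h1
  have h5 := congrArg norm h4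
  rw [norm_mul, norm_mul, norm_mul, Complex.norm_I, Complex.norm_natCast, Complex.norm_real,
    Real.norm_eq_abs, one_mul] at h5
  rw [mul_comm, h5]
  refine (norm_sub_le _ _).trans (add_le_add ((norm_sub_le _ _).trans ?_) ?_)
  · linarith [h3 u₁ ⟨le_rfl, h12⟩, h3 u₂ ⟨h12, le_rfl⟩]
  · rwa [abs_of_nonneg (sub_nonneg.2 h12)] at h2

/-- for `s = sg ε · Im e^m ∈ [-1,1]`: `1_{s ≥ 1/4} ≥ (2/3)(s - 1/4)(s + 1) = 1/6 + s/2 - (Re e^{2m})/3`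
(`s² = (1 - Re e^{2m})/2`); `osc_le` with `k = m` and `k = 2m`. -/
theorem trig_lower {X₀ ζ : ℂ} (hw : wd X₀ ζ ≠ 0) {m : ℕ} (hm : 1 ≤ m) (ε : Bool) {u₁ u₂ D : ℝ}
    (h12 : u₁ ≤ u₂) (hD : ∀ u ∈ Icc u₁ u₂, ‖X₀ + u • ζ‖ ≤ D) :
    ∫⁻ u in Ioo u₁ u₂, ENNReal.ofReal (1 / ‖X₀ + u • ζ‖) ≤
      6 * (∫⁻ u in Ioo u₁ u₂,
        (Sec m ε (1 / 4)).indicator (fun X => ENNReal.ofReal (1 / ‖X‖)) (X₀ + u • ζ)) +
      ENNReal.ofReal (6 * (2 * D + ‖ζ‖ * (u₂ - u₁)) / (m * |wd X₀ ζ|)) := by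
  have hm0 : (0 : ℝ) < m := by exact_mod_cast hm
  have hw0 : 0 < |wd X₀ ζ| := abs_pos.2 hw
  have hD0 : 0 ≤ D := (norm_nonneg _).trans (hD u₁ ⟨le_rfl, h12⟩)
  have hE : 0 ≤ 2 * D + ‖ζ‖ * (u₂ - u₁) := by have := sub_nonneg.2 h12; positivity
  have o1 := osc_le hw hm h12 hD
  have o2 := osc_le hw (k := 2 * m) (by omega) h12 hD
  have c0 : Continuous fun u : ℝ => 1 / ‖X₀ + u • ζ‖ :=
    Continuous.div continuous_const (by fun_prop) fun u => norm_ne_zero_iff.2 (etrig_ne hw u)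
  have i0 : IntegrableOn (fun u : ℝ => 1 / ‖X₀ + u • ζ‖) (Ioo u₁ u₂) :=
    (c0.integrableOn_Icc (a := u₁) (b := u₂)).mono_set Ioo_subset_Icc_self
  have mS : MeasurableSet {u : ℝ | X₀ + u • ζ ∈ Sec m ε (1 / 4)} :=
    (by fun_prop : Measurable fun u : ℝ => X₀ + u • ζ) (measurableSet_Sec m ε (1 / 4))
  have i1 : IntegrableOn (fun u : ℝ => (Sec m ε (1 / 4)).indicator (fun X => 1 / ‖X‖) (X₀ + u • ζ))
      (Ioo u₁ u₂) := (i0.indicator mS).congr_fun (fun u _ => by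
        by_cases hu : X₀ + u • ζ ∈ Sec m ε (1 / 4)
        · rw [indicator_of_mem hu, indicator_of_mem (by exact hu)]
        · rw [indicator_of_notMem hu, indicator_of_notMem (by exact hu)]) measurableSet_Ioo
  have j : ∀ k : ℕ, IntegrableOn (fun u : ℝ =>
      ((X₀ + u • ζ) / (‖X₀ + u • ζ‖ : ℂ)) ^ k / (‖X₀ + u • ζ‖ : ℂ)) (Ioo u₁ u₂) := fun k =>
    ((etrig_cont' hw k).integrableOn_Icc (a := u₁) (b := u₂)).mono_set Ioo_subset_Icc_self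
  rw [intervalIntegral.integral_of_le h12, integral_Ioc_eq_integral_Ioo] at o1 o2
  have r2 := integral_re (𝕜 := ℂ) (j (2 * m))
  have r1 := integral_im (𝕜 := ℂ) (j m)
  simp only [RCLike.re_to_complex, RCLike.im_to_complex] at r1 r2
  have j2 : IntegrableOn (fun u : ℝ =>
      (((X₀ + u • ζ) / (‖X₀ + u • ζ‖ : ℂ)) ^ (2 * m) / (‖X₀ + u • ζ‖ : ℂ)).re) (Ioo u₁ u₂) :=
    (j (2 * m)).re
  have j1 : IntegrableOn (fun u : ℝ =>
      (((X₀ + u • ζ) / (‖X₀ + u • ζ‖ : ℂ)) ^ m / (‖X₀ + u • ζ‖ : ℂ)).im) (Ioo u₁ u₂) := (j m).im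
  have main : ∫ u in Ioo u₁ u₂, 1 / ‖X₀ + u • ζ‖ ≤
      6 * (∫ u in Ioo u₁ u₂, (Sec m ε (1 / 4)).indicator (fun X => 1 / ‖X‖) (X₀ + u • ζ)) +
        6 * (2 * D + ‖ζ‖ * (u₂ - u₁)) / (m * |wd X₀ ζ|) := by
    have a1 := setIntegral_mono_on i0 ((i1.const_mul 6).add ((j2.const_mul 2).sub
      (j1.const_mul (3 * sg ε)))) measurableSet_Ioo fun u _ => etrig_pt (etrig_ne hw u) m ε
    simp only [Pi.add_apply, Pi.sub_apply] at a1
    have j3 : Integrable (fun u : ℝ =>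
        2 * (((X₀ + u • ζ) / (‖X₀ + u • ζ‖ : ℂ)) ^ (2 * m) / (‖X₀ + u • ζ‖ : ℂ)).re -
        3 * sg ε * (((X₀ + u • ζ) / (‖X₀ + u • ζ‖ : ℂ)) ^ m / (‖X₀ + u • ζ‖ : ℂ)).im)
        (volume.restrict (Ioo u₁ u₂)) := (j2.const_mul 2).sub (j1.const_mul (3 * sg ε))
    rw [integral_add (i1.const_mul 6) j3,
      integral_sub (j2.const_mul 2) (j1.const_mul (3 * sg ε)), integral_const_mul,
      integral_const_mul, integral_const_mul, r1, r2] at a1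
    refine a1.trans (add_le_add_right ?_ _)
    set Z₂ := ∫ u in Ioo u₁ u₂, ((X₀ + u • ζ) / (‖X₀ + u • ζ‖ : ℂ)) ^ (2 * m) / (‖X₀ + u • ζ‖ : ℂ)
    set Z₁ := ∫ u in Ioo u₁ u₂, ((X₀ + u • ζ) / (‖X₀ + u • ζ‖ : ℂ)) ^ m / (‖X₀ + u • ζ‖ : ℂ)
    have b2 : Z₂.re ≤ ‖Z₂‖ := Complex.re_le_norm _
    have b1 : -(sg ε * Z₁.im) ≤ ‖Z₁‖ := by
      refine (neg_le_abs _).trans ?_
      rw [abs_mul, abs_sg, one_mul]; exact Complex.abs_im_le_norm _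
    have b3 : (2 * D + ‖ζ‖ * (u₂ - u₁)) / (((2 * m : ℕ) : ℝ) * |wd X₀ ζ|) =
        (2 * D + ‖ζ‖ * (u₂ - u₁)) / (m * |wd X₀ ζ|) / 2 := by push_cast; field_simp
    have b4 : 0 ≤ (2 * D + ‖ζ‖ * (u₂ - u₁)) / (m * |wd X₀ ζ|) := by positivity
    rw [b3] at o2
    rw [mul_div_assoc]
    linarith
  have n1 : ∀ u : ℝ, 0 ≤ (Sec m ε (1 / 4)).indicator (fun X : ℂ => 1 / ‖X‖) (X₀ + u • ζ) :=
    fun u => indicator_nonneg (fun _ _ => by positivity) _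
  rw [← ofReal_integral_eq_lintegral_ofReal i0 (Eventually.of_forall fun u => by positivity)]
  have e1 : ∫⁻ u in Ioo u₁ u₂,
      (Sec m ε (1 / 4)).indicator (fun X => ENNReal.ofReal (1 / ‖X‖)) (X₀ + u • ζ) =
      ENNReal.ofReal (∫ u in Ioo u₁ u₂,
        (Sec m ε (1 / 4)).indicator (fun X => 1 / ‖X‖) (X₀ + u • ζ)) := by
    rw [ofReal_integral_eq_lintegral_ofReal i1 (Eventually.of_forall n1)]
    refine lintegral_congr fun u => ?_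
    by_cases hu : X₀ + u • ζ ∈ Sec m ε (1 / 4)
    · rw [indicator_of_mem hu, indicator_of_mem hu]
    · rw [indicator_of_notMem hu, indicator_of_notMem hu, ENNReal.ofReal_zero]
  rw [e1, ← ENNReal.ofReal_ofNat 6, ← ENNReal.ofReal_mul (by norm_num),
    ← ENNReal.ofReal_add (mul_nonneg (by norm_num) (integral_nonneg n1)) (by positivity)]
  exact ENNReal.ofReal_le_ofReal main

/-- two points of the set are at distance `≤ 2c/‖ζ‖` (`Real.volume_le_diam`) -/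
theorem volume_hole (X₀ : ℂ) {ζ : ℂ} (hζ : ζ ≠ 0) {c : ℝ} (hc : 0 ≤ c) :
    volume {u : ℝ | ‖X₀ + u • ζ‖ ≤ c} ≤ ENNReal.ofReal (2 * c / ‖ζ‖) := by
  refine (Real.volume_le_diam _).trans (Metric.ediam_le fun a ha b hb => ?_)
  rw [edist_dist, Real.dist_eq]
  refine ENNReal.ofReal_le_ofReal ?_
  rw [le_div_iff₀ (norm_pos_iff.2 hζ)]
  have e : (a - b) • ζ = (X₀ + a • ζ) - (X₀ + b • ζ) := by rw [sub_smul]; abel
  have h1 : |a - b| * ‖ζ‖ = ‖(a - b) • ζ‖ := by rw [norm_smul, Real.norm_eq_abs]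
  rw [h1, e]
  have ha' : ‖X₀ + a • ζ‖ ≤ c := ha
  have hb' : ‖X₀ + b • ζ‖ ≤ c := hb
  linarith [norm_sub_le (X₀ + a • ζ) (X₀ + b • ζ)]

/-- the set where a line is inside a linearly growing disc is an interval (convexity of
`u ↦ ‖X₀ + uζ‖ - (p + q u)`); take `a`, `b` its infimum and supremum in `[u₁, u₂]` -/
theorem exists_hole (X₀ ζ : ℂ) (p q : ℝ) {u₁ u₂ : ℝ} (h12 : u₁ ≤ u₂) :
    ∃ a b : ℝ, u₁ ≤ a ∧ a ≤ b ∧ b ≤ u₂ ∧
      (∀ u ∈ Ioo u₁ a, p + q * u ≤ ‖X₀ + u • ζ‖) ∧ (∀ u ∈ Ioo a b, ‖X₀ + u • ζ‖ < p + q * u) ∧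
      ∀ u ∈ Ioo b u₂, p + q * u ≤ ‖X₀ + u • ζ‖ := by
  set S := {u ∈ Icc u₁ u₂ | ‖X₀ + u • ζ‖ < p + q * u} with hS
  rcases S.eq_empty_or_nonempty with h0 | hne
  · refine ⟨u₁, u₁, le_rfl, le_rfl, h12, by simp, by simp, fun u hu => ?_⟩
    by_contra hc
    have : u ∈ S := ⟨Ioo_subset_Icc_self hu, not_le.1 hc⟩
    rw [h0] at this; exact this
  have ba : BddAbove S := ⟨u₂, fun u hu => hu.1.2⟩
  have bb : BddBelow S := ⟨u₁, fun u hu => hu.1.1⟩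
  have h1 : u₁ ≤ sInf S := le_csInf hne fun u hu => hu.1.1
  have h2 : sSup S ≤ u₂ := csSup_le hne fun u hu => hu.1.2
  have h3 : sInf S ≤ sSup S := csInf_le_csSup hne bb ba
  refine ⟨sInf S, sSup S, h1, h3, h2, fun u hu => ?_, fun u hu => ?_, fun u hu => ?_⟩
  · by_contra hc
    exact absurd (csInf_le bb ⟨⟨hu.1.le, hu.2.le.trans (h3.trans h2)⟩, not_le.1 hc⟩) (not_le.2 hu.2)
  · obtain ⟨a, ha, hau⟩ := exists_lt_of_csInf_lt hne hu.1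
    obtain ⟨b, hb, hub⟩ := exists_lt_of_lt_csSup hne hu.2
    have hab : 0 < b - a := by linarith
    have e : X₀ + u • ζ = ((b - u) / (b - a)) • (X₀ + a • ζ) + ((u - a) / (b - a)) • (X₀ + b • ζ) := by
      have hc : ((b : ℂ) - a) ≠ 0 := by exact_mod_cast hab.ne'
      simp only [Complex.real_smul]; push_cast; field_simp; ring
    have l1 : 0 < (b - u) / (b - a) := div_pos (by linarith) hab
    have l2 : 0 < (u - a) / (b - a) := div_pos (by linarith) hab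
    rw [e]
    refine (norm_add_le _ _).trans_lt ?_
    rw [norm_smul, norm_smul, Real.norm_of_nonneg l1.le, Real.norm_of_nonneg l2.le]
    calc _ < (b - u) / (b - a) * (p + q * a) + (u - a) / (b - a) * (p + q * b) := by
          gcongr; exacts [ha.2, hb.2]
      _ = p + q * u := by field_simp; ring
  · by_contra hc
    exact absurd (le_csSup ba ⟨⟨(h1.trans h3).trans hu.1.le, hu.2.le⟩, not_le.1 hc⟩) (not_le.2 hu.1)

end

end Crest.Agent.R68
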