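import Crest.Agent.R68.GuoA

/-!
# R68 (S0091): late phase, one Duhamel step (owner helper48)
-/

set_option autoImplicit false

namespace Crest.Agent.R68

open MeasureTheory Set Filter Crest.AnalysisR.VecCalc3 Crest.AnalysisR.PDE.Boltzmann
open scoped ENNReal _root_.Topology

noncomputable section

/-- the small error of one Duhamel step -/
def e1 (c : ℝ≥0∞) (C b τ η μ : ℝ) (δ : ℝ≥0∞) : ℝ≥0∞ :=
  ENNReal.ofReal η + c * ((ENNReal.ofReal C + δ + 1) * ENNReal.ofReal √τ +
    (δ + ENNReal.ofReal b ^ 2) * ENNReal.ofReal μ⁻¹)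

theorem guoB_le {A M e a₀ : ℝ≥0∞} {a Q P E : ℝ → ℝ≥0∞} {I : Set ℝ} (hI : MeasurableSet I)
    (hP : Measurable fun s => a s * P s) (h0 : A ≤ M + e) (h : ∀ s ∈ I, Q s ≤ P s + E s) :
    A * a₀ + ∫⁻ s in I, a s * Q s ≤
      M * a₀ + (∫⁻ s in I, a s * P s) + (e * a₀ + ∫⁻ s in I, a s * E s) := by
  have h1 : ∫⁻ s in I, a s * Q s ≤ (∫⁻ s in I, a s * P s) + ∫⁻ s in I, a s * E s := by
    rw [← lintegral_add_left hP]
    refine setLIntegral_mono' hI fun s hs => ?_
    rw [← mul_add]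
    exact mul_le_mul' le_rfl (h s hs)
  calc A * a₀ + ∫⁻ s in I, a s * Q s
      ≤ (M + e) * a₀ + ((∫⁻ s in I, a s * P s) + ∫⁻ s in I, a s * E s) := by gcongr
    _ = _ := by ring

theorem guoB_one_le_br (v : R3) : 1 ≤ br v := by
  rw [br, ← ENNReal.ofReal_one]
  exact ENNReal.ofReal_le_ofReal (by linarith [norm_nonneg v])

theorem guoB_Hz_ge {C : PF} {μ τ s t : ℝ} {y v : R3} (hμ : 0 ≤ μ) (hs : τ ≤ s)
    (h : ∀ s, τ < s → ∀ x v, ENNReal.ofReal μ * br v ≤ Nu (C s x) v) :
    ENNReal.ofReal (μ * (1 + ‖v‖) * (t - s)) ≤ Hz C y v s t := by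
  rw [ENNReal.ofReal_mul (by positivity), ENNReal.ofReal_mul hμ, ← Real.volume_Ioo,
    ← setLIntegral_const]
  exact setLIntegral_mono' measurableSet_Ioo fun u hu => h u (hs.trans_lt hu.1) _ _

theorem guo_step : ∃ c : ℝ≥0∞, c ≠ ⊤ ∧
    ∀ (C ν b τ η T₁ μ : ℝ) (δ n : ℝ≥0∞) (Sg F lo hi : PF) (f : XF),
      Ctx C ν b τ η T₁ δ n Sg F lo hi f → 0 < μ → ν ≤ μ →
      (∀ s, τ < s → ∀ x v, ENNReal.ofReal μ * br v ≤ Nu (clamp lo hi F s x) v) →
      ∀ t, T₁ < t → ∀ y v, Near (F t (y + t • v) v) (Mx v) (Dd ν τ t * Sg t (y + t • v) v +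
        (e1 c C b τ η μ δ + c * ∫⁻ s in Ioo τ t, ex (μ * (1 + ‖v‖)) (t - s) *
          Kc (uu ν τ Sg (clamp lo hi F) s (y + s • v)) v) * Gw τ t v) := by
  obtain ⟨c₀, hc₀, herr⟩ := guo_err
  obtain ⟨cN, hcN, hN⟩ := Nu_Gs_le (θ := 1 / 5) (by norm_num)
  refine ⟨3 * c₀ * (1 + Kt), by finiteness [Kt_ne_top], ?_⟩
  intro C ν b τ η T₁ μ δ n Sg F lo hi f h hμ hν hfr t ht y v
  have hcc : c₀ ≤ 3 * c₀ * (1 + Kt) :=
    calc c₀ = 1 * c₀ * 1 := by ring
      _ ≤ _ := by gcongr <;> simp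
  set Cl := clamp lo hi F with hCl
  have mCl : Meas Cl := Meas.clamp h.ml h.mh h.mF
  set u := uu ν τ Sg Cl with hu
  have mu : Meas u := Meas.uu h.sg.meas mCl
  have hT0 := h.T0
  have hτ0 : 0 ≤ τ := hT0.le.trans h.Tτ
  have mX : Measurable fun s : ℝ => y + s • v := by fun_prop
  have mC' : Measurable fun p : ℝ × R3 => Cl p.1 (y + p.1 • v) p.2 :=
    mCl.comp (f := fun p : ℝ × R3 => (p.1, y + p.1 • v, p.2)) (by fun_prop)
  have mN : Measurable fun s : ℝ => Nu (Cl s (y + s • v)) v := measurable_Nu mC' measurable_const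
  have mQ : Measurable fun s : ℝ => Qp (Cl s (y + s • v)) (Cl s (y + s • v)) v :=
    measurable_Qp mC' mC' measurable_const
  have ma : Measurable fun s : ℝ => att (Hz Cl y v s t) :=
    measurable_att.comp (measurable_Hz mCl measurable_const measurable_const measurable_id
      measurable_const)
  have hb1 : ENNReal.ofReal b ≤ 1 := ENNReal.ofReal_le_one.2 h.b1
  have hfin : ∫⁻ s in Ioo T₁ t, Nu (Cl s (y + s • v)) v ≠ ⊤ := by
    refine ne_top_of_le_ne_top (b := ∫⁻ _ in Ioo T₁ t, n * (cN * br v)) ?_ ?_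
    · rw [setLIntegral_const, Real.volume_Ioo]
      have := h.hn
      unfold br
      finiteness
    · refine setLIntegral_mono' measurableSet_Ioo fun s hs => ?_
      have h1 : ∀ a, Cl s (y + s • v) a ≤ n * Gs (1 / 5) a := fun a =>
        (clamp_le (by
          rw [(h.hlh s hs.1 _ _).1, (h.hlh s hs.1 _ _).2]
          exact tsub_le_self.trans le_self_add)).trans (h.hhi s _ _ (hT0.trans hs.1))
      refine (Nu_mono h1 v).trans ?_
      rw [Nu_mul (f := Gs (1 / 5)) (measurable_Gs.comp (f := fun a : R3 => (1 / 5, a)) (by fun_prop))]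
      exact mul_le_mul' le_rfl (hN v)
  have hM : Mx v = Mx v * att (Hz Cl y v T₁ t) +
      ∫⁻ s in Ioo T₁ t, att (Hz Cl y v s t) * (Nu (Cl s (y + s • v)) v * Mx v) := by
    have h1 := layer_bwd_eq mN ht.le hfin
    have h2 : ∫⁻ s in Ioo T₁ t, att (Hz Cl y v s t) * (Nu (Cl s (y + s • v)) v * Mx v) =
        (∫⁻ s in Ioo T₁ t, Nu (Cl s (y + s • v)) v * att (Hz Cl y v s t)) * Mx v := by
      rw [← lintegral_mul_const _ (mN.fun_mul ma)]
      exact lintegral_congr fun s => by ring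
    rw [h2, mul_comm (Mx v), ← add_mul, add_comm]
    exact (one_mul _).symm.trans (congrArg (· * Mx v) h1.symm)
  have hF := (h.mild t).restart mCl hT0.le ht.le le_rfl y v
  set E : ℝ → ℝ≥0∞ := fun s => c₀ * Gw τ s v *
    (br v * (Dd ν τ s * Kl C τ η s + ENNReal.ofReal b ^ 2) + Kc (u s (y + s • v)) v) with hE
  have hQ : ∀ s ∈ Ioo T₁ t, Near (Qp (Cl s (y + s • v)) (Cl s (y + s • v)) v)
      (Nu (Cl s (y + s • v)) v * Mx v) (E s) := by
    intro s hs
    have hθ := theta_mem h.τ1 hτ0 (hT0.trans hs.1).le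
    refine (guo_nearQ (mCl.slice _ _) (measurable_dst (mCl.slice _ _) measurable_Mx)
      (fun a => near_dst _ _) v).mono' ?_
    exact herr _ hθ (Sg s (y + s • v)) (u s (y + s • v)) _ _ _ _ (h.sg.meas.slice _ _)
      (mu.slice _ _) (Dd_le_one h.ν0 τ s) hb1 (fun a => h.uu_le hs.1 _ a)
      (fun a => near_iff_dst.1 (near_uu ν τ Sg Cl s _ a)) v (h.sg.lin s hs.1.le _ hθ _ v)
      (h.sg.quad s hs.1.le _ v) (h.sg.freq s hs.1.le _ v)
  have hnear : Near (F t (y + t • v) v) (Mx v)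
      ((Sg T₁ (y + T₁ • v) v + ENNReal.ofReal η * Gs (1 / 4) v) * att (Hz Cl y v T₁ t) +
        ∫⁻ s in Ioo T₁ t, att (Hz Cl y v s t) * E s) := by
    constructor
    · rw [hF]
      nth_rewrite 1 [hM]
      exact guoB_le measurableSet_Ioo (ma.mul (mN.mul_const _)) (h.init _ v).1
        fun s hs => (hQ s hs).1
    · rw [hF]
      nth_rewrite 1 [hM]
      exact guoB_le measurableSet_Ioo (ma.mul mQ) (h.init _ v).2 fun s hs => (hQ s hs).2
  refine hnear.mono' ?_
  -- the initial term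
  have hD : att (Hz Cl y v T₁ t) ≤ Dd ν τ t := by
    rcases le_total t τ with h1 | h1
    · rw [Dd, max_eq_right (by linarith)]
      simpa using att_le_one _
    · rw [Dd, max_eq_left (by linarith), neg_mul]
      refine att_le_exp ?_
      rw [Hz_add Cl y v h.Tτ h1]
      refine le_trans (ENNReal.ofReal_le_ofReal ?_) ((guoB_Hz_ge hμ.le le_rfl hfr).trans le_add_self)
      refine mul_le_mul_of_nonneg_right ?_ (by linarith)
      nlinarith [norm_nonneg v]
  have hG : Gs (1 / 4) v ≤ Gw τ t v := Gs_anti (theta_mem h.τ1 hτ0 (hT0.trans ht).le).2 v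
  have h0 : (Sg T₁ (y + T₁ • v) v + ENNReal.ofReal η * Gs (1 / 4) v) * att (Hz Cl y v T₁ t) ≤
      Dd ν τ t * Sg t (y + t • v) v + ENNReal.ofReal η * Gw τ t v := by
    rw [add_mul, mul_comm (Sg _ _ _)]
    refine add_le_add (mul_le_mul' hD (h.sg.mono T₁ t le_rfl ht.le y v)) ?_
    exact (mul_le_mul' (mul_le_mul' le_rfl hG) (att_le_one _)).trans (mul_one _).le
  -- the early part
  have h1 : ∫⁻ s in Ioo T₁ (min t τ), att (Hz Cl y v s t) * E s ≤
      3 * c₀ * (1 + Kt) * ((ENNReal.ofReal C + δ + 1) * ENNReal.ofReal √τ) * Gw τ t v := by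
    have hT : T₁ ≤ min t τ := le_min ht.le h.Tτ
    have hm := min_le_right t τ
    have hτ1 := h.τ1
    calc _ ≤ ∫⁻ s in Ioo T₁ (min t τ), c₀ * (1 + Kt) * (ENNReal.ofReal C + δ + 1) * Gw τ t v *
            (br v * Gs (min t τ - s) v) := by
          refine setLIntegral_mono' measurableSet_Ioo fun s hs => ?_
          have hsτ : s < τ := hs.2.trans_le hm
          have e : Gw τ s v = Gw τ t v * Gs (min t τ - s) v := by
            rw [Gw, Gw, ← Gs_add, min_eq_left hsτ.le]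
            congr 1
            ring
          have k1 : Dd ν τ s * Kl C τ η s ≤ ENNReal.ofReal C + δ := by
            rw [Kl, if_pos hsτ, mul_add]
            exact add_le_add ((mul_le_mul' (Dd_le_one h.ν0 τ s) le_rfl).trans (one_mul _).le)
              (h.hδ s (hT0.trans hs.1).le)
          have k2 : Kc (u s (y + s • v)) v ≤ br v * (Kt * (ENNReal.ofReal C + δ + 1)) :=
            calc _ ≤ Kt * ENNReal.ofReal b := Kc_le (fun a => h.uu_le hs.1 _ a) v
              _ = 1 * (Kt * ENNReal.ofReal b) := (one_mul _).symm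
              _ ≤ _ := mul_le_mul' (guoB_one_le_br v) (mul_le_mul' le_rfl (hb1.trans le_add_self))
          have k3 : ENNReal.ofReal b ^ 2 ≤ 1 := pow_le_one₀ zero_le hb1
          calc att (Hz Cl y v s t) * E s ≤ 1 * (c₀ * Gw τ s v * (br v * (ENNReal.ofReal C + δ + 1) +
                br v * (Kt * (ENNReal.ofReal C + δ + 1)))) := by
                refine mul_le_mul' (att_le_one _) ?_
                simp only [hE]
                gcongr
            _ = _ := by rw [e]; ring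
      _ = c₀ * (1 + Kt) * (ENNReal.ofReal C + δ + 1) * Gw τ t v *
            ∫⁻ s in Ioo T₁ (min t τ), br v * Gs (min t τ - s) v :=
          lintegral_const_mul _ (measurable_const.mul
            (measurable_Gs.comp (f := fun s : ℝ => (min t τ - s, v)) (by fun_prop)))
      _ ≤ c₀ * (1 + Kt) * (ENNReal.ofReal C + δ + 1) * Gw τ t v * (3 * ENNReal.ofReal √τ) := by
          refine mul_le_mul' le_rfl ((lintegral_br_decay hT (by linarith) v).trans ?_)
          rw [ENNReal.ofReal_mul (by norm_num), ENNReal.ofReal_ofNat]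
          exact mul_le_mul' le_rfl (ENNReal.ofReal_le_ofReal (Real.sqrt_le_sqrt (by linarith)))
      _ = _ := by ring
  -- the late part
  have mex : Measurable fun s : ℝ => ex (μ * (1 + ‖v‖)) (t - s) :=
    measurable_ex.comp (f := fun s : ℝ => (μ * (1 + ‖v‖), t - s)) (by fun_prop)
  have mK : Measurable fun s : ℝ => Kc (u s (y + s • v)) v :=
    measurable_Kc (mu.comp (f := fun p : ℝ × R3 => (p.1, y + p.1 • v, p.2)) (by fun_prop))
      measurable_const
  have h2 : ∫⁻ s in Ioo τ t, att (Hz Cl y v s t) * E s ≤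
      c₀ * ((δ + ENNReal.ofReal b ^ 2) * ENNReal.ofReal μ⁻¹ +
        ∫⁻ s in Ioo τ t, ex (μ * (1 + ‖v‖)) (t - s) * Kc (u s (y + s • v)) v) * Gw τ t v := by
    have hp : 0 < 1 + ‖v‖ := by positivity
    calc _ ≤ ∫⁻ s in Ioo τ t, c₀ * Gw τ t v * ((δ + ENNReal.ofReal b ^ 2) * br v *
            ex (μ * (1 + ‖v‖)) (t - s) + ex (μ * (1 + ‖v‖)) (t - s) * Kc (u s (y + s • v)) v) := by
          refine setLIntegral_mono' measurableSet_Ioo fun s hs => ?_
          have k1 : Dd ν τ s * Kl C τ η s ≤ δ := by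
            rw [Kl, if_neg hs.1.le.not_gt, zero_add]
            exact h.hδ s (hτ0.trans hs.1.le)
          have k2 : att (Hz Cl y v s t) ≤ ex (μ * (1 + ‖v‖)) (t - s) :=
            att_le_exp (guoB_Hz_ge hμ.le hs.1.le hfr)
          have k3 := Gw_mono (τ := τ) hs.2.le v
          calc att (Hz Cl y v s t) * E s ≤ ex (μ * (1 + ‖v‖)) (t - s) * (c₀ * Gw τ t v *
                (br v * (δ + ENNReal.ofReal b ^ 2) + Kc (u s (y + s • v)) v)) := by
                simp only [hE]
                gcongr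
            _ = _ := by ring
      _ = c₀ * Gw τ t v * ((δ + ENNReal.ofReal b ^ 2) * (br v *
            ∫⁻ s in Ioo τ t, ex (μ * (1 + ‖v‖)) (t - s)) +
            ∫⁻ s in Ioo τ t, ex (μ * (1 + ‖v‖)) (t - s) * Kc (u s (y + s • v)) v) := by
          rw [lintegral_const_mul _ ((mex.const_mul _).fun_add (mex.fun_mul mK)),
            lintegral_add_left (mex.const_mul _), lintegral_const_mul _ mex,
            mul_assoc (δ + ENNReal.ofReal b ^ 2)]
      _ ≤ c₀ * Gw τ t v * ((δ + ENNReal.ofReal b ^ 2) * ENNReal.ofReal μ⁻¹ +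
            ∫⁻ s in Ioo τ t, ex (μ * (1 + ‖v‖)) (t - s) * Kc (u s (y + s • v)) v) := by
          gcongr
          refine (mul_le_mul' le_rfl (lintegral_ex (mul_pos hμ hp) τ t)).trans (le_of_eq ?_)
          rw [br, ← ENNReal.ofReal_mul hp.le]
          congr 1
          field_simp
      _ = _ := by ring
  have h3 : ∫⁻ s in Ioo T₁ t, att (Hz Cl y v s t) * E s ≤
      (∫⁻ s in Ioo T₁ (min t τ), att (Hz Cl y v s t) * E s) +
        ∫⁻ s in Ioo τ t, att (Hz Cl y v s t) * E s := by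
    rw [Measure.restrict_congr_set (Ioo_ae_eq_Ioc (a := T₁) (b := min t τ))]
    refine le_trans (lintegral_mono_set ?_) (lintegral_union_le _ _ _)
    intro s hs
    rcases le_or_gt s τ with h4 | h4
    · exact Or.inl ⟨hs.1, le_min hs.2.le h4⟩
    · exact Or.inr ⟨h4, hs.2⟩
  refine (add_le_add h0 (h3.trans (add_le_add h1 (h2.trans
    (mul_le_mul' (mul_le_mul' hcc le_rfl) le_rfl))))).trans (le_of_eq ?_)
  unfold e1
  ring

end

end Crest.Agent.R68
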