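import Crest.Agent.R68.GuoC

/-!
# R68 (S0091): late phase, the abstract double Duhamel lemma
Keep the statement; helper lemmas with prefix `guoD_`.
-/

set_option autoImplicit false

namespace Crest.Agent.R68

open MeasureTheory Set Filter Crest.AnalysisR.VecCalc3 Crest.AnalysisR.PDE.Boltzmann
open scoped ENNReal _root_.Topology

noncomputable section

theorem guoD_small {X Y : ℝ≥0∞} (hX : X ≠ ⊤) (hY : Y ≠ 0) :
    ∃ x : ℝ, 0 < x ∧ X * ENNReal.ofReal x ≤ Y := by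
  have h1 : Tendsto (fun x : ℝ => X * ENNReal.ofReal x) (𝓝 0) (𝓝 (X * ENNReal.ofReal 0)) :=
    ENNReal.Tendsto.const_mul (ENNReal.continuous_ofReal.tendsto 0) (Or.inr hX)
  rw [ENNReal.ofReal_zero, mul_zero] at h1
  have h2 : ∀ᶠ x in 𝓝[>] (0 : ℝ), X * ENNReal.ofReal x ≤ Y :=
    (h1.eventually (ge_mem_nhds (pos_iff_ne_zero.2 hY))).filter_mono nhdsWithin_le_nhds
  obtain ⟨x, h3, h4⟩ := (h2.and self_mem_nhdsWithin).exists
  exact ⟨x, h4, h3⟩

theorem guoD_mex (m t : ℝ) : Measurable fun s : ℝ => ex m (t - s) :=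
  measurable_ex.comp (f := fun s : ℝ => (m, t - s)) (by fun_prop)

theorem guoD_int {m : ℝ} (hm : 0 < m) {τ t : ℝ} {g : ℝ → ℝ≥0∞} {B : ℝ≥0∞}
    (h : ∀ s ∈ Ioo τ t, g s ≤ B) :
    ∫⁻ s in Ioo τ t, ex m (t - s) * g s ≤ ENNReal.ofReal m⁻¹ * B :=
  calc _ ≤ ∫⁻ s in Ioo τ t, ex m (t - s) * B :=
        setLIntegral_mono' measurableSet_Ioo fun s hs => mul_le_mul' le_rfl (h s hs)
    _ = (∫⁻ s in Ioo τ t, ex m (t - s)) * B := lintegral_mul_const _ (guoD_mex m t)
    _ ≤ _ := mul_le_mul' (lintegral_ex hm τ t) le_rfl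

/-- the second iteration -/
theorem guoD_two {c ε₁ : ℝ≥0∞} {μ τ s : ℝ} (hμ : 0 < μ) {u : PF} (mu : Meas u) (X v : R3)
    (h : ∀ y a, u s (y + s • a) a ≤
      ε₁ + c * ∫⁻ s' in Ioo τ s, ex (μ * (1 + ‖a‖)) (s - s') * Kc (u s' (y + s' • a)) a) :
    Kc (u s X) v ≤ Kt * ε₁ + c * ∫⁻ s' in Ioo τ s, ex μ (s - s') *
      ∫⁻ a, kk (v - a) * Kc (u s' (X - (s - s') • a)) a := by
  have mk : Measurable fun a : R3 => kk (v - a) :=
    measurable_kk.comp (measurable_const.sub measurable_id')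
  have mK : Measurable fun p : R3 × ℝ => Kc (u p.2 (X - (s - p.2) • p.1)) p.1 :=
    measurable_Kc (mu.comp (f := fun q : (R3 × ℝ) × R3 => (q.1.2, X - (s - q.1.2) • q.1.1, q.2))
      (by fun_prop)) measurable_fst
  have m2 : Measurable fun p : R3 × ℝ =>
      ex μ (s - p.2) * (kk (v - p.1) * Kc (u p.2 (X - (s - p.2) • p.1)) p.1) :=
    ((guoD_mex μ s).comp measurable_snd).mul ((mk.comp measurable_fst).mul mK)
  calc Kc (u s X) v ≤ ∫⁻ a, (kk (v - a) * ε₁ + c * ∫⁻ s' in Ioo τ s,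
          ex μ (s - s') * (kk (v - a) * Kc (u s' (X - (s - s') • a)) a)) := by
        refine lintegral_mono fun a => ?_
        have h1 := h (X - s • a) a
        rw [sub_add_cancel] at h1
        have h2 : ∫⁻ s' in Ioo τ s, ex (μ * (1 + ‖a‖)) (s - s') * Kc (u s' (X - s • a + s' • a)) a ≤
            ∫⁻ s' in Ioo τ s, ex μ (s - s') * Kc (u s' (X - (s - s') • a)) a := by
          refine setLIntegral_mono' measurableSet_Ioo fun s' hs' => ?_
          rw [show X - s • a + s' • a = X - (s - s') • a by rw [sub_smul]; abel]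
          exact mul_le_mul' (ex_anti (by nlinarith [norm_nonneg a]) (by linarith [hs'.2])) le_rfl
        have m3 : Measurable fun s' : ℝ => ex μ (s - s') * Kc (u s' (X - (s - s') • a)) a :=
          (guoD_mex μ s).mul (mK.comp (f := fun s' : ℝ => (a, s')) (by fun_prop))
        calc kk (v - a) * u s X a ≤ kk (v - a) * (ε₁ + c *
              ∫⁻ s' in Ioo τ s, ex μ (s - s') * Kc (u s' (X - (s - s') • a)) a) :=
              mul_le_mul' le_rfl (h1.trans (by gcongr))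
          _ = kk (v - a) * ε₁ + c * (kk (v - a) *
              ∫⁻ s' in Ioo τ s, ex μ (s - s') * Kc (u s' (X - (s - s') • a)) a) := by ring
          _ = _ := by
              rw [← lintegral_const_mul _ m3]
              congr 3
              funext s'
              ring
    _ = Kt * ε₁ + c * ∫⁻ a, ∫⁻ s' in Ioo τ s,
          ex μ (s - s') * (kk (v - a) * Kc (u s' (X - (s - s') • a)) a) := by
        rw [lintegral_add_left (mk.mul_const _), lintegral_mul_const _ mk, lintegral_kk_sub,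
          lintegral_const_mul _ m2.lintegral_prod_right']
    _ = _ := by
        rw [lintegral_lintegral_swap m2.aemeasurable]
        congr 2
        refine lintegral_congr fun s' => lintegral_const_mul _ ?_
        exact mk.mul (mK.comp (f := fun a : R3 => (a, s')) (by fun_prop))

/-- (G3).  Put `m = ofReal μ⁻¹`, `K = Kt`.  Choose `ρ₀` with `c K ofReal (μ (1 + ρ₀))⁻¹ ≤ κ`, `k > 0` with
`c m c (ofReal k) K² ≤ κ / 2`, `σ ≠ 0` with `(c m)² 2 σ K ≤ κ / 2`, then `S, Λ', ρ'` from `kk_split`,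
`ρ = ρ₀ + 2 ρ'`.
* `‖v‖ ≥ ρ₀`: `u ≤ ε₁ + c (ofReal (μ (1 + ‖v‖))⁻¹) K b ≤ ε₁ + κ b` (`Kc_le`, `lintegral_ex`).
* `‖v‖ ≤ ρ₀`: for `s ∈ Ioo τ t`, `X = y + s • v`, insert the hypothesis at `(s, X, a)` (characteristic
`y' = X - s • a`, `y' + s' • a = X - (s - s') • a`, `ex (μ (1 + ‖a‖)) ≤ ex μ` by `ex_anti`) and swap the
integrals (`lintegral_lintegral_swap`, `measurable_Kc`):
`Kc (u s X) v ≤ K ε₁ + c ∫_{s' ∈ Ioo τ s} ex μ (s - s') * I s'`,
`I s' = ∫ a, kk (v - a) * Kc (u s' (X - (s - s') • a)) a`.  Always `I s' ≤ K² b`, and for `s - s' ≥ k`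
`kk_double` applies; so `ex * I ≤ 1_{Ioo (s-k) s} K² b + ex * (2 σ K b + Λ'² L ε₂)`, and
`Kc (u s X) v ≤ K ε₁ + c (k K² b + m (2 σ K b + Λ'² L ε₂))`.  Integrate once more (`lintegral_ex`). -/
theorem guo_dd (c : ℝ≥0∞) (hc : c ≠ ⊤) {μ : ℝ} (hμ : 0 < μ) {κ : ℝ≥0∞} (hκ : κ ≠ 0) :
    ∃ (ρ : ℝ) (Λ : ℝ≥0∞), Λ ≠ ⊤ ∧ ∀ (u : PF) (τ t₀ : ℝ) (b ε₁ ε₂ : ℝ≥0∞), Meas u → Per u →
      (∀ t ∈ Ioc τ t₀, ∀ x v, u t x v ≤ b) →
      (∀ t ∈ Ioc τ t₀, ∀ y v, u t (y + t • v) v ≤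
        ε₁ + c * ∫⁻ s in Ioo τ t, ex (μ * (1 + ‖v‖)) (t - s) * Kc (u s (y + s • v)) v) →
      (∀ t ∈ Ioc τ t₀, ∫⁻ x in cell, ∫⁻ a in Metric.closedBall (0 : R3) ρ, u t x a ≤ ε₂) →
      ∀ t ∈ Ioc τ t₀, ∀ x v, u t x v ≤ Λ * (ε₁ + ε₂) + κ * b := by
  have hK := Kt_ne_top
  set m := ENNReal.ofReal μ⁻¹ with hm
  have hm' : m ≠ ⊤ := ENNReal.ofReal_ne_top
  have hκ2 : κ / 2 ≠ 0 := by simpa using hκ
  obtain ⟨r, hr0, hr⟩ := guoD_small (X := c * m * Kt) (by finiteness) hκ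
  obtain ⟨k, hk0, hk⟩ := guoD_small (X := c * m * c * Kt * Kt) (by finiteness) hκ2
  obtain ⟨σ, hσ0, hσ⟩ := guoD_small (X := c * m * c * m * 2 * Kt) (by finiteness) hκ2
  obtain ⟨S, Λ', ρ', hS, hΛ', hρ', h1, h2⟩ := kk_split (σ := ENNReal.ofReal σ) (by simpa using hσ0)
  set L := Λ' ^ 2 * ENNReal.ofReal ((2 * ρ' + 2 / k) ^ 3) with hL
  have hL' : L ≠ ⊤ := by finiteness
  refine ⟨r⁻¹ + 2 * ρ', 1 + c * m * Kt + c * m * c * m * L, by finiteness, ?_⟩
  intro u τ t₀ b ε₁ ε₂ mu pu hb hstep hε t ht x v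
  have h3 := hstep t ht (x - t • v) v
  rw [sub_add_cancel] at h3
  refine h3.trans ?_
  have hp : 0 < 1 + ‖v‖ := by positivity
  rcases le_total r⁻¹ ‖v‖ with hv | hv
  · have h4 := guoD_int (mul_pos hμ hp) (τ := τ) (t := t)
      (g := fun s => Kc (u s (x - t • v + s • v)) v) (B := Kt * b)
      fun s hs => Kc_le (hb s ⟨hs.1, hs.2.le.trans ht.2⟩ _) v
    have h5 : ENNReal.ofReal (μ * (1 + ‖v‖))⁻¹ ≤ m * ENNReal.ofReal r := by
      rw [hm, ← ENNReal.ofReal_mul (by positivity), mul_inv]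
      refine ENNReal.ofReal_le_ofReal (mul_le_mul_of_nonneg_left ?_ (by positivity))
      rw [inv_le_comm₀ hp hr0]
      linarith
    calc _ ≤ ε₁ + c * (m * ENNReal.ofReal r * (Kt * b)) :=
          add_le_add le_rfl (mul_le_mul' le_rfl (h4.trans (mul_le_mul' h5 le_rfl)))
      _ = 1 * ε₁ + c * m * Kt * ENNReal.ofReal r * b := by ring
      _ ≤ _ := by
          gcongr
          · exact le_self_add.trans le_self_add
          · exact le_self_add
  have key : ∀ s ∈ Ioo τ t, ∀ X, Kc (u s X) v ≤ Kt * ε₁ + c * (Kt * Kt * b * ENNReal.ofReal k +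
      m * (2 * ENNReal.ofReal σ * Kt * b + L * ε₂)) := by
    intro s hs X
    have hs' : s ∈ Ioc τ t₀ := ⟨hs.1, hs.2.le.trans ht.2⟩
    refine (guoD_two hμ mu X v (hstep s hs')).trans (add_le_add le_rfl (mul_le_mul' le_rfl ?_))
    calc _ ≤ ∫⁻ s' in Ioo τ s, ((Ioo (s - k) s).indicator (fun _ => Kt * Kt * b) s' +
            ex μ (s - s') * (2 * ENNReal.ofReal σ * Kt * b + L * ε₂)) := by
          refine setLIntegral_mono' measurableSet_Ioo fun s' hs'' => ?_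
          have hs3 : s' ∈ Ioc τ t₀ := ⟨hs''.1, hs''.2.le.trans hs'.2⟩
          rcases le_or_gt k (s - s') with h4 | h4
          · refine le_trans (mul_le_mul' le_rfl ?_) le_add_self
            exact kk_double hS hρ' h1 h2 (mu.sliceX s') (pu s') (hb s' hs3) (hε s' hs3)
              (by linarith) hk0 h4 X
          · rw [indicator_of_mem (show s' ∈ Ioo (s - k) s from ⟨by linarith, hs''.2⟩)]
            refine le_trans (mul_le_mul' (ex_le_one hμ.le (by linarith [hs''.2]))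
              (Kc_le (b := Kt * b) (fun a => Kc_le (hb s' hs3 _) a) v)) ?_
            rw [one_mul, ← mul_assoc]
            exact le_self_add
      _ ≤ _ := by
          rw [lintegral_add_left (measurable_const.indicator measurableSet_Ioo)]
          refine add_le_add ((setLIntegral_le_lintegral _ _).trans ?_)
            (guoD_int hμ fun _ _ => le_rfl)
          rw [lintegral_indicator_const measurableSet_Ioo, Real.volume_Ioo, sub_sub_cancel]
  have h4 := guoD_int (mul_pos hμ hp) (τ := τ) (t := t)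
    (g := fun s => Kc (u s (x - t • v + s • v)) v) fun s hs => key s hs _
  have h5 : ENNReal.ofReal (μ * (1 + ‖v‖))⁻¹ ≤ m :=
    ENNReal.ofReal_le_ofReal (inv_anti₀ hμ (by nlinarith [norm_nonneg v]))
  calc _ ≤ ε₁ + c * (m * (Kt * ε₁ + c * (Kt * Kt * b * ENNReal.ofReal k +
          m * (2 * ENNReal.ofReal σ * Kt * b + L * ε₂)))) :=
        add_le_add le_rfl (mul_le_mul' le_rfl (h4.trans (mul_le_mul' h5 le_rfl)))
    _ = (1 + c * m * Kt) * ε₁ + c * m * c * m * L * ε₂ +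
          (c * m * c * Kt * Kt * ENNReal.ofReal k + c * m * c * m * 2 * Kt * ENNReal.ofReal σ) * b := by
        ring
    _ ≤ (1 + c * m * Kt + c * m * c * m * L) * ε₁ + (1 + c * m * Kt + c * m * c * m * L) * ε₂ +
          (κ / 2 + κ / 2) * b :=
        add_le_add (add_le_add (mul_le_mul' le_self_add le_rfl) (mul_le_mul' le_add_self le_rfl))
          (mul_le_mul' (add_le_add hk hσ) le_rfl)
    _ = _ := by rw [ENNReal.add_halves, ← mul_add]

end

end Crest.Agent.R68
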