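import Crest.Agent.R68.GuoDef

/-!
# R68 (S0091): late phase, Pinsker-type bound
Keep the statements; helper lemmas with prefix `guoE_`.
-/

set_option autoImplicit false

namespace Crest.Agent.R68

open MeasureTheory Set Filter Crest.AnalysisR.VecCalc3 Crest.AnalysisR.PDE.Boltzmann
open scoped ENNReal _root_.Topology

noncomputable section

theorem guoE_sq {z : ℝ} (hz : 0 ≤ z) : (√z - 1) ^ 2 ≤ z * Real.log z - z + 1 := by
  rcases hz.eq_or_lt with rfl | hz
  · simp
  have hr : 0 < √z := Real.sqrt_pos.2 hz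
  have h1 := Real.one_sub_inv_le_log_of_pos hr
  have h2 : Real.log z = 2 * Real.log √z := by rw [Real.log_sqrt hz.le]; ring
  have h3 : √z * √z = z := Real.mul_self_sqrt hz.le
  have h4 : √z - 1 ≤ √z * Real.log √z := by
    have := mul_le_mul_of_nonneg_left h1 hr.le
    rwa [mul_sub, mul_one, mul_inv_cancel₀ hr.ne'] at this
  rw [h2]
  nlinarith [mul_le_mul_of_nonneg_left h4 hr.le]

theorem guoE_nonneg {f M : ℝ} (hf : 0 ≤ f) (hM : 0 < M) : 0 ≤ f * Real.log (f / M) - f + M := by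
  have h := (sq_nonneg _).trans (guoE_sq (div_nonneg hf hM.le))
  have e : f * Real.log (f / M) - f + M = M * (f / M * Real.log (f / M) - f / M + 1) := by
    field_simp
  rw [e]
  positivity

/-- With `z = f / M`, `r = √z`, `d = |r - 1|`: `z log z - z + 1 - d² = 2 r (r log r - r + 1) ≥ 0`
(`Real.one_sub_inv_le_log_of_pos`), `|z - 1| = d (r + 1) ≤ d² + 2 d ≤ ε + (1 + 1/ε) d²`. -/
theorem pinsker_pt {f M ε : ℝ} (hf : 0 ≤ f) (hM : 0 < M) (hε : 0 < ε) :
    |f - M| ≤ ε * M + (1 + ε⁻¹) * (f * Real.log (f / M) - f + M) := by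
  have hz := div_nonneg hf hM.le
  have h := guoE_sq hz
  have e : f * Real.log (f / M) - f + M = M * (f / M * Real.log (f / M) - f / M + 1) := by
    field_simp
  have e2 : f - M = M * (f / M - 1) := by field_simp
  set z := f / M
  have h3 : √z * √z = z := Real.mul_self_sqrt hz
  have h4 : |z - 1| ≤ ε + (1 + ε⁻¹) * (√z - 1) ^ 2 := by
    have h5 : z - 1 = (√z - 1) ^ 2 + 2 * (√z - 1) := by nlinarith
    have h6 : 2 * |√z - 1| ≤ ε + ε⁻¹ * (√z - 1) ^ 2 := by
      have h7 : 0 ≤ ε⁻¹ * (|√z - 1| - ε) ^ 2 := by positivity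
      have h8 : ε⁻¹ * (|√z - 1| - ε) ^ 2 = ε⁻¹ * (√z - 1) ^ 2 - 2 * |√z - 1| + ε := by
        rw [sub_sq, sq_abs]
        field_simp
      linarith
    rw [h5]
    refine (abs_add_le _ _).trans ?_
    rw [abs_of_nonneg (sq_nonneg _), abs_mul, abs_two]
    linarith
  rw [e, e2, abs_mul, abs_of_pos hM]
  have h9 : (1 + ε⁻¹) * (√z - 1) ^ 2 ≤ (1 + ε⁻¹) * (z * Real.log z - z + 1) :=
    mul_le_mul_of_nonneg_left h (by positivity)
  nlinarith [mul_le_mul_of_nonneg_left (h4.trans (add_le_add le_rfl h9)) hM.le]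

theorem guoE_dst {a b : ℝ} (ha : 0 ≤ a) (hb : 0 ≤ b) :
    dst (ENNReal.ofReal a) (ENNReal.ofReal b) ≤ ENNReal.ofReal |a - b| := by
  rw [dst, ← ENNReal.ofReal_sub _ hb, ← ENNReal.ofReal_sub _ ha]
  exact sup_le (ENNReal.ofReal_le_ofReal (le_abs_self _))
    (ENNReal.ofReal_le_ofReal (by rw [abs_sub_comm]; exact le_abs_self _))

/-- (G4).  On `‖a‖ ≤ ρ`: `(Gs θ a)⁻¹ ≤ ofReal (exp (ρ² / 8))`; `dst (g x a) (Mx a) = ofReal |g.toReal - maxwellian a|`,
`pinsker_pt` (the entropy integrand is nonnegative); `∫ Mx < ∞` (`Mx_le_Gs`, `lintegral_br_Gs 0`),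
`volume_cell`; `relEntropy` is an integral over `cell ×ˢ univ` (`Measure.volume_eq_prod`,
`Measure.prod_restrict`, `lintegral_prod`). -/
theorem guo_pinsker (ρ : ℝ) : ∃ c : ℝ≥0∞, c ≠ ⊤ ∧ ∀ ε : ℝ, 0 < ε → ∀ θ : ℝ, θ ≤ 1 / 4 → ∀ g : XF,
    MeasX g → (∀ x a, g x a ≠ ⊤) →
    ∫⁻ x in cell, ∫⁻ a in Metric.closedBall (0 : R3) ρ, dst (g x a) (Mx a) / Gs θ a ≤
      c * (ENNReal.ofReal ε + ENNReal.ofReal (1 + ε⁻¹) * relEntropy (tX g)) := by
  have hM : ∫⁻ a, Mx a ≠ ⊤ := by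
    refine ne_top_of_le_ne_top (lintegral_br_Gs 0 one_pos) (lintegral_mono fun a => ?_)
    simpa using Mx_le_Gs le_rfl a
  set A := ENNReal.ofReal (Real.exp (ρ ^ 2 / 8)) with hA
  refine ⟨A * (1 + ∫⁻ a, Mx a), by finiteness, fun ε hε θ hθ g mg hg => ?_⟩
  have hpos : ∀ a : R3, 0 < maxwellian a := fun a => by unfold maxwellian; positivity
  set β : R3 × R3 → ℝ≥0∞ := fun q => ENNReal.ofReal (tX g q.1 q.2 *
    Real.log (tX g q.1 q.2 / maxwellian q.2) - tX g q.1 q.2 + maxwellian q.2) with hβ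
  have m1 : Measurable fun q : R3 × R3 => tX g q.1 q.2 := ENNReal.measurable_toReal.comp mg
  have m2 : Measurable fun q : R3 × R3 => maxwellian q.2 := by unfold maxwellian; fun_prop
  have mβ : Measurable β :=
    (((m1.mul (Real.measurable_log.comp (m1.div m2))).sub m1).add m2).ennreal_ofReal
  have hH : relEntropy (tX g) = ∫⁻ x in cell, ∫⁻ a, β (x, a) := by
    rw [relEntropy, Measure.volume_eq_prod, ← Measure.prod_restrict, Measure.restrict_univ]
    exact lintegral_prod β mβ.aemeasurable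
  have k1 : ∀ x, ∫⁻ a in Metric.closedBall (0 : R3) ρ, dst (g x a) (Mx a) / Gs θ a ≤
      A * (ENNReal.ofReal ε * ∫⁻ a, Mx a) + A * ENNReal.ofReal (1 + ε⁻¹) * ∫⁻ a, β (x, a) := by
    intro x
    have m3 : Measurable fun a => β (x, a) := mβ.comp (by fun_prop)
    rw [← lintegral_const_mul _ measurable_Mx, ← lintegral_const_mul _ (measurable_Mx.const_mul _),
      ← lintegral_const_mul _ m3, ← lintegral_add_right _ (m3.const_mul _)]
    refine le_trans (setLIntegral_mono' measurableSet_closedBall fun a ha => ?_)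
      (setLIntegral_le_lintegral _ _)
    rw [mem_closedBall_zero_iff] at ha
    have h1 : (Gs θ a)⁻¹ ≤ A := by
      rw [Gs, ← ENNReal.ofReal_inv_of_pos (Real.exp_pos _), ← Real.exp_neg]
      refine ENNReal.ofReal_le_ofReal (Real.exp_le_exp.2 ?_)
      nlinarith [pow_le_pow_left₀ (norm_nonneg a) ha 2, sq_nonneg ‖a‖]
    have h2 : dst (g x a) (Mx a) ≤ ENNReal.ofReal ε * Mx a + ENNReal.ofReal (1 + ε⁻¹) * β (x, a) := by
      have h3 := guoE_dst (ENNReal.toReal_nonneg (a := g x a)) (hpos a).le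
      rw [ENNReal.ofReal_toReal (hg x a)] at h3
      refine h3.trans ((ENNReal.ofReal_le_ofReal
        (pinsker_pt ENNReal.toReal_nonneg (hpos a) hε)).trans ?_)
      rw [Mx, ← ENNReal.ofReal_mul hε.le, ← ENNReal.ofReal_mul (by positivity)]
      exact ENNReal.ofReal_add_le
    rw [div_eq_mul_inv, mul_comm, mul_assoc A, ← mul_add]
    exact mul_le_mul' h1 h2
  refine (lintegral_mono k1).trans ?_
  rw [lintegral_add_left measurable_const, lintegral_const_mul _ mβ.lintegral_prod_right', ← hH,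
    setLIntegral_const, volume_cell, mul_one]
  calc _ = A * (∫⁻ a, Mx a) * ENNReal.ofReal ε +
        A * 1 * (ENNReal.ofReal (1 + ε⁻¹) * relEntropy (tX g)) := by ring
    _ ≤ A * (1 + ∫⁻ a, Mx a) * ENNReal.ofReal ε +
        A * (1 + ∫⁻ a, Mx a) * (ENNReal.ofReal (1 + ε⁻¹) * relEntropy (tX g)) := by
        gcongr
        · exact le_add_self
        · exact le_self_add
    _ = _ := by ring

end

end Crest.Agent.R68
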