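import Crest.Agent.R68.Soft4

/-!
# R68 (S0091), Soft5: strong continuity in L¹
-/

set_option autoImplicit false

namespace Crest.Agent.R68.Sf

open MeasureTheory Set Filter Crest.AnalysisR.VecCalc3 Crest.AnalysisR.PDE.Boltzmann
open scoped ENNReal _root_.Topology

noncomputable section

theorem ae_shr : ∀ᵐ q ∂(volume.restrict C2), Tendsto (fun h : ℝ => shr h q) (𝓝 0) (𝓝 q) := by
  have h1 : ∀ᵐ x : R3, ∀ i, x i ≠ 0 := ae_all_iff.2 fun i =>
    (PiLp.volume_preserving_ofLp (Fin 3)).quasiMeasurePreserving.ae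
      (Measure.ae_eval_ne (fun _ : Fin 3 => (volume : Measure ℝ)) i 0)
  have h2 : ∀ᵐ q : R3 × R3, ∀ i, q.1 i ≠ 0 := Measure.quasiMeasurePreserving_fst.ae h1
  filter_upwards [ae_restrict_of_ae h2, ae_restrict_mem measurableSet_C2] with q h3 h4
  have h5 : Tendsto (fun h : ℝ => q.1 + h • q.2) (𝓝 0) (𝓝 q.1) :=
    Continuous.tendsto' (by fun_prop) _ _ (by simp)
  have h6 : ∀ᶠ h : ℝ in 𝓝 0, q.1 + h • q.2 ∈ cell := by
    refine eventually_all.2 fun i => ?_
    have h7 : Tendsto (fun h : ℝ => (q.1 + h • q.2) i) (𝓝 0) (𝓝 (q.1 i)) :=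
      ((by fun_prop : Continuous fun x : R3 => x i).tendsto _).comp h5
    exact (h7.eventually (Ioo_mem_nhds (lt_of_le_of_ne (h4.1 i).1 (h3 i).symm) (h4.1 i).2)).mono
      fun h hh => Ioo_subset_Ico_self hh
  refine (h5.prodMk_nhds (tendsto_const_nhds (x := q.2))).congr' (h6.mono fun h hh => ?_)
  simp only [shr, fr_of_mem hh]

/-- continuity of the free flow in `L¹` -/
theorem soft_TR {u : R3 × R3 → ℝ} (mu : Measurable u) (iu : IntegrableOn u C2) :
    Tendsto (fun h : ℝ => ∫⁻ q in C2, ‖u (shr h q) - u q‖ₑ) (𝓝 0) (𝓝 0) := by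
  refine ENNReal.tendsto_nhds_zero.2 fun ε hε => ?_
  have h3 : ε / 3 ≠ 0 := (ENNReal.div_pos hε.ne' (by norm_num)).ne'
  obtain ⟨w, hw1, hw2, hw3, -⟩ := Integrable.exists_hasCompactSupport_lintegral_sub_le iu h3
  obtain ⟨ρ, -, hρ⟩ := hw1.exists_pos_le_norm
  obtain ⟨C, hC⟩ := hw3.bounded_above_of_compact_support hw1
  have ms : ∀ h : ℝ, Measurable (shr h) := fun h => (mp_shr h).measurable
  have mw : ∀ h : ℝ, Measurable fun q => ‖w (shr h q) - w q‖ₑ := fun h =>
    ((hw3.measurable.comp (ms h)).sub hw3.measurable).enorm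
  have h1 : Tendsto (fun h : ℝ => ∫⁻ q in C2, ‖w (shr h q) - w q‖ₑ) (𝓝 0)
      (𝓝 (∫⁻ _ in C2, 0)) := by
    refine tendsto_lintegral_filter_of_dominated_convergence
      ((univ ×ˢ Metric.closedBall 0 ρ).indicator fun _ => ENNReal.ofReal (C + C))
      (Eventually.of_forall mw) (Eventually.of_forall fun h => Eventually.of_forall fun q => ?_) ?_
      (ae_shr.mono fun q hq => ?_)
    · by_cases c : q ∈ univ ×ˢ Metric.closedBall (0 : R3) ρ
      · rw [indicator_of_mem c, ← ofReal_norm]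
        exact ENNReal.ofReal_le_ofReal ((norm_sub_le _ _).trans (add_le_add (hC _) (hC _)))
      · have c' : ρ ≤ ‖q.2‖ := le_of_not_ge fun h' => c ⟨trivial, mem_closedBall_zero_iff.2 h'⟩
        rw [hρ q (c'.trans (norm_snd_le q)), hρ (shr h q) (c'.trans (norm_snd_le (shr h q)))]
        simp
    · rw [lintegral_indicator_const (MeasurableSet.univ.prod measurableSet_closedBall), vol_C2,
        Measure.prod_prod, Measure.restrict_apply_univ, volume_cell, one_mul]
      exact ENNReal.mul_ne_top ENNReal.ofReal_ne_top measure_closedBall_lt_top.ne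
    · have := (((hw3.tendsto q).comp hq).sub_const (w q)).enorm
      simpa using this
  rw [lintegral_zero] at h1
  refine (ENNReal.tendsto_nhds_zero.1 h1 (ε / 3) h3.bot_lt).mono fun h hh => ?_
  have m1 : Measurable fun q => ‖u q - w q‖ₑ := (mu.sub hw3.measurable).enorm
  calc _ ≤ ∫⁻ q in C2, (‖u (shr h q) - w (shr h q)‖ₑ + ‖w (shr h q) - w q‖ₑ + ‖u q - w q‖ₑ) := by
        refine lintegral_mono fun q => ?_
        have e : u (shr h q) - u q =
            (u (shr h q) - w (shr h q)) + (w (shr h q) - w q) - (u q - w q) := by ring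
        rw [e]
        exact enorm_sub_le.trans (add_le_add (enorm_add_le _ _) le_rfl)
    _ = (∫⁻ q in C2, ‖u q - w q‖ₑ) + (∫⁻ q in C2, ‖w (shr h q) - w q‖ₑ) +
        ∫⁻ q in C2, ‖u q - w q‖ₑ := by
        rw [lintegral_add_right _ m1, lintegral_add_right _ (mw h), (mp_shr h).lintegral_comp m1]
    _ ≤ ε / 3 + ε / 3 + ε / 3 := add_le_add (add_le_add hw2 hh) hw2
    _ = ε := ENNReal.add_thirds ε

theorem soft_cont {F : PF} {f : XF} {R : ℝ} (h : ∀ T, SH F f T)
    (hadm : IsAdmissibleDatum (tX f) R) {t : ℝ} (ht : 0 ≤ t) :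
    Tendsto (fun s => ∫⁻ q in C2, ‖tR F s q.1 q.2 - tR F t q.1 q.2‖ₑ) (𝓝[Ici 0] t) (𝓝 0) := by
  have H := h (t + 1)
  have mF : ∀ s, Measurable fun q : R3 × R3 => tR F s q.1 q.2 := fun s =>
    H.meas_tR.comp (measurable_prodMk_left (x := s))
  have iu : IntegrableOn (fun q : R3 × R3 => tR F t q.1 q.2) C2 := by
    simpa using ((h t).moment ht hadm CI_one).1
  have hI : Icc 0 (t + 1) ∈ 𝓝[Ici 0] t := by
    rw [← Ici_inter_Iic]
    exact inter_mem_nhdsWithin _ (Iic_mem_nhds (lt_add_one t))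
  have mg : ∀ s : ℝ, Measurable fun q : R3 × R3 => tR F s (q.1 + s • q.2) q.2 := fun s =>
    (mF s).comp (f := fun q : R3 × R3 => (q.1 + s • q.2, q.2)) (by fun_prop)
  have mA : ∀ s : ℝ, Measurable fun q : R3 × R3 =>
      ‖tR F s (q.1 + s • q.2) q.2 - tR F t (q.1 + t • q.2) q.2‖ₑ := fun s =>
    ((mg s).sub (mg t)).enorm
  have h1 : Tendsto (fun s => ∫⁻ q in C2,
      ‖tR F s (q.1 + s • q.2) q.2 - tR F t (q.1 + t • q.2) q.2‖ₑ) (𝓝[Ici 0] t)
      (𝓝 (∫⁻ _ in C2, 0)) := by
    have iq : IntegrableOn (fun p : ℝ × R3 × R3 => qq F p.1 p.2.1 p.2.2) (Om3 (t + 1)) := by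
      simpa using H.wt_qq measurable_const (PB_one _)
    have i1 := (soft_char H.meas_qq H.per_qq iq).1
    refine tendsto_lintegral_filter_of_dominated_convergence
      (fun q => 2 * ∫⁻ s in Ioo 0 (t + 1), ‖qq F s (q.1 + s • q.2) q.2‖ₑ)
      (Eventually.of_forall mA) (mem_of_superset hI fun s hs => H.char.mono fun q hq => ?_) ?_
      (H.char.mono fun q hq => ?_)
    · rw [hq.2 s hs, hq.2 t ⟨ht, by linarith⟩, add_sub_add_left_eq_sub, two_mul]
      exact enorm_sub_le.trans (add_le_add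
        ((enorm_integral_le_lintegral_enorm _).trans (lintegral_mono_set (Ioo_subset_Ioo_right hs.2)))
        ((enorm_integral_le_lintegral_enorm _).trans
          (lintegral_mono_set (Ioo_subset_Ioo_right (by linarith)))))
    · rw [lintegral_const_mul' _ _ (by norm_num)]
      refine ENNReal.mul_ne_top (by norm_num) (ne_of_lt ?_)
      exact (lintegral_prod_symm _ i1.1.enorm).symm.trans_lt i1.2
    · obtain ⟨G, g1, -, g3, -⟩ := soft_prim (by linarith) hq.1 hq.2
      have g4 := g1.continuousOn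
      rw [uIcc_of_le (by linarith)] at g4
      have g5 := ((g4.congr fun s hs => (g3 s hs).symm) t
        ⟨ht, by linarith⟩).mono_of_mem_nhdsWithin hI
      simpa using (g5.tendsto.sub_const (tR F t (q.1 + t • q.2) q.2)).enorm
  have h2 : Tendsto (fun s => t - s) (𝓝[Ici 0] t) (𝓝 0) :=
    (Continuous.tendsto' (by fun_prop) t 0 (sub_self t)).mono_left nhdsWithin_le_nhds
  have h3 := h1.add ((soft_TR (mF t) iu).comp h2)
  rw [lintegral_zero, add_zero] at h3
  refine tendsto_of_tendsto_of_tendsto_of_le_of_le tendsto_const_nhds h3 (fun s => zero_le)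
    fun s => ?_
  have m1 : Measurable fun q : R3 × R3 => ‖tR F s q.1 q.2 - tR F t q.1 q.2‖ₑ :=
    ((mF s).sub (mF t)).enorm
  have m2 : Measurable fun q : R3 × R3 =>
      ‖tR F t (shr (t - s) q).1 (shr (t - s) q).2 - tR F t q.1 q.2‖ₑ :=
    (((mF t).comp (mp_shr _).measurable).sub (mF t)).enorm
  simp only [Function.comp_apply]
  rw [← (mp_shr s).lintegral_comp m1, ← (mp_shr s).lintegral_comp m2, ← lintegral_add_left (mA s)]
  refine lintegral_mono fun q => ?_
  have e1 : tR F s (shr s q).1 (shr s q).2 = tR F s (q.1 + s • q.2) q.2 := per_fr (H.per_tR s q.2) _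
  have e2 : tR F t (shr (t - s) (shr s q)).1 (shr (t - s) (shr s q)).2 =
      tR F t (q.1 + t • q.2) q.2 := by
    have p1 : IsPeriodic3 fun x => tR F t (x + (t - s) • q.2) q.2 := fun x i => by
      have := H.per_tR t q.2 (x + (t - s) • q.2) i
      simp only at this ⊢
      rw [← this, add_right_comm]
    refine (per_fr (H.per_tR t q.2) _).trans ((per_fr p1 _).trans ?_)
    rw [add_assoc, ← add_smul, add_sub_cancel]
  rw [e1, e2, ← sub_add_sub_cancel _ (tR F t (q.1 + t • q.2) q.2)]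
  exact enorm_add_le _ _

end

end Crest.Agent.R68.Sf
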