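import Crest.Agent.R68.Soft4

/-!
# R68 (S0091), Soft6: the entropy inequality
-/

set_option autoImplicit false

namespace Crest.Agent.R68.Sf

open MeasureTheory Set Filter Crest.AnalysisR.VecCalc3 Crest.AnalysisR.PDE.Boltzmann
open scoped ENNReal _root_.Topology

noncomputable section

theorem soft_liminf {a b : ℕ → ℝ≥0∞} {c : ℝ≥0∞} (h : ∀ n, a n + b n ≤ c) :
    liminf a atTop + liminf b atTop ≤ c := by
  rw [liminf_eq_iSup_iInf_of_nat, liminf_eq_iSup_iInf_of_nat, ENNReal.iSup_add_iSup_of_monotone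
    (fun _ _ hnm => iInf_le_iInf_of_subset fun _ hi => le_trans hnm hi)
    (fun _ _ hnm => iInf_le_iInf_of_subset fun _ hi => le_trans hnm hi)]
  exact iSup_le fun n => (add_le_add (iInf₂_le n le_rfl) (iInf₂_le n le_rfl)).trans (h n)

theorem soft_fatou_ae {α : Type*} [MeasurableSpace α] {μ : Measure α} {u : ℕ → α → ℝ≥0∞}
    {g : α → ℝ≥0∞} (hm : ∀ n, Measurable (u n))
    (h : ∀ᵐ a ∂μ, Tendsto (fun n => u n a) atTop (𝓝 (g a))) :
    ∫⁻ a, g a ∂μ ≤ liminf (fun n => ∫⁻ a, u n a ∂μ) atTop :=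
  (lintegral_congr_ae (h.mono fun _ ha => ha.liminf_eq.symm)).trans_le (lintegral_liminf_le hm)

theorem measurable_pd : Measurable fun p : ℝ × ℝ => pairDissipation p.1 p.2 := by
  unfold pairDissipation
  refine Measurable.ite ((measurableSet_eq_fun measurable_fst measurable_const).inter
    (measurableSet_eq_fun measurable_snd measurable_const)) measurable_const
    (Measurable.ite ((measurableSet_lt measurable_const measurable_fst).inter
      (measurableSet_lt measurable_const measurable_snd)) ?_ measurable_const)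
  exact ((measurable_fst.sub measurable_snd).mul
    (measurable_fst.div measurable_snd).log).ennreal_ofReal

theorem lintegral_br_Mx (k : ℕ) : ∫⁻ v, br v ^ k * Mx v < ⊤ :=
  lt_of_le_of_lt (lintegral_mono fun v => mul_le_mul_right (Mx_le_Gs le_rfl v) _)
    (lintegral_br_Gs k one_pos).lt_top

theorem lintegral_Mx_C2 : ∫⁻ q in C2, Mx q.2 < ⊤ := by
  rw [lintegral_C2 (Ψ := fun q => Mx q.2) (measurable_Mx.comp measurable_snd)]
  simp only [setLIntegral_const, volume_cell, mul_one]
  simpa using lintegral_br_Mx 0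

theorem int_mxw : IntegrableOn (fun q : R3 × R3 => maxwellian q.2) C2 := by
  refine ⟨(continuous_mxw.comp continuous_snd).aestronglyMeasurable,
    lt_of_le_of_lt (lintegral_mono fun q => ?_) lintegral_Mx_C2⟩
  rw [Real.enorm_of_nonneg (mxw_pos _).le]
  exact le_rfl

/-- truncated entropy density -/
def sb (δ : ℝ) (g : R3 → R3 → ℝ) (x v : R3) : ℝ := maxwellian v * sbe δ (g x v / maxwellian v)

/-- its derivative -/
def sl (δ : ℝ) (F : PF) (p : ℝ × R3 × R3) : ℝ :=
  Real.log (sph δ (tR F p.1 p.2.1 p.2.2 / maxwellian p.2.2))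

/-- the dominating function -/
def sDF (F : PF) : PF := fun t x v => ENNReal.ofReal (sD (tR F t x v) (maxwellian v))

theorem measurable_sb {δ : ℝ} (d0 : 0 < δ) {g : R3 → R3 → ℝ}
    (mg : Measurable fun q : R3 × R3 => g q.1 q.2) :
    Measurable fun q : R3 × R3 => sb δ g q.1 q.2 :=
  have m := continuous_mxw.measurable.comp (measurable_snd (α := R3))
  m.mul ((continuous_sbe d0).measurable.comp (mg.div m))

theorem sb_nonneg {δ : ℝ} (d0 : 0 < δ) (d1 : δ ≤ 1) (g : R3 → R3 → ℝ) (x v : R3) : 0 ≤ sb δ g x v :=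
  mul_nonneg (mxw_pos v).le (sbe_nonneg d0 d1 _)

theorem mxw_ent (z : ℝ) (v : R3) : maxwellian v * (z / maxwellian v * Real.log (z / maxwellian v) -
    z / maxwellian v + 1) = z * Real.log (z / maxwellian v) - z + maxwellian v := by
  have := (mxw_pos v).ne'
  field_simp

section ent

variable {F : PF} {f : XF} {R T δ : ℝ}

theorem SH.meas_sl (h : SH F f T) (d0 : 0 < δ) : Measurable (sl δ F) :=
  (continuous_log_sph d0).measurable.comp (h.meas_tR.div
    (continuous_mxw.measurable.comp (measurable_snd.comp measurable_snd)))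

theorem PB_sl (d0 : 0 < δ) (d1 : δ ≤ 1) : PB T (sl δ F) :=
  ⟨-Real.log δ, 0, fun p _ => by rw [pow_zero, mul_one]; exact abs_log_sph d0 d1 _⟩

theorem adm_sb (hadm : IsAdmissibleDatum (tX f) R) (d0 : 0 < δ) (d1 : δ ≤ 1) :
    IntegrableOn (fun q : R3 × R3 => sb δ (tX f) q.1 q.2) C2 := by
  refine Integrable.mono' (((adm_int hadm).mul_const (-Real.log δ)).add int_mxw)
    (measurable_sb d0 hadm.1).aestronglyMeasurable (Eventually.of_forall fun q => ?_)
  rw [Real.norm_of_nonneg (sb_nonneg d0 d1 _ _ _)]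
  have hm := mxw_pos q.2
  refine (mul_le_mul_of_nonneg_left (sbe_le' d0 d1 (div_nonneg (hadm.2.1 _ _) hm.le))
    hm.le).trans (le_of_eq ?_)
  simp only [Pi.add_apply]
  field_simp

theorem SH.ent_id (h : SH F f T) (hT : 0 ≤ T) (hadm : IsAdmissibleDatum (tX f) R) (d0 : 0 < δ)
    (d1 : δ ≤ 1) : IntegrableOn (fun q : R3 × R3 => sb δ (tR F T) q.1 q.2) C2 ∧
      ∫ q in C2, sb δ (tR F T) q.1 q.2 = (∫ q in C2, sb δ (tX f) q.1 q.2) +
        ∫ p in Om3 T, qq F p.1 p.2.1 p.2.2 * sl δ F p := by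
  refine soft_integ (u0 := sb δ (tX f)) (u1 := sb δ (tR F T))
    (w := fun s x v => qq F s x v * sl δ F (s, x, v))
    (measurable_sb d0 (h.meas_tR.comp (measurable_prodMk_left (x := T))))
    (fun v => h.hP.sf_comp (fun g => maxwellian v * sbe δ ((g v).toReal / maxwellian v)) T)
    (h.meas_qq.mul (h.meas_sl d0)) (fun t v x i => congrArg₂ (· * ·) (h.per_qq t v x i)
      (h.hP.sf_comp (fun g => Real.log (sph δ ((g v).toReal / maxwellian v))) t x i))
    (adm_sb hadm d0 d1) (h.wt_qq (h.meas_sl d0) (PB_sl d0 d1)) (h.char.mono fun q hq => ?_)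
  refine soft_chain (β := fun z => maxwellian q.2 * sbe δ (z / maxwellian q.2))
    (β' := fun z => Real.log (sph δ (z / maxwellian q.2))) hT hq.1 hq.2 (fun z => ?_)
    fun z => abs_log_sph d0 d1 _
  have h1 := (HasDerivAt.comp (h₂ := sbe δ) z (hasDerivAt_sbe d0 d1 (z / maxwellian q.2))
    ((hasDerivAt_id z).div_const (maxwellian q.2))).const_mul (maxwellian q.2)
  refine h1.congr_deriv ?_
  have := (mxw_pos q.2).ne'
  field_simp

theorem SH.meas_sDF (h : SH F f T) : Meas (sDF F) := by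
  have m : Measurable fun p : ℝ × R3 × R3 => maxwellian p.2.2 :=
    continuous_mxw.measurable.comp (measurable_snd.comp measurable_snd)
  exact ((m.add h.meas_tR).add
    (h.meas_tR.mul ((h.meas_tR.div m).log.max measurable_const))).ennreal_ofReal

theorem SH.int_sDF (h : SH F f T) : ∫⁻ z, bB (sDF F) z ∂La T < ⊤ := by
  refine (bB_le h.meas_sDF T).trans_lt (ENNReal.mul_lt_top (by norm_num) ?_)
  obtain ⟨c, hc⟩ : ∃ c, c = ∫⁻ v, br v ^ 1 * Mx v := ⟨_, rfl⟩
  have c0 : c < ⊤ := hc ▸ lintegral_br_Mx 1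
  calc _ ≤ ∫⁻ r in Ioo 0 T ×ˢ cell, (4 * c ^ 2 + 400 * mom 3 (F r.1 r.2) ^ 2) := by
        refine lintegral_mono fun r => ?_
        have h1 : ∫⁻ a, br a * sDF F r.1 r.2 a ≤ c + 10 * mom 3 (F r.1 r.2) := by
          unfold mom
          rw [hc, ← lintegral_const_mul' _ _ (by norm_num), ← lintegral_add_left
            (f := fun v => br v ^ 1 * Mx v) ((measurable_br.pow_const 1).mul measurable_Mx)]
          refine lintegral_mono fun a => ?_
          have h2 : sDF F r.1 r.2 a ≤ Mx a + 10 * (br a ^ 2 *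
              (F r.1 r.2 a + F r.1 r.2 a ^ (11 / 10 : ℝ))) := by
            refine (ENNReal.ofReal_le_ofReal (sD_le ENNReal.toReal_nonneg a)).trans (le_of_eq ?_)
            rw [ENNReal.ofReal_add (mxw_pos a).le (by positivity), ENNReal.ofReal_mul (by norm_num),
              ENNReal.ofReal_mul (by positivity), ENNReal.ofReal_pow (by positivity),
              ENNReal.ofReal_add ENNReal.toReal_nonneg (by positivity),
              ← ENNReal.ofReal_rpow_of_nonneg ENNReal.toReal_nonneg (by norm_num),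
              ENNReal.ofReal_toReal (h.hfin _ _ _), ENNReal.ofReal_ofNat]
            rfl
          refine (mul_le_mul_right h2 _).trans (le_of_eq ?_)
          ring
        refine (pow_le_pow_left' h1 2).trans ?_
        rcases le_total c (10 * mom 3 (F r.1 r.2)) with e | e
        · refine (pow_le_pow_left' (add_le_add_left e _) 2).trans (le_add_left (le_of_eq ?_))
          ring
        · refine (pow_le_pow_left' (add_le_add_right e _) 2).trans (le_add_right (le_of_eq ?_))
          ring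
    _ < ⊤ := by
        rw [lintegral_add_left measurable_const, setLIntegral_const,
          lintegral_const_mul' _ _ (by norm_num)]
        exact ENNReal.add_lt_top.2 ⟨ENNReal.mul_lt_top (ENNReal.mul_lt_top (by norm_num)
          (ENNReal.pow_lt_top c0)) (vol_base T), ENNReal.mul_lt_top (by norm_num) (h.hI 3)⟩

theorem SH.meas_pd (h : SH F f T) :
    Measurable fun z : Z5 => pairDissipation (bB F (cC z)).toReal (bB F z).toReal :=
  have m := measurable_pd.comp
    ((h.hF.sf_bB.comp measurable_cC).ennreal_toReal.prodMk h.hF.sf_bB.ennreal_toReal)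
  m

theorem SH.diss (h : SH F f T) : ∫⁻ s in Icc 0 T, dissipation (tR F s) =
    4⁻¹ * ∫⁻ z, pairDissipation (bB F (cC z)).toReal (bB F z).toReal ∂La T := by
  rw [lintegral_La T h.meas_pd, lintegral_Om3' T (measurable_La h.meas_pd),
    ← lintegral_const_mul' _ _ (by norm_num), setLIntegral_congr Ioo_ae_eq_Icc]
  simp only [bB, ENNReal.toReal_mul]
  rfl

theorem SH.entropy (h : SH F f T) (hT : 0 ≤ T) (hadm : IsAdmissibleDatum (tX f) R) :
    relEntropy (tR F T) + (∫⁻ s in Icc 0 T, dissipation (tR F s)) ≤ relEntropy (tX f) := by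
  obtain ⟨ρ, hρ⟩ : ∃ ρ : Z5 → ℝ, ρ = fun z => (bB (sDF F) z).toReal + (bB (sDF F) (cC z)).toReal :=
    ⟨_, rfl⟩
  have mB := h.meas_sDF.sf_bB
  have iB := integrable_toReal_of_lintegral_ne_top mB.aemeasurable h.int_sDF.ne
  have iρ : Integrable ρ (La T) := by
    have := iB.add ((mp_cC T).integrable_comp_of_integrable iB)
    rw [hρ]
    exact this
  have mρ : Measurable ρ := by
    have := mB.ennreal_toReal.add (mB.comp measurable_cC).ennreal_toReal
    rw [hρ]
    exact this
  have ρ0 : ∀ z, 0 ≤ ρ z := fun z => by rw [hρ]; positivity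
  have eD : ∀ z, (bB (sDF F) z).toReal = sD (uF F z.1).toReal (maxwellian z.1.2.2) *
      sD (uF F (cS z).1).toReal (maxwellian z.2.1) := fun z => by
    unfold bB
    rw [ENNReal.toReal_mul]
    exact congrArg₂ (· * ·) (ENNReal.toReal_ofReal (sD_nonneg ENNReal.toReal_nonneg (mxw_pos _)))
      (ENNReal.toReal_ofReal (sD_nonneg ENNReal.toReal_nonneg (mxw_pos _)))
  obtain ⟨E, hE⟩ : ∃ E : ℕ → Z5 → ℝ, E = fun n z => ((bB F (cC z)).toReal - (bB F z).toReal) *
      (sl (sdl n) F (cC z).1 + sl (sdl n) F (cS (cC z)).1 - sl (sdl n) F z.1 -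
        sl (sdl n) F (cS z).1) := ⟨_, rfl⟩
  have mE : ∀ n, Measurable (E n) := fun n => by
    have m : Measurable fun z : Z5 => sl (sdl n) F z.1 := (h.meas_sl (sdl_pos n)).comp measurable_fst
    have := ((h.hF.sf_bB.comp measurable_cC).ennreal_toReal.sub h.hF.sf_bB.ennreal_toReal).mul
      ((((m.comp measurable_cC).add (m.comp (measurable_cS.comp measurable_cC))).sub m).sub
        (m.comp measurable_cS))
    rw [hE]
    exact this
  have E0 : ∀ n, ∀ᵐ z ∂La T, 0 ≤ E n z + ρ z := fun n => (ae_La T).mono fun z hz => by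
    simp only [hρ, eD]
    simp only [hE, bB, ENNReal.toReal_mul]
    exact soft_lower (sdl_pos n) (sdl_le n) ENNReal.toReal_nonneg ENNReal.toReal_nonneg
      ENNReal.toReal_nonneg ENNReal.toReal_nonneg (mxw_pos _) (mxw_pos _) (mxw_pos _) (mxw_pos _)
      (mxw_coll _ _ _ hz)
  have F1 : ∫⁻ z, 4⁻¹ * (pairDissipation (bB F (cC z)).toReal (bB F z).toReal +
      ENNReal.ofReal (ρ z)) ∂La T ≤
      liminf (fun n => ∫⁻ z, 4⁻¹ * ENNReal.ofReal (E n z + ρ z) ∂La T) atTop := by
    refine soft_fatou_ae (fun n => ((mE n).add mρ).ennreal_ofReal.const_mul _)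
      ((ae_La T).mono fun z hz => ENNReal.Tendsto.const_mul ?_ (Or.inr (by norm_num)))
    simp only [hE, bB, ENNReal.toReal_mul]
    exact soft_fatou ENNReal.toReal_nonneg ENNReal.toReal_nonneg
      ENNReal.toReal_nonneg ENNReal.toReal_nonneg (mxw_pos _) (mxw_pos _) (mxw_pos _) (mxw_pos _)
      (mxw_coll _ _ _ hz) (ρ0 z)
  have F2 : relEntropy (tR F T) ≤
      liminf (fun n => ∫⁻ q in C2, ENNReal.ofReal (sb (sdl n) (tR F T) q.1 q.2)) atTop := by
    refine soft_fatou_ae (fun n => (measurable_sb (sdl_pos n)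
      (h.meas_tR.comp (measurable_prodMk_left (x := T)))).ennreal_ofReal)
      (Eventually.of_forall fun q => ENNReal.tendsto_ofReal ?_)
    rw [← mxw_ent]
    exact (tendsto_sbe (div_nonneg ENNReal.toReal_nonneg (mxw_pos _).le)).const_mul _
  have F3 : ∀ n, (∫⁻ q in C2, ENNReal.ofReal (sb (sdl n) (tR F T) q.1 q.2)) +
      ∫⁻ z, 4⁻¹ * ENNReal.ofReal (E n z + ρ z) ∂La T ≤
      relEntropy (tX f) + 4⁻¹ * ∫⁻ z, ENNReal.ofReal (ρ z) ∂La T := by
    intro n
    obtain ⟨a1, a2⟩ := h.ent_id hT hadm (sdl_pos n) (sdl_le n)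
    obtain ⟨b1, b2⟩ := h.sym (h.meas_sl (sdl_pos n)) (PB_sl (sdl_pos n) (sdl_le n))
    have b1' : Integrable (E n) (La T) := by rw [hE]; exact b1
    have b2' : ∫ z, E n z ∂La T = -4 * ∫ p in Om3 T, qq F p.1 p.2.1 p.2.2 * sl (sdl n) F p := by
      rw [hE]; exact b2
    have b3 : Integrable (fun z => E n z + ρ z) (La T) := b1'.add iρ
    have c0 : ENNReal.ofReal (∫ q in C2, sb (sdl n) (tX f) q.1 q.2) ≤ relEntropy (tX f) := by
      rw [ofReal_integral_eq_lintegral_ofReal (adm_sb hadm (sdl_pos n) (sdl_le n))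
        (Eventually.of_forall fun q => sb_nonneg (sdl_pos n) (sdl_le n) _ _ _)]
      refine lintegral_mono fun q => ENNReal.ofReal_le_ofReal ?_
      rw [← mxw_ent]
      exact mul_le_mul_of_nonneg_left (sbe_le (sdl_pos n)
        (div_nonneg (hadm.2.1 _ _) (mxw_pos _).le)) (mxw_pos _).le
    have e4 : (4⁻¹ : ℝ≥0∞) = ENNReal.ofReal 4⁻¹ := by
      rw [ENNReal.ofReal_inv_of_pos (by norm_num), ENNReal.ofReal_ofNat]
    rw [lintegral_const_mul' _ _ (by norm_num), ← ofReal_integral_eq_lintegral_ofReal a1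
      (Eventually.of_forall fun q => sb_nonneg (sdl_pos n) (sdl_le n) _ _ _),
      ← ofReal_integral_eq_lintegral_ofReal b3 (E0 n),
      ← ofReal_integral_eq_lintegral_ofReal iρ (Eventually.of_forall ρ0), e4,
      ← ENNReal.ofReal_mul (by norm_num), ← ENNReal.ofReal_mul (by norm_num),
      ← ENNReal.ofReal_add (integral_nonneg fun q => sb_nonneg (sdl_pos n) (sdl_le n) _ _ _)
        (mul_nonneg (by norm_num) (integral_nonneg_of_ae (E0 n)))]
    refine le_trans ((ENNReal.ofReal_le_ofReal (le_of_eq ?_)).trans ENNReal.ofReal_add_le)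
      (add_le_add c0 le_rfl)
    rw [integral_add b1' iρ, a2, b2']
    ring
  have F4 := (add_le_add F2 F1).trans (soft_liminf F3)
  rw [lintegral_const_mul' _ _ (by norm_num), lintegral_add_right _ mρ.ennreal_ofReal, mul_add,
    ← add_assoc, ← h.diss] at F4
  refine (ENNReal.add_le_add_iff_right (ENNReal.mul_ne_top (by norm_num) ?_)).1 F4
  rw [← ofReal_integral_eq_lintegral_ofReal iρ (Eventually.of_forall ρ0)]
  exact ENNReal.ofReal_ne_top

end ent

end

end Crest.Agent.R68.Sf
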