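import Crest.Agent.R68.A4
import Crest.Agent.R68.A5
import Crest.Agent.R68.Soft5
import Crest.Agent.R68.Soft6

/-!
# R68 (S0091): from the additive mild form to the solution class of the statement

SUB-LEAD file.  Standing data: `F : PF` measurable, periodic, finite, `f : XF` finite with
`tX f` admissible, `AMae F f T`, `Integ F T`.

Implementation: `Soft1`-`Soft6` (the entropy inequality uses the truncation of `F/M` to `[δ, δ⁻¹]`
and Fatou's lemma with a fixed integrable minorant instead of (S5) below).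

Plan.
* (S1) integrability.  With `G = Qp (F s x) (F s x) v`, `L = Nu (F s x) v * F s x v`:
  `∫_v br^k G ≤ C (∫ br^{k+1} F)²` (`Qp_weak`, `br v' ≤ 2 br v * br a` by `coll_energy`, `Nn_le_br`),
  the same for `L`; so `∫_{Om3 T} br^k (G + L) < ∞` by `Integ`.  By `lintegral_shear` (A7) the
  same integrals in characteristic coordinates `(s, y + s v, v)` are equal; hence for a.e.
  `(y, v)` the time integrals of `G` and `L` along the characteristic are finite, and
  `g(t) = (F t (y + t v) v).toReal = f + ∫₀ᵗ (G - L)` for all `t ∈ [0,T]`.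
* (S2) one-dimensional lemmas for `g(t) = g₀ + ∫₀ᵗ q`, `q ∈ L¹`: product rule
  `g(T)φ(T) - g₀φ(0) = ∫ (gφ' + qφ)` for `C¹` functions `φ` (Fubini), and the chain rule
  `β(g(t)) - β(g₀) = ∫₀ᵗ β'(g) q` for `β ∈ C¹` on a neighbourhood of the (compact) range
  (e.g. telescoping over a fine partition with uniform continuity of `β' ∘ g`, or Mathlib's
  `AbsolutelyContinuousOnInterval`).
* (S3) weak formulation: `d/ds φ(s, y + s v, v) = transportD φ`, product rule, integrate over
  `cell × ℝ³`, unfold with `lintegral_shear`/`integral_cell_add`.  Local conservation: same with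
  `ψ(v) ϕ(t,x)` and `∫ ψ (G - L) dv = 0` (symmetrise with `lintegral_coll`, `postVel_swap`,
  `ψ' + ψ*' = ψ + ψ*`).  Momentum/energy: `ϕ = 1` directly from (S1).
* (S4) `L¹` continuity: `∫|F(s, x, v) - F(t, x, v)| ≤ ∫∫_s^t (G + L) + ∫|F(t, x - (s-t) v, v) - F(t,x,v)|`,
  the first by absolute continuity of the integral, the second by continuity of translations in
  `L¹` (approximate the periodic function; e.g. cut `F(t)` to a bounded region `Θ` in `x` and use
  `MeasureTheory.Lp.compMeasurePreserving_continuous` / density of continuous compactly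
  supported functions).
* (S5) entropy.  Put `Gδ = F + δ M > 0`, `β(z) = z log(z/M) - z + M` (`M = M(v)` is constant on a
  characteristic); chain rule: `H(Gδ(t)) = H(Gδ(0)) + ∫∫ (G - L) log(Gδ/M)`.  Integrability:
  `-|log δ| ≤ log(Gδ/M)`, and for the positive part, with `A = F'F*'`,
  `A log⁺(Gδ/M) ≤ A log(A/(M M*)) - A + max(Gδ,M) M*` (from `x log(y/x) ≤ y - x`), where
  `M M* = M' M*'`, `lintegral_coll`, and `F log⁺(F/M) ≤ C (F^{11/10} + br² F)`.
  Symmetrise: `∫(G-L) log(Gδ/M) = -¼ ∫ B (A - B₀) log(Aδ/Bδ)` with `Aδ = Gδ'Gδ*'`, `Bδ = Gδ Gδ*`,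
  `B₀ = F F*`.  Write `A - B₀ = (Aδ - Bδ) - (E' - E)`, `E = Bδ - B₀ = δ(M F* + F M*) + δ² M M*`.
  `(Aδ - Bδ) log(Aδ/Bδ) ≥ 0` has `liminf ≥ pairDissipation A B₀` (Fatou along `δ = 1/n`), and
  `E log(Bδ/Aδ) ≤ E (log⁺(Gδ/M) + log⁺(Gδ*/M*) + 2|log δ|)` whose integral tends to `0`
  (`δ F M* log⁺(Gδ*/M*) ≤ δ F Gδ*`); the `E'` term is the same after `lintegral_coll`.
  Fatou for `H(Gδ(t))`, dominated convergence for `H(Gδ(0))`.
* (S6) the bound on mass, energy and `∫ F |log F|` follows from conservation and (S5):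
  `F |log F| ≤ β(F) + C (F (1 + ‖v‖²) + M)`-type inequalities
  (`z |log z| ≤ z log z + 2 z ‖v‖² + C e^{-‖v‖²/2}`).
-/

set_option autoImplicit false

namespace Crest.Agent.R68

open MeasureTheory Set Filter Crest.AnalysisR.VecCalc3 Crest.AnalysisR.PDE.Boltzmann
open scoped ENNReal _root_.Topology
open Sf

noncomputable section

/-- the entropy inequality on a finite time interval -/
theorem entropy_le {F : PF} {f : XF} {R T : ℝ} (hF : Meas F) (hP : Per F)
    (hfin : ∀ t x v, F t x v ≠ ⊤) (hf : ∀ x v, f x v ≠ ⊤) (hadm : IsAdmissibleDatum (tX f) R)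
    (hAM : AMae F f T) (hI : Integ F T) {t : ℝ} (ht : t ∈ Icc 0 T) :
    relEntropy (tR F t) + (∫⁻ s in Icc 0 t, dissipation (tR F s)) ≤ relEntropy (tX f) :=
  ((SH.mk hF hP hfin hf hAM hI).mono ht.2).entropy ht.1 hadm

theorem soft_H_fin {g : R3 → R3 → ℝ} {R : ℝ} (h : IsAdmissibleDatum g R) : relEntropy g < ⊤ := by
  calc _ ≤ ∫⁻ q in C2, (10 * ENNReal.ofReal (g q.1 q.2 * (1 + ‖q.2‖ ^ 2 + |Real.log (g q.1 q.2)|)) +
        Mx q.2) := by
        refine lintegral_mono fun q => (ENNReal.ofReal_le_ofReal (H_le_ent (h.2.1 _ _) _)).trans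
          (ENNReal.ofReal_add_le.trans (le_of_eq ?_))
        rw [ENNReal.ofReal_mul (by norm_num), ENNReal.ofReal_ofNat]
        rfl
    _ < ⊤ := by
        rw [lintegral_add_right _ (g := fun q : R3 × R3 => Mx q.2) (measurable_Mx.comp measurable_snd),
          lintegral_const_mul' _ _ (by norm_num)]
        exact ENNReal.add_lt_top.2 ⟨ENNReal.mul_lt_top (by norm_num) h.2.2.2.2, lintegral_Mx_C2⟩

theorem soft_bound {F : PF} {f : XF} {R t : ℝ} (h : SH F f t) (ht : 0 ≤ t)
    (hadm : IsAdmissibleDatum (tX f) R) :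
    ∫⁻ q in C2, ENNReal.ofReal (tR F t q.1 q.2 * (1 + ‖q.2‖ ^ 2 + |Real.log (tR F t q.1 q.2)|)) ≤
      relEntropy (tX f) + ENNReal.ofReal (20 * (∫ q in C2, tX f q.1 q.2 * 1) +
        2 * (∫ q in C2, tX f q.1 q.2 * ‖q.2‖ ^ 2) + 2 * ∫ q in C2, maxwellian q.2) := by
  obtain ⟨a1, -, a2⟩ := h.moment ht hadm CI_one
  obtain ⟨b1, -, b2⟩ := h.moment ht hadm CI_sq
  have i1 : IntegrableOn (fun q : R3 × R3 => 20 * (tR F t q.1 q.2 * 1) +
      2 * (tR F t q.1 q.2 * ‖q.2‖ ^ 2)) C2 := (a1.const_mul 20).add (b1.const_mul 2)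
  have i2 : IntegrableOn (fun q : R3 × R3 => 20 * (tR F t q.1 q.2 * 1) +
      2 * (tR F t q.1 q.2 * ‖q.2‖ ^ 2) + 2 * maxwellian q.2) C2 := i1.add (int_mxw.const_mul 2)
  have p : ∀ q : R3 × R3, 0 ≤ tR F t q.1 q.2 := fun q => ENNReal.toReal_nonneg
  rw [← a2, ← b2, ← integral_const_mul, ← integral_const_mul, ← integral_const_mul,
    ← integral_add (a1.const_mul 20) (b1.const_mul 2), ← integral_add i1 (int_mxw.const_mul 2),
    ofReal_integral_eq_lintegral_ofReal i2 (Eventually.of_forall fun q => by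
      have := p q
      have := mxw_pos q.2
      positivity)]
  refine le_trans ?_ (add_le_add (le_self_add.trans (h.entropy ht hadm)) le_rfl)
  unfold relEntropy
  rw [← lintegral_add_right' _ i2.1.aemeasurable.ennreal_ofReal]
  refine lintegral_mono fun q => (ENNReal.ofReal_le_ofReal ?_).trans ENNReal.ofReal_add_le
  linarith [ent_le_H (p q) q.2]

/-- the main theorem of this part -/
theorem soft {F : PF} {f : XF} {R : ℝ} (hF : Meas F) (hP : Per F)
    (hfin : ∀ t x v, F t x v ≠ ⊤) (h0 : ∀ x v, F 0 x v = f x v)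
    (hadm : IsAdmissibleDatum (tX f) R) (hAM : ∀ T, AMae F f T) (hI : ∀ T, Integ F T) :
    IsGlobalSolution (tR F) (tX f) := by
  have h : ∀ T, SH F f T := fun T => ⟨hF, hP, hfin, fun x v => h0 x v ▸ hfin 0 x v, hAM T, hI T⟩
  refine ⟨(h 0).meas_tR, fun _ _ _ _ => ENNReal.toReal_nonneg, (h 0).per_tR,
    fun x v => congrArg ENNReal.toReal (h0 x v), soft_weak h hadm, soft_local h hadm,
    fun T => ⟨_, ENNReal.add_lt_top.2 ⟨soft_H_fin hadm, ENNReal.ofReal_lt_top⟩,
      fun t ht => soft_bound (h t) ht.1 hadm⟩, fun t ht => soft_cont h hadm ht, fun T k => ?_,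
    fun t ht i => ?_, fun t ht => ?_, fun t ht => (h t).entropy ht hadm⟩
  · refine lt_of_le_of_lt (lintegral_mono (g := fun p => br p.2.2 ^ k * uG F p +
      br p.2.2 ^ k * uL F p) fun p => ?_) ?_
    · beta_reduce
      rw [collGain_eq (hfin _ _), collLoss_eq (hF.slice _ _) (hfin _ _), ← mul_add]
      refine mul_le_mul_left ?_ _
      unfold br
      rw [← ENNReal.ofReal_pow (by positivity)]
      refine ENNReal.ofReal_le_ofReal ((Real.rpow_le_rpow (by positivity)
        (show 1 + ‖p.2.2‖ ^ 2 ≤ (1 + ‖p.2.2‖) ^ 2 by nlinarith [norm_nonneg p.2.2])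
        (by positivity)).trans (le_of_eq ?_))
      rw [← Real.rpow_natCast, ← Real.rpow_mul (by positivity), ← Real.rpow_natCast]
      congr 1
      push_cast
      ring
    · rw [lintegral_add_left (f := fun p => br p.2.2 ^ k * uG F p) ((measurable_br3 k).mul hF.sf_uG)]
      exact ENNReal.add_lt_top.2 ⟨(h T).int_G k, (h T).int_L k⟩
  · obtain ⟨a1, -, a2⟩ := (h t).moment ht hadm (CI_coord i)
    simp only [mul_comm (tR F t _ _), mul_comm (tX f _ _)] at a1 a2
    exact ⟨a1, a2⟩
  · obtain ⟨a1, a2, a3⟩ := (h t).moment ht hadm CI_sq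
    simp only [mul_comm (‖_‖ ^ 2)]
    rw [← ofReal_integral_eq_lintegral_ofReal a1 (Eventually.of_forall fun q =>
      mul_nonneg ENNReal.toReal_nonneg (sq_nonneg _)), ← ofReal_integral_eq_lintegral_ofReal a2
      (Eventually.of_forall fun q => mul_nonneg ENNReal.toReal_nonneg (sq_nonneg _)), a3]

end

end Crest.Agent.R68
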