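import Crest.Agent.R68.GDef
import Crest.Agent.R68.X1
import Crest.Agent.R68.Soft
import Crest.Agent.R68.GuoB
import Crest.Agent.R68.GuoD
import Crest.Agent.R68.GuoE

/-!
# R68 (S0091): the late phase (entropy + double Duhamel)

SUB-LEAD file (argument of Guo for bounded solutions with small relative entropy).

Notation: `C = clamp lo hi F`, for `s > T₁` it satisfies `Near (C s x v) (M v) (Wl s x v)`.
`D = Dd ν τ`, `G_s = Gw τ s = Gs θ_s`, `θ_s ∈ [1/5, 1/4]` (`τ ≤ 1/20`), `G_s ≤ G_t` for `s ≤ t`.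
* (G1) `Nu (C s x) v ≥ (ν₀/2) br v` for `s ≥ τ` (`M ≤ C + W`, `Nu_Mx_ge`, `freq`,
  `D(s) η (1+s)⁴ ≤ c(ν) η`), so `att (Hz C y v s t) ≤ exp(-(ν₀/2) br v (t - max s τ)₊)`; in
  particular `≤ D(t)` for `s = T₁`, `ν ≤ ν₀/2`.  `Hz` is finite as `C ≤ n G_{1/5}`.
* (G2) one Duhamel step.  Let `w = (C - M) + (M - C) ≤ W` and `u = (w - D Sg) / G_s ≤ b`
  (truncated subtraction), so `w ≤ D Sg + u G`.  From `C ≤ M + w`, `M ≤ C + w`:
  `Near (Qp C C) (Nu C * M) (2 Qp w M + Nu w * M + c Qp w w)` (use `Qp M M = Nu M * M`,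
  bilinearity, `Qp_comm`; for the lower bound e.g. `Qp M M ≤ Qp C C + 2 Qp w M`: from
  `M ≤ C' + w'` with `C' = C ⊓ M ≤ M`).  With `Mild.restart` at `T₁` and `layer_bwd_eq`
  (`M = att M + ∫ att Nu C M`):
  `Near (F t) M (D(t) Sg(t) + G_t (ε₀ + c ∫_{T₁}^t a(s,t,v) ∫ kk(v - a) u(s, y + s v, a) da ds))` with
  `a(s,t,v) = att (Hz …)`, `ε₀ = η + c (C τ + c(ν) η) + c b² (√τ + 1)` (`lin_le_kk`, `SgHyp`,
  `lintegral_br_decay`).  The same bound holds for `u(t)`, i.e. for the clamped function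
  (clamping towards an interval containing `M` does not increase the distance to `M`).
* (G3) abstract double Duhamel lemma: for every `κ > 0` there are `ρ, Λ < ∞` (depending only on
  `κ, c, ν₀`) such that if `u ≤ b` is measurable, periodic on `[T₁,t₀]`, satisfies
  `u(t,x,v) ≤ ε₁ + c ∫_{T₁}^t e^{-(ν₀/2) br v (t-s)} ∫ kk(v-a) u(s, x-(t-s)v, a)` and
  `∫_cell ∫_{‖a‖ ≤ ρ} u(s) ≤ ε₂` for all `s`, then `u ≤ Λ (ε₁ + ε₂) + κ b`.  (`u ≤ ε₁ + c' b/ρ` for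
  `‖v‖ ≥ ρ`; iterate twice; cut `s - s' < κ'`; `kk ≤ Λ' + kk 1_{kk > Λ'}`; `disp3`.)
  The part `s < τ` of the integral in (G2) is at most `c τ b` and goes into `ε₁`.
* (G4) Pinsker-type bound: `|z - 1| ≤ ε + C_ε (z log z - z + 1)`, so
  `∫_cell ∫_{‖a‖ ≤ ρ} w/G ≤ e^{ρ²} (ε ∫M + C_ε H(F s))`; `H(F s) ≤ η` by `entropy_le` as long as the
  clamp is inactive on `[0,s]` (`Mild.congr`, `Mild.am_of_le`).
* (G5) induction on `t₀ = T₁ + k h`: inactive on `[0,t₀]` ⇒ `u ≤ 2κ b` on `[T₁,t₀]` (G3, G4) ⇒ by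
  (G2) for `t ≤ t₀ + h`: `Near (F t) M (D Sg + G (ε₁ + c' 2κ b + c' h b))`, and the bracket is `≤ b`.
Order of choices: `κ, h, ρ, Λ` universal; `ν ≤ ν₀/2`; `b` small; `τ ≪ b`; `ε ≪ b`; `η ≪ b`.
-/

set_option autoImplicit false

namespace Crest.Agent.R68

open MeasureTheory Set Filter Crest.AnalysisR.VecCalc3 Crest.AnalysisR.PDE.Boltzmann
open scoped ENNReal _root_.Topology

noncomputable section

theorem guo_small {X Y : ℝ≥0∞} (hX : X ≠ ⊤) (hY : Y ≠ 0) :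
    ∀ᶠ x in 𝓝 (0 : ℝ), X * ENNReal.ofReal x ≤ Y := by
  have h1 : Tendsto (fun x : ℝ => X * ENNReal.ofReal x) (𝓝 0) (𝓝 (X * ENNReal.ofReal 0)) :=
    ENNReal.Tendsto.const_mul (ENNReal.continuous_ofReal.tendsto 0) (Or.inr hX)
  rw [ENNReal.ofReal_zero, mul_zero] at h1
  exact h1.eventually (ge_mem_nhds (pos_iff_ne_zero.2 hY))

theorem guo_small' {X Y : ℝ≥0∞} (hX : X ≠ ⊤) (hY : Y ≠ 0) :
    ∀ᶠ x in 𝓝[>] (0 : ℝ), X * ENNReal.ofReal x ≤ Y :=
  (guo_small hX hY).filter_mono nhdsWithin_le_nhds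

theorem guo_quarter (B : ℝ≥0∞) : B / 4 + B / 4 + B / 4 + B / 4 = B := by
  rw [← ENNReal.add_div, ← ENNReal.add_div, ← ENNReal.add_div,
    show B + B + B + B = 4 * B by ring, mul_comm, ENNReal.mul_div_cancel_right] <;> simp

/-- (G5) the bootstrap -/
theorem guo_core {C ν b τ η T₁ μ R k ρ : ℝ} {δ n c e e₂ κ Λ : ℝ≥0∞} {Sg F lo hi : PF} {f : XF}
    (h : Ctx C ν b τ η T₁ δ n Sg F lo hi f) (hμ : 0 < μ) (hk : 0 < k) (pF : Per F) (pl : Per lo)
    (ph : Per hi) (hfin : ∀ t x v, F t x v ≠ ⊤) (hf : ∀ x v, f x v ≠ ⊤)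
    (hadm : IsAdmissibleDatum (tX f) R) (hent : relEntropy (tX f) ≤ ENNReal.ofReal η)
    (h0 : ∀ t ∈ Ioc 0 T₁, ∀ x v, lo t x v ≤ F t x v ∧ F t x v ≤ hi t x v)
    (hstep : ∀ t, T₁ < t → ∀ y v, Near (F t (y + t • v) v) (Mx v) (Dd ν τ t * Sg t (y + t • v) v +
      (e + c * ∫⁻ s in Ioo τ t, ex (μ * (1 + ‖v‖)) (t - s) *
        Kc (uu ν τ Sg (clamp lo hi F) s (y + s • v)) v) * Gw τ t v))
    (hdd : ∀ (u : PF) (τ t₀ : ℝ) (b ε₁ ε₂ : ℝ≥0∞), Meas u → Per u →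
      (∀ t ∈ Ioc τ t₀, ∀ x v, u t x v ≤ b) →
      (∀ t ∈ Ioc τ t₀, ∀ y v, u t (y + t • v) v ≤
        ε₁ + c * ∫⁻ s in Ioo τ t, ex (μ * (1 + ‖v‖)) (t - s) * Kc (u s (y + s • v)) v) →
      (∀ t ∈ Ioc τ t₀, ∫⁻ x in cell, ∫⁻ a in Metric.closedBall (0 : R3) ρ, u t x a ≤ ε₂) →
      ∀ t ∈ Ioc τ t₀, ∀ x v, u t x v ≤ Λ * (ε₁ + ε₂) + κ * b)
    (hpin : ∀ θ : ℝ, θ ≤ 1 / 4 → ∀ g : XF, MeasX g → (∀ x a, g x a ≠ ⊤) →
      relEntropy (tX g) ≤ ENNReal.ofReal η →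
      ∫⁻ x in cell, ∫⁻ a in Metric.closedBall (0 : R3) ρ, dst (g x a) (Mx a) / Gs θ a ≤ e₂)
    (hs : e + c * (ENNReal.ofReal μ⁻¹ * (Kt * (Λ * (e + e₂) + κ * ENNReal.ofReal b)) +
      Kt * ENNReal.ofReal b * ENNReal.ofReal k) ≤ ENNReal.ofReal b) :
    ∀ t, 0 < t → ∀ x v, lo t x v ≤ F t x v ∧ F t x v ≤ hi t x v := by
  have hT0 := h.T0
  have hτ0 : 0 ≤ τ := hT0.le.trans h.Tτ
  set u := uu ν τ Sg (clamp lo hi F) with hu
  have mCl : Meas (clamp lo hi F) := Meas.clamp h.ml h.mh h.mF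
  have mu : Meas u := Meas.uu h.sg.meas mCl
  have pu : Per u := Per.uu h.sg.per (Per.clamp pl ph pF)
  have H : ∀ j : ℕ, ∀ t ∈ Ioc 0 (T₁ + j * k), ∀ x v, lo t x v ≤ F t x v ∧ F t x v ≤ hi t x v := by
    intro j
    induction j with
    | zero => simpa using h0
    | succ j ih =>
      set t₀ := T₁ + j * k with ht₀
      have hTt : T₁ ≤ t₀ := le_add_of_nonneg_right (by positivity)
      have hcl : ∀ t ∈ Ioc 0 t₀, ∀ x v, clamp lo hi F t x v = F t x v := fun t ht x v =>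
        clamp_eq (ih t ht x v).1 (ih t ht x v).2
      have hmild : Mild F F f t₀ := (h.mild t₀).congr fun s hs => hcl s ⟨hs.1, hs.2.le⟩
      obtain ⟨hAM, hI⟩ := hmild.am_of_le h.hn h.mF fun s hs x v =>
        (ih s ⟨hs.1, hs.2.le⟩ x v).2.trans (h.hhi s x v hs.1)
      have hB : ∀ t ∈ Ioc τ t₀, ∀ x v, u t x v ≤ Λ * (e + e₂) + κ * ENNReal.ofReal b := by
        refine hdd u τ t₀ _ _ _ mu pu (fun t ht x v => h.uu_le (h.Tτ.trans_lt ht.1) x v)
          (fun t ht y v => ?_) (fun t ht => ?_)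
        · refine uu_le_iff.2 ?_
          rw [hcl t ⟨hτ0.trans_lt ht.1, ht.2⟩]
          exact hstep t (h.Tτ.trans_lt ht.1) y v
        · have ht0 : 0 < t := hτ0.trans_lt ht.1
          have he := entropy_le h.mF pF hfin hf hadm (Eventually.of_forall fun q => hAM q.1 q.2) hI
            (t := t) ⟨ht0.le, ht.2⟩
          refine le_trans ?_ (hpin _ (theta_mem h.τ1 hτ0 ht0.le).2 (F t) (h.mF.sliceX t) (hfin t)
            ((le_self_add.trans he).trans hent))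
          refine lintegral_mono fun x => lintegral_mono fun a => ?_
          rw [hu, uu, hcl t ⟨ht0, ht.2⟩]
          exact ENNReal.div_le_div_right tsub_le_self _
      intro t ht x v
      rcases le_or_gt t t₀ with h1 | h1
      · exact ih t ⟨ht.1, h1⟩ x v
      have hT : T₁ < t := hTt.trans_lt h1
      have htk : t - t₀ ≤ k := by
        have := ht.2
        push_cast at this
        linarith
      have h2 := hstep t hT (x - t • v) v
      rw [sub_add_cancel] at h2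
      rw [(h.hlh t hT x v).1, (h.hlh t hT x v).2]
      refine near_of_mem.1 (h2.mono' (add_le_add le_rfl (mul_le_mul' (le_trans ?_ hs) le_rfl)))
      refine add_le_add le_rfl (mul_le_mul' le_rfl ?_)
      have mex : Measurable fun s : ℝ => ex μ (t - s) :=
        measurable_ex.comp (f := fun s : ℝ => (μ, t - s)) (by fun_prop)
      calc _ ≤ ∫⁻ s in Ioo τ t, (ex μ (t - s) * (Kt * (Λ * (e + e₂) + κ * ENNReal.ofReal b)) +
              (Ioo t₀ t).indicator (fun _ => Kt * ENNReal.ofReal b) s) := by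
            refine setLIntegral_mono' measurableSet_Ioo fun s hs => ?_
            rcases le_or_gt s t₀ with h3 | h3
            · refine le_trans (mul_le_mul' (ex_anti ?_ (by linarith [hs.2]))
                (Kc_le (hB s ⟨hs.1, h3⟩ _) v)) le_self_add
              nlinarith [norm_nonneg v]
            · rw [indicator_of_mem (show s ∈ Ioo t₀ t from ⟨h3, hs.2⟩)]
              refine le_trans (mul_le_mul' (ex_le_one (by positivity) (by linarith [hs.2]))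
                (Kc_le (h.uu_le (hTt.trans_lt h3) _) v)) ?_
              rw [one_mul]
              exact le_add_self
        _ ≤ _ := by
            rw [lintegral_add_left (mex.mul_const _), lintegral_mul_const _ mex]
            refine add_le_add (mul_le_mul' (lintegral_ex hμ τ t) le_rfl) ?_
            refine (setLIntegral_le_lintegral _ _).trans ?_
            rw [lintegral_indicator_const measurableSet_Ioo, Real.volume_Ioo]
            exact mul_le_mul' le_rfl (ENNReal.ofReal_le_ofReal htk)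
  intro t ht
  obtain ⟨j, hj⟩ := exists_nat_ge (t / k)
  rw [div_le_iff₀ hk] at hj
  exact H j t ⟨ht, by linarith⟩

theorem guo (C : ℝ) : ∀ᶠ ν in 𝓝[>] (0 : ℝ), ∀ᶠ b in 𝓝[>] (0 : ℝ), ∀ᶠ τ in 𝓝[>] (0 : ℝ),
    ∀ᶠ η in 𝓝[>] (0 : ℝ), ∀ (Sg F lo hi : PF) (f : XF) (T₁ R : ℝ) (n : ℝ≥0∞), n ≠ ⊤ →
    0 < T₁ → T₁ ≤ τ → SgHyp C τ η T₁ Sg → Meas F → Per F → (∀ t x v, F t x v ≠ ⊤) →
    Meas lo → Meas hi → Per lo → Per hi →
    (∀ t x v, 0 < t → hi t x v ≤ n * Gs (1 / 5) v) →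
    (∀ t, T₁ < t → ∀ x v, hi t x v = Mx v + Wl ν b τ Sg t x v ∧
      lo t x v = Mx v - Wl ν b τ Sg t x v) →
    (∀ T, Mild F (clamp lo hi F) f T) →
    (∀ t ∈ Ioc 0 T₁, ∀ x v, lo t x v ≤ F t x v ∧ F t x v ≤ hi t x v) →
    (∀ x v, f x v ≠ ⊤) → IsAdmissibleDatum (tX f) R → relEntropy (tX f) ≤ ENNReal.ofReal η →
    (∀ x v, Near (F T₁ x v) (Mx v) (Sg T₁ x v + ENNReal.ofReal η * Gs (1 / 4) v)) →
    ∀ t, 0 < t → ∀ x v, lo t x v ≤ F t x v ∧ F t x v ≤ hi t x v := by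
  obtain ⟨c, hc, hstep⟩ := guo_step
  obtain ⟨μ, cF, hμ, hcF, hfreq⟩ := guo_freq
  have hK := Kt_ne_top
  set m := ENNReal.ofReal μ⁻¹ with hm
  have hm' : m ≠ ⊤ := ENNReal.ofReal_ne_top
  have h4 : (4⁻¹ : ℝ≥0∞) ≠ 0 := by simp
  obtain ⟨κ, hκ, hκ0⟩ := ((guo_small' (X := c * m * Kt) (by finiteness) h4).and
    self_mem_nhdsWithin).exists
  obtain ⟨k, hk, hk0⟩ := ((guo_small' (X := c * Kt) (by finiteness) h4).and
    self_mem_nhdsWithin).exists
  obtain ⟨ρ, Λ, hΛ, hdd⟩ := guo_dd c hc hμ (κ := ENNReal.ofReal κ) (by simpa using hκ0)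
  obtain ⟨cP, hcP, hpin⟩ := guo_pinsker ρ
  set L := 1 + c * m * Kt * Λ with hL
  have hL' : L ≠ ⊤ := by finiteness
  have hμ2 : ENNReal.ofReal μ / 2 ≠ 0 := by simpa using hμ
  filter_upwards [Ioc_mem_nhdsGT hμ] with ν hν
  obtain ⟨cD, hcD, hdec⟩ := guo_decay hν.1
  filter_upwards [Ioc_mem_nhdsGT one_pos, guo_small' hcF hμ2,
    guo_small' (X := L * c * m) (Y := 2⁻¹ * 4⁻¹) (by finiteness) (by simp)] with b hb hb1 hb2
  set B := ENNReal.ofReal b with hB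
  have hB8 : B / 2 / 4 ≠ 0 := by simpa [hB] using hb.1
  obtain ⟨ε, hε, hε0⟩ := ((guo_small' (X := L * cP) (by finiteness) hB8).and
    self_mem_nhdsWithin).exists
  have hsq : Tendsto (fun τ : ℝ => √τ) (𝓝[>] 0) (𝓝 0) := by
    simpa using (Real.continuous_sqrt.tendsto 0).mono_left (nhdsWithin_le_nhds (s := Ioi 0))
  filter_upwards [Ioc_mem_nhdsGT (show (0 : ℝ) < 1 / 20 by norm_num),
    hsq.eventually (guo_small (X := L * c * (ENNReal.ofReal C + 1)) (by finiteness) hB8)]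
    with τ hτ hτ1
  filter_upwards [self_mem_nhdsWithin, guo_small' hcD hμ2,
    guo_small' (X := L * (1 + c * cD * (1 + m) + cP * ENNReal.ofReal (1 + ε⁻¹))) (by finiteness) hB8]
    with η hη hη1 hη2
  intro Sg F lo hi f T₁ R n hn hT0 hTτ hS mF pF hfin ml mh pl ph hhi hlh hmild h0 hf hadm hent hinit
  have h : Ctx C ν b τ η T₁ (cD * ENNReal.ofReal η) n Sg F lo hi f :=
    ⟨hn, hT0, hTτ, hτ.2, hν.1.le, hb.2, hS, mF, ml, mh, hhi, hlh, hmild, hinit,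
      fun s hs => hdec τ η s (by linarith [hτ.2]) (le_of_lt hη) hs⟩
  have hfr := hfreq _ _ _ _ _ _ _ _ _ _ _ _ _ h
    ((add_le_add hη1 hb1).trans (ENNReal.add_halves _).le)
  refine guo_core (e₂ := cP * (ENNReal.ofReal ε + ENNReal.ofReal (1 + ε⁻¹) * ENNReal.ofReal η)) h hμ
    hk0 pF pl ph hfin hf hadm hent h0 (hstep _ _ _ _ _ _ _ _ _ _ _ _ _ _ h hμ hν.2 hfr) hdd
    (fun θ hθ g mg hg he => (hpin ε hε0 θ hθ g mg hg).trans (by gcongr)) ?_
  set e := e1 c C b τ η μ (cD * ENNReal.ofReal η) with he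
  set e₂ := cP * (ENNReal.ofReal ε + ENNReal.ofReal (1 + ε⁻¹) * ENNReal.ofReal η) with he₂
  have hsτ : ENNReal.ofReal √τ ≤ 1 :=
    ENNReal.ofReal_le_one.2 (Real.sqrt_le_one.2 (by linarith [hτ.2]))
  have k1 : L * (e + e₂) ≤ B / 2 := by
    have k2 : L * c * m * B * B ≤ B / 2 / 4 := by
      refine (mul_le_mul' hb2 le_rfl).trans (le_of_eq ?_)
      rw [div_eq_mul_inv, div_eq_mul_inv]
      ring
    calc L * (e + e₂) = L * c * m * B * B + L * cP * ENNReal.ofReal ε +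
          L * c * (ENNReal.ofReal C + 1) * ENNReal.ofReal √τ +
          L * (1 + c * cD * (ENNReal.ofReal √τ + m) + cP * ENNReal.ofReal (1 + ε⁻¹)) *
            ENNReal.ofReal η := by
          rw [he, he₂, e1]
          ring
      _ ≤ B / 2 / 4 + B / 2 / 4 + B / 2 / 4 + B / 2 / 4 := by
          refine add_le_add (add_le_add (add_le_add k2 hε) hτ1) (le_trans ?_ hη2)
          gcongr
      _ = B / 2 := guo_quarter _
  have k3 : B / 2 = B / 4 + B / 4 := by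
    rw [← ENNReal.add_div, ← two_mul, show (4 : ℝ≥0∞) = 2 * 2 by norm_num,
      ENNReal.mul_div_mul_left _ _ (by simp) (by simp)]
  calc e + c * (m * (Kt * (Λ * (e + e₂) + ENNReal.ofReal κ * B)) + Kt * B * ENNReal.ofReal k)
      = e + c * m * Kt * Λ * (e + e₂) + c * m * Kt * ENNReal.ofReal κ * B +
          c * Kt * ENNReal.ofReal k * B := by ring
    _ ≤ (e + e₂) + c * m * Kt * Λ * (e + e₂) + 4⁻¹ * B + 4⁻¹ * B := by
        gcongr
        exact le_self_add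
    _ = L * (e + e₂) + B / 4 + B / 4 := by
        rw [hL, div_eq_mul_inv]
        ring
    _ ≤ B / 4 + B / 4 + B / 4 + B / 4 := by
        rw [← k3]
        gcongr
    _ = B := guo_quarter _

end

end Crest.Agent.R68
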