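import Crest.Agent.R68.GuoDef

/-!
# R68 (S0091): late phase, the collision term near the Maxwellian
Keep the statements; helper lemmas with prefix `guoA_`.
-/

set_option autoImplicit false

namespace Crest.Agent.R68

open MeasureTheory Set Filter Crest.AnalysisR.VecCalc3 Crest.AnalysisR.PDE.Boltzmann
open scoped ENNReal _root_.Topology

noncomputable section

theorem guoA_mG (θ : ℝ) : Measurable (Gs θ) :=
  measurable_Gs.comp (f := fun a : R3 => (θ, a)) (by fun_prop)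

theorem guoA_one_le_br (v : R3) : 1 ≤ br v := by
  rw [br, ← ENNReal.ofReal_one]
  exact ENNReal.ofReal_le_ofReal (by linarith [norm_nonneg v])

theorem guoA_sq {f g : VF} (hf : Measurable f) (hg : Measurable g) (v : R3) :
    Qp (fun a => f a + g a) (fun a => f a + g a) v = Qp f f v + 2 * Qp f g v + Qp g g v := by
  rw [Qp_add_left hf hg (hf.fun_add hg), Qp_add_right hf hf hg, Qp_add_right hg hf hg,
    Qp_comm hg hf]
  ring

/-- Upper bound: `Qp C C ≤ Qp (M + w) (M + w) = Qp M M + 2 Qp w M + Qp w w` (`Qp_mono`, `Qp_add_left/right`,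
`Qp_comm`), `Qp M M = Nu M * M ≤ (Nu C + Nu w) * M` (`Qp_Mx_Mx`, `Nu_mono`, `Nu_add`).
Lower bound: `Nu C * M ≤ Qp M M + Nu w * M`; with `c = C ⊓ M` one has `M ≤ c + w`, so
`Qp M M ≤ Qp c M + Qp w M ≤ Qp c c + Qp c w + Qp w M ≤ Qp C C + Qp M w + Qp w M`. -/
theorem guo_nearQ {C w : VF} (hC : Measurable C) (hw : Measurable w)
    (h : ∀ a, Near (C a) (Mx a) (w a)) (v : R3) :
    Near (Qp C C v) (Nu C v * Mx v) (2 * Qp w Mx v + Mx v * Nu w v + Qp w w v) := by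
  have hM := measurable_Mx
  constructor
  · have h1 : Nu Mx v ≤ Nu C v + Nu w v := (Nu_mono (fun a => (h a).2) v).trans (Nu_add hC hw v).le
    calc Qp C C v ≤ Qp (fun a => Mx a + w a) (fun a => Mx a + w a) v :=
          Qp_mono (fun a => (h a).1) (fun a => (h a).1) v
      _ = Nu Mx v * Mx v + 2 * Qp w Mx v + Qp w w v := by
          rw [guoA_sq hM hw, Qp_Mx_Mx, Qp_comm hM hw]
      _ ≤ (Nu C v + Nu w v) * Mx v + 2 * Qp w Mx v + Qp w w v := by gcongr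
      _ = _ := by ring
  · have h1 : Nu C v ≤ Nu Mx v + Nu w v := (Nu_mono (fun a => (h a).1) v).trans (Nu_add hM hw v).le
    have hc : Measurable fun a => C a ⊓ Mx a := hC.inf hM
    have h2 : ∀ a, Mx a ≤ C a ⊓ Mx a + w a := fun a => by
      rcases le_total (C a) (Mx a) with h3 | h3
      · rw [inf_eq_left.2 h3]; exact (h a).2
      · rw [inf_eq_right.2 h3]; exact le_self_add
    have h3 : Qp Mx Mx v ≤ Qp C C v + 2 * Qp w Mx v :=
      calc Qp Mx Mx v ≤ Qp (fun a => C a ⊓ Mx a) Mx v + Qp w Mx v :=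
            (Qp_mono h2 (fun _ => le_rfl) v).trans (Qp_add_left hc hw hM v).le
        _ ≤ Qp (fun a => C a ⊓ Mx a) (fun a => C a ⊓ Mx a) v + Qp (fun a => C a ⊓ Mx a) w v +
              Qp w Mx v :=
            add_le_add ((Qp_mono (fun _ => le_rfl) h2 v).trans (Qp_add_right hc hc hw v).le) le_rfl
        _ ≤ Qp C C v + Qp Mx w v + Qp w Mx v :=
            add_le_add (add_le_add (Qp_mono (fun _ => inf_le_left) (fun _ => inf_le_left) v)
              (Qp_mono (fun _ => inf_le_right) (fun _ => le_rfl) v)) le_rfl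
        _ = _ := by rw [Qp_comm hM hw]; ring
    calc Nu C v * Mx v ≤ (Nu Mx v + Nu w v) * Mx v := by gcongr
      _ = Qp Mx Mx v + Mx v * Nu w v := by rw [Qp_Mx_Mx]; ring
      _ ≤ Qp C C v + 2 * Qp w Mx v + Mx v * Nu w v + Qp w w v :=
          (add_le_add h3 le_rfl).trans le_self_add
      _ = _ := by ring

/-- With `G = Gs θ`.  Linear part: `2 Qp w M + M Nu w ≤ D (2 Qp S M + M Nu S) + (2 Qp (r G) M + M Nu (r G))`;
`Qp S M ≤ Qp S G ≤ K G` (`Mx_le_Gs`), `M Nu S ≤ K br G`, the last bracket by `lin_le_kk`.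
Quadratic part: `w ≤ D S + b G`, `Qp w w ≤ D² Qp S S + 2 D b Qp S G + b² Qp G G ≤ 3 D K G + c b² br G`
(`Qp_comm`, `Gs_anti`, `Qp_Gs_self_le`, `D, b ≤ 1`); `1 ≤ br v`. -/
theorem guo_err : ∃ c : ℝ≥0∞, c ≠ ⊤ ∧ ∀ θ ∈ Icc (1 / 5 : ℝ) (1 / 4), ∀ (S r w : VF) (D K b : ℝ≥0∞),
    Measurable S → Measurable r → D ≤ 1 → b ≤ 1 → (∀ a, r a ≤ b) →
    (∀ a, w a ≤ D * S a + r a * Gs θ a) → ∀ v, Qp S (Gs θ) v ≤ K * Gs θ v →
    Qp S S v ≤ K * Gs (1 / 4) v → Nu S v ≤ K * br v →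
    2 * Qp w Mx v + Mx v * Nu w v + Qp w w v ≤
      c * Gs θ v * (br v * (D * K + b ^ 2) + Kc r v) := by
  obtain ⟨c₁, hc₁, hlin⟩ := lin_le_kk
  obtain ⟨c₂, hc₂, hG⟩ := Qp_Gs_self_le
  refine ⟨6 + c₁ + c₂, by finiteness, ?_⟩
  intro θ hθ S r w D K b hS hr hD hb hrb hw v h1 h2 h3
  have hM := measurable_Mx
  have mG := guoA_mG θ
  have mD : Measurable fun a => D * S a := hS.const_mul D
  have mr : Measurable fun a => r a * Gs θ a := hr.fun_mul mG
  have mb : Measurable fun a => b * Gs θ a := mG.const_mul b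
  have hMG : ∀ a, Mx a ≤ Gs θ a := Mx_le_Gs (by linarith [hθ.2])
  have hbr := guoA_one_le_br v
  have k0 : K * Gs θ v ≤ br v * (K * Gs θ v) := le_mul_of_one_le_left' hbr
  have k1 : Qp w Mx v ≤ D * (br v * (K * Gs θ v)) + Qp (fun a => r a * Gs θ a) Mx v := by
    refine ((Qp_mono hw (fun _ => le_rfl) v).trans (Qp_add_left mD mr hM v).le).trans ?_
    rw [Qp_mul_left hS hM]
    exact add_le_add (mul_le_mul' le_rfl
      (((Qp_mono (fun _ => le_rfl) hMG v).trans h1).trans k0)) le_rfl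
  have k2 : Mx v * Nu w v ≤ D * (br v * (K * Gs θ v)) + Mx v * Nu (fun a => r a * Gs θ a) v := by
    refine (mul_le_mul' le_rfl ((Nu_mono hw v).trans (Nu_add mD mr v).le)).trans ?_
    rw [Nu_mul hS, mul_add]
    refine add_le_add ((mul_le_mul' (hMG v) (mul_le_mul' le_rfl h3)).trans (le_of_eq ?_)) le_rfl
    ring
  have hw' : ∀ a, w a ≤ D * S a + b * Gs θ a := fun a => (hw a).trans (by gcongr; exact hrb a)
  have k3 : Qp w w v ≤ 3 * (D * (br v * (K * Gs θ v))) + b ^ 2 * (c₂ * (br v * Gs θ v)) := by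
    refine (Qp_mono hw' hw' v).trans ?_
    rw [guoA_sq mD mb, Qp_mul_left hS mD, Qp_mul_right hS hS, Qp_mul_left hS mb,
      Qp_mul_right hS mG, Qp_mul_left mG mb, Qp_mul_right mG mG]
    have e1 : Qp S S v ≤ br v * (K * Gs θ v) :=
      (h2.trans (mul_le_mul' le_rfl (Gs_anti hθ.2 v))).trans k0
    have e2 := (hG θ (by linarith [hθ.1]) v).1
    have e3 := h1.trans k0
    calc _ ≤ D * (1 * (br v * (K * Gs θ v))) + 2 * (D * (1 * (br v * (K * Gs θ v)))) +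
          b * (b * (c₂ * (br v * Gs θ v))) := by gcongr
      _ = _ := by ring
  have k4 : 2 * Qp (fun a => r a * Gs θ a) Mx v + Mx v * Nu (fun a => r a * Gs θ a) v ≤
      c₁ * Gs θ v * Kc r v := hlin θ hθ r hr v
  calc _ ≤ 2 * (D * (br v * (K * Gs θ v)) + Qp (fun a => r a * Gs θ a) Mx v) +
        (D * (br v * (K * Gs θ v)) + Mx v * Nu (fun a => r a * Gs θ a) v) +
        (3 * (D * (br v * (K * Gs θ v))) + b ^ 2 * (c₂ * (br v * Gs θ v))) := by gcongr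
    _ = 6 * (Gs θ v * (br v * (D * K))) + c₂ * (Gs θ v * (br v * b ^ 2)) +
        (2 * Qp (fun a => r a * Gs θ a) Mx v + Mx v * Nu (fun a => r a * Gs θ a) v) := by ring
    _ ≤ (6 + c₁ + c₂) * (Gs θ v * (br v * (D * K))) + (6 + c₁ + c₂) * (Gs θ v * (br v * b ^ 2)) +
        (6 + c₁ + c₂) * Gs θ v * Kc r v :=
        add_le_add (add_le_add (mul_le_mul' (le_self_add.trans le_self_add) le_rfl)
          (mul_le_mul' le_add_self le_rfl))
          (k4.trans (mul_le_mul' (mul_le_mul' (le_add_self.trans le_self_add) le_rfl) le_rfl))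
    _ = _ := by ring

/-- (G1).  `μ` = half the constant of `Nu_Mx_ge`, `c` from `Qp_Gs_self_le`.  For `s > τ`:
`2 μ br ≤ Nu M ≤ Nu C + Nu W` (`Ctx.near`), `Nu W ≤ Dd * Kl * br + b * c * br ≤ (δ + c b) br ≤ μ br`
(`SgHyp.freq`, `Kl = ofReal (η (1+s)^4)` as `¬ s < τ`, `Ctx.hδ`, `theta_mem`); cancel the finite `μ br`. -/
theorem guo_freq : ∃ (μ : ℝ) (c : ℝ≥0∞), 0 < μ ∧ c ≠ ⊤ ∧
    ∀ (C ν b τ η T₁ : ℝ) (δ n : ℝ≥0∞) (Sg F lo hi : PF) (f : XF),
      Ctx C ν b τ η T₁ δ n Sg F lo hi f → δ + c * ENNReal.ofReal b ≤ ENNReal.ofReal μ →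
      ∀ s, τ < s → ∀ x v, ENNReal.ofReal μ * br v ≤ Nu (clamp lo hi F s x) v := by
  obtain ⟨c₁, hc₁, hM⟩ := Nu_Mx_ge
  obtain ⟨c₂, hc₂, hG⟩ := Qp_Gs_self_le
  refine ⟨c₁ / 2, c₂, by positivity, hc₂, ?_⟩
  intro C ν b τ η T₁ δ n Sg F lo hi f h hs s hτ x v
  have hT : T₁ < s := h.Tτ.trans_lt hτ
  have hs0 : 0 ≤ s := (h.T0.trans hT).le
  have hθ := theta_mem h.τ1 (h.T0.le.trans h.Tτ) hs0
  have mC := (Meas.clamp h.ml h.mh h.mF).slice s x
  have mS := h.sg.meas.slice s x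
  have mG := guoA_mG (1 / 4 - min s τ)
  have h1 : Nu (Wl ν b τ Sg s x) v ≤ ENNReal.ofReal (c₁ / 2) * br v := by
    have e : Nu (Wl ν b τ Sg s x) v = Dd ν τ s * Nu (Sg s x) v +
        ENNReal.ofReal b * Nu (Gs (1 / 4 - min s τ)) v := by
      rw [← Nu_mul mS, ← Nu_mul mG, ← Nu_add (mS.const_mul _) (mG.const_mul _)]
      rfl
    have e1 := h.sg.freq s hT.le x v
    rw [Kl, if_neg hτ.le.not_gt, zero_add] at e1
    have e2 := (hG (1 / 4 - min s τ) (by linarith [hθ.1]) v).2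
    calc _ ≤ Dd ν τ s * (ENNReal.ofReal (η * (1 + s) ^ 4) * br v) + ENNReal.ofReal b * (c₂ * br v) := by
          rw [e]; gcongr
      _ = (Dd ν τ s * ENNReal.ofReal (η * (1 + s) ^ 4) + c₂ * ENNReal.ofReal b) * br v := by ring
      _ ≤ _ := mul_le_mul' ((add_le_add (h.hδ s hs0) le_rfl).trans hs) le_rfl
  have mW : Measurable (Wl ν b τ Sg s x) := (mS.const_mul _).fun_add (mG.const_mul _)
  have h2 : Nu Mx v ≤ Nu (clamp lo hi F s x) v + Nu (Wl ν b τ Sg s x) v :=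
    (Nu_mono (fun a => (h.near hT x a).2) v).trans (Nu_add mC mW v).le
  have h3 : ENNReal.ofReal c₁ * br v =
      ENNReal.ofReal (c₁ / 2) * br v + ENNReal.ofReal (c₁ / 2) * br v := by
    rw [← add_mul, ← ENNReal.ofReal_add (by positivity) (by positivity), add_halves]
  refine ENNReal.le_of_add_le_add_right (a := ENNReal.ofReal (c₁ / 2) * br v)
    (by unfold br; finiteness) ?_
  rw [← h3]
  exact (hM v).trans (h2.trans (add_le_add le_rfl h1))

/-- `exp (-ν (s - τ)₊) (1 + s)^4 ≤ c(ν)` for `s ≥ 0`, `τ ≤ 1`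
(e.g. `x ^ 4 / 4! ≤ exp x` for `x = ν (1 + s)`, `Real.pow_div_factorial_le_exp`). -/
theorem guo_decay {ν : ℝ} (hν : 0 < ν) : ∃ c : ℝ≥0∞, c ≠ ⊤ ∧ ∀ τ η s : ℝ, τ ≤ 1 → 0 ≤ η → 0 ≤ s →
    Dd ν τ s * ENNReal.ofReal (η * (1 + s) ^ 4) ≤ c * ENNReal.ofReal η := by
  refine ⟨ENNReal.ofReal (Real.exp (2 * ν) * 24 / ν ^ 4), ENNReal.ofReal_ne_top, ?_⟩
  intro τ η s hτ hη hs
  rw [Dd, ← ENNReal.ofReal_mul (Real.exp_pos _).le, ← ENNReal.ofReal_mul (by positivity)]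
  refine ENNReal.ofReal_le_ofReal ?_
  rw [mul_comm η, ← mul_assoc]
  refine mul_le_mul_of_nonneg_right ?_ hη
  have h1 := Real.pow_div_factorial_le_exp (ν * (1 + s)) (by positivity) 4
  have h2 : Real.exp (-ν * max (s - τ) 0) * Real.exp (ν * (1 + s)) ≤ Real.exp (2 * ν) := by
    rw [← Real.exp_add, Real.exp_le_exp]
    nlinarith [le_max_left (s - τ) 0]
  have h3 : ((Nat.factorial 4 : ℕ) : ℝ) = 24 := by norm_num [Nat.factorial]
  rw [h3, div_le_iff₀ (by norm_num), mul_pow] at h1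
  rw [le_div_iff₀ (by positivity)]
  have h4 := Real.exp_pos (-ν * max (s - τ) 0)
  nlinarith [mul_le_mul_of_nonneg_left h1 h4.le]

end

end Crest.Agent.R68
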