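import Crest.Agent.R68.GuoDef

/-!
# R68 (S0091): late phase, the double kernel estimate
Keep the statements; helper lemmas with prefix `guoC_`.
-/

set_option autoImplicit false

namespace Crest.Agent.R68

open MeasureTheory Set Filter Crest.AnalysisR.VecCalc3 Crest.AnalysisR.PDE.Boltzmann
open scoped ENNReal _root_.Topology

noncomputable section

/-- `S n = {p | ‖p‖ ≤ n ∧ kk p ≤ n}` increases to `{0}ᶜ`; `∫ kk < ∞` (`lintegral_kk`), dominated
convergence (`tendsto_lintegral_of_dominated_convergence` for the indicators of the complements). -/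
theorem kk_split {σ : ℝ≥0∞} (hσ : σ ≠ 0) : ∃ (S : Set R3) (Λ : ℝ≥0∞) (ρ : ℝ), MeasurableSet S ∧
    Λ ≠ ⊤ ∧ 0 ≤ ρ ∧ (∀ p ∈ S, ‖p‖ ≤ ρ ∧ kk p ≤ Λ) ∧ ∫⁻ p in Sᶜ, kk p ≤ σ := by
  set S : ℕ → Set R3 := fun n => {p | ‖p‖ ≤ n ∧ kk p ≤ n} with hS
  have mS : ∀ n, MeasurableSet (S n) := fun n =>
    (measurableSet_le measurable_norm measurable_const).inter
      (measurableSet_le measurable_kk measurable_const)
  have h1 : Tendsto (fun n => ∫⁻ p, (S n)ᶜ.indicator kk p) atTop (𝓝 (∫⁻ _ : R3, 0)) := by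
    refine tendsto_lintegral_of_dominated_convergence kk
      (fun n => measurable_kk.indicator (mS n).compl)
      (fun n => Eventually.of_forall fun p => indicator_le_self _ _ p) lintegral_kk ?_
    filter_upwards [ae_lt_top measurable_kk lintegral_kk] with p hp
    refine tendsto_const_nhds.congr' ?_
    obtain ⟨a, ha⟩ := exists_nat_ge ‖p‖
    obtain ⟨b, hb⟩ := ENNReal.exists_nat_gt hp.ne
    filter_upwards [eventually_ge_atTop a, eventually_ge_atTop b] with n h1 h2
    rw [indicator_of_notMem]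
    exact fun h => h ⟨ha.trans (by exact_mod_cast h1), hb.le.trans (by exact_mod_cast h2)⟩
  rw [lintegral_zero] at h1
  obtain ⟨n, hn⟩ := (h1.eventually (ge_mem_nhds (pos_iff_ne_zero.2 hσ))).exists
  rw [lintegral_indicator (mS n).compl] at hn
  exact ⟨S n, n, n, mS n, by simp, by positivity, fun p hp => hp, hn⟩

theorem guoC_ind {σ : ℝ≥0∞} {S : Set R3} (hS : MeasurableSet S) (h2 : ∫⁻ p in Sᶜ, kk p ≤ σ) (v : R3) :
    ∫⁻ a, Sᶜ.indicator kk (v - a) ≤ σ := by
  rw [lintegral_sub_left_eq_self (Sᶜ.indicator kk) v, lintegral_indicator hS.compl]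
  exact h2

/-- Pointwise `kk p * kk p' * U ≤ 1_{Sᶜ}kk p * kk p' * b + kk p * 1_{Sᶜ}kk p' * b + Λ² 1_S p 1_S p' U` with
`p = v - a`, `p' = a - a'`.  The first two terms give `σ Kt b` each (`lintegral_kk_sub`,
`lintegral_sub_left_eq_self`).  In the last one `‖a'‖ ≤ ‖v‖ + 2 ρ ≤ R`, so it is at most
`Λ² ∫_{‖v - a‖ ≤ ρ} Θ (X - r • a)` with `Θ z = ∫_{‖a'‖ ≤ R} U z a'` (measurable, periodic); substitute
`a = v + p` (`lintegral_add_left_eq_self`) and use `disp3` at the point `X - r • v`;
`(2 ρ r + 2)³ / r³ = (2 ρ + 2 / r)³ ≤ (2 ρ + 2 / k)³`. -/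
theorem kk_double {σ Λ : ℝ≥0∞} {S : Set R3} {ρ : ℝ} (hS : MeasurableSet S) (hρ : 0 ≤ ρ)
    (h1 : ∀ p ∈ S, ‖p‖ ≤ ρ ∧ kk p ≤ Λ) (h2 : ∫⁻ p in Sᶜ, kk p ≤ σ) {U : XF} (mU : MeasX U)
    (pU : PerX U) {b ε : ℝ≥0∞} (hb : ∀ x a, U x a ≤ b) {R : ℝ}
    (hε : ∫⁻ x in cell, ∫⁻ a in Metric.closedBall (0 : R3) R, U x a ≤ ε) {v : R3}
    (hv : ‖v‖ + 2 * ρ ≤ R) {k r : ℝ} (hk : 0 < k) (hr : k ≤ r) (X : R3) :
    ∫⁻ a, kk (v - a) * Kc (U (X - r • a)) a ≤
      2 * σ * Kt * b + Λ ^ 2 * ENNReal.ofReal ((2 * ρ + 2 / k) ^ 3) * ε := by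
  set Θ : R3 → ℝ≥0∞ := fun z => ∫⁻ a in Metric.closedBall (0 : R3) R, U z a with hΘ
  have mΘ : Measurable Θ := Measurable.lintegral_prod_right' (f := fun p : R3 × R3 => U p.1 p.2) mU
  have pΘ : IsPeriodic3 Θ := fun x i => lintegral_congr fun a => pU a x i
  have mk : ∀ w : R3, Measurable fun a : R3 => kk (w - a) := fun w =>
    measurable_kk.comp (measurable_const.sub measurable_id')
  have mi : ∀ w : R3, Measurable fun a : R3 => Sᶜ.indicator kk (w - a) := fun w =>
    (measurable_kk.indicator hS.compl).comp (measurable_const.sub measurable_id')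
  have hr0 : 0 < r := hk.trans_le hr
  -- inner estimate
  have k1 : ∀ Z a : R3, ‖a‖ + ρ ≤ R → Kc (U Z) a ≤ σ * b + Λ * Θ Z := by
    intro Z a ha
    have mZ : Measurable (U Z) := mU.comp (f := fun a : R3 => (Z, a)) (by fun_prop)
    calc Kc (U Z) a ≤ ∫⁻ a', (Sᶜ.indicator kk (a - a') * b +
          Λ * (Metric.closedBall (0 : R3) R).indicator (U Z) a') := by
          refine lintegral_mono fun a' => ?_
          by_cases h : a - a' ∈ S
          · have h3 : a' ∈ Metric.closedBall (0 : R3) R := by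
              rw [mem_closedBall_zero_iff]
              have := norm_sub_le a (a - a')
              rw [sub_sub_cancel] at this
              linarith [(h1 _ h).1]
            rw [indicator_of_mem h3]
            exact (mul_le_mul' (h1 _ h).2 le_rfl).trans le_add_self
          · rw [indicator_of_mem (show a - a' ∈ Sᶜ from h)]
            exact (mul_le_mul' le_rfl (hb _ _)).trans le_self_add
      _ ≤ _ := by
          rw [lintegral_add_left ((mi a).mul_const _), lintegral_mul_const _ (mi a),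
            lintegral_const_mul _ (mZ.indicator measurableSet_closedBall),
            lintegral_indicator measurableSet_closedBall]
          exact add_le_add (mul_le_mul' (guoC_ind hS h2 a) le_rfl) le_rfl
  set Φ : R3 → ℝ≥0∞ := (Metric.closedBall (0 : R3) ρ).indicator fun p => Θ (X - r • v - r • p)
    with hΦ
  have m1 : Measurable fun p : R3 => Θ (X - r • v - r • p) := mΘ.comp (by fun_prop)
  have mΦ : Measurable fun a : R3 => Φ (a - v) :=
    (m1.indicator measurableSet_closedBall).comp (measurable_id'.sub measurable_const)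
  have k2 : ∫⁻ a, Φ (a - v) ≤ ENNReal.ofReal ((2 * ρ + 2 / k) ^ 3) * ε := by
    rw [lintegral_sub_right_eq_self Φ v, hΦ, lintegral_indicator measurableSet_closedBall]
    refine (disp3 Θ mΘ pΘ _ hr0 hρ).trans (mul_le_mul' (ENNReal.ofReal_le_ofReal ?_) hε)
    rw [← div_pow]
    refine pow_le_pow_left₀ (by positivity) ?_ 3
    rw [add_div, mul_div_cancel_right₀ _ hr0.ne']
    gcongr
  calc _ ≤ ∫⁻ a, (Sᶜ.indicator kk (v - a) * (Kt * b) + (kk (v - a) * (σ * b) + Λ ^ 2 * Φ (a - v))) := by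
        refine lintegral_mono fun a => ?_
        by_cases h : v - a ∈ S
        · have h3 : ‖a‖ + ρ ≤ R := by
            have := norm_sub_le v (v - a)
            rw [sub_sub_cancel] at this
            linarith [(h1 _ h).1]
          have h4 : a - v ∈ Metric.closedBall (0 : R3) ρ := by
            rw [mem_closedBall_zero_iff, norm_sub_rev]
            exact (h1 _ h).1
          rw [hΦ, indicator_of_mem h4, show X - r • v - r • (a - v) = X - r • a by
            rw [smul_sub]; abel]
          refine le_trans ?_ le_add_self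
          refine (mul_le_mul' le_rfl (k1 _ a h3)).trans ?_
          rw [mul_add, sq, mul_assoc Λ]
          exact add_le_add le_rfl (mul_le_mul' (h1 _ h).2 le_rfl)
        · rw [indicator_of_mem (show v - a ∈ Sᶜ from h)]
          exact (mul_le_mul' le_rfl (Kc_le (hb _) a)).trans le_self_add
    _ ≤ σ * (Kt * b) + (Kt * (σ * b) + Λ ^ 2 * (ENNReal.ofReal ((2 * ρ + 2 / k) ^ 3) * ε)) := by
        rw [lintegral_add_left ((mi v).mul_const _), lintegral_add_left ((mk v).mul_const _),
          lintegral_mul_const _ (mi v), lintegral_mul_const _ (mk v), lintegral_const_mul _ mΦ,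
          lintegral_kk_sub]
        gcongr
        exact guoC_ind hS h2 v
    _ = _ := by ring

end

end Crest.Agent.R68
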