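import Crest.Agent.R68.GDef
import Crest.Agent.R68.A4
import Crest.Agent.R68.A5

/-!
# R68 (S0091): late phase, definitions and elementary facts (owner helper48)
-/

set_option autoImplicit false

namespace Crest.Agent.R68

open MeasureTheory Set Filter Crest.AnalysisR.VecCalc3 Crest.AnalysisR.PDE.Boltzmann
open scoped ENNReal _root_.Topology

noncomputable section

/-- distance in `ℝ≥0∞` -/
def dst (a b : ℝ≥0∞) : ℝ≥0∞ := (a - b) ⊔ (b - a)

/-- exponential factor `exp (-m r)` -/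
def ex (m r : ℝ) : ℝ≥0∞ := ENNReal.ofReal (Real.exp (-(m * r)))

/-- convolution with `kk` -/
def Kc (r : VF) (v : R3) : ℝ≥0∞ := ∫⁻ a, kk (v - a) * r a

/-- total mass of `kk` -/
def Kt : ℝ≥0∞ := ∫⁻ p, kk p

/-- the normalised remainder -/
def uu (ν τ : ℝ) (Sg C : PF) : PF := fun t x v =>
  (dst (C t x v) (Mx v) - Dd ν τ t * Sg t x v) / Gw τ t v

theorem near_iff_dst {a b e : ℝ≥0∞} : Near a b e ↔ dst a b ≤ e := by
  simp only [Near, dst, sup_le_iff, tsub_le_iff_left]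

theorem near_dst (a b : ℝ≥0∞) : Near a b (dst a b) := near_iff_dst.2 le_rfl

theorem Near.mono' {a b e e' : ℝ≥0∞} (h : Near a b e) (he : e ≤ e') : Near a b e' :=
  near_iff_dst.2 ((near_iff_dst.1 h).trans he)

theorem measurable_dst {α : Type*} [MeasurableSpace α] {f g : α → ℝ≥0∞} (hf : Measurable f)
    (hg : Measurable g) : Measurable fun a => dst (f a) (g a) :=
  (hf.sub hg).sup (hg.sub hf)

theorem Kt_ne_top : Kt ≠ ⊤ := lintegral_kk

theorem lintegral_kk_sub (v : R3) : ∫⁻ a, kk (v - a) = Kt :=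
  lintegral_sub_left_eq_self kk v

theorem Kc_mono {r r' : VF} (h : ∀ a, r a ≤ r' a) (v : R3) : Kc r v ≤ Kc r' v :=
  lintegral_mono fun a => mul_le_mul' le_rfl (h a)

theorem Kc_le {r : VF} {b : ℝ≥0∞} (h : ∀ a, r a ≤ b) (v : R3) : Kc r v ≤ Kt * b := by
  refine (Kc_mono h v).trans (le_of_eq ?_)
  have hm : Measurable fun a : R3 => kk (v - a) :=
    measurable_kk.comp (measurable_const.sub measurable_id')
  rw [Kc, lintegral_mul_const _ hm, lintegral_kk_sub]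

theorem measurable_Kc {α : Type*} [MeasurableSpace α] {r : α → VF} {w : α → R3}
    (hr : Measurable fun p : α × R3 => r p.1 p.2) (hw : Measurable w) :
    Measurable fun a => Kc (r a) (w a) :=
  Measurable.lintegral_prod_right'
    (f := fun p : α × R3 => kk (w p.1 - p.2) * r p.1 p.2)
    ((measurable_kk.comp ((hw.comp measurable_fst).sub measurable_snd)).mul hr)

theorem measurable_ex : Measurable fun p : ℝ × ℝ => ex p.1 p.2 := by
  unfold ex
  fun_prop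

theorem ex_le_one {m r : ℝ} (hm : 0 ≤ m) (hr : 0 ≤ r) : ex m r ≤ 1 := by
  rw [ex, ENNReal.ofReal_le_one, Real.exp_le_one_iff]
  nlinarith [mul_nonneg hm hr]

theorem ex_anti {m m' r : ℝ} (hm : m ≤ m') (hr : 0 ≤ r) : ex m' r ≤ ex m r :=
  ENNReal.ofReal_le_ofReal (Real.exp_le_exp.2 (by nlinarith [mul_le_mul_of_nonneg_right hm hr]))

theorem lintegral_ex {m : ℝ} (hm : 0 < m) (τ t : ℝ) :
    ∫⁻ s in Ioo τ t, ex m (t - s) ≤ ENNReal.ofReal m⁻¹ := by
  refine (lintegral_mono_set (Ioo_subset_Iio_self.trans Iio_subset_Iic_self)).trans ?_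
  have h1 : IntegrableOn (fun s => Real.exp (-(m * t)) * Real.exp (m * s)) (Iic t) :=
    (integrableOn_exp_mul_Iic hm t).const_mul _
  have h2 : ∀ s, ex m (t - s) = ENNReal.ofReal (Real.exp (-(m * t)) * Real.exp (m * s)) := by
    intro s
    rw [ex, ← Real.exp_add]
    congr 2
    ring
  simp only [h2]
  rw [← ofReal_integral_eq_lintegral_ofReal h1 (Eventually.of_forall fun s => by positivity),
    integral_const_mul, integral_exp_mul_Iic hm]
  refine le_of_eq ?_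
  congr 1
  rw [← mul_div_assoc, ← Real.exp_add]
  simp

theorem measurable_Dd (ν τ : ℝ) : Measurable (Dd ν τ) := by
  unfold Dd
  fun_prop

theorem Dd_le_one {ν : ℝ} (hν : 0 ≤ ν) (τ t : ℝ) : Dd ν τ t ≤ 1 := by
  rw [Dd, ENNReal.ofReal_le_one, Real.exp_le_one_iff]
  nlinarith [mul_nonneg hν (le_max_right (t - τ) 0)]

theorem measurable_Gw (τ : ℝ) : Measurable fun p : ℝ × R3 => Gw τ p.1 p.2 :=
  measurable_Gs.comp (f := fun p : ℝ × R3 => (1 / 4 - min p.1 τ, p.2)) (by fun_prop)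

theorem Meas.uu {ν τ : ℝ} {Sg C : PF} (hS : Meas Sg) (hC : Meas C) : Meas (uu ν τ Sg C) := by
  have h1 : Measurable fun p : ℝ × R3 × R3 => Mx p.2.2 := measurable_Mx.comp measurable_snd.snd
  have h2 : Measurable fun p : ℝ × R3 × R3 => Dd ν τ p.1 := (measurable_Dd ν τ).comp measurable_fst
  have h3 : Measurable fun p : ℝ × R3 × R3 => Gw τ p.1 p.2.2 :=
    (measurable_Gw τ).comp (f := fun p : ℝ × R3 × R3 => (p.1, p.2.2))
      (measurable_fst.prodMk measurable_snd.snd)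
  have h4 : Measurable fun p : ℝ × R3 × R3 => dst (C p.1 p.2.1 p.2.2) (Mx p.2.2) :=
    measurable_dst hC h1
  have h5 : Measurable fun p : ℝ × R3 × R3 => Dd ν τ p.1 * Sg p.1 p.2.1 p.2.2 := h2.mul hS
  exact (h4.sub h5).div h3

theorem Per.uu {ν τ : ℝ} {Sg C : PF} (hS : Per Sg) (hC : Per C) : Per (uu ν τ Sg C) := by
  intro t v x i
  have h1 := hS t v x i
  have h2 := hC t v x i
  simp only [Crest.Agent.R68.uu] at h1 h2 ⊢
  rw [h1, h2]

theorem uu_le_iff {ν τ : ℝ} {Sg C : PF} {t : ℝ} {x v : R3} {e : ℝ≥0∞} :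
    uu ν τ Sg C t x v ≤ e ↔ Near (C t x v) (Mx v) (Dd ν τ t * Sg t x v + e * Gw τ t v) := by
  rw [uu, ENNReal.div_le_iff (y := Gw τ t v) (Gs_ne_zero _ _) (Gs_ne_top _ _), tsub_le_iff_left,
    near_iff_dst]

theorem near_uu (ν τ : ℝ) (Sg C : PF) (t : ℝ) (x v : R3) :
    Near (C t x v) (Mx v) (Dd ν τ t * Sg t x v + uu ν τ Sg C t x v * Gw τ t v) :=
  uu_le_iff.1 le_rfl

/-- clamping towards an interval containing `m` does not increase the distance to `m` -/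
theorem Near.clamp' {a m e l h : ℝ≥0∞} (hn : Near a m e) (hl : l ≤ m) (hh : m ≤ h) :
    Near ((a ⊓ h) ⊔ l) m e :=
  ⟨sup_le (inf_le_left.trans hn.1) (hl.trans le_self_add), by
    refine le_trans ?_ (add_le_add le_sup_left le_rfl)
    rcases le_total a h with h1 | h1
    · rw [inf_eq_left.2 h1]; exact hn.2
    · rw [inf_eq_right.2 h1]; exact hh.trans le_self_add⟩

theorem near_of_mem {a m W : ℝ≥0∞} : Near a m W ↔ m - W ≤ a ∧ a ≤ m + W := by
  rw [Near, tsub_le_iff_right, and_comm]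

theorem near_clamp (a m W : ℝ≥0∞) : Near ((a ⊓ (m + W)) ⊔ (m - W)) m W :=
  near_of_mem.2 ⟨le_sup_right, sup_le inf_le_right (tsub_le_self.trans le_self_add)⟩

theorem theta_mem {τ t : ℝ} (hτ : τ ≤ 1 / 20) (hτ0 : 0 ≤ τ) (ht : 0 ≤ t) :
    1 / 4 - min t τ ∈ Icc (1 / 5 : ℝ) (1 / 4) :=
  ⟨by linarith [min_le_right t τ], by linarith [le_min ht hτ0]⟩

theorem Gw_mono {τ s t : ℝ} (h : s ≤ t) (v : R3) : Gw τ s v ≤ Gw τ t v :=
  Gs_anti (by linarith [min_le_min_right τ h]) v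

/-- standing hypotheses of the late phase -/
structure Ctx (C ν b τ η T₁ : ℝ) (δ n : ℝ≥0∞) (Sg F lo hi : PF) (f : XF) : Prop where
  hn : n ≠ ⊤
  T0 : 0 < T₁
  Tτ : T₁ ≤ τ
  τ1 : τ ≤ 1 / 20
  ν0 : 0 ≤ ν
  b1 : b ≤ 1
  sg : SgHyp C τ η T₁ Sg
  mF : Meas F
  ml : Meas lo
  mh : Meas hi
  hhi : ∀ t x v, 0 < t → hi t x v ≤ n * Gs (1 / 5) v
  hlh : ∀ t, T₁ < t → ∀ x v, hi t x v = Mx v + Wl ν b τ Sg t x v ∧
    lo t x v = Mx v - Wl ν b τ Sg t x v
  mild : ∀ T, Mild F (clamp lo hi F) f T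
  init : ∀ x v, Near (F T₁ x v) (Mx v) (Sg T₁ x v + ENNReal.ofReal η * Gs (1 / 4) v)
  hδ : ∀ s, 0 ≤ s → Dd ν τ s * ENNReal.ofReal (η * (1 + s) ^ 4) ≤ δ

theorem Ctx.near {C ν b τ η T₁ : ℝ} {δ n : ℝ≥0∞} {Sg F lo hi : PF} {f : XF}
    (h : Ctx C ν b τ η T₁ δ n Sg F lo hi f) {t : ℝ} (ht : T₁ < t) (x v : R3) :
    Near (clamp lo hi F t x v) (Mx v) (Wl ν b τ Sg t x v) := by
  rw [clamp, (h.hlh t ht x v).1, (h.hlh t ht x v).2]
  exact near_clamp _ _ _

theorem Ctx.uu_le {C ν b τ η T₁ : ℝ} {δ n : ℝ≥0∞} {Sg F lo hi : PF} {f : XF}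
    (h : Ctx C ν b τ η T₁ δ n Sg F lo hi f) {t : ℝ} (ht : T₁ < t) (x v : R3) :
    uu ν τ Sg (clamp lo hi F) t x v ≤ ENNReal.ofReal b :=
  uu_le_iff.2 (h.near ht x v)

end

end Crest.Agent.R68
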