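import Crest.Agent.R68.LimL4

/-!
# R68 / LimL5: the limit equation and the good representative
-/

set_option autoImplicit false

namespace Crest.Agent.R68

open MeasureTheory Set Filter Crest.AnalysisR.VecCalc3 Crest.AnalysisR.PDE.Boltzmann
open scoped ENNReal _root_.Topology

noncomputable section

private theorem l5_km {S : Set (ℝ × R3 × R3)} (hS : MeasurableSet S) :
    Measurable fun r : (ℝ × R3 × R3) × ℝ =>
      (S ∩ Ioi r.1.1 ×ˢ univ).indicator (1 : ℝ × R3 × R3 → ℝ≥0∞) (r.2, r.1.2) := by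
  have h1 : MeasurableSet {r : (ℝ × R3 × R3) × ℝ | (r.2, r.1.2) ∈ S ∩ Ioi r.1.1 ×ˢ univ} := by
    have h2 : MeasurableSet {r : (ℝ × R3 × R3) × ℝ | (r.2, r.1.2) ∈ S} :=
      (measurable_snd.prodMk measurable_fst.snd) hS
    have h3 : MeasurableSet {r : (ℝ × R3 × R3) × ℝ | r.1.1 < r.2} :=
      measurableSet_lt measurable_fst.fst measurable_snd
    convert h2.inter h3 using 1
    ext r
    simp
  exact Measurable.indicator (f := fun _ => (1 : ℝ≥0∞)) measurable_const h1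

/-- Tonelli (`lint3_t` on both sides, swap `s` and `t`) -/
theorem lint_prm {Θ : PF} (h : Meas Θ) (T : ℝ) {S : Set (ℝ × R3 × R3)} (hS : MeasurableSet S) :
    ∫⁻ p in S, un (prm Θ) p ∂mu3 T =
      ∫⁻ p, (∫⁻ t in Ioo 0 T, (S ∩ Ioi p.1 ×ˢ univ).indicator 1 (t, p.2)) * un Θ p ∂mu3 T := by
  have hK : Measurable fun p : ℝ × R3 × R3 =>
      ∫⁻ t in Ioo 0 T, (S ∩ Ioi p.1 ×ˢ univ).indicator (1 : ℝ × R3 × R3 → ℝ≥0∞) (t, p.2) :=
    (l5_km hS).lintegral_prod_right'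
  rw [← lintegral_indicator hS, lint3_t (Measurable.indicator h.mprm hS), lint3_t (Measurable.fun_mul hK h)]
  refine lintegral_congr fun w => ?_
  have hm : Measurable fun r : ℝ × ℝ =>
      (S ∩ Ioi r.1 ×ˢ univ).indicator (1 : ℝ × R3 × R3 → ℝ≥0∞) (r.2, w) :=
    (l5_km hS).comp ((measurable_fst.prodMk measurable_const).prodMk measurable_snd)
  have hΘ : Measurable fun s : ℝ => un Θ (s, w) := Measurable.comp h measurable_prodMk_right
  have e1 : ∀ s : ℝ, (∫⁻ t in Ioo 0 T,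
      (S ∩ Ioi s ×ˢ univ).indicator (1 : ℝ × R3 × R3 → ℝ≥0∞) (t, w)) * un Θ (s, w) =
      ∫⁻ t in Ioo 0 T, (S ∩ Ioi s ×ˢ univ).indicator 1 (t, w) * un Θ (s, w) := fun s =>
    (lintegral_mul_const _ (hm.comp measurable_prodMk_left)).symm
  simp only [e1]
  rw [lintegral_lintegral_swap (hm.mul (hΘ.comp measurable_fst)).aemeasurable]
  refine setLIntegral_congr_fun measurableSet_Ioo fun t ht => ?_
  by_cases hp : (t, w) ∈ S
  · have e2 : ∀ s : ℝ, (S ∩ Ioi s ×ˢ univ).indicator (1 : ℝ × R3 × R3 → ℝ≥0∞) (t, w) * un Θ (s, w) =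
        (Iio t).indicator (fun s => un Θ (s, w)) s := fun s => by
      by_cases hs : s ∈ Iio t
      · rw [indicator_of_mem hs, indicator_of_mem (mem_inter hp (mk_mem_prod (mem_Ioi.2 hs) (mem_univ _))),
          Pi.one_apply, one_mul]
      · rw [indicator_of_notMem hs, indicator_of_notMem fun hc => hs hc.2.1, zero_mul]
    have e3 : Iio t ∩ Ioo 0 T = Ioo 0 t := by
      ext s
      exact ⟨fun hs => ⟨hs.2.1, hs.1⟩, fun hs => ⟨hs.2, hs.1, hs.2.trans ht.2⟩⟩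
    simp only [e2]
    rw [indicator_of_mem hp, lintegral_indicator measurableSet_Iio,
      Measure.restrict_restrict measurableSet_Iio, e3]
    rfl
  · have e2 : ∀ s : ℝ, (S ∩ Ioi s ×ˢ univ).indicator (1 : ℝ × R3 × R3 → ℝ≥0∞) (t, w) = 0 :=
      fun s => indicator_of_notMem (fun hc => hp hc.1) _
    simp only [e2, zero_mul, lintegral_zero]
    exact indicator_of_notMem hp _

/-- `lint_prm`, `SW.mul` (the kernel is at most `ofReal T`) -/
theorem SW.sprm {Θ : ℕ → PF} {Θ' D : PF} {T : ℝ} (h : SW (mu3 T) (fun n => un (Θ n)) (un Θ'))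
    (hm : ∀ n, Meas (Θ n)) (hm' : Meas Θ') (hD : Meas D) (hD1 : ∫⁻ p, un D p ∂mu3 T ≠ ⊤)
    (hle : ∀ n t x v, 0 < t → Θ n t x v ≤ D t x v) (hle' : ∀ t x v, 0 < t → Θ' t x v ≤ D t x v) :
    SW (mu3 T) (fun n => un (prm (Θ n))) (un (prm Θ')) := by
  intro S hS
  simp only [lint_prm (hm _) T hS, lint_prm hm' T hS]
  refine h.mul hm hm' hD hD1 (fun n => (ae3_mem T).mono fun p hp => hle n _ _ _ hp.1.1)
    ((ae3_mem T).mono fun p hp => hle' _ _ _ hp.1.1) (l5_km hS).lintegral_prod_right' ?_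
  refine ne_top_of_le_ne_top (ENNReal.mul_ne_top (ENNReal.ofReal_ne_top (r := T)) hD1) ?_
  rw [← lintegral_const_mul _ hD]
  refine lintegral_mono fun p => mul_le_mul_left ?_ _
  calc _ ≤ ∫⁻ _ in Ioo 0 T, (1 : ℝ≥0∞) :=
        lintegral_mono fun t => indicator_le_self _ (1 : ℝ × R3 × R3 → ℝ≥0∞) (t, p.2)
    _ = _ := by rw [setLIntegral_one, Real.volume_Ioo, sub_zero]

private theorem l5_snd {φ : R3 × R3 → ℝ≥0∞} (hφ : Measurable φ) (T : ℝ) :
    ∫⁻ p, φ p.2 ∂mu3 T = (∫⁻ w, φ w ∂muq) * ENNReal.ofReal T := by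
  rw [lint3_t (Θ := fun p => φ p.2) (hφ.comp measurable_snd), ← lintegral_mul_const _ hφ]
  refine lintegral_congr fun w => ?_
  simp only [setLIntegral_const, Real.volume_Ioo, sub_zero]

/-- `SW.of_L1`, `lint3_t` -/
theorem sw_init {fn : ℕ → XF} {f : XF} (mfn : ∀ n, MeasX (fn n)) (mf : MeasX f)
    (hf1 : ∫⁻ q, f q.1 q.2 ∂muq ≠ ⊤)
    (hconv : Tendsto (fun n => ∫⁻ q, ((fn n q.1 q.2 - f q.1 q.2) + (f q.1 q.2 - fn n q.1 q.2)) ∂muq)
      atTop (𝓝 0)) (T : ℝ) : SW (mu3 T) (fun n p => fn n p.2.1 p.2.2) fun p => f p.2.1 p.2.2 := by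
  refine SW.of_L1 (fun n => Measurable.comp (mfn n) measurable_snd) (Measurable.comp mf measurable_snd)
    ?_ ?_
  · rw [l5_snd mf]
    exact ENNReal.mul_ne_top hf1 ENNReal.ofReal_ne_top
  · have h1 := ENNReal.Tendsto.mul_const (b := ENNReal.ofReal T) hconv (Or.inr ENNReal.ofReal_ne_top)
    rw [zero_mul] at h1
    refine h1.congr fun n => ?_
    exact (l5_snd ((Measurable.sub (mfn n) mf).add (Measurable.sub mf (mfn n))) T).symm

/-- `SW.sch`, `SW.sprm`, `SW.add`, `SW.congr` (by `AM`), `SW.unique` -/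
theorem Lm.ident {Fn : ℕ → PF} {fn : ℕ → XF} {Ψ G : PF} {f : XF} (h : Dom Fn fn Ψ) (hG : Lm Fn Ψ G)
    (mfn : ∀ n, MeasX (fn n)) (mf : MeasX f) (T : ℝ)
    (hf : SW (mu3 T) (fun n p => fn n p.2.1 p.2.2) fun p => f p.2.1 p.2.2) :
    ∀ᵐ p ∂mu3 T, un (ch G) p + un (prm (ch (loss G))) p =
      f p.2.1 p.2.2 + un (prm (ch (gain G))) p := by
  have hA := (hG.sw T).sch h.mF h.pF hG.m hG.p
  have hB := ((hG.lloss h T).sch (fun n => (h.mF n).mloss) (fun n => (h.pF n).ploss) hG.m.mloss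
    hG.p.ploss).sprm (D := ch (loss Ψ)) (fun n => (h.mF n).mloss.mch) hG.m.mloss.mch h.mΨ.mloss.mch
    (by rw [lint_ch h.mΨ.mloss h.pΨ.ploss]; exact (h.iΨ T).int_loss h.mΨ)
    (fun n t x v ht => loss_mono (fun a => h.le n t _ a ht) v)
    (fun t x v _ => loss_mono (fun a => hG.le t _ a) v)
  have hC := ((hG.lgain h T).sch (fun n => (h.mF n).mgain) (fun n => (h.pF n).pgain) hG.m.mgain
    hG.p.pgain).sprm (D := ch (gain Ψ)) (fun n => (h.mF n).mgain.mch) hG.m.mgain.mch h.mΨ.mgain.mch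
    (by rw [lint_ch h.mΨ.mgain h.pΨ.pgain]; exact (h.iΨ T).int_gain h.mΨ)
    (fun n t x v ht => gain_mono (fun a => h.le n t _ a ht) v)
    (fun t x v _ => gain_mono (fun a => hG.le t _ a) v)
  have h1 := hA.add hB (fun n => (h.mF n).mch) hG.m.mch
  have h2 := hf.add hC (fun n => Measurable.comp (mfn n) measurable_snd)
    (Measurable.comp mf measurable_snd)
  refine (h1.congr fun n => (ae3_mem T).mono fun p hp => ?_).unique h2
    (Measurable.add hG.m.mch hG.m.mloss.mch.mprm)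
    ((Measurable.comp mf measurable_snd).add hG.m.mgain.mch.mprm)
  exact AM_iff.1 (h.am n T p.2.1 p.2.2) p.1 (Ioo_subset_Icc_self hp.1)

/-- approximate `t` from below by good times; `Ioo 0 t` is an increasing union -/
theorem le_of_ae_le {l g : ℝ → ℝ≥0∞} {a : ℝ≥0∞} {T : ℝ}
    (h : ∀ᵐ t ∂volume.restrict (Ioo 0 T), ∫⁻ s in Ioo 0 t, l s ≤ a + ∫⁻ s in Ioo 0 t, g s) :
    ∀ t ≤ T, ∫⁻ s in Ioo 0 t, l s ≤ a + ∫⁻ s in Ioo 0 t, g s := by
  intro t ht
  rcases le_or_gt t 0 with h0 | h0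
  · rw [Ioo_eq_empty (not_lt.2 h0), Measure.restrict_empty, lintegral_zero_measure]
    exact zero_le
  have hU : Ioo 0 t = ⋃ n : ℕ, Ioo 0 (t - 1 / ((n : ℝ) + 1)) := by
    ext s
    simp only [mem_iUnion, mem_Ioo]
    constructor
    · rintro ⟨h1, h2⟩
      obtain ⟨n, hn⟩ := exists_nat_one_div_lt (sub_pos.2 h2)
      exact ⟨n, h1, by linarith⟩
    · rintro ⟨n, h1, h2⟩
      have : (0 : ℝ) < 1 / ((n : ℝ) + 1) := by positivity
      exact ⟨h1, by linarith⟩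
  have hmono : Monotone fun n : ℕ => Ioo (0 : ℝ) (t - 1 / ((n : ℝ) + 1)) := fun m n hmn =>
    Ioo_subset_Ioo_right (sub_le_sub_left (Nat.one_div_le_one_div hmn) _)
  conv_lhs => rw [hU, setLIntegral_iUnion_of_directed _ hmono.directed_le]
  refine iSup_le fun n => ?_
  have hlt : max 0 (t - 1 / ((n : ℝ) + 1)) < t :=
    max_lt h0 (sub_lt_self _ (by positivity))
  have hsub : Ioo (max 0 (t - 1 / ((n : ℝ) + 1))) t ⊆ Ioo 0 T :=
    Ioo_subset_Ioo (le_max_left _ _) ht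
  obtain ⟨u, hu, hu'⟩ := Measure.exists_mem_of_measure_ne_zero_of_ae
    (by rw [Real.volume_Ioo]; exact (ENNReal.ofReal_pos.2 (sub_pos.2 hlt)).ne')
    (ae_restrict_of_ae_restrict_of_subset hsub h)
  calc _ ≤ ∫⁻ s in Ioo 0 u, l s :=
        lintegral_mono_set (Ioo_subset_Ioo_right ((le_max_right _ _).trans hu.1.le))
    _ ≤ _ := hu'
    _ ≤ _ := add_le_add_right (lintegral_mono_set (Ioo_subset_Ioo_right hu.2.le)) _

open Classical in
/-- the good representative -/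
def rep (G : PF) (f : XF) : PF := fun t x v =>
  if 0 ≤ t ∧ prm (ch (gain G)) t (x - t • v) v ≠ ⊤ then
    f (x - t • v) v + prm (ch (gain G)) t (x - t • v) v - prm (ch (loss G)) t (x - t • v) v else 0

theorem Meas.mrep {G : PF} {f : XF} (hG : Meas G) (mf : MeasX f) : Meas (rep G f) := by
  have m : Measurable fun p : ℝ × R3 × R3 => (p.1, p.2.1 - p.1 • p.2.2, p.2.2) := by fun_prop
  have h1 := Measurable.comp hG.mgain.mch.mprm m
  have h2 := Measurable.comp hG.mloss.mch.mprm m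
  have h3 := Measurable.comp mf m.snd
  exact Measurable.ite ((measurableSet_le measurable_const measurable_fst).inter
    (h1 (measurableSet_singleton ⊤)).compl) ((h3.add h1).sub h2) measurable_const

private theorem l5_per {Θ : PF} (h : Per Θ) (t : ℝ) (x v w : R3) (i : Fin 3) :
    prm (ch Θ) t (x + EuclideanSpace.single i 1 - w) v = prm (ch Θ) t (x - w) v := by
  refine lintegral_congr fun s => ?_
  refine Eq.trans ?_ (h s v (x - w + s • v) i)
  simp only [ch]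
  congr 1
  abel

theorem Per.prep {G : PF} {f : XF} (hG : Per G) (pf : PerX f) : Per (rep G f) := by
  intro t v x i
  have h3 : f (x + EuclideanSpace.single i 1 - t • v) v = f (x - t • v) v := by
    refine Eq.trans ?_ (pf v (x - t • v) i)
    simp only
    congr 1
    abel
  simp only [rep, l5_per hG.pgain, l5_per hG.ploss, h3]

private theorem l5_fin {Θ : PF} {T : ℝ} (hm : Meas Θ) (hp : Per Θ) (h : ∫⁻ p, un Θ p ∂mu3 T ≠ ⊤) :
    ∀ᵐ w ∂muq, ∀ t ≤ T, prm (ch Θ) t w.1 w.2 ≠ ⊤ := by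
  rw [← lint_ch hm hp, lint3_t hm.mch] at h
  filter_upwards [ae_lt_top (Measurable.lintegral_prod_left' (μ := volume.restrict (Ioo 0 T)) hm.mch)
    h] with w hw t ht
  exact ((lintegral_mono_set (Ioo_subset_Ioo_right ht)).trans_lt hw).ne

private theorem l5_ch {G : PF} {f : XF} {t : ℝ} {y v : R3} (ht : 0 ≤ t)
    (h : prm (ch (gain G)) t y v ≠ ⊤) :
    ch (rep G f) t y v = f y v + prm (ch (gain G)) t y v - prm (ch (loss G)) t y v := by
  simp only [ch, rep, add_sub_cancel_right]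
  exact if_pos ⟨ht, h⟩

/-- in characteristic coordinates `rep = f + ∫ gain - ∫ loss = G` a.e.; `ae_of_ch` -/
theorem rep_ae_eq {G : PF} {f : XF} {T : ℝ} (hG : Meas G) (pG : Per G) (pf : PerX f)
    (h1 : ∫⁻ p, un (gain G) p ∂mu3 T ≠ ⊤) (h2 : ∫⁻ p, un (loss G) p ∂mu3 T ≠ ⊤)
    (h : ∀ᵐ p ∂mu3 T, un (ch G) p + un (prm (ch (loss G))) p =
      f p.2.1 p.2.2 + un (prm (ch (gain G))) p) : un (rep G f) =ᵐ[mu3 T] un G := by
  refine ae_of_ch (pG.prep pf) pG ?_
  have h3 : ∀ᵐ p ∂mu3 T, (∀ t ≤ T, prm (ch (gain G)) t p.2.1 p.2.2 ≠ ⊤) ∧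
      ∀ t ≤ T, prm (ch (loss G)) t p.2.1 p.2.2 ≠ ⊤ := by
    rw [mu3_eq]
    exact Measure.quasiMeasurePreserving_snd.ae
      ((l5_fin hG.mgain pG.pgain h1).and (l5_fin hG.mloss pG.ploss h2))
  filter_upwards [h, h3, ae3_mem T] with p hp hf hm
  refine (l5_ch hm.1.1.le (hf.1 _ hm.1.2.le)).trans ?_
  exact ENNReal.sub_eq_of_eq_add (hf.2 _ hm.1.2.le) hp.symm

/-- On a.e. characteristic the gain integral up to `T` is finite, `∫₀ᵗ loss ≤ f + ∫₀ᵗ gain` for all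
`t ≤ T` (`le_of_ae_le`), and gain and loss of `rep G f` and of `G` agree for a.e. time (`gain_congr`,
`loss_congr`, `ae_ch`, `ae3_t`); `tsub_add_cancel_of_le`. -/
theorem rep_am {G : PF} {f : XF} {T : ℝ} (hG : Meas G) (pG : Per G) (mf : MeasX f) (pf : PerX f)
    (h1 : ∫⁻ p, un (gain G) p ∂mu3 T ≠ ⊤) (h2 : ∫⁻ p, un (loss G) p ∂mu3 T ≠ ⊤)
    (h : ∀ᵐ p ∂mu3 T, un (ch G) p + un (prm (ch (loss G))) p =
      f p.2.1 p.2.2 + un (prm (ch (gain G))) p) : AMae (rep G f) f T := by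
  have he := rep_ae_eq hG pG pf h1 h2 h
  have pF := pG.prep pf
  filter_upwards [l5_fin hG.mgain pG.pgain h1, ae3_t h,
    ae3_t (ae_ch pF.pgain pG.pgain (gain_congr (hG.mrep mf) hG he)),
    ae3_t (ae_ch pF.ploss pG.ploss (loss_congr he))] with w hf hid hg hl
  refine AM_iff.2 fun t ht => ?_
  have e1 : prm (ch (gain (rep G f))) t w.1 w.2 = prm (ch (gain G)) t w.1 w.2 :=
    lintegral_congr_ae (ae_restrict_of_ae_restrict_of_subset (Ioo_subset_Ioo_right ht.2) hg)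
  have e2 : prm (ch (loss (rep G f))) t w.1 w.2 = prm (ch (loss G)) t w.1 w.2 :=
    lintegral_congr_ae (ae_restrict_of_ae_restrict_of_subset (Ioo_subset_Ioo_right ht.2) hl)
  rw [e1, e2, l5_ch ht.1 (hf t ht.2)]
  exact tsub_add_cancel_of_le (le_of_ae_le (l := fun s => ch (loss G) s w.1 w.2)
    (g := fun s => ch (gain G) s w.1 w.2) (a := f w.1 w.2)
    (hid.mono fun s hs => le_add_self.trans hs.le) t ht.2)

end

end Crest.Agent.R68
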