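import Crest.Agent.R68.A4
import Crest.Agent.R68.A5
import Crest.Agent.R68.LimL5

/-!
# R68 (S0091): compactness: passing to the limit in dominated solutions

SUB-LEAD file (DiPerna-Lions type argument; domination by `Ψ` removes all renormalisation).

Plan.  Work on `Om3 T`, `T = 1, 2, …` (or on `region` with an equivalent finite measure).
`Integ Ψ T` gives `Ψ < ∞` a.e., `Ψ br^k ∈ L¹` and `br^k (Qp Ψ Ψ + Nu Ψ Ψ) ∈ L¹(Om3 T)`
(`Qp_weak`, `Nn_le_br`), also `Ψ(t,x,v) Ψ(t,x,a) br v br a ∈ L¹(dt dx dv da)`.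
* (L1) weak-* sequential compactness: a sequence of measurable `[0,1]`-valued (or `[-1,1]`-valued)
  functions on a σ-finite countably generated space has a subsequence converging against all
  `L¹` functions to a measurable function with the same bounds (`WeakDual.isSeqCompact_closedBall`
  or weak compactness in the Hilbert space `L²` of an equivalent finite measure, then density).
  Apply to `g_n = (Fn/Ψ).toReal`; put `F̃ = g Ψ`, made periodic by evaluating `g` at the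
  fractional part of `x`.  So `∫_A Fn → ∫_A F̃` for all measurable `A ⊆ Om3 T`.
* (L2) averaging by duality: if `η_n(t,x)` is periodic in `x`, `|η_n| ≤ 1`, supported in
  `0 < t < T`, `η_n ⇀ 0` weak-*, then `A_n(t,x,v) = h₀⁻¹ ∫₀^{h₀} η_n(t+h, x+hv) dh → 0` in
  `L²(dt dx 1_{‖v‖ ≤ ρ} dv)`: expand the square, shift `(s,y) = (t+h, x+hv)`; the inner integral
  `∫∫∫ η_n(s+h'-h, y+(h'-h)v)` is the integral of `η_n` against a fixed `L¹` kernel (substitute
  `z = y + σ v` for `σ = h'-h ≠ 0`; it is enough to see that the push-forward of the finite measure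
  `dh dh' dv` under `(h,h',v) ↦ (s+σ, fract (y+σv))` is absolutely continuous, Radon-Nikodym),
  so tends to `0` pointwise and is bounded; dominated convergence.
* (L3) for measurable bounded `B ⊆ ℝ³`, `ρ_n = ∫_B Fn dv → ∫_B F̃ dv` in `L¹((0,T) × cell)`:
  by the subsequence principle take `η_n = sign(ρ_n - ρ) ⇀ η` (L1); it suffices that
  `∫ (η_n - η) ρ_n → 0`.  By `AM`, `|Fn(t, y+tv) - Fn(t-h, y+(t-h)v)| ≤ ∫_{t-h}^t (Qp Ψ Ψ + Nu Ψ Ψ)`, so
  replacing `Fn` by its backward average over `h ∈ (0,h₀)` costs `O(h₀) + ∫_{t<h₀} Ψ` in `L¹`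
  uniformly in `n`; moving the average onto `η_n - η` gives `∫ Fn 1_B A_n → 0` (`Fn ≤ Ψ ∈ L¹`,
  `|A_n| ≤ 2`, `A_n → 0` in measure).
* (L4) `∫_{A×B×B'} Fn(v) Fn(a) → ∫ F̃ F̃` on rectangles (`ρ_n → ρ` in measure, dominated by
  `(∫Ψ)² ∈ L¹`); π-λ (`MeasurableSpace.induction_on_inter`) extends it to all measurable subsets of
  `{‖v‖,‖a‖ ≤ ρ}`, then to all measurable kernels `K ≤ C br v br a` (simple functions, domination).
  With `Qp_weak`: `∫_A Qp Fn Fn → ∫_A Qp F̃ F̃` and `∫_A Nu Fn Fn → ∫_A Nu F̃ F̃`.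
* (L5) define `F t x v = f y v + ∫₀ᵗ Qp F̃ F̃ - ∫₀ᵗ Nu F̃ F̃` (truncated subtraction, `y = x - t v`)
  when `0 ≤ t` and the gain integral is finite, `0` otherwise.  Integrating `AM` for `Fn` over a
  measurable set of `(t,y,v)` and passing to the limit shows
  `F̃(t) + ∫₀ᵗ loss = f + ∫₀ᵗ gain` a.e.; so `F = F̃` a.e., and on a.e. characteristic
  `∫₀ᵗ loss ≤ f + ∫₀ᵗ gain` for a.e. `t`, hence all `t` (continuity in `t`).  Replace `F̃` by `F`
  inside the integrals (`Qp_congr_ae`, Fubini, `lintegral_shear`).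
-/

set_option autoImplicit false

namespace Crest.Agent.R68

open MeasureTheory Set Filter Crest.AnalysisR.VecCalc3 Crest.AnalysisR.PDE.Boltzmann
open scoped ENNReal _root_.Topology

noncomputable section

theorem limit {Fn : ℕ → PF} {fn : ℕ → XF} {f : XF} {Ψ : PF} (mΨ : Meas Ψ) (pΨ : Per Ψ)
    (iΨ : ∀ T, Integ Ψ T) (mF : ∀ n, Meas (Fn n)) (pF : ∀ n, Per (Fn n))
    (hle : ∀ n t x v, 0 < t → Fn n t x v ≤ Ψ t x v)
    (mfn : ∀ n, MeasX (fn n)) (mf : MeasX f) (pf : PerX f) (hf : ∀ x v, f x v ≠ ⊤)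
    (hf1 : ∫⁻ q in cell ×ˢ (univ : Set R3), f q.1 q.2 ≠ ⊤)
    (hAM : ∀ n T y v, AM (Fn n) (fn n) T y v)
    (hconv : Tendsto (fun n => ∫⁻ q in cell ×ˢ (univ : Set R3),
      ((fn n q.1 q.2 - f q.1 q.2) + (f q.1 q.2 - fn n q.1 q.2))) atTop (𝓝 0)) :
    ∃ φ : ℕ → ℕ, StrictMono φ ∧ ∃ F : PF, Meas F ∧ Per F ∧ (∀ t x v, F t x v ≠ ⊤) ∧
      (∀ x v, F 0 x v = f x v) ∧ (∀ T, AMae F f T) ∧ (∀ T, Integ F T) ∧
      ∀ T, ∀ A : Set (ℝ × R3 × R3), MeasurableSet A → A ⊆ Om3 T →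
        Tendsto (fun n => ∫⁻ p in A, Qp (Fn (φ n) p.1 p.2.1) (Fn (φ n) p.1 p.2.1) p.2.2) atTop
          (𝓝 (∫⁻ p in A, Qp (F p.1 p.2.1) (F p.1 p.2.1) p.2.2)) := by
  have hD : Dom Fn fn Ψ := ⟨mΨ, pΨ, iΨ, mF, pF, hle, hAM⟩
  obtain ⟨φ, hφ, G, hG⟩ := exists_lm hD
  have hD' := hD.subseq φ
  have iG : ∀ T, Integ G T := fun T => (iΨ T).of_ae_le (Eventually.of_forall fun p => hG.le _ _ _)
  have hid := fun T => hG.ident hD' (fun n => mfn _) mf T
    ((sw_init mfn mf hf1 hconv T).subseq hφ.tendsto_atTop)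
  have he := fun T => rep_ae_eq hG.m hG.p pf ((iG T).int_gain hG.m) ((iG T).int_loss hG.m) (hid T)
  refine ⟨φ, hφ, rep G f, hG.m.mrep mf, hG.p.prep pf, fun t x v => ?_, fun x v => ?_,
    fun T => rep_am hG.m hG.p mf pf ((iG T).int_gain hG.m) ((iG T).int_loss hG.m) (hid T),
    fun T => (iG T).of_ae_le ((he T).mono fun p hp => hp.le), fun T A hA hAT => ?_⟩
  · unfold rep
    split_ifs with h
    · exact ENNReal.sub_ne_top (ENNReal.add_ne_top.2 ⟨hf _ _, h.2⟩)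
    · exact ENNReal.zero_ne_top
  · simp [rep, prm]
  · have h1 := hG.lgain hD' T A hA
    rw [lintegral_congr_ae (ae_restrict_of_ae (gain_congr (hG.m.mrep mf) hG.m (he T)).symm),
      Measure.restrict_restrict_of_subset hAT] at h1
    exact h1

end

end Crest.Agent.R68
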