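import Crest.Agent.R68.LimAvg

/-!
# R68 / LimAV: the averaging lemma in characteristic coordinates
-/

set_option autoImplicit false

namespace Crest.Agent.R68

open MeasureTheory Set Filter Crest.AnalysisR.VecCalc3 Crest.AnalysisR.PDE.Boltzmann
open scoped ENNReal _root_.Topology

noncomputable section

/-- Tonelli: for fixed `τ` the set of `t` with `t - h < τ < t` has measure `h` -/
theorem lintegral_window {q : ℝ → ℝ≥0∞} (hq : Measurable q) {h T : ℝ} (hh : 0 < h) :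
    ∫⁻ t in Ioo h T, (∫⁻ τ in Ioo (t - h) t, q τ) ≤ ENNReal.ofReal h * ∫⁻ τ in Ioo 0 T, q τ := by
  have hS : MeasurableSet {p : ℝ × ℝ | p.1 - h < p.2 ∧ p.2 < p.1} :=
    (measurableSet_lt (measurable_fst.sub_const h) measurable_snd).inter
      (measurableSet_lt measurable_snd measurable_fst)
  have hm : Measurable fun p : ℝ × ℝ =>
      {p : ℝ × ℝ | p.1 - h < p.2 ∧ p.2 < p.1}.indicator (fun p => q p.2) p :=
    (hq.comp measurable_snd).indicator hS
  calc ∫⁻ t in Ioo h T, (∫⁻ τ in Ioo (t - h) t, q τ)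
      = ∫⁻ t in Ioo h T, ∫⁻ τ in Ioo 0 T,
          {p : ℝ × ℝ | p.1 - h < p.2 ∧ p.2 < p.1}.indicator (fun p => q p.2) (t, τ) := by
        refine setLIntegral_congr_fun measurableSet_Ioo fun t ht => ?_
        have hsub : Ioo (t - h) t ∩ Ioo 0 T = Ioo (t - h) t :=
          inter_eq_left.2 fun τ hτ => ⟨by linarith [hτ.1, ht.1], by linarith [hτ.2, ht.2]⟩
        have : ∀ τ, {p : ℝ × ℝ | p.1 - h < p.2 ∧ p.2 < p.1}.indicator (fun p => q p.2) (t, τ) =
            (Ioo (t - h) t).indicator q τ := fun τ => rfl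
        simp only [this]
        rw [lintegral_indicator measurableSet_Ioo, Measure.restrict_restrict measurableSet_Ioo, hsub]
    _ = ∫⁻ τ in Ioo 0 T, ∫⁻ t in Ioo h T,
          {p : ℝ × ℝ | p.1 - h < p.2 ∧ p.2 < p.1}.indicator (fun p => q p.2) (t, τ) :=
        lintegral_lintegral_swap hm.aemeasurable
    _ ≤ ∫⁻ τ in Ioo 0 T, ENNReal.ofReal h * q τ := by
        refine lintegral_mono fun τ => (setLIntegral_le_lintegral _ _).trans (le_of_eq ?_)
        have : ∀ t, {p : ℝ × ℝ | p.1 - h < p.2 ∧ p.2 < p.1}.indicator (fun p => q p.2) (t, τ) =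
            (Ioo τ (τ + h)).indicator (fun _ => q τ) t := fun t => by
          by_cases ht : t ∈ Ioo τ (τ + h)
          · rw [indicator_of_mem ht, indicator_of_mem]
            exact ⟨by linarith [ht.2], ht.1⟩
          · rw [indicator_of_notMem ht, indicator_of_notMem]
            exact fun hc => ht ⟨hc.2, by linarith [hc.1]⟩
        simp only [this]
        rw [lintegral_indicator measurableSet_Ioo, setLIntegral_const, Real.volume_Ioo,
          add_sub_cancel_left, mul_comm]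
    _ = _ := lintegral_const_mul _ hq

/-- `∫₀ᵀ z(t+h) g(t) dt = ∫_{(h,T)} z(t) g(t-h) dt`; the difference is
`∫_{(0,T) ∩ (-∞,h]} z g + ∫_{(h,T)} z(t) (g(t) - g(t-h))`; `lintegral_window`. -/
theorem shift_le {z g : ℝ → ℝ} {ψ q : ℝ → ℝ≥0∞} {T h h₀ : ℝ} (hz : Measurable z) (hg : Measurable g)
    (hq : Measurable q) (hz1 : ∀ t, |z t| ≤ 1) (hz0 : ∀ t, t ∉ Ioo 0 T → z t = 0)
    (hψ : ∀ t ∈ Ioo 0 T, ‖g t‖ₑ ≤ ψ t) (hfin : ∫⁻ t in Ioo 0 T, ψ t ≠ ⊤)
    (hl : ∀ s t, 0 < s → s < t → t < T → ‖g t - g s‖ₑ ≤ ∫⁻ τ in Ioo s t, q τ) (hh : 0 < h)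
    (hh₀ : h ≤ h₀) :
    ‖(∫ t in Ioo 0 T, z t * g t) - ∫ t in Ioo 0 T, z (t + h) * g t‖ₑ ≤
      (∫⁻ t in Ioo 0 T, (Iic h₀).indicator ψ t) + ENNReal.ofReal h₀ * ∫⁻ τ in Ioo 0 T, q τ := by
  have hgi : Integrable g (volume.restrict (Ioo 0 T)) :=
    ⟨hg.aestronglyMeasurable, (setLIntegral_mono' measurableSet_Ioo hψ).trans_lt hfin.lt_top⟩
  have hzh : Measurable fun t => z (t + h) := hz.comp (measurable_add_const h)
  have h1 : Integrable ((Ioo 0 T).indicator fun t => z t * g t) :=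
    (integrable_indicator_iff measurableSet_Ioo).2
      (hgi.bdd_mul hz.aestronglyMeasurable (ae_of_all _ hz1))
  have h3 : Integrable ((Ioo 0 T).indicator fun t => z (t + h) * g t) :=
    (integrable_indicator_iff measurableSet_Ioo).2
      (hgi.bdd_mul hzh.aestronglyMeasurable (ae_of_all _ fun t => hz1 _))
  have h2 := h3.comp_sub_right h
  rw [← integral_indicator measurableSet_Ioo, ← integral_indicator measurableSet_Ioo,
    ← integral_sub_right_eq_self ((Ioo 0 T).indicator fun t => z (t + h) * g t) h,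
    ← integral_sub h1 h2]
  refine (enorm_integral_le_lintegral_enorm _).trans ?_
  rw [← lintegral_add_compl _ (measurableSet_Ioo (a := h) (b := T)), add_comm]
  have hz1' : ∀ t, ‖z t‖ₑ ≤ 1 := fun t => by
    rw [← ofReal_norm, ← ENNReal.ofReal_one]
    exact ENNReal.ofReal_le_ofReal (hz1 t)
  refine add_le_add ?_ ?_
  · rw [← lintegral_indicator (measurableSet_Ioo (a := 0) (b := T))]
    refine (setLIntegral_mono' measurableSet_Ioo.compl fun t ht => ?_).trans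
      (setLIntegral_le_lintegral _ _)
    have h0 : ((Ioo 0 T).indicator fun t => z (t + h) * g t) (t - h) = 0 := by
      by_cases hc : t - h ∈ Ioo 0 T
      · rw [indicator_of_mem hc, sub_add_cancel, hz0 t, zero_mul]
        exact fun h' => ht ⟨by linarith [hc.1], h'.2⟩
      · exact indicator_of_notMem hc _
    rw [h0, sub_zero]
    by_cases hc : t ∈ Ioo 0 T
    · have hth : t ∈ Iic h₀ := by
        by_contra h'
        exact ht ⟨by simp only [mem_Iic, not_le] at h'; linarith, hc.2⟩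
      rw [indicator_of_mem hc, indicator_of_mem hc, indicator_of_mem hth, enorm_mul]
      calc ‖z t‖ₑ * ‖g t‖ₑ ≤ 1 * ψ t := mul_le_mul' (hz1' t) (hψ t hc)
        _ = ψ t := one_mul _
    · rw [indicator_of_notMem hc, enorm_zero]
      exact zero_le
  · refine (setLIntegral_mono' measurableSet_Ioo fun t ht => ?_).trans
      ((lintegral_window hq hh).trans (by gcongr))
    have ha : t ∈ Ioo 0 T := ⟨hh.trans ht.1, ht.2⟩
    have hb : t - h ∈ Ioo 0 T := ⟨by linarith [ht.1], by linarith [ht.2]⟩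
    rw [indicator_of_mem ha, indicator_of_mem hb, sub_add_cancel, ← mul_sub, enorm_mul]
    calc ‖z t‖ₑ * ‖g t - g (t - h)‖ₑ ≤ 1 * ∫⁻ τ in Ioo (t - h) t, q τ :=
          mul_le_mul' (hz1' t) (hl _ _ hb.1 (by linarith) ht.2)
      _ = _ := one_mul _

private theorem av_int {T : ℝ} {u : ℝ × R3 × R3 → ℝ} {ψ : ℝ × R3 × R3 → ℝ≥0∞} (hu : Measurable u)
    (hψ1 : ∫⁻ p, ψ p ∂mu3 T ≠ ⊤) (hb : ∀ p, 0 < p.1 → ‖u p‖ₑ ≤ ψ p) : Integrable u (mu3 T) :=
  ⟨hu.aestronglyMeasurable,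
    (lintegral_mono_ae ((ae3_mem T).mono fun p hp => hb p hp.1.1)).trans_lt hψ1.lt_top⟩

private theorem av_fl (h : ℝ) : Measurable (fl h) :=
  measurable_fl.comp (measurable_const.prodMk measurable_id)

/-- `shift_le` on every characteristic, with `z t = ζ (t, fr (y + t v))`; Fubini (`mu3_eq`,
`integral_prod_symm`, `lint3_t`) -/
theorem shift_le3 {T h h₀ : ℝ} {u : ℝ × R3 × R3 → ℝ} {ψ q : ℝ × R3 × R3 → ℝ≥0∞} {ζ : ℝ × R3 → ℝ}
    (hu : Measurable u) (hψ : Measurable ψ) (hq : Measurable q) (hζ : Measurable ζ)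
    (hψ1 : ∫⁻ p, ψ p ∂mu3 T ≠ ⊤) (hb : ∀ p, 0 < p.1 → ‖u p‖ₑ ≤ ψ p)
    (hl : ∀ᵐ w ∂muq, ∀ s t, 0 < s → s < t → t < T →
      ‖u (t, w) - u (s, w)‖ₑ ≤ ∫⁻ τ in Ioo s t, q (τ, w))
    (hζ1 : ∀ z, |ζ z| ≤ 1) (hζ0 : ∀ z, z.1 ∉ Ioo 0 T → ζ z = 0) (hh : 0 < h) (hh₀ : h ≤ h₀) :
    ‖(∫ p, ζ (fl 0 p) * u p ∂mu3 T) - ∫ p, ζ (fl h p) * u p ∂mu3 T‖ₑ ≤
      (∫⁻ p, (Iic h₀ ×ˢ univ).indicator ψ p ∂mu3 T) + ENNReal.ofReal h₀ * ∫⁻ p, q p ∂mu3 T := by
  have hui := av_int hu hψ1 hb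
  have hi : ∀ h, Integrable (fun p => ζ (fl h p) * u p) ((volume.restrict (Ioo 0 T)).prod muq) :=
    fun h => mu3_eq T ▸ hui.bdd_mul (hζ.comp (av_fl h)).aestronglyMeasurable
      (ae_of_all _ fun p => hζ1 _)
  have hS : MeasurableSet (Iic h₀ ×ˢ (univ : Set (R3 × R3))) := measurableSet_Iic.prod .univ
  rw [lint3_t (hψ.indicator hS), lint3_t hq, ← lintegral_const_mul _
    (hq.lintegral_prod_left' (μ := volume.restrict (Ioo 0 T))), ← lintegral_add_left
    ((hψ.indicator hS).lintegral_prod_left' (μ := volume.restrict (Ioo 0 T))), mu3_eq,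
    integral_prod_symm _ (hi 0), integral_prod_symm _ (hi h),
    ← integral_sub (hi 0).integral_prod_right (hi h).integral_prod_right]
  refine (enorm_integral_le_lintegral_enorm _).trans (lintegral_mono_ae ?_)
  rw [lint3_t hψ] at hψ1
  filter_upwards [hl, ae_lt_top (hψ.lintegral_prod_left' (μ := volume.restrict (Ioo 0 T))) hψ1]
    with w hw hfin
  have hz : Measurable fun t : ℝ => ζ (t, fr (w.1 + t • w.2)) :=
    hζ.comp (measurable_id.prodMk (measurable_fr.comp (by fun_prop)))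
  have key := shift_le (z := fun t => ζ (t, fr (w.1 + t • w.2))) (g := fun t => u (t, w))
    (ψ := fun t => ψ (t, w)) (q := fun t => q (t, w)) (T := T) hz
    (hu.comp measurable_prodMk_right) (hq.comp measurable_prodMk_right) (fun t => hζ1 _)
    (fun t ht => hζ0 _ ht) (fun t ht => hb _ ht.1) hfin.ne hw hh hh₀
  have e1 : ∀ t : ℝ, (Iic h₀ ×ˢ (univ : Set (R3 × R3))).indicator ψ (t, w) =
      (Iic h₀).indicator (fun t => ψ (t, w)) t := fun t => by
    by_cases ht : t ∈ Iic h₀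
    · rw [indicator_of_mem ht, indicator_of_mem (mk_mem_prod ht (mem_univ _))]
    · rw [indicator_of_notMem ht, indicator_of_notMem fun hc => ht hc.1]
  simpa only [fl, add_zero, e1] using key

/-- dominated convergence along `h₀ = 1/(k+1)` -/
theorem exists_small {T : ℝ} {ψ : ℝ × R3 × R3 → ℝ≥0∞} (hψ : Measurable ψ)
    (hψ1 : ∫⁻ p, ψ p ∂mu3 T ≠ ⊤) {Q ε : ℝ≥0∞} (hQ : Q ≠ ⊤) (hε : 0 < ε) : ∃ h₀ : ℝ, 0 < h₀ ∧
      (∫⁻ p, (Iic h₀ ×ˢ univ).indicator ψ p ∂mu3 T) + ENNReal.ofReal h₀ * Q ≤ ε := by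
  have hS : ∀ c : ℝ, MeasurableSet (Iic c ×ˢ (univ : Set (R3 × R3))) := fun c =>
    measurableSet_Iic.prod .univ
  have h0 : Tendsto (fun k : ℕ => 1 / ((k : ℝ) + 1)) atTop (𝓝 0) :=
    tendsto_one_div_add_atTop_nhds_zero_nat
  have h1 : Tendsto (fun k : ℕ => ∫⁻ p, (Iic (1 / ((k : ℝ) + 1)) ×ˢ univ).indicator ψ p ∂mu3 T) atTop
      (𝓝 (∫⁻ _, 0 ∂mu3 T)) := by
    refine tendsto_lintegral_of_dominated_convergence ψ (fun k => hψ.indicator (hS _))
      (fun k => ae_of_all _ fun p => indicator_le_self _ _ p) hψ1 ?_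
    filter_upwards [ae3_mem T] with p hp
    refine tendsto_const_nhds.congr' ?_
    filter_upwards [h0.eventually (gt_mem_nhds hp.1.1)] with k hk
    exact (indicator_of_notMem (fun hc => absurd hc.1 (not_le.2 hk)) _).symm
  have h2 : Tendsto (fun k : ℕ => ENNReal.ofReal (1 / ((k : ℝ) + 1)) * Q) atTop (𝓝 (0 * Q)) := by
    refine ENNReal.Tendsto.mul_const ?_ (Or.inr hQ)
    simpa using ENNReal.tendsto_ofReal h0
  have h3 := h1.add h2
  rw [lintegral_zero, zero_mul, add_zero] at h3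
  obtain ⟨k, hk⟩ := (h3.eventually (ge_mem_nhds hε)).exists
  exact ⟨_, by positivity, hk⟩

/-- Replace `ζ n` by `ζ' n = indicator (Ioo 0 T ×ˢ univ) (ζ n)` (`lamc_restrict`: `WS lamc ζ' 0`).  With
`h₀` from `exists_small`, average `shift_le3` over `h ∈ (0, h₀)`; by Fubini
`∫_h ∫_p ζ' (fl h p) u p = ∫_p (∫_h ζ' (fl h p)) u p`, whose absolute value is at most
`∫ |∫_h ζ' (fl h p)| d((mu3 T).withDensity ψ) → 0` by `avg_abs` and `qmp_fl`
(`QuasiMeasurePreserving.mono_left`, `AbsolutelyContinuous.prod`). -/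
theorem av {T : ℝ} {u : ℕ → ℝ × R3 × R3 → ℝ} {ψ q : ℝ × R3 × R3 → ℝ≥0∞} {ζ : ℕ → ℝ × R3 → ℝ}
    (hu : ∀ n, Measurable (u n)) (hψ : Measurable ψ) (hq : Measurable q) (hζ : ∀ n, Measurable (ζ n))
    (hψ1 : ∫⁻ p, ψ p ∂mu3 T ≠ ⊤) (hq1 : ∫⁻ p, q p ∂mu3 T ≠ ⊤)
    (hb : ∀ n p, 0 < p.1 → ‖u n p‖ₑ ≤ ψ p)
    (hl : ∀ n, ∀ᵐ w ∂muq, ∀ s t, 0 < s → s < t → t < T →
      ‖u n (t, w) - u n (s, w)‖ₑ ≤ ∫⁻ τ in Ioo s t, q (τ, w))
    (hζ1 : ∀ n z, |ζ n z| ≤ 1) (hw : WS (mu2 T) ζ 0) :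
    Tendsto (fun n => ∫ p, ζ n (fl 0 p) * u n p ∂mu3 T) atTop (𝓝 0) := by
  have hS : MeasurableSet (Ioo 0 T ×ˢ (univ : Set R3)) := measurableSet_Ioo.prod .univ
  set ζ' : ℕ → ℝ × R3 → ℝ := fun n => (Ioo 0 T ×ˢ univ).indicator (ζ n) with hζ'
  have hm' : ∀ n, Measurable (ζ' n) := fun n => (hζ n).indicator hS
  have hb' : ∀ n z, |ζ' n z| ≤ 1 := fun n z =>
    (norm_indicator_le_norm_self (ζ n) z).trans (hζ1 n z)
  have h0' : ∀ n z, z.1 ∉ Ioo 0 T → ζ' n z = 0 := fun n z hz =>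
    indicator_of_notMem (fun hc => hz hc.1) _
  have hw' : WS lamc ζ' 0 := fun φ hφ => by
    have h1 := hw φ (lamc_restrict T ▸ hφ.restrict)
    simp only [Pi.zero_apply, zero_mul, integral_zero] at h1 ⊢
    refine h1.congr fun n => ?_
    rw [← lamc_restrict, ← integral_indicator hS]
    congr 1
    ext z
    exact indicator_mul_left _ _ _
  have he : ∀ n, ∫ p, ζ n (fl 0 p) * u n p ∂mu3 T = ∫ p, ζ' n (fl 0 p) * u n p ∂mu3 T := fun n => by
    refine integral_congr_ae ((ae3_mem T).mono fun p hp => ?_)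
    have : fl 0 p ∈ Ioo 0 T ×ˢ (univ : Set R3) := ⟨by simpa [fl] using hp.1, mem_univ _⟩
    simp only [hζ', indicator_of_mem this]
  simp only [he]
  have hfin : ∀ᵐ p ∂mu3 T, ψ p < ⊤ := ae_lt_top hψ hψ1
  have : IsFiniteMeasure ((mu3 T).withDensity ψ) := isFiniteMeasure_withDensity hψ1
  rw [Metric.tendsto_atTop]
  intro ε hε
  obtain ⟨h₀, hh₀, hsm⟩ := exists_small hψ hψ1 hq1 (ε := ENNReal.ofReal (ε / 2))
    (ENNReal.ofReal_pos.2 (half_pos hε))
  have : IsFiniteMeasure (volume.restrict (Ioo (0 : ℝ) h₀)) :=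
    isFiniteMeasure_restrict.2 measure_Ioo_lt_top.ne
  have hθ : volume.restrict (Ioo (0 : ℝ) h₀) ≪ volume := Measure.absolutelyContinuous_restrict
  have hA := avg_abs (m := (mu3 T).withDensity ψ) (θ := volume.restrict (Ioo 0 h₀)) (Φ := fl)
    measurable_fl (qmp_fl.mono_left ((hθ.prod hθ).prod
      ((withDensity_absolutelyContinuous _ _).trans Measure.absolutelyContinuous_restrict)))
    hm' hb' hw'
  obtain ⟨N, hN⟩ := eventually_atTop.1 (hA.eventually (gt_mem_nhds (mul_pos hh₀ (half_pos hε))))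
  refine ⟨N, fun n hn => ?_⟩
  have hAn := hN n hn
  have hui := av_int (hu n) hψ1 (hb n)
  have hmf : Measurable fun r : ℝ × ℝ × R3 × R3 => ζ' n (fl r.1 r.2) := (hm' n).comp measurable_fl
  have hi : Integrable (fun r : ℝ × ℝ × R3 × R3 => ζ' n (fl r.1 r.2) * u n r.2)
      ((volume.restrict (Ioo 0 h₀)).prod (mu3 T)) :=
    (hui.comp_snd _).bdd_mul hmf.aestronglyMeasurable (ae_of_all _ fun r => hb' n _)
  set I := ∫ p, ζ' n (fl 0 p) * u n p ∂mu3 T with hI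
  have h1 : ‖∫ h in Ioo 0 h₀, (I - ∫ p, ζ' n (fl h p) * u n p ∂mu3 T)‖ ≤ ε / 2 * h₀ := by
    refine (norm_setIntegral_le_of_norm_le_const measure_Ioo_lt_top fun h hh => ?_).trans
      (by rw [Real.volume_real_Ioo_of_le hh₀.le, sub_zero])
    have := (shift_le3 (hu n) hψ hq (hm' n) hψ1 (hb n) (hl n) (hb' n) (h0' n) hh.1 hh.2.le).trans hsm
    rwa [← ofReal_norm, ENNReal.ofReal_le_ofReal_iff (half_pos hε).le] at this
  rw [integral_sub (integrable_const _) hi.integral_prod_left, setIntegral_const,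
    Real.volume_real_Ioo_of_le hh₀.le, sub_zero, smul_eq_mul,
    integral_integral_swap (f := fun h p => ζ' n (fl h p) * u n p) hi] at h1
  have hmA : Measurable fun p : ℝ × R3 × R3 => ∫ h in Ioo 0 h₀, ζ' n (fl h p) :=
    (hmf.stronglyMeasurable.integral_prod_left').measurable
  have hbA : ∀ p : ℝ × R3 × R3, |∫ h in Ioo 0 h₀, ζ' n (fl h p)| ≤ 1 * volume.real (Ioo 0 h₀) :=
    fun p => by
      rw [← Real.norm_eq_abs]
      exact norm_setIntegral_le_of_norm_le_const measure_Ioo_lt_top fun h _ => hb' n _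
  have h2 : ‖∫ p, (∫ h in Ioo 0 h₀, ζ' n (fl h p) * u n p) ∂mu3 T‖ ≤
      ∫ p, |∫ h in Ioo 0 h₀, ζ' n (fl h p)| ∂(mu3 T).withDensity ψ := by
    rw [integral_withDensity_eq_integral_toReal_smul hψ hfin]
    refine norm_integral_le_of_norm_le ?_ ?_
    · exact (integrable_toReal_of_lintegral_ne_top hψ.aemeasurable hψ1).mul_bdd
        hmA.abs.aestronglyMeasurable (ae_of_all _ fun p => by rw [Real.norm_eq_abs, abs_abs]; exact hbA p)
    · filter_upwards [hfin, ae3_mem T] with p hp hp'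
      rw [integral_mul_const, norm_mul, smul_eq_mul, mul_comm, Real.norm_eq_abs (∫ _ in _, _)]
      gcongr
      rw [← toReal_enorm]
      exact ENNReal.toReal_mono hp.ne (hb n p hp'.1.1)
  rw [Real.dist_eq, sub_zero]
  have h3 : |h₀ * I| ≤ ε / 2 * h₀ + ‖∫ p, (∫ h in Ioo 0 h₀, ζ' n (fl h p) * u n p) ∂mu3 T‖ := by
    have := norm_le_norm_sub_add (h₀ * I) (∫ p, (∫ h in Ioo 0 h₀, ζ' n (fl h p) * u n p) ∂mu3 T)
    rw [Real.norm_eq_abs] at this
    linarith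
  rw [abs_mul, abs_of_pos hh₀] at h3
  nlinarith

end

end Crest.Agent.R68
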