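import Crest.Agent.R68.LimB1

/-!
# R68 / LimAvg: the `TT*` lemma
-/

set_option autoImplicit false

namespace Crest.Agent.R68

open MeasureTheory Set Filter Crest.AnalysisR.VecCalc3 Crest.AnalysisR.PDE.Boltzmann
open scoped ENNReal _root_.Topology

noncomputable section

/-- Fubini (`integral_prod`); for a.e. `z` the function `k (z, ·)` is integrable, so the inner integral
tends to `0`, dominated by `∫ |k (z, ·)|`. -/
theorem WS.tensor {Z : Type*} [MeasurableSpace Z] {lam : Measure Z} [SigmaFinite lam] {ζ : ℕ → Z → ℝ}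
    (hm : ∀ n, Measurable (ζ n)) (hb : ∀ n z, |ζ n z| ≤ 1) (hw : WS lam ζ 0) :
    WS (lam.prod lam) (fun n q => ζ n q.1 * ζ n q.2) 0 := by
  intro k hk
  have hb2 : ∀ n (q : Z × Z), ‖ζ n q.1 * ζ n q.2‖ ≤ 1 := fun n q => by
    rw [norm_mul]
    exact mul_le_one₀ (hb n _) (norm_nonneg _) (hb n _)
  have hi : ∀ n, Integrable (fun q : Z × Z => ζ n q.1 * ζ n q.2 * k q) (lam.prod lam) := fun n =>
    hk.bdd_mul (((hm n).comp measurable_fst).mul ((hm n).comp measurable_snd)).aestronglyMeasurable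
      (ae_of_all _ (hb2 n))
  simp only [Pi.zero_apply, zero_mul, integral_zero, integral_prod _ (hi _)]
  have key := tendsto_integral_of_dominated_convergence (μ := lam)
    (F := fun n z => ∫ z', ζ n z * ζ n z' * k (z, z') ∂lam) (f := fun _ => 0)
    (fun z => ∫ z', ‖k (z, z')‖ ∂lam) (fun n => (hi n).integral_prod_left.aestronglyMeasurable)
    hk.integral_norm_prod_left (fun n => ?_) ?_
  · simpa using key
  · filter_upwards [hk.prod_right_ae] with z hz
    refine norm_integral_le_of_norm_le hz.norm (ae_of_all _ fun z' => ?_)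
    rw [norm_mul]
    exact mul_le_of_le_one_left (norm_nonneg _) (hb2 n (z, z'))
  · filter_upwards [hk.prod_right_ae] with z hz
    have h1 := (hw _ hz).norm
    simp only [Pi.zero_apply, zero_mul, integral_zero, norm_zero] at h1
    refine squeeze_zero_norm (fun n => ?_) h1
    simp only [mul_assoc, integral_const_mul, norm_mul]
    exact mul_le_of_le_one_left (norm_nonneg _) (hb n _)

/-- the push-forward is a finite measure `≪ lam`; Radon-Nikodym (`integral_map`,
`Measure.withDensity_rnDeriv_eq`, `integral_rnDeriv_smul`, `Measure.integrable_toReal_rnDeriv`) -/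
theorem WS.comp {Z P : Type*} [MeasurableSpace Z] [MeasurableSpace P] {lam : Measure Z} [SigmaFinite lam]
    {m : Measure P} [IsFiniteMeasure m] {Φ : P → Z} (hΦ : Measure.QuasiMeasurePreserving Φ m lam)
    {ζ : ℕ → Z → ℝ} (hm : ∀ n, Measurable (ζ n)) (hw : WS lam ζ 0) :
    Tendsto (fun n => ∫ p, ζ n (Φ p) ∂m) atTop (𝓝 0) := by
  have h1 := hw _ (Measure.integrable_toReal_rnDeriv (μ := m.map Φ) (ν := lam))
  simp only [Pi.zero_apply, zero_mul, integral_zero] at h1
  refine h1.congr fun n => ?_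
  rw [← integral_map hΦ.measurable.aemeasurable (hm n).aestronglyMeasurable,
    ← integral_toReal_rnDeriv_mul hΦ.absolutelyContinuous]
  simp only [mul_comm]

/-- `∫ (∫ ζ (Φ h p) dθ)² dm = ∫∫∫ ζ (Φ h p) ζ (Φ h' p) → 0` (`WS.tensor`, `WS.comp`, Fubini), and
`|A| ≤ ε + A² / ε`. -/
theorem avg_abs {Z P H : Type*} [MeasurableSpace Z] [MeasurableSpace P] [MeasurableSpace H]
    {lam : Measure Z} [SigmaFinite lam] {m : Measure P} [IsFiniteMeasure m] {θ : Measure H}
    [IsFiniteMeasure θ] {Φ : H → P → Z} (hΦ : Measurable fun q : H × P => Φ q.1 q.2)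
    (hac : Measure.QuasiMeasurePreserving (fun q : (H × H) × P => (Φ q.1.1 q.2, Φ q.1.2 q.2))
      ((θ.prod θ).prod m) (lam.prod lam))
    {ζ : ℕ → Z → ℝ} (hm : ∀ n, Measurable (ζ n)) (hb : ∀ n z, |ζ n z| ≤ 1) (hw : WS lam ζ 0) :
    Tendsto (fun n => ∫ p, |∫ h, ζ n (Φ h p) ∂θ| ∂m) atTop (𝓝 0) := by
  have hm2 : ∀ n, Measurable fun q : Z × Z => ζ n q.1 * ζ n q.2 := fun n =>
    ((hm n).comp measurable_fst).mul ((hm n).comp measurable_snd)
  have h1 := WS.comp hac hm2 (WS.tensor hm hb hw)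
  have hi : ∀ n, Integrable (fun q : (H × H) × P => ζ n (Φ q.1.1 q.2) * ζ n (Φ q.1.2 q.2))
      ((θ.prod θ).prod m) := fun n =>
    Integrable.of_bound ((hm2 n).comp hac.measurable).aestronglyMeasurable 1
      (ae_of_all _ fun q => by
        rw [norm_mul]
        exact mul_le_one₀ (hb n _) (norm_nonneg _) (hb n _))
  have e : ∀ n p, ∫ x : H × H, ζ n (Φ x.1 p) * ζ n (Φ x.2 p) ∂θ.prod θ =
      (∫ h, ζ n (Φ h p) ∂θ) ^ 2 := fun n p => by
    rw [integral_prod_mul (fun h => ζ n (Φ h p)) (fun h => ζ n (Φ h p)), sq]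
  have hi2 : ∀ n, Integrable (fun p => (∫ h, ζ n (Φ h p) ∂θ) ^ 2) m := fun n => by
    simpa only [e] using (hi n).integral_prod_right
  simp only [integral_prod_symm _ (hi _), e] at h1
  rw [Metric.tendsto_atTop]
  intro ε hε
  have hM : 0 ≤ m.real univ := measureReal_nonneg
  set δ := ε / (2 * (m.real univ + 1)) with hδ
  have hδ0 : 0 < δ := by positivity
  obtain ⟨N, hN⟩ := eventually_atTop.1 (h1.eventually (gt_mem_nhds (mul_pos hδ0 (half_pos hε))))
  refine ⟨N, fun n hn => ?_⟩
  rw [Real.dist_eq, sub_zero, abs_of_nonneg (integral_nonneg fun p => abs_nonneg _)]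
  have h2 : ∫ p, |∫ h, ζ n (Φ h p) ∂θ| ∂m ≤ ∫ p, (δ + (∫ h, ζ n (Φ h p) ∂θ) ^ 2 / δ) ∂m := by
    refine integral_mono_of_nonneg (ae_of_all _ fun p => abs_nonneg _)
      ((integrable_const δ).add ((hi2 n).div_const δ)) (ae_of_all _ fun p => ?_)
    show |∫ h, ζ n (Φ h p) ∂θ| ≤ δ + (∫ h, ζ n (Φ h p) ∂θ) ^ 2 / δ
    rw [← sq_abs]
    generalize |∫ h, ζ n (Φ h p) ∂θ| = a
    rw [← sub_le_iff_le_add', le_div_iff₀ hδ0]
    nlinarith [sq_nonneg (a - δ), sq_nonneg a]
  rw [integral_add (integrable_const δ) ((hi2 n).div_const δ), integral_const, integral_div,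
    smul_eq_mul] at h2
  have h3 : (∫ p, (∫ h, ζ n (Φ h p) ∂θ) ^ 2 ∂m) / δ < ε / 2 := by
    rw [div_lt_iff₀' hδ0]
    exact hN n hn
  have h4 : (m.real univ + 1) * δ = ε / 2 := by
    rw [hδ]
    field_simp
  nlinarith

/-- a linear automorphism of `R3 × R3` (or: translate, then the homothety `v ↦ (s' - s) • v`) -/
theorem qmp_two {s s' : ℝ} (h : s ≠ s') : Measure.QuasiMeasurePreserving
    (fun w : R3 × R3 => (w.1 + s • w.2, w.1 + s' • w.2)) (volume.prod volume) (volume.prod volume) := by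
  let L : (R3 × R3) →ₗ[ℝ] (R3 × R3) :=
    (LinearMap.fst ℝ R3 R3 + s • LinearMap.snd ℝ R3 R3).prod
      (LinearMap.fst ℝ R3 R3 + s' • LinearMap.snd ℝ R3 R3)
  have hL : LinearMap.det L ≠ 0 := by
    rw [Ne, LinearMap.det_eq_zero_iff_ker_ne_bot, not_not, LinearMap.ker_eq_bot']
    rintro ⟨y, v⟩ hw
    have h1 : y + s • v = 0 := congrArg Prod.fst hw
    have h2 : y + s' • v = 0 := congrArg Prod.snd hw
    have h3 : (s - s') • v = 0 := by
      rw [sub_smul, ← add_sub_add_left_eq_sub _ _ y, h1, h2, sub_zero]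
    have h4 : v = 0 := (smul_eq_zero.1 h3).resolve_left (sub_ne_zero.2 h)
    rw [h4, smul_zero, add_zero] at h1
    rw [h1, h4]
    rfl
  exact Measure.LinearMap.quasiMeasurePreserving (volume.prod volume) L hL

private theorem avg_skew {A B C : Type*} [MeasurableSpace A] [MeasurableSpace B] [MeasurableSpace C]
    {μ : Measure A} {ν : Measure B} {τ : Measure C} [SFinite ν] [SFinite τ] {g : A → B → C}
    (hg : Measurable fun q : A × B => g q.1 q.2)
    (h : ∀ᵐ a ∂μ, Measure.QuasiMeasurePreserving (g a) ν τ) :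
    Measure.QuasiMeasurePreserving (fun q : A × B => (q.1, g q.1 q.2)) (μ.prod ν) (μ.prod τ) := by
  have hm : Measurable fun q : A × B => (q.1, g q.1 q.2) := measurable_fst.prodMk hg
  refine ⟨hm, Measure.AbsolutelyContinuous.mk fun N hN h0 => ?_⟩
  rw [Measure.map_apply hm hN, Measure.measure_prod_null (hm hN)]
  filter_upwards [h, Measure.measure_ae_null_of_prod_null h0] with a ha ha0
  exact ha.preimage_null ha0

private theorem avg_comm {A B C D : Type*} [MeasurableSpace A] [MeasurableSpace B] [MeasurableSpace C]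
    [MeasurableSpace D] (a : Measure A) (b : Measure B) (c : Measure C) (d : Measure D) [SFinite a]
    [SFinite b] [SFinite c] [SFinite d] :
    MeasurePreserving (fun q : (A × B) × C × D => ((q.1.1, q.2.1), (q.1.2, q.2.2)))
      ((a.prod b).prod (c.prod d)) ((a.prod c).prod (b.prod d)) :=
  ((measurePreserving_prodAssoc a c (b.prod d)).symm _).comp
    (((MeasurePreserving.id a).prod ((measurePreserving_prodAssoc c b d).comp
      ((Measure.measurePreserving_swap.prod (MeasurePreserving.id d)).comp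
        ((measurePreserving_prodAssoc b c d).symm _)))).comp
      (measurePreserving_prodAssoc a b (c.prod d)))

/-- Let `N` be measurable and null.  For a.e. `(s, s')` the slice `{(y, y') | ((s,y),(s',y')) ∈ N}` is
null (`Measure.ae_prod_iff_ae_ae`, `Measure.ae_ae_comm`).  For fixed `t`, a.e. `(h, h')` has `h ≠ h'` and a
null slice at `(t+h, t+h')`; `qmp_two`, `qmp_fr` (`QuasiMeasurePreserving.prodMap`). -/
theorem qmp_fl : Measure.QuasiMeasurePreserving
    (fun q : (ℝ × ℝ) × ℝ × R3 × R3 => (fl q.1.1 q.2, fl q.1.2 q.2))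
    (((volume : Measure ℝ).prod volume).prod volume) (lamc.prod lamc) := by
  have e1 := ((measurePreserving_prodAssoc ((volume : Measure ℝ).prod (volume : Measure ℝ))
    (volume : Measure ℝ) (volume : Measure (R3 × R3))).symm _).quasiMeasurePreserving
  have e2 : Measure.QuasiMeasurePreserving (fun q : (ℝ × ℝ) × ℝ => (q.2 + q.1.1, q.2 + q.1.2))
      (((volume : Measure ℝ).prod volume).prod volume) (volume.prod volume) :=
    QuasiMeasurePreserving.prod_of_left (by fun_prop) (ae_of_all _ fun t =>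
      ((measurePreserving_add_left volume t).prod
        (measurePreserving_add_left volume t)).quasiMeasurePreserving)
  have e3 := QuasiMeasurePreserving.prodMap e2
    (Measure.QuasiMeasurePreserving.id (volume : Measure (R3 × R3)))
  have hne : ∀ᵐ s ∂(volume : Measure ℝ).prod (volume : Measure ℝ), s.1 ≠ s.2 := by
    refine (Measure.ae_prod_iff_ae_ae (p := fun s : ℝ × ℝ => s.1 ≠ s.2)
      (measurableSet_eq_fun measurable_fst measurable_snd).compl).2 ?_
    exact ae_of_all _ fun s => (Measure.ae_ne volume s).mono fun s' hs => hs.symm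
  have e4 := avg_skew (μ := (volume : Measure ℝ).prod (volume : Measure ℝ))
    (ν := (volume : Measure (R3 × R3))) (τ := (volume.restrict cell).prod (volume.restrict cell))
    (g := fun s w => (fr (w.1 + s.1 • w.2), fr (w.1 + s.2 • w.2)))
    ((measurable_fr.comp (by fun_prop)).prodMk (measurable_fr.comp (by fun_prop)))
    (hne.mono fun s hs => (QuasiMeasurePreserving.prodMap qmp_fr qmp_fr).comp (qmp_two hs))
  exact (avg_comm _ _ _ _).quasiMeasurePreserving.comp (e4.comp (e3.comp e1))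

end

end Crest.Agent.R68
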