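import Crest.Agent.R68.LimDef

/-!
# R68 / LimB1: fractional part, Tonelli on `Om3 T`, the shear
-/

set_option autoImplicit false

namespace Crest.Agent.R68

open MeasureTheory Set Filter Crest.AnalysisR.VecCalc3 Crest.AnalysisR.PDE.Boltzmann
open scoped ENNReal _root_.Topology

noncomputable section

theorem measurable_fr : Measurable fr := by
  unfold fr
  exact (PiLp.continuous_toLp 2 fun _ : Fin 3 => ℝ).measurable.comp
    (measurable_pi_lambda _ fun i => measurable_fract.comp (by fun_prop))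

theorem fr_mem_cell (x : R3) : fr x ∈ cell := by
  intro i
  exact ⟨Int.fract_nonneg _, Int.fract_lt_one _⟩

theorem fr_of_mem {x : R3} (hx : x ∈ cell) : fr x = x := by
  ext i
  exact Int.fract_eq_self.2 (hx i)

theorem limb1_fr_eq (x : R3) : fr x = x + WithLp.toLp 2 fun i => ((-⌊x i⌋ : ℤ) : ℝ) := by
  ext i
  simp only [fr, PiLp.add_apply, Int.cast_neg]
  rw [Int.fract, sub_eq_add_neg]

/-- `fr x = x + k` with `k i = -⌊x i⌋` (`IsPeriodic3.add_int`) -/
theorem per_fr_eq {α : Type*} {Θ : R3 → α} (h : IsPeriodic3 Θ) (x : R3) : Θ (fr x) = Θ x := by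
  rw [limb1_fr_eq, IsPeriodic3.add_int h]

theorem per_fr {α : Type*} (Φ : R3 → α) (w : R3) : IsPeriodic3 fun x => Φ (fr (x + w)) := by
  intro x i
  have : fr (x + EuclideanSpace.single i 1 + w) = fr (x + w) := by
    ext j
    by_cases hj : j = i
    · subst hj
      simp only [fr, PiLp.add_apply, PiLp.single_apply, if_true]
      rw [add_right_comm, Int.fract_add_one]
    · simp [fr, hj]
  simp only [this]

theorem fr_fr_add (x w : R3) : fr (fr x + w) = fr (x + w) := by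
  ext i
  simp only [fr, PiLp.add_apply]
  rw [show Int.fract (x i) + w i = x i + w i - (⌊x i⌋ : ℤ) by rw [Int.fract]; ring,
    Int.fract_sub_intCast]

/-- `fr ⁻¹' N` is contained in the countable union of the integer translates of `N ∩ cell` -/
theorem qmp_fr : Measure.QuasiMeasurePreserving fr volume (volume.restrict cell) := by
  refine ⟨measurable_fr, Measure.AbsolutelyContinuous.mk fun N hN h0 => ?_⟩
  rw [Measure.restrict_apply hN] at h0
  rw [Measure.map_apply measurable_fr hN]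
  refine measure_mono_null (t := ⋃ k : Fin 3 → ℤ,
    (fun x : R3 => x + WithLp.toLp 2 fun i => (k i : ℝ)) ⁻¹' (N ∩ cell)) (fun x hx => ?_)
    (measure_iUnion_null fun k => by rw [measure_preimage_add_right]; exact h0)
  refine mem_iUnion.2 ⟨fun i => -⌊x i⌋, ?_⟩
  rw [mem_preimage, ← limb1_fr_eq]
  exact ⟨hx, fr_mem_cell x⟩

theorem measurableSet_Om3 (T : ℝ) : MeasurableSet (Om3 T) := by
  exact measurableSet_Ioo.prod (measurableSet_cell.prod MeasurableSet.univ)

instance (T : ℝ) : IsFiniteMeasure (mu2 T) := by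
  refine isFiniteMeasure_restrict.2 ?_
  rw [Measure.volume_eq_prod, Measure.prod_prod, volume_cell, mul_one, Real.volume_Ioo]
  exact ENNReal.ofReal_ne_top

/-- `Measure.prod_restrict`, `Measure.volume_eq_prod` -/
theorem mu3_eq (T : ℝ) : mu3 T = (volume.restrict (Ioo 0 T)).prod muq := by
  rw [Measure.prod_restrict, ← Measure.volume_eq_prod]; rfl

theorem muq_eq : muq = (volume.restrict cell).prod (volume : Measure R3) := by
  conv_rhs => rw [← Measure.restrict_univ (μ := (volume : Measure R3))]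
  rw [Measure.restrict_restrict measurableSet_cell, inter_univ, Measure.prod_restrict,
    ← Measure.volume_eq_prod]

theorem mu2_eq (T : ℝ) : mu2 T = (volume.restrict (Ioo 0 T)).prod (volume.restrict cell) := by
  rw [Measure.prod_restrict, ← Measure.volume_eq_prod]

theorem lamc_restrict (T : ℝ) : lamc.restrict (Ioo 0 T ×ˢ univ) = mu2 T := by
  rw [mu2_eq, ← Measure.prod_restrict, Measure.restrict_univ]

/-- `measurePreserving_prodAssoc` -/
theorem mp_assoc (T : ℝ) : MeasurePreserving (fun q : (ℝ × R3) × R3 => (q.1.1, q.1.2, q.2))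
    ((mu2 T).prod volume) (mu3 T) := by
  rw [mu2_eq, mu3_eq, muq_eq]
  exact measurePreserving_prodAssoc _ _ _

theorem lint3_z {Θ : ℝ × R3 × R3 → ℝ≥0∞} (hm : Measurable Θ) (T : ℝ) :
    ∫⁻ p, Θ p ∂mu3 T = ∫⁻ z, (∫⁻ v, Θ (z.1, z.2, v)) ∂mu2 T := by
  rw [← (mp_assoc T).lintegral_comp hm]
  exact lintegral_prod _ (hm.comp (mp_assoc T).measurable).aemeasurable

theorem lint3_t {Θ : ℝ × R3 × R3 → ℝ≥0∞} (hm : Measurable Θ) (T : ℝ) :
    ∫⁻ p, Θ p ∂mu3 T = ∫⁻ w, (∫⁻ t in Ioo 0 T, Θ (t, w)) ∂muq := by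
  rw [mu3_eq, lintegral_prod_symm _ hm.aemeasurable]

theorem int3_z {Θ : ℝ × R3 × R3 → ℝ} {T : ℝ} (hi : Integrable Θ (mu3 T)) :
    ∫ p, Θ p ∂mu3 T = ∫ z, (∫ v, Θ (z.1, z.2, v)) ∂mu2 T := by
  have h1 := (mp_assoc T).integral_comp' (f := MeasurableEquiv.prodAssoc) Θ
  rw [← h1]
  exact integral_prod _ ((mp_assoc T).integrable_comp_of_integrable hi)

theorem ae3_z {P : ℝ × R3 × R3 → Prop} {T : ℝ} (h : ∀ᵐ p ∂mu3 T, P p) :
    ∀ᵐ z ∂mu2 T, ∀ᵐ v, P (z.1, z.2, v) := by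
  exact Measure.ae_ae_of_ae_prod ((mp_assoc T).quasiMeasurePreserving.ae h)

theorem ae3_of_z {P : ℝ × R3 → Prop} {T : ℝ} (h : ∀ᵐ z ∂mu2 T, P z) :
    ∀ᵐ p ∂mu3 T, P (p.1, p.2.1) := by
  have h1 : MeasurePreserving (MeasurableEquiv.prodAssoc (α := ℝ) (β := R3) (γ := R3))
      ((mu2 T).prod volume) (mu3 T) := mp_assoc T
  exact ((Measure.quasiMeasurePreserving_fst (μ := mu2 T) (ν := (volume : Measure R3))).comp
    h1.symm.quasiMeasurePreserving).ae h

theorem ae3_t {P : ℝ × R3 × R3 → Prop} {T : ℝ} (h : ∀ᵐ p ∂mu3 T, P p) :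
    ∀ᵐ w ∂muq, ∀ᵐ t ∂volume.restrict (Ioo 0 T), P (t, w) := by
  rw [mu3_eq] at h
  exact Measure.ae_ae_of_ae_prod
    ((Measure.measurePreserving_swap (μ := muq)
      (ν := volume.restrict (Ioo 0 T))).quasiMeasurePreserving.ae h)

theorem ae3_mem (T : ℝ) : ∀ᵐ p ∂mu3 T, p.1 ∈ Ioo 0 T ∧ p.2.1 ∈ cell := by
  filter_upwards [ae_restrict_mem (measurableSet_Om3 T)] with p hp using ⟨hp.1, hp.2.1⟩

theorem measurable_sh (c : ℝ) : Measurable (sh c) := by
  unfold sh
  exact measurable_fst.prodMk ((measurable_fr.comp (by fun_prop)).prodMk (by fun_prop))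

theorem measurable_fl : Measurable fun q : ℝ × ℝ × R3 × R3 => fl q.1 q.2 := by
  unfold fl
  exact Measurable.prodMk (by fun_prop) (measurable_fr.comp (by fun_prop))

/-- For measurable `S` apply `lintegral_shear` at each time `t` (shift `c * t`) to the periodic function
`(x, v) ↦ 1_S (t, fr x, v)`; `mu3_eq`, Tonelli, `fr_of_mem`. -/
theorem mp_sh (c T : ℝ) : MeasurePreserving (sh c) (mu3 T) (mu3 T) := by
  rw [mu3_eq]
  refine MeasurePreserving.skew_product (f := id) (g := fun (t : ℝ) (q : R3 × R3) =>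
    (fr (q.1 + (c * t) • q.2), q.2)) (MeasurePreserving.id _)
    ((measurable_fr.comp (by fun_prop)).prodMk (by fun_prop)) (Eventually.of_forall fun t => ?_)
  have hg : Measurable fun q : R3 × R3 => (fr (q.1 + (c * t) • q.2), q.2) :=
    (measurable_fr.comp (by fun_prop)).prodMk (by fun_prop)
  ext S hS
  have hI : Measurable (S.indicator (1 : R3 × R3 → ℝ≥0∞)) := measurable_one.indicator hS
  rw [← lintegral_indicator_one hS, ← lintegral_indicator_one hS, lintegral_map hI hg]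
  have h1 := lintegral_shear (fun x v => S.indicator 1 (fr x, v))
    (hI.comp ((measurable_fr.comp measurable_fst).prodMk measurable_snd))
    (fun v => by simpa using per_fr (fun y => S.indicator (1 : R3 × R3 → ℝ≥0∞) (y, v)) 0) (c * t)
  rw [h1]
  refine setLIntegral_congr_fun (measurableSet_cell.prod MeasurableSet.univ) fun q hq => ?_
  simp only [fr_of_mem hq.1]

theorem sh_sh {p : ℝ × R3 × R3} (hp : p.2.1 ∈ cell) (c : ℝ) : sh (-c) (sh c p) = p := by
  obtain ⟨t, x, v⟩ := p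
  simp only [sh]
  rw [fr_fr_add, add_assoc, ← add_smul, neg_mul, add_neg_cancel, zero_smul, add_zero,
    fr_of_mem hp]

theorem un_sh {Θ : PF} (hp : Per Θ) (p : ℝ × R3 × R3) : un Θ (sh 1 p) = un (ch Θ) p := by
  simp only [un, sh, ch, one_mul]
  exact per_fr_eq (hp p.1 p.2.2) _

theorem lint_ch {Θ : PF} (hm : Meas Θ) (hp : Per Θ) (T : ℝ) :
    ∫⁻ p, un (ch Θ) p ∂mu3 T = ∫⁻ p, un Θ p ∂mu3 T := by
  rw [← (mp_sh 1 T).lintegral_comp (f := un Θ) hm]
  simp only [un_sh hp]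

/-- `∫_S Θ ∘ sh 1 = ∫_{(sh (-1))⁻¹ S} Θ` (`sh_sh`, `mp_sh`) -/
theorem SW.sch {Θ : ℕ → PF} {Θ' : PF} {T : ℝ} (h : SW (mu3 T) (fun n => un (Θ n)) (un Θ'))
    (hm : ∀ n, Meas (Θ n)) (hp : ∀ n, Per (Θ n)) (hm' : Meas Θ') (hp' : Per Θ') :
    SW (mu3 T) (fun n => un (ch (Θ n))) (un (ch Θ')) := by
  intro S hS
  have hS' : MeasurableSet (sh (-1) ⁻¹' S) := measurable_sh _ hS
  have key : ∀ Φ : PF, Meas Φ → Per Φ → ∫⁻ p in S, un (ch Φ) p ∂mu3 T =
      ∫⁻ p in sh (-1) ⁻¹' S, un Φ p ∂mu3 T := by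
    intro Φ h1 h2
    rw [← (mp_sh 1 T).setLIntegral_comp_preimage hS' (f := un Φ) h1]
    simp only [un_sh h2]
    refine setLIntegral_congr ?_
    filter_upwards [ae3_mem T] with p hp
    show (p ∈ S) = (sh (-1) (sh 1 p) ∈ S)
    rw [sh_sh hp.2]
  rw [key Θ' hm' hp']
  simp only [fun n => key (Θ n) (hm n) (hp n)]
  exact h _ hS' 

theorem ae_ch {Θ Θ' : PF} {T : ℝ} (hp : Per Θ) (hp' : Per Θ') (h : un Θ =ᵐ[mu3 T] un Θ') :
    un (ch Θ) =ᵐ[mu3 T] un (ch Θ') := by
  filter_upwards [(mp_sh 1 T).quasiMeasurePreserving.ae h] with p hq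
  rwa [un_sh hp, un_sh hp'] at hq

/-- pull back by `sh (-1)` -/
theorem ae_of_ch {Θ Θ' : PF} {T : ℝ} (hp : Per Θ) (hp' : Per Θ')
    (h : un (ch Θ) =ᵐ[mu3 T] un (ch Θ')) : un Θ =ᵐ[mu3 T] un Θ' := by
  filter_upwards [(mp_sh (-1) T).quasiMeasurePreserving.ae h, ae3_mem T] with p hq hc
  have e := sh_sh hc.2 (-1)
  rw [neg_neg] at e
  rwa [← un_sh hp, ← un_sh hp', e] at hq

end

end Crest.Agent.R68
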