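import Crest.Agent.R68.LimB1

/-!
# R68 / LimB2: closure properties, consequences of `Integ`
-/

set_option autoImplicit false

namespace Crest.Agent.R68

open MeasureTheory Set Filter Crest.AnalysisR.VecCalc3 Crest.AnalysisR.PDE.Boltzmann
open scoped ENNReal _root_.Topology

noncomputable section

variable {F G Ψ : PF} {T : ℝ}

theorem Meas.mch (h : Meas F) : Meas (ch F) := by
  exact h.comp (f := fun p : ℝ × R3 × R3 => (p.1, p.2.1 + p.1 • p.2.2, p.2.2)) (by fun_prop)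

theorem Meas.mgain (h : Meas F) : Meas (gain F) := by
  exact h.Qp h

theorem Meas.mloss (h : Meas F) : Meas (loss F) := by
  exact Measurable.mul h.Nu h

/-- write the set integral as the integral of an indicator of the measurable set `{0 < s < t}` -/
theorem Meas.mprm (h : Meas F) : Meas (prm F) := by
  have h1 : Measurable fun q : (ℝ × R3 × R3) × ℝ => F q.2 q.1.2.1 q.1.2.2 :=
    h.comp (f := fun q : (ℝ × R3 × R3) × ℝ => (q.2, q.1.2.1, q.1.2.2)) (by fun_prop)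
  have h2 : MeasurableSet {q : (ℝ × R3 × R3) × ℝ | 0 < q.2 ∧ q.2 < q.1.1} :=
    (measurableSet_lt measurable_const measurable_snd).inter (measurableSet_lt measurable_snd measurable_fst.fst)
  have h3 := (h1.indicator h2).lintegral_prod_right' (ν := (volume : Measure ℝ))
  have h4 : (fun p : ℝ × R3 × R3 => prm F p.1 p.2.1 p.2.2) = fun p : ℝ × R3 × R3 =>
      ∫⁻ s : ℝ, indicator {q : (ℝ × R3 × R3) × ℝ | 0 < q.2 ∧ q.2 < q.1.1}
        (fun q : (ℝ × R3 × R3) × ℝ => F q.2 q.1.2.1 q.1.2.2) (p, s) := by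
    funext p
    rw [prm, ← lintegral_indicator measurableSet_Ioo]
    rfl
  unfold Meas
  rw [h4]
  exact h3

theorem Meas.mrho (h : Meas F) (B : Set R3) : Measurable (rho F B) := by
  exact Measurable.lintegral_prod_right' (ν := volume.restrict B)
    (f := fun q : (ℝ × R3) × R3 => F q.1.1 q.1.2 q.2)
    (h.comp (f := fun q : (ℝ × R3) × R3 => (q.1.1, q.1.2, q.2)) (by fun_prop))

theorem Per.pgain (h : Per F) : Per (gain F) := by
  intro t v x i
  have h1 : F t (x + EuclideanSpace.single i 1) = F t x := funext fun a => h t a x i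
  simp only [gain, h1]

theorem Per.ploss (h : Per F) : Per (loss F) := by
  intro t v x i
  have h1 : F t (x + EuclideanSpace.single i 1) = F t x := funext fun a => h t a x i
  simp only [loss, h1]

theorem gain_mono {t : ℝ} {x : R3} (h : ∀ v, F t x v ≤ G t x v) (v : R3) :
    gain F t x v ≤ gain G t x v := by
  exact Qp_mono h h v

theorem loss_mono {t : ℝ} {x : R3} (h : ∀ v, F t x v ≤ G t x v) (v : R3) :
    loss F t x v ≤ loss G t x v := by
  exact mul_le_mul' (Nu_mono h v) (h v)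

theorem one_le_br (v : R3) : 1 ≤ br v := by
  exact ENNReal.one_le_ofReal.2 (le_add_of_nonneg_right (norm_nonneg _))

/-- `Integ` with `k = 1` -/
theorem Integ.sq_br (h : Integ Ψ T) : ∫⁻ z, (∫⁻ v, br v * Ψ z.1 z.2 v) ^ 2 ∂mu2 T ≠ ⊤ := by
  refine ne_top_of_le_ne_top (h 1).ne (lintegral_mono fun z => pow_le_pow_left' (lintegral_mono fun v => ?_) 2)
  rw [pow_one]
  exact mul_le_mul' le_rfl le_self_add

theorem Integ.sq (h : Integ Ψ T) : ∫⁻ z, rho Ψ univ z ^ 2 ∂mu2 T ≠ ⊤ := by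
  refine ne_top_of_le_ne_top h.sq_br (lintegral_mono fun z => pow_le_pow_left' ?_ 2)
  rw [rho, Measure.restrict_univ]
  exact lintegral_mono fun v => le_mul_of_one_le_left' (one_le_br v)

/-- `x ≤ 1 + x²`, `mu2 T` is finite -/
theorem Integ.int_rho (h : Integ Ψ T) : ∫⁻ z, rho Ψ univ z ∂mu2 T ≠ ⊤ := by
  have h1 : ∀ x : ℝ≥0∞, x ≤ 1 + x ^ 2 := fun x => by
    rcases le_total x 1 with hx | hx
    · exact hx.trans le_self_add
    · exact (le_self_pow hx two_ne_zero).trans le_add_self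
  refine ne_top_of_le_ne_top ?_ (lintegral_mono fun z => h1 _)
  rw [lintegral_add_left measurable_const, lintegral_const, one_mul]
  exact ENNReal.add_ne_top.2 ⟨measure_ne_top _ _, h.sq⟩

theorem Integ.int (hm : Meas Ψ) (h : Integ Ψ T) : ∫⁻ p, un Ψ p ∂mu3 T ≠ ⊤ := by
  rw [lint3_z hm]
  simpa only [rho, Measure.restrict_univ] using h.int_rho

/-- `lint3_z`, `Nu_le_br`, `Integ.sq_br` -/
theorem Integ.int_loss (hm : Meas Ψ) (h : Integ Ψ T) : ∫⁻ p, un (loss Ψ) p ∂mu3 T ≠ ⊤ := by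
  rw [lint3_z hm.mloss]
  have h7 : (7 : ℝ≥0∞) ≠ ⊤ := by norm_num
  refine ne_top_of_le_ne_top (ENNReal.mul_ne_top h7 h.sq_br) ?_
  rw [← lintegral_const_mul' _ _ h7]
  refine lintegral_mono fun z => ?_
  have hs := hm.slice z.1 z.2
  calc ∫⁻ v, un (loss Ψ) (z.1, z.2, v)
      ≤ ∫⁻ v, (7 * ∫⁻ a, br a * Ψ z.1 z.2 a) * (br v * Ψ z.1 z.2 v) := by
        refine lintegral_mono fun v => (mul_le_mul_left (Nu_le_br hs v) _).trans_eq ?_
        ring
    _ = _ := by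
        rw [lintegral_const_mul _ (measurable_br.fun_mul hs)]
        ring

/-- `lintegral_Qp` -/
theorem Integ.int_gain (hm : Meas Ψ) (h : Integ Ψ T) : ∫⁻ p, un (gain Ψ) p ∂mu3 T ≠ ⊤ := by
  have h1 := h.int_loss hm
  rw [lint3_z hm.mloss] at h1
  rw [lint3_z hm.mgain]
  refine ne_top_of_le_ne_top h1 (le_of_eq (lintegral_congr fun z => ?_))
  exact lintegral_Qp (hm.slice z.1 z.2) (hm.slice z.1 z.2)

theorem Integ.of_ae_le (h : Integ Ψ T) (hle : ∀ᵐ p ∂mu3 T, un F p ≤ un Ψ p) : Integ F T := by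
  intro k
  refine lt_of_le_of_lt (lintegral_mono_ae ((ae3_z hle).mono fun z hz => ?_)) (h k)
  refine pow_le_pow_left' (lintegral_mono_ae (hz.mono fun v hv => ?_)) 2
  exact mul_le_mul' le_rfl (add_le_add hv (ENNReal.rpow_le_rpow hv (by norm_num)))

/-- `ae3_z`, `Qp_congr_ae`, `ae3_of_z` -/
theorem gain_congr (hF : Meas F) (hG : Meas G) (h : un F =ᵐ[mu3 T] un G) :
    un (gain F) =ᵐ[mu3 T] un (gain G) := by
  have h1 : ∀ᵐ z ∂mu2 T, ∀ v, gain F z.1 z.2 v = gain G z.1 z.2 v :=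
    (ae3_z h).mono fun z hz v =>
      Qp_congr_ae (hF.slice _ _) (hG.slice _ _) (hF.slice _ _) (hG.slice _ _) hz hz v
  exact (ae3_of_z h1).mono fun p hp => hp p.2.2

theorem loss_congr (h : un F =ᵐ[mu3 T] un G) : un (loss F) =ᵐ[mu3 T] un (loss G) := by
  have h1 : ∀ᵐ z ∂mu2 T, ∀ v, Nu (F z.1 z.2) v = Nu (G z.1 z.2) v :=
    (ae3_z h).mono fun z hz v => lintegral_congr_ae (hz.mono fun a ha => congrArg (Nn (v - a) * ·) ha)
  filter_upwards [ae3_of_z h1, h] with p hp hp'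
  exact congrArg₂ (· * ·) (hp p.2.2) hp' 

theorem lintegral_Ioo_add (q : ℝ → ℝ≥0∞) {a b c : ℝ} (hab : a ≤ b) (hbc : b ≤ c) :
    ∫⁻ τ in Ioo a c, q τ = (∫⁻ τ in Ioo a b, q τ) + ∫⁻ τ in Ioo b c, q τ := by
  rw [← setLIntegral_congr Ioo_ae_eq_Ioc.symm, ← setLIntegral_congr (s := Ioc a b) Ioo_ae_eq_Ioc.symm,
    ← setLIntegral_congr (s := Ioc b c) Ioo_ae_eq_Ioc.symm, ← Ioc_union_Ioc_eq_Ioc hab hbc,
    lintegral_union measurableSet_Ioc (Ioc_disjoint_Ioc_of_le le_rfl)]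

theorem limb2_enorm {a b g l : ℝ≥0∞} (h : a + l = b + g) : ‖a.toReal - b.toReal‖ₑ ≤ g + l := by
  rcases eq_or_ne g ⊤ with rfl | hg
  · simp
  rcases eq_or_ne l ⊤ with rfl | hl
  · simp
  rcases eq_or_ne a ⊤ with rfl | ha
  · have hb : b = ⊤ := by
      rw [top_add, eq_comm, ENNReal.add_eq_top] at h
      exact h.resolve_right hg
    simp [hb]
  have hb : b ≠ ⊤ := by
    rintro rfl
    rw [top_add, ENNReal.add_eq_top] at h
    exact h.elim ha hl
  have h1 := congrArg ENNReal.toReal h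
  rw [ENNReal.toReal_add ha hl, ENNReal.toReal_add hb hg] at h1
  rw [Real.enorm_eq_ofReal_abs, ENNReal.ofReal_le_iff_le_toReal (ENNReal.add_ne_top.2 ⟨hg, hl⟩),
    ENNReal.toReal_add hg hl, abs_le]
  have h2 := g.toReal_nonneg
  have h3 := l.toReal_nonneg
  constructor <;> linarith

/-- From `AM` at the times `s` and `t`, cancelling the finite loss on `(0,s)`:
`F(t) + ∫_s^t loss = F(s) + ∫_s^t gain`.  If the right side of the claim is finite, `F(t)`, `F(s)` are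
both finite or both infinite. -/
theorem AM.enorm_sub_le {f : XF} {y v : R3} (h : AM F f T y v) {s t : ℝ} (hs : 0 ≤ s) (hst : s ≤ t)
    (ht : t ≤ T) (hfin : prm (ch (loss F)) s y v ≠ ⊤) :
    ‖(ch F t y v).toReal - (ch F s y v).toReal‖ₑ ≤
      (∫⁻ τ in Ioo s t, ch (gain F) τ y v) + ∫⁻ τ in Ioo s t, ch (loss F) τ y v := by
  have h1 := AM_iff.1 h s ⟨hs, hst.trans ht⟩
  have h2 := AM_iff.1 h t ⟨hs.trans hst, ht⟩
  simp only [prm] at h1 h2 hfin
  rw [lintegral_Ioo_add (fun τ => ch (loss F) τ y v) hs hst,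
    lintegral_Ioo_add (fun τ => ch (gain F) τ y v) hs hst, ← add_assoc (f y v), ← h1] at h2
  refine limb2_enorm ((ENNReal.add_left_inj hfin).1 ?_)
  calc _ = ch F t y v + ((∫⁻ τ in Ioo 0 s, ch (loss F) τ y v) + ∫⁻ τ in Ioo s t, ch (loss F) τ y v) := by ring
    _ = _ := by rw [h2]; ring

/-- the increments along almost every characteristic are controlled by `Ψ` (`lint_ch`, `lint3_t`,
`ae_lt_top`, `AM.enorm_sub_le`, `gain_mono`, `loss_mono`) -/
theorem Dom.incr {Fn : ℕ → PF} {fn : ℕ → XF} (h : Dom Fn fn Ψ) (T : ℝ) : ∀ᵐ w ∂muq, ∀ n s t, 0 < s →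
    s < t → t < T → ‖(ch (Fn n) t w.1 w.2).toReal - (ch (Fn n) s w.1 w.2).toReal‖ₑ ≤
      ∫⁻ τ in Ioo s t, (ch (gain Ψ) τ w.1 w.2 + ch (loss Ψ) τ w.1 w.2) := by
  have hm := h.mΨ.mloss.mch
  have h1 : ∫⁻ p, un (ch (loss Ψ)) p ∂mu3 T ≠ ⊤ := by
    rw [lint_ch h.mΨ.mloss h.pΨ.ploss]
    exact (h.iΨ T).int_loss h.mΨ
  rw [lint3_t hm] at h1
  have h2 : Measurable fun w : R3 × R3 => ∫⁻ t in Ioo 0 T, un (ch (loss Ψ)) (t, w) :=
    Measurable.lintegral_prod_left' (μ := volume.restrict (Ioo 0 T)) (f := un (ch (loss Ψ))) hm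
  filter_upwards [ae_lt_top h2 h1] with w hw n s t hs hst ht
  have hl : ∀ τ, 0 < τ → ch (loss (Fn n)) τ w.1 w.2 ≤ ch (loss Ψ) τ w.1 w.2 := fun τ hτ =>
    loss_mono (fun v => h.le n τ _ v hτ) _
  have hg : ∀ τ, 0 < τ → ch (gain (Fn n)) τ w.1 w.2 ≤ ch (gain Ψ) τ w.1 w.2 := fun τ hτ =>
    gain_mono (fun v => h.le n τ _ v hτ) _
  have hfin : prm (ch (loss (Fn n))) s w.1 w.2 ≠ ⊤ :=
    ne_top_of_le_ne_top hw.ne ((setLIntegral_mono' measurableSet_Ioo fun τ hτ => hl τ hτ.1).trans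
      (lintegral_mono_set (Ioo_subset_Ioo_right (hst.trans ht).le)))
  refine ((h.am n T w.1 w.2).enorm_sub_le hs.le hst.le ht.le hfin).trans (le_trans ?_ (le_lintegral_add _ _))
  exact add_le_add (setLIntegral_mono' measurableSet_Ioo fun τ hτ => hg τ (hs.trans hτ.1))
    (setLIntegral_mono' measurableSet_Ioo fun τ hτ => hl τ (hs.trans hτ.1))

end

end Crest.Agent.R68
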