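import Crest.Agent.R68.LimB2

/-!
# R68 / LimC: weak-* sequential compactness
-/

set_option autoImplicit false

namespace Crest.Agent.R68

open MeasureTheory Set Filter Crest.AnalysisR.VecCalc3 Crest.AnalysisR.PDE.Boltzmann
open scoped ENNReal _root_.Topology

noncomputable section

theorem limc_int {α : Type*} [MeasurableSpace α] {μ : Measure α} {g ψ : α → ℝ} (hm : Measurable g)
    (hb : ∀ x, |g x| ≤ 1) (hψ : Integrable ψ μ) : Integrable (fun x => g x * ψ x) μ :=
  hψ.bdd_mul hm.aestronglyMeasurable (c := 1) (Eventually.of_forall hb)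

theorem limc_dist {α : Type*} [MeasurableSpace α] {μ : Measure α} {g : α → ℝ} (hm : Measurable g)
    (hb : ∀ x, |g x| ≤ 1) (ψ φ : α →₁[μ] ℝ) :
    dist (∫ x, g x * ψ x ∂μ) (∫ x, g x * φ x ∂μ) ≤ dist ψ φ := by
  have h1 := L1.integrable_coeFn ψ
  have h2 := L1.integrable_coeFn φ
  rw [L1.dist_eq_integral_dist, dist_eq_norm, ← integral_sub (limc_int hm hb h1) (limc_int hm hb h2)]
  refine norm_integral_le_of_norm_le (h1.sub h2).norm (Eventually.of_forall fun x => ?_) |>.trans (le_of_eq ?_)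
  · rw [← mul_sub, norm_mul]
    exact mul_le_of_le_one_left (norm_nonneg _) (hb x)
  · simp only [dist_eq_norm, Pi.sub_apply]

/-- testing against sets of finite measure suffices (`Integrable.induction`; the functionals
`ψ ↦ ∫ g n * ψ` are `1`-Lipschitz on `L¹`) -/
theorem WS.of_sets {α : Type*} [MeasurableSpace α] {μ : Measure α} {g : ℕ → α → ℝ} {g' : α → ℝ}
    (hm : ∀ n, Measurable (g n)) (hm' : Measurable g') (hb : ∀ n x, |g n x| ≤ 1) (hb' : ∀ x, |g' x| ≤ 1)
    (h : ∀ S, MeasurableSet S → μ S ≠ ⊤ →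
      Tendsto (fun n => ∫ x in S, g n x ∂μ) atTop (𝓝 (∫ x in S, g' x ∂μ))) : WS μ g g' := by
  refine Integrable.induction
    (fun ψ => Tendsto (fun n => ∫ x, g n x * ψ x ∂μ) atTop (𝓝 (∫ x, g' x * ψ x ∂μ))) (fun c S hS hμ => ?_) (fun f₁ f₂ _ h1 h2 p1 p2 => ?_) ?_
    (fun f₁ f₂ he _ p => ?_)
  · have e : ∀ γ : α → ℝ, ∫ x, γ x * S.indicator (fun _ => c) x ∂μ = (∫ x in S, γ x ∂μ) * c := fun γ => by
      rw [← integral_mul_const, ← integral_indicator hS]
      congr 1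
      ext x
      by_cases hx : x ∈ S <;> simp [hx]
    simp only [e]
    exact (h S hS hμ.ne).mul_const c
  · have e : ∀ γ : α → ℝ, Measurable γ → (∀ x, |γ x| ≤ 1) → ∫ x, γ x * (f₁ + f₂) x ∂μ =
        ∫ x, γ x * f₁ x ∂μ + ∫ x, γ x * f₂ x ∂μ := fun γ a b => by
      rw [← integral_add (limc_int a b h1) (limc_int a b h2)]
      simp only [Pi.add_apply, mul_add]
    simp only [e _ (hm _) (hb _), e _ hm' hb']
    exact p1.add p2
  · refine isClosed_of_closure_subset fun f hf => ?_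
    rw [mem_ofPred_eq, Metric.tendsto_atTop]
    intro ε hε
    obtain ⟨f', hf', hd⟩ := Metric.mem_closure_iff.1 hf (ε / 3) (by positivity)
    obtain ⟨N, hN⟩ := Metric.tendsto_atTop.1 hf' (ε / 3) (by positivity)
    refine ⟨N, fun n hn => ?_⟩
    have a1 := limc_dist (hm n) (hb n) f f'
    have a2 := limc_dist hm' hb' f' f
    rw [dist_comm f' f] at a2
    linarith [dist_triangle4 (∫ x, g n x * f x ∂μ) (∫ x, g n x * f' x ∂μ) (∫ x, g' x * f' x ∂μ)
      (∫ x, g' x * f x ∂μ), hN n hn]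
  · have e : ∀ γ : α → ℝ, ∫ x, γ x * f₂ x ∂μ = ∫ x, γ x * f₁ x ∂μ := fun γ =>
      integral_congr_ae (he.mono fun x hx => by simp only [hx])
    simpa only [e] using p

/-- Finite measure: `Lp ℝ 2 μ` is a separable Hilbert space; `WeakDual.isSeqCompact_closedBall` for the
functionals `⟪g n, ·⟫`, `InnerProductSpace.toDual`; test with indicators to get `0 ≤ g' ≤ 1` a.e.
(`ae_nonneg_of_forall_setIntegral_nonneg`), clip a measurable representative; `WS.of_sets`. -/
theorem exists_ws_fin {α : Type*} [MeasurableSpace α] [MeasurableSpace.CountablyGenerated α]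
    (μ : Measure α) [IsFiniteMeasure μ] {g : ℕ → α → ℝ} (hm : ∀ n, Measurable (g n))
    (h0 : ∀ n x, 0 ≤ g n x) (h1 : ∀ n x, g n x ≤ 1) : ∃ φ : ℕ → ℕ, StrictMono φ ∧ ∃ g' : α → ℝ,
      Measurable g' ∧ (∀ x, 0 ≤ g' x) ∧ (∀ x, g' x ≤ 1) ∧ WS μ (fun n => g (φ n)) g' := by
  have hb : ∀ n x, |g n x| ≤ 1 := fun n x => abs_le.2 ⟨by linarith [h0 n x], h1 n x⟩
  have hL : ∀ n, MemLp (g n) 2 μ := fun n =>
    MemLp.of_bound (hm n).aestronglyMeasurable 1 (Eventually.of_forall (hb n))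
  have hc : MemLp (fun _ : α => (1 : ℝ)) 2 μ := memLp_const 1
  have hn : ∀ n, ‖(hL n).toLp‖ ≤ ‖hc.toLp‖ := fun n => by
    refine Lp.norm_le_norm_of_ae_le ?_
    filter_upwards [(hL n).coeFn_toLp, hc.coeFn_toLp] with x a b
    rw [a, b]
    simpa using hb n x
  have : Fact ((2 : ℝ≥0∞) ≠ ⊤) := ⟨by norm_num⟩
  obtain ⟨L, -, φ, hφ, hlim⟩ := WeakDual.isSeqCompact_closedBall ℝ (Lp ℝ 2 μ) 0 ‖hc.toLp‖
    (x := fun n => StrongDual.toWeakDual (InnerProductSpace.toDual ℝ _ (hL n).toLp)) (fun n => by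
      simpa using hn n)
  set u : Lp ℝ 2 μ := (InnerProductSpace.toDual ℝ _).symm (WeakDual.toStrongDual L) with hu
  have hui : Integrable u μ := (Lp.memLp u).integrable (by norm_num)
  have key : ∀ S, MeasurableSet S →
      Tendsto (fun n => ∫ x in S, g (φ n) x ∂μ) atTop (𝓝 (∫ x in S, u x ∂μ)) := by
    intro S hS
    have h2 := ((WeakDual.eval_continuous (indicatorConstLp 2 hS (measure_ne_top μ S) (1 : ℝ))).tendsto
      L).comp hlim
    convert h2 using 2 with n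
    · change _ = inner ℝ (hL (φ n)).toLp _
      rw [real_inner_comm, L2.inner_indicatorConstLp_one]
      exact setIntegral_congr_ae hS ((hL (φ n)).coeFn_toLp.mono fun x hx _ => hx.symm)
    · rw [← L2.inner_indicatorConstLp_one hS (measure_ne_top μ S), real_inner_comm, hu,
        InnerProductSpace.toDual_symm_apply]
      rfl
  have hu0 : 0 ≤ᵐ[μ] u := ae_nonneg_of_forall_setIntegral_nonneg hui fun S hS _ =>
    ge_of_tendsto' (key S hS) fun n => integral_nonneg (h0 _)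
  have hu1 : 0 ≤ᵐ[μ] fun x => 1 - u x :=
    ae_nonneg_of_forall_setIntegral_nonneg ((integrable_const 1).sub hui) fun S hS _ => by
      rw [integral_sub (integrable_const 1) hui.integrableOn, sub_nonneg]
      exact le_of_tendsto' (key S hS) fun n =>
        integral_mono ((hL _).integrable (by norm_num)).integrableOn (integrable_const 1) (h1 _)
  have hmu := (Lp.stronglyMeasurable u).measurable
  have a0 : ∀ x, 0 ≤ max 0 (min (u x) 1) := fun x => le_max_left _ _
  have a1 : ∀ x, max 0 (min (u x) 1) ≤ 1 := fun x => max_le zero_le_one (min_le_right _ _)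
  refine ⟨φ, hφ, fun x => max 0 (min (u x) 1), by fun_prop, a0, a1,
    WS.of_sets (fun n => hm _) (by fun_prop) (fun n => hb _) (fun x => abs_le.2 ⟨by linarith [a0 x], a1 x⟩)
      fun S hS _ => ?_⟩
  convert key S hS using 2
  refine setIntegral_congr_ae hS ?_
  filter_upwards [hu0, hu1] with x b0 b1 _
  simp only [Pi.zero_apply, sub_nonneg] at b0 b1
  rw [min_eq_left b1, max_eq_right b0]

/-- `exists_pos_lintegral_lt_of_sigmaFinite` gives `w > 0` with `ν = μ.withDensity w` finite;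
`∫ g ψ dμ = ∫ g (ψ / w) dν` (`integral_withDensity_eq_integral_smul`, `integrable_withDensity_iff`). -/
theorem exists_ws {α : Type*} [MeasurableSpace α] [MeasurableSpace.CountablyGenerated α]
    (μ : Measure α) [SigmaFinite μ] {g : ℕ → α → ℝ} (hm : ∀ n, Measurable (g n))
    (h0 : ∀ n x, 0 ≤ g n x) (h1 : ∀ n x, g n x ≤ 1) : ∃ φ : ℕ → ℕ, StrictMono φ ∧ ∃ g' : α → ℝ,
      Measurable g' ∧ (∀ x, 0 ≤ g' x) ∧ (∀ x, g' x ≤ 1) ∧ WS μ (fun n => g (φ n)) g' := by
  obtain ⟨w, hw0, hwm, hw⟩ := exists_pos_lintegral_lt_of_sigmaFinite μ one_ne_zero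
  have : IsFiniteMeasure (μ.withDensity fun x => w x) := isFiniteMeasure_withDensity (ne_top_of_lt hw)
  obtain ⟨φ, hφ, g', a, b, c, d⟩ := exists_ws_fin (μ.withDensity fun x => w x) hm h0 h1
  refine ⟨φ, hφ, g', a, b, c, fun ψ hψ => ?_⟩
  have hw' : ∀ x, (w x : ℝ) ≠ 0 := fun x => NNReal.coe_ne_zero.2 (hw0 x).ne'
  have e : ∀ γ : α → ℝ, ∫ x, γ x * (ψ x / w x) ∂(μ.withDensity fun x => w x) = ∫ x, γ x * ψ x ∂μ := fun γ => by
    rw [integral_withDensity_eq_integral_smul hwm]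
    congr 1
    ext x
    rw [NNReal.smul_def, smul_eq_mul]
    field_simp [hw' x]
  have := d (fun x => ψ x / w x) (by
    rw [integrable_withDensity_iff_integrable_coe_smul hwm]
    convert hψ using 2 with x
    rw [smul_eq_mul]
    field_simp [hw' x])
  simpa only [e] using this

/-- `exists_ws` for `volume` on `ℝ × R3 × R3` and `g n = (min (Fn n / Ψ) 1).toReal`;
`G t x v = ofReal (g' (t, fr x, v)) * Ψ t x v`.  Test with `ψ = indicator (S ∩ Om3 T) Ψ.toReal`
(`Integ.int`); where `Ψ ≠ ⊤` and `t > 0`, `ofReal (g n) * Ψ = Fn n`. -/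
theorem exists_lm {Fn : ℕ → PF} {fn : ℕ → XF} {Ψ : PF} (h : Dom Fn fn Ψ) :
    ∃ φ : ℕ → ℕ, StrictMono φ ∧ ∃ G : PF, Lm (fun n => Fn (φ n)) Ψ G := by
  have hm : ∀ n, Measurable fun p => (min (un (Fn n) p / un Ψ p) 1).toReal := fun n =>
    (((h.mF n).div h.mΨ).min measurable_const).ennreal_toReal
  obtain ⟨φ, hφ, g', a, b, c, d⟩ := exists_ws (volume : Measure (ℝ × R3 × R3)) hm
    (fun _ _ => ENNReal.toReal_nonneg)
    (fun _ _ => (ENNReal.toReal_mono ENNReal.one_ne_top (min_le_right _ _)).trans_eq ENNReal.toReal_one)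
  refine ⟨φ, hφ, fun t x v => ENNReal.ofReal (g' (t, fr x, v)) * Ψ t x v, ?_, fun t v => ?_,
    fun t x v => mul_le_of_le_one_left' (ENNReal.ofReal_le_one.2 (c _)), fun T S hS => ?_⟩
  · exact (a.comp (measurable_fst.prodMk ((measurable_fr.comp measurable_snd.fst).prodMk
      measurable_snd.snd))).ennreal_ofReal.mul h.mΨ
  · intro x i
    have e1 := per_fr (fun y => g' (t, y, v)) 0 x i
    have e2 := h.pΨ t v x i
    simp only [add_zero] at e1 e2 ⊢
    rw [e1, e2]
  have hS' := hS.inter (measurableSet_Om3 T)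
  have hfin := (h.iΨ T).int h.mΨ
  have hlt : ∀ᵐ p ∂mu3 T, un Ψ p < ⊤ := ae_lt_top h.mΨ hfin
  have hI : IntegrableOn (fun p => (un Ψ p).toReal) (S ∩ Om3 T) :=
    IntegrableOn.mono_set (integrable_toReal_of_lintegral_ne_top h.mΨ.aemeasurable hfin) inter_subset_right
  have e : ∀ γ : ℝ × R3 × R3 → ℝ, Measurable γ → (∀ p, 0 ≤ γ p) → (∀ p, γ p ≤ 1) →
      ∫⁻ p in S, ENNReal.ofReal (γ p) * un Ψ p ∂mu3 T =
        ENNReal.ofReal (∫ p, γ p * (S ∩ Om3 T).indicator (fun p => (un Ψ p).toReal) p) := by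
    intro γ g1 g2 g3
    have e1 : (fun p => γ p * (S ∩ Om3 T).indicator (fun p => (un Ψ p).toReal) p) =
        (S ∩ Om3 T).indicator (fun p => γ p * (un Ψ p).toReal) := by
      ext p
      by_cases hp : p ∈ S ∩ Om3 T <;> simp [hp]
    rw [e1, integral_indicator hS', ofReal_integral_eq_lintegral_ofReal
      (limc_int g1 (fun p => abs_le.2 ⟨by linarith [g2 p], g3 p⟩) hI)
      (Eventually.of_forall fun p => mul_nonneg (g2 p) ENNReal.toReal_nonneg),
      ← Measure.restrict_restrict hS]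
    refine lintegral_congr_ae (ae_restrict_of_ae ?_)
    filter_upwards [hlt] with p hp
    rw [ENNReal.ofReal_mul (g2 p), ENNReal.ofReal_toReal hp.ne]
  have key := ENNReal.tendsto_ofReal (d _ ((integrable_indicator_iff hS').2 hI))
  rw [← e g' a b c] at key
  convert key using 2 with n
  · rw [← e _ (hm _) (fun _ => ENNReal.toReal_nonneg)
      (fun _ => (ENNReal.toReal_mono ENNReal.one_ne_top (min_le_right _ _)).trans_eq ENNReal.toReal_one)]
    refine lintegral_congr_ae (ae_restrict_of_ae ?_)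
    filter_upwards [hlt, ae3_mem T] with p hp hp'
    have hle : un (Fn (φ n)) p ≤ un Ψ p := h.le _ _ _ _ hp'.1.1
    rw [ENNReal.ofReal_toReal (ne_top_of_le_ne_top ENNReal.one_ne_top (min_le_right _ _)),
      min_eq_left (ENNReal.div_le_of_le_mul (by rwa [one_mul]))]
    rcases eq_or_ne (un Ψ p) 0 with h0 | h0
    · rw [h0, mul_zero]
      exact le_antisymm (hle.trans_eq h0) bot_le
    · exact (ENNReal.div_mul_cancel h0 hp.ne).symm
  · refine lintegral_congr_ae (ae_restrict_of_ae ?_)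
    filter_upwards [ae3_mem T] with p hp'
    simp only [un, fr_of_mem hp'.2]

/-- Strong convergence from compensated compactness.  Subsequence principle
(`tendsto_of_subseq_tendsto`): along a subsequence `η n = 1_{ρ n > ρ'} ⇀ η` (`exists_ws`);
`|ρ n - ρ'| = 2 η n (ρ n - ρ') - (ρ n - ρ')` and
`∫ η n (ρ n - ρ') = ∫ (η n - η) ρ n + ∫ η ρ n - ∫ η n ρ' → 0`. -/
theorem l1_of_ws {α : Type*} [MeasurableSpace α] [MeasurableSpace.CountablyGenerated α]
    (μ : Measure α) [SigmaFinite μ] {ρ : ℕ → α → ℝ} {ρ' : α → ℝ} (hm : ∀ n, Measurable (ρ n))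
    (hm' : Measurable ρ') (hi : ∀ n, Integrable (ρ n) μ) (hi' : Integrable ρ' μ)
    (h1 : ∀ β : α → ℝ, Measurable β → (∀ x, 0 ≤ β x) → (∀ x, β x ≤ 1) →
      Tendsto (fun n => ∫ x, β x * ρ n x ∂μ) atTop (𝓝 (∫ x, β x * ρ' x ∂μ)))
    (h2 : ∀ (φ : ℕ → ℕ) (ζ : ℕ → α → ℝ), (∀ n, Measurable (ζ n)) → (∀ n x, |ζ n x| ≤ 1) → WS μ ζ 0 →
      Tendsto (fun n => ∫ x, ζ n x * ρ (φ n) x ∂μ) atTop (𝓝 0)) :
    Tendsto (fun n => ∫⁻ x, ‖ρ n x - ρ' x‖ₑ ∂μ) atTop (𝓝 0) := by
  have e0 : ∀ n, ∫⁻ x, ‖ρ n x - ρ' x‖ₑ ∂μ = ENNReal.ofReal (∫ x, ‖ρ n x - ρ' x‖ ∂μ) := fun n =>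
    (ofReal_integral_norm_eq_lintegral_enorm ((hi n).sub hi')).symm
  simp only [e0]
  rw [← ENNReal.ofReal_zero]
  refine ENNReal.tendsto_ofReal (tendsto_of_subseq_tendsto fun ns hns => ?_)
  set η : ℕ → α → ℝ := fun n x => if ρ' x < ρ (ns n) x then 1 else 0 with hη
  have m1 : ∀ n, Measurable (η n) := fun n =>
    Measurable.ite (measurableSet_lt hm' (hm _)) measurable_const measurable_const
  have b0 : ∀ n x, 0 ≤ η n x := fun n x => by simp only [hη]; split_ifs <;> norm_num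
  have b1 : ∀ n x, η n x ≤ 1 := fun n x => by simp only [hη]; split_ifs <;> norm_num
  obtain ⟨φ, hφ, η', a, b, c, d⟩ := exists_ws μ m1 b0 b1
  have c1 : ∀ n x, |η n x| ≤ 1 := fun n x => abs_le.2 ⟨by linarith [b0 n x], b1 n x⟩
  have c2 : ∀ x, |η' x| ≤ 1 := fun x => abs_le.2 ⟨by linarith [b x], c x⟩
  have c3 : ∀ n x, |η n x - η' x| ≤ 1 := fun n x =>
    abs_le.2 ⟨by linarith [b0 n x, c x], by linarith [b1 n x, b x]⟩
  have hT := hns.comp hφ.tendsto_atTop
  have t1 := h2 (fun n => ns (φ n)) (fun n x => η (φ n) x - η' x) (fun n => (m1 _).sub a) (fun n => c3 _)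
    (fun ψ hψ => by
      have := (d ψ hψ).sub_const (∫ x, η' x * ψ x ∂μ)
      simp only [sub_self] at this
      simp only [sub_mul, Pi.zero_apply, zero_mul, integral_zero]
      convert this using 2 with n
      exact integral_sub (limc_int (m1 _) (c1 _) hψ) (limc_int a c2 hψ))
  have t2 := (h1 η' a b c).comp hT
  have t3 := d ρ' hi'
  have t4 := (h1 (fun _ => 1) measurable_const (fun _ => zero_le_one) (fun _ => le_rfl)).comp hT
  have t5 := (((t1.add t2).sub t3).const_mul 2).sub (t4.sub_const (∫ x, 1 * ρ' x ∂μ))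
  refine ⟨φ, ?_⟩
  convert t5 using 2 with n
  · have i1 := limc_int (g := fun x => η (φ n) x - η' x) ((m1 (φ n)).sub a) (c3 _) (hi (ns (φ n)))
    have i2 := limc_int a c2 (hi (ns (φ n)))
    have i3 := limc_int (m1 (φ n)) (c1 _) hi'
    have i4 : Integrable (fun x => (η (φ n) x - η' x) * ρ (ns (φ n)) x + η' x * ρ (ns (φ n)) x) μ := i1.add i2
    have i5 : Integrable (fun x => 2 * ((η (φ n) x - η' x) * ρ (ns (φ n)) x + η' x * ρ (ns (φ n)) x -
      η (φ n) x * ρ' x)) μ := (i4.sub i3).const_mul 2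
    have i6 : Integrable (fun x => ρ (ns (φ n)) x - ρ' x) μ := (hi _).sub hi'
    simp only [Function.comp_apply, one_mul]
    rw [← integral_add i1 i2, ← integral_sub i4 i3, ← integral_const_mul,
      ← integral_sub (hi _) hi', ← integral_sub i5 i6]
    congr 1
    ext x
    simp only [hη, Real.norm_eq_abs]
    split_ifs with hx
    · rw [abs_of_pos (by linarith)]; ring
    · rw [abs_of_nonpos (by linarith)]; ring
  · ring

end

end Crest.Agent.R68
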