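import Crest.Agent.R68.A1
import Crest.Agent.R68.A3

/-!
# R68 / Lim: definitions for the compactness theorem `limit` (sub-lead helper81; DO NOT CHANGE)

Files: `LimB1` (fractional part, Tonelli, shear), `LimB2` (closure properties, integrability),
`LimW` (setwise convergence), `LimC` (weak-* compactness), `LimAvg` (TT* lemma), `LimAV` (averaging
lemma in characteristic coordinates), `LimL3` (strong convergence of velocity averages), `LimL4`
(convergence of gain and loss), `LimL5` (the limit equation), `Lim` (assembly).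
-/

set_option autoImplicit false

namespace Crest.Agent.R68

open MeasureTheory Set Filter Crest.AnalysisR.VecCalc3 Crest.AnalysisR.PDE.Boltzmann
open scoped ENNReal _root_.Topology

noncomputable section

/-- fractional part, coordinatewise -/
def fr (x : R3) : R3 := WithLp.toLp 2 fun i => Int.fract (x i)

/-- Lebesgue measure on `(0,T) × cell × ℝ³` -/
abbrev mu3 (T : ℝ) : Measure (ℝ × R3 × R3) := volume.restrict (Om3 T)
/-- Lebesgue measure on `(0,T) × cell` -/
abbrev mu2 (T : ℝ) : Measure (ℝ × R3) := volume.restrict (Ioo 0 T ×ˢ cell)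
/-- Lebesgue measure on `cell × ℝ³` -/
abbrev muq : Measure (R3 × R3) := volume.restrict (cell ×ˢ (univ : Set R3))
/-- Lebesgue measure on `ℝ × cell` -/
abbrev lamc : Measure (ℝ × R3) := (volume : Measure ℝ).prod (volume.restrict cell)

/-- uncurrying -/
abbrev un (F : PF) (p : ℝ × R3 × R3) : ℝ≥0∞ := F p.1 p.2.1 p.2.2
/-- characteristic coordinates -/
def ch (F : PF) : PF := fun t y v => F t (y + t • v) v
/-- the gain term -/
def gain (F : PF) : PF := fun t x v => Qp (F t x) (F t x) v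
/-- the loss term -/
def loss (F : PF) : PF := fun t x v => Nu (F t x) v * F t x v
/-- primitive in time -/
def prm (Θ : PF) : PF := fun t y v => ∫⁻ s in Ioo 0 t, Θ s y v
/-- the shear on the torus (`c = 1` or `c = -1`) -/
def sh (c : ℝ) (p : ℝ × R3 × R3) : ℝ × R3 × R3 := (p.1, fr (p.2.1 + (c * p.1) • p.2.2), p.2.2)
/-- the point reached at time `t + h` on the characteristic of `p = (t, y, v)` -/
def fl (h : ℝ) (p : ℝ × R3 × R3) : ℝ × R3 := (p.1 + h, fr (p.2.1 + (p.1 + h) • p.2.2))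
/-- velocity average -/
def rho (F : PF) (B : Set R3) (z : ℝ × R3) : ℝ≥0∞ := ∫⁻ v in B, F z.1 z.2 v

/-- setwise convergence of densities -/
def SW {α : Type*} [MeasurableSpace α] (μ : Measure α) (G : ℕ → α → ℝ≥0∞) (G' : α → ℝ≥0∞) : Prop :=
  ∀ S, MeasurableSet S → Tendsto (fun n => ∫⁻ x in S, G n x ∂μ) atTop (𝓝 (∫⁻ x in S, G' x ∂μ))

/-- weak-* convergence in `L^∞` -/
def WS {α : Type*} [MeasurableSpace α] (μ : Measure α) (g : ℕ → α → ℝ) (g' : α → ℝ) : Prop :=
  ∀ ψ : α → ℝ, Integrable ψ μ →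
    Tendsto (fun n => ∫ x, g n x * ψ x ∂μ) atTop (𝓝 (∫ x, g' x * ψ x ∂μ))

/-- a dominated sequence of solutions -/
structure Dom (Fn : ℕ → PF) (fn : ℕ → XF) (Ψ : PF) : Prop where
  mΨ : Meas Ψ
  pΨ : Per Ψ
  iΨ : ∀ T, Integ Ψ T
  mF : ∀ n, Meas (Fn n)
  pF : ∀ n, Per (Fn n)
  le : ∀ n t x v, 0 < t → Fn n t x v ≤ Ψ t x v
  am : ∀ n T y v, AM (Fn n) (fn n) T y v

/-- `G` is the weak limit of `Fn` -/
structure Lm (Fn : ℕ → PF) (Ψ G : PF) : Prop where
  m : Meas G
  p : Per G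
  le : ∀ t x v, G t x v ≤ Ψ t x v
  sw : ∀ T, SW (mu3 T) (fun n => un (Fn n)) (un G)

theorem Dom.subseq {Fn : ℕ → PF} {fn : ℕ → XF} {Ψ : PF} (h : Dom Fn fn Ψ) (φ : ℕ → ℕ) :
    Dom (fun n => Fn (φ n)) (fun n => fn (φ n)) Ψ :=
  ⟨h.mΨ, h.pΨ, h.iΨ, fun _ => h.mF _, fun _ => h.pF _, fun _ => h.le _, fun _ => h.am _⟩

theorem AM_iff {F : PF} {f : XF} {T : ℝ} {y v : R3} : AM F f T y v ↔ ∀ t ∈ Icc 0 T,
    ch F t y v + prm (ch (loss F)) t y v = f y v + prm (ch (gain F)) t y v := Iff.rfl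

end

end Crest.Agent.R68
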