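import Crest.Agent.R68.LimDef

/-!
# R68 / LimW: setwise convergence of dominated densities (abstract measure theory)
-/

set_option autoImplicit false

namespace Crest.Agent.R68

open MeasureTheory Set Filter Crest.AnalysisR.VecCalc3 Crest.AnalysisR.PDE.Boltzmann
open scoped ENNReal _root_.Topology

noncomputable section

variable {α : Type*} [mα : MeasurableSpace α] {μ : Measure α} {G H : ℕ → α → ℝ≥0∞} {G' H' D : α → ℝ≥0∞}

theorem SW.subseq (h : SW μ G G') {φ : ℕ → ℕ} (hφ : Tendsto φ atTop atTop) :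
    SW μ (fun n => G (φ n)) G' := by
  exact fun S hS => (h S hS).comp hφ

theorem SW.add (h : SW μ G G') (h' : SW μ H H') (hG : ∀ n, Measurable (G n)) (hG' : Measurable G') :
    SW μ (fun n x => G n x + H n x) fun x => G' x + H' x := by
  intro S hS
  simp only [lintegral_add_left (hG _), lintegral_add_left hG']
  exact (h S hS).add (h' S hS)

theorem SW.congr (h : SW μ G G') (he : ∀ n, G n =ᵐ[μ] H n) : SW μ H G' := by
  exact fun S hS => (h S hS).congr fun n => lintegral_congr_ae (ae_restrict_of_ae (he n))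

/-- `ae_eq_of_forall_setLIntegral_eq_of_sigmaFinite` -/
theorem SW.unique [SigmaFinite μ] (h : SW μ G G') (h' : SW μ G H') (hG' : Measurable G')
    (hH' : Measurable H') : G' =ᵐ[μ] H' := by
  exact ae_eq_of_forall_setLIntegral_eq_of_sigmaFinite hG' hH' fun S hS _ =>
    tendsto_nhds_unique (h S hS) (h' S hS)

/-- `G n ≤ G' + (G n - G')`, `G' ≤ G n + (G' - G n)`; `ENNReal.tendsto_nhds` -/
theorem SW.of_L1 (hG : ∀ n, Measurable (G n)) (hG' : Measurable G') (hfin : ∫⁻ x, G' x ∂μ ≠ ⊤)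
    (h : Tendsto (fun n => ∫⁻ x, ((G n x - G' x) + (G' x - G n x)) ∂μ) atTop (𝓝 0)) : SW μ G G' := by
  intro S _
  have ha : ∫⁻ x in S, G' x ∂μ ≠ ⊤ := ne_top_of_le_ne_top hfin (setLIntegral_le_lintegral _ _)
  have h1 := ENNReal.Tendsto.sub (tendsto_const_nhds (x := ∫⁻ x in S, G' x ∂μ)) h (Or.inl ha)
  have h2 := (tendsto_const_nhds (x := ∫⁻ x in S, G' x ∂μ)).add h
  rw [tsub_zero] at h1
  rw [add_zero] at h2
  refine tendsto_of_tendsto_of_tendsto_of_le_of_le h1 h2 (fun n => tsub_le_iff_right.2 ?_) fun n => ?_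
  · calc ∫⁻ x in S, G' x ∂μ ≤ ∫⁻ x in S, (G n x + ((G n x - G' x) + (G' x - G n x))) ∂μ :=
          lintegral_mono fun x => le_add_tsub.trans (add_le_add_right le_add_self _)
      _ ≤ _ := by
          rw [lintegral_add_left (hG n)]
          exact add_le_add_right (setLIntegral_le_lintegral _ _) _
  · calc ∫⁻ x in S, G n x ∂μ ≤ ∫⁻ x in S, (G' x + ((G n x - G' x) + (G' x - G n x))) ∂μ :=
          lintegral_mono fun x => le_add_tsub.trans (add_le_add_right le_self_add _)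
      _ ≤ _ := by
          rw [lintegral_add_left hG']
          exact add_le_add_right (setLIntegral_le_lintegral _ _) _

/-- π-λ (`MeasurableSpace.induction_on_inter`).  Complements: `lintegral_add_compl`, everything is
finite.  Disjoint unions: `lintegral_iUnion` and dominated convergence for series (the tails are bounded
by the tails of `∑ ∫_{S i} D`; e.g. `tendsto_lintegral_of_dominated_convergence` for `Measure.count`). -/
theorem SW.of_pi {C : Set (Set α)} (hC : mα = MeasurableSpace.generateFrom C) (hπ : IsPiSystem C)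
    (hD : ∫⁻ x, D x ∂μ ≠ ⊤) (hle : ∀ n, G n ≤ᵐ[μ] D) (hle' : G' ≤ᵐ[μ] D)
    (hu : Tendsto (fun n => ∫⁻ x, G n x ∂μ) atTop (𝓝 (∫⁻ x, G' x ∂μ)))
    (h : ∀ S ∈ C, Tendsto (fun n => ∫⁻ x in S, G n x ∂μ) atTop (𝓝 (∫⁻ x in S, G' x ∂μ))) :
    SW μ G G' := by
  have hfin : ∀ {g : α → ℝ≥0∞}, g ≤ᵐ[μ] D → ∀ S, ∫⁻ x in S, g x ∂μ ≠ ⊤ := fun hg S =>
    ne_top_of_le_ne_top hD ((setLIntegral_le_lintegral _ _).trans (lintegral_mono_ae hg))
  have hc : ∀ {g : α → ℝ≥0∞}, g ≤ᵐ[μ] D → ∀ S, MeasurableSet S →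
      ∫⁻ x in Sᶜ, g x ∂μ = ∫⁻ x, g x ∂μ - ∫⁻ x in S, g x ∂μ := fun hg S hS =>
    ENNReal.eq_sub_of_add_eq (hfin hg S) (by rw [add_comm, lintegral_add_compl _ hS])
  intro S hS
  induction S, hS using MeasurableSpace.induction_on_inter hC hπ with
  | empty => simp
  | basic S hS => exact h S hS
  | compl S hS ih =>
    simp only [hc (hle _) S hS, hc hle' S hS]
    exact ENNReal.Tendsto.sub hu ih (Or.inr (hfin hle' S))
  | iUnion f hd hm ih =>
    simp only [lintegral_iUnion hm hd, ← lintegral_count]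
    refine tendsto_lintegral_of_dominated_convergence (fun i => ∫⁻ x in f i, D x ∂μ)
      (fun n => measurable_of_countable _)
      (fun n => ae_of_all _ fun i => lintegral_mono_ae (ae_restrict_of_ae (hle n))) ?_ (ae_of_all _ ih)
    rw [lintegral_count, ← lintegral_iUnion hm hd]
    exact hfin EventuallyLE.rfl _

private theorem w_liminf (u v : ℕ → ℝ≥0∞) :
    liminf u atTop + liminf v atTop ≤ liminf (fun n => u n + v n) atTop := by
  have hm : ∀ w : ℕ → ℝ≥0∞, Monotone fun n => ⨅ i ≥ n, w i := fun w a b hab =>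
    le_iInf₂ fun i hi => iInf₂_le i (hab.trans hi)
  simp only [liminf_eq_iSup_iInf_of_nat]
  rw [ENNReal.iSup_add_iSup_of_monotone (hm u) (hm v)]
  exact iSup_mono fun n => le_iInf₂ fun i hi => add_le_add (iInf₂_le i hi) (iInf₂_le i hi)

/-- Fatou for setwise convergence (`Measurable.ennreal_induction`; `liminf` is superadditive) -/
theorem SW.le_liminf (h : SW μ G G') (hG : ∀ n, Measurable (G n)) (hG' : Measurable G')
    {K : α → ℝ≥0∞} (hK : Measurable K) :
    ∫⁻ x, K x * G' x ∂μ ≤ liminf (fun n => ∫⁻ x, K x * G n x ∂μ) atTop := by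
  refine Measurable.ennreal_induction (motive := fun K => ∫⁻ x, K x * G' x ∂μ ≤
    liminf (fun n => ∫⁻ x, K x * G n x ∂μ) atTop) (fun c S hS => ?_) (fun f g _ hf hg ihf ihg => ?_)
    (fun f hf hmono ih => ?_) hK
  · have e : ∀ g : α → ℝ≥0∞, Measurable g →
        ∫⁻ x, S.indicator (fun _ => c) x * g x ∂μ = c * ∫⁻ x in S, g x ∂μ := fun g hg => by
      rw [← lintegral_const_mul _ hg, ← lintegral_indicator hS]
      exact lintegral_congr fun x => (indicator_mul_left _ _ _).symm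
    simp only [e _ (hG _), e _ hG']
    by_cases h0 : ∫⁻ x in S, G' x ∂μ = 0
    · rw [h0, mul_zero]
      exact zero_le
    · exact (ENNReal.Tendsto.const_mul (h S hS) (Or.inl h0)).liminf_eq.ge
  · simp only [Pi.add_apply, add_mul, lintegral_add_left (hf.fun_mul (hG _)),
      lintegral_add_left (hf.fun_mul hG')]
    exact (add_le_add ihf ihg).trans (w_liminf _ _)
  · have : ∫⁻ x, (⨆ k, f k x) * G' x ∂μ = ⨆ k, ∫⁻ x, f k x * G' x ∂μ := by
      simp only [ENNReal.iSup_mul]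
      exact lintegral_iSup (fun k => (hf k).fun_mul hG') fun a b hab x =>
        mul_le_mul_left (hmono hab x) _
    rw [this]
    exact iSup_le fun k => (ih k).trans (liminf_le_liminf (Eventually.of_forall fun n =>
      lintegral_mono fun x => mul_le_mul_left (le_iSup (fun k => f k x) k) _))

/-- apply `SW.le_liminf` to `G n` and to `D - G n` (which converges setwise to `D - G'`);
`K * G n + K * (D - G n) = K * D` a.e. -/
theorem SW.mul (h : SW μ G G') (hG : ∀ n, Measurable (G n)) (hG' : Measurable G') (hDm : Measurable D)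
    (hD : ∫⁻ x, D x ∂μ ≠ ⊤) (hle : ∀ n, G n ≤ᵐ[μ] D) (hle' : G' ≤ᵐ[μ] D) {K : α → ℝ≥0∞}
    (hK : Measurable K) (hKD : ∫⁻ x, K x * D x ∂μ ≠ ⊤) :
    Tendsto (fun n => ∫⁻ x, K x * G n x ∂μ) atTop (𝓝 (∫⁻ x, K x * G' x ∂μ)) := by
  have h' : SW μ (fun n x => D x - G n x) fun x => D x - G' x := fun S hS => by
    have e : ∀ g : α → ℝ≥0∞, Measurable g → g ≤ᵐ[μ] D →
        ∫⁻ x in S, (D x - g x) ∂μ = ∫⁻ x in S, D x ∂μ - ∫⁻ x in S, g x ∂μ := fun g hg hgD =>
      lintegral_sub hg (ne_top_of_le_ne_top hD ((setLIntegral_le_lintegral _ _).trans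
        (lintegral_mono_ae hgD))) (ae_restrict_of_ae hgD)
    simp only [e _ (hG _) (hle _), e _ hG' hle']
    exact ENNReal.Tendsto.sub tendsto_const_nhds (h S hS)
      (Or.inl (ne_top_of_le_ne_top hD (setLIntegral_le_lintegral _ _)))
  have e : ∀ g : α → ℝ≥0∞, Measurable g → g ≤ᵐ[μ] D →
      ∫⁻ x, K x * g x ∂μ = ∫⁻ x, K x * D x ∂μ - ∫⁻ x, K x * (D x - g x) ∂μ := fun g hg hgD => by
    refine ENNReal.eq_sub_of_add_eq (ne_top_of_le_ne_top hKD
      (lintegral_mono fun x => mul_le_mul_right tsub_le_self _)) ?_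
    rw [← lintegral_add_left (hK.fun_mul hg)]
    exact lintegral_congr_ae (hgD.mono fun x hx => by simp only [← mul_add, add_tsub_cancel_of_le hx])
  refine tendsto_of_le_liminf_of_limsup_le (h.le_liminf hG hG' hK) ?_
  simp only [e _ (hG _) (hle _), e _ hG' hle']
  rw [ENNReal.limsup_const_sub _ _ hKD]
  exact tsub_le_tsub_left (h'.le_liminf (fun n => hDm.fun_sub (hG n)) (hDm.fun_sub hG') hK) _

/-- `∫ R d_n ≤ M ∫ d_n + 2 ∫_{R > M} R²` -/
theorem tendsto_mul_of_le {d : ℕ → α → ℝ≥0∞} {R : α → ℝ≥0∞} (hd : ∀ n, Measurable (d n))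
    (hR : Measurable R) (hR2 : ∫⁻ x, R x ^ 2 ∂μ ≠ ⊤) (hle : ∀ n, ∀ᵐ x ∂μ, d n x ≤ 2 * R x)
    (h : Tendsto (fun n => ∫⁻ x, d n x ∂μ) atTop (𝓝 0)) :
    Tendsto (fun n => ∫⁻ x, R x * d n x ∂μ) atTop (𝓝 0) := by
  have hS : ∀ k : ℕ, MeasurableSet {x | (k : ℝ≥0∞) < R x} := fun k =>
    measurableSet_lt measurable_const hR
  have hm : Measurable fun x => 2 * R x ^ 2 := (hR.pow_const 2).const_mul 2
  have h1 : Tendsto (fun k : ℕ => ∫⁻ x, {x | (k : ℝ≥0∞) < R x}.indicator (fun x => 2 * R x ^ 2) x ∂μ)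
      atTop (𝓝 (∫⁻ _, 0 ∂μ)) := by
    refine tendsto_lintegral_of_dominated_convergence _ (fun k => hm.indicator (hS k))
      (fun k => ae_of_all _ fun x => indicator_le_self _ _ x) ?_ ?_
    · rw [lintegral_const_mul _ (hR.pow_const 2)]
      exact ENNReal.mul_ne_top ENNReal.ofNat_ne_top hR2
    · filter_upwards [ae_lt_top (hR.pow_const 2) hR2] with x hx
      obtain ⟨k, hk⟩ := ENNReal.exists_nat_gt (r := R x) fun h0 => by simp [h0] at hx
      refine tendsto_const_nhds.congr' ((eventually_ge_atTop k).mono fun j hj => ?_)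
      have : x ∉ {x | (j : ℝ≥0∞) < R x} := not_lt.2 (hk.le.trans (by exact_mod_cast hj))
      simp only [indicator_of_notMem this]
  rw [lintegral_zero] at h1
  refine ENNReal.tendsto_nhds_zero.2 fun ε hε => ?_
  obtain ⟨k, hk⟩ := (ENNReal.tendsto_nhds_zero.1 h1 _ (ENNReal.half_pos hε.ne')).exists
  have h2 := ENNReal.Tendsto.const_mul (a := k) h (Or.inr (ENNReal.natCast_ne_top k))
  rw [mul_zero] at h2
  filter_upwards [ENNReal.tendsto_nhds_zero.1 h2 _ (ENNReal.half_pos hε.ne')] with n hn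
  calc ∫⁻ x, R x * d n x ∂μ
      ≤ ∫⁻ x, (k * d n x + {x | (k : ℝ≥0∞) < R x}.indicator (fun x => 2 * R x ^ 2) x) ∂μ := by
        refine lintegral_mono_ae ((hle n).mono fun x hx => ?_)
        by_cases hxk : (k : ℝ≥0∞) < R x
        · rw [indicator_of_mem (show x ∈ {x | (k : ℝ≥0∞) < R x} from hxk)]
          calc R x * d n x ≤ R x * (2 * R x) := mul_le_mul_right hx _
            _ = 2 * R x ^ 2 := by ring
            _ ≤ _ := le_add_self
        · exact (mul_le_mul_left (not_lt.1 hxk) _).trans le_self_add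
    _ ≤ ε / 2 + ε / 2 := by
        rw [lintegral_add_left ((hd n).const_mul _), lintegral_const_mul _ (hd n)]
        exact add_le_add hn hk
    _ = ε := ENNReal.add_halves ε

private theorem w_sub {x y : ℝ≥0∞} (hx : x ≠ ⊤) (hy : y ≠ ⊤) :
    (x - y) + (y - x) = ‖x.toReal - y.toReal‖ₑ := by
  rcases le_total x y with h | h
  · rw [tsub_eq_zero_of_le h, zero_add, enorm_sub_rev, ← ENNReal.toReal_sub_of_le h hy,
      Real.enorm_toReal (ENNReal.sub_ne_top hy)]
  · rw [tsub_eq_zero_of_le h, add_zero, ← ENNReal.toReal_sub_of_le h hx,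
      Real.enorm_toReal (ENNReal.sub_ne_top hx)]

private theorem w_two {x y r : ℝ≥0∞} (hr : r ≠ ⊤) (hx : x ≤ r) (hy : y ≤ r) :
    ‖x.toReal - y.toReal‖ₑ ≤ 2 * r := by
  rw [← w_sub (ne_top_of_le_ne_top hr hx) (ne_top_of_le_ne_top hr hy), two_mul]
  exact add_le_add (tsub_le_self.trans hx) (tsub_le_self.trans hy)

/-- Products of strongly convergent sequences: `SW.of_L1`; where `R < ∞`,
`|a_n b_n - a b| ≤ R |a_n - a| + R |b_n - b|`; `tendsto_mul_of_le`. -/
theorem SW.prod {R : α → ℝ≥0∞} (hG : ∀ n, Measurable (G n)) (hG' : Measurable G')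
    (hH : ∀ n, Measurable (H n)) (hH' : Measurable H') (hR : Measurable R)
    (hR2 : ∫⁻ x, R x ^ 2 ∂μ ≠ ⊤) (h1 : ∀ n, G n ≤ᵐ[μ] R) (h2 : G' ≤ᵐ[μ] R) (h3 : ∀ n, H n ≤ᵐ[μ] R)
    (h4 : H' ≤ᵐ[μ] R)
    (hg : Tendsto (fun n => ∫⁻ x, ‖(G n x).toReal - (G' x).toReal‖ₑ ∂μ) atTop (𝓝 0))
    (hh : Tendsto (fun n => ∫⁻ x, ‖(H n x).toReal - (H' x).toReal‖ₑ ∂μ) atTop (𝓝 0)) :
    SW μ (fun n x => G n x * H n x) fun x => G' x * H' x := by
  have hRf : ∀ᵐ x ∂μ, R x ≠ ⊤ :=
    (ae_lt_top (hR.pow_const 2) hR2).mono fun x hx h0 => by simp [h0] at hx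
  have mg : ∀ n, Measurable fun x => ‖(G n x).toReal - (G' x).toReal‖ₑ := fun n =>
    ((hG n).ennreal_toReal.sub hG'.ennreal_toReal).enorm
  have mh : ∀ n, Measurable fun x => ‖(H n x).toReal - (H' x).toReal‖ₑ := fun n =>
    ((hH n).ennreal_toReal.sub hH'.ennreal_toReal).enorm
  have tg := tendsto_mul_of_le mg hR hR2 (fun n => by
    filter_upwards [hRf, h1 n, h2] with x a b c using w_two a b c) hg
  have th := tendsto_mul_of_le mh hR hR2 (fun n => by
    filter_upwards [hRf, h3 n, h4] with x a b c using w_two a b c) hh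
  refine SW.of_L1 (fun n => (hG n).fun_mul (hH n)) (hG'.fun_mul hH') (ne_top_of_le_ne_top hR2
    (lintegral_mono_ae ?_)) ?_
  · filter_upwards [h2, h4] with x a b
    rw [sq]
    exact mul_le_mul' a b
  have t := tg.add th
  rw [add_zero] at t
  refine tendsto_of_tendsto_of_tendsto_of_le_of_le tendsto_const_nhds t (fun n => zero_le) fun n => ?_
  simp only
  rw [← lintegral_add_left (hR.fun_mul (mg n))]
  refine lintegral_mono_ae ?_
  filter_upwards [hRf, h1 n, h2, h3 n, h4] with x r a b c d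
  have a' := ne_top_of_le_ne_top r a
  have b' := ne_top_of_le_ne_top r b
  have c' := ne_top_of_le_ne_top r c
  have d' := ne_top_of_le_ne_top r d
  rw [w_sub (ENNReal.mul_ne_top a' c') (ENNReal.mul_ne_top b' d'), ENNReal.toReal_mul,
    ENNReal.toReal_mul, show (G n x).toReal * (H n x).toReal - (G' x).toReal * (H' x).toReal =
      (H' x).toReal * ((G n x).toReal - (G' x).toReal) +
        (G n x).toReal * ((H n x).toReal - (H' x).toReal) by ring]
  refine (enorm_add_le _ _).trans ?_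
  rw [enorm_mul, enorm_mul, Real.enorm_toReal a', Real.enorm_toReal d']
  gcongr

end

end Crest.Agent.R68
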