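import Crest.Agent.R68.LimAV
import Crest.Agent.R68.LimC
import Crest.Agent.R68.LimW

/-!
# R68 / LimL3: strong convergence of velocity averages and of their products
-/

set_option autoImplicit false

namespace Crest.Agent.R68

open MeasureTheory Set Filter Crest.AnalysisR.VecCalc3 Crest.AnalysisR.PDE.Boltzmann
open scoped ENNReal _root_.Topology

noncomputable section

variable {Fn : ℕ → PF} {fn : ℕ → XF} {Ψ G : PF}

theorem liml3_ind (B : Set R3) (v : R3) : |B.indicator (1 : R3 → ℝ) v| ≤ 1 := by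
  by_cases h : v ∈ B <;> simp [h]

theorem liml3_ae (h : Dom Fn fn Ψ) (T : ℝ) (n : ℕ) : un (Fn n) ≤ᵐ[mu3 T] un Ψ :=
  (ae3_mem T).mono fun _ hp => h.le _ _ _ _ hp.1.1

theorem liml3_fin (h : Dom Fn fn Ψ) (T : ℝ) {F : PF} (hF : un F ≤ᵐ[mu3 T] un Ψ) :
    ∫⁻ p, un F p ∂mu3 T ≠ ⊤ :=
  ne_top_of_le_ne_top ((h.iΨ T).int h.mΨ) (lintegral_mono_ae hF)

theorem liml3_rho {T : ℝ} {F : PF} (hF : un F ≤ᵐ[mu3 T] un Ψ) (B : Set R3) :
    rho F B ≤ᵐ[mu2 T] rho Ψ univ := by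
  filter_upwards [ae3_z hF] with z hz
  unfold rho
  rw [Measure.restrict_univ]
  exact (setLIntegral_le_lintegral _ _).trans (lintegral_mono_ae hz)

/-- `int3_z`, `integral_toReal`; `F ≤ Ψ` is integrable on `Om3 T` -/
theorem int_rho {F : PF} {T : ℝ} (hF : Meas F) (hfin : ∫⁻ p, un F p ∂mu3 T ≠ ⊤) {B : Set R3}
    (hB : MeasurableSet B) {β : ℝ × R3 → ℝ} (hβ : Measurable β) (hβ1 : ∀ z, |β z| ≤ 1) :
    ∫ z, β z * (rho F B z).toReal ∂mu2 T =
      ∫ p, β (p.1, p.2.1) * (B.indicator 1 p.2.2 * (un F p).toReal) ∂mu3 T := by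
  have hi : Integrable (fun p => (un F p).toReal) (mu3 T) :=
    integrable_toReal_of_lintegral_ne_top (Measurable.aemeasurable hF) hfin
  have hi2 := limc_int (g := fun p : ℝ × R3 × R3 => β (p.1, p.2.1)) (by fun_prop) (fun p => hβ1 _)
    (limc_int (g := fun p : ℝ × R3 × R3 => B.indicator (1 : R3 → ℝ) p.2.2)
      ((measurable_one.indicator hB).comp measurable_snd.snd) (fun p => liml3_ind B _) hi)
  rw [int3_z hi2]
  rw [lint3_z hF] at hfin
  have hm : Measurable fun z : ℝ × R3 => ∫⁻ v, un F (z.1, z.2, v) := by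
    have := hF.mrho univ
    unfold rho at this
    simpa only [Measure.restrict_univ] using this
  refine integral_congr_ae ?_
  filter_upwards [ae_lt_top hm hfin] with z hz
  have hz1 : Measurable fun v => un F (z.1, z.2, v) := Measurable.comp hF (by fun_prop)
  rw [integral_const_mul, rho, ← integral_toReal hz1.aemeasurable (ae_restrict_of_ae (ae_lt_top hz1 hz.ne)),
    ← integral_indicator hB]
  congr 2
  ext v
  by_cases hv : v ∈ B <;> simp [hv]

/-- `av` with `u n p = B.indicator 1 v * (ch (Fn n) p).toReal`, `ψ = ch Ψ`,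
`q = ch (gain Ψ) + ch (loss Ψ)` (`Dom.incr`, `lint_ch`); return to the original coordinates with
`mp_sh 1` (`integral_map`, `un_sh`), `int_rho`. -/
theorem Dom.dav (h : Dom Fn fn Ψ) (T : ℝ) {B : Set R3} (hB : MeasurableSet B) {ζ : ℕ → ℝ × R3 → ℝ}
    (hζ : ∀ n, Measurable (ζ n)) (hζ1 : ∀ n z, |ζ n z| ≤ 1) (hw : WS (mu2 T) ζ 0) :
    Tendsto (fun n => ∫ z, ζ n z * (rho (Fn n) B z).toReal ∂mu2 T) atTop (𝓝 0) := by
  have hmB : Measurable fun p : ℝ × R3 × R3 => B.indicator (1 : R3 → ℝ) p.2.2 :=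
    (measurable_one.indicator hB).comp measurable_snd.snd
  have m1 : Measurable (un (ch (gain Ψ))) := h.mΨ.mgain.mch
  have m2 : Measurable (un (ch (loss Ψ))) := h.mΨ.mloss.mch
  have key := av (T := T) (u := fun n p => B.indicator (1 : R3 → ℝ) p.2.2 * (un (ch (Fn n)) p).toReal)
    (ψ := un (ch Ψ)) (q := fun p => un (ch (gain Ψ)) p + un (ch (loss Ψ)) p) (ζ := ζ)
    (fun n => hmB.mul (Measurable.ennreal_toReal (h.mF n).mch)) h.mΨ.mch (m1.add m2) hζ
    (by rw [lint_ch h.mΨ h.pΨ]; exact (h.iΨ T).int h.mΨ)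
    (by
      rw [lintegral_add_left m1, lint_ch h.mΨ.mgain h.pΨ.pgain, lint_ch h.mΨ.mloss h.pΨ.ploss]
      exact ENNReal.add_ne_top.2 ⟨(h.iΨ T).int_gain h.mΨ, (h.iΨ T).int_loss h.mΨ⟩)
    (fun n p hp => by
      by_cases hv : p.2.2 ∈ B
      · rw [indicator_of_mem hv, Pi.one_apply, one_mul, Real.enorm_eq_ofReal ENNReal.toReal_nonneg]
        exact ENNReal.ofReal_toReal_le.trans (h.le _ _ _ _ hp)
      · simp [hv])
    (fun n => by
      filter_upwards [h.incr T] with w hw s t h1 h2 h3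
      by_cases hv : w.2 ∈ B
      · simp only [indicator_of_mem hv, Pi.one_apply, one_mul]
        exact hw n s t h1 h2 h3
      · simp [hv])
    hζ1 hw
  convert key using 2 with n
  rw [int_rho (h.mF n) (liml3_fin h T (liml3_ae h T n)) hB (hζ n) (hζ1 n)]
  have hm : Measurable fun p : ℝ × R3 × R3 =>
      ζ n (p.1, p.2.1) * (B.indicator (1 : R3 → ℝ) p.2.2 * (un (Fn n) p).toReal) :=
    ((hζ n).comp (by fun_prop)).mul (hmB.mul (Measurable.ennreal_toReal (h.mF n)))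
  conv_lhs => rw [← (mp_sh 1 T).map_eq]
  rw [integral_map (measurable_sh 1).aemeasurable hm.aestronglyMeasurable]
  congr 1
  ext p
  rw [un_sh (h.pF n)]
  simp only [sh, fl, add_zero, one_mul]

/-- `SW.mul` with `K p = ofReal (β (t, x)) * 1_B v`, `lint3_z`, `toReal` -/
theorem Lm.weak (h : Dom Fn fn Ψ) (hG : Lm Fn Ψ G) (T : ℝ) {B : Set R3} (hB : MeasurableSet B)
    {β : ℝ × R3 → ℝ} (hβ : Measurable β) (h0 : ∀ z, 0 ≤ β z) (h1 : ∀ z, β z ≤ 1) :
    Tendsto (fun n => ∫ z, β z * (rho (Fn n) B z).toReal ∂mu2 T) atTop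
      (𝓝 (∫ z, β z * (rho G B z).toReal ∂mu2 T)) := by
  set K : ℝ × R3 × R3 → ℝ≥0∞ := fun p => ENNReal.ofReal (β (p.1, p.2.1)) * B.indicator 1 p.2.2 with hK
  have mK : Measurable K := (hβ.comp (by fun_prop)).ennreal_ofReal.mul
    ((measurable_one.indicator hB).comp measurable_snd.snd)
  have K1 : ∀ p, K p ≤ 1 := fun p => by
    refine mul_le_one' (ENNReal.ofReal_le_one.2 (h1 _)) ?_
    by_cases hv : p.2.2 ∈ B <;> simp [hv]
  have fin : ∀ F : PF, un F ≤ᵐ[mu3 T] un Ψ → ∫⁻ p, K p * un F p ∂mu3 T ≠ ⊤ := fun F hF =>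
    ne_top_of_le_ne_top (liml3_fin h T hF) (lintegral_mono fun p => mul_le_of_le_one_left' (K1 p))
  have e : ∀ F : PF, Meas F → un F ≤ᵐ[mu3 T] un Ψ →
      ∫ z, β z * (rho F B z).toReal ∂mu2 T = (∫⁻ p, K p * un F p ∂mu3 T).toReal := by
    intro F hF hle
    have hm : Measurable fun p => K p * un F p := mK.mul hF
    rw [int_rho hF (liml3_fin h T hle) hB hβ (fun z => abs_le.2 ⟨by linarith [h0 z], h1 z⟩),
      ← integral_toReal hm.aemeasurable (ae_lt_top hm (fin F hle))]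
    congr 1
    ext p
    by_cases hv : p.2.2 ∈ B <;> simp [hK, hv, h0]
  have hle : un G ≤ᵐ[mu3 T] un Ψ := Eventually.of_forall fun p => hG.le _ _ _
  simp only [e _ (h.mF _) (liml3_ae h T _), e _ hG.m hle]
  exact (ENNReal.tendsto_toReal (fin G hle)).comp (SW.mul (hG.sw T) h.mF hG.m h.mΨ ((h.iΨ T).int h.mΨ)
    (liml3_ae h T) hle mK (fin Ψ EventuallyLE.rfl))

/-- `l1_of_ws`, `Dom.subseq` -/
theorem Lm.strong (h : Dom Fn fn Ψ) (hG : Lm Fn Ψ G) (T : ℝ) {B : Set R3} (hB : MeasurableSet B) :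
    Tendsto (fun n => ∫⁻ z, ‖(rho (Fn n) B z).toReal - (rho G B z).toReal‖ₑ ∂mu2 T) atTop (𝓝 0) := by
  have hi : ∀ F : PF, Meas F → un F ≤ᵐ[mu3 T] un Ψ → Integrable (fun z => (rho F B z).toReal) (mu2 T) :=
    fun F hF hle => integrable_toReal_of_lintegral_ne_top (hF.mrho B).aemeasurable
      (ne_top_of_le_ne_top (h.iΨ T).int_rho (lintegral_mono_ae (liml3_rho hle B)))
  exact l1_of_ws (mu2 T) (fun n => ((h.mF n).mrho B).ennreal_toReal) (hG.m.mrho B).ennreal_toReal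
    (fun n => hi _ (h.mF n) (liml3_ae h T n)) (hi _ hG.m (Eventually.of_forall fun p => hG.le _ _ _))
    (fun β a b c => hG.weak h T hB a b c) fun φ ζ a b c => (h.subseq φ).dav T hB a b c

/-- `SW.prod` with `R = rho Ψ univ` -/
theorem Lm.rect (h : Dom Fn fn Ψ) (hG : Lm Fn Ψ G) (T : ℝ) {B B' : Set R3} (hB : MeasurableSet B)
    (hB' : MeasurableSet B') :
    SW (mu2 T) (fun n z => rho (Fn n) B z * rho (Fn n) B' z) fun z => rho G B z * rho G B' z := by
  have hle : un G ≤ᵐ[mu3 T] un Ψ := Eventually.of_forall fun p => hG.le _ _ _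
  exact SW.prod (fun n => (h.mF n).mrho B) (hG.m.mrho B) (fun n => (h.mF n).mrho B') (hG.m.mrho B')
    (h.mΨ.mrho univ) (h.iΨ T).sq (fun n => liml3_rho (liml3_ae h T n) B) (liml3_rho hle B)
    (fun n => liml3_rho (liml3_ae h T n) B') (liml3_rho hle B') (hG.strong h T hB) (hG.strong h T hB')

end

end Crest.Agent.R68
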