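import Crest.Agent.R68.LimL3

/-!
# R68 / LimL4: convergence of the gain and loss terms
-/

set_option autoImplicit false

namespace Crest.Agent.R68

open MeasureTheory Set Filter Crest.AnalysisR.VecCalc3 Crest.AnalysisR.PDE.Boltzmann
open scoped ENNReal _root_.Topology

noncomputable section

/-- the tensor square -/
def two (F : PF) (q : (ℝ × R3) × R3 × R3) : ℝ≥0∞ := F q.1.1 q.1.2 q.2.1 * F q.1.1 q.1.2 q.2.2

/-- Lebesgue measure on `(0,T) × cell × ℝ³ × ℝ³` -/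
abbrev mu4 (T : ℝ) : Measure ((ℝ × R3) × R3 × R3) := (mu2 T).prod (volume.prod volume)

variable {Fn : ℕ → PF} {fn : ℕ → XF} {Ψ G F : PF}

theorem Meas.mtwo (h : Meas F) : Measurable (two F) := by
  have h1 : Measurable fun q : (ℝ × R3) × R3 × R3 => F q.1.1 q.1.2 q.2.1 :=
    h.comp (f := fun q : (ℝ × R3) × R3 × R3 => (q.1.1, q.1.2, q.2.1)) (by fun_prop)
  have h2 : Measurable fun q : (ℝ × R3) × R3 × R3 => F q.1.1 q.1.2 q.2.2 :=
    h.comp (f := fun q : (ℝ × R3) × R3 × R3 => (q.1.1, q.1.2, q.2.2)) (by fun_prop)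
  exact h1.mul h2

private theorem liml4_pos (T : ℝ) : ∀ᵐ q ∂mu4 T, 0 < q.1.1 := by
  have h1 : ∀ᵐ z ∂mu2 T, 0 < z.1 := by
    rw [mu2_eq]
    exact Measure.quasiMeasurePreserving_fst.ae
      ((ae_restrict_mem measurableSet_Ioo).mono fun t ht => ht.1)
  exact Measure.quasiMeasurePreserving_fst.ae h1

private theorem liml4_le (h : Dom Fn fn Ψ) (T : ℝ) (n : ℕ) : two (Fn n) ≤ᵐ[mu4 T] two Ψ :=
  (liml4_pos T).mono fun _ hq => mul_le_mul' (h.le n _ _ _ hq) (h.le n _ _ _ hq)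

private theorem liml4_le' (hG : Lm Fn Ψ G) (T : ℝ) : two G ≤ᵐ[mu4 T] two Ψ :=
  ae_of_all _ fun _ => mul_le_mul' (hG.le _ _ _) (hG.le _ _ _)

/-- Tonelli on `mu4` -/
private theorem liml4_lint {Θ : (ℝ × R3) × R3 × R3 → ℝ≥0∞} (hm : Measurable Θ) (T : ℝ) :
    ∫⁻ q, Θ q ∂mu4 T = ∫⁻ z, (∫⁻ v, ∫⁻ a, Θ (z, v, a)) ∂mu2 T := by
  rw [lintegral_prod _ hm.aemeasurable]
  refine lintegral_congr fun z => ?_
  exact lintegral_prod _ (hm.comp measurable_prodMk_left).aemeasurable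

/-- `Measure.prod_restrict`, `lintegral_prod`, `lintegral_prod_mul` -/
theorem lint_two (h : Meas F) (T : ℝ) (A : Set (ℝ × R3)) (B B' : Set R3) :
    ∫⁻ q in A ×ˢ (B ×ˢ B'), two F q ∂mu4 T = ∫⁻ z in A, rho F B z * rho F B' z ∂mu2 T := by
  rw [← Measure.prod_restrict, ← Measure.prod_restrict, lintegral_prod _ h.mtwo.aemeasurable]
  refine lintegral_congr fun z => ?_
  exact lintegral_prod_mul (h.slice z.1 z.2).aemeasurable (h.slice z.1 z.2).aemeasurable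

private theorem liml4_univ (h : Meas F) (T : ℝ) :
    ∫⁻ q, two F q ∂mu4 T = ∫⁻ z in univ, rho F univ z * rho F univ z ∂mu2 T := by
  rw [← lint_two h, univ_prod_univ, univ_prod_univ, Measure.restrict_univ]

private theorem liml4_fin (h : Dom Fn fn Ψ) (T : ℝ) : ∫⁻ q, two Ψ q ∂mu4 T ≠ ⊤ := by
  rw [liml4_univ h.mΨ, Measure.restrict_univ]
  simpa only [sq] using (h.iΨ T).sq

/-- `SW.of_pi` with the π-system of boxes `A ×ˢ (B ×ˢ B')` (`generateFrom_eq_prod`, `IsPiSystem.prod`,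
`generateFrom_prod`, `isPiSystem_prod`), `D = two Ψ`, `Lm.rect`, `Integ.sq` -/
theorem Lm.ltwo (h : Dom Fn fn Ψ) (hG : Lm Fn Ψ G) (T : ℝ) :
    SW (mu4 T) (fun n => two (Fn n)) (two G) := by
  refine SW.of_pi (C := image2 (· ×ˢ ·) {s : Set (ℝ × R3) | MeasurableSet s}
      (image2 (· ×ˢ ·) {s : Set R3 | MeasurableSet s} {s : Set R3 | MeasurableSet s}))
    (generateFrom_eq_prod MeasurableSpace.generateFrom_measurableSet generateFrom_prod
      isCountablySpanning_measurableSet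
      (isCountablySpanning_measurableSet.prod isCountablySpanning_measurableSet)).symm
    (MeasurableSpace.isPiSystem_measurableSet.prod isPiSystem_prod) (liml4_fin h T) (liml4_le h T)
    (liml4_le' hG T) ?_ ?_
  · simp only [liml4_univ (h.mF _), liml4_univ hG.m]
    exact hG.rect h T .univ .univ _ .univ
  · rintro _ ⟨A, hA, _, ⟨B, hB, B', hB', rfl⟩, rfl⟩
    simp only [lint_two (h.mF _), lint_two hG.m]
    exact hG.rect h T hB hB' _ hA

/-- `SW.mul`; `∫ br v * br a * two Ψ = ∫ (∫ br Ψ)²` (`Integ.sq_br`) -/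
theorem Lm.ker (h : Dom Fn fn Ψ) (hG : Lm Fn Ψ G) (T : ℝ) {K : (ℝ × R3) × R3 × R3 → ℝ≥0∞}
    (hK : Measurable K) (hb : ∀ q, K q ≤ 7 * (br q.2.1 * br q.2.2)) :
    Tendsto (fun n => ∫⁻ q, K q * two (Fn n) q ∂mu4 T) atTop (𝓝 (∫⁻ q, K q * two G q ∂mu4 T)) := by
  refine (hG.ltwo h T).mul (fun n => (h.mF n).mtwo) hG.m.mtwo h.mΨ.mtwo (liml4_fin h T)
    (liml4_le h T) (liml4_le' hG T) hK ?_
  have hm : Meas fun t x v => br v * Ψ t x v :=
    (measurable_br.comp (measurable_snd.comp measurable_snd)).mul h.mΨ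
  have h1 : ∫⁻ q, two (fun t x v => br v * Ψ t x v) q ∂mu4 T ≠ ⊤ := by
    rw [liml4_univ hm, Measure.restrict_univ]
    simpa only [sq, rho, Measure.restrict_univ] using (h.iΨ T).sq_br
  refine ne_top_of_le_ne_top (ENNReal.mul_ne_top (by norm_num : (7 : ℝ≥0∞) ≠ ⊤) h1) ?_
  rw [← lintegral_const_mul _ hm.mtwo]
  refine lintegral_mono fun q => (mul_le_mul_left (hb q) _).trans (le_of_eq ?_)
  simp only [two]
  ring

private theorem liml4_mK {S : Set (ℝ × R3 × R3)} (hS : MeasurableSet S) :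
    Measurable fun q : (ℝ × R3) × R3 × R3 => ∫⁻ ω, Bk (q.2.1 - q.2.2) ω *
      S.indicator (1 : ℝ × R3 × R3 → ℝ≥0∞) (q.1.1, q.1.2, postVel q.2.1 q.2.2 ω) ∂sphereMeasure := by
  have h1 : Measurable (S.indicator (1 : ℝ × R3 × R3 → ℝ≥0∞)) := measurable_one.indicator hS
  have h2 : Measurable fun r : ((ℝ × R3) × R3 × R3) × R3 => Bk (r.1.2.1 - r.1.2.2) r.2 *
      S.indicator (1 : ℝ × R3 × R3 → ℝ≥0∞) (r.1.1.1, r.1.1.2, postVel r.1.2.1 r.1.2.2 r.2) :=
    Measurable.mul (by fun_prop) (h1.comp (by fun_prop))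
  exact h2.lintegral_prod_right'

private theorem liml4_mL {S : Set (ℝ × R3 × R3)} (hS : MeasurableSet S) :
    Measurable fun q : (ℝ × R3) × R3 × R3 =>
      Nn (q.2.1 - q.2.2) * S.indicator (1 : ℝ × R3 × R3 → ℝ≥0∞) (q.1.1, q.1.2, q.2.1) :=
  (measurable_Nn.comp (by fun_prop)).mul ((measurable_one.indicator hS).comp (by fun_prop))

private theorem liml4_ind {Θ : ℝ × R3 × R3 → ℝ≥0∞} (hm : Measurable Θ) (T : ℝ)
    {S : Set (ℝ × R3 × R3)} (hS : MeasurableSet S) :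
    ∫⁻ p in S, Θ p ∂mu3 T =
      ∫⁻ z, (∫⁻ v, S.indicator 1 (z.1, z.2, v) * Θ (z.1, z.2, v)) ∂mu2 T := by
  rw [← lintegral_indicator hS, lint3_z (hm.indicator hS)]
  refine lintegral_congr fun z => lintegral_congr fun v => ?_
  by_cases hp : (z.1, z.2, v) ∈ S <;> simp [hp]

/-- `lint3_z`, `Qp_weak` with `φ v = 1_S (t, x, v)` -/
theorem lint_gain (h : Meas F) (T : ℝ) {S : Set (ℝ × R3 × R3)} (hS : MeasurableSet S) :
    ∫⁻ p in S, un (gain F) p ∂mu3 T = ∫⁻ q, (∫⁻ ω, Bk (q.2.1 - q.2.2) ω *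
      S.indicator 1 (q.1.1, q.1.2, postVel q.2.1 q.2.2 ω) ∂sphereMeasure) * two F q ∂mu4 T := by
  rw [liml4_ind h.mgain T hS, liml4_lint ((liml4_mK hS).fun_mul h.mtwo)]
  refine lintegral_congr fun z => ?_
  have hφ : Measurable fun v : R3 => S.indicator (1 : ℝ × R3 × R3 → ℝ≥0∞) (z.1, z.2, v) :=
    (measurable_one.indicator hS).comp (by fun_prop)
  refine (Qp_weak (h.slice z.1 z.2) (h.slice z.1 z.2) hφ).trans ?_
  refine lintegral_congr fun v => lintegral_congr fun a => ?_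
  exact mul_comm _ _

theorem lint_loss (h : Meas F) (T : ℝ) {S : Set (ℝ × R3 × R3)} (hS : MeasurableSet S) :
    ∫⁻ p in S, un (loss F) p ∂mu3 T =
      ∫⁻ q, (Nn (q.2.1 - q.2.2) * S.indicator 1 (q.1.1, q.1.2, q.2.1)) * two F q ∂mu4 T := by
  rw [liml4_ind h.mloss T hS, liml4_lint ((liml4_mL hS).fun_mul h.mtwo)]
  refine lintegral_congr fun z => lintegral_congr fun v => ?_
  have hN := a0_measN (h.slice z.1 z.2) v
  simp only [loss, Nu, two]
  rw [← lintegral_mul_const _ hN, ← lintegral_const_mul _ (hN.mul_const _)]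
  refine lintegral_congr fun a => ?_
  ring

/-- `lint_gain`, `Lm.ker`, `Nn_le_br` -/
theorem Lm.lgain (h : Dom Fn fn Ψ) (hG : Lm Fn Ψ G) (T : ℝ) :
    SW (mu3 T) (fun n => un (gain (Fn n))) (un (gain G)) := by
  intro S hS
  simp only [lint_gain (h.mF _) T hS, lint_gain hG.m T hS]
  refine hG.ker h T (liml4_mK hS) fun q => le_trans ?_ (Nn_le_br _ _)
  refine lintegral_mono fun ω => ?_
  exact mul_le_of_le_one_right' (indicator_le_self' (fun _ _ => zero_le_one) _)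

theorem Lm.lloss (h : Dom Fn fn Ψ) (hG : Lm Fn Ψ G) (T : ℝ) :
    SW (mu3 T) (fun n => un (loss (Fn n))) (un (loss G)) := by
  intro S hS
  simp only [lint_loss (h.mF _) T hS, lint_loss hG.m T hS]
  refine hG.ker h T (liml4_mL hS) fun q => le_trans ?_ (Nn_le_br _ _)
  exact mul_le_of_le_one_right' (indicator_le_self' (fun _ _ => zero_le_one) _)

end

end Crest.Agent.R68
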