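import Crest.Agent.R68.EEx
import Crest.Agent.R68.ELoud
import Crest.Agent.R68.EQuiet
import Crest.Agent.R68.EInt
import Crest.Agent.R68.ESg3
import Crest.Agent.R68.EPsi
import Crest.Agent.R68.EEnt
import Crest.Agent.R68.Guo
import Crest.Agent.R68.Lim
import Crest.Agent.R68.Soft

/-!
# R68 (S0091): assembly
-/

set_option autoImplicit false

namespace Crest.Agent.R68

open MeasureTheory Set Filter Crest.AnalysisR.VecCalc3 Crest.AnalysisR.PDE.Boltzmann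
open scoped ENNReal _root_.Topology

noncomputable section

/-- global solutions of the untruncated problem below `Psi` -/
theorem glob_good : ∀ᶠ P in 𝓕, ∀ α ∈ Icc 0 (3 * P.a * P.mm 0), ∀ F, P.Glob (2 * P.a) α F →
    (∀ t ∈ Icc 0 P.T₁, ∀ x v, F t x v ≤ P.Pe (2 * P.a) t x v) →
    (∀ t x v, 0 < t → F t x v ≤ P.Psi t x v) ∧ ∀ T y v, AM F (P.f0 α) T y v := by
  obtain ⟨C, hC⟩ := sgHyp
  have hg := lift4 (p := fun Q : P4 => ∀ (Sg F lo hi : PF) (f : XF) (T₁ R : ℝ) (n : ℝ≥0∞), n ≠ ⊤ →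
    0 < T₁ → T₁ ≤ Q.τ → SgHyp C Q.τ Q.η T₁ Sg → Meas F → Per F → (∀ t x v, F t x v ≠ ⊤) →
    Meas lo → Meas hi → Per lo → Per hi →
    (∀ t x v, 0 < t → hi t x v ≤ n * Gs (1 / 5) v) →
    (∀ t, T₁ < t → ∀ x v, hi t x v = Mx v + Wl Q.ν Q.b Q.τ Sg t x v ∧
      lo t x v = Mx v - Wl Q.ν Q.b Q.τ Sg t x v) →
    (∀ T, Mild F (clamp lo hi F) f T) →
    (∀ t ∈ Ioc 0 T₁, ∀ x v, lo t x v ≤ F t x v ∧ F t x v ≤ hi t x v) →
    (∀ x v, f x v ≠ ⊤) → IsAdmissibleDatum (tX f) R → relEntropy (tX f) ≤ ENNReal.ofReal Q.η →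
    (∀ x v, Near (F T₁ x v) (Mx v) (Sg T₁ x v + ENNReal.ofReal Q.η * Gs (1 / 4) v)) →
    ∀ t, 0 < t → ∀ x v, lo t x v ≤ F t x v ∧ F t x v ≤ hi t x v)
    (ev4.2 (ev3.2 (ev2.2 (ev1.2 (Eventually.of_forall fun _ => guo C)))))
  filter_upwards [ev_ok, hC, hg, Pp_le_Gs, Pp_le_Psi, a_mm_le, entropy_f0, interface_up,
    interface_low] with P h hS hguo hn hPsi hamm hent hup hlow α hα F hG hle
  obtain ⟨n, hn, hPp, -⟩ := hn
  have ha : 2 * P.a ∈ Icc 0 (2 * P.a) := ⟨by linarith [h.a_pos], le_rfl⟩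
  have hα1 : α ∈ Icc (0 : ℝ) 1 := by
    refine ⟨hα.1, hα.2.trans ((hamm 0 ⟨le_rfl, h.T₁_pos.le⟩).trans ?_)⟩
    linarith [h.e₀_le, h.L_le']
  have hsol := hG.sol h hle hα
  have hin := hguo P.Sg F P.Pm (P.Pp (2 * P.a)) (P.f0 α) P.T₁ _ n hn h.T₁_pos h.T₁_le_τ hS
    hG.meas hG.per hG.fin P.meas_Pm (P.meas_Pp _) P.per_Pm (P.per_Pp _) (hPp _ ha)
    (fun t ht x v => by simp only [Par.Pp, Par.Pm, if_neg (not_le.2 ht), and_self])
    hG.mild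
    (fun t ht x v => by
      simp only [Par.Pp, Par.Pm, if_pos ht.2]
      exact ⟨zero_le, hle t ⟨ht.1.le, ht.2⟩ x v⟩)
    (P.f0_ne_top α) (h.adm_f0 hα1) (hent α hα1)
    (fun x v => ⟨hup α F hsol x v, hlow α F hsol x v⟩)
  refine ⟨fun t x v ht => (hin t ht x v).2.trans (hPsi t x v ht), fun T y v => ?_⟩
  have hm : Mild F F (P.f0 α) T :=
    (hG.mild T).congr fun s hs x v => clamp_eq (hin s hs.1 x v).1 (hin s hs.1 x v).2
  exact (hm.am_of_le hn hG.meas fun t ht x v =>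
    (hin t ht.1 x v).2.trans (hPp _ ha t x v ht.1)).1 y v

/-- what is needed from an approximate solution -/
def Appr (P : Par) (S : ℝ≥0∞ → Prop) : Prop :=
  ∃ (f : XF) (F : PF), MeasX f ∧ Meas F ∧ Per F ∧ (∀ t x v, 0 < t → F t x v ≤ P.Psi t x v) ∧
    (∀ T y v, AM F f T y v) ∧
    (∫⁻ q in cell ×ˢ (univ : Set R3), ((f q.1 q.2 - P.fL q.1 q.2) + (P.fL q.1 q.2 - f q.1 q.2)) ≤
      ENNReal.ofReal √P.r) ∧
    S (∫⁻ p in P.GS, Qp (F p.1 p.2.1) (F p.1 p.2.1) p.2.2)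

theorem appr_both : ∀ᶠ P in 𝓕, P.Ok ∧
    Appr P (fun z => ENNReal.ofReal (P.r₀ ^ (P.μ + 10)) ≤ z) ∧
    Appr P (fun z => z ≤ ENNReal.ofReal (P.r₀ ^ (P.μ + 10) / 2)) := by
  filter_upwards [ev_ok, glob_good, exists_loud, loud, exists_glob, glob_zero_le, quiet, f0_sub_fL,
    a_mm_le] with P h hgood hex hloud hglob hzero hquiet hL1 hamm
  have ha : 2 * P.a ∈ Icc 0 (2 * P.a) := ⟨by linarith [h.a_pos], le_rfl⟩
  have h1 : 3 * P.a * P.mm 0 ≤ 1 := by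
    refine (hamm 0 ⟨le_rfl, h.T₁_pos.le⟩).trans ?_
    linarith [h.e₀_le, h.L_le']
  refine ⟨h, ?_, ?_⟩
  · obtain ⟨α, hα, F, hG, hle, hb, hnb⟩ := hex
    obtain ⟨g1, g2⟩ := hgood α hα F hG hle
    exact ⟨_, F, P.measX_f0 α, hG.meas, hG.per, g1, g2, hL1 α ⟨hα.1, hα.2.trans h1⟩,
      hloud α F (hG.sol h hle hα) hb hnb⟩
  · obtain ⟨F, hG⟩ := hglob _ ha 0 ⟨le_rfl, zero_le_one⟩
    have h0 := hzero F hG
    have hp := h.a_pos
    have hm := h.mm_pos (le_refl 0)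
    obtain ⟨g1, g2⟩ := hgood 0 ⟨le_rfl, by positivity⟩ F hG
      fun t ht x v => (h0 t ht x v).trans (h.Pe_mono ha.1 ht.1 x v)
    exact ⟨_, F, P.measX_f0 0, hG.meas, hG.per, g1, g2, hL1 0 ⟨le_rfl, zero_le_one⟩, hquiet F h0⟩

theorem appr_limit {Q : Qar} {r : ℕ → ℝ} (hr : Tendsto r atTop (𝓝[>] 0))
    (h : Par.Ok ⟨Q, r 0⟩) {S : ℝ≥0∞ → Prop} (hS : IsClosed {z | S z})
    (hA : ∀ n, Appr ⟨Q, r n⟩ S) :
    ∃ F : PF, Meas F ∧ (∀ t x v, F t x v ≠ ⊤) ∧ IsGlobalSolution (tR F) (tX Q.fL) ∧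
      S (∫⁻ p in Q.GS, Qp (F p.1 p.2.1) (F p.1 p.2.1) p.2.2) := by
  choose fn Fn mf mF pF hle hAM hL1 hSn using hA
  have hc : Tendsto (fun n => ENNReal.ofReal √(r n)) atTop (𝓝 0) := by
    have h1 : Tendsto (fun n => √(r n)) atTop (𝓝 √0) :=
      (Real.continuous_sqrt.tendsto 0).comp (hr.mono_right nhdsWithin_le_nhds)
    have h2 := ENNReal.tendsto_ofReal h1
    simpa using h2
  obtain ⟨φ, -, F, m, p, fin, h0, am, ig, conv⟩ := limit (Fn := Fn) (fn := fn) (f := Q.fL)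
    (Ψ := Q.Psi) (meas_Psi Q) (per_Psi Q) h.integ_Psi mF pF hle mf (measX_fL Q) (perX_fL Q)
    Q.fL_ne_top h.lintegral_fL hAM
    (tendsto_of_tendsto_of_tendsto_of_le_of_le tendsto_const_nhds hc (fun _ => zero_le) hL1)
  refine ⟨F, m, fin, soft m p fin h0 h.adm_fL am ig, ?_⟩
  exact hS.mem_of_tendsto (conv Q.T' Q.GS (measurableSet_GS Q) inter_subset_left)
    (Eventually.of_forall fun n => hSn (φ n))

theorem lintegral_Qp_congr {F G : PF} (hF : Meas F) (hG : Meas G) (fF : ∀ t x v, F t x v ≠ ⊤)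
    (fG : ∀ t x v, G t x v ≠ ⊤)
    (h : volume {p : ℝ × R3 × R3 | p ∈ region ∧ tR F p.1 p.2.1 p.2.2 ≠ tR G p.1 p.2.1 p.2.2} = 0)
    {A : Set (ℝ × R3 × R3)} (hA : MeasurableSet A) {T : ℝ} (hAT : A ⊆ Om3 T) :
    ∫⁻ p in A, Qp (F p.1 p.2.1) (F p.1 p.2.1) p.2.2 =
      ∫⁻ p in A, Qp (G p.1 p.2.1) (G p.1 p.2.1) p.2.2 := by
  have h1 : ∀ᵐ p : ℝ × R3 × R3, p ∈ region → F p.1 p.2.1 p.2.2 = G p.1 p.2.1 p.2.2 := by
    filter_upwards [measure_eq_zero_iff_ae_notMem.1 h] with p hp hr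
    by_contra hne
    exact hp ⟨hr, fun he => hne ((ENNReal.toReal_eq_toReal_iff' (fF _ _ _) (fG _ _ _)).1 he)⟩
  have h2 := Measure.ae_ae_of_ae_prod (μ := volume) (ν := volume) h1
  have mF : Measurable fun p : ℝ × R3 × R3 => Qp (F p.1 p.2.1) (F p.1 p.2.1) p.2.2 := hF.Qp hF
  have mG : Measurable fun p : ℝ × R3 × R3 => Qp (G p.1 p.2.1) (G p.1 p.2.1) p.2.2 := hG.Qp hG
  rw [← lintegral_indicator hA, ← lintegral_indicator hA, Measure.volume_eq_prod,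
    lintegral_prod _ (mF.indicator hA).aemeasurable, lintegral_prod _ (mG.indicator hA).aemeasurable]
  refine lintegral_congr_ae ?_
  filter_upwards [h2] with t ht
  have h3 := Measure.ae_ae_of_ae_prod (μ := volume) (ν := volume) ht
  have e1 : Measurable fun y : R3 × R3 => A.indicator
      (fun p : ℝ × R3 × R3 => Qp (F p.1 p.2.1) (F p.1 p.2.1) p.2.2) (t, y) :=
    (mF.indicator hA).comp measurable_prodMk_left
  have e2 : Measurable fun y : R3 × R3 => A.indicator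
      (fun p : ℝ × R3 × R3 => Qp (G p.1 p.2.1) (G p.1 p.2.1) p.2.2) (t, y) :=
    (mG.indicator hA).comp measurable_prodMk_left
  rw [Measure.volume_eq_prod, lintegral_prod _ e1.aemeasurable, lintegral_prod _ e2.aemeasurable]
  refine lintegral_congr_ae ?_
  filter_upwards [h3] with x hx
  refine lintegral_congr fun v => ?_
  by_cases hv : (t, x, v) ∈ A
  · have hm := hAT hv
    have he : F t x =ᵐ[volume] G t x := by
      filter_upwards [hx] with a ha using ha ⟨hm.1.1, hm.2.1, mem_univ _⟩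
    simp only [indicator_of_mem hv]
    exact Qp_congr_ae (hF.slice t x) (hG.slice t x) (hF.slice t x) (hG.slice t x) he he v
  · simp only [indicator_of_notMem hv]

theorem main : ∃ R : ℝ, ∃ F₀ : R3 → R3 → ℝ, IsAdmissibleDatum F₀ R ∧
    ∃ F₁ F₂ : ℝ → R3 → R3 → ℝ, IsGlobalSolution F₁ F₀ ∧ IsGlobalSolution F₂ F₀ ∧
      0 < volume {p : ℝ × R3 × R3 | p ∈ region ∧ F₁ p.1 p.2.1 p.2.2 ≠ F₂ p.1 p.2.1 p.2.2} := by
  obtain ⟨Q, hQ⟩ := (ev20.1 appr_both).exists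
  obtain ⟨r, hr, hP⟩ := exists_seq_forall_of_frequently hQ.frequently
  have h := (hP 0).1
  obtain ⟨F₁, m₁, f₁, s₁, b₁⟩ := appr_limit hr h
    (S := fun z => ENNReal.ofReal (Q.r₀ ^ (Q.μ + 10)) ≤ z) isClosed_Ici fun n => (hP n).2.1
  obtain ⟨F₂, m₂, f₂, s₂, b₂⟩ := appr_limit hr h
    (S := fun z => z ≤ ENNReal.ofReal (Q.r₀ ^ (Q.μ + 10) / 2)) isClosed_Iic fun n => (hP n).2.2
  refine ⟨_, _, h.adm_fL, _, _, s₁, s₂, pos_iff_ne_zero.2 fun h0 => ?_⟩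
  have he := lintegral_Qp_congr m₁ m₂ f₁ f₂ h0 (measurableSet_GS Q) inter_subset_left
  have hp : 0 < Q.r₀ ^ (Q.μ + 10) := pow_pos h.r₀_pos _
  have hle := b₁.trans (he.trans_le b₂)
  rw [ENNReal.ofReal_le_ofReal_iff (by positivity)] at hle
  linarith

end

end Crest.Agent.R68
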