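import Crest.Agent.R68.Def

/-!
# R68 (S0091): the hierarchy of parameters

The parameters are chosen one after the other, in the order
`ν b τ η` (small) `R` (large) `r₁` (small) `Γ : ℕ, U` (large) `κ₀ δ₀ L` (small) `A` (large)
`δ₁` (small) `N m : ℕ, C₃ C₄` (large) `T₁ r₀ r` (small).  `∀ᶠ P in 𝓕, p P` means: `p` holds when
every parameter is small/large enough depending on the earlier ones.  `Qar` is `Par` without `r`.

Tools (`Pk` is the structure of the parameters before the one in question):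
* `big_X g : ∀ᶠ P in 𝓕, g P.toPk ≤ P.X` for a large parameter `X`;
* `small_X g hc : ∀ᶠ P in 𝓕, g P.toPk * P.X ^ c ≤ 1` (`rpow`, `0 < c`) and
  `le_X g : ∀ᶠ P in 𝓕, 0 < P.X ∧ (0 < g P.toPk → P.X ≤ g P.toPk)` for a small one;
* `ev_X φ h` for an arbitrary eventual property.
Typical use: `filter_upwards [ev_ok, small_r0 (fun Q => 100 * Q.A * Q.N) (c := 1/800) (by norm_num)]
with P hP h1` (then `h1 : 100 * P.A * P.N * P.r₀ ^ (1/800) ≤ 1` up to `simp only []`/`change`).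
-/

set_option autoImplicit false

namespace Crest.Agent.R68

open MeasureTheory Set Filter Crest.AnalysisR.VecCalc3 Crest.AnalysisR.PDE.Boltzmann
open scoped ENNReal _root_.Topology

noncomputable section

/-- the empty list of parameters -/
structure P0 where

/-- level `0` -/
def F0 : Filter P0 := ⊤

instance : Nonempty P0 := ⟨⟨⟩⟩

instance : NeBot F0 := by unfold F0; infer_instance

/-- parameters up to `ν` -/
structure P1 extends P0 where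
  /-- parameter -/
  ν : ℝ

/-- first the earlier parameters, then `ν` -/
@[irreducible] def F1 : Filter P1 := map (fun q : P0 × ℝ => ⟨q.1, q.2⟩) ((F0).curry (𝓝[>] (0 : ℝ)))

theorem ev1 {p : P1 → Prop} : (∀ᶠ P in F1, p P) ↔ ∀ᶠ Q in F0, ∀ᶠ x in 𝓝[>] (0 : ℝ), p ⟨Q, x⟩ := by
  unfold F1; rw [eventually_map, eventually_curry_iff]

instance : NeBot F1 := ⟨fun h => by
  have h1 : ∀ᶠ P in F1, False := by rw [h]; exact eventually_bot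
  obtain ⟨_, h2⟩ := (ev1.1 h1).exists
  exact h2.exists.elim fun _ h => h⟩

/-- parameters up to `b` -/
structure P2 extends P1 where
  /-- parameter -/
  b : ℝ

/-- first the earlier parameters, then `b` -/
@[irreducible] def F2 : Filter P2 := map (fun q : P1 × ℝ => ⟨q.1, q.2⟩) ((F1).curry (𝓝[>] (0 : ℝ)))

theorem ev2 {p : P2 → Prop} : (∀ᶠ P in F2, p P) ↔ ∀ᶠ Q in F1, ∀ᶠ x in 𝓝[>] (0 : ℝ), p ⟨Q, x⟩ := by
  unfold F2; rw [eventually_map, eventually_curry_iff]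

instance : NeBot F2 := ⟨fun h => by
  have h1 : ∀ᶠ P in F2, False := by rw [h]; exact eventually_bot
  obtain ⟨_, h2⟩ := (ev2.1 h1).exists
  exact h2.exists.elim fun _ h => h⟩

/-- parameters up to `τ` -/
structure P3 extends P2 where
  /-- parameter -/
  τ : ℝ

/-- first the earlier parameters, then `τ` -/
@[irreducible] def F3 : Filter P3 := map (fun q : P2 × ℝ => ⟨q.1, q.2⟩) ((F2).curry (𝓝[>] (0 : ℝ)))

theorem ev3 {p : P3 → Prop} : (∀ᶠ P in F3, p P) ↔ ∀ᶠ Q in F2, ∀ᶠ x in 𝓝[>] (0 : ℝ), p ⟨Q, x⟩ := by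
  unfold F3; rw [eventually_map, eventually_curry_iff]

instance : NeBot F3 := ⟨fun h => by
  have h1 : ∀ᶠ P in F3, False := by rw [h]; exact eventually_bot
  obtain ⟨_, h2⟩ := (ev3.1 h1).exists
  exact h2.exists.elim fun _ h => h⟩

/-- parameters up to `η` -/
structure P4 extends P3 where
  /-- parameter -/
  η : ℝ

/-- first the earlier parameters, then `η` -/
@[irreducible] def F4 : Filter P4 := map (fun q : P3 × ℝ => ⟨q.1, q.2⟩) ((F3).curry (𝓝[>] (0 : ℝ)))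

theorem ev4 {p : P4 → Prop} : (∀ᶠ P in F4, p P) ↔ ∀ᶠ Q in F3, ∀ᶠ x in 𝓝[>] (0 : ℝ), p ⟨Q, x⟩ := by
  unfold F4; rw [eventually_map, eventually_curry_iff]

instance : NeBot F4 := ⟨fun h => by
  have h1 : ∀ᶠ P in F4, False := by rw [h]; exact eventually_bot
  obtain ⟨_, h2⟩ := (ev4.1 h1).exists
  exact h2.exists.elim fun _ h => h⟩

/-- parameters up to `R` -/
structure P5 extends P4 where
  /-- parameter -/
  R : ℝ

/-- first the earlier parameters, then `R` -/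
@[irreducible] def F5 : Filter P5 := map (fun q : P4 × ℝ => ⟨q.1, q.2⟩) ((F4).curry ((atTop : Filter ℝ)))

theorem ev5 {p : P5 → Prop} : (∀ᶠ P in F5, p P) ↔ ∀ᶠ Q in F4, ∀ᶠ x in (atTop : Filter ℝ), p ⟨Q, x⟩ := by
  unfold F5; rw [eventually_map, eventually_curry_iff]

instance : NeBot F5 := ⟨fun h => by
  have h1 : ∀ᶠ P in F5, False := by rw [h]; exact eventually_bot
  obtain ⟨_, h2⟩ := (ev5.1 h1).exists
  exact h2.exists.elim fun _ h => h⟩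

/-- parameters up to `r₁` -/
structure P6 extends P5 where
  /-- parameter -/
  r₁ : ℝ

/-- first the earlier parameters, then `r₁` -/
@[irreducible] def F6 : Filter P6 := map (fun q : P5 × ℝ => ⟨q.1, q.2⟩) ((F5).curry (𝓝[>] (0 : ℝ)))

theorem ev6 {p : P6 → Prop} : (∀ᶠ P in F6, p P) ↔ ∀ᶠ Q in F5, ∀ᶠ x in 𝓝[>] (0 : ℝ), p ⟨Q, x⟩ := by
  unfold F6; rw [eventually_map, eventually_curry_iff]

instance : NeBot F6 := ⟨fun h => by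
  have h1 : ∀ᶠ P in F6, False := by rw [h]; exact eventually_bot
  obtain ⟨_, h2⟩ := (ev6.1 h1).exists
  exact h2.exists.elim fun _ h => h⟩

/-- parameters up to `Γ` -/
structure P7 extends P6 where
  /-- parameter -/
  Γ : ℕ

/-- first the earlier parameters, then `Γ` -/
@[irreducible] def F7 : Filter P7 := map (fun q : P6 × ℕ => ⟨q.1, q.2⟩) ((F6).curry ((atTop : Filter ℕ)))

theorem ev7 {p : P7 → Prop} : (∀ᶠ P in F7, p P) ↔ ∀ᶠ Q in F6, ∀ᶠ x in (atTop : Filter ℕ), p ⟨Q, x⟩ := by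
  unfold F7; rw [eventually_map, eventually_curry_iff]

instance : NeBot F7 := ⟨fun h => by
  have h1 : ∀ᶠ P in F7, False := by rw [h]; exact eventually_bot
  obtain ⟨_, h2⟩ := (ev7.1 h1).exists
  exact h2.exists.elim fun _ h => h⟩

/-- parameters up to `U` -/
structure P8 extends P7 where
  /-- parameter -/
  U : ℝ

/-- first the earlier parameters, then `U` -/
@[irreducible] def F8 : Filter P8 := map (fun q : P7 × ℝ => ⟨q.1, q.2⟩) ((F7).curry ((atTop : Filter ℝ)))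

theorem ev8 {p : P8 → Prop} : (∀ᶠ P in F8, p P) ↔ ∀ᶠ Q in F7, ∀ᶠ x in (atTop : Filter ℝ), p ⟨Q, x⟩ := by
  unfold F8; rw [eventually_map, eventually_curry_iff]

instance : NeBot F8 := ⟨fun h => by
  have h1 : ∀ᶠ P in F8, False := by rw [h]; exact eventually_bot
  obtain ⟨_, h2⟩ := (ev8.1 h1).exists
  exact h2.exists.elim fun _ h => h⟩

/-- parameters up to `κ₀` -/
structure P9 extends P8 where
  /-- parameter -/
  κ₀ : ℝ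

/-- first the earlier parameters, then `κ₀` -/
@[irreducible] def F9 : Filter P9 := map (fun q : P8 × ℝ => ⟨q.1, q.2⟩) ((F8).curry (𝓝[>] (0 : ℝ)))

theorem ev9 {p : P9 → Prop} : (∀ᶠ P in F9, p P) ↔ ∀ᶠ Q in F8, ∀ᶠ x in 𝓝[>] (0 : ℝ), p ⟨Q, x⟩ := by
  unfold F9; rw [eventually_map, eventually_curry_iff]

instance : NeBot F9 := ⟨fun h => by
  have h1 : ∀ᶠ P in F9, False := by rw [h]; exact eventually_bot
  obtain ⟨_, h2⟩ := (ev9.1 h1).exists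
  exact h2.exists.elim fun _ h => h⟩

/-- parameters up to `δ₀` -/
structure P10 extends P9 where
  /-- parameter -/
  δ₀ : ℝ

/-- first the earlier parameters, then `δ₀` -/
@[irreducible] def F10 : Filter P10 := map (fun q : P9 × ℝ => ⟨q.1, q.2⟩) ((F9).curry (𝓝[>] (0 : ℝ)))

theorem ev10 {p : P10 → Prop} : (∀ᶠ P in F10, p P) ↔ ∀ᶠ Q in F9, ∀ᶠ x in 𝓝[>] (0 : ℝ), p ⟨Q, x⟩ := by
  unfold F10; rw [eventually_map, eventually_curry_iff]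

instance : NeBot F10 := ⟨fun h => by
  have h1 : ∀ᶠ P in F10, False := by rw [h]; exact eventually_bot
  obtain ⟨_, h2⟩ := (ev10.1 h1).exists
  exact h2.exists.elim fun _ h => h⟩

/-- parameters up to `L` -/
structure P11 extends P10 where
  /-- parameter -/
  L : ℝ

/-- first the earlier parameters, then `L` -/
@[irreducible] def F11 : Filter P11 := map (fun q : P10 × ℝ => ⟨q.1, q.2⟩) ((F10).curry (𝓝[>] (0 : ℝ)))

theorem ev11 {p : P11 → Prop} : (∀ᶠ P in F11, p P) ↔ ∀ᶠ Q in F10, ∀ᶠ x in 𝓝[>] (0 : ℝ), p ⟨Q, x⟩ := by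
  unfold F11; rw [eventually_map, eventually_curry_iff]

instance : NeBot F11 := ⟨fun h => by
  have h1 : ∀ᶠ P in F11, False := by rw [h]; exact eventually_bot
  obtain ⟨_, h2⟩ := (ev11.1 h1).exists
  exact h2.exists.elim fun _ h => h⟩

/-- parameters up to `A` -/
structure P12 extends P11 where
  /-- parameter -/
  A : ℝ

/-- first the earlier parameters, then `A` -/
@[irreducible] def F12 : Filter P12 := map (fun q : P11 × ℝ => ⟨q.1, q.2⟩) ((F11).curry ((atTop : Filter ℝ)))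

theorem ev12 {p : P12 → Prop} : (∀ᶠ P in F12, p P) ↔ ∀ᶠ Q in F11, ∀ᶠ x in (atTop : Filter ℝ), p ⟨Q, x⟩ := by
  unfold F12; rw [eventually_map, eventually_curry_iff]

instance : NeBot F12 := ⟨fun h => by
  have h1 : ∀ᶠ P in F12, False := by rw [h]; exact eventually_bot
  obtain ⟨_, h2⟩ := (ev12.1 h1).exists
  exact h2.exists.elim fun _ h => h⟩

/-- parameters up to `δ₁` -/
structure P13 extends P12 where
  /-- parameter -/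
  δ₁ : ℝ

/-- first the earlier parameters, then `δ₁` -/
@[irreducible] def F13 : Filter P13 := map (fun q : P12 × ℝ => ⟨q.1, q.2⟩) ((F12).curry (𝓝[>] (0 : ℝ)))

theorem ev13 {p : P13 → Prop} : (∀ᶠ P in F13, p P) ↔ ∀ᶠ Q in F12, ∀ᶠ x in 𝓝[>] (0 : ℝ), p ⟨Q, x⟩ := by
  unfold F13; rw [eventually_map, eventually_curry_iff]

instance : NeBot F13 := ⟨fun h => by
  have h1 : ∀ᶠ P in F13, False := by rw [h]; exact eventually_bot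
  obtain ⟨_, h2⟩ := (ev13.1 h1).exists
  exact h2.exists.elim fun _ h => h⟩

/-- parameters up to `N` -/
structure P14 extends P13 where
  /-- parameter -/
  N : ℕ

/-- first the earlier parameters, then `N` -/
@[irreducible] def F14 : Filter P14 := map (fun q : P13 × ℕ => ⟨q.1, q.2⟩) ((F13).curry ((atTop : Filter ℕ)))

theorem ev14 {p : P14 → Prop} : (∀ᶠ P in F14, p P) ↔ ∀ᶠ Q in F13, ∀ᶠ x in (atTop : Filter ℕ), p ⟨Q, x⟩ := by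
  unfold F14; rw [eventually_map, eventually_curry_iff]

instance : NeBot F14 := ⟨fun h => by
  have h1 : ∀ᶠ P in F14, False := by rw [h]; exact eventually_bot
  obtain ⟨_, h2⟩ := (ev14.1 h1).exists
  exact h2.exists.elim fun _ h => h⟩

/-- parameters up to `m` -/
structure P15 extends P14 where
  /-- parameter -/
  m : ℕ

/-- first the earlier parameters, then `m` -/
@[irreducible] def F15 : Filter P15 := map (fun q : P14 × ℕ => ⟨q.1, q.2⟩) ((F14).curry ((atTop : Filter ℕ)))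

theorem ev15 {p : P15 → Prop} : (∀ᶠ P in F15, p P) ↔ ∀ᶠ Q in F14, ∀ᶠ x in (atTop : Filter ℕ), p ⟨Q, x⟩ := by
  unfold F15; rw [eventually_map, eventually_curry_iff]

instance : NeBot F15 := ⟨fun h => by
  have h1 : ∀ᶠ P in F15, False := by rw [h]; exact eventually_bot
  obtain ⟨_, h2⟩ := (ev15.1 h1).exists
  exact h2.exists.elim fun _ h => h⟩

/-- parameters up to `C₃` -/
structure P16 extends P15 where
  /-- parameter -/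
  C₃ : ℝ

/-- first the earlier parameters, then `C₃` -/
@[irreducible] def F16 : Filter P16 := map (fun q : P15 × ℝ => ⟨q.1, q.2⟩) ((F15).curry ((atTop : Filter ℝ)))

theorem ev16 {p : P16 → Prop} : (∀ᶠ P in F16, p P) ↔ ∀ᶠ Q in F15, ∀ᶠ x in (atTop : Filter ℝ), p ⟨Q, x⟩ := by
  unfold F16; rw [eventually_map, eventually_curry_iff]

instance : NeBot F16 := ⟨fun h => by
  have h1 : ∀ᶠ P in F16, False := by rw [h]; exact eventually_bot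
  obtain ⟨_, h2⟩ := (ev16.1 h1).exists
  exact h2.exists.elim fun _ h => h⟩

/-- parameters up to `C₄` -/
structure P17 extends P16 where
  /-- parameter -/
  C₄ : ℝ

/-- first the earlier parameters, then `C₄` -/
@[irreducible] def F17 : Filter P17 := map (fun q : P16 × ℝ => ⟨q.1, q.2⟩) ((F16).curry ((atTop : Filter ℝ)))

theorem ev17 {p : P17 → Prop} : (∀ᶠ P in F17, p P) ↔ ∀ᶠ Q in F16, ∀ᶠ x in (atTop : Filter ℝ), p ⟨Q, x⟩ := by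
  unfold F17; rw [eventually_map, eventually_curry_iff]

instance : NeBot F17 := ⟨fun h => by
  have h1 : ∀ᶠ P in F17, False := by rw [h]; exact eventually_bot
  obtain ⟨_, h2⟩ := (ev17.1 h1).exists
  exact h2.exists.elim fun _ h => h⟩

/-- parameters up to `T₁` -/
structure P18 extends P17 where
  /-- parameter -/
  T₁ : ℝ

/-- first the earlier parameters, then `T₁` -/
@[irreducible] def F18 : Filter P18 := map (fun q : P17 × ℝ => ⟨q.1, q.2⟩) ((F17).curry (𝓝[>] (0 : ℝ)))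

theorem ev18 {p : P18 → Prop} : (∀ᶠ P in F18, p P) ↔ ∀ᶠ Q in F17, ∀ᶠ x in 𝓝[>] (0 : ℝ), p ⟨Q, x⟩ := by
  unfold F18; rw [eventually_map, eventually_curry_iff]

instance : NeBot F18 := ⟨fun h => by
  have h1 : ∀ᶠ P in F18, False := by rw [h]; exact eventually_bot
  obtain ⟨_, h2⟩ := (ev18.1 h1).exists
  exact h2.exists.elim fun _ h => h⟩

/-- parameters up to `r₀` -/
structure Qar extends P18 where
  /-- parameter -/
  r₀ : ℝ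

/-- first the earlier parameters, then `r₀` -/
@[irreducible] def 𝓖 : Filter Qar := map (fun q : P18 × ℝ => ⟨q.1, q.2⟩) ((F18).curry (𝓝[>] (0 : ℝ)))

theorem ev19 {p : Qar → Prop} : (∀ᶠ P in 𝓖, p P) ↔ ∀ᶠ Q in F18, ∀ᶠ x in 𝓝[>] (0 : ℝ), p ⟨Q, x⟩ := by
  unfold 𝓖; rw [eventually_map, eventually_curry_iff]

instance : NeBot 𝓖 := ⟨fun h => by
  have h1 : ∀ᶠ P in 𝓖, False := by rw [h]; exact eventually_bot
  obtain ⟨_, h2⟩ := (ev19.1 h1).exists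
  exact h2.exists.elim fun _ h => h⟩

/-- parameters up to `r` -/
structure Par extends Qar where
  /-- parameter -/
  r : ℝ

/-- first the earlier parameters, then `r` -/
@[irreducible] def 𝓕 : Filter Par := map (fun q : Qar × ℝ => ⟨q.1, q.2⟩) ((𝓖).curry (𝓝[>] (0 : ℝ)))

theorem ev20 {p : Par → Prop} : (∀ᶠ P in 𝓕, p P) ↔ ∀ᶠ Q in 𝓖, ∀ᶠ x in 𝓝[>] (0 : ℝ), p ⟨Q, x⟩ := by
  unfold 𝓕; rw [eventually_map, eventually_curry_iff]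

instance : NeBot 𝓕 := ⟨fun h => by
  have h1 : ∀ᶠ P in 𝓕, False := by rw [h]; exact eventually_bot
  obtain ⟨_, h2⟩ := (ev20.1 h1).exists
  exact h2.exists.elim fun _ h => h⟩

theorem lift20 {p : Par → Prop} (h : ∀ᶠ P in 𝓕, p P) : ∀ᶠ P in 𝓕, p P := h

theorem lift19 {p : Qar → Prop} (h : ∀ᶠ Q in 𝓖, p Q) : ∀ᶠ P in 𝓕, p P.toQar :=
  ev20.2 (h.mono fun _ h => Eventually.of_forall fun _ => h)

theorem lift18 {p : P18 → Prop} (h : ∀ᶠ Q in F18, p Q) : ∀ᶠ P in 𝓕, p P.toP18 :=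
  lift19 (p := fun Q => p Q.toP18) (ev19.2 (h.mono fun _ h => Eventually.of_forall fun _ => h))

theorem lift17 {p : P17 → Prop} (h : ∀ᶠ Q in F17, p Q) : ∀ᶠ P in 𝓕, p P.toP17 :=
  lift18 (p := fun Q => p Q.toP17) (ev18.2 (h.mono fun _ h => Eventually.of_forall fun _ => h))

theorem lift16 {p : P16 → Prop} (h : ∀ᶠ Q in F16, p Q) : ∀ᶠ P in 𝓕, p P.toP16 :=
  lift17 (p := fun Q => p Q.toP16) (ev17.2 (h.mono fun _ h => Eventually.of_forall fun _ => h))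

theorem lift15 {p : P15 → Prop} (h : ∀ᶠ Q in F15, p Q) : ∀ᶠ P in 𝓕, p P.toP15 :=
  lift16 (p := fun Q => p Q.toP15) (ev16.2 (h.mono fun _ h => Eventually.of_forall fun _ => h))

theorem lift14 {p : P14 → Prop} (h : ∀ᶠ Q in F14, p Q) : ∀ᶠ P in 𝓕, p P.toP14 :=
  lift15 (p := fun Q => p Q.toP14) (ev15.2 (h.mono fun _ h => Eventually.of_forall fun _ => h))

theorem lift13 {p : P13 → Prop} (h : ∀ᶠ Q in F13, p Q) : ∀ᶠ P in 𝓕, p P.toP13 :=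
  lift14 (p := fun Q => p Q.toP13) (ev14.2 (h.mono fun _ h => Eventually.of_forall fun _ => h))

theorem lift12 {p : P12 → Prop} (h : ∀ᶠ Q in F12, p Q) : ∀ᶠ P in 𝓕, p P.toP12 :=
  lift13 (p := fun Q => p Q.toP12) (ev13.2 (h.mono fun _ h => Eventually.of_forall fun _ => h))

theorem lift11 {p : P11 → Prop} (h : ∀ᶠ Q in F11, p Q) : ∀ᶠ P in 𝓕, p P.toP11 :=
  lift12 (p := fun Q => p Q.toP11) (ev12.2 (h.mono fun _ h => Eventually.of_forall fun _ => h))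

theorem lift10 {p : P10 → Prop} (h : ∀ᶠ Q in F10, p Q) : ∀ᶠ P in 𝓕, p P.toP10 :=
  lift11 (p := fun Q => p Q.toP10) (ev11.2 (h.mono fun _ h => Eventually.of_forall fun _ => h))

theorem lift9 {p : P9 → Prop} (h : ∀ᶠ Q in F9, p Q) : ∀ᶠ P in 𝓕, p P.toP9 :=
  lift10 (p := fun Q => p Q.toP9) (ev10.2 (h.mono fun _ h => Eventually.of_forall fun _ => h))

theorem lift8 {p : P8 → Prop} (h : ∀ᶠ Q in F8, p Q) : ∀ᶠ P in 𝓕, p P.toP8 :=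
  lift9 (p := fun Q => p Q.toP8) (ev9.2 (h.mono fun _ h => Eventually.of_forall fun _ => h))

theorem lift7 {p : P7 → Prop} (h : ∀ᶠ Q in F7, p Q) : ∀ᶠ P in 𝓕, p P.toP7 :=
  lift8 (p := fun Q => p Q.toP7) (ev8.2 (h.mono fun _ h => Eventually.of_forall fun _ => h))

theorem lift6 {p : P6 → Prop} (h : ∀ᶠ Q in F6, p Q) : ∀ᶠ P in 𝓕, p P.toP6 :=
  lift7 (p := fun Q => p Q.toP6) (ev7.2 (h.mono fun _ h => Eventually.of_forall fun _ => h))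

theorem lift5 {p : P5 → Prop} (h : ∀ᶠ Q in F5, p Q) : ∀ᶠ P in 𝓕, p P.toP5 :=
  lift6 (p := fun Q => p Q.toP5) (ev6.2 (h.mono fun _ h => Eventually.of_forall fun _ => h))

theorem lift4 {p : P4 → Prop} (h : ∀ᶠ Q in F4, p Q) : ∀ᶠ P in 𝓕, p P.toP4 :=
  lift5 (p := fun Q => p Q.toP4) (ev5.2 (h.mono fun _ h => Eventually.of_forall fun _ => h))

theorem lift3 {p : P3 → Prop} (h : ∀ᶠ Q in F3, p Q) : ∀ᶠ P in 𝓕, p P.toP3 :=
  lift4 (p := fun Q => p Q.toP3) (ev4.2 (h.mono fun _ h => Eventually.of_forall fun _ => h))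

theorem lift2 {p : P2 → Prop} (h : ∀ᶠ Q in F2, p Q) : ∀ᶠ P in 𝓕, p P.toP2 :=
  lift3 (p := fun Q => p Q.toP2) (ev3.2 (h.mono fun _ h => Eventually.of_forall fun _ => h))

theorem lift1 {p : P1 → Prop} (h : ∀ᶠ Q in F1, p Q) : ∀ᶠ P in 𝓕, p P.toP1 :=
  lift2 (p := fun Q => p Q.toP1) (ev2.2 (h.mono fun _ h => Eventually.of_forall fun _ => h))

theorem lift0 {p : P0 → Prop} (h : ∀ᶠ Q in F0, p Q) : ∀ᶠ P in 𝓕, p P.toP0 :=
  lift1 (p := fun Q => p Q.toP0) (ev1.2 (h.mono fun _ h => Eventually.of_forall fun _ => h))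

theorem ev_small_aux (g c : ℝ) (hc : 0 < c) : ∀ᶠ x in 𝓝[>] (0 : ℝ), g * x ^ c ≤ 1 := by
  have h1 : Tendsto (fun x : ℝ => g * x ^ c) (𝓝 0) (𝓝 (g * 0 ^ c)) :=
    ((Real.continuousAt_rpow_const 0 c (Or.inr hc.le)).tendsto).const_mul g
  rw [Real.zero_rpow hc.ne', mul_zero] at h1
  exact (h1.mono_left nhdsWithin_le_nhds).eventually (eventually_le_nhds one_pos)

theorem ev_lt_aux (g : ℝ) : ∀ᶠ x in 𝓝[>] (0 : ℝ), 0 < x ∧ (0 < g → x ≤ g) := by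
  by_cases hg : 0 < g
  · filter_upwards [Ioc_mem_nhdsGT hg] with x hx using ⟨hx.1, fun _ => hx.2⟩
  · filter_upwards [self_mem_nhdsWithin] with x hx using ⟨hx, fun h => absurd h hg⟩

theorem ev_nu (φ : P0 → ℝ → Prop) (h : ∀ Q, ∀ᶠ x in 𝓝[>] (0 : ℝ), φ Q x) :
    ∀ᶠ P in 𝓕, φ P.toP0 P.ν :=
  lift1 (p := fun Q => φ Q.toP0 Q.ν) (ev1.2 (Eventually.of_forall h))

theorem small_nu (g : P0 → ℝ) {c : ℝ} (hc : 0 < c) : ∀ᶠ P in 𝓕, g P.toP0 * P.ν ^ c ≤ 1 :=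
  ev_nu (fun Q x => g Q * x ^ c ≤ 1) fun Q => ev_small_aux (g Q) c hc

theorem le_nu (g : P0 → ℝ) : ∀ᶠ P in 𝓕, 0 < P.ν ∧ (0 < g P.toP0 → P.ν ≤ g P.toP0) :=
  ev_nu (fun Q x => 0 < x ∧ (0 < g Q → x ≤ g Q)) fun Q => ev_lt_aux (g Q)

theorem ev_b (φ : P1 → ℝ → Prop) (h : ∀ Q, ∀ᶠ x in 𝓝[>] (0 : ℝ), φ Q x) :
    ∀ᶠ P in 𝓕, φ P.toP1 P.b :=
  lift2 (p := fun Q => φ Q.toP1 Q.b) (ev2.2 (Eventually.of_forall h))

theorem small_b (g : P1 → ℝ) {c : ℝ} (hc : 0 < c) : ∀ᶠ P in 𝓕, g P.toP1 * P.b ^ c ≤ 1 :=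
  ev_b (fun Q x => g Q * x ^ c ≤ 1) fun Q => ev_small_aux (g Q) c hc

theorem le_b (g : P1 → ℝ) : ∀ᶠ P in 𝓕, 0 < P.b ∧ (0 < g P.toP1 → P.b ≤ g P.toP1) :=
  ev_b (fun Q x => 0 < x ∧ (0 < g Q → x ≤ g Q)) fun Q => ev_lt_aux (g Q)

theorem ev_tau (φ : P2 → ℝ → Prop) (h : ∀ Q, ∀ᶠ x in 𝓝[>] (0 : ℝ), φ Q x) :
    ∀ᶠ P in 𝓕, φ P.toP2 P.τ :=
  lift3 (p := fun Q => φ Q.toP2 Q.τ) (ev3.2 (Eventually.of_forall h))

theorem small_tau (g : P2 → ℝ) {c : ℝ} (hc : 0 < c) : ∀ᶠ P in 𝓕, g P.toP2 * P.τ ^ c ≤ 1 :=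
  ev_tau (fun Q x => g Q * x ^ c ≤ 1) fun Q => ev_small_aux (g Q) c hc

theorem le_tau (g : P2 → ℝ) : ∀ᶠ P in 𝓕, 0 < P.τ ∧ (0 < g P.toP2 → P.τ ≤ g P.toP2) :=
  ev_tau (fun Q x => 0 < x ∧ (0 < g Q → x ≤ g Q)) fun Q => ev_lt_aux (g Q)

theorem ev_eta (φ : P3 → ℝ → Prop) (h : ∀ Q, ∀ᶠ x in 𝓝[>] (0 : ℝ), φ Q x) :
    ∀ᶠ P in 𝓕, φ P.toP3 P.η :=
  lift4 (p := fun Q => φ Q.toP3 Q.η) (ev4.2 (Eventually.of_forall h))

theorem small_eta (g : P3 → ℝ) {c : ℝ} (hc : 0 < c) : ∀ᶠ P in 𝓕, g P.toP3 * P.η ^ c ≤ 1 :=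
  ev_eta (fun Q x => g Q * x ^ c ≤ 1) fun Q => ev_small_aux (g Q) c hc

theorem le_eta (g : P3 → ℝ) : ∀ᶠ P in 𝓕, 0 < P.η ∧ (0 < g P.toP3 → P.η ≤ g P.toP3) :=
  ev_eta (fun Q x => 0 < x ∧ (0 < g Q → x ≤ g Q)) fun Q => ev_lt_aux (g Q)

theorem ev_R (φ : P4 → ℝ → Prop) (h : ∀ Q, ∀ᶠ x in (atTop : Filter ℝ), φ Q x) :
    ∀ᶠ P in 𝓕, φ P.toP4 P.R :=
  lift5 (p := fun Q => φ Q.toP4 Q.R) (ev5.2 (Eventually.of_forall h))

theorem big_R (g : P4 → ℝ) : ∀ᶠ P in 𝓕, g P.toP4 ≤ P.R :=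
  ev_R (fun Q x => g Q ≤ x) fun Q => eventually_ge_atTop (g Q)

theorem ev_r1 (φ : P5 → ℝ → Prop) (h : ∀ Q, ∀ᶠ x in 𝓝[>] (0 : ℝ), φ Q x) :
    ∀ᶠ P in 𝓕, φ P.toP5 P.r₁ :=
  lift6 (p := fun Q => φ Q.toP5 Q.r₁) (ev6.2 (Eventually.of_forall h))

theorem small_r1 (g : P5 → ℝ) {c : ℝ} (hc : 0 < c) : ∀ᶠ P in 𝓕, g P.toP5 * P.r₁ ^ c ≤ 1 :=
  ev_r1 (fun Q x => g Q * x ^ c ≤ 1) fun Q => ev_small_aux (g Q) c hc

theorem le_r1 (g : P5 → ℝ) : ∀ᶠ P in 𝓕, 0 < P.r₁ ∧ (0 < g P.toP5 → P.r₁ ≤ g P.toP5) :=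
  ev_r1 (fun Q x => 0 < x ∧ (0 < g Q → x ≤ g Q)) fun Q => ev_lt_aux (g Q)

theorem ev_Gam (φ : P6 → ℕ → Prop) (h : ∀ Q, ∀ᶠ x in (atTop : Filter ℕ), φ Q x) :
    ∀ᶠ P in 𝓕, φ P.toP6 P.Γ :=
  lift7 (p := fun Q => φ Q.toP6 Q.Γ) (ev7.2 (Eventually.of_forall h))

theorem big_Gam (g : P6 → ℝ) : ∀ᶠ P in 𝓕, g P.toP6 ≤ (P.Γ : ℝ) :=
  ev_Gam (fun Q x => g Q ≤ (x : ℝ)) fun Q => tendsto_natCast_atTop_atTop.eventually (eventually_ge_atTop (g Q))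

theorem ev_U (φ : P7 → ℝ → Prop) (h : ∀ Q, ∀ᶠ x in (atTop : Filter ℝ), φ Q x) :
    ∀ᶠ P in 𝓕, φ P.toP7 P.U :=
  lift8 (p := fun Q => φ Q.toP7 Q.U) (ev8.2 (Eventually.of_forall h))

theorem big_U (g : P7 → ℝ) : ∀ᶠ P in 𝓕, g P.toP7 ≤ P.U :=
  ev_U (fun Q x => g Q ≤ x) fun Q => eventually_ge_atTop (g Q)

theorem ev_k0 (φ : P8 → ℝ → Prop) (h : ∀ Q, ∀ᶠ x in 𝓝[>] (0 : ℝ), φ Q x) :
    ∀ᶠ P in 𝓕, φ P.toP8 P.κ₀ :=
  lift9 (p := fun Q => φ Q.toP8 Q.κ₀) (ev9.2 (Eventually.of_forall h))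

theorem small_k0 (g : P8 → ℝ) {c : ℝ} (hc : 0 < c) : ∀ᶠ P in 𝓕, g P.toP8 * P.κ₀ ^ c ≤ 1 :=
  ev_k0 (fun Q x => g Q * x ^ c ≤ 1) fun Q => ev_small_aux (g Q) c hc

theorem le_k0 (g : P8 → ℝ) : ∀ᶠ P in 𝓕, 0 < P.κ₀ ∧ (0 < g P.toP8 → P.κ₀ ≤ g P.toP8) :=
  ev_k0 (fun Q x => 0 < x ∧ (0 < g Q → x ≤ g Q)) fun Q => ev_lt_aux (g Q)

theorem ev_d0 (φ : P9 → ℝ → Prop) (h : ∀ Q, ∀ᶠ x in 𝓝[>] (0 : ℝ), φ Q x) :
    ∀ᶠ P in 𝓕, φ P.toP9 P.δ₀ :=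
  lift10 (p := fun Q => φ Q.toP9 Q.δ₀) (ev10.2 (Eventually.of_forall h))

theorem small_d0 (g : P9 → ℝ) {c : ℝ} (hc : 0 < c) : ∀ᶠ P in 𝓕, g P.toP9 * P.δ₀ ^ c ≤ 1 :=
  ev_d0 (fun Q x => g Q * x ^ c ≤ 1) fun Q => ev_small_aux (g Q) c hc

theorem le_d0 (g : P9 → ℝ) : ∀ᶠ P in 𝓕, 0 < P.δ₀ ∧ (0 < g P.toP9 → P.δ₀ ≤ g P.toP9) :=
  ev_d0 (fun Q x => 0 < x ∧ (0 < g Q → x ≤ g Q)) fun Q => ev_lt_aux (g Q)

theorem ev_L (φ : P10 → ℝ → Prop) (h : ∀ Q, ∀ᶠ x in 𝓝[>] (0 : ℝ), φ Q x) :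
    ∀ᶠ P in 𝓕, φ P.toP10 P.L :=
  lift11 (p := fun Q => φ Q.toP10 Q.L) (ev11.2 (Eventually.of_forall h))

theorem small_L (g : P10 → ℝ) {c : ℝ} (hc : 0 < c) : ∀ᶠ P in 𝓕, g P.toP10 * P.L ^ c ≤ 1 :=
  ev_L (fun Q x => g Q * x ^ c ≤ 1) fun Q => ev_small_aux (g Q) c hc

theorem le_L (g : P10 → ℝ) : ∀ᶠ P in 𝓕, 0 < P.L ∧ (0 < g P.toP10 → P.L ≤ g P.toP10) :=
  ev_L (fun Q x => 0 < x ∧ (0 < g Q → x ≤ g Q)) fun Q => ev_lt_aux (g Q)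

theorem ev_A (φ : P11 → ℝ → Prop) (h : ∀ Q, ∀ᶠ x in (atTop : Filter ℝ), φ Q x) :
    ∀ᶠ P in 𝓕, φ P.toP11 P.A :=
  lift12 (p := fun Q => φ Q.toP11 Q.A) (ev12.2 (Eventually.of_forall h))

theorem big_A (g : P11 → ℝ) : ∀ᶠ P in 𝓕, g P.toP11 ≤ P.A :=
  ev_A (fun Q x => g Q ≤ x) fun Q => eventually_ge_atTop (g Q)

theorem ev_d1 (φ : P12 → ℝ → Prop) (h : ∀ Q, ∀ᶠ x in 𝓝[>] (0 : ℝ), φ Q x) :
    ∀ᶠ P in 𝓕, φ P.toP12 P.δ₁ :=
  lift13 (p := fun Q => φ Q.toP12 Q.δ₁) (ev13.2 (Eventually.of_forall h))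

theorem small_d1 (g : P12 → ℝ) {c : ℝ} (hc : 0 < c) : ∀ᶠ P in 𝓕, g P.toP12 * P.δ₁ ^ c ≤ 1 :=
  ev_d1 (fun Q x => g Q * x ^ c ≤ 1) fun Q => ev_small_aux (g Q) c hc

theorem le_d1 (g : P12 → ℝ) : ∀ᶠ P in 𝓕, 0 < P.δ₁ ∧ (0 < g P.toP12 → P.δ₁ ≤ g P.toP12) :=
  ev_d1 (fun Q x => 0 < x ∧ (0 < g Q → x ≤ g Q)) fun Q => ev_lt_aux (g Q)

theorem ev_N (φ : P13 → ℕ → Prop) (h : ∀ Q, ∀ᶠ x in (atTop : Filter ℕ), φ Q x) :
    ∀ᶠ P in 𝓕, φ P.toP13 P.N :=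
  lift14 (p := fun Q => φ Q.toP13 Q.N) (ev14.2 (Eventually.of_forall h))

theorem big_N (g : P13 → ℝ) : ∀ᶠ P in 𝓕, g P.toP13 ≤ (P.N : ℝ) :=
  ev_N (fun Q x => g Q ≤ (x : ℝ)) fun Q => tendsto_natCast_atTop_atTop.eventually (eventually_ge_atTop (g Q))

theorem ev_m (φ : P14 → ℕ → Prop) (h : ∀ Q, ∀ᶠ x in (atTop : Filter ℕ), φ Q x) :
    ∀ᶠ P in 𝓕, φ P.toP14 P.m :=
  lift15 (p := fun Q => φ Q.toP14 Q.m) (ev15.2 (Eventually.of_forall h))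

theorem big_m (g : P14 → ℝ) : ∀ᶠ P in 𝓕, g P.toP14 ≤ (P.m : ℝ) :=
  ev_m (fun Q x => g Q ≤ (x : ℝ)) fun Q => tendsto_natCast_atTop_atTop.eventually (eventually_ge_atTop (g Q))

theorem ev_C3 (φ : P15 → ℝ → Prop) (h : ∀ Q, ∀ᶠ x in (atTop : Filter ℝ), φ Q x) :
    ∀ᶠ P in 𝓕, φ P.toP15 P.C₃ :=
  lift16 (p := fun Q => φ Q.toP15 Q.C₃) (ev16.2 (Eventually.of_forall h))

theorem big_C3 (g : P15 → ℝ) : ∀ᶠ P in 𝓕, g P.toP15 ≤ P.C₃ :=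
  ev_C3 (fun Q x => g Q ≤ x) fun Q => eventually_ge_atTop (g Q)

theorem ev_C4 (φ : P16 → ℝ → Prop) (h : ∀ Q, ∀ᶠ x in (atTop : Filter ℝ), φ Q x) :
    ∀ᶠ P in 𝓕, φ P.toP16 P.C₄ :=
  lift17 (p := fun Q => φ Q.toP16 Q.C₄) (ev17.2 (Eventually.of_forall h))

theorem big_C4 (g : P16 → ℝ) : ∀ᶠ P in 𝓕, g P.toP16 ≤ P.C₄ :=
  ev_C4 (fun Q x => g Q ≤ x) fun Q => eventually_ge_atTop (g Q)

theorem ev_T1 (φ : P17 → ℝ → Prop) (h : ∀ Q, ∀ᶠ x in 𝓝[>] (0 : ℝ), φ Q x) :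
    ∀ᶠ P in 𝓕, φ P.toP17 P.T₁ :=
  lift18 (p := fun Q => φ Q.toP17 Q.T₁) (ev18.2 (Eventually.of_forall h))

theorem small_T1 (g : P17 → ℝ) {c : ℝ} (hc : 0 < c) : ∀ᶠ P in 𝓕, g P.toP17 * P.T₁ ^ c ≤ 1 :=
  ev_T1 (fun Q x => g Q * x ^ c ≤ 1) fun Q => ev_small_aux (g Q) c hc

theorem le_T1 (g : P17 → ℝ) : ∀ᶠ P in 𝓕, 0 < P.T₁ ∧ (0 < g P.toP17 → P.T₁ ≤ g P.toP17) :=
  ev_T1 (fun Q x => 0 < x ∧ (0 < g Q → x ≤ g Q)) fun Q => ev_lt_aux (g Q)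

theorem ev_r0 (φ : P18 → ℝ → Prop) (h : ∀ Q, ∀ᶠ x in 𝓝[>] (0 : ℝ), φ Q x) :
    ∀ᶠ P in 𝓕, φ P.toP18 P.r₀ :=
  lift19 (p := fun Q => φ Q.toP18 Q.r₀) (ev19.2 (Eventually.of_forall h))

theorem small_r0 (g : P18 → ℝ) {c : ℝ} (hc : 0 < c) : ∀ᶠ P in 𝓕, g P.toP18 * P.r₀ ^ c ≤ 1 :=
  ev_r0 (fun Q x => g Q * x ^ c ≤ 1) fun Q => ev_small_aux (g Q) c hc

theorem le_r0 (g : P18 → ℝ) : ∀ᶠ P in 𝓕, 0 < P.r₀ ∧ (0 < g P.toP18 → P.r₀ ≤ g P.toP18) :=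
  ev_r0 (fun Q x => 0 < x ∧ (0 < g Q → x ≤ g Q)) fun Q => ev_lt_aux (g Q)

theorem ev_r (φ : Qar → ℝ → Prop) (h : ∀ Q, ∀ᶠ x in 𝓝[>] (0 : ℝ), φ Q x) :
    ∀ᶠ P in 𝓕, φ P.toQar P.r :=
  ev20.2 (Eventually.of_forall h)

theorem small_r (g : Qar → ℝ) {c : ℝ} (hc : 0 < c) : ∀ᶠ P in 𝓕, g P.toQar * P.r ^ c ≤ 1 :=
  ev_r (fun Q x => g Q * x ^ c ≤ 1) fun Q => ev_small_aux (g Q) c hc

theorem le_r (g : Qar → ℝ) : ∀ᶠ P in 𝓕, 0 < P.r ∧ (0 < g P.toQar → P.r ≤ g P.toQar) :=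
  ev_r (fun Q x => 0 < x ∧ (0 < g Q → x ≤ g Q)) fun Q => ev_lt_aux (g Q)

end

end Crest.Agent.R68
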