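import Crest.Agent.R68.A3

/-!
# R68 (S0091), Soft2: torus shear and collision measure
-/

set_option autoImplicit false

namespace Crest.Agent.R68.Sf

open MeasureTheory Set Filter Crest.AnalysisR.VecCalc3 Crest.AnalysisR.PDE.Boltzmann
open scoped ENNReal _root_.Topology

noncomputable section

theorem soft_mp {α β : Type*} [MeasurableSpace α] [MeasurableSpace β] {μ : Measure α}
    {ν : Measure β} {f : α → β} (hf : Measurable f)
    (h : ∀ Φ : β → ℝ≥0∞, Measurable Φ → ∫⁻ x, Φ (f x) ∂μ = ∫⁻ y, Φ y ∂ν) :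
    MeasurePreserving f μ ν := by
  refine ⟨hf, Measure.ext fun A hA => ?_⟩
  rw [← lintegral_indicator_one hA, ← lintegral_indicator_one hA,
    lintegral_map (measurable_one.indicator hA) hf]
  exact h _ (measurable_one.indicator hA)

theorem soft_mp_int {α β : Type*} [MeasurableSpace α] [MeasurableSpace β] {μ : Measure α}
    {ν : Measure β} {f : α → β} (hf : MeasurePreserving f μ ν) {g : β → ℝ} (hg : Measurable g) :
    ∫ x, g (f x) ∂μ = ∫ y, g y ∂ν := by
  rw [← hf.map_eq, integral_map hf.measurable.aemeasurable hg.aestronglyMeasurable]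

theorem soft_tr {α β : Type*} [MeasurableSpace α] [MeasurableSpace β] {μ : Measure α}
    {ν : Measure β} {π : β → α} (hπ : Measurable π) {G : α → ℝ≥0∞} {A : β → ℝ≥0∞}
    (mG : Measurable G) (mA : Measurable A) (hG : ∀ᵐ p ∂μ, G p < ⊤) (hA : ∀ z, A z ≠ ⊤)
    (h : ∀ Ψ : α → ℝ≥0∞, Measurable Ψ → ∫⁻ p, Ψ p * G p ∂μ = ∫⁻ z, Ψ (π z) * A z ∂ν)
    {ψ : α → ℝ} (mψ : Measurable ψ) (hi : Integrable (fun p => (G p).toReal * ψ p) μ) :
    Integrable (fun z => (A z).toReal * ψ (π z)) ν ∧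
      ∫ p, (G p).toReal * ψ p ∂μ = ∫ z, (A z).toReal * ψ (π z) ∂ν := by
  have hA' : ∀ᵐ z ∂ν, A z < ⊤ := Eventually.of_forall fun z => (hA z).lt_top
  have e : MeasurePreserving π (ν.withDensity A) (μ.withDensity G) := by
    refine soft_mp hπ fun Φ hΦ => ?_
    rw [lintegral_withDensity_eq_lintegral_mul _ mA (g := fun x => Φ (π x)) (hΦ.comp hπ),
      lintegral_withDensity_eq_lintegral_mul _ mG hΦ]
    simp only [Pi.mul_apply, mul_comm (A _), mul_comm (G _)]
    exact (h Φ hΦ).symm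
  have h1 := (integrable_withDensity_iff_integrable_smul' mG hG).2 hi
  refine ⟨(integrable_withDensity_iff_integrable_smul' mA hA').1
    (e.integrable_comp_of_integrable h1), ?_⟩
  have h2 := soft_mp_int e mψ
  rw [integral_withDensity_eq_integral_toReal_smul mA hA',
    integral_withDensity_eq_integral_toReal_smul mG hG] at h2
  exact h2.symm

/-! ### the shear on the torus -/

/-- `cell × ℝ³` -/
abbrev C2 : Set (R3 × R3) := cell ×ˢ univ

/-- reduction into the cell -/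
def fr (x : R3) : R3 := WithLp.toLp 2 fun i => Int.fract (x i)

theorem measurable_fr : Measurable fr :=
  (WithLp.measurable_toLp 2 _).comp (measurable_pi_lambda _ fun i =>
    measurable_fract.comp (by fun_prop))

theorem fr_of_mem {x : R3} (hx : x ∈ cell) : fr x = x := by
  ext i
  exact Int.fract_eq_self.2 (hx i)

theorem per_fr {α : Type*} {Θ : R3 → α} (h : IsPeriodic3 Θ) (x : R3) : Θ (fr x) = Θ x := by
  rw [← IsPeriodic3.add_int h x fun i => -⌊x i⌋]
  congr 1
  ext i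
  simp [fr, Int.fract, sub_eq_add_neg]

theorem isPeriodic_fr : IsPeriodic3 fr := by
  intro x i
  ext j
  by_cases h : j = i
  · subst h
    simp [fr]
  · simp [fr, h]

/-- the free flow on the torus -/
def shr (s : ℝ) (q : R3 × R3) : R3 × R3 := (fr (q.1 + s • q.2), q.2)

theorem measurable_shr : Measurable fun p : ℝ × R3 × R3 => shr p.1 p.2 :=
  (measurable_fr.comp (by fun_prop)).prodMk (by fun_prop)

theorem measurableSet_C2 : MeasurableSet C2 := measurableSet_cell.prod MeasurableSet.univ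

theorem mp_shr (s : ℝ) : MeasurePreserving (shr s) (volume.restrict C2) (volume.restrict C2) := by
  refine soft_mp (measurable_shr.comp (measurable_const.prodMk measurable_id)) fun Φ hΦ => ?_
  refine (lintegral_shear (fun x v => Φ (fr x, v))
    (hΦ.comp ((measurable_fr.comp measurable_fst).prodMk measurable_snd))
    (fun v x i => by simp only [isPeriodic_fr x i]) s).trans ?_
  refine setLIntegral_congr_fun measurableSet_C2 fun q hq => ?_
  simp only [fr_of_mem hq.1]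

theorem vol_Om3 (T : ℝ) : (volume : Measure (ℝ × R3 × R3)).restrict (Om3 T) =
    (volume.restrict (Ioo 0 T)).prod (volume.restrict C2) := by
  rw [Measure.prod_restrict, ← Measure.volume_eq_prod]
  rfl

theorem vol_C2 : (volume : Measure (R3 × R3)).restrict C2 = (volume.restrict cell).prod volume := by
  rw [Measure.restrict_prod_eq_prod_univ, ← Measure.volume_eq_prod]

theorem measurableSet_Om3 (T : ℝ) : MeasurableSet (Om3 T) := measurableSet_Ioo.prod measurableSet_C2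

theorem mp_shr3 (T : ℝ) : MeasurePreserving (fun p : ℝ × R3 × R3 => (p.1, shr p.1 p.2))
    ((volume.restrict (Ioo 0 T)).prod (volume.restrict C2)) (volume.restrict (Om3 T)) := by
  rw [vol_Om3]
  exact (MeasurePreserving.id _).skew_product (g := shr) measurable_shr
    (Eventually.of_forall fun s => (mp_shr s).map_eq)

theorem soft_char {w : ℝ → R3 → R3 → ℝ} {T : ℝ}
    (mw : Measurable fun p : ℝ × R3 × R3 => w p.1 p.2.1 p.2.2)
    (pw : ∀ t v, IsPeriodic3 fun x => w t x v)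
    (iw : IntegrableOn (fun p : ℝ × R3 × R3 => w p.1 p.2.1 p.2.2) (Om3 T)) :
    Integrable (fun p : ℝ × R3 × R3 => w p.1 (p.2.1 + p.1 • p.2.2) p.2.2)
      ((volume.restrict (Ioo 0 T)).prod (volume.restrict C2)) ∧
    ∫ q in C2, ∫ s in Ioo 0 T, w s (q.1 + s • q.2) q.2 = ∫ p in Om3 T, w p.1 p.2.1 p.2.2 := by
  have e : (fun p : ℝ × R3 × R3 => w p.1 p.2.1 p.2.2) ∘ (fun p : ℝ × R3 × R3 => (p.1, shr p.1 p.2)) =
      fun p : ℝ × R3 × R3 => w p.1 (p.2.1 + p.1 • p.2.2) p.2.2 :=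
    funext fun p => per_fr (pw p.1 p.2.2) _
  have h1 := (mp_shr3 T).integrable_comp_of_integrable iw
  rw [e] at h1
  refine ⟨h1, ?_⟩
  rw [← soft_mp_int (mp_shr3 T) mw, ← integral_prod_symm _ h1]
  exact congrArg _ e.symm

/-- integration along the characteristics -/
theorem soft_integ {u0 u1 : R3 → R3 → ℝ} {w : ℝ → R3 → R3 → ℝ} {T : ℝ}
    (m1 : Measurable fun q : R3 × R3 => u1 q.1 q.2) (p1 : ∀ v, IsPeriodic3 fun x => u1 x v)
    (mw : Measurable fun p : ℝ × R3 × R3 => w p.1 p.2.1 p.2.2)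
    (pw : ∀ t v, IsPeriodic3 fun x => w t x v)
    (i0 : IntegrableOn (fun q : R3 × R3 => u0 q.1 q.2) C2)
    (iw : IntegrableOn (fun p : ℝ × R3 × R3 => w p.1 p.2.1 p.2.2) (Om3 T))
    (h : ∀ᵐ q ∂(volume.restrict C2), u1 (q.1 + T • q.2) q.2 =
      u0 q.1 q.2 + ∫ s in Ioo 0 T, w s (q.1 + s • q.2) q.2) :
    IntegrableOn (fun q : R3 × R3 => u1 q.1 q.2) C2 ∧
      ∫ q in C2, u1 q.1 q.2 = (∫ q in C2, u0 q.1 q.2) + ∫ p in Om3 T, w p.1 p.2.1 p.2.2 := by
  obtain ⟨h1, h2⟩ := soft_char mw pw iw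
  have h3 := h1.integral_prod_right
  have h4 : (fun q : R3 × R3 => u1 q.1 q.2) ∘ shr T =ᵐ[volume.restrict C2] fun q =>
      u0 q.1 q.2 + ∫ s in Ioo 0 T, w s (q.1 + s • q.2) q.2 :=
    h.mono fun q hq => (per_fr (p1 q.2) _).trans hq
  refine ⟨((mp_shr T).integrable_comp m1.aestronglyMeasurable).1 ((i0.add h3).congr h4.symm), ?_⟩
  rw [← soft_mp_int (mp_shr T) m1, ← h2, ← integral_add i0 h3]
  exact integral_congr_ae h4

/-! ### the collision measure -/

/-- `(s, x, v)`, `(a, ω)` -/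
abbrev Z5 := (ℝ × R3 × R3) × (R3 × R3)

/-- the collision measure -/
def La (T : ℝ) : Measure Z5 :=
  ((volume.restrict (Om3 T)).prod (volume.prod sphereMeasure)).withDensity
    fun z => Bk (z.1.2.2 - z.2.1) z.2.2

/-- the collision -/
def cC (z : Z5) : Z5 :=
  ((z.1.1, z.1.2.1, postVel z.1.2.2 z.2.1 z.2.2), (postVelStar z.1.2.2 z.2.1 z.2.2, z.2.2))

/-- exchange of the particles -/
def cS (z : Z5) : Z5 := ((z.1.1, z.1.2.1, z.2.1), (z.1.2.2, z.2.2))

theorem measurable_cS : Measurable cS := by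
  unfold cS
  fun_prop

theorem measurable_cC : Measurable cC := by
  have h : Measurable fun z : Z5 => (z.1.2.2, z.2.1, z.2.2) := by fun_prop
  exact ((by fun_prop : Measurable fun z : Z5 => z.1.1).prodMk
    ((by fun_prop : Measurable fun z : Z5 => z.1.2.1).prodMk
      (continuous_postVel.measurable.comp h))).prodMk
    ((continuous_postVelStar.measurable.comp h).prodMk (by fun_prop))

theorem measurable_Bk5 : Measurable fun z : Z5 => Bk (z.1.2.2 - z.2.1) z.2.2 := by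
  have h := measurable_Bk.comp (by fun_prop : Measurable fun z : Z5 => (z.1.2.2 - z.2.1, z.2.2))
  exact h

theorem cS_cS (z : Z5) : cS (cS z) = z := rfl

theorem cC_cS (z : Z5) : cC (cS z) = cS (cC z) := by
  unfold cC cS
  simp only [postVel_swap z.1.2.2 z.2.1, ← postVel_swap z.2.1 z.1.2.2]

theorem cC_cC {z : Z5} (h : ‖z.2.2‖ = 1) : cC (cC z) = z := by
  unfold cC
  simp only [postVel_invol _ _ _ h, postVelStar_invol _ _ _ h]

theorem ae_La (T : ℝ) : ∀ᵐ z ∂La T, ‖z.2.2‖ = 1 :=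
  (withDensity_absolutelyContinuous _ _).ae_le
    ((Measure.quasiMeasurePreserving_snd.comp Measure.quasiMeasurePreserving_snd).ae ae_sphere)

theorem measurable_La {Φ : Z5 → ℝ≥0∞} (hΦ : Measurable Φ) : Measurable fun p : ℝ × R3 × R3 =>
    ∫⁻ a, ∫⁻ ω, Bk (p.2.2 - a) ω * Φ (p, (a, ω)) ∂sphereMeasure := by
  have h := (measurable_Bk5.mul hΦ).comp
    (by fun_prop : Measurable fun z : ((ℝ × R3 × R3) × R3) × R3 => ((z.1.1, (z.1.2, z.2)) : Z5))
  exact h.lintegral_prod_right'.lintegral_prod_right'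

theorem lintegral_La (T : ℝ) {Φ : Z5 → ℝ≥0∞} (hΦ : Measurable Φ) :
    ∫⁻ z, Φ z ∂La T =
      ∫⁻ p in Om3 T, ∫⁻ a, ∫⁻ ω, Bk (p.2.2 - a) ω * Φ (p, (a, ω)) ∂sphereMeasure := by
  unfold La
  rw [lintegral_withDensity_eq_lintegral_mul _ measurable_Bk5 hΦ,
    lintegral_prod _ (measurable_Bk5.mul hΦ).aemeasurable]
  refine lintegral_congr fun p => ?_
  exact lintegral_prod _ ((measurable_Bk5.mul hΦ).comp measurable_prodMk_left).aemeasurable

theorem lintegral_Om3' (T : ℝ) {Ψ : ℝ × R3 × R3 → ℝ≥0∞} (hΨ : Measurable Ψ) :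
    ∫⁻ p in Om3 T, Ψ p = ∫⁻ s in Ioo 0 T, ∫⁻ q in C2, Ψ (s, q) := by
  rw [vol_Om3, lintegral_prod _ hΨ.aemeasurable]

theorem lintegral_C2 {Ψ : R3 × R3 → ℝ≥0∞} (hΨ : Measurable Ψ) :
    ∫⁻ q in C2, Ψ q = ∫⁻ x in cell, ∫⁻ v, Ψ (x, v) := by
  rw [vol_C2, lintegral_prod _ hΨ.aemeasurable]

theorem lintegral_Om3 (T : ℝ) {Ψ : ℝ × R3 × R3 → ℝ≥0∞} (hΨ : Measurable Ψ) :
    ∫⁻ p in Om3 T, Ψ p = ∫⁻ r in Ioo 0 T ×ˢ cell, ∫⁻ v, Ψ (r.1, r.2, v) := by
  have h : Measurable fun r : ℝ × R3 => ∫⁻ v, Ψ (r.1, r.2, v) :=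
    (hΨ.comp (by fun_prop : Measurable fun z : (ℝ × R3) × R3 =>
      (z.1.1, z.1.2, z.2))).lintegral_prod_right'
  rw [lintegral_Om3' T hΨ, Measure.volume_eq_prod ℝ R3, ← Measure.prod_restrict,
    lintegral_prod _ h.aemeasurable]
  exact lintegral_congr fun s => lintegral_C2 (hΨ.comp measurable_prodMk_left)

theorem mp_cC (T : ℝ) : MeasurePreserving cC (La T) (La T) := by
  refine soft_mp measurable_cC fun Φ hΦ => ?_
  have m : Measurable fun z => Φ (cC z) := hΦ.comp measurable_cC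
  rw [lintegral_La T m, lintegral_La T hΦ,
    lintegral_Om3 T (measurable_La m), lintegral_Om3 T (measurable_La hΦ)]
  refine lintegral_congr fun r => ?_
  exact lintegral_coll (fun v a ω => Φ ((r.1, r.2, v), (a, ω))) (hΦ.comp (by fun_prop))

theorem mp_cS (T : ℝ) : MeasurePreserving cS (La T) (La T) := by
  refine soft_mp measurable_cS fun Φ hΦ => ?_
  have m : Measurable fun z => Φ (cS z) := hΦ.comp measurable_cS
  rw [lintegral_La T m, lintegral_La T hΦ,
    lintegral_Om3 T (measurable_La m), lintegral_Om3 T (measurable_La hΦ)]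
  refine lintegral_congr fun r => ?_
  have h := ((measurable_Bk5.mul hΦ).comp (by fun_prop : Measurable fun z : (R3 × R3) × R3 =>
    (((r.1, r.2, z.1.1), (z.1.2, z.2)) : Z5))).lintegral_prod_right' (ν := sphereMeasure)
  refine Eq.trans ?_ (lintegral_lintegral_swap (f := fun v a => ∫⁻ ω, Bk (v - a) ω *
    Φ ((r.1, r.2, v), (a, ω)) ∂sphereMeasure) h.aemeasurable).symm
  refine lintegral_congr fun v => lintegral_congr fun a => lintegral_congr fun ω => ?_
  rw [Bk_swap]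
  rfl

/-- uncurried density -/
def uF (F : PF) (p : ℝ × R3 × R3) : ℝ≥0∞ := F p.1 p.2.1 p.2.2
/-- gain -/
def uG (F : PF) (p : ℝ × R3 × R3) : ℝ≥0∞ := Qp (F p.1 p.2.1) (F p.1 p.2.1) p.2.2
/-- loss -/
def uL (F : PF) (p : ℝ × R3 × R3) : ℝ≥0∞ := Nu (F p.1 p.2.1) p.2.2 * F p.1 p.2.1 p.2.2
/-- `F F*` -/
def bB (F : PF) (z : Z5) : ℝ≥0∞ := uF F z.1 * uF F (cS z).1

theorem _root_.Crest.Agent.R68.Meas.sf_uF {F : PF} (hF : Meas F) : Measurable (uF F) := hF
theorem _root_.Crest.Agent.R68.Meas.sf_uG {F : PF} (hF : Meas F) : Measurable (uG F) := hF.Qp hF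
theorem _root_.Crest.Agent.R68.Meas.sf_uL {F : PF} (hF : Meas F) : Measurable (uL F) := Measurable.mul hF.Nu hF
theorem _root_.Crest.Agent.R68.Meas.sf_bB {F : PF} (hF : Meas F) : Measurable (bB F) :=
  (hF.sf_uF.comp measurable_fst).mul (hF.sf_uF.comp (measurable_fst.comp measurable_cS))

theorem gain_La {F : PF} (hF : Meas F) (T : ℝ) (Ψ : ℝ × R3 × R3 → ℝ≥0∞) (hΨ : Measurable Ψ) :
    ∫⁻ p in Om3 T, Ψ p * uG F p = ∫⁻ z, Ψ z.1 * bB F (cC z) ∂La T := by
  rw [lintegral_La T (Φ := fun z => Ψ z.1 * bB F (cC z))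
    ((hΨ.comp measurable_fst).mul (hF.sf_bB.comp measurable_cC))]
  refine lintegral_congr fun p => ?_
  have h := (measurable_Bk5.mul (hF.sf_bB.comp measurable_cC)).comp (measurable_prodMk_left (x := p))
  refine (lintegral_const_mul _ h.lintegral_prod_right').symm.trans (lintegral_congr fun a => ?_)
  refine (lintegral_const_mul _ (h.comp measurable_prodMk_left)).symm.trans
    (lintegral_congr fun ω => mul_left_comm _ _ _)

theorem loss_La {F : PF} (hF : Meas F) (T : ℝ) (Ψ : ℝ × R3 × R3 → ℝ≥0∞) (hΨ : Measurable Ψ) :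
    ∫⁻ p in Om3 T, Ψ p * uL F p = ∫⁻ z, Ψ z.1 * bB F z ∂La T := by
  rw [lintegral_La T (Φ := fun z => Ψ z.1 * bB F z) ((hΨ.comp measurable_fst).mul hF.sf_bB)]
  refine lintegral_congr fun p => ?_
  have h : Measurable fun a => Nn (p.2.2 - a) * F p.1 p.2.1 a :=
    (measurable_Nn.comp (by fun_prop)).mul (hF.slice _ _)
  unfold uL Nu
  rw [← lintegral_mul_const _ h, ← lintegral_const_mul _ (h.mul_const _)]
  refine lintegral_congr fun a => ?_
  have h' := measurable_Bk.comp (measurable_prodMk_left (x := p.2.2 - a))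
  refine Eq.trans ?_ (lintegral_mul_const (Ψ p * (F p.1 p.2.1 p.2.2 * F p.1 p.2.1 a)) h').symm
  change _ = Nn (p.2.2 - a) * (Ψ p * (F p.1 p.2.1 p.2.2 * F p.1 p.2.1 a))
  ring

theorem bB_le {D : PF} (hD : Meas D) (T : ℝ) :
    ∫⁻ z, bB D z ∂La T ≤ 7 * ∫⁻ r in Ioo 0 T ×ˢ cell, (∫⁻ a, br a * D r.1 r.2 a) ^ 2 := by
  have h := loss_La hD T (fun _ => 1) measurable_const
  simp only [one_mul] at h
  rw [← h, lintegral_Om3 T hD.sf_uL, ← lintegral_const_mul' _ _ (by norm_num)]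
  refine lintegral_mono fun r => ?_
  have hm : Measurable fun v => br v * D r.1 r.2 v := measurable_br.mul (hD.slice r.1 r.2)
  calc _ ≤ ∫⁻ v, (7 * ∫⁻ a, br a * D r.1 r.2 a) * (br v * D r.1 r.2 v) := by
        refine lintegral_mono fun v => ?_
        refine (mul_le_mul_left (Nu_le_br (hD.slice r.1 r.2) v) _).trans (le_of_eq ?_)
        ring
    _ = _ := by rw [lintegral_const_mul _ hm, mul_assoc, sq]

end

end Crest.Agent.R68.Sf
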