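import Crest.Agent.R68.Soft1
import Crest.Agent.R68.Soft2

/-!
# R68 (S0091), Soft3: integrability, characteristics, product rule, symmetrisation
-/

set_option autoImplicit false

namespace Crest.Agent.R68.Sf

open MeasureTheory Set Filter Crest.AnalysisR.VecCalc3 Crest.AnalysisR.PDE.Boltzmann
open scoped ENNReal _root_.Topology

noncomputable section

/-- the collision operator -/
def qq (F : PF) (s : ℝ) (x v : R3) : ℝ := (uG F (s, x, v)).toReal - (uL F (s, x, v)).toReal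

/-- polynomially bounded in `v` -/
def PB (T : ℝ) (ψ : ℝ × R3 × R3 → ℝ) : Prop :=
  ∃ (C : ℝ) (k : ℕ), ∀ p ∈ Om3 T, |ψ p| ≤ C * (1 + ‖p.2.2‖) ^ k

/-- standing hypotheses -/
structure SH (F : PF) (f : XF) (T : ℝ) : Prop where
  hF : Meas F
  hP : Per F
  hfin : ∀ t x v, F t x v ≠ ⊤
  hf : ∀ x v, f x v ≠ ⊤
  hAM : AMae F f T
  hI : Integ F T

theorem SH.mono {F : PF} {f : XF} {T t : ℝ} (h : SH F f T) (ht : t ≤ T) : SH F f t :=
  ⟨h.hF, h.hP, h.hfin, h.hf, h.hAM.mono fun _ hq s hs => hq s ⟨hs.1, hs.2.trans ht⟩, fun k =>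
    (lintegral_mono_set (prod_mono (Ioo_subset_Ioo_right ht) subset_rfl)).trans_lt (h.hI k)⟩

theorem _root_.Crest.Agent.R68.Per.sf_comp {F : PF} (hP : Per F) {α : Type*} (Θ : VF → α) (t : ℝ) :
    IsPeriodic3 fun x => Θ (F t x) := fun x i =>
  congrArg Θ (funext fun v => hP t v x i)

theorem one_le_br (v : R3) : 1 ≤ br v := by
  unfold br
  exact ENNReal.one_le_ofReal.2 (by linarith [norm_nonneg v])

theorem br_postVel (v a ω : R3) (hω : ‖ω‖ = 1) : br (postVel v a ω) ≤ br v * br a := by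
  unfold br
  rw [← ENNReal.ofReal_mul (by positivity)]
  refine ENNReal.ofReal_le_ofReal ?_
  have h := coll_energy v a ω hω
  have h1 := mul_nonneg (norm_nonneg v) (norm_nonneg a)
  have : ‖postVel v a ω‖ ≤ ‖v‖ + ‖a‖ :=
    le_of_pow_le_pow_left₀ two_ne_zero (by positivity) (by nlinarith [sq_nonneg ‖postVelStar v a ω‖])
  nlinarith

theorem measurable_br3 (k : ℕ) : Measurable fun p : ℝ × R3 × R3 => br p.2.2 ^ k :=
  (measurable_br.comp (measurable_snd.comp measurable_snd)).pow_const k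

theorem vol_base (T : ℝ) : volume (Ioo (0 : ℝ) T ×ˢ cell) < ⊤ := by
  rw [Measure.volume_eq_prod, Measure.prod_prod, volume_cell, mul_one]
  exact measure_Ioo_lt_top

section integ

variable {F : PF} {f : XF} {T : ℝ}

theorem SH.bB_w (h : SH F f T) (k : ℕ) :
    ∫⁻ z, bB (fun t x v => br v ^ k * F t x v) z ∂La T < ⊤ := by
  refine (bB_le (D := fun t x v => br v ^ k * F t x v) ((measurable_br3 k).mul h.hF) T).trans_lt
    (ENNReal.mul_lt_top (by norm_num) (lt_of_le_of_lt (lintegral_mono fun r => ?_) (h.hI (k + 1))))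
  refine pow_le_pow_left' (lintegral_mono fun a => ?_) 2
  rw [← mul_assoc, ← pow_succ']
  exact mul_le_mul_right le_self_add _

theorem SH.int_L (h : SH F f T) (k : ℕ) : ∫⁻ p in Om3 T, br p.2.2 ^ k * uL F p < ⊤ := by
  rw [loss_La h.hF T _ (measurable_br3 k)]
  refine lt_of_le_of_lt (lintegral_mono fun z => ?_) (h.bB_w k)
  change br z.1.2.2 ^ k * (uF F z.1 * uF F (cS z).1) ≤
    br z.1.2.2 ^ k * uF F z.1 * (br z.2.1 ^ k * uF F (cS z).1)
  rw [mul_assoc]
  exact mul_le_mul_right (mul_le_mul_right (le_mul_of_one_le_left' (one_le_pow_of_one_le'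
    (one_le_br _) k)) _) _

theorem SH.int_G (h : SH F f T) (k : ℕ) : ∫⁻ p in Om3 T, br p.2.2 ^ k * uG F p < ⊤ := by
  rw [gain_La h.hF T _ (measurable_br3 k)]
  have m : Measurable fun z : Z5 => br (cC z).1.2.2 ^ k * bB F z :=
    ((measurable_br3 k).comp (measurable_fst.comp measurable_cC)).mul h.hF.sf_bB
  have e : ∫⁻ z, br z.1.2.2 ^ k * bB F (cC z) ∂La T = ∫⁻ z, br (cC z).1.2.2 ^ k * bB F z ∂La T := by
    rw [← (mp_cC T).lintegral_comp m]
    exact lintegral_congr_ae ((ae_La T).mono fun z hz => by simp only [cC_cC hz])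
  rw [e]
  refine lt_of_le_of_lt (lintegral_mono_ae ((ae_La T).mono fun z hz => ?_)) (h.bB_w k)
  change br (postVel z.1.2.2 z.2.1 z.2.2) ^ k * (uF F z.1 * uF F (cS z).1) ≤
    br z.1.2.2 ^ k * uF F z.1 * (br z.2.1 ^ k * uF F (cS z).1)
  rw [mul_mul_mul_comm, ← mul_pow]
  exact mul_le_mul_left (pow_le_pow_left' (br_postVel _ _ _ hz) k) _

theorem SH.int_F (h : SH F f T) (k : ℕ) : ∫⁻ p in Om3 T, br p.2.2 ^ k * uF F p < ⊤ := by
  rw [lintegral_Om3 T (Ψ := fun p => br p.2.2 ^ k * uF F p) ((measurable_br3 k).mul h.hF.sf_uF)]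
  calc _ ≤ ∫⁻ r in Ioo 0 T ×ˢ cell, (1 + mom k (F r.1 r.2) ^ 2) := by
        refine lintegral_mono fun r => ?_
        have h1 : ∫⁻ v, br v ^ k * F r.1 r.2 v ≤ mom k (F r.1 r.2) :=
          lintegral_mono fun v => mul_le_mul_right le_self_add _
        refine h1.trans ?_
        rcases le_total (mom k (F r.1 r.2)) 1 with c | c
        · exact c.trans le_self_add
        · exact (le_self_pow c two_ne_zero).trans le_add_self
    _ < ⊤ := by
        rw [lintegral_add_left measurable_const, setLIntegral_const, one_mul]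
        exact ENNReal.add_lt_top.2 ⟨vol_base T, h.hI k⟩

theorem soft_wt {U : ℝ × R3 × R3 → ℝ≥0∞} (mU : Measurable U)
    (hU : ∀ k : ℕ, ∫⁻ p in Om3 T, br p.2.2 ^ k * U p < ⊤) {ψ : ℝ × R3 × R3 → ℝ}
    (mψ : Measurable ψ) (hψ : PB T ψ) : IntegrableOn (fun p => (U p).toReal * ψ p) (Om3 T) := by
  obtain ⟨C, k, hC⟩ := hψ
  refine ⟨(mU.ennreal_toReal.mul mψ).aestronglyMeasurable, ?_⟩
  refine lt_of_le_of_lt (setLIntegral_mono' (measurableSet_Om3 T)
    (g := fun p => ENNReal.ofReal C * (br p.2.2 ^ k * U p)) fun p hp => ?_) ?_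
  · rw [enorm_mul, Real.enorm_of_nonneg ENNReal.toReal_nonneg, Real.enorm_eq_ofReal_abs, mul_comm,
      ← mul_assoc]
    refine mul_le_mul' ((ENNReal.ofReal_le_ofReal (hC p hp)).trans (le_of_eq ?_))
      ENNReal.ofReal_toReal_le
    rw [ENNReal.ofReal_mul' (by positivity), ENNReal.ofReal_pow (by positivity)]
    rfl
  · rw [lintegral_const_mul' _ _ ENNReal.ofReal_ne_top]
    exact ENNReal.mul_lt_top ENNReal.ofReal_lt_top (hU k)

theorem PB_one (T : ℝ) : PB T fun _ => 1 := ⟨1, 0, fun _ _ => by simp⟩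

theorem SH.meas_qq (h : SH F f T) : Measurable fun p : ℝ × R3 × R3 => qq F p.1 p.2.1 p.2.2 :=
  h.hF.sf_uG.ennreal_toReal.sub h.hF.sf_uL.ennreal_toReal

theorem SH.meas_tR (h : SH F f T) : Measurable fun p : ℝ × R3 × R3 => tR F p.1 p.2.1 p.2.2 :=
  h.hF.sf_uF.ennreal_toReal

theorem SH.per_qq (h : SH F f T) (t : ℝ) (v : R3) : IsPeriodic3 fun x => qq F t x v :=
  h.hP.sf_comp (fun g => (Qp g g v).toReal - (Nu g v * g v).toReal) t

theorem SH.per_tR (h : SH F f T) (t : ℝ) (v : R3) : IsPeriodic3 fun x => tR F t x v :=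
  h.hP.sf_comp (fun g => (g v).toReal) t

theorem SH.wt_F (h : SH F f T) {ψ : ℝ × R3 × R3 → ℝ} (mψ : Measurable ψ) (hψ : PB T ψ) :
    IntegrableOn (fun p : ℝ × R3 × R3 => tR F p.1 p.2.1 p.2.2 * ψ p) (Om3 T) :=
  soft_wt h.hF.sf_uF h.int_F mψ hψ

theorem SH.wt_qq (h : SH F f T) {ψ : ℝ × R3 × R3 → ℝ} (mψ : Measurable ψ) (hψ : PB T ψ) :
    IntegrableOn (fun p : ℝ × R3 × R3 => qq F p.1 p.2.1 p.2.2 * ψ p) (Om3 T) := by
  have := (soft_wt h.hF.sf_uG h.int_G mψ hψ).sub (soft_wt h.hF.sf_uL h.int_L mψ hψ)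
  refine this.congr (Eventually.of_forall fun p => ?_)
  simp only [qq, Pi.sub_apply, sub_mul]

theorem soft_char_fin {U : ℝ × R3 × R3 → ℝ≥0∞} (mU : Measurable U)
    (pU : ∀ t v, IsPeriodic3 fun x => U (t, x, v)) (hU : ∫⁻ p in Om3 T, U p < ⊤) :
    ∀ᵐ q ∂(volume.restrict C2), ∫⁻ s in Ioo 0 T, U (s, q.1 + s • q.2, q.2) < ⊤ := by
  have m : Measurable fun p : ℝ × R3 × R3 => U (p.1, shr p.1 p.2) := mU.comp (mp_shr3 T).measurable
  rw [← (mp_shr3 T).lintegral_comp mU, lintegral_prod_symm' _ m] at hU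
  refine (ae_lt_top m.lintegral_prod_left' hU.ne).mono fun q hq => ?_
  refine lt_of_eq_of_lt (lintegral_congr fun s => ?_) hq
  exact (per_fr (pU s q.2) _).symm

theorem SH.char (h : SH F f T) : ∀ᵐ q ∂(volume.restrict C2),
    IntegrableOn (fun s => qq F s (q.1 + s • q.2) q.2) (Ioo 0 T) ∧ ∀ t ∈ Icc 0 T,
      tR F t (q.1 + t • q.2) q.2 = tX f q.1 q.2 + ∫ s in Ioo 0 t, qq F s (q.1 + s • q.2) q.2 := by
  have hG := soft_char_fin h.hF.sf_uG (fun t v => h.hP.sf_comp (fun g => Qp g g v) t)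
    (by simpa using h.int_G 0)
  have hL := soft_char_fin h.hF.sf_uL (fun t v => h.hP.sf_comp (fun g => Nu g v * g v) t)
    (by simpa using h.int_L 0)
  filter_upwards [hG, hL, h.hAM] with q hG hL hA
  have m : Measurable fun s : ℝ => (s, q.1 + s • q.2, q.2) := by fun_prop
  have mG : Measurable fun s : ℝ => uG F (s, q.1 + s • q.2, q.2) := h.hF.sf_uG.comp m
  have mL : Measurable fun s : ℝ => uL F (s, q.1 + s • q.2, q.2) := h.hF.sf_uL.comp m
  refine ⟨(integrable_toReal_of_lintegral_ne_top mG.aemeasurable hG.ne).sub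
    (integrable_toReal_of_lintegral_ne_top mL.aemeasurable hL.ne), fun t ht => ?_⟩
  have hG' := ((lintegral_mono_set (Ioo_subset_Ioo_right ht.2)).trans_lt hG).ne
  have hL' := ((lintegral_mono_set (Ioo_subset_Ioo_right ht.2)).trans_lt hL).ne
  have e : (F t (q.1 + t • q.2) q.2 + ∫⁻ s in Ioo 0 t, uL F (s, q.1 + s • q.2, q.2)).toReal =
      (f q.1 q.2 + ∫⁻ s in Ioo 0 t, uG F (s, q.1 + s • q.2, q.2)).toReal :=
    congrArg ENNReal.toReal (hA t ht)
  rw [ENNReal.toReal_add (h.hfin _ _ _) hL', ENNReal.toReal_add (h.hf _ _) hG'] at e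
  unfold qq
  rw [integral_sub (integrable_toReal_of_lintegral_ne_top mG.aemeasurable hG')
    (integrable_toReal_of_lintegral_ne_top mL.aemeasurable hL'),
    integral_toReal mG.aemeasurable (ae_lt_top mG hG'), integral_toReal mL.aemeasurable (ae_lt_top mL hL')]
  unfold tR tX
  linarith

/-- the weak formulation on `[0, T]` -/
theorem SH.prod (h : SH F f T) (hT : 0 ≤ T) {φ D : ℝ → R3 → R3 → ℝ}
    (mφ : Measurable fun p : ℝ × R3 × R3 => φ p.1 p.2.1 p.2.2)
    (mD : Measurable fun p : ℝ × R3 × R3 => D p.1 p.2.1 p.2.2)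
    (pφ : ∀ t v, IsPeriodic3 fun x => φ t x v) (pD : ∀ t v, IsPeriodic3 fun x => D t x v)
    (hd : ∀ y v s, HasDerivAt (fun s : ℝ => φ s (y + s • v) v) (D s (y + s • v) v) s)
    (hc : ∀ y v, Continuous fun s : ℝ => D s (y + s • v) v)
    (bφ : PB T fun p => φ p.1 p.2.1 p.2.2) (bD : PB T fun p => D p.1 p.2.1 p.2.2)
    (i0 : IntegrableOn (fun q : R3 × R3 => tX f q.1 q.2 * φ 0 q.1 q.2) C2) :
    IntegrableOn (fun q : R3 × R3 => tR F T q.1 q.2 * φ T q.1 q.2) C2 ∧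
      ∫ q in C2, tR F T q.1 q.2 * φ T q.1 q.2 = (∫ q in C2, tX f q.1 q.2 * φ 0 q.1 q.2) +
        ∫ p in Om3 T, (tR F p.1 p.2.1 p.2.2 * D p.1 p.2.1 p.2.2 +
          qq F p.1 p.2.1 p.2.2 * φ p.1 p.2.1 p.2.2) := by
  refine soft_integ (u0 := fun x v => tX f x v * φ 0 x v) (u1 := fun x v => tR F T x v * φ T x v)
    (w := fun s x v => tR F s x v * D s x v + qq F s x v * φ s x v)
    ((h.meas_tR.mul mφ).comp (measurable_prodMk_left (x := T))) (fun v x i => ?_)
    ((h.meas_tR.mul mD).add (h.meas_qq.mul mφ)) (fun t v x i => ?_) i0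
    ((h.wt_F mD bD).add (h.wt_qq mφ bφ)) (h.char.mono fun q hq => ?_)
  · exact congrArg₂ (· * ·) (h.per_tR T v x i) (pφ T v x i)
  · exact congrArg₂ (· + ·) (congrArg₂ (· * ·) (h.per_tR t v x i) (pD t v x i))
      (congrArg₂ (· * ·) (h.per_qq t v x i) (pφ t v x i))
  · have := soft_prod hT hq.1 hq.2 (hd q.1 q.2) (hc q.1 q.2)
    rwa [zero_smul, add_zero] at this

theorem bB_cS (F : PF) (z : Z5) : bB F (cS z) = bB F z := mul_comm _ _

/-- symmetrisation -/
theorem SH.sym (h : SH F f T) {l : ℝ × R3 × R3 → ℝ} (ml : Measurable l) (bl : PB T l) :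
    Integrable (fun z => ((bB F (cC z)).toReal - (bB F z).toReal) *
      (l (cC z).1 + l (cS (cC z)).1 - l z.1 - l (cS z).1)) (La T) ∧
    ∫ z, ((bB F (cC z)).toReal - (bB F z).toReal) *
      (l (cC z).1 + l (cS (cC z)).1 - l z.1 - l (cS z).1) ∂La T =
      -4 * ∫ p in Om3 T, qq F p.1 p.2.1 p.2.2 * l p := by
  have hB : ∀ z, bB F z ≠ ⊤ := fun z => ENNReal.mul_ne_top (h.hfin _ _ _) (h.hfin _ _ _)
  have iG := soft_wt h.hF.sf_uG h.int_G ml bl
  have iL := soft_wt h.hF.sf_uL h.int_L ml bl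
  obtain ⟨g1, g2⟩ := soft_tr measurable_fst h.hF.sf_uG (h.hF.sf_bB.comp measurable_cC)
    (ae_lt_top h.hF.sf_uG (by simpa using (h.int_G 0).ne)) (fun z => hB _) (gain_La h.hF T) ml iG
  obtain ⟨l1, l2⟩ := soft_tr measurable_fst h.hF.sf_uL h.hF.sf_bB
    (ae_lt_top h.hF.sf_uL (by simpa using (h.int_L 0).ne)) hB (loss_La h.hF T) ml iL
  obtain ⟨g, hg⟩ : ∃ g : Z5 → ℝ, g = fun z => ((bB F (cC z)).toReal - (bB F z).toReal) * l z.1 :=
    ⟨_, rfl⟩
  have mg : Measurable g := by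
    rw [hg]
    exact ((h.hF.sf_bB.comp measurable_cC).ennreal_toReal.sub h.hF.sf_bB.ennreal_toReal).mul
      (ml.comp measurable_fst)
  have ig : Integrable g (La T) := by
    rw [hg]
    simp only [sub_mul]
    exact g1.sub l1
  have eg : ∫ z, g z ∂La T = ∫ p in Om3 T, qq F p.1 p.2.1 p.2.2 * l p := by
    rw [hg]
    simp only [sub_mul, qq]
    rw [integral_sub iG iL, g2, l2]
    exact integral_sub g1 l1
  have i1 : Integrable (fun z => g (cC z)) (La T) := (mp_cC T).integrable_comp_of_integrable ig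
  have i2 : Integrable (fun z => g (cS (cC z))) (La T) :=
    ((mp_cS T).comp (mp_cC T)).integrable_comp_of_integrable ig
  have i3 : Integrable (fun z => g (cS z)) (La T) := (mp_cS T).integrable_comp_of_integrable ig
  have e : (fun z => -(g (cC z) + g (cS (cC z)) + g z + g (cS z))) =ᵐ[La T]
      fun z => ((bB F (cC z)).toReal - (bB F z).toReal) *
        (l (cC z).1 + l (cS (cC z)).1 - l z.1 - l (cS z).1) := by
    refine (ae_La T).mono fun z hz => ?_
    simp only [hg, cC_cS, bB_cS, cC_cC hz]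
    ring
  refine ⟨(((i1.add i2).add ig).add i3).neg.congr e, ?_⟩
  have e2 := soft_mp_int ((mp_cS T).comp (mp_cC T)) mg
  simp only [Function.comp_apply] at e2
  have i4 : Integrable (fun z => g (cC z) + g (cS (cC z))) (La T) := i1.add i2
  have i5 : Integrable (fun z => g (cC z) + g (cS (cC z)) + g z) (La T) := i4.add ig
  rw [← integral_congr_ae e, integral_neg, integral_add i5 i3,
    integral_add i4 ig, integral_add i1 i2, soft_mp_int (mp_cC T) mg, e2,
    soft_mp_int (mp_cS T) mg, eg]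
  ring

/-- collision invariants -/
theorem SH.inv (h : SH F f T) {l : ℝ × R3 × R3 → ℝ} (ml : Measurable l) (bl : PB T l)
    (hl : ∀ s x v a ω, ‖ω‖ = 1 →
      l (s, x, postVel v a ω) + l (s, x, postVelStar v a ω) = l (s, x, v) + l (s, x, a)) :
    ∫ p in Om3 T, qq F p.1 p.2.1 p.2.2 * l p = 0 := by
  have h1 := (h.sym ml bl).2
  rw [integral_eq_zero_of_ae ((ae_La T).mono fun z hz => ?_)] at h1
  · linarith
  · have := hl z.1.1 z.1.2.1 z.1.2.2 z.2.1 z.2.2 hz
    refine mul_eq_zero_of_right _ ?_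
    change l (z.1.1, z.1.2.1, postVel z.1.2.2 z.2.1 z.2.2) +
      l (z.1.1, z.1.2.1, postVelStar z.1.2.2 z.2.1 z.2.2) - l (z.1.1, z.1.2.1, z.1.2.2) -
      l (z.1.1, z.1.2.1, z.2.1) = 0
    linarith

end integ

end

end Crest.Agent.R68.Sf
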