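import Crest.Agent.R68.Soft3

/-!
# R68 (S0091), Soft4: weak formulation and conservation laws
-/

set_option autoImplicit false

namespace Crest.Agent.R68.Sf

open MeasureTheory Set Filter Crest.AnalysisR.VecCalc3 Crest.AnalysisR.PDE.Boltzmann
open scoped ENNReal _root_.Topology

noncomputable section

section transport

variable {φ : ℝ → R3 → R3 → ℝ}

theorem transportD_eq (h : Differentiable ℝ fun p : ℝ × R3 × R3 => φ p.1 p.2.1 p.2.2) (t : ℝ)
    (x v : R3) : transportD φ t x v =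
      fderiv ℝ (fun p : ℝ × R3 × R3 => φ p.1 p.2.1 p.2.2) (t, x, v) (1, v, 0) := by
  have hL := (h (t, x, v)).hasFDerivAt
  generalize fderiv ℝ (fun p : ℝ × R3 × R3 => φ p.1 p.2.1 p.2.2) (t, x, v) = L at hL
  have h1 : HasDerivAt (fun s => φ s x v) (L (1, 0, 0)) t :=
    hL.comp_hasDerivAt (f := fun s : ℝ => (s, x, v)) t
      ((hasDerivAt_id t).prodMk (hasDerivAt_const t (x, v)))
  have h2 : HasFDerivAt (fun y => φ t y v)
      (L.comp ((0 : R3 →L[ℝ] ℝ).prod ((ContinuousLinearMap.id ℝ R3).prod 0))) x :=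
    hL.comp (f := fun y : R3 => (t, y, v)) x
      ((hasFDerivAt_const t x).prodMk ((hasFDerivAt_id x).prodMk (hasFDerivAt_const v x)))
  have e : ((1, v, 0) : ℝ × R3 × R3) =
      (1, 0, 0) + ∑ i : Fin 3, v i • ((0, EuclideanSpace.single i 1, 0) : ℝ × R3 × R3) := by
    rw [Fin.sum_univ_three]
    refine Prod.ext (by simp) (Prod.ext ?_ (by simp))
    ext j
    fin_cases j <;> simp
  unfold transportD pderiv
  rw [h1.deriv, h2.fderiv, e, map_add, map_sum]
  simp only [map_smul, smul_eq_mul]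
  rfl

theorem hasDerivAt_char (h : Differentiable ℝ fun p : ℝ × R3 × R3 => φ p.1 p.2.1 p.2.2)
    (y v : R3) (s : ℝ) :
    HasDerivAt (fun s : ℝ => φ s (y + s • v) v) (transportD φ s (y + s • v) v) s := by
  rw [transportD_eq h]
  refine (h (s, y + s • v, v)).hasFDerivAt.comp_hasDerivAt (f := fun s : ℝ => (s, y + s • v, v)) s
    ((hasDerivAt_id s).prodMk (HasDerivAt.prodMk ?_ (hasDerivAt_const s v)))
  simpa using ((hasDerivAt_id s).smul_const v).const_add y

theorem transportD_unique (h : Differentiable ℝ fun p : ℝ × R3 × R3 => φ p.1 p.2.1 p.2.2) {t d : ℝ}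
    {x v : R3} (hd : HasDerivAt (fun s : ℝ => φ s (x - t • v + s • v) v) d t) :
    transportD φ t x v = d := by
  have := (hasDerivAt_char h (x - t • v) v t).unique hd
  rwa [sub_add_cancel] at this

theorem continuous_transportD (h : ContDiff ℝ 1 fun p : ℝ × R3 × R3 => φ p.1 p.2.1 p.2.2) :
    Continuous fun p : ℝ × R3 × R3 => transportD φ p.1 p.2.1 p.2.2 := by
  simp only [transportD_eq (h.differentiable one_ne_zero)]
  exact (h.continuous_fderiv one_ne_zero).clm_apply (by fun_prop)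

theorem per_transportD (h : Differentiable ℝ fun p : ℝ × R3 × R3 => φ p.1 p.2.1 p.2.2)
    (hp : ∀ t v, IsPeriodic3 fun x => φ t x v) (t : ℝ) (v : R3) :
    IsPeriodic3 fun x => transportD φ t x v := by
  intro x i
  refine transportD_unique h ?_
  have h1 := hasDerivAt_char h (x - t • v) v t
  rw [sub_add_cancel] at h1
  refine h1.congr_of_eventuallyEq (Eventually.of_forall fun s => ?_)
  have := hp s v (x - t • v + s • v) i
  simp only at this ⊢
  rw [← this]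
  congr 1
  abel

theorem transportD_zero (h : Differentiable ℝ fun p : ℝ × R3 × R3 => φ p.1 p.2.1 p.2.2) {t : ℝ}
    {x v : R3} (h0 : ∀ᶠ s in 𝓝 t, ∀ y, φ s y v = 0) : transportD φ t x v = 0 :=
  transportD_unique h ((hasDerivAt_const t 0).congr_of_eventuallyEq (h0.mono fun _ hs => hs _))

end transport

/-- polynomially bounded on the closed time interval -/
def PBc (T : ℝ) (ψ : ℝ × R3 × R3 → ℝ) : Prop :=
  ∃ (C : ℝ) (k : ℕ), ∀ p : ℝ × R3 × R3, p.1 ∈ Icc 0 T → p.2.1 ∈ cell → |ψ p| ≤ C * (1 + ‖p.2.2‖) ^ k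

theorem PBc.pb {T : ℝ} {ψ : ℝ × R3 × R3 → ℝ} (h : PBc T ψ) : PB T ψ := by
  obtain ⟨C, k, h⟩ := h
  exact ⟨C, k, fun p hp => h p (Ioo_subset_Icc_self hp.1) hp.2.1⟩

theorem PBc.mul {T : ℝ} {ψ χ : ℝ × R3 × R3 → ℝ} (h : PBc T ψ) (h' : PBc T χ) :
    PBc T fun p => ψ p * χ p := by
  obtain ⟨C, k, h⟩ := h
  obtain ⟨C', k', h'⟩ := h'
  refine ⟨C * C', k + k', fun p h1 h2 => ?_⟩
  rw [abs_mul, pow_add, mul_mul_mul_comm]
  exact mul_le_mul (h p h1 h2) (h' p h1 h2) (abs_nonneg _) ((abs_nonneg _).trans (h p h1 h2))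

theorem cell_subset : cell ⊆ Metric.closedBall (0 : R3) 2 := by
  intro x hx
  rw [mem_closedBall_zero_iff]
  refine le_of_pow_le_pow_left₀ two_ne_zero (by norm_num) ?_
  rw [EuclideanSpace.real_norm_sq_eq, Fin.sum_univ_three]
  nlinarith [(hx 0).1, (hx 0).2, (hx 1).1, (hx 1).2, (hx 2).1, (hx 2).2]

theorem PBc_of_cont (T : ℝ) {u : ℝ × R3 × R3 → ℝ} (hu : Continuous u) {R : ℝ}
    (h0 : ∀ p : ℝ × R3 × R3, R ≤ ‖p.2.2‖ → u p = 0) : PBc T u := by
  obtain ⟨C, hC⟩ := ((isCompact_Icc (a := (0 : ℝ)) (b := T)).prod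
    ((isCompact_closedBall (0 : R3) 2).prod (isCompact_closedBall (0 : R3) R))).exists_bound_of_continuousOn
    hu.continuousOn
  refine ⟨max C 0, 0, fun p h1 h2 => ?_⟩
  rw [pow_zero, mul_one]
  rcases le_total R ‖p.2.2‖ with c | c
  · rw [h0 p c, abs_zero]
    exact le_max_right _ _
  · exact (hC p ⟨h1, cell_subset h2, mem_closedBall_zero_iff.2 c⟩).trans (le_max_left _ _)

theorem bdd_base (T : ℝ) {E : Type*} [NormedAddCommGroup E] {u : ℝ × R3 → E} (hu : Continuous u) :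
    ∃ C : ℝ, ∀ t x, t ∈ Icc 0 T → x ∈ cell → ‖u (t, x)‖ ≤ C := by
  obtain ⟨C, hC⟩ := ((isCompact_Icc (a := (0 : ℝ)) (b := T)).prod
    (isCompact_closedBall (0 : R3) 2)).exists_bound_of_continuousOn hu.continuousOn
  exact ⟨C, fun t x h1 h2 => hC (t, x) ⟨h1, cell_subset h2⟩⟩

theorem adm_int {g : R3 → R3 → ℝ} {R : ℝ} (h : IsAdmissibleDatum g R) :
    IntegrableOn (fun q : R3 × R3 => g q.1 q.2) C2 := by
  obtain ⟨h1, h2, -, -, h3⟩ := h
  refine ⟨h1.aestronglyMeasurable, lt_of_le_of_lt (lintegral_mono fun q => ?_) h3⟩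
  rw [Real.enorm_of_nonneg (h2 _ _)]
  refine ENNReal.ofReal_le_ofReal (le_mul_of_one_le_right (h2 _ _) ?_)
  linarith [sq_nonneg ‖q.2‖, abs_nonneg (Real.log (g q.1 q.2))]

theorem adm_wt {g : R3 → R3 → ℝ} {R T : ℝ} (h : IsAdmissibleDatum g R) (hT : 0 ≤ T)
    {ψ : ℝ × R3 × R3 → ℝ} (mψ : Measurable ψ) (hψ : PBc T ψ) :
    IntegrableOn (fun q : R3 × R3 => g q.1 q.2 * ψ (0, q)) C2 := by
  obtain ⟨C, k, hC⟩ := hψ
  refine Integrable.mono' ((adm_int h).mul_const (|C| * (1 + |R|) ^ k))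
    (h.1.mul (mψ.comp measurable_prodMk_left)).aestronglyMeasurable
    (ae_restrict_of_forall_mem measurableSet_C2 fun q hq => ?_)
  rw [Real.norm_eq_abs, abs_mul, abs_of_nonneg (h.2.1 _ _)]
  rcases le_total R ‖q.2‖ with c | c
  · rw [h.2.2.2.1 _ _ c, zero_mul, zero_mul]
  · refine mul_le_mul_of_nonneg_left ((hC (0, q) ⟨le_rfl, hT⟩ hq.1).trans ?_) (h.2.1 _ _)
    exact mul_le_mul (le_abs_self C) (pow_le_pow_left₀ (by positivity)
      (by linarith [le_abs_self R]) k) (by positivity) (abs_nonneg _)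

theorem region_red {w : ℝ × R3 × R3 → ℝ} {T : ℝ} (h0 : ∀ p : ℝ × R3 × R3, T ≤ p.1 → w p = 0) :
    (IntegrableOn w (Om3 T) → IntegrableOn w region) ∧ ∫ p in region, w p = ∫ p in Om3 T, w p := by
  have hm : MeasurableSet region := measurableSet_Ioi.prod measurableSet_C2
  have h : ∀ p ∈ region \ Om3 T, w p = 0 := fun p hp =>
    h0 p (not_lt.1 fun c => hp.2 ⟨⟨hp.1.1, c⟩, hp.1.2⟩)
  exact ⟨fun hi => hi.of_forall_sdiff_eq_zero hm h,
    setIntegral_eq_of_subset_of_forall_sdiff_eq_zero hm (fun p hp => ⟨hp.1.1, hp.2⟩) h⟩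

section main

variable {F : PF} {f : XF} {R T : ℝ}

theorem SH.coll (h : SH F f T) (t : ℝ) (x v : R3) :
    (collGain (tR F) t x v).toReal - (collLoss (tR F) t x v).toReal = qq F t x v := by
  rw [collGain_eq (h.hfin t x), collLoss_eq (h.hF.slice t x) (h.hfin t x)]
  rfl

theorem soft_weak (h : ∀ T, SH F f T) (hadm : IsAdmissibleDatum (tX f) R) :
    IsWeakSolution (tR F) (tX f) := by
  rintro φ ⟨hs, hp, T0, R0, h0⟩
  have h1 : ContDiff ℝ 1 fun p : ℝ × R3 × R3 => φ p.1 p.2.1 p.2.2 := hs.of_le (by simp)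
  have hd := h1.differentiable one_ne_zero
  have cD := continuous_transportD h1
  obtain ⟨T, hT, hT0⟩ : ∃ T : ℝ, 0 ≤ T ∧ T0 < T :=
    ⟨max T0 0 + 1, by linarith [le_max_right T0 0], by linarith [le_max_left T0 0]⟩
  have bφ : PBc T fun p => φ p.1 p.2.1 p.2.2 :=
    PBc_of_cont T h1.continuous fun p c => h0 _ _ _ (Or.inr c)
  have bD : PBc T fun p => transportD φ p.1 p.2.1 p.2.2 :=
    PBc_of_cont T cD fun p c => transportD_zero hd
      (Eventually.of_forall fun s y => h0 _ _ _ (Or.inr c))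
  have z1 : ∀ p : ℝ × R3 × R3, T ≤ p.1 → φ p.1 p.2.1 p.2.2 = 0 := fun p c =>
    h0 _ _ _ (Or.inl (by linarith))
  have z2 : ∀ p : ℝ × R3 × R3, T ≤ p.1 → transportD φ p.1 p.2.1 p.2.2 = 0 := fun p c =>
    transportD_zero hd ((eventually_gt_nhds (hT0.trans_le c)).mono fun s hs y =>
      h0 _ _ _ (Or.inl hs.le))
  have i0 := adm_wt hadm hT h1.continuous.measurable bφ
  have e := ((h T).prod hT h1.continuous.measurable cD.measurable hp (per_transportD hd hp)
    (hasDerivAt_char hd) (fun y v => cD.comp (f := fun s : ℝ => (s, y + s • v, v)) (by fun_prop))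
    bφ.pb bD.pb i0).2
  simp only [(h T).coll]
  refine ⟨(region_red fun p c => by rw [z2 p c, mul_zero]).1 ((h T).wt_F cD.measurable bD.pb),
    (region_red fun p c => by rw [z1 p c, mul_zero]).1
      ((h T).wt_qq h1.continuous.measurable bφ.pb), i0, ?_⟩
  rw [(region_red (T := T) fun p c => by rw [z1 p c, z2 p c, mul_zero, mul_zero, add_zero]).2,
    add_comm, ← e]
  simp only [h0 T _ _ (Or.inl hT0.le), mul_zero, integral_zero]

/-- collision invariants -/
structure CI (ψ : R3 → ℝ) : Prop where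
  cont : Continuous ψ
  bd : ∀ v, |ψ v| ≤ (1 + ‖v‖) ^ 2
  inv : ∀ v a ω, ‖ω‖ = 1 → ψ (postVel v a ω) + ψ (postVelStar v a ω) = ψ v + ψ a

theorem CI_one : CI fun _ => 1 :=
  ⟨continuous_const, fun v => by rw [abs_one]; exact one_le_pow₀ (by linarith [norm_nonneg v]),
    fun _ _ _ _ => rfl⟩

theorem CI_coord (i : Fin 3) : CI fun v => v i :=
  ⟨by fun_prop, fun v => (PiLp.norm_apply_le v i).trans (by nlinarith [norm_nonneg v]),
    fun v a ω _ => by simp [postVel, postVelStar]⟩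

theorem CI_sq : CI fun v => ‖v‖ ^ 2 :=
  ⟨by fun_prop, fun v => by rw [abs_of_nonneg (sq_nonneg _)]; nlinarith [norm_nonneg v],
    fun v a ω hω => coll_energy v a ω hω⟩

theorem CI_sq' : CI fun v => ‖v‖ ^ 2 / 2 :=
  ⟨by fun_prop, fun v => by rw [abs_of_nonneg (by positivity)]; nlinarith [norm_nonneg v],
    fun v a ω hω => by linarith [coll_energy v a ω hω]⟩

theorem CI.pbc {ψ : R3 → ℝ} (h : CI ψ) (T : ℝ) : PBc T fun p => ψ p.2.2 :=
  ⟨1, 2, fun p _ _ => by rw [one_mul]; exact h.bd _⟩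

theorem SH.moment (h : SH F f T) (hT : 0 ≤ T) (hadm : IsAdmissibleDatum (tX f) R) {ψ : R3 → ℝ}
    (hψ : CI ψ) : IntegrableOn (fun q : R3 × R3 => tR F T q.1 q.2 * ψ q.2) C2 ∧
      IntegrableOn (fun q : R3 × R3 => tX f q.1 q.2 * ψ q.2) C2 ∧
      ∫ q in C2, tR F T q.1 q.2 * ψ q.2 = ∫ q in C2, tX f q.1 q.2 * ψ q.2 := by
  have m : Measurable fun p : ℝ × R3 × R3 => ψ p.2.2 :=
    hψ.cont.measurable.comp (measurable_snd.comp measurable_snd)
  have i0 := adm_wt hadm hT m (hψ.pbc T)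
  obtain ⟨h1, h2⟩ := h.prod hT (φ := fun _ _ v => ψ v) (D := fun _ _ _ => 0) m measurable_const
    (fun _ _ _ _ => rfl) (fun _ _ _ _ => rfl) (fun y v s => hasDerivAt_const s _)
    (fun _ _ => continuous_const) (hψ.pbc T).pb ⟨0, 0, fun _ _ => by simp⟩ i0
  refine ⟨h1, i0, ?_⟩
  simp only [mul_zero, zero_add] at h2
  rw [h2, h.inv m (hψ.pbc T).pb fun s x v a ω hω => hψ.inv v a ω hω, add_zero]

theorem soft_local (h : ∀ T, SH F f T) (hadm : IsAdmissibleDatum (tX f) R) :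
    HasLocalConservation (tR F) (tX f) := by
  rintro ψ hψ ϕ hs hp ⟨T0, h0⟩
  have hψ : CI ψ := by
    rcases hψ with rfl | ⟨i, rfl⟩ | rfl
    exacts [CI_one, CI_coord i, CI_sq']
  have h2 : ContDiff ℝ 1 fun p : ℝ × R3 => ϕ p.1 p.2 := hs.of_le (by simp)
  have h1 : ContDiff ℝ 1 fun p : ℝ × R3 × R3 => (fun t x (_ : R3) => ϕ t x) p.1 p.2.1 p.2.2 :=
    h2.comp (f := fun p : ℝ × R3 × R3 => (p.1, p.2.1)) (by fun_prop)
  have hd := h1.differentiable one_ne_zero
  have cD := continuous_transportD (φ := fun t x _ => ϕ t x) h1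
  obtain ⟨T, hT, hT0⟩ : ∃ T : ℝ, 0 ≤ T ∧ T0 < T :=
    ⟨max T0 0 + 1, by linarith [le_max_right T0 0], by linarith [le_max_left T0 0]⟩
  have m : Continuous fun p : ℝ × R3 × R3 => ψ p.2.2 :=
    hψ.cont.comp (continuous_snd.comp continuous_snd)
  have bφ : PBc T fun p => ψ p.2.2 * ϕ p.1 p.2.1 := by
    obtain ⟨C, hC⟩ := bdd_base T h2.continuous
    exact (hψ.pbc T).mul ⟨C, 0, fun p h1 h2 => by rw [pow_zero, mul_one]; exact hC _ _ h1 h2⟩
  have bD : PBc T fun p => ψ p.2.2 * transportD (fun t x _ => ϕ t x) p.1 p.2.1 p.2.2 := by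
    obtain ⟨C, hC⟩ := bdd_base T (h2.continuous_fderiv one_ne_zero)
    refine (hψ.pbc T).mul ⟨C, 1, fun p h3 h4 => ?_⟩
    have e : transportD (fun t x _ => ϕ t x) p.1 p.2.1 p.2.2 =
        fderiv ℝ (fun p : ℝ × R3 => ϕ p.1 p.2) (p.1, p.2.1) (1, p.2.2) := by
      refine transportD_unique (φ := fun t x _ => ϕ t x) hd ?_
      have h5 := (h2.differentiable one_ne_zero
        (p.1, p.2.1 - p.1 • p.2.2 + p.1 • p.2.2)).hasFDerivAt.comp_hasDerivAt
        (f := fun s : ℝ => (s, p.2.1 - p.1 • p.2.2 + s • p.2.2)) p.1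
        ((hasDerivAt_id p.1).prodMk (((hasDerivAt_id p.1).smul_const p.2.2).const_add _))
      rw [sub_add_cancel, one_smul] at h5
      exact h5
    beta_reduce
    rw [e, pow_one]
    refine (ContinuousLinearMap.le_opNorm _ _).trans (mul_le_mul (hC _ _ h3 h4) ?_ (norm_nonneg _)
      ((norm_nonneg _).trans (hC _ _ h3 h4)))
    rw [Prod.norm_def, norm_one]
    exact max_le (by linarith [norm_nonneg p.2.2]) (by linarith)
  have z2 : ∀ p : ℝ × R3 × R3, T ≤ p.1 → transportD (fun t x _ => ϕ t x) p.1 p.2.1 p.2.2 = 0 :=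
    fun p c => transportD_zero (φ := fun t x _ => ϕ t x) hd ((eventually_gt_nhds (hT0.trans_le c)).mono fun s hs y =>
      h0 _ _ hs.le)
  have mφ : Measurable fun p : ℝ × R3 × R3 => ψ p.2.2 * ϕ p.1 p.2.1 :=
    (m.mul h1.continuous).measurable
  have i0 := adm_wt hadm hT mφ bφ
  have e := ((h T).prod hT (φ := fun t x v => ψ v * ϕ t x)
    (D := fun t x v => ψ v * transportD (fun t x _ => ϕ t x) t x v) mφ (m.mul cD).measurable
    (fun t v x i => congrArg (ψ v * ·) (hp t x i))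
    (fun t v x i => congrArg (ψ v * ·) (per_transportD (φ := fun t x _ => ϕ t x) hd (fun t _ => hp t) t v x i))
    (fun y v s => (hasDerivAt_char (φ := fun t x _ => ϕ t x) hd y v s).const_mul (ψ v))
    (fun y v => (m.mul cD).comp (f := fun s : ℝ => (s, y + s • v, v)) (by fun_prop))
    bφ.pb bD.pb i0).2
  have iF := (h T).wt_F (ψ := fun p => ψ p.2.2 * transportD (fun t x _ => ϕ t x) p.1 p.2.1 p.2.2)
    (m.mul cD).measurable bD.pb
  rw [integral_add iF ((h T).wt_qq mφ bφ.pb), (h T).inv mφ bφ.pb fun s x v a ω hω => by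
    simp only [← add_mul, hψ.inv v a ω hω], add_zero] at e
  simp only [mul_assoc]
  refine ⟨(region_red fun p c => by rw [z2 p c, mul_zero, mul_zero]).1 iF, i0, ?_⟩
  rw [(region_red (T := T) fun p c => by rw [z2 p c, mul_zero, mul_zero]).2, add_comm, ← e]
  simp only [h0 T _ hT0.le, mul_zero, integral_zero]

end main

end

end Crest.Agent.R68.Sf
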